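import Crest.Agent.R109.NrmCut

/-!
# Row 109: the intertwining lemma
-/

open Filter Topology
open scoped InnerProductSpace BigOperators ComplexOrder

set_option linter.unusedSectionVars false

namespace Crest.Agent.R109

noncomputable section

open Classical

variable {H : Type*} [NormedAddCommGroup H] [InnerProductSpace ℂ H] [CompleteSpace H]
  {X : Type*} [TopologicalSpace X] [CompactSpace X] [T2Space X] [ExtremallyDisconnected X]

/-- a real function as a complex function -/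
def atomC (f : C(X, ℝ)) : C(X, ℂ) := ⟨fun t => (f t : ℂ), by fun_prop⟩

/-- the real part of a complex function -/
def atomR (f : C(X, ℂ)) : C(X, ℝ) := ⟨fun t => (f t).re, by fun_prop⟩

@[simp] theorem atomC_apply (f : C(X, ℝ)) (t : X) : atomC f t = (f t : ℂ) := rfl
@[simp] theorem atomR_apply (f : C(X, ℂ)) (t : X) : atomR f t = (f t).re := rfl

theorem atomC_atomR {f : C(X, ℂ)} (hf : ∀ t, 0 ≤ f t) : atomC (atomR f) = f := by
  ext t
  have := (Complex.nonneg_iff.1 (hf t)).2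
  apply Complex.ext <;> simp [this]

theorem atom_ind_nonneg {U : Set X} (hU : IsClopen U) (t : X) : 0 ≤ ind U t := by
  rw [ind_apply hU]; split_ifs <;> simp

theorem atomR_ind {U : Set X} (hU : IsClopen U) (t : X) :
    atomR (ind U) t = if t ∈ U then 1 else 0 := by
  rw [atomR_apply, ind_apply hU]; split_ifs <;> simp

theorem atom_fiber_clopen (Q : DiscreteQuotient X) (K : Q) : IsClopen (Q.proj ⁻¹' {K}) :=
  Q.isClopen_preimage {K}

namespace Std
variable (S : Std H X)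

/-- the state on real functions -/
def atomOm (f : C(X, ℝ)) : ℝ := (S.φ (S.ρ (atomC f))).re

theorem atomOm_add (f g : C(X, ℝ)) : S.atomOm (f + g) = S.atomOm f + S.atomOm g := by
  have : atomC (f + g) = atomC f + atomC g := by ext t; simp
  simp [atomOm, this, φ]

theorem atomOm_smul (a : ℝ) (f : C(X, ℝ)) : S.atomOm (a • f) = a * S.atomOm f := by
  have : atomC (a • f) = (a : ℂ) • atomC f := by ext t; simp
  rw [atomOm, atomOm, this, map_smul, φ, φ, _root_.smul_apply, inner_smul_right]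
  simp

theorem atomOm_zero : S.atomOm 0 = 0 := by
  simpa using S.atomOm_smul 0 0

theorem atomOm_sub (f g : C(X, ℝ)) : S.atomOm (f - g) = S.atomOm f - S.atomOm g := by
  have := S.atomOm_add (f - g) g
  rw [sub_add_cancel] at this
  linarith

theorem atomOm_sum {ι : Type*} (s : Finset ι) (f : ι → C(X, ℝ)) :
    S.atomOm (∑ i ∈ s, f i) = ∑ i ∈ s, S.atomOm (f i) := by
  induction s using Finset.induction_on with
  | empty => simp [atomOm_zero]
  | insert i s hi ih => rw [Finset.sum_insert hi, Finset.sum_insert hi, atomOm_add, ih]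

theorem atomOm_mono {f g : C(X, ℝ)} (h : ∀ t, f t ≤ g t) : S.atomOm f ≤ S.atomOm g := by
  have h1 : 0 ≤ S.φ (S.ρ (atomC (g - f))) := S.φ_ρ_nonneg fun t => by
    have := h t
    simp only [atomC_apply, ContinuousMap.sub_apply]
    exact_mod_cast sub_nonneg.2 this
  have h2 : 0 ≤ S.atomOm (g - f) := (Complex.nonneg_iff.1 h1).1
  rw [atomOm_sub] at h2
  linarith

theorem atomOm_ind_pos {U : Set X} (hU : IsClopen U) (hne : U.Nonempty) :
    0 < S.atomOm (atomR (ind U)) := by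
  rw [atomOm, atomC_atomR (atom_ind_nonneg hU)]
  exact S.φ_p_pos hU hne

theorem atomOm_ge {U : Set X} (hU : IsClopen U) {f : C(X, ℝ)} {a : ℝ} (h0 : ∀ t, 0 ≤ f t)
    (h : ∀ t ∈ U, a ≤ f t) : a * S.atomOm (atomR (ind U)) ≤ S.atomOm f := by
  rw [← atomOm_smul]
  refine S.atomOm_mono fun t => ?_
  rw [ContinuousMap.smul_apply, atomR_ind hU]
  split_ifs with ht
  · simpa using h t ht
  · simpa using h0 t

theorem atom_norm_sq {f : C(X, ℂ)} (hf : ∀ t, 0 ≤ f t) :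
    ‖S.ρ f S.ξ‖ ^ 2 = S.atomOm (atomR f * atomR f) := by
  rw [norm_apply_sq_eq, ← map_star, ← map_mul, atomOm, φ]
  congr 4
  conv_lhs => rw [← atomC_atomR hf]
  ext t
  simp

/-- decreasing nets have a normal infimum -/
theorem atom_exists_lim (f : DiscreteQuotient X → C(X, ℝ)) {C : ℝ}
    (h0 : ∀ Q t, 0 ≤ f Q t) (hC : ∀ Q t, f Q t ≤ C) (hC0 : 0 ≤ C)
    (hanti : ∀ Q Q', Q ≤ Q' → ∀ t, f Q t ≤ f Q' t) :
    ∃ g : C(X, ℝ), (∀ Q t, g t ≤ f Q t) ∧
      Tendsto (fun Q => S.atomOm (f Q)) (UF X) (𝓝 (S.atomOm g)) := by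
  obtain ⟨g, hg⟩ := S.exists_limA (UF X) (fun Q => atomC (f Q)) (C := C) fun Q => by
    rw [ContinuousMap.norm_le _ hC0]
    intro t
    rw [atomC_apply, Complex.norm_real, Real.norm_of_nonneg (h0 Q t)]
    exact hC Q t
  have hg0 : ∀ t, 0 ≤ g t := fun t =>
    S.ge_of_WL (b := 0) hg (Eventually.of_forall fun Q t => by
      simp only [ContinuousMap.zero_apply, atomC_apply]
      exact_mod_cast h0 Q t) t
  refine ⟨atomR g, fun Q t => ?_, ?_⟩
  · have := S.le_of_WL (b := atomC (f Q)) hg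
      (UF_le ((eventually_le_atBot Q).mono fun Q' hQ' t => by
        simp only [atomC_apply]
        exact_mod_cast hanti Q' Q hQ' t)) t
    simpa using (Complex.le_def.1 this).1
  · unfold atomOm
    rw [atomC_atomR hg0]
    exact (Complex.continuous_re.tendsto _).comp (hg S.ξ S.ξ)

/-- the positive function `E (κ⋆ p_U κ)` -/
def al (κ : H →L[ℂ] H) (U : Set X) : C(X, ℂ) := S.E (star κ * S.p U * κ)

theorem atom_conj_mem {κ : H →L[ℂ] H} (hκ : κ ∈ S.M) (U : Set X) : star κ * S.p U * κ ∈ S.M :=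
  mul_mem (mul_mem (star_mem hκ) (S.p_mem U)) hκ

theorem al_nonneg {κ : H →L[ℂ] H} (hκ : κ ∈ S.M) (U : Set X) (t : X) : 0 ≤ S.al κ U t :=
  S.E_nonneg (S.atom_conj_mem hκ U)
    (star_left_conjugate_nonneg (S.isStarProjection_p U).nonneg κ) t

theorem al_union {κ : H →L[ℂ] H} (hκ : κ ∈ S.M) {U V : Set X} (hU : IsClopen U) (hV : IsClopen V)
    (hd : Disjoint U V) : S.al κ (U ∪ V) = S.al κ U + S.al κ V := by
  have h1 : ind (U ∪ V) = ind U + ind V := by
    ext t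
    rw [ContinuousMap.add_apply, ind_apply (hU.union hV), ind_apply hU, ind_apply hV]
    have : t ∈ U → t ∉ V := fun h => Set.disjoint_left.1 hd h
    by_cases h1 : t ∈ U <;> by_cases h2 : t ∈ V <;> simp_all
  have h2 : S.p (U ∪ V) = S.p U + S.p V := by simp only [Setup.p, h1, map_add]
  unfold al
  rw [h2, mul_add, add_mul, S.E_add (S.atom_conj_mem hκ U) (S.atom_conj_mem hκ V)]

theorem al_mono {κ : H →L[ℂ] H} (hκ : κ ∈ S.M) {U V : Set X} (hU : IsClopen U) (hV : IsClopen V)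
    (h : U ⊆ V) (t : X) : S.al κ U t ≤ S.al κ V t := by
  have h1 := S.al_union hκ hU (hV.diff hU) Set.disjoint_sdiff_right
  rw [Set.union_sdiff_cancel h] at h1
  rw [h1, ContinuousMap.add_apply]
  exact le_add_of_nonneg_right (S.al_nonneg hκ _ t)

theorem al_re_nonneg {κ : H →L[ℂ] H} (hκ : κ ∈ S.M) (U : Set X) (t : X) : 0 ≤ (S.al κ U t).re :=
  (Complex.nonneg_iff.1 (S.al_nonneg hκ U t)).1

theorem al_re_mono {κ : H →L[ℂ] H} (hκ : κ ∈ S.M) {U V : Set X} (hU : IsClopen U)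
    (hV : IsClopen V) (h : U ⊆ V) (t : X) : (S.al κ U t).re ≤ (S.al κ V t).re :=
  (Complex.le_def.1 (S.al_mono hκ hU hV h t)).1

theorem al_re_le {κ : H →L[ℂ] H} (hκ : κ ∈ S.M) (U : Set X) (t : X) :
    (S.al κ U t).re ≤ ‖κ‖ ^ 2 := by
  refine (Complex.re_le_norm _).trans (((S.al κ U).norm_coe_le_norm t).trans
    ((S.norm_E_le (S.atom_conj_mem hκ U)).trans ?_))
  calc ‖star κ * S.p U * κ‖ ≤ ‖star κ‖ * ‖S.p U‖ * ‖κ‖ :=
        (norm_mul_le _ _).trans (mul_le_mul_of_nonneg_right (norm_mul_le _ _) (norm_nonneg _))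
    _ ≤ ‖κ‖ * 1 * ‖κ‖ := by
        rw [norm_star]
        gcongr
        exact S.norm_p_le U
    _ = ‖κ‖ ^ 2 := by ring

theorem al_preimage {κ : H →L[ℂ] H} (hκ : κ ∈ S.M) {ι : Type*} [Fintype ι] {a : X → ι}
    (ha : IsLocallyConstant a) (s : Set ι) :
    S.al κ (a ⁻¹' s) = ∑ i ∈ Finset.univ.filter (· ∈ s), S.al κ (a ⁻¹' {i}) := by
  unfold al
  rw [S.p_preimage ha s, Finset.mul_sum, Finset.sum_mul,
    S.E_sum _ fun i _ => S.atom_conj_mem hκ _]

theorem sum_al_re_le {κ : H →L[ℂ] H} (hκ : κ ∈ S.M) (Q : DiscreteQuotient X) (t : X) :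
    ∑ K : Q, (S.al κ (Q.proj ⁻¹' {K}) t).re ≤ ‖κ‖ ^ 2 := by
  have h := S.al_preimage hκ Q.proj_isLocallyConstant Set.univ
  have h2 := S.al_re_le hκ (Q.proj ⁻¹' Set.univ) t
  rw [h] at h2
  simpa using h2

/-- the largest atom inside `V` -/
def atomMax [Nonempty X] (κ : H →L[ℂ] H) (Q : DiscreteQuotient X) (V : Set X) : C(X, ℝ) :=
  (Finset.univ : Finset Q).sup' ⟨Q.proj (Classical.arbitrary X), Finset.mem_univ _⟩
    fun K => atomR (S.al κ (Q.proj ⁻¹' {K} ∩ V))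

theorem le_atomMax [Nonempty X] (κ : H →L[ℂ] H) (Q : DiscreteQuotient X) (V : Set X) (K : Q)
    (t : X) : (S.al κ (Q.proj ⁻¹' {K} ∩ V) t).re ≤ S.atomMax κ Q V t := by
  rw [atomMax, ContinuousMap.sup'_apply]
  exact Finset.le_sup' (fun K : Q => atomR (S.al κ (Q.proj ⁻¹' {K} ∩ V)) t) (Finset.mem_univ K)

theorem exists_eq_atomMax [Nonempty X] (κ : H →L[ℂ] H) (Q : DiscreteQuotient X) (V : Set X)
    (t : X) : ∃ K : Q, S.atomMax κ Q V t = (S.al κ (Q.proj ⁻¹' {K} ∩ V) t).re := by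
  rw [atomMax, ContinuousMap.sup'_apply]
  obtain ⟨K, -, hK⟩ := Finset.exists_mem_eq_sup'
    (⟨Q.proj (Classical.arbitrary X), Finset.mem_univ _⟩ : (Finset.univ : Finset Q).Nonempty)
    (fun K : Q => atomR (S.al κ (Q.proj ⁻¹' {K} ∩ V)) t)
  exact ⟨K, hK⟩

theorem atom_fiber_subset {Q Q' : DiscreteQuotient X} (h : Q ≤ Q') (K : Q) :
    Q.proj ⁻¹' {K} ⊆ Q'.proj ⁻¹' {DiscreteQuotient.ofLE h K} := by
  intro t ht
  have : Q.proj t = K := ht
  simp [← this]

theorem exists_atomInf [Nonempty X] {κ : H →L[ℂ] H} (hκ : κ ∈ S.M) {V : Set X}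
    (hV : IsClopen V) : ∃ g : C(X, ℝ), (∀ Q t, g t ≤ S.atomMax κ Q V t) ∧
      Tendsto (fun Q => S.atomOm (S.atomMax κ Q V)) (UF X) (𝓝 (S.atomOm g)) := by
  refine S.atom_exists_lim _ (C := ‖κ‖ ^ 2) (fun Q t => ?_) (fun Q t => ?_) (by positivity)
    fun Q Q' h t => ?_
  · obtain ⟨K, hK⟩ := S.exists_eq_atomMax κ Q V t
    rw [hK]; exact S.al_re_nonneg hκ _ t
  · obtain ⟨K, hK⟩ := S.exists_eq_atomMax κ Q V t
    rw [hK]; exact S.al_re_le hκ _ t
  · obtain ⟨K, hK⟩ := S.exists_eq_atomMax κ Q V t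
    rw [hK]
    refine le_trans ?_ (S.le_atomMax κ Q' V (DiscreteQuotient.ofLE h K) t)
    exact S.al_re_mono hκ ((atom_fiber_clopen Q K).inter hV) ((atom_fiber_clopen Q' _).inter hV)
      (Set.inter_subset_inter_left _ (atom_fiber_subset h K)) t

/-- A dominant atom.  Recipe: for a clopen `V` let `m Q V = max_K re (al κ (K ∩ V))` (a continuous
function, `0` if there is no atom), decreasing under refinement, and let `m V` be its weak limit
along `UF` (`exists_limA`, `le_of_WL`, `ge_of_WL`): `0 ≤ m V ≤ m Q V` and `φ (m Q V - m V) → 0`.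
As `∑_K (al K)² ≤ m Q univ * ‖κ‖²`, `m univ ≠ 0`; `b = ‖m univ‖`.  Take a nonempty clopen `e₁` with
`m univ ≥ 0.9 b`, then `Q₀` with `φ (m Q₀ - m) < 0.1 b φ(e₁)`, so `m Q₀ univ < 1.1 b` at a point of
`e₁`, hence on a nonempty clopen `e₃ ⊆ e₁`.  If `m K₀ ≤ 0.85 b` on `e₃` for all atoms `K₀` of `Q₀`
then `0.05 b 1_{e₃} ≤ ∑_{K₀} (m Q K₀ - m K₀)` for `Q ≤ Q₀`, absurd after applying `φ`.  Shrink `e₃`
around a point with `m K₀ > 0.85 b`. -/
theorem exists_atom {κ : H →L[ℂ] H} (hκ : κ ∈ S.M) {c : ℝ} (hc : 0 < c)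
    (h : ∀ Q : DiscreteQuotient X, c ≤ ∑ K : Q, ‖S.ρ (S.al κ (Q.proj ⁻¹' {K})) S.ξ‖ ^ 2) :
    ∃ (V e : Set X) (b : ℝ), IsClopen V ∧ IsClopen e ∧ e.Nonempty ∧ 0 < b ∧
      (∀ t ∈ e, (S.al κ V t).re ≤ 1.1 * b) ∧
      ∀ t ∈ e, ∀ Q : DiscreteQuotient X, ∃ K : Q, 0.8 * b ≤ (S.al κ (Q.proj ⁻¹' {K} ∩ V) t).re := by
  have hX : Nonempty X := by
    by_contra hX
    have hX' : IsEmpty X := not_nonempty_iff.1 hX
    have h1 := h ⊤
    have : IsEmpty (⊤ : DiscreteQuotient X) :=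
      ⟨fun K => by obtain ⟨t, -⟩ := (⊤ : DiscreteQuotient X).proj_surjective K; exact hX'.elim t⟩
    rw [Finset.univ_eq_empty, Finset.sum_empty] at h1
    linarith
  choose! m hm hlim using fun (V : Set X) (hV : IsClopen V) => S.exists_atomInf hκ hV
  -- the limit for the whole space is not zero
  have hpos : 0 < S.atomOm (m Set.univ) := by
    have h1 : ∀ Q : DiscreteQuotient X, c ≤ ‖κ‖ ^ 2 * S.atomOm (S.atomMax κ Q Set.univ) := by
      intro Q
      refine (h Q).trans ?_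
      rw [Finset.sum_congr rfl fun K _ => S.atom_norm_sq (S.al_nonneg hκ _), ← atomOm_sum,
        ← atomOm_smul]
      refine S.atomOm_mono fun t => ?_
      have h2 : 0 ≤ S.atomMax κ Q Set.univ t := by
        obtain ⟨K, hK⟩ := S.exists_eq_atomMax κ Q Set.univ t
        rw [hK]; exact S.al_re_nonneg hκ _ t
      simp only [ContinuousMap.coe_sum, Finset.sum_apply, ContinuousMap.mul_apply, atomR_apply,
        ContinuousMap.smul_apply, smul_eq_mul]
      refine le_trans ?_ (mul_le_mul_of_nonneg_right (S.sum_al_re_le hκ Q t) h2)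
      rw [Finset.sum_mul]
      refine Finset.sum_le_sum fun K _ => mul_le_mul_of_nonneg_left ?_ (S.al_re_nonneg hκ _ t)
      simpa using S.le_atomMax κ Q Set.univ K t
    have h2 : c ≤ ‖κ‖ ^ 2 * S.atomOm (m Set.univ) :=
      ge_of_tendsto' ((hlim _ isClopen_univ).const_mul _) h1
    by_contra h3
    nlinarith [mul_nonneg (sq_nonneg ‖κ‖) (neg_nonneg.2 (not_lt.1 h3))]
  obtain ⟨t₀, -, ht₀⟩ := isCompact_univ.exists_isMaxOn Set.univ_nonempty
    (m Set.univ).continuous.continuousOn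
  set b := m Set.univ t₀ with hb
  have hmb : ∀ t, m Set.univ t ≤ b := fun t => ht₀ (Set.mem_univ t)
  have hb0 : 0 < b := by
    by_contra h1
    have := S.atomOm_mono (f := m Set.univ) (g := 0) fun t => (hmb t).trans (not_lt.1 h1)
    rw [atomOm_zero] at this
    linarith
  obtain ⟨e₁, he₁, ht₀e, he₁b⟩ := exists_clopen_nhds (O := {t | 0.9 * b < m Set.univ t})
    (isOpen_lt continuous_const (m Set.univ).continuous) (t := t₀)
    (by show 0.9 * b < b; linarith)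
  have hw₁ := S.atomOm_ind_pos he₁ ⟨t₀, ht₀e⟩
  obtain ⟨Q₀, hQ₀⟩ := ((hlim _ isClopen_univ).eventually (gt_mem_nhds
    (show S.atomOm (m Set.univ) < S.atomOm (m Set.univ) + 0.1 * b * S.atomOm (atomR (ind e₁)) by
      have : 0 < 0.1 * b * S.atomOm (atomR (ind e₁)) := by positivity
      linarith))).exists
  obtain ⟨t₁, ht₁e, ht₁⟩ : ∃ t ∈ e₁, S.atomMax κ Q₀ Set.univ t < 1.1 * b := by
    by_contra h1
    push Not at h1
    have h2 := S.atomOm_ge he₁ (f := S.atomMax κ Q₀ Set.univ - m Set.univ) (a := 0.1 * b)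
      (fun t => sub_nonneg.2 (hm _ isClopen_univ Q₀ t))
      (fun t ht => by
        have := h1 t ht
        have := hmb t
        rw [ContinuousMap.sub_apply]
        linarith)
    rw [atomOm_sub] at h2
    linarith
  obtain ⟨e₃, he₃, ht₁e₃, he₃b⟩ := exists_clopen_nhds
    (O := e₁ ∩ {t | S.atomMax κ Q₀ Set.univ t < 1.1 * b})
    (he₁.isOpen.inter (isOpen_lt (S.atomMax κ Q₀ Set.univ).continuous continuous_const))
    (t := t₁) ⟨ht₁e, ht₁⟩
  have hw₃ := S.atomOm_ind_pos he₃ ⟨t₁, ht₁e₃⟩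
  obtain ⟨K₀, t₂, ht₂e, ht₂⟩ : ∃ K₀ : Q₀, ∃ t ∈ e₃, 0.85 * b < m (Q₀.proj ⁻¹' {K₀}) t := by
    by_contra h1
    push Not at h1
    have h2 : ∀ Q ≤ Q₀, 0.05 * b * S.atomOm (atomR (ind e₃)) ≤
        ∑ K₀ : Q₀, (S.atomOm (S.atomMax κ Q (Q₀.proj ⁻¹' {K₀})) -
          S.atomOm (m (Q₀.proj ⁻¹' {K₀}))) := by
      intro Q hQ
      simp_rw [← atomOm_sub]
      rw [← atomOm_sum]
      have h3 : ∀ (K₀ : Q₀) t, 0 ≤ (S.atomMax κ Q (Q₀.proj ⁻¹' {K₀}) - m (Q₀.proj ⁻¹' {K₀})) t :=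
        fun K₀ t => sub_nonneg.2 (hm _ (atom_fiber_clopen Q₀ K₀) Q t)
      refine S.atomOm_ge he₃ (fun t => ?_) fun t ht => ?_
      · simp only [ContinuousMap.coe_sum, Finset.sum_apply]
        exact Finset.sum_nonneg fun K₀ _ => h3 K₀ t
      · simp only [ContinuousMap.coe_sum, Finset.sum_apply]
        obtain ⟨K, hK⟩ := S.exists_eq_atomMax κ Q Set.univ t
        refine le_trans ?_ (Finset.single_le_sum (fun K₀ _ => h3 K₀ t)
          (Finset.mem_univ (DiscreteQuotient.ofLE hQ K)))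
        have h4 := S.le_atomMax κ Q (Q₀.proj ⁻¹' {DiscreteQuotient.ofLE hQ K}) K t
        rw [Set.inter_eq_left.2 (atom_fiber_subset hQ K)] at h4
        rw [Set.inter_univ] at hK
        have h5 := hm _ isClopen_univ Q t
        have h6 : 0.9 * b < m Set.univ t := he₁b (he₃b ht).1
        have h7 := h1 (DiscreteQuotient.ofLE hQ K) t ht
        rw [ContinuousMap.sub_apply]
        linarith
    have h3 : Tendsto (fun Q => ∑ K₀ : Q₀, (S.atomOm (S.atomMax κ Q (Q₀.proj ⁻¹' {K₀})) -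
          S.atomOm (m (Q₀.proj ⁻¹' {K₀})))) (UF X)
        (𝓝 (∑ K₀ : Q₀, (S.atomOm (m (Q₀.proj ⁻¹' {K₀})) - S.atomOm (m (Q₀.proj ⁻¹' {K₀}))))) :=
      tendsto_finsetSum _ fun K₀ _ => (hlim _ (atom_fiber_clopen Q₀ K₀)).sub_const _
    have h4 := ge_of_tendsto h3 (UF_le ((eventually_le_atBot Q₀).mono h2))
    simp only [sub_self, Finset.sum_const_zero] at h4
    have : 0 < 0.05 * b * S.atomOm (atomR (ind e₃)) := by positivity
    linarith
  obtain ⟨e, he, ht₂e', heb⟩ := exists_clopen_nhds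
    (O := e₃ ∩ {t | 0.85 * b < m (Q₀.proj ⁻¹' {K₀}) t})
    (he₃.isOpen.inter (isOpen_lt continuous_const (m _).continuous)) (t := t₂) ⟨ht₂e, ht₂⟩
  refine ⟨Q₀.proj ⁻¹' {K₀}, e, b, atom_fiber_clopen Q₀ K₀, he, ⟨t₂, ht₂e'⟩, hb0, fun t ht => ?_,
    fun t ht Q => ?_⟩
  · have h1 := S.le_atomMax κ Q₀ Set.univ K₀ t
    rw [Set.inter_univ] at h1
    have h2 : S.atomMax κ Q₀ Set.univ t < 1.1 * b := (he₃b (heb ht).1).2
    linarith
  · obtain ⟨K, hK⟩ := S.exists_eq_atomMax κ Q (Q₀.proj ⁻¹' {K₀}) t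
    have h1 := hm _ (atom_fiber_clopen Q₀ K₀) Q t
    have h2 : 0.85 * b < m (Q₀.proj ⁻¹' {K₀}) t := (heb ht).2
    exact ⟨K, by linarith⟩

theorem atom_sum_norm_p_le {ι : Type*} [Fintype ι] {W : ι → Set X} (hW : ∀ i, IsClopen (W i))
    (hd : ∀ i j, i ≠ j → Disjoint (W i) (W j)) (η : H) :
    ∑ i, ‖S.p (W i) η‖ ^ 2 ≤ ‖η‖ ^ 2 := by
  have h1 : 0 ≤ S.ρ (1 - ∑ i, ind (W i)) := by
    rw [S.ρ_nonneg_iff]
    intro t
    simp only [ContinuousMap.sub_apply, ContinuousMap.one_apply, ContinuousMap.coe_sum,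
      Finset.sum_apply, ind_apply (hW _)]
    by_cases ht : ∃ i, t ∈ W i
    · obtain ⟨i, hi⟩ := ht
      rw [Finset.sum_eq_single i]
      · simp [hi]
      · intro j _ hj
        exact if_neg fun hj' => Set.disjoint_left.1 (hd j i hj) hj' hi
      · simp
    · push Not at ht
      simp [ht]
  have h2 := (ContinuousLinearMap.nonneg_iff_isPositive _).1 h1
  have h3 := h2.re_inner_nonneg_right η
  rw [map_sub, map_one, map_sum] at h3
  simp only [_root_.sub_apply, one_apply_eq_self, inner_sub_right,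
    _root_.sum_apply, inner_sum, map_sub, map_sum, inner_self_eq_norm_sq] at h3
  have h4 : ∀ i, ‖S.p (W i) η‖ ^ 2 = RCLike.re ⟪η, S.ρ (ind (W i)) η⟫_ℂ := fun i =>
    IsStarProjection.norm_apply_sq (S.isStarProjection_p (W i)) η
  simp_rw [h4]
  linarith

/-- The part of `κ` on the graph of the atom.  Recipe: `τ U = {t ∈ e | b/2 < re (al κ (U ∩ V) t)}`;
for clopen `U` and `t ∈ e` exactly one of `al (U ∩ V) t`, `al (Uᶜ ∩ V) t` is `≥ 0.8 b` and the other
is `≤ 0.3 b`, so `τ U` is clopen, `τ` is monotone and sends disjoint sets to disjoint sets.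
`z Q = ∑_K p K p V κ p (τ K)`, `‖z Q‖ ≤ ‖κ‖`, `z = wlim`; `re ⟪κ ξ, z Q ξ⟫ = ∑ φ (al (K ∩ V) 1_{τ K}) ≥ 0.8 b φ(e)`
(the sets `τ K` cover `e`); `p U z Q = z Q p (τ U)` when `Q` refines `U`. -/
theorem exists_graph_part {κ : H →L[ℂ] H} (hκ : κ ∈ S.M) {c : ℝ} (hc : 0 < c)
    (h : ∀ Q : DiscreteQuotient X, c ≤ ∑ K : Q, ‖S.ρ (S.al κ (Q.proj ⁻¹' {K})) S.ξ‖ ^ 2) :
    ∃ z ∈ S.M, z ≠ 0 ∧ (S.Mo κ → S.Mo z) ∧
      (∀ U, IsClopen U → ∃ U', IsClopen U' ∧ S.p U * z = z * S.p U') ∧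
      ∀ U U', κ * S.p U = S.p U' * κ → z * S.p U = S.p U' * z := by
  obtain ⟨V, e, b, hV, he, hne, hb, hup, hlow⟩ := S.exists_atom hκ hc h
  set τ : Set X → Set X := fun U => {t | t ∈ e ∧ b / 2 < (S.al κ (U ∩ V) t).re} with hτ
  have hsum : ∀ U U', IsClopen U → IsClopen U' → Disjoint U U' → ∀ t ∈ e,
      (S.al κ (U ∩ V) t).re + (S.al κ (U' ∩ V) t).re ≤ 1.1 * b := by
    intro U U' hU hU' hd t ht
    have h1 := S.al_union hκ (hU.inter hV) (hU'.inter hV)
      (hd.mono Set.inter_subset_left Set.inter_subset_left)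
    have h2 := S.al_re_mono hκ ((hU.inter hV).union (hU'.inter hV)) hV
      (Set.union_subset Set.inter_subset_right Set.inter_subset_right) t
    rw [h1, ContinuousMap.add_apply, Complex.add_re] at h2
    exact h2.trans (hup t ht)
  have hdich : ∀ U, IsClopen U → ∀ t ∈ e,
      0.8 * b ≤ (S.al κ (U ∩ V) t).re ∨ (S.al κ (U ∩ V) t).re ≤ 0.3 * b := by
    intro U hU t ht
    obtain ⟨K, hK⟩ := hlow t ht (DiscreteQuotient.ofIsClopen hU)
    obtain ⟨s, rfl⟩ := (DiscreteQuotient.ofIsClopen hU).proj_surjective K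
    have hf : ∀ x ∈ (DiscreteQuotient.ofIsClopen hU).proj ⁻¹'
        {(DiscreteQuotient.ofIsClopen hU).proj s}, (x ∈ U ↔ s ∈ U) :=
      fun x hx => Quotient.exact hx
    by_cases hs : s ∈ U
    · left
      exact hK.trans (S.al_re_mono hκ ((atom_fiber_clopen _ _).inter hV) (hU.inter hV)
        (Set.inter_subset_inter_left _ fun x hx => (hf x hx).2 hs) t)
    · right
      have h1 := hK.trans (S.al_re_mono hκ ((atom_fiber_clopen _ _).inter hV) (hU.compl.inter hV)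
        (Set.inter_subset_inter_left _ fun x hx hx' => hs ((hf x hx).1 hx')) t)
      have h2 := hsum U Uᶜ hU hU.compl disjoint_compl_right t ht
      linarith
  have hτc : ∀ U, IsClopen U → IsClopen (τ U) := by
    intro U hU
    have hcont : Continuous fun t => (S.al κ (U ∩ V) t).re := by fun_prop
    refine ⟨?_, he.isOpen.inter (isOpen_lt continuous_const hcont)⟩
    have : τ U = e ∩ {t | b / 2 ≤ (S.al κ (U ∩ V) t).re} := by
      ext t
      refine ⟨fun ht => ⟨ht.1, ht.2.le⟩, fun ht => ⟨ht.1, ?_⟩⟩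
      have h1 : b / 2 ≤ (S.al κ (U ∩ V) t).re := ht.2
      rcases hdich U hU t ht.1 with h2 | h2 <;> linarith
    rw [this]
    exact he.isClosed.inter (isClosed_le continuous_const hcont)
  have hτm : ∀ U U', IsClopen U → IsClopen U' → U ⊆ U' → τ U ⊆ τ U' := by
    intro U U' hU hU' hs t ht
    exact ⟨ht.1, ht.2.trans_le (S.al_re_mono hκ (hU.inter hV) (hU'.inter hV)
      (Set.inter_subset_inter_left _ hs) t)⟩
  have hτd : ∀ U U', IsClopen U → IsClopen U' → Disjoint U U' → Disjoint (τ U) (τ U') := by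
    intro U U' hU hU' hd
    rw [Set.disjoint_left]
    intro t ht ht'
    have h1 := hsum U U' hU hU' hd t ht.1
    have h2 : b / 2 < (S.al κ (U ∩ V) t).re := ht.2
    have h3 : b / 2 < (S.al κ (U' ∩ V) t).re := ht'.2
    rcases hdich U hU t ht.1 with h4 | h4 <;> linarith
  set Z : DiscreteQuotient X → H →L[ℂ] H := fun Q =>
    ∑ K : Q, S.p (Q.proj ⁻¹' {K}) * S.p V * κ * S.p (τ (Q.proj ⁻¹' {K})) with hZ
  have hZn : ∀ Q, ‖Z Q‖ ≤ ‖κ‖ := by
    intro Q
    refine ContinuousLinearMap.opNorm_le_bound _ (norm_nonneg _) fun η => ?_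
    refine (sq_le_sq₀ (norm_nonneg _) (by positivity)).1 ?_
    have h1 : Z Q η = ∑ K : Q, S.p (Q.proj ⁻¹' {K}) (S.p V (κ (S.p (τ (Q.proj ⁻¹' {K})) η))) := by
      simp [hZ]
    rw [h1, S.norm_sum_p_sq Q.proj_isLocallyConstant, mul_pow]
    refine le_trans ?_ (mul_le_mul_of_nonneg_left
      (S.atom_sum_norm_p_le (W := fun K : Q => τ (Q.proj ⁻¹' {K}))
        (fun K => hτc _ (atom_fiber_clopen Q K))
        (fun K K' hK => hτd _ _ (atom_fiber_clopen Q K) (atom_fiber_clopen Q K')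
          (Set.disjoint_left.2 fun x hx hx' => hK (hx.symm.trans hx'))) η) (sq_nonneg _))
    rw [Finset.mul_sum]
    refine Finset.sum_le_sum fun K _ => ?_
    rw [← mul_pow]
    refine pow_le_pow_left₀ (norm_nonneg _) ?_ 2
    have hp : ∀ (U : Set X) (ζ : H), ‖S.p U ζ‖ ≤ ‖ζ‖ := fun U ζ =>
      ((S.p U).le_opNorm ζ).trans (mul_le_of_le_one_left (norm_nonneg _) (S.norm_p_le U))
    exact (hp _ _).trans ((hp _ _).trans (κ.le_opNorm _))
  obtain ⟨z, hz⟩ := exists_WL (UF X) Z hZn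
  have hZm : ∀ Q, Z Q ∈ S.M := fun Q => sum_mem fun K _ =>
    mul_mem (mul_mem (mul_mem (S.p_mem _) (S.p_mem _)) hκ) (S.p_mem _)
  refine ⟨z, hz.mem (Eventually.of_forall hZm), ?_, fun hMo => ?_, fun U hU => ?_,
    fun U U' hUU => ?_⟩
  · have h1 : ∀ Q, 0.8 * b * S.atomOm (atomR (ind e)) ≤ (⟪κ S.ξ, Z Q S.ξ⟫_ℂ).re := by
      intro Q
      have h2 : ∀ K : Q, (⟪κ S.ξ,
          (S.p (Q.proj ⁻¹' {K}) * S.p V * κ * S.p (τ (Q.proj ⁻¹' {K}))) S.ξ⟫_ℂ).re =
          S.atomOm (atomR (ind (τ (Q.proj ⁻¹' {K}))) * atomR (S.al κ (Q.proj ⁻¹' {K} ∩ V))) := by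
        intro K
        have h3 : atomC (atomR (ind (τ (Q.proj ⁻¹' {K}))) * atomR (S.al κ (Q.proj ⁻¹' {K} ∩ V))) =
            ind (τ (Q.proj ⁻¹' {K})) * S.al κ (Q.proj ⁻¹' {K} ∩ V) := by
          conv_rhs => rw [← atomC_atomR (atom_ind_nonneg (hτc _ (atom_fiber_clopen Q K))),
            ← atomC_atomR (S.al_nonneg hκ (Q.proj ⁻¹' {K} ∩ V))]
          ext t
          simp
        rw [S.inner_eq_φ, atomOm, h3, al, S.φ_ρ_mul_E _ (S.atom_conj_mem hκ _),
          S.φ_ρ_mul _ (S.atom_conj_mem hκ _), S.p_mul_p (atom_fiber_clopen Q K) hV]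
        simp only [mul_assoc, Setup.p]
      have h4 : Z Q S.ξ = ∑ K : Q,
          (S.p (Q.proj ⁻¹' {K}) * S.p V * κ * S.p (τ (Q.proj ⁻¹' {K}))) S.ξ := by
        simp only [hZ, _root_.sum_apply]
      rw [h4, inner_sum, Complex.re_sum, Finset.sum_congr rfl fun K _ => h2 K, ← atomOm_sum]
      have h5 : ∀ (K : Q) t, 0 ≤ (atomR (ind (τ (Q.proj ⁻¹' {K}))) *
          atomR (S.al κ (Q.proj ⁻¹' {K} ∩ V))) t := fun K t =>
        mul_nonneg (Complex.nonneg_iff.1 (atom_ind_nonneg (hτc _ (atom_fiber_clopen Q K)) t)).1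
          (S.al_re_nonneg hκ _ t)
      refine S.atomOm_ge he (fun t => ?_) fun t ht => ?_
      · simp only [ContinuousMap.coe_sum, Finset.sum_apply]
        exact Finset.sum_nonneg fun K _ => h5 K t
      · simp only [ContinuousMap.coe_sum, Finset.sum_apply]
        obtain ⟨K, hK⟩ := hlow t ht Q
        refine le_trans ?_ (Finset.single_le_sum (fun K _ => h5 K t) (Finset.mem_univ K))
        have h6 : t ∈ τ (Q.proj ⁻¹' {K}) := ⟨ht, by linarith⟩
        rw [ContinuousMap.mul_apply, atomR_ind (hτc _ (atom_fiber_clopen Q K)), if_pos h6, one_mul]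
        exact hK
    have h2 := ge_of_tendsto' ((Complex.continuous_re.tendsto _).comp (hz (κ S.ξ) S.ξ)) h1
    have h3 := S.atomOm_ind_pos he hne
    rintro rfl
    have : 0 < 0.8 * b * S.atomOm (atomR (ind e)) := by positivity
    simp at h2
    linarith
  · refine Mo.of_WL hz (Eventually.of_forall fun Q => Mo.sum _ fun K _ => ?_)
    rw [S.p_mul_p (atom_fiber_clopen Q K) hV]
    exact (hMo.mul_left (Nn.of_N0 (S.ρ_mem_N0 _))).mul_right (Nn.of_N0 (S.ρ_mem_N0 _))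
  · refine ⟨τ U, hτc U hU, hz.mul_eq
      (UF_le ((eventually_le_atBot (DiscreteQuotient.ofIsClopen hU)).mono fun Q hQ => ?_))⟩
    simp only [hZ, Finset.mul_sum, Finset.sum_mul]
    refine Finset.sum_congr rfl fun K _ => ?_
    obtain ⟨s, rfl⟩ := Q.proj_surjective K
    have hf : ∀ x ∈ Q.proj ⁻¹' {Q.proj s}, (x ∈ U ↔ s ∈ U) :=
      fun x hx => hQ (Quotient.exact hx)
    have hK := atom_fiber_clopen Q (Q.proj s)
    rw [mul_assoc _ (S.p (τ _)), S.p_mul_p (hτc _ hK) (hτc U hU), ← mul_assoc, ← mul_assoc,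
      ← mul_assoc, S.p_mul_p hU hK]
    by_cases hs : s ∈ U
    · have h1 : Q.proj ⁻¹' {Q.proj s} ⊆ U := fun x hx => (hf x hx).2 hs
      rw [Set.inter_eq_right.2 h1, Set.inter_eq_left.2 (hτm _ _ hK hU h1)]
    · have h1 : Disjoint (Q.proj ⁻¹' {Q.proj s}) U :=
        Set.disjoint_left.2 fun x hx hx' => hs ((hf x hx).1 hx')
      rw [Set.disjoint_iff_inter_eq_empty.1 h1.symm,
        Set.disjoint_iff_inter_eq_empty.1 (hτd _ _ hK hU h1), S.p_empty]
      simp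
  · refine (hz.mul_eq (Eventually.of_forall fun Q => ?_)).symm
    simp only [hZ, Finset.mul_sum, Finset.sum_mul]
    refine Finset.sum_congr rfl fun K _ => ?_
    have hc : ∀ A B : Set X, S.p A * S.p B = S.p B * S.p A := fun A B => S.ρ_comm _ _
    calc S.p U' * (S.p (Q.proj ⁻¹' {K}) * S.p V * κ * S.p (τ (Q.proj ⁻¹' {K})))
        = (S.p U' * S.p (Q.proj ⁻¹' {K})) * S.p V * κ * S.p (τ (Q.proj ⁻¹' {K})) := by
          simp only [mul_assoc]
      _ = S.p (Q.proj ⁻¹' {K}) * (S.p U' * S.p V) * κ * S.p (τ (Q.proj ⁻¹' {K})) := by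
          rw [hc U']; simp only [mul_assoc]
      _ = S.p (Q.proj ⁻¹' {K}) * S.p V * (S.p U' * κ) * S.p (τ (Q.proj ⁻¹' {K})) := by
          rw [hc U']; simp only [mul_assoc]
      _ = S.p (Q.proj ⁻¹' {K}) * S.p V * κ * (S.p U * S.p (τ (Q.proj ⁻¹' {K}))) := by
          rw [← hUU]; simp only [mul_assoc]
      _ = _ := by rw [hc U]; simp only [mul_assoc]

theorem atom_mem_A {y : H →L[ℂ] H} (hy : y ∈ S.M)
    (h : ∀ U, IsClopen U → ∃ U', S.p U * y = y * S.p U') (f : C(X, ℂ)) :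
    ∃ f', S.ρ f' = y * S.ρ f * star y := by
  refine S.exists_ρ_of_commute_p (mul_mem (mul_mem hy (S.mem f)) (star_mem hy)) fun U hU => ?_
  obtain ⟨U', hU'⟩ := h U hU
  have h1 : star y * S.p U = S.p U' * star y := by
    have := congrArg star hU'
    rwa [star_mul, star_mul, (S.isStarProjection_p U).isSelfAdjoint.star_eq,
      (S.isStarProjection_p U').isSelfAdjoint.star_eq] at this
  have h2 : S.p U' * S.ρ f = S.ρ f * S.p U' := S.ρ_comm _ _
  calc S.p U * (y * S.ρ f * star y) = (S.p U * y) * S.ρ f * star y := by simp only [mul_assoc]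
    _ = y * (S.p U' * S.ρ f) * star y := by rw [hU']; simp only [mul_assoc]
    _ = y * S.ρ f * (S.p U' * star y) := by rw [h2]; simp only [mul_assoc]
    _ = y * S.ρ f * star y * S.p U := by rw [← h1]; simp only [mul_assoc]

theorem atom_sum_anti {κ : H →L[ℂ] H} (hκ : κ ∈ S.M) {Q Q' : DiscreteQuotient X} (h : Q ≤ Q') :
    ∑ K : Q, ‖S.ρ (S.al κ (Q.proj ⁻¹' {K})) S.ξ‖ ^ 2 ≤
      ∑ K : Q', ‖S.ρ (S.al κ (Q'.proj ⁻¹' {K})) S.ξ‖ ^ 2 := by
  rw [Finset.sum_congr rfl fun K _ => S.atom_norm_sq (S.al_nonneg hκ _),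
    Finset.sum_congr rfl fun K _ => S.atom_norm_sq (S.al_nonneg hκ _), ← atomOm_sum, ← atomOm_sum]
  refine S.atomOm_mono fun t => ?_
  simp only [ContinuousMap.coe_sum, Finset.sum_apply, ContinuousMap.mul_apply, atomR_apply]
  rw [← Finset.sum_fiberwise Finset.univ (DiscreteQuotient.ofLE h)]
  refine Finset.sum_le_sum fun K' _ => ?_
  have h1 : Q'.proj ⁻¹' {K'} = Q.proj ⁻¹' (DiscreteQuotient.ofLE h ⁻¹' {K'}) := by
    ext x; simp
  have h2 := S.al_preimage hκ Q.proj_isLocallyConstant (DiscreteQuotient.ofLE h ⁻¹' {K'})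
  rw [← h1] at h2
  have h3 : (S.al κ (Q'.proj ⁻¹' {K'}) t).re =
      ∑ K ∈ Finset.univ.filter (fun K => DiscreteQuotient.ofLE h K = K'),
        (S.al κ (Q.proj ⁻¹' {K}) t).re := by
    rw [h2]
    simp
  conv_rhs => rw [h3, Finset.sum_mul, ← h3]
  refine Finset.sum_le_sum fun K hK => mul_le_mul_of_nonneg_left ?_ (S.al_re_nonneg hκ _ t)
  rw [← (Finset.mem_filter.1 hK).2]
  exact S.al_re_mono hκ (atom_fiber_clopen Q K) (atom_fiber_clopen Q' _) (atom_fiber_subset h K) t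

/-- **Intertwining lemma.**  Recipe: otherwise take `z` from `exists_graph_part`.  `z ρ f z⋆`
commutes with all `p U`, so it is in `A`, and `al z⋆ K` is the function of `z p K z⋆`.  As
`z z⋆ ∈ A`, `∑_K (z p_K z⋆)² = z (EP Q (z⋆ z)) z⋆`, so the sum for `z⋆` equals
`φ (z EP Q (z⋆ z) z⋆)`, which decreases under refinement (`(x + y)² ≥ x² + y²` for `x, y ≥ 0`) and
tends along `UF` to `c' = φ (z E(z⋆ z) z⋆) > 0` (if `0`: `ρ √(E (z⋆ z)) z⋆ ξ = 0`, so
`E (z⋆ z) z⋆ z = 0`, `E (z⋆ z)² = 0`, `eq_zero_of_E`).  Apply `exists_graph_part` to `z⋆`; the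
result normalises `A` on both sides; `Mo.eq_zero_of_normalises`. -/
theorem Mo.exists_small_atoms {κ : H →L[ℂ] H} (hκ : S.Mo κ) {γ : ℝ} (hγ : 0 < γ) :
    ∃ Q : DiscreteQuotient X, ∑ K : Q, ‖S.ρ (S.al κ (Q.proj ⁻¹' {K})) S.ξ‖ ^ 2 < γ := by
  by_contra hcon
  push Not at hcon
  obtain ⟨z, hz, hz0, hzMo, hz1, -⟩ := S.exists_graph_part hκ.1 hγ hcon
  have hzs : star z ∈ S.M := StarMemClass.star_mem hz
  have hzz : star z * z ∈ S.M := mul_mem hzs hz
  have hA := S.atom_mem_A hz fun U hU => (hz1 U hU).imp fun _ h => h.2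
  have hsum : ∀ Q : DiscreteQuotient X,
      ∑ K : Q, ‖S.ρ (S.al (star z) (Q.proj ⁻¹' {K})) S.ξ‖ ^ 2 =
        (⟪star z S.ξ, S.EP Q.proj (star z * z) (star z S.ξ)⟫_ℂ).re := by
    intro Q
    rw [Setup.EP, _root_.sum_apply, inner_sum, Complex.re_sum]
    refine Finset.sum_congr rfl fun K _ => ?_
    obtain ⟨f', hf'⟩ := hA (ind (Q.proj ⁻¹' {K}))
    have h1 : S.ρ (S.al (star z) (Q.proj ⁻¹' {K})) = z * S.p (Q.proj ⁻¹' {K}) * star z := by
      rw [al, star_star, Setup.p, ← hf', S.E_ρ]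
    rw [h1, norm_apply_sq_eq, ← mul_apply_eq_comp _ (star z), S.inner_eq_φ, φ]
    simp only [star_mul, star_star, (S.isStarProjection_p _).isSelfAdjoint.star_eq, mul_assoc]
  set k := S.E (star z * z) with hk
  have hk0 : ∀ t, 0 ≤ k t := S.E_nonneg hzz (star_mul_self_nonneg z)
  set r : C(X, ℂ) := atomC ⟨fun t => √((k t).re), by fun_prop⟩ with hr
  have hrr : star r * r = k := by
    conv_rhs => rw [← atomC_atomR hk0]
    ext t
    have := Real.mul_self_sqrt (Complex.nonneg_iff.1 (hk0 t)).1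
    simp only [hr, ContinuousMap.mul_apply, ContinuousMap.star_apply, atomC_apply,
      ContinuousMap.coe_mk, atomR_apply, Complex.star_def, Complex.conj_ofReal]
    exact_mod_cast this
  have hlim : Tendsto (fun Q : DiscreteQuotient X =>
      ∑ K : Q, ‖S.ρ (S.al (star z) (Q.proj ⁻¹' {K})) S.ξ‖ ^ 2) (UF X)
      (𝓝 (‖S.ρ r (star z S.ξ)‖ ^ 2)) := by
    simp_rw [hsum]
    rw [norm_apply_sq_eq, ← map_star, ← map_mul, hrr, hk, S.ρ_E hzz]
    exact (Complex.continuous_re.tendsto _).comp (S.WL_E0 (star z * z) _ _)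
  have hpos : 0 < ‖S.ρ r (star z S.ξ)‖ ^ 2 := by
    refine pow_pos (norm_pos_iff.2 fun h0 => hz0 ?_) 2
    have h1 : S.ρ r * star z = 0 := S.eq_zero_of_apply_ξ (mul_mem (S.mem r) hzs) h0
    have h2 : S.ρ k * (star z * z) = 0 := by
      rw [← hrr, map_mul, mul_assoc, ← mul_assoc (S.ρ r), h1, zero_mul, mul_zero]
    have h3 : k * k = 0 := by
      have := S.E_ρ_mul k hzz
      rw [h2, S.E_zero] at this
      exact this.symm
    refine S.eq_zero_of_E hz ?_
    ext t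
    have := congrArg (fun f : C(X, ℂ) => f t) h3
    simpa using this
  obtain ⟨y, hy, hy0, hyMo, hy1, hy2⟩ := S.exists_graph_part hzs hpos fun Q =>
    le_of_tendsto hlim (UF_le ((eventually_le_atBot Q).mono fun Q' hQ' => S.atom_sum_anti hzs hQ'))
  refine hy0 (Mo.eq_zero_of_normalises S (hyMo (hzMo hκ).star_mem) (fun f => ?_)
    (S.atom_mem_A hy fun U hU => (hy1 U hU).imp fun _ h => h.2))
  have := S.atom_mem_A (StarMemClass.star_mem hy) (fun U hU => ?_) f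
  · rwa [star_star] at this
  · obtain ⟨U', -, hU'⟩ := hz1 U hU
    have hst : ∀ {w : H →L[ℂ] H} {A B : Set X}, S.p A * w = w * S.p B →
        star w * S.p A = S.p B * star w := by
      intro w A B hw
      have := congrArg star hw
      rwa [star_mul, star_mul, (S.isStarProjection_p A).isSelfAdjoint.star_eq,
        (S.isStarProjection_p B).isSelfAdjoint.star_eq] at this
    exact ⟨U', (hst (hy2 U U' (hst hU')).symm).symm⟩

end Std

end

end Crest.Agent.R109
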