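import Mathlib

/-!
# Row 109, finite model: mixed determinantal polynomials

Cells `α`, colours `κ`.  A partial colouring is `τ : α → Option κ`.  `mix Y ω` is multilinear in the
vectors `ω c : Option κ → R`.  `ω c none` is the variable of the cell, `ω c (some k)` the weight of
colour `k` at the cell.  See `Crest/Agent/R109/Blueprint.lean` for the whole proof.
-/

open Polynomial
open scoped BigOperators

set_option linter.unusedSectionVars false

namespace Crest.Agent.R109

noncomputable section

section Defs
variable {α κ : Type*} [Fintype α] [DecidableEq α] [Fintype κ] [DecidableEq κ]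

/-- identity on uncoloured cells, `-Y` inside each colour class, `0` across classes -/
def NM (Y : α → α → ℂ) (τ : α → Option κ) : Matrix α α ℂ :=
  Matrix.of fun c c' =>
    if τ c = none ∨ τ c' = none then (if c = c' then 1 else 0)
    else if τ c = τ c' then - Y c c' else 0

/-- the mixed determinantal form -/
def mix {R : Type*} [CommRing R] [Algebra ℂ R] (Y : α → α → ℂ) (ω : α → Option κ → R) : R :=
  ∑ τ : α → Option κ, (NM Y τ).det • ∏ c, ω c (τ c)

/-- variables `z` and weights `θ` packed together -/
def wt {R : Type*} (z : α → R) (θ : α → κ → R) : α → Option κ → R :=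
  fun c o => o.elim (z c) (θ c)

def FF (Y : α → α → ℂ) (z : α → ℂ) (θ : α → κ → ℂ) : ℂ := mix Y (wt z θ)

/-- the packed data of the polynomial `x ↦ FF Y (x - h) θ` -/
def wP (h : α → ℝ) (θ : α → κ → ℂ) : α → Option κ → ℂ[X] :=
  wt (fun c => X - C (h c : ℂ)) (fun c k => C (θ c k))

/-- `x ↦ FF Y (x - h) θ` -/
def PP (Y : α → α → ℂ) (h : α → ℝ) (θ : α → κ → ℂ) : ℂ[X] := mix Y (wP h θ)

/-- sum of `exp` over the roots -/
def Psi (Y : α → α → ℂ) (h : α → ℝ) (θ : α → κ → ℂ) : ℂ :=
  ((PP Y h θ).roots.map Complex.exp).sum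

/-- the excess potential (real weights) -/
def psi0 (Y : α → α → ℂ) (h : α → ℝ) (θ : α → κ → ℝ) : ℝ :=
  (Psi Y h (fun c k => (θ c k : ℂ))).re - ∑ c, Real.exp (h c)

/-- the excess potential of the finite region `Λ` of an ambient type -/
def pot {X : Type*} [DecidableEq X] (Y : X → X → ℂ) (h : X → ℝ) (θ : X → κ → ℝ)
    (Λ : Finset X) : ℝ :=
  psi0 (fun s t : Λ => Y s t) (fun s : Λ => h s) (fun s : Λ => θ s)

/-- Hermitian kernel -/
def Herm {X : Type*} (Y : X → X → ℂ) : Prop := ∀ s t, Y s t = star (Y t s)

end Defs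

section Basic
variable {α α' κ : Type*} [Fintype α] [DecidableEq α] [Fintype α'] [DecidableEq α']
  [Fintype κ] [DecidableEq κ] {R R' : Type*} [CommRing R] [Algebra ℂ R] [CommRing R']
  [Algebra ℂ R']

@[simp] theorem wt_none {R : Type*} (z : α → R) (θ : α → κ → R) (c : α) : wt z θ c none = z c := rfl
@[simp] theorem wt_some {R : Type*} (z : α → R) (θ : α → κ → R) (c : α) (k : κ) :
    wt z θ c (some k) = θ c k := rfl

theorem Mix_prod_update (ω : α → Option κ → R) (c : α) (v : Option κ → R) (τ : α → Option κ) :
    ∏ c', Function.update ω c v c' (τ c') = v (τ c) * ∏ c' ∈ Finset.univ.erase c, ω c' (τ c') := by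
  rw [← Finset.mul_prod_erase Finset.univ _ (Finset.mem_univ c), Function.update_self]
  congr 1
  exact Finset.prod_congr rfl fun c' hc' => by
    rw [Function.update_of_ne (Finset.ne_of_mem_erase hc')]

/-- Multilinearity in one cell.  Recipe: termwise, `∏ c', update ω c v c' (τ c')` is
`v (τ c) * ∏_{c' ≠ c}` (`Finset.mul_prod_erase`), swap the sums. -/
theorem mix_update (Y : α → α → ℂ) (ω : α → Option κ → R) (c : α) (v : Option κ → R) :
    mix Y (Function.update ω c v) =
      ∑ o, v o * mix Y (Function.update ω c (Pi.single o 1)) := by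
  simp only [mix, Mix_prod_update, Finset.mul_sum]
  rw [Finset.sum_comm]
  refine Finset.sum_congr rfl fun τ _ => ?_
  rw [Finset.sum_eq_single (τ c)]
  · simp
  · intro o _ ho
    simp [Pi.single_eq_of_ne (Ne.symm ho)]
  · simp

/-- Scaling one cell vector. -/
theorem mix_update_smul (Y : α → α → ℂ) (ω : α → Option κ → R) (c : α) (b : R)
    (v : Option κ → R) :
    mix Y (Function.update ω c (fun o => b * v o)) = b * mix Y (Function.update ω c v) := by
  simp only [mix, Mix_prod_update, Finset.mul_sum]
  refine Finset.sum_congr rfl fun τ _ => ?_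
  rw [mul_smul_comm, mul_assoc]

/-- Scaling all cell vectors. -/
theorem mix_scale (Y : α → α → ℂ) (ω : α → Option κ → R) (b : α → R) :
    mix Y (fun c o => b c * ω c o) = (∏ c, b c) * mix Y ω := by
  simp only [mix, Finset.mul_sum, Finset.prod_mul_distrib, mul_smul_comm]

theorem map_mix (f : R →ₐ[ℂ] R') (Y : α → α → ℂ) (ω : α → Option κ → R) :
    f (mix Y ω) = mix Y (fun c o => f (ω c o)) := by
  simp only [mix, map_sum, map_smul, map_prod]

theorem Mix_wt_update {R : Type*} (z : α → R) (θ : α → κ → R) (c : α) (a : R) (t : κ → R) :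
    wt (Function.update z c a) (Function.update θ c t) =
      Function.update (wt z θ) c fun o => o.elim a t := by
  funext c' o
  by_cases h : c' = c
  · subst h
    simp [wt]
  · simp [wt, Function.update_of_ne h]

/-- `FF` is affine in the data of one cell. -/
theorem FF_expand (Y : α → α → ℂ) (z : α → ℂ) (θ : α → κ → ℂ) (c : α) :
    FF Y z θ = z c * FF Y (Function.update z c 1) (Function.update θ c 0) +
      ∑ k, θ c k * FF Y (Function.update z c 0) (Function.update θ c (Pi.single k 1)) := by
  have h := mix_update Y (wt z θ) c (wt z θ c)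
  rw [Function.update_eq_self, Fintype.sum_option] at h
  have e1 : (fun o : Option κ => o.elim (1 : ℂ) (0 : κ → ℂ)) = Pi.single none 1 := by
    funext o
    cases o <;> simp
  have e2 : ∀ k : κ, (fun o : Option κ => o.elim (0 : ℂ) (Pi.single k 1 : κ → ℂ)) =
      Pi.single (some k) 1 := by
    intro k
    funext o
    cases o <;> simp [Pi.single_apply]
  simp only [FF, Mix_wt_update, e1, e2]
  exact h

theorem eval_mix_wP (Y : α → α → ℂ) (h : α → ℝ) (θ : α → κ → ℂ) (c : α) (v : Option κ → ℂ)
    (x : ℂ) :
    (mix Y (Function.update (wP h θ) c (fun o => C (v o)))).eval x =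
      mix Y (Function.update (wt (fun c => x - h c) θ) c v) := by
  have h1 := map_mix (Polynomial.aeval x : ℂ[X] →ₐ[ℂ] ℂ) Y
    (Function.update (wP h θ) c (fun o => C (v o)))
  rw [Polynomial.coe_aeval_eq_eval] at h1
  rw [h1]
  congr 1
  funext c' o
  by_cases hc : c' = c
  · subst hc
    simp
  · cases o <;> simp [Function.update_of_ne hc, wP]

theorem eval_PP (Y : α → α → ℂ) (h : α → ℝ) (θ : α → κ → ℂ) (x : ℂ) :
    (PP Y h θ).eval x = FF Y (fun c => x - h c) θ := by
  have h1 := map_mix (Polynomial.aeval x : ℂ[X] →ₐ[ℂ] ℂ) Y (wP h θ)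
  rw [Polynomial.coe_aeval_eq_eval] at h1
  rw [PP, h1, FF]
  congr 1
  funext c' o
  cases o <;> simp [wP]

theorem Mix_NM_none (Y : α → α → ℂ) : NM Y (fun _ => (none : Option κ)) = 1 := by
  ext c c'
  simp [NM, Matrix.one_apply]

/-- Recipe: the term `τ = none` is `∏ (X - C h)` (`NM Y (fun _ => none) = 1`), every other term has
degree `< card α`. -/
theorem monic_PP (Y : α → α → ℂ) (h : α → ℝ) (θ : α → κ → ℂ) :
    (PP Y h θ).Monic ∧ (PP Y h θ).natDegree = Fintype.card α := by
  set P : ℂ[X] := ∏ c, (X - C (h c : ℂ)) with hP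
  have hPm : P.Monic := monic_prod_of_monic _ _ fun c _ => monic_X_sub_C _
  have hPd : P.natDegree = Fintype.card α := by
    rw [hP, natDegree_prod_of_monic _ _ fun c _ => monic_X_sub_C _]
    simp
  set Q : ℂ[X] := ∑ τ ∈ Finset.univ.erase (fun _ : α => (none : Option κ)),
    (NM Y τ).det • ∏ c, wP h θ c (τ c) with hQ
  have hPP : PP Y h θ = P + Q := by
    rw [PP, mix, ← Finset.add_sum_erase _ _ (Finset.mem_univ fun _ : α => (none : Option κ)),
      Mix_NM_none]
    simp [hP, hQ, wP]
  have hQd : Q.degree < P.degree := by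
    rw [degree_eq_natDegree hPm.ne_zero, hPd]
    refine (degree_sum_le _ _).trans_lt ((Finset.sup_lt_iff (WithBot.bot_lt_coe _)).mpr
      fun τ hτ => ?_)
    obtain ⟨c₀, hc₀⟩ := Function.ne_iff.mp (Finset.ne_of_mem_erase hτ)
    refine (degree_smul_le _ _).trans_lt (degree_le_natDegree.trans_lt ?_)
    have h1 : ∀ c, (wP h θ c (τ c)).natDegree ≤ 1 := by
      intro c
      cases τ c
      · simp [wP]
      · simp [wP]
    have h2 : (wP h θ c₀ (τ c₀)).natDegree < 1 := by
      obtain ⟨k, hk⟩ := Option.ne_none_iff_exists'.mp hc₀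
      simp [wP, hk]
    have h3 : ∑ c, (wP h θ c (τ c)).natDegree < ∑ _c : α, 1 :=
      Finset.sum_lt_sum (fun c _ => h1 c) ⟨c₀, Finset.mem_univ _, h2⟩
    have h4 : (∏ c, wP h θ c (τ c)).natDegree < Fintype.card α :=
      (natDegree_prod_le _ _).trans_lt (by simpa using h3)
    exact_mod_cast h4
  rw [hPP]
  exact ⟨hPm.add_of_left hQd, by rw [natDegree_add_eq_left_of_degree_lt hQd, hPd]⟩

/-- Principal-minor form of the determinant: if the rows outside `p` are rows of the identity.
Recipe: `Matrix.twoBlockTriangular_det`. -/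
theorem det_eq_det_toSquareBlockProp (A : Matrix α α ℂ) (p : α → Prop) [DecidablePred p]
    (hA : ∀ c, ¬ p c → ∀ c', A c c' = if c = c' then 1 else 0) :
    A.det = (A.toSquareBlockProp p).det := by
  rw [Matrix.twoBlockTriangular_det A p fun i hi j hj => by
    rw [hA i hi j, if_neg (by rintro rfl; exact hi hj)]]
  have : A.toSquareBlockProp (fun i => ¬ p i) = 1 := by
    ext c c'
    simp [Matrix.toSquareBlockProp_def, hA c c.2, Matrix.one_apply, Subtype.ext_iff]
  rw [this, Matrix.det_one, mul_one]

theorem Mix_decouple (p : α → Prop) [DecidablePred p] (Y : α → α → ℂ) (ω : α → Option κ → R)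
    (hY : ∀ c c', p c → ¬ p c' →
      Y c' c = 0 ∨ (∀ k, ω c (some k) = 0) ∨ (∀ k, ω c' (some k) = 0)) :
    mix Y ω = mix (fun c c' : {c // p c} => Y c c') (fun c => ω c) *
      mix (fun c c' : {c // ¬ p c} => Y c c') (fun c => ω c) := by
  simp only [mix]
  rw [Finset.sum_mul_sum, ← Fintype.sum_prod_type']
  refine Fintype.sum_equiv (Equiv.piEquivPiSubtypeProd p fun _ => Option κ) _ _ fun τ => ?_
  simp only [Equiv.piEquivPiSubtypeProd_apply]
  rw [smul_mul_smul_comm, Fintype.prod_subtype_mul_prod_subtype p fun c => ω c (τ c)]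
  by_cases h0 : ∃ c, ω c (τ c) = 0
  · obtain ⟨c, hc⟩ := h0
    rw [Finset.prod_eq_zero (Finset.mem_univ c) hc, smul_zero, smul_zero]
  · push Not at h0
    congr 1
    rw [Matrix.twoBlockTriangular_det (NM Y τ) p fun i hi j hj => ?_]
    · congr 2
      · ext c c'
        simp [Matrix.toSquareBlockProp_def, NM, Subtype.ext_iff]
      · ext c c'
        simp [Matrix.toSquareBlockProp_def, NM, Subtype.ext_iff]
    · have hij : i ≠ j := by rintro rfl; exact hi hj
      simp only [NM, Matrix.of_apply, hij, if_false]
      split_ifs with h1 h2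
      · rfl
      · push Not at h1
        obtain ⟨k, hk⟩ := Option.ne_none_iff_exists'.mp h1.1
        obtain ⟨k', hk'⟩ := Option.ne_none_iff_exists'.mp h1.2
        rcases hY j i hj hi with h | h | h
        · simp [h]
        · exact absurd (hk' ▸ h k') (h0 j)
        · exact absurd (hk ▸ h k) (h0 i)
      · rfl

theorem Mix_reindex (e : α ≃ α') (Y : α' → α' → ℂ) (ω : α' → Option κ → R) :
    mix (fun c c' => Y (e c) (e c')) (fun c => ω (e c)) = mix Y ω := by
  simp only [mix]
  refine Fintype.sum_equiv (Equiv.arrowCongr e (Equiv.refl _)) _ _ fun τ => ?_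
  congr 1
  · rw [← Matrix.det_submatrix_equiv_self e]
    congr 1
    ext c c'
    simp [NM]
  · refine Fintype.prod_equiv e _ _ fun c => ?_
    simp

theorem Mix_of_zero (Y : α → α → ℂ) (ω : α → Option κ → R) (hω : ∀ c k, ω c (some k) = 0) :
    mix Y ω = ∏ c, ω c none := by
  rw [mix, Finset.sum_eq_single fun _ : α => (none : Option κ)]
  · rw [Mix_NM_none, Matrix.det_one, one_smul]
  · intro τ _ hτ
    obtain ⟨c, hc⟩ := Function.ne_iff.mp hτ
    obtain ⟨k, hk⟩ := Option.ne_none_iff_exists'.mp hc
    rw [Finset.prod_eq_zero (Finset.mem_univ c) (by rw [hk, hω]), smul_zero]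
  · simp

/-- Cells of weight zero factor out; reindexing.  Recipe: terms with `τ' c' ≠ none` for some
`c' ∉ range j` vanish; the others are in bijection with `τ : α → Option κ`
(`τ' = Function.extend j τ none`, `Finset.sum_bij'` or `Finset.sum_of_injOn`), and
`det (NM Y' τ') = det (NM (Y' ∘ j) τ)` by `det_eq_det_toSquareBlockProp` with `p = (· ∈ range j)`
and `Matrix.det_submatrix_equiv_self` for `Equiv.ofInjective j`. -/
theorem mix_embed (j : α ↪ α') (Y : α' → α' → ℂ) (ω : α' → Option κ → R)
    (hω : ∀ c', c' ∉ Set.range j → ∀ k, ω c' (some k) = 0) :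
    mix Y ω = mix (fun c c' => Y (j c) (j c')) (fun c => ω (j c)) *
      ∏ c' ∈ Finset.univ.filter (fun c' => c' ∉ Set.range j), ω c' none := by
  rw [Mix_decouple (fun c' => c' ∈ Set.range j) Y ω fun c c' _ hc' => Or.inr (Or.inr (hω c' hc'))]
  refine congrArg₂ (· * ·) ?_ ?_
  · exact (@Mix_reindex α {c // c ∈ Set.range j} κ _ _ (Subtype.fintype _) _ _ _ R _ _
      (Equiv.ofInjective j j.injective)
      (fun c c' : {c // c ∈ Set.range j} => Y c c') fun c => ω c).symm
  · rw [Mix_of_zero _ (fun c : {c // ¬ c ∈ Set.range j} => ω c) fun c k => hω c c.2 k]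
    exact (Finset.prod_subtype (p := fun c' => c' ∉ Set.range j) _ (by simp)
      fun c' => ω c' none).symm

/-- Decoupling.  Recipe: split `τ` along `Equiv.piEquivPiSubtypeProd p`; if the weight product is
nonzero then `NM Y τ` has no entry from `¬ p` to `p`, so `Matrix.twoBlockTriangular_det` applies;
`Finset.prod_subtype_mul_prod_subtype`, `Finset.sum_mul_sum`. -/
theorem mix_decouple (p : α → Prop) [DecidablePred p] (Y : α → α → ℂ) (ω : α → Option κ → R)
    (hY : ∀ c c', p c → ¬ p c' →
      Y c' c = 0 ∨ (∀ k, ω c (some k) = 0) ∨ (∀ k, ω c' (some k) = 0)) :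
    mix Y ω = mix (fun c c' : {c // p c} => Y c c') (fun c => ω c) *
      mix (fun c c' : {c // ¬ p c} => Y c c') (fun c => ω c) :=
  Mix_decouple p Y ω hY

/-- Gauge invariance: `NM` is conjugated by the diagonal matrix of the `u c`
(replace `u c` by `1` on uncoloured cells). -/
theorem mix_gauge (u : α → ℂ) (hu : ∀ c, star (u c) * u c = 1) (Y : α → α → ℂ)
    (ω : α → Option κ → R) :
    mix (fun c c' => star (u c) * Y c c' * u c') ω = mix Y ω := by
  simp only [mix]
  refine Finset.sum_congr rfl fun τ _ => ?_
  congr 1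
  have e : NM (fun c c' => star (u c) * Y c c' * u c') τ =
      Matrix.diagonal (fun c => star (u c)) * NM Y τ * Matrix.diagonal u := by
    ext c c'
    simp only [Matrix.mul_diagonal, Matrix.diagonal_mul, NM, Matrix.of_apply]
    split_ifs with h1 h2 h3
    · subst h2
      rw [mul_one, hu]
    · simp
    · ring
    · simp
  rw [e, Matrix.det_mul, Matrix.det_mul, Matrix.det_diagonal, Matrix.det_diagonal, mul_right_comm,
    ← Finset.prod_mul_distrib]
  simp only [hu, Finset.prod_const_one, one_mul]

/-- Only the entries between weighted cells matter, and across cells without a common colour the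
entries do not matter either. -/
theorem mix_congr_Y (Y Y' : α → α → ℂ) (ω : α → Option κ → R)
    (h : ∀ c c' k, ω c (some k) ≠ 0 → ω c' (some k) ≠ 0 → Y c c' = Y' c c') :
    mix Y ω = mix Y' ω := by
  simp only [mix]
  refine Finset.sum_congr rfl fun τ _ => ?_
  by_cases h0 : ∃ c, ω c (τ c) = 0
  · obtain ⟨c, hc⟩ := h0
    rw [Finset.prod_eq_zero (Finset.mem_univ c) hc, smul_zero, smul_zero]
  · push Not at h0
    congr 2
    ext c c'
    simp only [NM, Matrix.of_apply]
    split_ifs with h1 h2 h3
    · rfl
    · rfl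
    · push Not at h1
      obtain ⟨k, hk⟩ := Option.ne_none_iff_exists'.mp h1.1
      rw [h c c' k (hk ▸ h0 c) (by rw [← hk, h3]; exact h0 c')]
    · rfl

/-- Base case: at most one colour per cell.  Recipe: only `τ` with `τ c ∈ {none, τ₀ c}` survive;
they correspond to subsets `s` of the coloured cells; expand the determinant on the right by
multilinearity in the rows (`Matrix.det` as `detRowAlternating`, `MultilinearMap.map_add_univ`:
row `c` is `z c • e_c + b c • (- Y-row)`), pull out the scalars (`Matrix.det_mul_column` or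
`map_smul_univ`) and compare both determinants with the principal minor on `s`
(`det_eq_det_toSquareBlockProp`). -/
theorem FF_unit (Y : α → α → ℂ) (z : α → ℂ) (τ₀ : α → Option κ) (b : α → ℂ) :
    FF Y z (fun c k => if τ₀ c = some k then b c else 0) =
      (Matrix.of fun c c' => (if c = c' then z c else 0) -
        (if τ₀ c ≠ none ∧ τ₀ c = τ₀ c' then b c * Y c c' else 0)).det := by
  classical
  set r : α → α → ℂ := fun c c' => if τ₀ c ≠ none ∧ τ₀ c = τ₀ c' then - Y c c' else 0 with hr
  set e : α → α → ℂ := fun c c' => if c = c' then 1 else 0 with he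
  have h1 : (Matrix.of fun c c' => (if c = c' then z c else 0) -
      (if τ₀ c ≠ none ∧ τ₀ c = τ₀ c' then b c * Y c c' else 0)).det =
      ∑ s : Finset α, (∏ c, s.piecewise b z c) * (Matrix.of (s.piecewise r e)).det := by
    have e1 : (Matrix.of fun c c' => (if c = c' then z c else 0) -
        (if τ₀ c ≠ none ∧ τ₀ c = τ₀ c' then b c * Y c c' else 0)) =
        Matrix.of ((fun c => b c • r c) + fun c => z c • e c) := by
      ext c c'
      simp only [Matrix.of_apply, Pi.add_apply, Pi.smul_apply, hr, he, smul_eq_mul]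
      split_ifs <;> ring
    rw [e1]
    refine (Matrix.detRowAlternating.map_add_univ (fun c => b c • r c) fun c => z c • e c).trans ?_
    refine Finset.sum_congr rfl fun s _ => ?_
    have e2 : s.piecewise (fun c => b c • r c) (fun c => z c • e c) =
        fun c => s.piecewise b z c • s.piecewise r e c := by
      funext c
      by_cases hc : c ∈ s <;> simp [hc]
    rw [e2]
    exact Matrix.detRowAlternating.map_smul_univ _ _
  rw [h1, ← Finset.sum_subset (Finset.subset_univ
    (Finset.univ.filter fun s : Finset α => ∀ c ∈ s, τ₀ c ≠ none))]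
  · symm
    rw [FF, mix]
    refine Finset.sum_of_injOn (fun s c => if c ∈ s then τ₀ c else none) ?_ (by simp) ?_ ?_
    · intro s hs s' hs' hss
      simp only [Finset.coe_filter, Finset.mem_univ, true_and, Set.mem_ofPred_eq] at hs hs'
      ext c
      have := congrFun hss c
      constructor
      · intro hc
        by_contra hc'
        simp only [hc, hc', if_true, if_false] at this
        exact hs c hc this
      · intro hc
        by_contra hc'
        simp only [hc, hc', if_true, if_false] at this
        exact hs' c hc this.symm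
    · intro τ _ hτ
      by_contra hne
      refine hτ ⟨Finset.univ.filter fun c => τ c ≠ none, ?_, ?_⟩
      · simp only [Finset.coe_filter, Finset.mem_univ, true_and, Set.mem_ofPred_eq,
          Finset.mem_filter]
        intro c hc h0
        obtain ⟨k, hk⟩ := Option.ne_none_iff_exists'.mp hc
        exact hne (by rw [Finset.prod_eq_zero (Finset.mem_univ c) (by simp [hk, h0]), smul_zero])
      · funext c
        by_cases hc : τ c = none
        · simp [hc]
        · obtain ⟨k, hk⟩ := Option.ne_none_iff_exists'.mp hc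
          simp only [Finset.mem_filter, Finset.mem_univ, true_and, hk]
          by_contra h0
          have h0' : τ₀ c ≠ some k := by simpa using h0
          exact hne (by rw [Finset.prod_eq_zero (Finset.mem_univ c) (by simp [hk, h0']), smul_zero])
    · intro s hs
      have hs' : ∀ c ∈ s, τ₀ c ≠ none := (Finset.mem_filter.mp hs).2
      rw [smul_eq_mul, mul_comm]
      congr 1
      · rw [det_eq_det_toSquareBlockProp _ (fun c => c ∈ s) fun c hc c' => by simp [hc, he],
          det_eq_det_toSquareBlockProp (NM Y _) (fun c => c ∈ s) fun c hc c' => by simp [hc, NM]]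
        congr 1
        ext c c'
        simp [Matrix.toSquareBlockProp_def, NM, hr, hs' c c.2, hs' c' c'.2]
      · refine Finset.prod_congr rfl fun c _ => ?_
        by_cases hc : c ∈ s
        · obtain ⟨k, hk⟩ := Option.ne_none_iff_exists'.mp (hs' c hc)
          simp [hc, hk]
        · simp [hc]
  · intro s _ hs
    simp only [Finset.mem_filter, Finset.mem_univ, true_and, not_forall, not_not] at hs
    obtain ⟨c, hc, h0⟩ := hs
    rw [Matrix.det_eq_zero_of_row_eq_zero c fun c' => by simp [hc, hr, h0], mul_zero]

/-- `NM Y τ` is Hermitian, so its determinant is real. -/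
theorem star_FF {Y : α → α → ℂ} (hY : Herm Y) (z : α → ℂ) (θ : α → κ → ℂ) :
    star (FF Y z θ) = FF Y (fun c => star (z c)) (fun c k => star (θ c k)) := by
  simp only [FF, mix, star_sum, smul_eq_mul, star_mul', star_prod]
  refine Finset.sum_congr rfl fun τ _ => ?_
  congr 1
  · rw [← Matrix.det_conjTranspose]
    congr 1
    ext c c'
    simp only [Matrix.conjTranspose_apply, NM, Matrix.of_apply]
    rw [hY c c']
    by_cases h1 : τ c = none ∨ τ c' = none
    · simp only [h1, h1.symm, if_true]
      by_cases h2 : c = c'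
      · simp [h2]
      · simp [h2, Ne.symm h2]
    · have h1' : ¬(τ c' = none ∨ τ c = none) := fun h => h1 h.symm
      simp only [h1, h1', if_false]
      by_cases h2 : τ c = τ c'
      · simp [h2]
      · simp [h2, Ne.symm h2]
  · refine Finset.prod_congr rfl fun c _ => ?_
    cases τ c <;> rfl

theorem continuous_FF (Y : α → α → ℂ) (θ : α → κ → ℂ) : Continuous fun z => FF Y z θ := by
  simp only [FF, mix, smul_eq_mul]
  refine continuous_finsetSum _ fun τ _ => continuous_const.mul ?_
  refine continuous_finsetProd _ fun c _ => ?_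
  cases τ c
  · exact continuous_apply c
  · exact continuous_const

end Basic

end

end Crest.Agent.R109
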