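import Crest.Agent.R109.PF
import Crest.Agent.R109.Mix

/-!
# Row 109, barrier argument: the one-variable step and the starting determinant
-/

open Polynomial
open scoped BigOperators

set_option linter.unusedSectionVars false

namespace Crest.Agent.R109

noncomputable section

/-- `-1 ≤ Y ≤ 1` as a form on `Λ` -/
def FormLe {X : Type*} (Y : X → X → ℂ) (Λ : Finset X) (t : ℝ) : Prop :=
  ∀ c : X → ℂ, ‖∑ s ∈ Λ, ∑ s' ∈ Λ, star (c s) * Y s s' * c s'‖ ≤ t * ∑ s ∈ Λ, ‖c s‖ ^ 2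

theorem barPoly_sum_lin (T : Multiset ℝ) (a b : ℝ) (f : ℝ → ℝ) (c : ℝ) :
    (T.map fun ν => a + b * ν + c * f ν).sum =
      a * Multiset.card T + b * T.sum + c * (T.map f).sum := by
  induction T using Multiset.induction_on with
  | empty => simp
  | cons x T ih =>
    simp only [Multiset.map_cons, Multiset.sum_cons, ih, Multiset.card_cons]
    push_cast
    ring

theorem barPoly_roots (T : Multiset ℝ) {ρ : ℝ} (hρ1 : 1 ≤ ρ) (hc : (Multiset.card T : ℝ) = ρ ^ 2)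
    (hlt : ∀ ν ∈ T, ν < 2 * ρ)
    (hsum : (T.map fun ν => 1 / (2 * ρ - ν)).sum ≤ ρ ^ 2 / (2 * ρ - 1 / ρ)) (h0 : 0 ≤ T.sum) :
    T.sum ≤ ρ ∧ ∀ ν ∈ T, -(4 * ρ) ≤ ν := by
  have hρ0 : 0 < ρ := by linarith
  have hs1 : 1 / ρ ≤ 1 := (div_le_one hρ0).2 hρ1
  have hs0 : 0 < 1 / ρ := by positivity
  obtain ⟨d, hd⟩ : ∃ d, d = 2 * ρ - 1 / ρ := ⟨_, rfl⟩
  have hdρ : ρ ≤ d := by linarith
  have hd0 : 0 < d := by linarith
  rw [← hd] at hsum
  constructor
  · have h1 : (T.map fun ν => (1 / d - 1 / ρ / d ^ 2) + 1 / d ^ 2 * ν + 0 * (0 : ℝ)).sum ≤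
        (T.map fun ν => 1 / (2 * ρ - ν)).sum := by
      refine Multiset.sum_map_le_sum_map _ _ fun ν hν => ?_
      have h2 : 0 < 2 * ρ - ν := by linarith [hlt ν hν]
      obtain ⟨e, he⟩ : ∃ e, e = 2 * ρ - ν := ⟨_, rfl⟩
      have h3 : ν = d + 1 / ρ - e := by rw [hd, he]; ring
      rw [← he] at h2 ⊢
      have h4 : 1 / e - ((1 / d - 1 / ρ / d ^ 2) + 1 / d ^ 2 * ν + 0 * (0 : ℝ)) =
          (d - e) ^ 2 / (e * d ^ 2) := by
        rw [h3]; field_simp; ring
      have h5 : 0 ≤ (d - e) ^ 2 / (e * d ^ 2) := by positivity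
      linarith
    rw [barPoly_sum_lin T _ _ (fun _ => 0) 0, hc] at h1
    have h6 : (1 / d - 1 / ρ / d ^ 2) * ρ ^ 2 = ρ ^ 2 / d - 1 / d ^ 2 * ρ := by field_simp
    have h7 : 1 / d ^ 2 * T.sum ≤ 1 / d ^ 2 * ρ := by linarith
    exact le_of_mul_le_mul_left h7 (by positivity)
  · intro ν hν
    have h1 : (T.map fun ν => 1 / (2 * ρ - ν)).sum =
        (T.map fun ν => 1 / (2 * ρ) + 1 / (2 * ρ) ^ 2 * ν +
          1 / (2 * ρ) ^ 2 * (ν ^ 2 / (2 * ρ - ν))).sum := by
      congr 1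
      refine Multiset.map_congr rfl fun ν hν => ?_
      have h2 : 2 * ρ - ν ≠ 0 := by linarith [hlt ν hν]
      field_simp
      ring
    rw [barPoly_sum_lin, hc] at h1
    have h2 : ν ^ 2 / (2 * ρ - ν) ≤ (T.map fun ν => ν ^ 2 / (2 * ρ - ν)).sum := by
      refine Multiset.single_le_sum (fun x hx => ?_) _ (Multiset.mem_map_of_mem _ hν)
      obtain ⟨y, hy, rfl⟩ := Multiset.mem_map.1 hx
      have : 0 < 2 * ρ - y := by linarith [hlt y hy]
      positivity
    have h3 : ρ ^ 2 / d - 1 / (2 * ρ) * ρ ^ 2 = 1 / (2 * ρ) ^ 2 * (2 * ρ ^ 2 / d) := by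
      have : 2 * ρ = d + 1 / ρ := by linarith
      have h4 : ρ ^ 2 / d - 1 / (2 * ρ) * ρ ^ 2 = ρ ^ 2 * (2 * ρ - d) / (2 * ρ * d) := by
        field_simp
      rw [h4, show 2 * ρ - d = 1 / ρ by linarith]
      field_simp
    have h4 : 0 ≤ 1 / (2 * ρ) ^ 2 * T.sum := by positivity
    have h5 : 1 / (2 * ρ) ^ 2 * (T.map fun ν => ν ^ 2 / (2 * ρ - ν)).sum ≤
        1 / (2 * ρ) ^ 2 * (2 * ρ ^ 2 / d) := by linarith
    have h6 := le_of_mul_le_mul_left h5 (by positivity)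
    have h7 : 2 * ρ ^ 2 / d ≤ 2 * ρ := by
      rw [div_le_iff₀ hd0]; nlinarith
    have h8 : 0 < 2 * ρ - ν := by linarith [hlt ν hν]
    have h9 : ν ^ 2 ≤ 2 * ρ * (2 * ρ - ν) := by
      rw [← div_le_iff₀ h8]; linarith
    by_contra hlt'
    push Not at hlt'
    nlinarith

theorem barPoly_map_re (s : Multiset ℂ) (hs : ∀ z ∈ s, z.im = 0) :
    s = (s.map Complex.re).map Complex.ofReal := by
  rw [Multiset.map_map]
  conv_lhs => rw [← Multiset.map_id s]
  refine Multiset.map_congr rfl fun z hz => ?_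
  apply Complex.ext <;> simp [hs z hz]

theorem barPoly_ofReal_sum (T : Multiset ℝ) (f : ℝ → ℝ) :
    (T.map fun ν => (f ν : ℂ)).sum = ((T.map f).sum : ℝ) := by
  induction T using Multiset.induction_on with
  | empty => simp
  | cons x T ih => simp only [Multiset.map_cons, Multiset.sum_cons, ih]; push_cast; ring

/-- the top coefficient in a partial fraction expansion -/
theorem barPoly_coeff (p G : ℂ[X]) (hp : p.Monic) (hr : ∀ z ∈ p.roots, z.im = 0) (m : ℝ → ℝ)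
    (h : ∀ z : ℂ, p.eval z ≠ 0 → G.eval z = p.eval z * ∑ μ ∈ poles p, (m μ : ℂ) / (z - μ)) :
    G.coeff (p.natDegree - 1) = ∑ μ ∈ poles p, (m μ : ℂ) := by
  have hroot : ∀ μ ∈ poles p, p.IsRoot (μ : ℂ) := by
    intro μ hμ
    obtain ⟨z, hz, rfl⟩ := Multiset.mem_map.1 (Multiset.mem_toFinset.1 hμ)
    have : (z.re : ℂ) = z := by apply Complex.ext <;> simp [hr z hz]
    rw [this]
    exact (mem_roots hp.ne_zero).1 hz
  have e : G = ∑ μ ∈ poles p, C (m μ : ℂ) * (p /ₘ (X - C (μ : ℂ))) := by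
    apply eq_of_infinite_eval_eq
    refine Set.Infinite.mono (s := {z | p.IsRoot z}ᶜ) (fun z hz => ?_)
      (Set.Finite.infinite_compl (finite_setOfPred_isRoot hp.ne_zero))
    have hz' : p.eval z ≠ 0 := hz
    show G.eval z = _
    rw [h z hz', eval_finsetSum, Finset.mul_sum]
    refine Finset.sum_congr rfl fun μ hμ => ?_
    have h1 := congrArg (eval z) (mul_divByMonic_eq_iff_isRoot.2 (hroot μ hμ))
    rw [eval_mul, eval_sub, eval_X, eval_C] at h1
    have h2 : z - μ ≠ 0 := by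
      intro h0
      rw [h0, zero_mul] at h1
      exact hz' h1.symm
    rw [eval_mul, eval_C, ← h1]
    field_simp
  rw [e, finsetSum_coeff]
  refine Finset.sum_congr rfl fun μ hμ => ?_
  have h1 := mul_divByMonic_eq_iff_isRoot.2 (hroot μ hμ)
  have h2 : (p /ₘ (X - C (μ : ℂ))).Monic :=
    Monic.of_mul_monic_left (monic_X_sub_C _) (by rw [h1]; exact hp)
  have h3 : (p /ₘ (X - C (μ : ℂ))).natDegree = p.natDegree - 1 := by
    rw [natDegree_divByMonic _ (monic_X_sub_C _), natDegree_X_sub_C]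
  rw [coeff_C_mul, ← h3, h2.coeff_natDegree, mul_one]

/-- Recipe.  `q = P ∏ (X - ν i)`, `r` real roots `ν i < w = 2ρ`, `∑ ν = -P₁ / P ≥ 0`
(`Polynomial.Splits.nextCoeff_eq_neg_sum_roots..` / Vieta), and
`∑ 1 / (w - ν i) ≤ r / (w - 1/ρ)` (`Splits.eval_derivative_div_eval_of_ne_zero`).
Tangent line `1/(w - ν) ≥ 1/(w - s) + (ν - s)/(w - s)²` (`s = 1/ρ`) gives `∑ ν ≤ r s = ρ`.
From `1/(w - ν) = 1/w + ν/w² + ν²/(w²(w - ν))` each root has
`ν²/(w - ν) ≤ r w s/(w - s) ≤ 2ρ`, hence `ν ≥ -4ρ`.  So `z - ∑ ν ≥ 6ρ ≥ w - ν i`.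
Write `A = (Aᵣ/P) q + G`, `degree G < r`; `partial_fractions` for `G / P` and the monic `q / P`
gives `A/q = Aᵣ/P + ∑ m μ/(· - μ)`, and `G.coeff (r-1) = P ∑ m μ` (polynomial identity
`G * ∏ (X - μ) = q * ∑ m μ ∏_{ν ≠ μ} (X - ν)`, compare top coefficients; or let `z → ∞`).  Then
`(z Aᵣ + A₁)/(z P + P₁) = Aᵣ/P + (∑ m)/(z - ∑ ν) ≤ Aᵣ/P + ∑ m μ/(w - μ)`. -/
theorem barrier_poly (r : ℕ) (ρ : ℝ) (hρ : ρ ^ 2 = r) (hρ1 : 1 ≤ ρ) (q A : ℂ[X])
    (P P₁ Aᵣ A₁ : ℝ) (hP : 0 < P) (hq : q.natDegree ≤ r) (hA : A.natDegree ≤ r)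
    (hqr : q.coeff r = P) (hq1 : q.coeff (r - 1) = P₁) (hAr : A.coeff r = Aᵣ)
    (hA1 : A.coeff (r - 1) = A₁)
    (hroot : ∀ z : ℂ, q.eval z = 0 → z.im = 0 ∧ z.re < 2 * ρ)
    (hlog : (q.derivative.eval ((2 * ρ : ℝ) : ℂ) / q.eval ((2 * ρ : ℝ) : ℂ)).re ≤
      r / (2 * ρ - 1 / ρ))
    (hP₁ : P₁ ≤ 0) (hI : ∀ z : ℂ, 0 < z.im → (A.eval z / q.eval z).im ≤ 0)
    {z : ℝ} (hz : 7 * ρ ≤ z) :
    0 < z * P + P₁ ∧ (z * Aᵣ + A₁) / (z * P + P₁) ≤
      (A.eval ((2 * ρ : ℝ) : ℂ) / q.eval ((2 * ρ : ℝ) : ℂ)).re := by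
  have hρ0 : 0 < ρ := by linarith
  have hr1 : 1 ≤ r := by
    have : (1 : ℝ) ≤ r := by rw [← hρ]; nlinarith
    exact_mod_cast this
  have hP' : (P : ℂ) ≠ 0 := by exact_mod_cast hP.ne'
  have hdeg : q.natDegree = r := le_antisymm hq (le_natDegree_of_ne_zero (by rwa [hqr]))
  have hlead : q.leadingCoeff = P := by rw [leadingCoeff, hdeg, hqr]
  have hq0 : q ≠ 0 := by
    intro h0
    rw [h0, leadingCoeff_zero] at hlead
    exact hP' hlead.symm
  have hsp := IsAlgClosed.splits q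
  have him : ∀ z ∈ q.roots, z.im = 0 := fun z hz => (hroot z ((mem_roots hq0).1 hz)).1
  obtain ⟨T, hT⟩ : ∃ T, T = q.roots.map Complex.re := ⟨_, rfl⟩
  have hTq : q.roots = T.map Complex.ofReal := by rw [hT]; exact barPoly_map_re _ him
  have hlt : ∀ ν ∈ T, ν < 2 * ρ := by
    intro ν hν
    rw [hT] at hν
    obtain ⟨z, hz, rfl⟩ := Multiset.mem_map.1 hν
    exact (hroot z ((mem_roots hq0).1 hz)).2
  have hcard : (Multiset.card T : ℝ) = ρ ^ 2 := by
    rw [hT, Multiset.card_map, splits_iff_card_roots.1 hsp, hdeg, hρ]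
  have hw : q.eval ((2 * ρ : ℝ) : ℂ) ≠ 0 := by
    intro h0
    have := (hroot _ h0).2
    simp at this
  have hsum : (T.map fun ν => 1 / (2 * ρ - ν)).sum ≤ ρ ^ 2 / (2 * ρ - 1 / ρ) := by
    rw [hsp.eval_derivative_div_eval_of_ne_zero hw, hTq, Multiset.map_map, ← hρ] at hlog
    have e : (T.map ((fun z : ℂ => 1 / (((2 * ρ : ℝ) : ℂ) - z)) ∘ Complex.ofReal)) =
        T.map fun ν => ((1 / (2 * ρ - ν) : ℝ) : ℂ) :=
      Multiset.map_congr rfl fun ν _ => by simp
    rwa [e, barPoly_ofReal_sum, Complex.ofReal_re] at hlog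
  have hP1 : P₁ = -P * T.sum := by
    have h1 := hsp.nextCoeff_eq_neg_sum_roots_mul_leadingCoeff
    rw [nextCoeff_of_natDegree_pos (by omega), hdeg, hq1, hlead, hTq] at h1
    have h2 := barPoly_ofReal_sum T id
    simp only [id, Multiset.map_id'] at h2
    rw [h2] at h1
    exact_mod_cast h1
  have h0 : 0 ≤ T.sum := by
    by_contra hneg
    push Not at hneg
    nlinarith
  obtain ⟨hσ, hν⟩ := barPoly_roots T hρ1 hcard hlt hsum h0
  have hden : z * P + P₁ = P * (z - T.sum) := by rw [hP1]; ring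
  have hzσ : 6 * ρ ≤ z - T.sum := by linarith
  have hzσ0 : 0 < z - T.sum := by linarith
  refine ⟨by rw [hden]; positivity, ?_⟩
  obtain ⟨p, hp⟩ : ∃ p, p = C (P : ℂ)⁻¹ * q := ⟨_, rfl⟩
  obtain ⟨G, hG⟩ : ∃ G, G = C (P : ℂ)⁻¹ * (A - C ((Aᵣ : ℂ) / P) * q) := ⟨_, rfl⟩
  have hpm : p.Monic := by
    rw [hp, Monic, leadingCoeff_mul, leadingCoeff_C, hlead, inv_mul_cancel₀ hP']
  have hpr : p.roots = q.roots := by rw [hp, roots_C_mul _ (inv_ne_zero hP')]
  have hpd : p.natDegree = r := by rw [hp, natDegree_C_mul (inv_ne_zero hP'), hdeg]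
  have hGd : G.degree < p.degree := by
    rw [degree_eq_natDegree hpm.ne_zero, hpd, degree_lt_iff_coeff_zero]
    intro k hk
    rw [hG, coeff_C_mul, coeff_sub, coeff_C_mul]
    rcases hk.eq_or_lt with rfl | hk
    · rw [hAr, hqr, div_mul_cancel₀ _ hP', sub_self, mul_zero]
    · rw [coeff_eq_zero_of_natDegree_lt (hA.trans_lt hk),
        coeff_eq_zero_of_natDegree_lt (hq.trans_lt hk)]
      simp
  have hquot : ∀ z : ℂ, q.eval z ≠ 0 →
      G.eval z / p.eval z = A.eval z / q.eval z - ((Aᵣ / P : ℝ) : ℂ) := by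
    intro z hz
    rw [hG, hp]
    simp only [eval_mul, eval_C, eval_sub]
    push_cast
    field_simp
  obtain ⟨m, hm0, hm⟩ := partial_fractions p G hpm (by rwa [hpr]) hGd fun z hz => by
    have h1 : q.eval z ≠ 0 := fun h0 => by
      have := (hroot z h0).1
      linarith
    rw [hquot z h1, Complex.sub_im, Complex.ofReal_im, sub_zero]
    exact hI z hz
  have hc := barPoly_coeff p G hpm (by rwa [hpr]) m hm
  rw [hpd, hG, coeff_C_mul, coeff_sub, coeff_C_mul, hA1, hq1] at hc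
  have hc' : P⁻¹ * (A₁ - Aᵣ / P * P₁) = ∑ μ ∈ poles p, m μ := by exact_mod_cast hc
  have hpw : p.eval ((2 * ρ : ℝ) : ℂ) ≠ 0 := by
    rw [hp, eval_mul, eval_C]
    exact mul_ne_zero (inv_ne_zero hP') hw
  have h1 := hquot _ hw
  rw [hm _ hpw, mul_div_cancel_left₀ _ hpw, eq_sub_iff_add_eq] at h1
  have h2 : ∑ μ ∈ poles p, (m μ : ℂ) / (((2 * ρ : ℝ) : ℂ) - μ) =
      ((∑ μ ∈ poles p, m μ / (2 * ρ - μ) : ℝ) : ℂ) := by push_cast; rfl
  rw [← h1, h2, ← Complex.ofReal_add, Complex.ofReal_re]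
  have h3 : (z * Aᵣ + A₁) / (z * P + P₁) = (∑ μ ∈ poles p, m μ) / (z - T.sum) + Aᵣ / P := by
    rw [← hc', hden, hP1]
    field_simp
    ring
  rw [h3, Finset.sum_div]
  refine add_le_add (Finset.sum_le_sum fun μ hμ => ?_) le_rfl
  have hμ' : μ ∈ T := by
    rw [hT, ← hpr]
    exact Multiset.mem_toFinset.1 hμ
  exact div_le_div_of_nonneg_left (hm0 μ) (by linarith [hlt μ hμ']) (by linarith [hν μ hμ'])

variable {α κ : Type*} [Fintype α] [DecidableEq α] [Fintype κ] [DecidableEq κ]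

/-- the kernel on coloured sites -/
def barPolyB (Y : α → α → ℂ) (S : Finset (α × κ)) (s s' : α × κ) : ℂ :=
  if s ∈ S ∧ s' ∈ S ∧ s.2 = s'.2 then Y s.1 s'.1 else 0

theorem barPoly_form {Y : α → α → ℂ} (hf : FormLe Y Finset.univ 1) (S : Finset (α × κ))
    (x : α × κ → ℂ) :
    ‖∑ s, ∑ s', star (x s) * barPolyB Y S s s' * x s'‖ ≤
      ∑ s, if s ∈ S then ‖x s‖ ^ 2 else 0 := by
  have e : ∑ s, ∑ s', star (x s) * barPolyB Y S s s' * x s' =
      ∑ k : κ, ∑ c : α, ∑ c' : α, star (if (c, k) ∈ S then x (c, k) else 0) * Y c c' *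
        (if (c', k) ∈ S then x (c', k) else 0) := by
    rw [Fintype.sum_prod_type_right]
    refine Finset.sum_congr rfl fun k _ => Finset.sum_congr rfl fun c _ => ?_
    rw [Fintype.sum_prod_type]
    refine Finset.sum_congr rfl fun c' _ => ?_
    rw [Finset.sum_eq_single k]
    · unfold barPolyB
      by_cases h1 : (c, k) ∈ S <;> by_cases h2 : (c', k) ∈ S <;> simp [h1, h2]
    · intro k' _ hk
      unfold barPolyB
      rw [if_neg (fun h => hk h.2.2.symm)]
      simp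
    · simp
  rw [e, Fintype.sum_prod_type_right]
  refine (norm_sum_le _ _).trans (Finset.sum_le_sum fun k _ => ?_)
  refine (hf fun c => if (c, k) ∈ S then x (c, k) else 0).trans (le_of_eq ?_)
  rw [one_mul]
  refine Finset.sum_congr rfl fun c _ => ?_
  split_ifs <;> simp

theorem barPoly_form' {Y : α → α → ℂ} (hd : ∀ c, Y c c = 0) (hf : FormLe Y Finset.univ 1) {ρ : ℝ}
    (hρ1 : 1 ≤ ρ) (S : Finset (α × κ)) (s₀ : Option (α × κ)) (x : α × κ → ℂ) :
    (∑ s, ∑ s', star (x s) * barPolyB Y S s s' * x s').re ≤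
      ∑ s, (if s ∈ S then (if some s = s₀ then 1 / ρ else 2 * ρ - 1) else 0) * ‖x s‖ ^ 2 := by
  have hρ0 : 0 < ρ := by linarith
  have hρ' : (ρ : ℂ) ≠ 0 := by exact_mod_cast hρ0.ne'
  obtain ⟨y, hy⟩ : ∃ y : α × κ → ℂ, y = fun s => if some s = s₀ then ((1 / ρ : ℝ) : ℂ) * x s
    else x s := ⟨_, rfl⟩
  obtain ⟨x', hx'⟩ : ∃ x' : α × κ → ℂ, x' = fun s => if some s = s₀ then 0 else x s := ⟨_, rfl⟩
  have e : ∑ s, ∑ s', star (x s) * barPolyB Y S s s' * x s' =
      (ρ : ℂ) * (∑ s, ∑ s', star (y s) * barPolyB Y S s s' * y s') -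
        ((ρ - 1 : ℝ) : ℂ) * ∑ s, ∑ s', star (x' s) * barPolyB Y S s s' * x' s' := by
    simp only [Finset.mul_sum, ← Finset.sum_sub_distrib]
    refine Finset.sum_congr rfl fun s _ => Finset.sum_congr rfl fun s' _ => ?_
    rw [hy, hx']
    by_cases h1 : some s = s₀ <;> by_cases h2 : some s' = s₀
    · obtain rfl : s = s' := Option.some_injective _ (h1.trans h2.symm)
      simp [barPolyB, hd]
    · simp only [h1, h2, if_true, if_false, star_zero, zero_mul, mul_zero, sub_zero, star_mul',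
        RCLike.star_def, Complex.conj_ofReal]
      push_cast
      field_simp
    · simp only [h1, h2, if_true, if_false, star_zero, zero_mul, mul_zero, sub_zero, star_mul',
        RCLike.star_def, Complex.conj_ofReal]
      push_cast
      field_simp
    · simp only [h1, h2, if_false]
      push_cast
      ring
  have h1 := (Complex.re_le_norm _).trans (barPoly_form hf S y)
  have h2 := ((neg_le_abs _).trans (Complex.abs_re_le_norm _)).trans (barPoly_form hf S x')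
  rw [e, Complex.sub_re, Complex.re_ofReal_mul, Complex.re_ofReal_mul]
  have h3 : ∑ s, (if s ∈ S then (if some s = s₀ then 1 / ρ else 2 * ρ - 1) else 0) * ‖x s‖ ^ 2 =
      ρ * (∑ s, if s ∈ S then ‖y s‖ ^ 2 else 0) +
        (ρ - 1) * ∑ s, if s ∈ S then ‖x' s‖ ^ 2 else 0 := by
    simp only [Finset.mul_sum, ← Finset.sum_add_distrib]
    refine Finset.sum_congr rfl fun s _ => ?_
    rw [hy, hx']
    by_cases h3 : s ∈ S
    · by_cases h4 : some s = s₀
      · simp only [h3, h4, if_true, norm_mul, Complex.norm_real, norm_zero, Real.norm_eq_abs,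
          abs_of_pos (one_div_pos.2 hρ0)]
        field_simp
        ring
      · simp only [h3, h4, if_true, if_false]
        ring
    · simp [h3]
  rw [h3]
  have h4 := mul_le_mul_of_nonneg_left h1 hρ0.le
  have h5 := mul_le_mul_of_nonneg_left h2 (sub_nonneg.2 hρ1)
  linarith

/-- The starting point: a positive definite determinant.  Sites are pairs `(c, k)`; a site in `S`
carries the colour `k`, the other sites carry nothing.  Recipe: `FF_unit` with
`τ₀ s = if s ∈ S then some s.2 else none`, `b = 1`; show that the matrix is `PosDef`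
(`Matrix.PosDef.det_pos`).  The form of `B (c,k) (c',k') = Y c c' 1[k = k', both in S]` is a sum
over `k` of forms of `Y`, so `|⟨x, B x⟩| ≤ ‖x‖²` on `S`.  With `x = x' + x₀ e_{s₀}`, `λ = 1/ρ`,
apply this to `x' + λ x₀ e_{s₀}` and to `x'` (the diagonal vanishes):
`⟨x, B x⟩ ≤ λ |x₀|² + (2/λ - 1) ‖x'‖²`, and `2/λ - 1 < 2ρ`. -/
theorem barrier_base {Y : α → α → ℂ} (hY : Herm Y) (hd : ∀ c, Y c c = 0)
    (hf : FormLe Y Finset.univ 1) {ρ : ℝ} (hρ1 : 1 ≤ ρ) (S : Finset (α × κ))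
    (s₀ : Option (α × κ)) (v : α × κ → ℝ) (hv : ∀ s, s ∉ S → 0 < v s)
    (hv' : ∀ s ∈ S, (some s = s₀ ∧ 1 / ρ < v s) ∨ 2 * ρ ≤ v s) :
    0 < (FF (fun s s' : α × κ => Y s.1 s'.1) (fun s => v s)
      (fun s k => if s ∈ S ∧ k = s.2 then 1 else 0)).re := by
  open scoped ComplexOrder in
  have hρ0 : 0 < ρ := by linarith
  have e1 : (fun (s : α × κ) (k : κ) => if s ∈ S ∧ k = s.2 then (1 : ℂ) else 0) =
      fun s k => if (if s ∈ S then some s.2 else none) = some k then 1 else 0 := by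
    funext s k
    by_cases h : s ∈ S <;> simp [h, eq_comm]
  rw [e1, FF_unit (fun s s' : α × κ => Y s.1 s'.1) (fun s => (v s : ℂ))
    (fun s => if s ∈ S then some s.2 else none) (fun _ => 1)]
  have e2 : (Matrix.of fun s s' : α × κ => (if s = s' then (v s : ℂ) else 0) -
      (if (if s ∈ S then some s.2 else none) ≠ none ∧ (if s ∈ S then some s.2 else none) =
        (if s' ∈ S then some s'.2 else none) then 1 * Y s.1 s'.1 else 0)) =
      Matrix.of fun s s' : α × κ => (if s = s' then (v s : ℂ) else 0) - barPolyB Y S s s' := by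
    ext s s'
    simp only [Matrix.of_apply, barPolyB]
    by_cases h : s ∈ S <;> by_cases h' : s' ∈ S <;> simp [h, h']
  rw [e2]
  have hH : (Matrix.of fun s s' : α × κ =>
      (if s = s' then (v s : ℂ) else 0) - barPolyB Y S s s').IsHermitian := by
    ext s s'
    simp only [Matrix.conjTranspose_apply, Matrix.of_apply, star_sub, barPolyB]
    congr 1
    · by_cases h : s = s'
      · subst h; simp
      · rw [if_neg h, if_neg (Ne.symm h), star_zero]
    · by_cases h : s ∈ S ∧ s' ∈ S ∧ s.2 = s'.2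
      · rw [if_pos h, if_pos ⟨h.2.1, h.1, h.2.2.symm⟩, hY s.1 s'.1]
      · rw [if_neg h, if_neg (fun h' => h ⟨h'.2.1, h'.1, h'.2.2.symm⟩), star_zero]
  have hpd : (Matrix.of fun s s' : α × κ =>
      (if s = s' then (v s : ℂ) else 0) - barPolyB Y S s s').PosDef := by
    refine Matrix.PosDef.of_dotProduct_mulVec_pos hH fun x hx => ?_
    rw [Complex.lt_def]
    refine ⟨?_, (hH.im_star_dotProduct_mulVec_self x).symm⟩
    have e3 : star x ⬝ᵥ (Matrix.of fun s s' : α × κ =>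
        (if s = s' then (v s : ℂ) else 0) - barPolyB Y S s s').mulVec x =
        ((∑ s, v s * ‖x s‖ ^ 2 : ℝ) : ℂ) - ∑ s, ∑ s', star (x s) * barPolyB Y S s s' * x s' := by
      simp only [dotProduct, Matrix.mulVec, Matrix.of_apply, sub_mul, Finset.sum_sub_distrib,
        ite_mul, zero_mul, Finset.sum_ite_eq, Finset.mem_univ, if_true, mul_sub, Pi.star_apply,
        Finset.mul_sum, mul_assoc]
      congr 1
      push_cast
      refine Finset.sum_congr rfl fun s _ => ?_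
      rw [mul_left_comm, RCLike.star_def, Complex.conj_mul']
    rw [e3, Complex.sub_re, Complex.ofReal_re, Complex.zero_re, sub_pos]
    refine (barPoly_form' hd hf hρ1 S s₀ x).trans_lt ?_
    have hlt : ∀ s, (if s ∈ S then (if some s = s₀ then 1 / ρ else 2 * ρ - 1) else 0) < v s := by
      intro s
      have h1 : 1 / ρ ≤ 1 := (div_le_one hρ0).2 hρ1
      split_ifs with h2 h3
      · rcases hv' s h2 with h | h
        · exact h.2
        · linarith
      · rcases hv' s h2 with h | h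
        · exact absurd h.1 h3
        · linarith
      · exact hv s h2
    obtain ⟨t, ht⟩ := Function.ne_iff.1 hx
    refine Finset.sum_lt_sum (fun s _ => mul_le_mul_of_nonneg_right (hlt s).le (by positivity))
      ⟨t, Finset.mem_univ _, mul_lt_mul_of_pos_right (hlt t) ?_⟩
    exact pow_pos (norm_pos_iff.2 ht) 2
  exact (Complex.lt_def.1 hpd.det_pos).1

end

end Crest.Agent.R109
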