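import Crest.Agent.R109.Secular2

/-!
# Row 109: most colours are good (the key one-step estimate)
-/

open MeasureTheory Set
open scoped BigOperators

namespace Crest.Agent.R109

noncomputable section

theorem LemL_dom {ν ρ : Measure ℝ} (h : ∀ y, ν (Ioi y) ≤ ρ (Ioi y)) :
    ∫⁻ x, ENNReal.ofReal (Real.exp x) ∂ν ≤ ∫⁻ x, ENNReal.ofReal (Real.exp x) ∂ρ := by
  rw [lintegral_eq_lintegral_meas_lt ν (Filter.Eventually.of_forall fun x => (Real.exp_pos x).le)
      Real.measurable_exp.aemeasurable,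
    lintegral_eq_lintegral_meas_lt ρ (Filter.Eventually.of_forall fun x => (Real.exp_pos x).le)
      Real.measurable_exp.aemeasurable]
  refine setLIntegral_mono' measurableSet_Ioi fun t ht => ?_
  have e : {a : ℝ | t < Real.exp a} = Ioi (Real.log t) := by
    ext a
    exact (Real.log_lt_iff_lt_exp ht).symm
  rw [e]
  exact h _

/-- a finite atomic measure -/
def LemL_rho (s : Finset ℝ) (w g : ℝ → ℝ) : Measure ℝ :=
  ∑ μ ∈ s, ENNReal.ofReal (w μ) • Measure.dirac (g μ)

theorem LemL_rho_Ioi (s : Finset ℝ) {w : ℝ → ℝ} (g : ℝ → ℝ) (hw : ∀ μ ∈ s, 0 ≤ w μ) (y : ℝ) :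
    LemL_rho s w g (Ioi y) = ENNReal.ofReal (∑ μ ∈ s, if y < g μ then w μ else 0) := by
  rw [LemL_rho, Measure.finsetSum_apply, ENNReal.ofReal_sum_of_nonneg fun μ hμ => by
    split_ifs
    exacts [hw μ hμ, le_rfl]]
  refine Finset.sum_congr rfl fun μ _ => ?_
  by_cases hy : y < g μ <;> simp [hy]

theorem LemL_rho_int (s : Finset ℝ) {w : ℝ → ℝ} (g : ℝ → ℝ) (hw : ∀ μ ∈ s, 0 ≤ w μ) :
    ∫⁻ x, ENNReal.ofReal (Real.exp x) ∂(LemL_rho s w g) =
      ENNReal.ofReal (∑ μ ∈ s, w μ * Real.exp (g μ)) := by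
  rw [LemL_rho, lintegral_finsetSum_measure, ENNReal.ofReal_sum_of_nonneg fun μ hμ =>
    mul_nonneg (hw μ hμ) (Real.exp_pos _).le]
  refine Finset.sum_congr rfl fun μ hμ => ?_
  rw [lintegral_smul_measure, lintegral_dirac, ENNReal.ofReal_mul (hw μ hμ), smul_eq_mul]

theorem LemL_up {A : Set ℝ} (hA : IntegrableOn Real.exp A) (s : Finset ℝ) {w : ℝ → ℝ} (g : ℝ → ℝ)
    (hw : ∀ μ ∈ s, 0 ≤ w μ)
    (h : ∀ y, volume (Ioi y ∩ A) ≤ ENNReal.ofReal (∑ μ ∈ s, if y < g μ then w μ else 0)) :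
    ∫ x in A, Real.exp x ≤ ∑ μ ∈ s, w μ * Real.exp (g μ) := by
  have h1 := LemL_dom (ν := volume.restrict A) (ρ := LemL_rho s w g) fun y => by
    rw [Measure.restrict_apply measurableSet_Ioi, LemL_rho_Ioi s g hw]
    exact h y
  rwa [LemL_rho_int s g hw, ← ofReal_integral_eq_lintegral_ofReal hA
    (Filter.Eventually.of_forall fun x => (Real.exp_pos x).le), ENNReal.ofReal_le_ofReal_iff
    (Finset.sum_nonneg fun μ hμ => mul_nonneg (hw μ hμ) (Real.exp_pos _).le)] at h1

theorem LemL_lo {A : Set ℝ} (hA : IntegrableOn Real.exp A) (s : Finset ℝ) {w : ℝ → ℝ} (g : ℝ → ℝ)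
    (hw : ∀ μ ∈ s, 0 ≤ w μ)
    (h : ∀ y, ENNReal.ofReal (∑ μ ∈ s, if y < g μ then w μ else 0) ≤ volume (Ioi y ∩ A)) :
    ∑ μ ∈ s, w μ * Real.exp (g μ) ≤ ∫ x in A, Real.exp x := by
  have h1 := LemL_dom (ρ := volume.restrict A) (ν := LemL_rho s w g) fun y => by
    rw [Measure.restrict_apply measurableSet_Ioi, LemL_rho_Ioi s g hw]
    exact h y
  rwa [LemL_rho_int s g hw, ← ofReal_integral_eq_lintegral_ofReal hA
    (Filter.Eventually.of_forall fun x => (Real.exp_pos x).le), ENNReal.ofReal_le_ofReal_iff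
    (integral_nonneg fun x => (Real.exp_pos x).le)] at h1

theorem LemL_neg {c x μ : ℝ} : c / (x - μ) = -(c / (μ - x)) := by
  rw [← neg_sub μ x, div_neg]

theorem LemL_nonneg {h y : ℝ} (hy : h ≤ y) {P : Finset ℝ} {c : ℝ → ℝ} (hc : ∀ μ ∈ P, 0 ≤ c μ)
    (hs : ∀ μ ∈ P, μ ≤ y → c μ = 0) : ∀ μ ∈ P, 0 ≤ c μ / (μ - h) := fun μ hμ => by
  rcases le_or_gt μ y with h1 | h1
  · simp [hs μ hμ h1]
  · exact div_nonneg (hc μ hμ) (by linarith)

/-- Recipe: `length_identity`; for `x < h - L` (`L` the right side) `σ x ≥ -L > x - h`, so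
`Iio h \ Om ⊆ Ico (h - L) h`; `Om ∩ Ioi h ⊆ Om \ Iio h`. -/
theorem vol_Om_le (h : ℝ) (P : Finset ℝ) (c : ℝ → ℝ) (hc : ∀ μ ∈ P, 0 ≤ c μ)
    (hs : ∀ μ ∈ P, μ ≤ h → c μ = 0) :
    volume (Om h P c ∩ Ioi h) ≤ ENNReal.ofReal (∑ μ ∈ P, c μ / (μ - h)) := by
  set L := ∑ μ ∈ P, c μ / (μ - h) with hLdef
  have hL : 0 ≤ L := Finset.sum_nonneg (LemL_nonneg le_rfl hc hs)
  calc volume (Om h P c ∩ Ioi h) ≤ volume (Om h P c \ Iio h) :=
        measure_mono fun x hx => ⟨hx.1, fun h' => lt_asymm (mem_Ioi.1 hx.2) (mem_Iio.1 h')⟩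
    _ = volume (Iio h \ Om h P c) := (length_identity h P c hc).1
    _ ≤ volume (Ico (h - L) h) := by
        refine measure_mono fun x hx => ⟨not_lt.1 fun h' => hx.2 ?_, hx.1⟩
        have h1 : -L ≤ ∑ μ ∈ P, c μ / (x - μ) := by
          rw [hLdef, ← Finset.sum_neg_distrib]
          refine Finset.sum_le_sum fun μ hμ => ?_
          rcases le_or_gt μ h with h1 | h1
          · simp [hs μ hμ h1]
          · rw [LemL_neg (x := x), neg_le_neg_iff]
            exact div_le_div_of_nonneg_left (hc μ hμ) (by linarith) (by linarith)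
        show x - h < _
        linarith
    _ = ENNReal.ofReal L := by rw [Real.volume_Ico, sub_sub_cancel]

/-- Recipe: on `[h, y]` the secular function is `≤ 0`, so `Om \ Iio h ⊆ Om ∩ Ioi y`; for
`h - L/2 < x < h` we have `μ - x ≤ 2 (μ - h)`, so `σ x ≤ -L/2 < x - h` and `x ∉ Om`;
`length_identity`. -/
theorem le_vol_Om (h y : ℝ) (hy : h ≤ y) (P : Finset ℝ) (c : ℝ → ℝ) (hc : ∀ μ ∈ P, 0 ≤ c μ)
    (hs : ∀ μ ∈ P, μ ≤ y → c μ = 0) (hL : ∑ μ ∈ P, c μ / (μ - h) ≤ 2 * (y - h)) :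
    ENNReal.ofReal ((∑ μ ∈ P, c μ / (μ - h)) / 2) ≤ volume (Om h P c ∩ Ioi y) := by
  set L := ∑ μ ∈ P, c μ / (μ - h) with hLdef
  calc ENNReal.ofReal (L / 2) = volume (Ioo (h - L / 2) h) := by
        rw [Real.volume_Ioo, sub_sub_cancel]
    _ ≤ volume (Iio h \ Om h P c) := by
        refine measure_mono fun x hx => ⟨hx.2, fun h' => ?_⟩
        have h0 : x - h < ∑ μ ∈ P, c μ / (x - μ) := h'
        have h1 : ∑ μ ∈ P, c μ / (x - μ) ≤ -(L / 2) := by
          rw [hLdef, Finset.sum_div, ← Finset.sum_neg_distrib]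
          refine Finset.sum_le_sum fun μ hμ => ?_
          rcases le_or_gt μ y with h1 | h1
          · simp [hs μ hμ h1]
          · rw [LemL_neg (x := x), neg_le_neg_iff, div_div]
            exact div_le_div_of_nonneg_left (hc μ hμ) (by linarith [hx.2]) (by linarith [hx.1])
        linarith [hx.1]
    _ = volume (Om h P c \ Iio h) := (length_identity h P c hc).1.symm
    _ ≤ volume (Om h P c ∩ Ioi y) := by
        refine measure_mono fun x hx => ⟨hx.1, mem_Ioi.2 (not_le.1 fun h' => hx.2 ?_)⟩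
        have h0 : x - h < ∑ μ ∈ P, c μ / (x - μ) := hx.1
        have h1 : ∑ μ ∈ P, c μ / (x - μ) ≤ 0 := by
          refine Finset.sum_nonpos fun μ hμ => ?_
          rcases le_or_gt μ y with h1 | h1
          · simp [hs μ hμ h1]
          · exact div_nonpos_of_nonneg_of_nonpos (hc μ hμ) (by linarith)
        show x < h
        linarith

/-- Upper bound.  Recipe: `∫_{Om ∩ Iic (X+1)} exp ≤ exp (X+1)`.  For `x > X + 1` in `Om h P a`,
`σ_low x ≤ σ_low (X+1) ≤ (X+1-h)/2`, so `x ∈ Om h P b`, `b = 2 a 1[X < μ]`.  With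
`ℓ μ = b μ / (μ - h)`, `∑ ℓ ≤ 2 H exp (-X) ≤ 1/2`.  For `y ≥ X` and `x > y + 1` in `Om h P b`:
`2 ∑_{μ ≤ y} b μ / (x - μ) ≤ 2 (y - h) ∑ ℓ ≤ y - h`, so `x ∈ Om h P (2 b 1[y < μ])`, whose part in
`Ioi h` has measure `≤ 2 ∑_{y < μ} ℓ μ` (`vol_Om_le`).  Layer cake
(`MeasureTheory.lintegral_eq_lintegral_meas_lt` for `volume.restrict (Om ∩ Ioi (X+1))`, with
`y = max X (log t - 1)`): the integral is `≤ 2 ∑ ℓ μ exp (μ + 1) = 4 e H`. -/
theorem EE_upper (h X : ℝ) (hX : h + 1 ≤ X) (P : Finset ℝ) (a : ℝ → ℝ) (ha : ∀ μ ∈ P, 0 ≤ a μ)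
    (hlow : 2 * ∑ μ ∈ P.filter (· ≤ X), a μ / (X + 1 - μ) ≤ X + 1 - h)
    (hhigh : ∑ μ ∈ P.filter (X < ·), a μ * Real.exp μ / (μ - h) ≤ Real.exp X / 4) :
    EE h P a ≤ 6 * Real.exp X := by
  have iA := integrableOn_exp_Om h P a
  have hE := Real.exp_pos X
  have key : ∀ y, X ≤ y → Om h P a ∩ Ioi (y + 1) ⊆
      Om h P (fun μ => if y < μ then 4 * a μ else 0) ∩ Ioi h := by
    intro y hy x hx
    have hx1 : x - h < ∑ μ ∈ P, a μ / (x - μ) := hx.1
    have hx2 : y + 1 < x := hx.2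
    refine ⟨?_, show h < x by linarith⟩
    show x - h < ∑ μ ∈ P, (if y < μ then 4 * a μ else 0) / (x - μ)
    have h1 : ∑ μ ∈ P, a μ / (x - μ) ≤ ∑ μ ∈ P, ((if μ ≤ X then a μ / (X + 1 - μ) else 0) +
        (x - h) / Real.exp X * (if X < μ then a μ * Real.exp μ / (μ - h) else 0) +
        (if y < μ then 4 * a μ else 0) / (x - μ) / 4) := by
      refine Finset.sum_le_sum fun μ hμ => ?_
      have h0 := ha μ hμ
      rcases le_or_gt μ X with h2 | h2
      · rw [if_pos h2, if_neg (not_lt.2 h2), if_neg (not_lt.2 (h2.trans hy))]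
        simp only [mul_zero, zero_div, add_zero]
        exact div_le_div_of_nonneg_left h0 (by linarith) (by linarith)
      · rw [if_neg (not_le.2 h2), if_pos h2, zero_add]
        have h3 : 0 < μ - h := by linarith
        rcases le_or_gt μ y with h4 | h4
        · rw [if_neg (not_lt.2 h4)]
          simp only [zero_div, add_zero]
          refine (div_le_self h0 (by linarith)).trans ?_
          have e : (x - h) / Real.exp X * (a μ * Real.exp μ / (μ - h)) =
              a μ * ((x - h) / (μ - h) * (Real.exp μ / Real.exp X)) := by ring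
          rw [e]
          exact le_mul_of_one_le_right h0 (one_le_mul_of_one_le_of_one_le
            ((one_le_div h3).2 (by linarith)) ((one_le_div hE).2 (Real.exp_le_exp.2 h2.le)))
        · rw [if_pos h4]
          have : 0 ≤ (x - h) / Real.exp X * (a μ * Real.exp μ / (μ - h)) :=
            mul_nonneg (div_nonneg (by linarith) hE.le) (by positivity)
          have e : 4 * a μ / (x - μ) / 4 = a μ / (x - μ) := by ring
          linarith
    rw [Finset.sum_add_distrib, Finset.sum_add_distrib, ← Finset.mul_sum, ← Finset.sum_div,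
      ← Finset.sum_filter, ← Finset.sum_filter] at h1
    have h2 : (x - h) / Real.exp X * ∑ μ ∈ P.filter (X < ·), a μ * Real.exp μ / (μ - h) ≤
        (x - h) / 4 := by
      refine (mul_le_mul_of_nonneg_left hhigh (div_nonneg (by linarith) hE.le)).trans (le_of_eq ?_)
      field_simp
    linarith
  have h1 : ∫ x in Om h P a ∩ Iic (X + 1), Real.exp x ≤ Real.exp (X + 1) := by
    rw [← integral_exp_Iic]
    exact setIntegral_mono_set (integrableOn_exp_Iic _)
      (Filter.Eventually.of_forall fun x => (Real.exp_pos x).le) inter_subset_right.eventuallyLE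
  have h2 : ∫ x in Om h P a \ Iic (X + 1), Real.exp x ≤
      ∑ μ ∈ P.filter (X < ·), 4 * a μ / (μ - h) * Real.exp (μ + 1) := by
    refine LemL_up (iA.mono_set sdiff_subset) _ (fun μ => μ + 1) (fun μ hμ => ?_) fun y => ?_
    · obtain ⟨h3, h4⟩ := Finset.mem_filter.1 hμ
      exact div_nonneg (by linarith [ha μ h3]) (by linarith)
    · refine (measure_mono (t := Om h P a ∩ Ioi (max X (y - 1) + 1)) fun x hx => ⟨hx.2.1, ?_⟩).trans
        ((measure_mono (key _ (le_max_left _ _))).trans ((vol_Om_le h P _ (fun μ hμ => ?_)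
          fun μ _ hμ => ?_).trans (le_of_eq ?_)))
      · have h3 : y < x := hx.1
        have h4 : X + 1 < x := not_le.1 hx.2.2
        show max X (y - 1) + 1 < x
        rcases max_choice X (y - 1) with e | e <;> rw [e] <;> linarith
      · split_ifs
        exacts [by linarith [ha μ hμ], le_rfl]
      · exact if_neg (not_lt.2 (by linarith [le_max_left X (y - 1)]))
      · rw [Finset.sum_filter]
        congr 1
        refine Finset.sum_congr rfl fun μ _ => ?_
        simp only [max_lt_iff, sub_lt_iff_lt_add]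
        by_cases h3 : X < μ <;> by_cases h4 : y < μ + 1 <;> simp [h3, h4]
  have h3 : ∑ μ ∈ P.filter (X < ·), 4 * a μ / (μ - h) * Real.exp (μ + 1) =
      4 * Real.exp 1 * ∑ μ ∈ P.filter (X < ·), a μ * Real.exp μ / (μ - h) := by
    rw [Finset.mul_sum]
    refine Finset.sum_congr rfl fun μ _ => ?_
    rw [Real.exp_add]
    ring
  have h4 := Real.exp_one_lt_d9
  have h5 := Real.exp_pos 1
  rw [EE, ← integral_inter_add_sdiff measurableSet_Iic iA (t := Iic (X + 1))]
  rw [Real.exp_add] at h1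
  nlinarith

/-- Lower bound for small total length.  Recipe: by `length_identity`,
`EE - exp h ≥ ∫_{Om ∩ Ioi h} (exp x - exp h)` (compare with the constant weight `exp h`); it is
enough to keep `∫_{Om ∩ Ioi (h+10)} (exp x - exp (h+10))`, which by the layer cake formula is
`∫_{t > exp (h+10)} vol (Om ∩ Ioi (log t)) dt`, and for `y ≥ h + 10`
`Om h P (b 1[y < μ]) ∩ Ioi y ⊆ Om h P b`, so `le_vol_Om` bounds the volume below by
`(1/2) ∑_{y < μ} b μ / (μ - h)`.  Total `(1/2) ∑ b μ / (μ - h) (exp μ - exp (h+10))`, and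
`exp (h + 10) ≤ exp μ / 400`.  (In fact `EE ≥ ∫_{Om ∩ Ioi (h+10)} exp` is enough.) -/
theorem EE_lower (h X : ℝ) (hX : h + 16 ≤ X) (P : Finset ℝ) (b : ℝ → ℝ) (hb : ∀ μ ∈ P, 0 ≤ b μ)
    (hs : ∀ μ ∈ P, μ ≤ X → b μ = 0) (hL : ∑ μ ∈ P, b μ / (μ - h) ≤ 20) :
    0.49 * ∑ μ ∈ P, b μ * Real.exp μ / (μ - h) ≤ EE h P b := by
  have h0 := LemL_nonneg (h := h) (by linarith : h ≤ X) hb hs
  have h1 : ∑ μ ∈ P, b μ / (μ - h) / 2 * Real.exp μ ≤ EE h P b := by
    refine LemL_lo (integrableOn_exp_Om h P b) P (fun μ => μ)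
      (fun μ hμ => div_nonneg (h0 μ hμ) zero_le_two) fun y => ?_
    set z := max y (h + 10) with hz
    have h2 : ∀ μ ∈ P, 0 ≤ if z < μ then b μ else 0 := fun μ hμ => by
      split_ifs
      exacts [hb μ hμ, le_rfl]
    have h3 := le_vol_Om h z (by linarith [le_max_right y (h + 10)]) P _ h2
      (fun μ _ hμ => if_neg (not_lt.2 hμ)) (by
        refine (Finset.sum_le_sum fun μ hμ => ?_).trans
          (hL.trans (by linarith [le_max_right y (h + 10)]))
        split_ifs
        exacts [le_rfl, by simpa using h0 μ hμ])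
    refine (le_of_eq ?_).trans (h3.trans (measure_mono fun x hx => ⟨?_, ?_⟩))
    · rw [Finset.sum_div]
      congr 1
      refine Finset.sum_congr rfl fun μ hμ => ?_
      rcases le_or_gt μ X with h4 | h4
      · simp [hs μ hμ h4]
      · have : h + 10 < μ := by linarith
        by_cases h5 : y < μ <;> simp [hz, h5, this]
    · exact (le_max_left y (h + 10)).trans_lt hx.2
    · have h4 : x - h < ∑ μ ∈ P, (if z < μ then b μ else 0) / (x - μ) := hx.1
      have h5 : z < x := hx.2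
      refine show x - h < ∑ μ ∈ P, b μ / (x - μ) from h4.trans_le (Finset.sum_le_sum fun μ hμ => ?_)
      split_ifs with h6
      · exact le_rfl
      · rw [zero_div]
        exact div_nonneg (hb μ hμ) (by linarith)
  have e : ∑ μ ∈ P, b μ * Real.exp μ / (μ - h) = 2 * ∑ μ ∈ P, b μ / (μ - h) / 2 * Real.exp μ := by
    rw [Finset.mul_sum]
    exact Finset.sum_congr rfl fun μ _ => by ring
  have h2 : 0 ≤ ∑ μ ∈ P, b μ / (μ - h) / 2 * Real.exp μ :=
    Finset.sum_nonneg fun μ hμ => mul_nonneg (div_nonneg (h0 μ hμ) zero_le_two) (Real.exp_pos _).le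
  rw [e]
  linarith

/-- Recipe: let `L = ∑_{X < μ} a μ / (μ - h)`.  If `20 < L` apply `EE_lower` and `EE_mono` to
`b = (20 / L) a 1[X < μ]`: `EE ≥ 0.49 * 20 exp X`, absurd.  Otherwise apply them to `a 1[X < μ]`. -/
theorem high_le_of_EE_le (h X : ℝ) (hX : h + 16 ≤ X) (P : Finset ℝ) (a : ℝ → ℝ)
    (ha : ∀ μ ∈ P, 0 ≤ a μ) (hE : EE h P a ≤ 6 * Real.exp X) :
    ∑ μ ∈ P.filter (X < ·), a μ * Real.exp μ / (μ - h) ≤ 13 * Real.exp X := by
  set L := ∑ μ ∈ P.filter (X < ·), a μ / (μ - h) with hLdef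
  set H := ∑ μ ∈ P.filter (X < ·), a μ * Real.exp μ / (μ - h) with hH
  have hX0 := Real.exp_pos X
  have key : ∀ θ : ℝ, 0 ≤ θ → θ ≤ 1 → θ * L ≤ 20 → 0.49 * (θ * H) ≤ 6 * Real.exp X := by
    intro θ h0 h1 h2
    have hb : ∀ μ ∈ P, 0 ≤ if X < μ then θ * a μ else 0 := fun μ hμ => by
      split_ifs
      exacts [mul_nonneg h0 (ha μ hμ), le_rfl]
    have h3 := EE_lower h X hX P _ hb (fun μ _ hμ => if_neg (not_lt.2 hμ)) (by
      refine (le_of_eq ?_).trans h2
      rw [hLdef, Finset.mul_sum, Finset.sum_filter]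
      refine Finset.sum_congr rfl fun μ _ => ?_
      split_ifs <;> ring)
    have h4 := EE_mono h P hb (a' := a) fun μ hμ => by
      split_ifs
      exacts [mul_le_of_le_one_left (ha μ hμ) h1, ha μ hμ]
    refine (le_of_eq ?_).trans (h3.trans (h4.trans hE))
    rw [hH, Finset.mul_sum, Finset.sum_filter]
    congr 1
    refine Finset.sum_congr rfl fun μ _ => ?_
    split_ifs <;> ring
  rcases le_or_gt L 20 with h1 | h1
  · have := key 1 zero_le_one le_rfl (by linarith)
    linarith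
  · exfalso
    have hL : 0 < L := by linarith
    have h2 := key (20 / L) (by positivity) ((div_le_one hL).2 h1.le) (by field_simp; rfl)
    have h3 : L * Real.exp X ≤ H := by
      rw [hLdef, Finset.sum_mul]
      refine Finset.sum_le_sum fun μ hμ => ?_
      obtain ⟨h3, h4⟩ := Finset.mem_filter.1 hμ
      rw [div_mul_eq_mul_div]
      exact div_le_div_of_nonneg_right (mul_le_mul_of_nonneg_left (Real.exp_le_exp.2 h4.le)
        (ha μ h3)) (by linarith)
    have h4 : 20 * Real.exp X ≤ 20 / L * H :=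
      (le_of_eq (by field_simp)).trans (mul_le_mul_of_nonneg_left h3 (by positivity))
    linarith

/-- Recipe: otherwise `Ioo (X+1) (X+3) ⊆ Om h P (a 1[μ ≤ X])` (`x - μ ≤ 3 (X + 1 - μ)`), so by
`EE_mono` `EE ≥ exp (X+3) - exp (X+1) > 6 exp X`. -/
theorem low_le_of_EE_le (h X : ℝ) (hX : h + 16 ≤ X) (P : Finset ℝ) (a : ℝ → ℝ)
    (ha : ∀ μ ∈ P, 0 ≤ a μ) (hE : EE h P a ≤ 6 * Real.exp X) :
    ∑ μ ∈ P.filter (· ≤ X), a μ / (X + 1 - μ) ≤ 4 * (X + 1 - h) := by
  by_contra hc
  have hb : ∀ μ ∈ P, 0 ≤ if μ ≤ X then a μ else 0 := fun μ hμ => by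
    split_ifs
    exacts [ha μ hμ, le_rfl]
  have h1 := EE_mono h P hb (a' := a) fun μ hμ => by
    split_ifs
    exacts [le_rfl, ha μ hμ]
  have h2 : Ioc (X + 1) (X + 3) ⊆ Om h P fun μ => if μ ≤ X then a μ else 0 := by
    intro x hx
    have h3 : (∑ μ ∈ P.filter (· ≤ X), a μ / (X + 1 - μ)) / 3 ≤
        ∑ μ ∈ P, (if μ ≤ X then a μ else 0) / (x - μ) := by
      rw [Finset.sum_div, Finset.sum_filter]
      refine Finset.sum_le_sum fun μ hμ => ?_
      split_ifs with h3
      · rw [div_div]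
        exact div_le_div_of_nonneg_left (ha μ hμ) (by linarith [hx.1]) (by linarith [hx.2])
      · simp
    show x - h < _
    linarith [hx.2]
  have h3 : ∫ x in Ioc (X + 1) (X + 3), Real.exp x ≤ EE h P fun μ => if μ ≤ X then a μ else 0 :=
    setIntegral_mono_set (integrableOn_exp_Om h P _)
      (Filter.Eventually.of_forall fun x => (Real.exp_pos x).le) h2.eventuallyLE
  have e : Real.exp (X + 3) = Real.exp X * (Real.exp 1 * Real.exp 1 * Real.exp 1) := by
    simp only [← Real.exp_add]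
    congr 1
    ring
  rw [← intervalIntegral.integral_of_le (by linarith), integral_exp, e, Real.exp_add] at h3
  have h4 := Real.exp_one_gt_d9
  have h5 := Real.exp_pos X
  have h6 : 6 < Real.exp 1 * Real.exp 1 * Real.exp 1 - Real.exp 1 := by
    have : 7 < Real.exp 1 * Real.exp 1 := by nlinarith
    nlinarith
  nlinarith

/-- Lemma L.  Recipe: let `W` be the left side of the inequality in the filter and
`X = log (W / 6) ≥ h + 16` (`EE ≥ 0`).  By Markov's inequality and the two previous lemmas at most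
`0.052 r` colours violate `hhigh` and at most `0.008 r` violate `hlow` of `EE_upper`. -/
theorem lemmaL {κ : Type*} [Fintype κ] (h : ℝ) (P : Finset ℝ) (a : κ → ℝ → ℝ)
    (ha : ∀ k, ∀ μ ∈ P, 0 ≤ a k μ) :
    4 * (Finset.univ.filter fun k =>
      EE h P (fun μ => 1000 / Fintype.card κ * ∑ k, a k μ) + 6 * Real.exp (h + 16) <
        EE h P (a k)).card ≤ Fintype.card κ := by
  rcases Nat.eq_zero_or_pos (Fintype.card κ) with hr | hr
  · have := Finset.card_filter_le (Finset.univ : Finset κ) fun k =>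
      EE h P (fun μ => 1000 / Fintype.card κ * ∑ k, a k μ) + 6 * Real.exp (h + 16) < EE h P (a k)
    rw [Finset.card_univ] at this
    omega
  have hr' : (0 : ℝ) < Fintype.card κ := by exact_mod_cast hr
  set A : ℝ → ℝ := fun μ => 1000 / Fintype.card κ * ∑ k, a k μ with hA
  have hA0 : ∀ μ ∈ P, 0 ≤ A μ := fun μ hμ =>
    mul_nonneg (by positivity) (Finset.sum_nonneg fun k _ => ha k μ hμ)
  have hE0 : 0 ≤ EE h P A := integral_nonneg fun x => (Real.exp_pos x).le
  have hE1 := Real.exp_pos (h + 16)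
  set W := EE h P A + 6 * Real.exp (h + 16) with hW
  set X := Real.log (W / 6) with hXdef
  have hXW : Real.exp X = W / 6 := Real.exp_log (by linarith)
  have hX : h + 16 ≤ X := Real.exp_le_exp.1 (by linarith)
  have hE : EE h P A ≤ 6 * Real.exp X := by linarith
  have h1 := high_le_of_EE_le h X hX P A hA0 hE
  have h2 := low_le_of_EE_le h X hX P A hA0 hE
  have hX0 := Real.exp_pos X
  have hX1 : 0 < X + 1 - h := by linarith
  set H : κ → ℝ := fun k => ∑ μ ∈ P.filter (X < ·), a k μ * Real.exp μ / (μ - h) with hH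
  set S : κ → ℝ := fun k => ∑ μ ∈ P.filter (· ≤ X), a k μ / (X + 1 - μ) with hS
  have hH0 : ∀ k, 0 ≤ H k := fun k => Finset.sum_nonneg fun μ hμ => by
    obtain ⟨h3, h4⟩ := Finset.mem_filter.1 hμ
    exact div_nonneg (mul_nonneg (ha k μ h3) (Real.exp_pos _).le) (by linarith)
  have hS0 : ∀ k, 0 ≤ S k := fun k => Finset.sum_nonneg fun μ hμ => by
    obtain ⟨h3, h4⟩ := Finset.mem_filter.1 hμ
    exact div_nonneg (ha k μ h3) (by linarith)
  have e1 : ∑ μ ∈ P.filter (X < ·), A μ * Real.exp μ / (μ - h) =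
      1000 / Fintype.card κ * ∑ k, H k := by
    rw [Finset.sum_comm, Finset.mul_sum]
    refine Finset.sum_congr rfl fun μ _ => ?_
    rw [← Finset.sum_div, ← Finset.sum_mul]
    ring
  have e2 : ∑ μ ∈ P.filter (· ≤ X), A μ / (X + 1 - μ) = 1000 / Fintype.card κ * ∑ k, S k := by
    rw [Finset.sum_comm, Finset.mul_sum]
    refine Finset.sum_congr rfl fun μ _ => ?_
    rw [← Finset.sum_div]
    ring
  rw [e1, div_mul_eq_mul_div, div_le_iff₀ hr'] at h1
  rw [e2, div_mul_eq_mul_div, div_le_iff₀ hr'] at h2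
  have h3 := Finset.card_nsmul_le_sum (Finset.univ.filter fun k => W < EE h P (a k))
    (fun k => 4 * H k / Real.exp X + 2 * S k / (X + 1 - h)) 1 fun k hk => by
      have h4 : W < EE h P (a k) := (Finset.mem_filter.1 hk).2
      have h5 : 0 ≤ 4 * H k / Real.exp X := div_nonneg (by linarith [hH0 k]) hX0.le
      have h6 : 0 ≤ 2 * S k / (X + 1 - h) := div_nonneg (by linarith [hS0 k]) hX1.le
      by_contra hc
      have h7 : 4 * H k < Real.exp X := (div_lt_one hX0).1 (by linarith)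
      have h8 : 2 * S k < X + 1 - h := (div_lt_one hX1).1 (by linarith)
      have := EE_upper h X (by linarith) P (a k) (ha k) h8.le
        (show H k ≤ Real.exp X / 4 by linarith)
      linarith
  have h4 : ∑ k ∈ Finset.univ.filter fun k => W < EE h P (a k),
      (4 * H k / Real.exp X + 2 * S k / (X + 1 - h)) ≤
      ∑ k, (4 * H k / Real.exp X + 2 * S k / (X + 1 - h)) :=
    Finset.sum_le_sum_of_subset_of_nonneg (Finset.filter_subset _ _) fun k _ _ =>
      add_nonneg (div_nonneg (by linarith [hH0 k]) hX0.le) (div_nonneg (by linarith [hS0 k]) hX1.le)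
  rw [Finset.sum_add_distrib (s := Finset.univ), ← Finset.sum_div, ← Finset.sum_div,
    ← Finset.mul_sum, ← Finset.mul_sum] at h4
  have h5 : (4 * ∑ k, H k) / Real.exp X ≤ 0.052 * Fintype.card κ := by
    rw [div_le_iff₀ hX0]
    linarith
  have h6 : (2 * ∑ k, S k) / (X + 1 - h) ≤ 0.008 * Fintype.card κ := by
    rw [div_le_iff₀ hX1]
    linarith
  rw [nsmul_eq_mul, mul_one] at h3
  have h7 : (4 : ℝ) * (Finset.univ.filter fun k => W < EE h P (a k)).card ≤ Fintype.card κ := by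
    linarith
  exact_mod_cast h7

end

end Crest.Agent.R109
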