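import Mathlib

/-!
# Row 109: partial fractions of rational Herglotz functions; power sums of roots; iterated Schwarz
-/

open Polynomial
open scoped BigOperators

namespace Crest.Agent.R109

noncomputable section

/-- the real parts of the roots, without multiplicity -/
def poles (p : ℂ[X]) : Finset ℝ := (p.roots.map Complex.re).toFinset

lemma PF_local {ψ : ℂ → ℂ} {a : ℂ} (ha : a.im = 0) (hψ : ContinuousAt ψ a) (d : ℕ)
    (h : ∀ z : ℂ, 0 < z.im → (ψ z / (z - a) ^ d).im ≤ 0) {w : ℂ} (hw : 0 < w.im) :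
    (ψ a / w ^ d).im ≤ 0 := by
  have hc : ContinuousAt (fun ε : ℝ => (ψ (a + ε * w) / w ^ d).im) 0 := by
    refine Complex.continuous_im.continuousAt.comp (ContinuousAt.div_const ?_ _)
    refine ContinuousAt.comp (f := fun ε : ℝ => a + ε * w) ?_ (by fun_prop)
    simpa using hψ
  have ht : Filter.Tendsto (fun ε : ℝ => (ψ (a + ε * w) / w ^ d).im) (nhdsWithin 0 (Set.Ioi 0))
      (nhds ((ψ a / w ^ d).im)) := by
    have := hc.tendsto.mono_left (nhdsWithin_le_nhds (s := Set.Ioi 0))
    simpa using this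
  refine le_of_tendsto ht (eventually_nhdsWithin_of_forall fun ε hε => ?_)
  have hε' : (0 : ℝ) < ε := hε
  have h1 := h (a + ε * w) (by simp [ha, mul_pos hε' hw])
  have e : ψ (a + ε * w) / w ^ d = ((ε ^ d : ℝ) : ℂ) * (ψ (a + ε * w) / (a + ε * w - a) ^ d) := by
    have : (ε : ℂ) ≠ 0 := by exact_mod_cast hε'.ne'
    rw [add_sub_cancel_left, mul_pow]
    push_cast
    field_simp
  rw [e, Complex.im_ofReal_mul]
  exact mul_nonpos_of_nonneg_of_nonpos (by positivity) h1

lemma PF_two {c : ℂ} {d : ℕ} (hd : 2 ≤ d) (h : ∀ w : ℂ, 0 < w.im → (c / w ^ d).im ≤ 0) : c = 0 := by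
  have hd' : (2 : ℝ) ≤ d := by exact_mod_cast hd
  have hdp : (0 : ℝ) < d := by linarith
  have key : ∀ β : ℝ, 0 < β → β < 2 * Real.pi → c.im * Real.cos β - c.re * Real.sin β ≤ 0 := by
    intro β h0 h2
    have h1 := h (Complex.exp ((β / d : ℝ) * Complex.I)) (by
      rw [Complex.exp_ofReal_mul_I_im]
      refine Real.sin_pos_of_pos_of_lt_pi (by positivity) ?_
      rw [div_lt_iff₀ hdp]
      nlinarith [Real.pi_pos])
    have e : c / Complex.exp ((β / d : ℝ) * Complex.I) ^ d =
        c * Complex.exp ((-β : ℝ) * Complex.I) := by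
      have : (d : ℂ) ≠ 0 := by exact_mod_cast hdp.ne'
      rw [← Complex.exp_nat_mul, div_eq_mul_inv, ← Complex.exp_neg]
      congr 2
      push_cast
      field_simp
    rw [e, Complex.mul_im, Complex.exp_ofReal_mul_I_im, Complex.exp_ofReal_mul_I_re, Real.sin_neg,
      Real.cos_neg] at h1
    linarith
  have hpi := Real.pi_pos
  have h1 := key (Real.pi / 2) (by linarith) (by linarith)
  have h2 := key (Real.pi / 2 + Real.pi) (by linarith) (by linarith)
  have h3 := key Real.pi (by linarith) (by linarith)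
  have h4 := key (Real.pi / 3) (by linarith) (by linarith)
  rw [Real.cos_pi_div_two, Real.sin_pi_div_two] at h1
  rw [Real.cos_add_pi, Real.sin_add_pi, Real.cos_pi_div_two, Real.sin_pi_div_two] at h2
  rw [Real.cos_pi, Real.sin_pi] at h3
  have hre : c.re = 0 := by linarith
  rw [Real.cos_pi_div_three, hre] at h4
  exact Complex.ext hre (by simp only [Complex.zero_im]; linarith)

lemma PF_one {c : ℂ} (h : ∀ w : ℂ, 0 < w.im → (c / w ^ 1).im ≤ 0) : c = (max c.re 0 : ℝ) := by
  have key : ∀ x : ℝ, c.im * x ≤ c.re := by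
    intro x
    have h1 := h ⟨x, 1⟩ one_pos
    rw [pow_one, Complex.div_im, ← sub_div, div_nonpos_iff] at h1
    have h2 : 0 < Complex.normSq (⟨x, 1⟩ : ℂ) := by
      rw [Complex.normSq_mk]
      nlinarith [mul_self_nonneg x]
    rcases h1 with h1 | h1
    · linarith [h1.2]
    · have := h1.1
      simp only [mul_one] at this
      linarith
  have h0 : 0 ≤ c.re := by simpa using key 0
  have him : c.im = 0 := by
    by_contra hne
    have := key ((c.re + 1) / c.im)
    rw [mul_div_cancel₀ _ hne] at this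
    linarith
  rw [max_eq_left h0]
  exact Complex.ext (by simp) (by simp [him])

lemma PF_mult {p G : ℂ[X]} (hp : p ≠ 0) (hG : G ≠ 0) {a : ℂ} (ha : a.im = 0)
    (hI : ∀ z : ℂ, 0 < z.im → (G.eval z / p.eval z).im ≤ 0) :
    p.rootMultiplicity a ≤ G.rootMultiplicity a + 1 := by
  by_contra hcon
  obtain ⟨p₁, hp₁, hp₂⟩ := exists_eq_pow_rootMultiplicity_mul_and_not_dvd p hp a
  obtain ⟨G₁, hG₁, hG₂⟩ := exists_eq_pow_rootMultiplicity_mul_and_not_dvd G hG a
  rw [dvd_iff_isRoot, IsRoot.def] at hp₂ hG₂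
  obtain ⟨d, hd⟩ : ∃ d, p.rootMultiplicity a = G.rootMultiplicity a + d :=
    ⟨p.rootMultiplicity a - G.rootMultiplicity a, by omega⟩
  have h1 := PF_two (c := G₁.eval a / p₁.eval a) (d := d) (by omega) fun w hw =>
    PF_local (ψ := fun z => G₁.eval z / p₁.eval z) ha
      (G₁.continuous.continuousAt.div p₁.continuous.continuousAt hp₂) d (fun z hz => by
        have h2 := hI z hz
        have hza : z - a ≠ 0 := fun h => by
          rw [sub_eq_zero.1 h, ha] at hz
          exact lt_irrefl _ hz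
        have e1 : p.eval z = (z - a) ^ G.rootMultiplicity a * ((z - a) ^ d * p₁.eval z) := by
          conv_lhs => rw [hp₁, hd]
          simp only [eval_mul, eval_pow, eval_sub, eval_X, eval_C]
          ring
        have e2 : G.eval z = (z - a) ^ G.rootMultiplicity a * G₁.eval z := by
          conv_lhs => rw [hG₁]
          simp only [eval_mul, eval_pow, eval_sub, eval_X, eval_C]
        rw [e1, e2, mul_div_mul_left _ _ (pow_ne_zero _ hza), mul_comm, ← div_div] at h2
        exact h2) hw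
  exact div_ne_zero hG₂ hp₂ h1

/-- Recipe.  If `G = 0` take `m = 0`.  (1) Local lemma: if `ψ` is continuous at the real point `μ`,
`1 ≤ d` and `im (ψ z / (z - μ)^d) ≤ 0` for `0 < im z` near `μ`, then with `z = μ + ε e^{iβ/d}`,
`ε ↓ 0`: `im (ψ μ * e^{-iβ}) ≤ 0` for `0 < β < d π`.  For `2 ≤ d` use `β = π/2, 3π/2, π/4, 5π/4` to
get `ψ μ = 0`; for `d = 1` get `ψ μ` real and `≥ 0` (let `β → 0, π`, and `β = π/2`).
(2) At a root `μ` of multiplicity `j` of `p` and `i` of `G` (`exists_eq_pow_rootMultiplicity_mul_and_not_dvd`)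
(1) gives `j ≤ i + 1`, so `p ∣ G * π` with `π = ∏_{μ ∈ poles p} (X - μ)`
(`Polynomial.Splits.dvd_of_roots_le_roots`-style, or induct); `G * π = p * G₁`,
`degree G₁ < card (poles p)`; Lagrange interpolation (`Lagrange.eq_interpolate`) or "a polynomial of
degree `< n` vanishing at `n` points is zero" gives `G₁ = ∑ c_μ ∏_{ν ≠ μ} (X - ν)`; (1) with `d = 1`
for `ψ z = (z - μ) ∑ c_ν / (z - ν)` shows `c_μ` is real and nonnegative. -/
theorem partial_fractions (p G : ℂ[X]) (hp : p.Monic) (hr : ∀ z ∈ p.roots, z.im = 0)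
    (hd : G.degree < p.degree) (hI : ∀ z : ℂ, 0 < z.im → (G.eval z / p.eval z).im ≤ 0) :
    ∃ m : ℝ → ℝ, (∀ μ, 0 ≤ m μ) ∧
      ∀ z : ℂ, p.eval z ≠ 0 → G.eval z = p.eval z * ∑ μ ∈ poles p, (m μ : ℂ) / (z - μ) := by
  by_cases hG : G = 0
  · exact ⟨fun _ => 0, fun _ => le_rfl, fun z _ => by simp [hG]⟩
  have hp0 : p ≠ 0 := hp.ne_zero
  have hre : ∀ a ∈ p.roots, ((a.re : ℝ) : ℂ) = a := fun a ha =>
    Complex.ext (by simp) (by simp [hr a ha])
  have hpole : ∀ μ ∈ poles p, p.eval (μ : ℂ) = 0 := fun μ hμ => by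
    rw [poles, Multiset.mem_toFinset, Multiset.mem_map] at hμ
    obtain ⟨a, ha, rfl⟩ := hμ
    rw [hre a ha]
    exact (mem_roots hp0).1 ha
  set q : ℂ[X] := Lagrange.nodal (poles p) (fun μ : ℝ => (μ : ℂ)) with hq
  have hq0 : q ≠ 0 := Lagrange.nodal_ne_zero
  have hdvd : p ∣ G * q := by
    refine (IsAlgClosed.splits p).dvd_of_roots_le_roots hp0 (Multiset.le_iff_count.2 fun a => ?_)
    by_cases ha : a ∈ p.roots
    · rw [count_roots, count_roots, rootMultiplicity_mul (mul_ne_zero hG hq0)]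
      have h1 := PF_mult hp0 hG (hr a ha) hI
      have h2 : 0 < q.rootMultiplicity a := by
        rw [rootMultiplicity_pos hq0, IsRoot.def, ← hre a ha]
        exact Lagrange.eval_nodal_at_node (v := fun μ : ℝ => (μ : ℂ))
          (by rw [poles, Multiset.mem_toFinset]; exact Multiset.mem_map_of_mem _ ha)
      omega
    · rw [Multiset.count_eq_zero_of_notMem ha]
      exact Nat.zero_le _
  obtain ⟨G₁, hG₁⟩ := hdvd
  have hG10 : G₁ ≠ 0 := fun h => mul_ne_zero hG hq0 (by rw [hG₁, h, mul_zero])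
  have hdeg : G₁.degree < (poles p).card := by
    have h1 := congrArg natDegree hG₁
    rw [natDegree_mul hG hq0, natDegree_mul hp0 hG10, hq, Lagrange.natDegree_nodal] at h1
    have h2 := natDegree_lt_natDegree hG hd
    rw [degree_eq_natDegree hG10]
    exact_mod_cast (by omega : G₁.natDegree < (poles p).card)
  have hint := Lagrange.eq_interpolate (s := poles p) (v := fun μ : ℝ => (μ : ℂ))
    Complex.ofReal_injective.injOn hdeg
  set c : ℝ → ℂ := fun μ =>
    Lagrange.nodalWeight (poles p) (fun μ : ℝ => (μ : ℂ)) μ * G₁.eval (μ : ℂ) with hc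
  have hmain : ∀ z : ℂ, p.eval z ≠ 0 → G.eval z = p.eval z * ∑ μ ∈ poles p, c μ / (z - μ) := by
    intro z hz
    have hne : ∀ μ ∈ poles p, z ≠ (μ : ℂ) := fun μ hμ h => hz (h ▸ hpole μ hμ)
    have h1 := congrArg (eval z) hG₁
    rw [eval_mul, eval_mul, hint, Lagrange.eval_interpolate_not_at_node _ hne, ← hq,
      mul_left_comm, mul_comm] at h1
    rw [mul_left_cancel₀ (Lagrange.eval_nodal_not_at_node hne) h1]
    congr 1
    refine Finset.sum_congr rfl fun μ _ => ?_
    rw [hc, div_eq_mul_inv, mul_right_comm]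
  refine ⟨fun μ => max (c μ).re 0, fun μ => le_max_right _ _, fun z hz => ?_⟩
  rw [hmain z hz]
  congr 1
  refine Finset.sum_congr rfl fun μ hμ => ?_
  congr 1
  refine PF_one fun w hw => ?_
  have h1 := PF_local (ψ := fun z => c μ + (z - μ) * ∑ ν ∈ (poles p).erase μ, c ν / (z - ν))
    (a := μ) (Complex.ofReal_im μ) (by
      refine continuousAt_const.add (ContinuousAt.mul (by fun_prop) ?_)
      refine tendsto_finsetSum _ fun ν hν => ContinuousAt.div continuousAt_const (by fun_prop) ?_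
      rw [sub_ne_zero]
      exact fun h => (Finset.mem_erase.1 hν).1 (Complex.ofReal_injective h).symm) 1
    (fun z hz => by
      have hz0 : p.eval z ≠ 0 := fun h => by
        have := hr z ((mem_roots hp0).2 h)
        linarith
      have hza : z - μ ≠ 0 := fun h => by
        rw [sub_eq_zero.1 h, Complex.ofReal_im] at hz
        exact lt_irrefl _ hz
      have h2 := hI z hz
      rw [hmain z hz0, mul_div_cancel_left₀ _ hz0, ← Finset.add_sum_erase _ _ hμ] at h2
      rw [pow_one, add_div, mul_div_cancel_left₀ _ hza]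
      exact h2) hw
  simpa using h1

end

end Crest.Agent.R109
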