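import Crest.Agent.R109.Stab
import Crest.Agent.R109.PF
import Crest.Agent.R109.LemL

/-!
# Row 109, finite model: changing the weights of one cell
-/

open Polynomial
open scoped BigOperators

set_option linter.unusedSectionVars false

namespace Crest.Agent.R109

noncomputable section

variable {α κ : Type*} [Fintype α] [DecidableEq α] [Fintype κ] [DecidableEq κ]

/-- the model with the cell `c` put in the pure state `o` -/
def PC (Y : α → α → ℂ) (h : α → ℝ) (θ : α → κ → ℝ) (c : α) (o : Option κ) : ℂ[X] :=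
  mix Y (Function.update (wP h fun c k => (θ c k : ℂ)) c (fun o' => C (Pi.single (M := fun _ => ℂ) o 1 o')))

theorem step_wt_update {R : Type*} (z : α → R) (θ : α → κ → R) (c : α) (a : R) (b : κ → R) :
    wt (Function.update z c a) (Function.update θ c b) =
      Function.update (wt z θ) c (fun o => o.elim a b) := by
  funext c' o
  by_cases hc : c' = c
  · subst hc; simp [wt]
  · simp [wt, Function.update_of_ne hc]

theorem step_coe_update (θ : α → κ → ℝ) (c : α) (v : κ → ℝ) :
    (fun c' k => (Function.update θ c v c' k : ℂ)) =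
      Function.update (fun c' k => (θ c' k : ℂ)) c (fun k => (v k : ℂ)) := by
  funext c' k
  by_cases hc : c' = c
  · subst hc; simp
  · simp [Function.update_of_ne hc]

theorem step_update_nonneg {ι : Type*} [DecidableEq ι] {θ : ι → κ → ℝ} (hθ : ∀ c k, 0 ≤ θ c k)
    (c : ι) {v : κ → ℝ} (hv : ∀ k, 0 ≤ v k) (c' : ι) (k : κ) : 0 ≤ Function.update θ c v c' k := by
  by_cases hc : c' = c
  · subst hc; simpa using hv k
  · simpa [Function.update_of_ne hc] using hθ c' k

theorem step_single_nonneg (k : κ) {b : ℝ} (hb : 0 ≤ b) (k' : κ) :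
    0 ≤ (Pi.single k b : κ → ℝ) k' := by
  by_cases hk : k' = k
  · subst hk; simpa using hb
  · simp [Pi.single_eq_of_ne hk]

theorem step_PP (Y : α → α → ℂ) (h : α → ℝ) (θ : α → κ → ℝ) (c : α) (v : κ → ℝ) :
    (PP Y h fun c' k => (Function.update θ c v c' k : ℂ)) =
      (X - C (h c : ℂ)) * PC Y h θ c none + ∑ k, C (v k : ℂ) * PC Y h θ c (some k) := by
  have e1 : wP h (fun c' k => (Function.update θ c v c' k : ℂ)) =
      Function.update (wP h fun c k => (θ c k : ℂ)) c
        (fun o => o.elim (X - C (h c : ℂ)) (fun k => C (v k : ℂ))) := by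
    funext c' o
    by_cases hc : c' = c
    · subst hc; simp [wP, wt]
    · simp [wP, wt, Function.update_of_ne hc]
  have e2 : ∀ o : Option κ, (Pi.single o 1 : Option κ → ℂ[X]) =
      fun o' => C (Pi.single (M := fun _ => ℂ) o 1 o') := by
    intro o
    funext o'
    by_cases ho : o' = o
    · subst ho; simp
    · simp [Pi.single_eq_of_ne ho]
  rw [PP, e1, mix_update, Fintype.sum_option]
  simp only [e2]
  rfl

theorem step_PP_zero (Y : α → α → ℂ) (h : α → ℝ) (θ : α → κ → ℝ) (c : α) :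
    (PP Y h fun c' k => (Function.update θ c 0 c' k : ℂ)) =
      (X - C (h c : ℂ)) * PC Y h θ c none := by
  rw [step_PP]; simp

theorem step_eval_none (Y : α → α → ℂ) (h : α → ℝ) (θ : α → κ → ℝ) (c : α) (z : ℂ) :
    (PC Y h θ c none).eval z = FF Y (Function.update (fun c' => z - h c') c 1)
      (Function.update (fun c k => (θ c k : ℂ)) c 0) := by
  rw [PC, eval_mix_wP, FF, step_wt_update]
  congr 2
  funext o
  cases o <;> simp

theorem step_eval_some (Y : α → α → ℂ) (h : α → ℝ) (θ : α → κ → ℝ) (c : α) (k : κ) (z : ℂ) :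
    (PC Y h θ c (some k)).eval z = FF Y (Function.update (fun c' => z - h c') c 0)
      (fun c' k' => (Function.update θ c (Pi.single k 1) c' k' : ℂ)) := by
  rw [PC, eval_mix_wP, FF, step_coe_update, step_wt_update]
  congr 2
  funext o
  cases o with
  | none => simp
  | some k' =>
    by_cases hk : k' = k
    · subst hk; simp
    · simp [Pi.single_eq_of_ne hk, hk]

theorem step_degree_some {Y : α → α → ℂ} (hd : ∀ c, Y c c = 0) (h : α → ℝ) (θ : α → κ → ℝ)
    (c : α) (k : κ) {N : ℕ} (hN : N + 1 = Fintype.card α) :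
    (PC Y h θ c (some k)).degree < N := by
  rw [PC, mix]
  refine lt_of_le_of_lt (degree_sum_le _ _) ?_
  refine (Finset.sup_lt_iff (WithBot.bot_lt_coe N)).2 ?_
  intro τ _
  by_cases h1 : τ c = some k
  · by_cases h2 : ∀ c', c' ≠ c → τ c' = none
    · have : (NM Y τ).det = 0 := by
        refine Matrix.det_eq_zero_of_row_eq_zero c (fun c' => ?_)
        by_cases hc : c' = c
        · subst hc; simp [NM, h1, hd]
        · simp [NM, h2 c' hc, Ne.symm hc]
      rw [this, zero_smul, degree_zero]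
      exact WithBot.bot_lt_coe N
    · push Not at h2
      obtain ⟨c₁, hc₁, h3⟩ := h2
      refine lt_of_le_of_lt (degree_smul_le _ _) (lt_of_le_of_lt degree_le_natDegree ?_)
      have key : (∏ c', Function.update (wP h fun c k => (θ c k : ℂ)) c
          (fun o' => C (Pi.single (M := fun _ => ℂ) (some k) 1 o')) c' (τ c')).natDegree ≤
          ((Finset.univ.erase c).erase c₁).card := by
        refine (natDegree_prod_le _ _).trans ?_
        rw [Finset.card_eq_sum_ones, ← Finset.add_sum_erase _ _ (Finset.mem_univ c),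
          ← Finset.add_sum_erase _ _ (Finset.mem_erase.2 ⟨hc₁, Finset.mem_univ c₁⟩)]
        obtain ⟨k₁, hk₁⟩ := Option.ne_none_iff_exists'.1 h3
        rw [Function.update_self, natDegree_C, Function.update_of_ne hc₁, hk₁, zero_add]
        have : (wP h (fun c k => (θ c k : ℂ)) c₁ (some k₁)).natDegree = 0 := by simp [wP]
        rw [this, zero_add]
        refine Finset.sum_le_sum (fun c' hc' => ?_)
        rw [Function.update_of_ne (Finset.mem_erase.1 (Finset.mem_erase.1 hc').2).1]
        cases τ c' with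
        | none => simp only [wP, wt_none]; exact (natDegree_X_sub_C _).le
        | some k' => simp [wP]
      have h4 := Finset.card_erase_add_one (Finset.mem_univ c)
      have h5 := Finset.card_erase_add_one (Finset.mem_erase.2 ⟨hc₁, Finset.mem_univ c₁⟩)
      rw [Finset.card_univ] at h4
      exact Nat.cast_lt.2 (lt_of_le_of_lt key (by omega))
  · rw [Finset.prod_eq_zero (Finset.mem_univ c), smul_zero, degree_zero]
    · exact WithBot.bot_lt_coe N
    · rw [Function.update_self, Pi.single_eq_of_ne h1, C_0]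

theorem step_eval_ne {p : ℂ[X]} (hp : p.Monic) (hr : ∀ z ∈ p.roots, z.im = 0) {z : ℂ}
    (hz : 0 < z.im) : p.eval z ≠ 0 := fun e =>
  hz.ne' (hr z ((mem_roots hp.ne_zero).2 e))

/-- Secular form of one cell.  Recipe: `p₀ = PC .. none` satisfies
`PP Y h (update θ c 0) = (X - h c) * p₀` (`mix_update`), so it is monic of degree `card α - 1` with
real roots.  `PC .. (some k)` has degree `< card α - 1`: a term `τ` with `τ c = some k` has degree
the number of uncoloured cells, and the only term with all other cells uncoloured has determinant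
`- Y c c = 0`.  `FF_herglotz` (with `θ c = Pi.single k 1`) and `eval_mix_wP` give the sign of the
imaginary part; apply `partial_fractions` to `G = - PC .. (some k)` (if `card α = 1` then `G = 0`,
degree `⊥`). -/
theorem secular_form {Y : α → α → ℂ} (hY : Herm Y) (hd : ∀ c, Y c c = 0) (h : α → ℝ)
    (θ : α → κ → ℝ) (hθ : ∀ c k, 0 ≤ θ c k) (c : α) :
    (PC Y h θ c none).Monic ∧ (∀ z ∈ (PC Y h θ c none).roots, z.im = 0) ∧
    ∃ m : κ → ℝ → ℝ, (∀ k μ, 0 ≤ m k μ) ∧ ∀ (v : κ → ℝ) (z : ℂ), (PC Y h θ c none).eval z ≠ 0 →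
      (PP Y h fun c' k => (Function.update θ c v c' k : ℂ)).eval z =
        (PC Y h θ c none).eval z *
          (z - h c - ∑ μ ∈ poles (PC Y h θ c none), ((∑ k, v k * m k μ : ℝ) : ℂ) / (z - μ)) := by
  obtain ⟨hm, hdeg⟩ := monic_PP Y h (fun c' k => (Function.update θ c 0 c' k : ℂ))
  have hroots := fun x => im_eq_zero_of_mem_roots_PP hY h (Function.update θ c 0)
    (step_update_nonneg hθ c (fun _ => le_rfl)) (x := x)
  rw [step_PP_zero] at hm hdeg hroots
  have hm₀ : (PC Y h θ c none).Monic := (monic_X_sub_C _).of_mul_monic_left hm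
  have hr₀ : ∀ z ∈ (PC Y h θ c none).roots, z.im = 0 := by
    intro z hz
    refine hroots z ?_
    rw [roots_mul hm.ne_zero]
    exact Multiset.mem_add.2 (Or.inr hz)
  rw [(monic_X_sub_C _).natDegree_mul hm₀, natDegree_X_sub_C, add_comm] at hdeg
  have hpf : ∀ k, ∃ m : ℝ → ℝ, (∀ μ, 0 ≤ m μ) ∧ ∀ z : ℂ, (PC Y h θ c none).eval z ≠ 0 →
      (- PC Y h θ c (some k)).eval z =
        (PC Y h θ c none).eval z * ∑ μ ∈ poles (PC Y h θ c none), (m μ : ℂ) / (z - μ) := by
    intro k
    refine partial_fractions _ _ hm₀ hr₀ ?_ ?_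
    · rw [degree_neg, degree_eq_natDegree hm₀.ne_zero]
      exact step_degree_some hd h θ c k hdeg
    · intro z hz
      have := (FF_herglotz hY (Function.update θ c (Pi.single k 1))
        (step_update_nonneg hθ c (step_single_nonneg k zero_le_one))
        (fun c' => z - h c') c (fun c' _ => Or.inl (by simpa using hz))).2
      rw [← step_eval_some, step_coe_update, Function.update_idem, ← step_eval_none] at this
      rw [eval_neg, neg_div, Complex.neg_im]
      linarith
  choose m hm0 hm1 using hpf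
  refine ⟨hm₀, hr₀, m, hm0, fun v z hz => ?_⟩
  have e : ∀ k, (PC Y h θ c (some k)).eval z =
      - ((PC Y h θ c none).eval z * ∑ μ ∈ poles (PC Y h θ c none), (m k μ : ℂ) / (z - μ)) := by
    intro k
    rw [← hm1 k z hz, eval_neg, neg_neg]
  rw [step_PP, eval_add, eval_mul, eval_finsetSum]
  simp only [eval_mul, eval_C, e, eval_sub, eval_X]
  push_cast
  simp only [Finset.sum_div, mul_div_assoc]
  rw [Finset.sum_comm, mul_sub _ _ (∑ _, _), Finset.mul_sum, mul_comm (z - _),
    sub_eq_add_neg _ (∑ _, _), ← Finset.sum_neg_distrib]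
  congr 1
  refine Finset.sum_congr rfl (fun k _ => ?_)
  rw [← Finset.mul_sum]
  ring

theorem step_pos {a b : ℝ} (h : 0 < a * b) (ha : 0 < a) : 0 < b := by
  by_contra hb
  nlinarith [not_lt.1 hb]

/-- Recipe: `secular_form`, `EE_eq` twice (for `v` and for `0`), `EE_zero`. -/
theorem psi0_update {Y : α → α → ℂ} (hY : Herm Y) (hd : ∀ c, Y c c = 0) (h : α → ℝ)
    (θ : α → κ → ℝ) (hθ : ∀ c k, 0 ≤ θ c k) (c : α) :
    ∃ (P : Finset ℝ) (m : κ → ℝ → ℝ), (∀ k μ, 0 ≤ m k μ) ∧
      (∀ v : κ → ℝ, (∀ k, 0 ≤ v k) → psi0 Y h (Function.update θ c v) =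
        psi0 Y h (Function.update θ c 0) + EE (h c) P (fun μ => ∑ k, v k * m k μ) -
          Real.exp (h c)) ∧
      ∀ v : κ → ℝ, (∀ k, 0 ≤ v k) → ∀ x : ℝ,
        0 < (FF Y (fun c' => x - h c') fun c' k => (Function.update θ c v c' k : ℂ)).re →
        0 < (FF Y (fun c' => x - h c') fun c' k => (Function.update θ c 0 c' k : ℂ)).re →
        h c < x → x ∉ Om (h c) P (fun μ => ∑ k, v k * m k μ) := by
  obtain ⟨hm, hr, m, hm0, hm1⟩ := secular_form hY hd h θ hθ c
  have key : ∀ v : κ → ℝ, (∀ k, 0 ≤ v k) → psi0 Y h (Function.update θ c v) =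
      ((PC Y h θ c none).roots.map Complex.exp).sum.re +
        EE (h c) (poles (PC Y h θ c none)) (fun μ => ∑ k, v k * m k μ) - ∑ c, Real.exp (h c) := by
    intro v hv
    rw [psi0, Psi, EE_eq (h c) (poles (PC Y h θ c none)) (fun μ => ∑ k, v k * m k μ)
      (fun μ _ => Finset.sum_nonneg fun k _ => mul_nonneg (hv k) (hm0 k μ)) _ _ hm.ne_zero
      (fun z hz => hm1 v z (step_eval_ne hm hr hz)), Complex.add_re, Complex.ofReal_re]
  refine ⟨poles (PC Y h θ c none), m, hm0, fun v hv => ?_, fun v _ x h1 h0 hx => ?_⟩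
  · rw [key v hv, key 0 (fun _ => le_rfl)]
    simp only [Pi.zero_apply, zero_mul, Finset.sum_const_zero, EE_zero]
    ring
  · rw [← eval_PP] at h1 h0
    rw [step_PP_zero, eval_mul, eval_sub, eval_X, eval_C, ← Complex.ofReal_sub,
      Complex.re_ofReal_mul] at h0
    have h2 : 0 < ((PC Y h θ c none).eval (x : ℂ)).re :=
      step_pos h0 (sub_pos.2 hx)
    have h3 : (PC Y h θ c none).eval (x : ℂ) ≠ 0 := fun e => by
      rw [e, Complex.zero_re] at h2; exact lt_irrefl _ h2
    rw [hm1 v x h3] at h1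
    have e : ((x : ℂ) - h c - ∑ μ ∈ poles (PC Y h θ c none),
        ((∑ k, v k * m k μ : ℝ) : ℂ) / ((x : ℂ) - μ)) =
        ((x - h c - ∑ μ ∈ poles (PC Y h θ c none), (∑ k, v k * m k μ) / (x - μ) : ℝ) : ℂ) := by
      push_cast; rfl
    rw [e, Complex.re_mul_ofReal] at h1
    have h4 := step_pos h1 h2
    intro hO
    have h5 : x - h c < ∑ μ ∈ poles (PC Y h θ c none), (∑ k, v k * m k μ) / (x - μ) := hO
    linarith

/-- The off-diagonal part has the right sign above the roots.  Recipe: `secular_form` with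
`h = -v` at `z = 0`: all poles are negative since `p₀ (t) ≠ 0` for real `t ≥ 0`, so
`F₁ / F₀ = - ∑ a μ / (0 - μ) ≤ 0`. -/
theorem FF_offdiag_nonpos {Y : α → α → ℂ} (hY : Herm Y) (hd : ∀ c, Y c c = 0) (θ : α → κ → ℝ)
    (hθ : ∀ c k, 0 ≤ θ c k) (v : α → ℝ) (c : α)
    (hpos : ∀ t : ℝ, 0 ≤ t → 0 < (FF Y (Function.update (fun c' => ((v c' + t : ℝ) : ℂ)) c 1)
      (Function.update (fun c k => (θ c k : ℂ)) c 0)).re) :
    (FF Y (Function.update (fun c' => (v c' : ℂ)) c 0) (fun c k => θ c k)).re ≤ 0 := by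
  set h : α → ℝ := Function.update (fun c' => - v c') c 0 with hh
  obtain ⟨hm, hr, m, hm0, hm1⟩ := secular_form hY hd h θ hθ c
  have hp : ∀ t : ℝ, 0 ≤ t → 0 < ((PC Y h θ c none).eval (t : ℂ)).re := by
    intro t ht
    rw [step_eval_none]
    convert hpos t ht using 3
    funext c'
    by_cases hc : c' = c
    · subst hc; simp
    · simp [hh, Function.update_of_ne hc, add_comm]
  have hne : ∀ t : ℝ, 0 ≤ t → (PC Y h θ c none).eval (t : ℂ) ≠ 0 := fun t ht e => by
    have := hp t ht
    rw [e, Complex.zero_re] at this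
    exact lt_irrefl _ this
  have hneg : ∀ μ ∈ poles (PC Y h θ c none), μ < 0 := by
    intro μ hμ
    obtain ⟨z, hz, rfl⟩ := Multiset.mem_map.1 (Multiset.mem_toFinset.1 hμ)
    by_contra hc
    refine hne z.re (not_lt.1 hc) ?_
    have : (z.re : ℂ) = z := Complex.ext (by simp) (by simp [hr z hz])
    rw [this]
    exact (mem_roots hm.ne_zero).1 hz
  have h1 := hm1 (θ c) ((0 : ℝ) : ℂ) (hne 0 le_rfl)
  rw [Function.update_eq_self, eval_PP] at h1
  have e0 : (fun c' => ((0 : ℝ) : ℂ) - h c') = Function.update (fun c' => (v c' : ℂ)) c 0 := by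
    funext c'
    by_cases hc : c' = c
    · subst hc; simp [hh]
    · simp [hh, Function.update_of_ne hc]
  have e : (((0 : ℝ) : ℂ) - h c - ∑ μ ∈ poles (PC Y h θ c none),
      ((∑ k, θ c k * m k μ : ℝ) : ℂ) / (((0 : ℝ) : ℂ) - μ)) =
      ((0 - h c - ∑ μ ∈ poles (PC Y h θ c none), (∑ k, θ c k * m k μ) / (0 - μ) : ℝ) : ℂ) := by
    push_cast; rfl
  rw [e0, e] at h1
  rw [h1, Complex.re_mul_ofReal]
  refine mul_nonpos_of_nonneg_of_nonpos (hp 0 le_rfl).le ?_
  have h2 : 0 ≤ ∑ μ ∈ poles (PC Y h θ c none), (∑ k, θ c k * m k μ) / (0 - μ) :=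
    Finset.sum_nonneg fun μ hμ => div_nonneg
      (Finset.sum_nonneg fun k _ => mul_nonneg (hθ c k) (hm0 k μ)) (by linarith [hneg μ hμ])
  have h3 : h c = 0 := by simp [hh]
  linarith

variable {X : Type*} [DecidableEq X]

theorem step_pot_update {Y : X → X → ℂ} (hY : Herm Y) (hd : ∀ s, Y s s = 0) (h : X → ℝ)
    {θ : X → κ → ℝ} (hθ : ∀ s k, 0 ≤ θ s k) {o : X} {Λ : Finset X} (ho : o ∈ Λ) :
    ∃ (P : Finset ℝ) (m : κ → ℝ → ℝ), (∀ k μ, 0 ≤ m k μ) ∧
      ∀ v : κ → ℝ, (∀ k, 0 ≤ v k) → pot Y h (Function.update θ o v) Λ =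
        pot Y h (Function.update θ o 0) Λ + EE (h o) P (fun μ => ∑ k, v k * m k μ) -
          Real.exp (h o) := by
  obtain ⟨P, m, hm0, hm1, -⟩ := psi0_update (Y := fun s t : Λ => Y s t) (fun s t => hY s t)
    (fun s => hd s) (fun s : Λ => h s) (fun s : Λ => θ s) (fun s k => hθ s k) ⟨o, ho⟩
  have e : ∀ v : κ → ℝ, (fun s : Λ => Function.update θ o v s) =
      Function.update (fun s : Λ => θ s) ⟨o, ho⟩ v := by
    intro v
    funext s
    by_cases hs : s = ⟨o, ho⟩
    · subst hs; simp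
    · rw [Function.update_of_ne hs, Function.update_of_ne (fun e => hs (Subtype.ext e))]
  refine ⟨P, m, hm0, fun v hv => ?_⟩
  rw [pot, pot, e, e]
  exact hm1 v hv

/-- Monotonicity in the weights of one cell (`psi0_update`, `EE_mono`; if `o ∉ Λ` use
`pot_congr`). -/
theorem pot_mono {Y : X → X → ℂ} (hY : Herm Y) (hd : ∀ s, Y s s = 0) (h : X → ℝ)
    {θ θ' : X → κ → ℝ} (hθ : ∀ s k, 0 ≤ θ s k) (o : X) (ho : ∀ k, θ o k ≤ θ' o k)
    (hoff : ∀ s, s ≠ o → θ' s = θ s) (Λ : Finset X) : pot Y h θ Λ ≤ pot Y h θ' Λ := by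
  by_cases hΛ : o ∈ Λ
  · obtain ⟨P, m, hm0, hm1⟩ := step_pot_update hY hd h hθ hΛ
    have e : θ' = Function.update θ o (θ' o) := by
      funext s
      by_cases hs : s = o
      · subst hs; simp
      · rw [Function.update_of_ne hs, hoff s hs]
    have e1 := hm1 (θ o) (hθ o)
    have e2 := hm1 (θ' o) (fun k => (hθ o k).trans (ho k))
    rw [Function.update_eq_self] at e1
    rw [← e] at e2
    have := EE_mono (h o) P (a := fun μ => ∑ k, θ o k * m k μ) (a' := fun μ => ∑ k, θ' o k * m k μ)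
      (fun μ _ => Finset.sum_nonneg fun k _ => mul_nonneg (hθ o k) (hm0 k μ))
      (fun μ _ => Finset.sum_le_sum fun k _ => mul_le_mul_of_nonneg_right (ho k) (hm0 k μ))
    linarith
  · exact (pot_congr (fun _ _ _ _ => rfl) (fun _ _ => rfl)
      (fun s hs => (hoff s (fun e => hΛ (e ▸ hs))).symm)).le

theorem pot_erase_le {Y : X → X → ℂ} (hY : Herm Y) (hd : ∀ s, Y s s = 0) (h : X → ℝ)
    {θ : X → κ → ℝ} (hθ : ∀ s k, 0 ≤ θ s k) (o : X) (Λ : Finset X) :
    pot Y h θ (Λ.erase o) ≤ pot Y h θ Λ := by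
  have e1 : pot Y h θ (Λ.erase o) = pot Y h (Function.update θ o 0) (Λ.erase o) :=
    pot_congr (fun _ _ _ _ => rfl) (fun _ _ => rfl)
      (fun s hs => (Function.update_of_ne (Finset.mem_erase.1 hs).1 _ _).symm)
  have e2 := pot_subset Y h (Function.update θ o 0) (Finset.erase_subset o Λ) (fun s hs hs' k => by
    have : s = o := by
      by_contra hne
      exact hs' (Finset.mem_erase.2 ⟨hne, hs⟩)
    subst this
    simp)
  rw [e1, ← e2]
  refine pot_mono hY hd h (step_update_nonneg hθ o (fun _ => le_rfl)) o (fun k => ?_)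
    (fun s hs => (Function.update_of_ne hs _ _).symm) Λ
  simpa using hθ o k

/-- At least three quarters of the colours are good (`psi0_update`, `lemmaL` with
`a k = β * m k`). -/
theorem pot_step {Y : X → X → ℂ} (hY : Herm Y) (hd : ∀ s, Y s s = 0) (h : X → ℝ)
    {θ : X → κ → ℝ} (hθ : ∀ s k, 0 ≤ θ s k) {o : X} {Λ : Finset X} (ho : o ∈ Λ) {β : ℝ}
    (hβ : 0 ≤ β) :
    4 * (Finset.univ.filter fun k : κ =>
      pot Y h (Function.update θ o fun _ => β * (1000 / Fintype.card κ)) Λ +
          6 * Real.exp (h o + 16) <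
        pot Y h (Function.update θ o (Pi.single k β)) Λ).card ≤ Fintype.card κ := by
  obtain ⟨P, m, hm0, hm1⟩ := step_pot_update hY hd h hθ ho
  have hL := lemmaL (h o) P (fun k μ => β * m k μ) (fun k μ _ => mul_nonneg hβ (hm0 k μ))
  refine le_trans (Nat.mul_le_mul_left 4 (Finset.card_le_card fun k hk => ?_)) hL
  have hk' := (Finset.mem_filter.1 hk).2
  rw [hm1 _ (fun _ => by positivity), hm1 _ (step_single_nonneg k hβ)] at hk'
  have e1 : (fun μ => ∑ k', β * (1000 / (Fintype.card κ : ℝ)) * m k' μ) =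
      fun μ => 1000 / (Fintype.card κ : ℝ) * ∑ k', β * m k' μ := by
    funext μ
    rw [Finset.mul_sum]
    exact Finset.sum_congr rfl (fun k' _ => by ring)
  have e2 : (fun μ => ∑ k', (Pi.single k β : κ → ℝ) k' * m k' μ) = fun μ => β * m k μ := by
    funext μ
    rw [Finset.sum_eq_single k (fun k' _ hk' => by rw [Pi.single_eq_of_ne hk', zero_mul])
      (fun hk' => absurd (Finset.mem_univ k) hk'), Pi.single_eq_same]
  rw [e1, e2] at hk'
  refine Finset.mem_filter.2 ⟨Finset.mem_univ _, ?_⟩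
  linarith

end

end Crest.Agent.R109
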