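import Crest.Agent.R109.Split
import Crest.Agent.R109.BarPoly
import Crest.Agent.R109.Step

/-!
# Row 109: barrier argument, merging the split cells one at a time
-/

open Polynomial
open scoped BigOperators

set_option linter.unusedSectionVars false

namespace Crest.Agent.R109

noncomputable section

variable {α κ : Type*} [Fintype α] [DecidableEq α] [Fintype κ] [DecidableEq κ]

/-- weights: removed cells `Rm`, merged cells `D` (carried by the site `(c, k₀)`), split cells -/
def barW (k₀ : κ) (D Rm : Finset α) : α × κ → κ → ℝ := fun s k =>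
  if s.1 ∈ Rm then 0 else if s.1 ∈ D then (if s.2 = k₀ then 1 else 0) else if k = s.2 then 1 else 0

/-- the site model with real weights -/
def barG (Y : α → α → ℂ) (θ : α × κ → κ → ℝ) (z : α × κ → ℂ) : ℂ :=
  FF (fun s s' : α × κ => Y s.1 s'.1) z (fun s k => θ s k)

/-- prescribe the data on all sites of the cell `c` -/
def barSet {β : Type*} (c : α) (w : β) (x : α × κ → β) : α × κ → β :=
  fun s => if s.1 = c then w else x s

lemma bar_cast_update (θ : α × κ → κ → ℝ) (s : α × κ) :
    (fun s' k => ((Function.update θ s 0 s' k : ℝ) : ℂ)) =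
      Function.update (fun s' k => (θ s' k : ℂ)) s 0 := by
  funext s' k
  by_cases h : s' = s
  · subst h; simp
  · simp [h]

lemma bar_cast_update' (x : α × κ → ℝ) (s : α × κ) (u : ℝ) :
    (fun s' => ((Function.update x s u s' : ℝ) : ℂ)) =
      Function.update (fun s' => (x s' : ℂ)) s (u : ℂ) := by
  funext s'
  by_cases h : s' = s
  · subst h; simp
  · simp [h]

lemma bar_cast_set (c : α) (x : α × κ → ℝ) (u : ℝ) :
    (fun s' => ((barSet c u x s' : ℝ) : ℂ)) = barSet c (u : ℂ) (fun s' => (x s' : ℂ)) := by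
  funext s'
  unfold barSet
  split_ifs <;> rfl

lemma barSet_update {β : Type*} {c : α} {e : α × κ} (he : e.1 ≠ c) (w u : β) (x : α × κ → β) :
    barSet c w (Function.update x e u) = Function.update (barSet c w x) e u := by
  funext s
  by_cases h : s = e
  · subst h; simp [barSet, he]
  · simp [barSet, h]

lemma barG_affine0 (Y : α → α → ℂ) (θ : α × κ → κ → ℝ) (z : α × κ → ℂ) (s : α × κ) (w : ℂ) :
    barG Y θ (Function.update z s w) = w * barG Y (Function.update θ s 0) (Function.update z s 1) +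
      barG Y θ (Function.update z s 0) := by
  unfold barG
  rw [FF_expand _ (Function.update z s w) _ s, FF_expand _ (Function.update z s 0) _ s,
    bar_cast_update]
  simp

lemma barG_affine (Y : α → α → ℂ) (θ : α × κ → κ → ℝ) (z : α × κ → ℂ) (s : α × κ) (w : ℂ) :
    barG Y θ (Function.update z s w) = barG Y θ z +
      (w - z s) * barG Y (Function.update θ s 0) (Function.update z s 1) := by
  have h := barG_affine0 Y θ z s (z s)
  rw [Function.update_eq_self] at h
  rw [barG_affine0, h]; ring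

lemma bar_herm {Y : α → α → ℂ} (hY : Herm Y) : Herm (fun s s' : α × κ => Y s.1 s'.1) :=
  fun s t => hY s.1 t.1

lemma star_barG {Y : α → α → ℂ} (hY : Herm Y) (θ : α × κ → κ → ℝ) (z : α × κ → ℂ) :
    star (barG Y θ z) = barG Y θ (fun s => star (z s)) := by
  unfold barG
  rw [star_FF (bar_herm hY)]
  simp

lemma barG_real {Y : α → α → ℂ} (hY : Herm Y) (θ : α × κ → κ → ℝ) {z : α × κ → ℂ}
    (hz : ∀ s, (z s).im = 0) : barG Y θ z = ((barG Y θ z).re : ℂ) := by
  have h := star_barG hY θ z
  have e : (fun s => star (z s)) = z := funext fun s => Complex.conj_eq_iff_im.2 (hz s)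
  rw [e] at h
  exact (Complex.conj_eq_iff_re.1 h).symm

lemma barG_ne_zero {Y : α → α → ℂ} (hY : Herm Y) (T : Finset (α × κ)) (θ : α × κ → κ → ℝ)
    (hθ : ∀ s k, 0 ≤ θ s k) (z : α × κ → ℂ) (hz : ∀ s, 0 ≤ (z s).im)
    (hT : ∀ s ∈ T, 0 < (z s).im)
    (h : barG Y (fun s => if s ∈ T then 0 else θ s) (fun s => if s ∈ T then 1 else z s) ≠ 0) :
    barG Y θ z ≠ 0 := by
  induction T using Finset.induction_on generalizing θ z with
  | empty => simpa using h
  | insert s T hs ih =>
    have h1 := im_mul_norm_FF_le (bar_herm hY) θ hθ z hz s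
    rw [← bar_cast_update] at h1
    have h2 : barG Y (Function.update θ s 0) (Function.update z s 1) ≠ 0 := by
      refine ih _ (fun t k => ?_) _ (fun t => ?_) (fun t ht => ?_) ?_
      · by_cases ht : t = s
        · subst ht; simp
        · simp [ht, hθ]
      · by_cases ht : t = s
        · subst ht; simp
        · simp [ht, hz]
      · have : t ≠ s := fun e => hs (e ▸ ht)
        simpa [this] using hT t (Finset.mem_insert_of_mem ht)
      · convert h using 2
        · funext t
          by_cases ht : t = s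
          · subst ht; simp
          · simp [ht]
        · funext t
          by_cases ht : t = s
          · subst ht; simp
          · simp [ht]
    intro h0
    unfold barG at h0 h2
    rw [h0, norm_zero] at h1
    exact absurd h1 (not_le.2 (mul_pos (hT s (Finset.mem_insert_self _ _)) (norm_pos_iff.2 h2)))

lemma barG_set_ne_zero {Y : α → α → ℂ} (hY : Herm Y) (c : α) (θ : α × κ → κ → ℝ)
    (hθ : ∀ s k, 0 ≤ θ s k) (z : α × κ → ℂ) (hz : ∀ s, 0 ≤ (z s).im) {w : ℂ} (hw : 0 < w.im)
    (h : barG Y (barSet c 0 θ) (barSet c 1 z) ≠ 0) : barG Y θ (barSet c w z) ≠ 0 := by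
  refine barG_ne_zero hY (Finset.univ.filter fun s => s.1 = c) θ hθ _ (fun s => ?_)
    (fun s hs => ?_) ?_
  · unfold barSet; split_ifs
    exacts [hw.le, hz s]
  · simpa [barSet, (Finset.mem_filter.1 hs).2] using hw
  · convert h using 2
    · funext s; simp [barSet]
    · funext s; by_cases hs : s.1 = c <;> simp [barSet, hs]

section split

variable (Y : α → α → ℂ) {θ : α × κ → κ → ℝ} {c : α}
  (hθ : ∀ k k', θ (c, k) k' = if k' = k then 1 else 0) (z : α × κ → ℂ)

/-- the split polynomial of real weights -/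
def barQ (Y : α → α → ℂ) (θ : α × κ → κ → ℝ) (z : α × κ → ℂ) (c : α) : ℂ[X] :=
  splitPoly Y (wt z fun s k => (θ s k : ℂ)) c

lemma natDegree_barQ (k₀ : κ) : (barQ Y θ z c).natDegree ≤ Fintype.card κ :=
  (coeff_splitPoly Y _ c k₀).1

include hθ in
lemma eval_barQ (w : ℂ) : (barQ Y θ z c).eval w = barG Y θ (barSet c w z) := by
  rw [barQ, eval_splitPoly, barG, FF]
  congr 1
  funext ⟨c', k⟩ o
  by_cases h : c' = c
  · subst h
    cases o with
    | none => simp [barSet]
    | some k' => simp only [if_true, Option.elim, wt_some, hθ]; split_ifs <;> simp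
  · cases o <;> simp [barSet, h]

lemma coeff_barQ_top : (barQ Y θ z c).coeff (Fintype.card κ) =
    barG Y (barSet c 0 θ) (barSet c 1 z) := by
  rcases isEmpty_or_nonempty κ with hκ | ⟨⟨k₀⟩⟩
  · rw [Fintype.card_eq_zero, coeff_zero_eq_eval_zero, barQ, eval_splitPoly, barG, FF]
    congr 1
    funext ⟨c', k⟩
    exact hκ.elim k
  rw [barQ, (coeff_splitPoly Y _ c k₀).2.1, barG, FF]
  congr 1
  funext ⟨c', k⟩ o
  by_cases h : c' = c
  · subst h
    cases o <;> simp [barSet]
  · cases o <;> simp [barSet, h]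

lemma coeff_barQ_next (k₀ : κ) : (barQ Y θ z c).coeff (Fintype.card κ - 1) =
    barG Y (Function.update (barSet c 0 θ) (c, k₀) 1) (Function.update (barSet c 1 z) (c, k₀) 0) := by
  rw [barQ, (coeff_splitPoly Y _ c k₀).2.2, barG, FF]
  congr 1
  funext ⟨c', k⟩ o
  by_cases h : c' = c
  · subst h
    by_cases hk : k = k₀
    · subst hk
      cases o <;> simp
    · cases o <;> simp [barSet, hk]
  · cases o <;> simp [barSet, h]

include hθ in
lemma deriv_barQ (w : ℂ) : (barQ Y θ z c).derivative.eval w =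
    ∑ k, barG Y (Function.update θ (c, k) 0) (Function.update (barSet c w z) (c, k) 1) := by
  rw [barQ, derivative_splitPoly]
  refine Finset.sum_congr rfl fun k₀ _ => ?_
  rw [barG, FF]
  congr 1
  funext ⟨c', k⟩ o
  by_cases h : c' = c
  · subst h
    by_cases hk : k = k₀
    · subst hk
      cases o <;> simp
    · cases o with
      | none => simp [barSet, hk]
      | some k' =>
        have : (c', k) ≠ (c', k₀) := fun e => hk (Prod.ext_iff.1 e).2
        simp only [this, if_false, if_true, Option.elim, wt_some, Function.update_of_ne this, hθ]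
        split_ifs <;> simp
  · cases o <;> simp [barSet, h]

end split

lemma barW_nonneg (k₀ : κ) (D Rm : Finset α) (s : α × κ) (k : κ) : 0 ≤ barW k₀ D Rm s k := by
  unfold barW; split_ifs <;> norm_num

lemma barW_split (k₀ : κ) {D Rm : Finset α} {c : α} (hc : c ∉ D) (hc' : c ∉ Rm) (k k' : κ) :
    barW k₀ D Rm (c, k) k' = if k' = k then 1 else 0 := by
  simp [barW, hc, hc']

lemma barW_remove (k₀ : κ) (D Rm : Finset α) (c : α) :
    barSet c 0 (barW k₀ D Rm) = barW k₀ D (insert c Rm) := by
  funext s k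
  by_cases h : s.1 = c <;> simp [barSet, barW, h]

lemma barW_merge (k₀ : κ) (D : Finset α) {Rm : Finset α} {c : α} (hc' : c ∉ Rm) :
    Function.update (barSet c 0 (barW k₀ D Rm)) (c, k₀) 1 = barW k₀ (insert c D) Rm := by
  funext ⟨c', k'⟩ k
  by_cases h : c' = c
  · subst h
    by_cases hk : k' = k₀
    · subst hk; simp [barW, hc']
    · simp [barSet, barW, hc', hk]
  · simp [barSet, barW, h]

/-- the statement of the invariant for a fixed set of merged cells -/
def BarInv (Y : α → α → ℂ) (ρ : ℝ) (k₀ : κ) (D : Finset α) : Prop :=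
  ∀ (Rm : Finset α) (s₀ : Option (α × κ)) (v : α × κ → ℝ), (∀ s, 0 < v s) →
    (∀ c ∈ D, c ∉ Rm → 7 * ρ ≤ v (c, k₀)) →
    (∀ s : α × κ, s.1 ∉ D → s.1 ∉ Rm → (some s = s₀ ∧ 1 / ρ < v s) ∨ 2 * ρ ≤ v s) →
    0 < (barG Y (barW k₀ D Rm) fun s => v s).re

/-- data without exceptional site outside the cell `c` -/
structure BarOK (ρ : ℝ) (k₀ : κ) (D Rm : Finset α) (c : α) (x : α × κ → ℝ) : Prop where
  pos : ∀ s, 0 < x s
  hD : ∀ c' ∈ D, c' ∉ Rm → 7 * ρ ≤ x (c', k₀)
  hS : ∀ s : α × κ, s.1 ≠ c → s.1 ∉ D → s.1 ∉ Rm → 2 * ρ ≤ x s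

section step

variable {Y : α → α → ℂ} {ρ : ℝ} {k₀ : κ} {D Rm : Finset α} {c : α} {x : α × κ → ℝ}

/-- split model, with one exceptional site -/
lemma BarInv.split (H : BarInv Y ρ k₀ D) (hρ : 0 < ρ) (hc : c ∉ D) (hx : BarOK ρ k₀ D Rm c x)
    {w : ℝ} (hw : 2 * ρ ≤ w) (e : α × κ) (he : e.1 ∉ D) {u : ℝ} (hu : 1 / ρ < u) :
    0 < (barG Y (barW k₀ D Rm)
      (Function.update (barSet c (w : ℂ) fun s => (x s : ℂ)) e (u : ℂ))).re := by
  rw [← bar_cast_set, ← bar_cast_update']
  refine H Rm (some e) _ (fun s => ?_) (fun c' h1 h2 => ?_) (fun s h1 h2 => ?_)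
  · by_cases h : s = e
    · subst h; simpa using lt_trans (by positivity) hu
    · simp only [Function.update_of_ne h, barSet]
      split_ifs
      · linarith
      · exact hx.pos s
  · have h3 : (c', k₀) ≠ e := fun h => he (h ▸ h1)
    have h4 : c' ≠ c := fun h => hc (h ▸ h1)
    simpa [Function.update_of_ne h3, barSet, h4] using hx.hD c' h1 h2
  · by_cases h : s = e
    · subst h; left; simpa using hu
    · right
      simp only [Function.update_of_ne h, barSet]
      split_ifs with h3
      · exact hw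
      · exact hx.hS s h3 h1 h2

lemma BarInv.split' (H : BarInv Y ρ k₀ D) (hρ : 1 ≤ ρ) (hc : c ∉ D) (hx : BarOK ρ k₀ D Rm c x)
    {w : ℝ} (hw : 2 * ρ ≤ w) :
    0 < (barG Y (barW k₀ D Rm) (barSet c (w : ℂ) fun s => (x s : ℂ))).re := by
  have h1 : 1 / ρ < w := by
    have : 1 / ρ ≤ 1 := by rw [div_le_one (by linarith)]; exact hρ
    linarith
  have h := H.split (by linarith) hc hx hw (c, k₀) hc h1
  rwa [Function.update_eq_self_iff.2 (by simp [barSet])] at h

/-- removed model -/
lemma BarInv.removed (H : BarInv Y ρ k₀ D) (_hc : c ∉ D) (hx : BarOK ρ k₀ D Rm c x)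
    (y : α × κ → ℝ) (hy : ∀ s, 0 < y s) (hxy : ∀ s, s.1 ≠ c → x s ≤ y s) :
    0 < (barG Y (barSet c 0 (barW k₀ D Rm)) fun s => (y s : ℂ)).re := by
  rw [barW_remove]
  refine H _ none y hy (fun c' h1 h2 => ?_) (fun s h1 h2 => Or.inr ?_)
  · rw [Finset.mem_insert, not_or] at h2
    exact (hx.hD c' h1 h2.2).trans (hxy _ h2.1)
  · rw [Finset.mem_insert, not_or] at h2
    exact (hx.hS s h2.1 h1 h2.2).trans (hxy _ h2.1)

lemma BarInv.removed' (H : BarInv Y ρ k₀ D) (hc : c ∉ D) (hx : BarOK ρ k₀ D Rm c x) :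
    0 < (barG Y (barSet c 0 (barW k₀ D Rm)) (barSet c 1 fun s => (x s : ℂ))).re := by
  have h := H.removed hc hx (barSet c 1 x) (fun s => ?_) (fun s hs => by simp [barSet, hs])
  · rwa [bar_cast_set, Complex.ofReal_one] at h
  · unfold barSet; split_ifs
    exacts [one_pos, hx.pos s]

lemma bar_im_set (c : α) (w : ℝ) (x : α × κ → ℝ) (s : α × κ) :
    (barSet c (w : ℂ) (fun s => (x s : ℂ)) s).im = 0 := by
  unfold barSet; split_ifs <;> simp

lemma bar_im_update {z : α × κ → ℂ} (hz : ∀ s, (z s).im = 0) (e : α × κ) {u : ℂ} (hu : u.im = 0)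
    (s : α × κ) : (Function.update z e u s).im = 0 := by
  by_cases h : s = e
  · subst h; simpa using hu
  · simpa [h] using hz s

lemma bar_im_one (c : α) (x : α × κ → ℝ) (s : α × κ) :
    (barSet c (1 : ℂ) (fun s => (x s : ℂ)) s).im = 0 := bar_im_set c 1 x s

lemma BarInv.q_ne_zero (H : BarInv Y ρ k₀ D) (hY : Herm Y) (hc : c ∉ D)
    (hx : BarOK ρ k₀ D Rm c x) {w : ℂ} (hw : 0 < w.im) :
    barG Y (barW k₀ D Rm) (barSet c w fun s => (x s : ℂ)) ≠ 0 := by
  refine barG_set_ne_zero hY c _ (barW_nonneg k₀ D Rm) _ (fun s => by simp) hw fun h => ?_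
  have := H.removed' hc hx
  rw [h] at this
  simp at this

/-- the application of the one-variable step -/
lemma BarInv.core (H : BarInv Y ρ k₀ D) (hY : Herm Y) (hd : ∀ c, Y c c = 0)
    (hρ : ρ ^ 2 = Fintype.card κ) (hρ1 : 1 ≤ ρ) (hc : c ∉ D) (hc' : c ∉ Rm)
    (hx : BarOK ρ k₀ D Rm c x) (A : ℂ[X]) (Aᵣ A₁ : ℝ) (hA : A.natDegree ≤ Fintype.card κ)
    (hAr : A.coeff (Fintype.card κ) = Aᵣ) (hA1 : A.coeff (Fintype.card κ - 1) = A₁)
    (hI : ∀ w : ℂ, 0 < w.im →
      (A.eval w / barG Y (barW k₀ D Rm) (barSet c w fun s => (x s : ℂ))).im ≤ 0)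
    {z : ℝ} (hz : 7 * ρ ≤ z) :
    0 < (barG Y (barW k₀ (insert c D) Rm)
      (Function.update (barSet c 1 fun s => (x s : ℂ)) (c, k₀) (z : ℂ))).re ∧
    (z * Aᵣ + A₁) / (barG Y (barW k₀ (insert c D) Rm)
      (Function.update (barSet c 1 fun s => (x s : ℂ)) (c, k₀) (z : ℂ))).re ≤
      (A.eval ((2 * ρ : ℝ) : ℂ) /
        barG Y (barW k₀ D Rm) (barSet c ((2 * ρ : ℝ) : ℂ) fun s => (x s : ℂ))).re := by
  have hρ0 : 0 < ρ := by linarith
  have hθ := barW_split k₀ hc hc'
  have hev := eval_barQ Y hθ (fun s => (x s : ℂ))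
  set P : ℝ := (barG Y (barSet c 0 (barW k₀ D Rm)) (barSet c 1 fun s => (x s : ℂ))).re with hP
  set P₁ : ℝ := (barG Y (barW k₀ (insert c D) Rm)
    (Function.update (barSet c 1 fun s => (x s : ℂ)) (c, k₀) 0)).re with hP₁
  have hrem : Function.update (barW k₀ (insert c D) Rm) (c, k₀) 0 = barSet c 0 (barW k₀ D Rm) := by
    rw [← barW_merge k₀ D hc', Function.update_idem]
    exact Function.update_eq_self_iff.2 (by simp [barSet])
  have hM : (barG Y (barW k₀ (insert c D) Rm)
      (Function.update (barSet c 1 fun s => (x s : ℂ)) (c, k₀) (z : ℂ))).re = z * P + P₁ := by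
    rw [barG_affine0, hrem, Function.update_eq_self_iff.2 (by simp [barSet])]
    simp [hP, hP₁]
  rw [hM, ← hev]
  simp only [← hev] at hI
  refine barrier_poly (Fintype.card κ) ρ hρ hρ1 _ A P P₁ Aᵣ A₁ (H.removed' hc hx)
    (natDegree_barQ Y _ k₀) hA ?_ ?_ hAr hA1 (fun w hw => ?_) ?_ ?_ hI hz
  · rw [coeff_barQ_top]
    exact barG_real hY _ (bar_im_one c x)
  · rw [coeff_barQ_next Y _ k₀, barW_merge k₀ D hc']
    exact barG_real hY _ (bar_im_update (bar_im_one c x) _ (by simp))
  · rw [hev] at hw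
    have him : w.im = 0 := by
      rcases lt_trichotomy w.im 0 with h | h | h
      · refine absurd ?_ (H.q_ne_zero hY hc hx (w := star w) (by simpa using h))
        have h1 := star_barG hY (barW k₀ D Rm) (barSet c w fun s => (x s : ℂ))
        rw [hw, star_zero] at h1
        rw [h1]
        congr 1
        funext s
        unfold barSet; split_ifs <;> simp
      · exact h
      · exact absurd hw (H.q_ne_zero hY hc hx h)
    refine ⟨him, not_le.1 fun h => ?_⟩
    have h1 := H.split' hρ1 hc hx h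
    rw [Complex.conj_eq_iff_re.1 (Complex.conj_eq_iff_im.2 him), hw] at h1
    simp at h1
  · rw [deriv_barQ Y hθ, hev, Finset.sum_div, Complex.re_sum]
    have h1 : 0 < 2 * ρ - 1 / ρ := by
      have : 1 / ρ ≤ 1 := by rw [div_le_one hρ0]; exact hρ1
      linarith
    have h2 := H.split' hρ1 hc hx le_rfl
    refine (Finset.sum_le_card_nsmul _ _ (1 / (2 * ρ - 1 / ρ)) fun k _ => ?_).trans
      (le_of_eq (by simp [div_eq_mul_inv]))
    have e1 := barG_real hY (barW k₀ D Rm) (bar_im_set c (2 * ρ) x)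
    have e2 := barG_real hY (Function.update (barW k₀ D Rm) (c, k) 0)
      (bar_im_update (bar_im_set c (2 * ρ) x) (c, k) (u := 1) (by simp))
    have h3 := fun u hu => (H.split hρ0 hc hx le_rfl (c, k) hc (u := u) hu).trans_eq
      (congrArg Complex.re (barG_affine _ _ _ _ _))
    rw [e1, e2] at h3 ⊢
    generalize (barG Y (barW k₀ D Rm) (barSet c ((2 * ρ : ℝ) : ℂ) fun s => (x s : ℂ))).re = q
      at h2 h3 ⊢
    generalize (barG Y (Function.update (barW k₀ D Rm) (c, k) 0) _).re = B at h3 ⊢
    rw [← Complex.ofReal_div, Complex.ofReal_re]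
    by_contra hlt
    rw [not_le, div_lt_div_iff₀ h1 h2] at hlt
    have hB : 0 < B := by nlinarith
    have h4 := h3 (2 * ρ - q / B) (by
      have : q / B < 2 * ρ - 1 / ρ := by rw [div_lt_iff₀ hB]; linarith
      linarith)
    have h5 : (((q : ℝ) : ℂ) + (((2 * ρ - q / B : ℝ) : ℂ) -
        barSet c ((2 * ρ : ℝ) : ℂ) (fun s => (x s : ℂ)) (c, k)) * (B : ℂ)) = 0 := by
      have : (B : ℂ) ≠ 0 := by exact_mod_cast hB.ne'
      simp only [barSet, if_true]
      push_cast
      field_simp
      ring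
    rw [h5] at h4
    simp at h4
  · have h := FF_offdiag_nonpos (bar_herm hY) (fun s => hd s.1) (barW k₀ (insert c D) Rm)
      (barW_nonneg k₀ _ _) (barSet c 1 x) (c, k₀) fun t ht => ?_
    · rwa [bar_cast_set, Complex.ofReal_one] at h
    · have h1 := H.removed hc hx (Function.update (fun s => barSet c 1 x s + t) (c, k₀) 1)
        (fun s => ?_) (fun s hs => ?_)
      · rw [bar_cast_update', ← hrem, barG, bar_cast_update] at h1
        exact h1
      · by_cases h : s = (c, k₀)
        · subst h; simp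
        · simp only [Function.update_of_ne h, barSet]
          split_ifs
          · linarith
          · linarith [hx.pos s]
      · have h : s ≠ (c, k₀) := fun e => hs (by rw [e])
        simpa [Function.update_of_ne h, barSet, hs] using ht

/-- merged model with an exceptional site -/
lemma BarInv.merged (H : BarInv Y ρ k₀ D) (hY : Herm Y) (hd : ∀ c, Y c c = 0)
    (hρ : ρ ^ 2 = Fintype.card κ) (hρ1 : 1 ≤ ρ) (hc : c ∉ D) (hc' : c ∉ Rm)
    (hx : BarOK ρ k₀ D Rm c x) {z : ℝ} (hz : 7 * ρ ≤ z) (e : α × κ) (he : e.1 ≠ c) (heD : e.1 ∉ D)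
    {u : ℝ} (hu : 1 / ρ < u) (hu' : u ≤ x e) :
    0 < (barG Y (barW k₀ (insert c D) Rm) (Function.update
      (Function.update (barSet c 1 fun s => (x s : ℂ)) (c, k₀) (z : ℂ)) e (u : ℂ))).re := by
  have hρ0 : 0 < ρ := by linarith
  have hne : ∀ k, (c, k) ≠ e := fun k h => he (by rw [← h])
  have hθ : ∀ k k', Function.update (barW k₀ D Rm) e 0 (c, k) k' = if k' = k then 1 else 0 := by
    intro k k'
    rw [Function.update_of_ne (hne k), barW_split k₀ hc hc']
  have hev := eval_barQ Y hθ (Function.update (fun s => (x s : ℂ)) e 1)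
  simp only [barSet_update he] at hev
  have htop := coeff_barQ_top Y (θ := Function.update (barW k₀ D Rm) e 0) (c := c)
    (Function.update (fun s => (x s : ℂ)) e 1)
  have hnext := coeff_barQ_next Y (θ := Function.update (barW k₀ D Rm) e 0) (c := c)
    (Function.update (fun s => (x s : ℂ)) e 1) k₀
  simp only [barSet_update he] at htop hnext
  rw [Function.update_comm (hne k₀).symm, Function.update_comm (hne k₀).symm,
    barW_merge k₀ D hc'] at hnext
  have r1 := barG_real hY (Function.update (barSet c 0 (barW k₀ D Rm)) e 0)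
    (bar_im_update (bar_im_one c x) e (u := 1) (by simp))
  have r2 := barG_real hY (Function.update (barW k₀ (insert c D) Rm) e 0)
    (bar_im_update (bar_im_update (bar_im_one c x) (c, k₀) (u := 0) (by simp)) e (u := 1) (by simp))
  have hxe : ∀ w : ℂ, barSet c w (fun s => (x s : ℂ)) e = x e := fun w => by simp [barSet, he]
  have hcore := fun hI => H.core hY hd hρ hρ1 hc hc' hx _ _ _ (natDegree_barQ Y _ k₀)
    (htop.trans r1) (hnext.trans r2) hI hz
  refine (hcore fun w hw => ?_).elim fun h1 h2 => ?_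
  swap
  · have hrem : Function.update (Function.update (barW k₀ (insert c D) Rm) e 0) (c, k₀) 0 =
        Function.update (barSet c 0 (barW k₀ D Rm)) e 0 := by
      rw [Function.update_comm (hne k₀).symm, ← barW_merge k₀ D hc', Function.update_idem,
        (Function.update_eq_self_iff (a := (c, k₀))).2 (by simp [barSet])]
    have hM : barG Y (Function.update (barW k₀ (insert c D) Rm) e 0) (Function.update
        (Function.update (barSet c 1 fun s => (x s : ℂ)) (c, k₀) (z : ℂ)) e 1) =
        z * barG Y (Function.update (barSet c 0 (barW k₀ D Rm)) e 0)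
          (Function.update (barSet c 1 fun s => (x s : ℂ)) e 1) +
        barG Y (Function.update (barW k₀ (insert c D) Rm) e 0) (Function.update
          (Function.update (barSet c 1 fun s => (x s : ℂ)) (c, k₀) 0) e 1) := by
      rw [Function.update_comm (hne k₀), barG_affine0, hrem, Function.update_comm (hne k₀),
        (Function.update_eq_self_iff (a := (c, k₀))).2
          (by simp [barSet, Function.update_of_ne (hne k₀)])]
    have h3 := H.split hρ0 hc hx le_rfl e heD hu
    have h4 := H.split' hρ1 hc hx le_rfl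
    rw [barG_affine, hxe] at h3
    rw [barG_affine, hM, Function.update_of_ne (hne k₀).symm, hxe, r1, r2]
    rw [hev] at h2
    have r3 := barG_real hY (barW k₀ D Rm) (bar_im_set c (2 * ρ) x)
    have r4 := barG_real hY (Function.update (barW k₀ D Rm) e 0)
      (bar_im_update (bar_im_set c (2 * ρ) x) e (u := 1) (by simp))
    rw [r3, r4] at h2 h3
    rw [← Complex.ofReal_div, Complex.ofReal_re] at h2
    generalize (barG Y (barW k₀ D Rm) (barSet c ((2 * ρ : ℝ) : ℂ) fun s => (x s : ℂ))).re = q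
      at h2 h3 h4
    generalize (barG Y (Function.update (barW k₀ D Rm) e 0) _).re = B at h2 h3
    generalize (barG Y (Function.update (barSet c 0 (barW k₀ D Rm)) e 0) _).re = Aᵣ at h2 ⊢
    generalize (barG Y (Function.update (barW k₀ (insert c D) Rm) e 0) _).re = A₁ at h2 ⊢
    simp only [Complex.add_re, Complex.mul_re, Complex.sub_re, Complex.ofReal_re, Complex.sub_im,
      Complex.ofReal_im, Complex.add_im, Complex.mul_im, sub_zero, mul_zero, zero_mul, add_zero]
      at h3 ⊢
    generalize (barG Y (barW k₀ (insert c D) Rm) _).re = M at h1 h2 ⊢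
    rw [div_le_div_iff₀ h1 h4] at h2
    have h5 : 0 ≤ x e - u := by linarith
    have h6 : 0 < (M + (u - x e) * (z * Aᵣ + A₁)) * q := by
      nlinarith [mul_pos h1 h3, mul_le_mul_of_nonneg_left h2 h5]
    exact (mul_pos_iff_of_pos_right h4).1 h6
  · rw [hev]
    have hq := H.q_ne_zero hY hc hx hw
    by_contra hlt
    rw [not_le] at hlt
    set ξ := barG Y (Function.update (barW k₀ D Rm) e 0)
      (Function.update (barSet c w fun s => (x s : ℂ)) e 1) /
        barG Y (barW k₀ D Rm) (barSet c w fun s => (x s : ℂ)) with hξ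
    have hξ0 : ξ ≠ 0 := fun h => by rw [h] at hlt; simp at hlt
    have him : 0 < (x e - ξ⁻¹ : ℂ).im := by
      have : 0 < Complex.normSq ξ := Complex.normSq_pos.2 hξ0
      simp only [Complex.sub_im, Complex.ofReal_im, Complex.inv_im, zero_sub, neg_div, neg_neg]
      positivity
    refine barG_set_ne_zero hY c _ (barW_nonneg k₀ D Rm)
      (Function.update (fun s => (x s : ℂ)) e (x e - ξ⁻¹)) (fun s => ?_) hw ?_ ?_
    · by_cases h : s = e
      · subst h; simpa using him.le
      · simp [h]
    · rw [barSet_update he, barG_affine, hxe, r1, barG_real hY _ (bar_im_one c x)]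
      have h1 := H.removed' hc hx
      generalize (barG Y (barSet c 0 (barW k₀ D Rm)) _).re = P at h1 ⊢
      generalize (barG Y (Function.update (barSet c 0 (barW k₀ D Rm)) e 0) _).re = Aᵣ
      intro h
      have h2 := congrArg Complex.im h
      have h3 := congrArg Complex.re h
      simp only [Complex.add_im, Complex.ofReal_im, Complex.mul_im, Complex.ofReal_re, mul_zero,
        zero_add, Complex.zero_im, mul_eq_zero, Complex.sub_im (x e - ξ⁻¹), sub_zero] at h2
      rcases h2 with h2 | h2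
      · exact him.ne' h2
      · rw [h2] at h3
        simp at h3
        exact h1.ne' h3
    · rw [barSet_update he, barG_affine, hxe]
      have : barG Y (Function.update (barW k₀ D Rm) e 0)
          (Function.update (barSet c w fun s => (x s : ℂ)) e 1) =
          ξ * barG Y (barW k₀ D Rm) (barSet c w fun s => (x s : ℂ)) := by
        rw [hξ, div_mul_cancel₀ _ hq]
      rw [this]
      field_simp
      ring

lemma bar_scale (Y : α → α → ℂ) (k₀ : κ) (D : Finset α) {Rm : Finset α} {c : α} (hc' : c ∉ Rm)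
    (v : α × κ → ℝ) :
    barG Y (barW k₀ (insert c D) Rm) (fun s => v s) =
      ((∏ s : α × κ, if s.1 = c ∧ s.2 ≠ k₀ then v s else 1 : ℝ) : ℂ) *
        barG Y (barW k₀ (insert c D) Rm)
          (Function.update (barSet c 1 fun s => (v s : ℂ)) (c, k₀) (v (c, k₀) : ℂ)) := by
  rw [Complex.ofReal_prod, barG, barG, FF, FF, ← mix_scale]
  congr 1
  funext ⟨c', k⟩ o
  by_cases h : c' = c
  · subst h
    by_cases hk : k = k₀
    · subst hk
      cases o <;> simp
    · cases o <;> simp [barSet, barW, hk, hc']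
  · cases o <;> simp [barSet, h]

lemma BarInv.step (H : BarInv Y ρ k₀ D) (hY : Herm Y) (hd : ∀ c, Y c c = 0)
    (hρ : ρ ^ 2 = Fintype.card κ) (hρ1 : 1 ≤ ρ) (hc : c ∉ D) : BarInv Y ρ k₀ (insert c D) := by
  intro Rm s₀ v hv hD hS
  by_cases hc' : c ∈ Rm
  · have e : barW k₀ (insert c D) Rm = barW k₀ D Rm := by
      funext s k
      by_cases h : s.1 = c <;> simp [barW, h, hc']
    rw [e]
    refine H Rm s₀ v hv (fun c' h => hD c' (Finset.mem_insert_of_mem h)) fun s h1 h2 => hS s ?_ h2
    rw [Finset.mem_insert, not_or]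
    exact ⟨fun h => h2 (h ▸ hc'), h1⟩
  rw [bar_scale Y k₀ D hc', Complex.re_ofReal_mul]
  refine mul_pos (Finset.prod_pos fun s _ => ?_) ?_
  · split_ifs
    exacts [hv s, one_pos]
  have hz := hD c (Finset.mem_insert_self _ _) hc'
  by_cases hex : ∀ s : α × κ, s.1 ≠ c → s.1 ∉ D → s.1 ∉ Rm → 2 * ρ ≤ v s
  · exact (H.core hY hd hρ hρ1 hc hc' ⟨hv, fun c' h => hD c' (Finset.mem_insert_of_mem h), hex⟩
      0 0 0 (by simp) (by simp) (by simp) (by simp) hz).1
  push Not at hex
  obtain ⟨e, he, heD, heR, hev⟩ := hex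
  have hS' : ∀ s : α × κ, s.1 ≠ c → s.1 ∉ D → s.1 ∉ Rm →
      (some s = s₀ ∧ 1 / ρ < v s) ∨ 2 * ρ ≤ v s := fun s h1 h2 h3 =>
    hS s (by rw [Finset.mem_insert, not_or]; exact ⟨h1, h2⟩) h3
  obtain ⟨he0, hu⟩ := (hS' e he heD heR).resolve_right (not_le.2 hev)
  have hx : BarOK ρ k₀ D Rm c (Function.update v e (2 * ρ)) := by
    refine ⟨fun s => ?_, fun c' h1 h2 => ?_, fun s h1 h2 h3 => ?_⟩
    · by_cases h : s = e
      · subst h; simp; linarith
      · simpa [h] using hv s
    · have h3 : (c', k₀) ≠ e := fun h => heD (h ▸ h1)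
      simpa [h3] using hD c' (Finset.mem_insert_of_mem h1) h2
    · by_cases h : s = e
      · subst h; simp
      · rw [Function.update_of_ne h]
        refine (hS' s h1 h2 h3).resolve_left fun h4 => h ?_
        exact Option.some_injective _ (h4.1.trans he0.symm)
  have h := H.merged hY hd hρ hρ1 hc hc' hx hz e he heD hu (by simpa using hev.le)
  have hne : (c, k₀) ≠ e := fun h => he (by rw [← h])
  refine lt_of_lt_of_eq h (congrArg (fun y => (barG Y _ y).re) ?_)
  funext s
  by_cases h1 : s = e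
  · subst h1; simp [hne.symm, barSet, he]
  · by_cases h2 : s = (c, k₀)
    · subst h2; simp [h1]
    · simp [h1, h2, barSet]

end step

/-- The invariant.  Recipe: `Finset.induction_on D` (for all `Rm, s₀, v`).  Base: `barrier_base`.
Step `insert c D`: if `c ∈ Rm` the weights are unchanged.  Otherwise scale the dummy sites
`(c, k)`, `k ≠ k₀`, to the value `1` (`mix_update_smul`/`mix_scale`; they are positive factors).
Let `u₀ = max (v s₀) (2ρ)` at the exceptional site (if it is a split site of another cell),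
`ω` the data with `u₀` at `s₀`, `q = splitPoly Y ω c`, `A = splitPoly Y ω' c` with `s₀` in the state
`o.elim 1 0` (take `A = 0` if there is no exceptional site).  Check the hypotheses of
`barrier_poly` (all values are real by `star_FF`): `P > 0` by the induction hypothesis for
`insert c Rm`; real roots `≥ 2ρ` are excluded by the induction hypothesis, non-real ones by
iterating `im_mul_norm_FF_le` over the sites of `c` (and conjugation); `hlog` from
`derivative_splitPoly` and positivity of the affine function of the site `(c, k)` on `(1/ρ, ∞)`;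
`hP₁` from `FF_offdiag_nonpos`; `hI` because `q w + (u - u₀) A w ≠ 0` for `w, u` in the upper half
plane (`im_mul_norm_FF_le` again, then the removed model is a real affine function of `u` that is
positive at `u₀`).  Finally the merged value is
`(z P + P₁) (1 - (u₀ - v s₀) ratio)` with `ratio ≤ A(2ρ)/q(2ρ) ≤ 1/(u₀ - 1/ρ)`. -/
theorem barrier_inv {Y : α → α → ℂ} (hY : Herm Y) (hd : ∀ c, Y c c = 0)
    (hf : FormLe Y Finset.univ 1) {ρ : ℝ} (hρ : ρ ^ 2 = Fintype.card κ) (hρ1 : 1 ≤ ρ) (k₀ : κ)
    (D Rm : Finset α) (s₀ : Option (α × κ)) (v : α × κ → ℝ) (hv : ∀ s, 0 < v s)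
    (hD : ∀ c ∈ D, c ∉ Rm → 7 * ρ ≤ v (c, k₀))
    (hS : ∀ s : α × κ, s.1 ∉ D → s.1 ∉ Rm → (some s = s₀ ∧ 1 / ρ < v s) ∨ 2 * ρ ≤ v s) :
    0 < (FF (fun s s' : α × κ => Y s.1 s'.1) (fun s => v s) (fun s k => barW k₀ D Rm s k)).re := by
  have main : BarInv Y ρ k₀ D := by
    clear hD hS
    induction D using Finset.induction_on with
    | empty =>
      intro Rm s₀ v hv _ hS
      have h := barrier_base hY hd hf hρ1 (Finset.univ.filter fun s : α × κ => s.1 ∉ Rm) s₀ v
        (fun s _ => hv s) fun s hs => hS s (by simp) (Finset.mem_filter.1 hs).2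
      unfold barG
      convert h using 3
      funext s k
      by_cases h1 : s.1 ∈ Rm <;> by_cases h2 : k = s.2 <;> simp [barW, h1, h2]
    | insert c D hc ih => exact ih.step hY hd hρ hρ1 hc
  exact main Rm s₀ v hv hD hS

/-- Recipe: `barrier_inv` with `D = univ`, `Rm = ∅`, `v (c, k₀) = z c / b`, dummies `1`,
`mix_embed` along `c ↦ (c, k₀)` and `mix_scale` (for `b = 0` the value is `∏ z c`). -/
theorem barrier [Nonempty κ] {Y : α → α → ℂ} (hY : Herm Y) (hd : ∀ c, Y c c = 0)
    (hf : FormLe Y Finset.univ 1) {b : ℝ} (hb : 0 ≤ b) (z : α → ℝ)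
    (hz : ∀ c, 7 * b * √(Fintype.card κ) < z c) :
    0 < (FF Y (fun c => z c) (fun _ (_ : κ) => (b : ℂ))).re := by
  obtain ⟨k₀⟩ := ‹Nonempty κ›
  have hκ : (1 : ℝ) ≤ Fintype.card κ := by exact_mod_cast Fintype.card_pos_iff.2 ⟨k₀⟩
  have hρ1 : 1 ≤ √(Fintype.card κ : ℝ) := Real.one_le_sqrt.2 hκ
  have hz0 : ∀ c, 0 < z c := fun c => lt_of_le_of_lt (by positivity) (hz c)
  rcases hb.eq_or_lt with rfl | hb
  · have h := FF_unit Y (fun c => (z c : ℂ)) (fun _ => (none : Option κ)) (fun _ => 0)
    simp only [reduceCtorEq, if_false, ne_eq, not_true_eq_false, false_and, sub_zero] at h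
    have e : (Matrix.of fun c c' : α => if c = c' then (z c : ℂ) else 0) =
        Matrix.diagonal fun c => (z c : ℂ) := rfl
    rw [Complex.ofReal_zero, h, e, Matrix.det_diagonal, ← Complex.ofReal_prod, Complex.ofReal_re]
    exact Finset.prod_pos fun c _ => hz0 c
  · have h := barrier_inv hY hd hf (Real.sq_sqrt (by positivity)) hρ1 k₀ Finset.univ ∅ none
      (fun s => if s.2 = k₀ then z s.1 / b else 1) (fun s => ?_) (fun c _ _ => ?_) (by simp)
    · rw [FF, mix_embed ⟨fun c => (c, k₀), fun c c' h => (Prod.ext_iff.1 h).1⟩ _ _ ?_,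
        Finset.prod_eq_one ?_, mul_one] at h
      · have e : FF Y (fun c => (z c : ℂ)) (fun _ (_ : κ) => (b : ℂ)) =
            ((∏ _c : α, b : ℝ) : ℂ) * mix Y (wt (fun c => ((z c / b : ℝ) : ℂ)) fun _ (_ : κ) => 1) := by
          rw [Complex.ofReal_prod, ← mix_scale, FF]
          congr 1
          funext c o
          have : (b : ℂ) ≠ 0 := by exact_mod_cast hb.ne'
          cases o with
          | none => simp only [wt_none]; push_cast; field_simp
          | some k => simp
        rw [e, Complex.re_ofReal_mul]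
        refine mul_pos (Finset.prod_pos fun _ _ => hb) ?_
        refine lt_of_lt_of_eq h (congrArg (fun y => Complex.re (mix Y y)) ?_)
        funext c o
        cases o <;> simp [barW]
      · rintro ⟨c, k⟩ hs
        have : k ≠ k₀ := fun e => (Finset.mem_filter.1 hs).2 ⟨c, by simp [e]⟩
        simp [this]
      · rintro ⟨c, k⟩ hs k'
        have : k ≠ k₀ := fun e => hs ⟨c, by simp [e]⟩
        simp [barW, this]
    · split_ifs
      exacts [div_pos (hz0 _) hb, one_pos]
    · simp only [if_true]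
      rw [le_div_iff₀ hb]
      linarith [hz c]

end

end Crest.Agent.R109
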