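import Crest.Agent.R109.Round2

/-!
# Row 109, measured graphs: the local colouring rule and the paving theorem
-/

open MeasureTheory
open scoped BigOperators Pointwise

set_option linter.unusedSectionVars false

namespace Crest.Agent.R109

noncomputable section

open Classical

/-- an injective choice of `L` colours, inside `S` if `S` is large enough -/
theorem exists_pick (L : ℕ) : ∃ pick : Finset (Fin (2 * L)) → Fin L → Fin (2 * L),
    (∀ S, Function.Injective (pick S)) ∧ ∀ S, L ≤ S.card → ∀ l, pick S l ∈ S := by
  refine ⟨fun S => if h : L ≤ S.card then S.orderEmbOfCardLe h else Fin.castLE (by omega),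
    fun S => ?_, fun S h l => ?_⟩
  · dsimp only
    split_ifs with h
    · exact (S.orderEmbOfCardLe h).injective
    · exact Fin.castLE_injective _
  · simp only [dif_pos h]
    exact S.orderEmbOfCardLe_mem h l

def pick (L : ℕ) : Finset (Fin (2 * L)) → Fin L → Fin (2 * L) := (exists_pick L).choose

/-- the weights of a partial colouring -/
def wOf {X : Type*} {r : ℕ} (β : ℝ) (col : X → Option (Fin r)) : X → Fin r → ℝ := fun t =>
  (col t).elim (fun _ => β * (1000 / Fintype.card (Fin r))) (fun k => Pi.single k β)

theorem Colour_wOf_update {X : Type*} {r : ℕ} (β : ℝ) (c : X → Option (Fin r)) (t : X)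
    (x : Option (Fin r)) :
    wOf β (Function.update c t x) = Function.update (wOf β c) t
      (x.elim (fun _ => β * (1000 / Fintype.card (Fin r))) (fun k => Pi.single k β)) := by
  funext s
  by_cases h : s = t
  · subst h
    simp only [wOf, Function.update_self]
  · simp only [wOf, Function.update_of_ne h]

theorem Colour_wOf_nonneg {X : Type*} {r : ℕ} {β : ℝ} (hβ : 0 ≤ β) (c : X → Option (Fin r))
    (s : X) (k : Fin r) : 0 ≤ wOf β c s k := by
  unfold wOf
  cases c s with
  | none =>
    simp only [Option.elim]
    positivity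
  | some k' =>
    simp only [Option.elim]
    by_cases h : k = k'
    · subst h
      simpa using hβ
    · simp [Pi.single_eq_of_ne h]

theorem Colour_measurable_of_fm {X γ : Type*} [MeasurableSpace X] [Finite γ] {f : X → γ}
    (hf : FM f) (F : γ → ℝ) : Measurable fun t => F (f t) :=
  hf.measurable_cases (Set.toFinite _) (G := fun b _ => F b) fun _ => measurable_const

theorem Colour_adm_wOf {X : Type*} [MeasurableSpace X] {r : ℕ} {β : ℝ} (hβ : 0 ≤ β)
    {c : X → Option (Fin r)} (hc : FM c) : GraphData.Adm (wOf β c) (1000 * β) := by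
  refine ⟨fun k => ?_, Colour_wOf_nonneg hβ c, fun s => ?_⟩
  · exact Colour_measurable_of_fm hc fun x : Option (Fin r) =>
      (x.elim (fun _ => β * (1000 / Fintype.card (Fin r))) (fun k => Pi.single k β) : Fin r → ℝ) k
  · unfold wOf
    cases c s with
    | none =>
      simp only [Option.elim, Finset.sum_const, Finset.card_univ, Fintype.card_fin, nsmul_eq_mul]
      rcases Nat.eq_zero_or_pos r with h | h
      · subst h
        simp only [Nat.cast_zero, zero_mul]
        positivity
      · have : (r : ℝ) ≠ 0 := by positivity
        apply le_of_eq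
        field_simp
    | some k =>
      simp only [Option.elim, Finset.sum_pi_single', Finset.mem_univ, if_true]
      linarith

namespace GraphData

variable {Γ X : Type*} [Group Γ] [MulAction Γ X] [MeasurableSpace X] {μ : Measure X}
  (G : GraphData Γ X μ) {J L : ℕ}

/-- colours that are good at `t` for the kernel `G.Y` -/
def good1 (m : ℕ) (β : ℝ) {r : ℕ} (col : X → Option (Fin r)) (t : X) : Finset (Fin r) :=
  Finset.univ.filter fun k =>
    pot G.Y (G.rel t) (wOf β (Function.update col t (some k))) (G.ball m t) ≤
      pot G.Y (G.rel t) (wOf β (Function.update col t none)) (G.ball m t) + 6 * Real.exp 16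

def good (m : ℕ) (β : ℝ) {r : ℕ} (col : X → Option (Fin r)) (t : X) : Finset (Fin r) :=
  G.good1 m β col t ∩ G.neg.good1 m β col t

/-- the partial colouring after `i` rounds -/
def col (m : ℕ) (β : ℝ) (a : X → Fin J) (lam : X → Fin L) : ℕ → X → Option (Fin (2 * L))
  | 0 => fun _ => none
  | i + 1 => fun t =>
      if (a t : ℕ) = i then some (pick L (G.good m β (col m β a lam i) t) (lam t))
      else col m β a lam i t

theorem Colour_card_good1 (m : ℕ) {β : ℝ} (hβ : 0 ≤ β) {r : ℕ} (c : X → Option (Fin r)) (t : X) :
    3 * r ≤ 4 * (G.good1 m β c t).card := by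
  have h := pot_step G.herm G.diag (G.rel t) (Colour_wOf_nonneg hβ c) (G.mem_ball_self m t) hβ
  have h0 : G.rel t t = 0 := sub_self _
  rw [h0, zero_add, Fintype.card_fin] at h
  have h2 := Finset.card_filter_add_card_filter_not (s := (Finset.univ : Finset (Fin r)))
    fun k => pot G.Y (G.rel t) (wOf β (Function.update c t (some k))) (G.ball m t) ≤
      pot G.Y (G.rel t) (wOf β (Function.update c t none)) (G.ball m t) + 6 * Real.exp 16
  rw [Finset.card_univ, Fintype.card_fin] at h2
  have h3 : (Finset.univ.filter fun k : Fin r =>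
      ¬ pot G.Y (G.rel t) (wOf β (Function.update c t (some k))) (G.ball m t) ≤
      pot G.Y (G.rel t) (wOf β (Function.update c t none)) (G.ball m t) + 6 * Real.exp 16) =
      Finset.univ.filter fun k : Fin r =>
      pot G.Y (G.rel t) (Function.update (wOf β c) t fun _ => β * (1000 / r)) (G.ball m t) +
          6 * Real.exp 16 <
        pot G.Y (G.rel t) (Function.update (wOf β c) t (Pi.single k β)) (G.ball m t) := by
    refine Finset.filter_congr fun k _ => ?_
    rw [not_le, Colour_wOf_update, Colour_wOf_update, Fintype.card_fin]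
    rfl
  rw [h3] at h2
  unfold good1
  omega

theorem Colour_good1_congr (m : ℕ) (β : ℝ) {r : ℕ} {c c' : X → Option (Fin r)} {t : X}
    (h : ∀ s ∈ G.ball m t, c s = c' s) : G.good1 m β c t = G.good1 m β c' t := by
  have key : ∀ x : Option (Fin r),
      pot G.Y (G.rel t) (wOf β (Function.update c t x)) (G.ball m t) =
        pot G.Y (G.rel t) (wOf β (Function.update c' t x)) (G.ball m t) := by
    intro x
    refine pot_congr (fun _ _ _ _ => rfl) (fun _ _ => rfl) fun s hs => ?_
    by_cases hst : s = t
    · subst hst
      simp only [wOf, Function.update_self]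
    · simp only [wOf, Function.update_of_ne hst, h s hs]
  unfold good1
  simp only [key]

include G in
theorem Colour_measurableSet_smul_eq (g g' : Γ) : MeasurableSet {t : X | g • t = g' • t} := by
  have : {t : X | g • t = g' • t} = {t : X | (g'⁻¹ * g) • t = t} := by
    ext t
    simp only [Set.mem_ofPred_eq, mul_smul, inv_smul_eq_iff]
  rw [this]
  exact G.meas_fix _

theorem Colour_measurable_pot (m : ℕ) (β : ℝ) {r : ℕ} (c : X → X → Option (Fin r))
    (hc : ∀ g : Γ, FM fun o => c o (g • o)) (g : Γ) (x : Option (Fin r)) :
    Measurable fun o => pot G.Y (G.rel (g • o)) (wOf β (Function.update (c o) (g • o) x))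
      (G.ball m (g • o)) := by
  have h := G.measurable_pot ((G.V ^ m).image (· * g)) (fun _ _ => True) (fun _ => by simp)
    (fun o => G.rel (g • o)) (fun g' => ?_)
    (fun o => wOf β (Function.update (c o) (g • o) x)) (fun g' k => ?_)
  · simp only [Finset.filter_true, Finset.image_image] at h
    have e : ∀ o : X, G.ball m (g • o) =
        (G.V ^ m).image ((fun g' : Γ => g' • o) ∘ fun g' => g' * g) := by
      intro o
      unfold ball
      congr 1
      funext g'
      simp only [Function.comp, mul_smul]
    simp only [e]
    exact h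
  · have e : (fun o => G.rel (g • o) (g' • o)) =
        fun o => (G.hh (g' • o) - G.hh o) - (G.hh (g • o) - G.hh o) := by
      funext o
      simp only [rel]
      ring
    rw [e]
    exact (G.meas_h g').sub (G.meas_h g)
  · have h1 : FM fun o => Function.update (c o) (g • o) x (g' • o) := by
      have h2 := ((FM.of_set (G.Colour_measurableSet_smul_eq g' g)).prod (hc g')).comp
        fun q => if q.1 then x else q.2
      have e : (fun o => Function.update (c o) (g • o) x (g' • o)) =
          fun o => if o ∈ {t : X | g' • t = g • t} then x else c o (g' • o) := by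
        funext o
        simp only [Function.update_apply, Set.mem_ofPred_eq]
      rw [e]
      exact h2
    exact Colour_measurable_of_fm h1 fun x : Option (Fin r) =>
      (x.elim (fun _ => β * (1000 / Fintype.card (Fin r))) (fun k => Pi.single k β) : Fin r → ℝ) k

theorem Colour_fm_good1 (m : ℕ) (β : ℝ) {r : ℕ} (c : X → X → Option (Fin r))
    (hc : ∀ g : Γ, FM fun o => c o (g • o)) (g : Γ) :
    FM fun o => G.good1 m β (c o) (g • o) := by
  have h := FM.filter (Finset.univ : Finset (Fin r)) (p := fun k o =>
      pot G.Y (G.rel (g • o)) (wOf β (Function.update (c o) (g • o) (some k))) (G.ball m (g • o)) ≤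
      pot G.Y (G.rel (g • o)) (wOf β (Function.update (c o) (g • o) none)) (G.ball m (g • o)) +
        6 * Real.exp 16)
    fun k _ => measurableSet_le (G.Colour_measurable_pot m β c hc g _)
      ((G.Colour_measurable_pot m β c hc g _).add measurable_const)
  unfold good1
  convert h

/-- `pot_step` for `G` and `G.neg` (`rel t t = 0`). -/
theorem card_good (m : ℕ) {β : ℝ} (hβ : 0 ≤ β) (c : X → Option (Fin (2 * L))) (t : X) :
    L ≤ (G.good m β c t).card := by
  have h1 := G.Colour_card_good1 m hβ c t
  have h2 := G.neg.Colour_card_good1 m hβ c t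
  have h3 := Finset.card_union_add_card_inter (G.good1 m β c t) (G.neg.good1 m β c t)
  have h4 : (G.good1 m β c t ∪ G.neg.good1 m β c t).card ≤ 2 * L := by
    simpa using Finset.card_le_univ (G.good1 m β c t ∪ G.neg.good1 m β c t)
  unfold good
  omega

theorem col_eq_none_iff (m : ℕ) (β : ℝ) (a : X → Fin J) (lam : X → Fin L) (i : ℕ) (t : X) :
    G.col m β a lam i t = none ↔ i ≤ (a t : ℕ) := by
  induction i with
  | zero => simp [col]
  | succ i ih =>
    simp only [col]
    split_ifs with h
    · simp [h]
    · rw [ih]
      omega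

theorem col_stable (m : ℕ) (β : ℝ) (a : X → Fin J) (lam : X → Fin L) {i : ℕ} {t : X}
    (hi : (a t : ℕ) < i) : G.col m β a lam i t =
      some (pick L (G.good m β (G.col m β a lam (a t)) t) (lam t)) := by
  induction i with
  | zero => omega
  | succ i ih =>
    simp only [col]
    split_ifs with h
    · rw [h]
    · exact ih (by omega)

/-- locality, and independence of the labels of later rounds (induction on `i`, `pot_congr`) -/
theorem col_congr (m : ℕ) (β : ℝ) (a : X → Fin J) (lam lam' : X → Fin L) (i : ℕ) (t : X)
    (h : ∀ s ∈ G.ball (m * i) t, (a s : ℕ) < i → lam s = lam' s) :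
    G.col m β a lam i t = G.col m β a lam' i t := by
  induction i generalizing t with
  | zero => rfl
  | succ i ih =>
    simp only [col]
    split_ifs with hi
    · have hc : ∀ s ∈ G.ball m t, G.col m β a lam i s = G.col m β a lam' i s := by
        intro s hs
        refine ih s fun s' hs' hlt => h s' ?_ (by omega)
        rw [Nat.mul_succ]
        exact G.mem_ball_trans hs' hs
      rw [h t (G.mem_ball_self _ t) (by omega)]
      unfold good
      rw [G.Colour_good1_congr m β hc, G.neg.Colour_good1_congr m β hc]
    · refine ih t fun s hs hlt => h s (G.ball_mono ?_ t hs) (by omega)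
      exact Nat.mul_le_mul_left m (Nat.le_succ i)

/-- Measurability for labels that depend on the root.  Recipe: induction on `i` for all `g`;
`ball m (g • o)` is the image of `(V ^ m).image (· * g)`; `measurable_pot`, `FM.filter`,
`FM.cases`. -/
theorem fm_col (m : ℕ) (β : ℝ) {a : X → Fin J} (ha : Measurable a) (lam : X → X → Fin L)
    (hlam : ∀ g : Γ, FM fun o => lam o (g • o)) (i : ℕ) (g : Γ) :
    FM fun o => G.col m β a (lam o) i (g • o) := by
  induction i generalizing g with
  | zero => exact FM.const none
  | succ i ih =>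
    have h1 : FM fun o => a (g • o) := (FM.of_measurable ha).precomp (G.meas_smul g)
    have h2 := G.Colour_fm_good1 m β (fun o => G.col m β a (lam o) i) ih g
    have h3 := G.neg.Colour_fm_good1 m β (fun o => G.col m β a (lam o) i) ih g
    exact ((h1.prod ((h2.prod h3).prod (hlam g))).prod (ih g)).comp fun q =>
      if (q.1.1 : ℕ) = i then some (pick L (q.1.2.1.1 ∩ q.1.2.1.2) q.1.2.2) else q.2

theorem Colour_DD_aux [IsFiniteMeasure μ] {j : ℕ} {β : ℝ} (G' : GraphData Γ X μ)
    (hball : G'.ball = G.ball)
    (hgood : ∀ (c : X → Option (Fin (2 * L))) t, G.good (2 * j) β c t ⊆ G'.good1 (2 * j) β c t)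
    (hL : 0 < L) {S : ℝ} (hβ : 0 ≤ β) (hS : 1 ≤ S)
    {a : X → Fin J} (ha : Measurable a) (hs : G.Sep a (4 * j)) {lam : X → Fin L}
    (hlam : Measurable lam) :
    G'.DD (2 * j) a (wOf β (G.col (2 * j) β a lam J)) ≤
      (Real.exp (7000 * β / √(2 * L)) + 6 * Real.exp 16 + G'.err j (1000 * β) S) *
        μ.real Set.univ := by
  have hs' : G'.Sep a (4 * j) := by
    unfold Sep
    rw [hball]
    exact hs
  have hadm : ∀ i, Adm (wOf β (G.col (2 * j) β a lam i)) (1000 * β) := by
    intro i
    have h := G.fm_col (2 * j) β ha (fun _ => lam)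
      (fun g => (FM.of_measurable hlam).precomp (G.meas_smul g)) i 1
    simp only [one_smul] at h
    exact Colour_adm_wOf hβ h
  have hset : ∀ p : Fin J → Prop, MeasurableSet {t | p (a t)} := fun p =>
    (FM.of_measurable ha).set p
  have main : ∀ i, G'.DD (2 * j) a (wOf β (G.col (2 * j) β a lam i)) ≤
      Real.exp (7000 * β / √(2 * L)) * μ.real Set.univ +
        (6 * Real.exp 16 + G'.err j (1000 * β) S) * μ.real {t | (a t : ℕ) < i} := by
    intro i
    induction i with
    | zero =>
      have : Nonempty (Fin (2 * L)) := ⟨⟨0, by omega⟩⟩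
      have h := G'.DD_init (κ := Fin (2 * L)) (2 * j) ha hβ
      have e : ((Fintype.card (Fin (2 * L)) : ℕ) : ℝ) = 2 * L := by
        rw [Fintype.card_fin]
        push_cast
        rfl
      have e0 : {t | (a t : ℕ) < 0} = (∅ : Set X) := by
        ext t
        simp
      rw [e0, measureReal_empty, mul_zero, add_zero, ← e]
      exact h
    | succ i ih =>
      have hU : MeasurableSet {t | (a t : ℕ) = i} := hset fun x => (x : ℕ) = i
      have hUs : ∀ s ∈ {t | (a t : ℕ) = i}, ∀ t ∈ {t | (a t : ℕ) = i},
          s ∈ G'.ball (4 * j) t → s = t := fun s h1 t h2 h3 =>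
        hs' s t h3 (Fin.ext (h1.trans h2.symm))
      have h := G'.round j ha hs' (c := 6 * Real.exp 16) hS (hadm i) (hadm (i + 1)) hU hUs ?_ ?_
      · have e : {t | (a t : ℕ) < i + 1} = {t | (a t : ℕ) < i} ∪ {t | (a t : ℕ) = i} := by
          ext t
          simp only [Set.mem_ofPred_eq, Set.mem_union]
          omega
        have hd : Disjoint {t | (a t : ℕ) < i} {t | (a t : ℕ) = i} := by
          rw [Set.disjoint_left]
          intro t h1 h2
          exact absurd h2 (ne_of_lt h1)
        rw [e, measureReal_union hd hU]
        linarith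
      · intro s hs1
        have : ¬ (a s : ℕ) = i := hs1
        simp only [wOf, col, if_neg this]
      · intro t ht
        have ht' : (a t : ℕ) = i := ht
        have hk := hgood _ _ ((exists_pick L).choose_spec.2 _
          (G.card_good (2 * j) hβ (G.col (2 * j) β a lam i) t) (lam t))
        have hk' := (Finset.mem_filter.1 hk).2
        have e1 : Function.update (G.col (2 * j) β a lam i) t none = G.col (2 * j) β a lam i :=
          Function.update_eq_self_iff.2 ((G.col_eq_none_iff _ _ _ _ _ _).2 ht'.ge).symm
        rw [e1] at hk'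
        refine le_trans (le_of_eq ?_) hk'
        refine pot_congr (fun _ _ _ _ => rfl) (fun _ _ => rfl) fun s hs1 => ?_
        by_cases hst : s = t
        · subst hst
          simp only [wOf, col, if_pos ht', Function.update_self]
          rfl
        · have : ¬ (a s : ℕ) = i := fun h1 =>
            hst (hUs s h1 t ht (G'.ball_mono (by omega) t hs1))
          simp only [wOf, col, if_neg this, Function.update_of_ne hst]
  have h1 : 0 ≤ 6 * Real.exp 16 + G'.err j (1000 * β) S := by
    have : 0 < S := by linarith
    unfold err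
    positivity
  have h2 : μ.real {t | (a t : ℕ) < J} ≤ μ.real Set.univ := measureReal_mono (Set.subset_univ _)
  have h3 := mul_le_mul_of_nonneg_left h2 h1
  have := main J
  linarith

/-- Recipe: induction on `i` with `round` for `U = {a = i}` (empty if `J ≤ i`), `c = 6 exp 16`,
`Θ = 1000 β`; start with `DD_init`.  State and prove it for any `G' ∈ {G, G.neg}`. -/
theorem DD_col [IsFiniteMeasure μ] (hL : 0 < L) (j : ℕ) {β S : ℝ} (hβ : 0 ≤ β) (hS : 1 ≤ S)
    {a : X → Fin J} (ha : Measurable a) (hs : G.Sep a (4 * j)) {lam : X → Fin L}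
    (hlam : Measurable lam) :
    G.DD (2 * j) a (wOf β (G.col (2 * j) β a lam J)) ≤
      (Real.exp (7000 * β / √(2 * L)) + 6 * Real.exp 16 + G.err j (1000 * β) S) *
        μ.real Set.univ ∧
    G.neg.DD (2 * j) a (wOf β (G.col (2 * j) β a lam J)) ≤
      (Real.exp (7000 * β / √(2 * L)) + 6 * Real.exp 16 + G.err j (1000 * β) S) *
        μ.real Set.univ := by
  exact ⟨G.Colour_DD_aux G rfl (fun _ _ => Finset.inter_subset_left) hL hβ hS ha hs hlam,
    G.Colour_DD_aux G.neg rfl (fun _ _ => Finset.inter_subset_right) hL hβ hS ha hs hlam⟩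

end GraphData

end

end Crest.Agent.R109
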