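import Crest.Agent.R109.StdE

/-!
# Row 109: the conditional expectation onto the normaliser algebra
-/

open Filter Topology
open scoped InnerProductSpace BigOperators ComplexOrder

set_option linter.unusedSectionVars false

namespace Crest.Agent.R109

noncomputable section

open Classical

variable {H : Type*} [NormedAddCommGroup H] [InnerProductSpace ℂ H] [CompleteSpace H]
  {X : Type*} [TopologicalSpace X] [CompactSpace X] [T2Space X] [ExtremallyDisconnected X]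

/-- the real orthogonal projection onto the closure of a real subspace of `H × H` -/
theorem CondN_exists_proj (G : Set (H × H)) (h0 : (0 : H × H) ∈ G)
    (hadd : ∀ a ∈ G, ∀ b ∈ G, a + b ∈ G) (hsmul : ∀ (r : ℝ), ∀ a ∈ G, (r : ℂ) • a ∈ G)
    (p : H × H) : ∃ q ∈ closure G, ∀ w ∈ G,
      (⟪w.1, p.1 - q.1⟫_ℂ).re + (⟪w.2, p.2 - q.2⟫_ℂ).re = 0 := by
  let : InnerProductSpace ℝ H := InnerProductSpace.complexToReal
  let K : Submodule ℝ (WithLp 2 (H × H)) :=
    { carrier := {v | WithLp.ofLp v ∈ G}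
      add_mem' := fun {a b} ha hb => hadd _ ha _ hb
      zero_mem' := h0
      smul_mem' := fun r a ha => hsmul r _ ha }
  let Kc := K.topologicalClosure
  refine ⟨WithLp.ofLp (Kc.starProjection (WithLp.toLp 2 p)), ?_, fun w hw => ?_⟩
  · have h1 : Kc.starProjection (WithLp.toLp 2 p) ∈ closure (K : Set (WithLp 2 (H × H))) :=
      Kc.starProjection_apply_mem _
    exact map_mem_closure (f := fun v : WithLp 2 (H × H) => WithLp.ofLp v)
      (WithLp.prod_continuous_ofLp 2 H H) h1 fun v hv => hv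
  · have h2 : WithLp.toLp 2 w ∈ Kc := K.le_topologicalClosure (show WithLp.toLp 2 w ∈ K from hw)
    have h3 := Kc.starProjection_inner_eq_zero (WithLp.toLp 2 p) _ h2
    rw [real_inner_comm, WithLp.prod_inner_apply] at h3
    exact h3

namespace Std
variable (S : Std H X)

theorem NV_mono {V V' : Set S.Nrm} (h : V ⊆ V') : S.NV V ≤ S.NV V' := by
  refine Submodule.span_mono ?_
  rintro y ⟨g, hg, f, rfl⟩
  exact ⟨g, h hg, f, rfl⟩

theorem CondN_gen_mem (g : S.Nrm) (f : C(X, ℂ)) : g.u * S.ρ f ∈ S.N0 :=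
  Submodule.subset_span ⟨g, Set.mem_univ _, f, rfl⟩

theorem CondN_induction {P : (H →L[ℂ] H) → Prop} (hgen : ∀ (g : S.Nrm) f, P (g.u * S.ρ f))
    (h0 : P 0) (hadd : ∀ y z, P y → P z → P (y + z)) (hsmul : ∀ (c : ℂ) y, P y → P (c • y))
    {y : H →L[ℂ] H} (hy : y ∈ S.N0) : P y := by
  induction hy using Submodule.span_induction with
  | mem y hy =>
    obtain ⟨g, -, f, rfl⟩ := hy
    exact hgen g f
  | zero => exact h0
  | add y z _ _ hy hz => exact hadd y z hy hz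
  | smul c y _ hy => exact hsmul c y hy

theorem N0_mem_M {y : H →L[ℂ] H} (hy : y ∈ S.N0) : y ∈ S.M :=
  S.CondN_induction (P := fun y => y ∈ S.M) (fun g f => mul_mem g.mem (S.mem f)) (zero_mem _)
    (fun _ _ => add_mem) (fun c _ h => vn_smul_mem c h) hy

theorem ρ_mem_N0 (f : C(X, ℂ)) : S.ρ f ∈ S.N0 := by
  simpa using S.CondN_gen_mem 1 f

theorem u_mem_N0 (g : S.Nrm) : g.u ∈ S.N0 := by
  simpa using S.CondN_gen_mem g 1

theorem N0_mul {y z : H →L[ℂ] H} (hy : y ∈ S.N0) (hz : z ∈ S.N0) : y * z ∈ S.N0 := by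
  refine S.CondN_induction (P := fun y => y * z ∈ S.N0) (fun g f => ?_) (by simp)
    (fun a b ha hb => by rw [add_mul]; exact add_mem ha hb)
    (fun c a ha => by rw [smul_mul_assoc]; exact Submodule.smul_mem _ c ha) hy
  refine S.CondN_induction (P := fun z => g.u * S.ρ f * z ∈ S.N0) (fun g' f' => ?_) (by simp)
    (fun a b ha hb => by rw [mul_add]; exact add_mem ha hb)
    (fun c a ha => by rw [mul_smul_comm]; exact Submodule.smul_mem _ c ha) hz
  have e : g.u * S.ρ f * (g'.u * S.ρ f') =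
      (g * g').u * S.ρ (f.comp ⟨g'.θ, g'.θ.continuous⟩ * f') := by
    rw [Nrm.mul_u, map_mul]
    calc g.u * S.ρ f * (g'.u * S.ρ f') = g.u * (S.ρ f * g'.u) * S.ρ f' := by
          simp only [mul_assoc]
      _ = _ := by rw [g'.ρ_mul]; simp only [mul_assoc]
  rw [e]
  exact S.CondN_gen_mem _ _

theorem N0_star {y : H →L[ℂ] H} (hy : y ∈ S.N0) : star y ∈ S.N0 := by
  refine S.CondN_induction (P := fun y => star y ∈ S.N0) (fun g f => ?_) (by simp)
    (fun a b ha hb => by rw [star_add]; exact add_mem ha hb)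
    (fun c a ha => by rw [star_smul]; exact Submodule.smul_mem _ _ ha) hy
  rw [star_mul, ← map_star]
  exact S.N0_mul (S.ρ_mem_N0 _) (S.u_mem_N0 g⁻¹)

theorem exists_finset_NV {y : H →L[ℂ] H} (hy : y ∈ S.N0) :
    ∃ V : Finset S.Nrm, 1 ∈ V ∧ (∀ v ∈ V, v⁻¹ ∈ V) ∧ y ∈ S.NV V := by
  refine S.CondN_induction
    (P := fun y => ∃ V : Finset S.Nrm, 1 ∈ V ∧ (∀ v ∈ V, v⁻¹ ∈ V) ∧ y ∈ S.NV V)
    (fun g f => ⟨{1, g, g⁻¹}, by simp, ?_, Submodule.subset_span ⟨g, by simp, f, rfl⟩⟩)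
    ⟨{1}, by simp, by simp, zero_mem _⟩ ?_ ?_ hy
  · intro v hv
    simp only [Finset.mem_insert, Finset.mem_singleton] at hv ⊢
    rcases hv with rfl | rfl | rfl <;> simp
  · rintro a b ⟨V, h1, h2, h3⟩ ⟨W, k1, k2, k3⟩
    refine ⟨V ∪ W, Finset.mem_union_left _ h1, fun v hv => ?_, add_mem ?_ ?_⟩
    · rcases Finset.mem_union.1 hv with h | h
      · exact Finset.mem_union_left _ (h2 v h)
      · exact Finset.mem_union_right _ (k2 v h)
    · exact S.NV_mono (by simp) h3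
    · exact S.NV_mono (by simp) k3
  · rintro c a ⟨V, h1, h2, h3⟩
    exact ⟨V, h1, h2, Submodule.smul_mem _ c h3⟩

theorem isClosed_Hd : IsClosed (S.Hd : Set H) :=
  Submodule.isClosed_topologicalClosure _

theorem CondN_apply_ξ_mem {y : H →L[ℂ] H} (hy : y ∈ S.N0) : y S.ξ ∈ S.Hd :=
  S.CondN_induction (P := fun y => y S.ξ ∈ S.Hd)
    (fun g f => Submodule.le_topologicalClosure _ (Submodule.subset_span ⟨g, f, rfl⟩))
    (zero_mem _) (fun _ _ => add_mem) (fun c _ h => Submodule.smul_mem _ c h) hy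

theorem N0_apply_mem {y : H →L[ℂ] H} (hy : y ∈ S.N0) {η : H} (hη : η ∈ S.Hd) : y η ∈ S.Hd := by
  refine apply_mem_closure_span S.isClosed_Hd y ?_ η hη
  rintro _ ⟨g, f, rfl⟩
  exact S.CondN_apply_ξ_mem (S.N0_mul hy (S.CondN_gen_mem g f))

theorem ξ_mem_Hd : S.ξ ∈ S.Hd := by
  simpa using S.CondN_apply_ξ_mem (S.u_mem_N0 1)

theorem CondN_Hd_eq : (S.Hd : Set H) = closure {η | ∃ y ∈ S.N0, y S.ξ = η} := by
  apply Set.Subset.antisymm
  · refine closure_mono ?_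
    intro η hη
    induction hη using Submodule.span_induction with
    | mem η hη =>
      obtain ⟨g, f, rfl⟩ := hη
      exact ⟨_, S.CondN_gen_mem g f, rfl⟩
    | zero => exact ⟨0, zero_mem _, rfl⟩
    | add a b _ _ ha hb =>
      obtain ⟨y, hy, rfl⟩ := ha
      obtain ⟨z, hz, rfl⟩ := hb
      exact ⟨y + z, add_mem hy hz, rfl⟩
    | smul c a _ ha =>
      obtain ⟨y, hy, rfl⟩ := ha
      exact ⟨c • y, Submodule.smul_mem _ c hy, rfl⟩
  · refine closure_minimal ?_ S.isClosed_Hd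
    rintro _ ⟨y, hy, rfl⟩
    exact S.CondN_apply_ξ_mem hy

theorem mem_Hd_iff {η : H} : η ∈ S.Hd ↔ ∀ γ : ℝ, 0 < γ → ∃ y ∈ S.N0, ‖η - y S.ξ‖ < γ := by
  rw [← SetLike.mem_coe, S.CondN_Hd_eq, Metric.mem_closure_iff]
  refine forall₂_congr fun γ _ => ⟨?_, ?_⟩
  · rintro ⟨_, ⟨y, hy, rfl⟩, h⟩
    exact ⟨y, hy, by rwa [dist_eq_norm] at h⟩
  · rintro ⟨y, hy, h⟩
    exact ⟨_, ⟨y, hy, rfl⟩, by rwa [dist_eq_norm]⟩

theorem commute_Hd {y : H →L[ℂ] H} (hy : y ∈ S.N0) :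
    y * S.Hd.starProjection = S.Hd.starProjection * y :=
  commute_starProjection S.Hd (fun _ h => S.N0_apply_mem hy h)
    (fun _ h => S.N0_apply_mem (S.N0_star hy) h)

/-- a vector orthogonal to the generators in the real sense is orthogonal to `Hd` -/
theorem CondN_mem_orth {α : H}
    (h : ∀ (g : S.Nrm) (f : C(X, ℂ)), (⟪(g.u * S.ρ f) S.ξ, α⟫_ℂ).re = 0) : α ∈ S.Hdᗮ := by
  have h1 : ∀ w ∈ S.N0, ⟪w S.ξ, α⟫_ℂ = 0 := by
    intro w hw
    refine S.CondN_induction (P := fun w => ⟪w S.ξ, α⟫_ℂ = 0) (fun g f => ?_) (by simp)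
      (fun a b ha hb => ?_) (fun c a ha => ?_) hw
    · apply Complex.ext (h g f)
      have h2 := h g (Complex.I • f)
      rw [map_smul, mul_smul_comm, smul_apply, inner_smul_left] at h2
      simpa using h2
    · rw [add_apply, inner_add_left, ha, hb, add_zero]
    · rw [smul_apply, inner_smul_left, ha, mul_zero]
  rw [Submodule.mem_orthogonal]
  intro u hu
  rw [← SetLike.mem_coe, S.CondN_Hd_eq] at hu
  have hc : IsClosed {u : H | ⟪u, α⟫_ℂ = 0} := isClosed_eq (by fun_prop) continuous_const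
  refine closure_minimal ?_ hc hu
  rintro _ ⟨y, hy, rfl⟩
  exact h1 y hy

/-- the KMS-like identity for normalising unitaries -/
theorem CondN_kms (g : S.Nrm) {y : H →L[ℂ] H} (hy : y ∈ S.M) :
    S.φ (g.u * y * star g.u) = S.φ (y * S.ρ ⟨fun t => (g.d t : ℂ), by fun_prop⟩) := by
  have hm : g.u * y * star g.u ∈ S.M := mul_mem (mul_mem g.mem hy) (star_mem g.mem)
  have e1 : S.E (g.u * y * star g.u) = (S.E y).comp ⟨g.θ.symm, g.θ.symm.continuous⟩ := by
    ext t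
    have := S.E_conj g⁻¹ hy t
    rw [Nrm.inv_u, star_star] at this
    rw [this]
    rfl
  rw [← S.φ_E hm, e1, ← g.conj', g.rn, mul_comm, S.φ_ρ_mul_E _ hy, S.φ_ρ_mul _ hy]

theorem CondN_inner_star (g : S.Nrm) (b : C(X, ℂ)) {z : H →L[ℂ] H} (hz : z ∈ S.M) :
    ⟪star (g.u * S.ρ b) S.ξ, star z S.ξ⟫_ℂ =
      ⟪z S.ξ, (g.u * S.ρ (b * ⟨fun t => (g.d t : ℂ), by fun_prop⟩)) S.ξ⟫_ℂ := by
  rw [S.inner_eq_φ, S.inner_eq_φ, star_star]
  have hm : S.ρ b * (star z * g.u) ∈ S.M := mul_mem (S.mem b) (mul_mem (star_mem hz) g.mem)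
  have e1 : g.u * S.ρ b * star z = g.u * (S.ρ b * (star z * g.u)) * star g.u := by
    calc g.u * S.ρ b * star z = g.u * S.ρ b * star z * (g.u * star g.u) := by
          rw [g.unit.2, mul_one]
      _ = _ := by simp only [mul_assoc]
  rw [e1, S.CondN_kms g hm, mul_assoc,
    S.φ_ρ_mul b (mul_mem (mul_mem (star_mem hz) g.mem) (S.mem _)), mul_comm b, map_mul]
  simp only [mul_assoc]

/-- Simultaneous approximation: project `(x ξ, x⋆ ξ)` onto the closure of the real subspace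
`{(y ξ, y⋆ ξ) | y ∈ N0}` of `H × H`. -/
theorem exists_N0_approx {x : H →L[ℂ] H} (hx : x ∈ S.M) {γ : ℝ} (hγ : 0 < γ) :
    ∃ y ∈ S.N0, ‖S.Hd.starProjection (x S.ξ) - y S.ξ‖ < γ ∧
      ‖S.Hd.starProjection (star x S.ξ) - star y S.ξ‖ < γ := by
  let G : Set (H × H) := {v | ∃ y ∈ S.N0, v = (y S.ξ, star y S.ξ)}
  obtain ⟨q, hq, horth⟩ := CondN_exists_proj G ⟨0, zero_mem _, by simp [Prod.ext_iff]⟩
    (by
      rintro _ ⟨y, hy, rfl⟩ _ ⟨z, hz, rfl⟩
      exact ⟨y + z, add_mem hy hz, by simp⟩)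
    (by
      rintro r _ ⟨y, hy, rfl⟩
      exact ⟨(r : ℂ) • y, Submodule.smul_mem _ _ hy, by simp⟩)
    (x S.ξ, star x S.ξ)
  have hq1 : q.1 ∈ S.Hd := by
    have hc : IsClosed {v : H × H | v.1 ∈ S.Hd} := S.isClosed_Hd.preimage continuous_fst
    refine closure_minimal ?_ hc hq
    rintro _ ⟨y, hy, rfl⟩
    exact S.CondN_apply_ξ_mem hy
  have hq2 : q.2 ∈ S.Hd := by
    have hc : IsClosed {v : H × H | v.2 ∈ S.Hd} := S.isClosed_Hd.preimage continuous_snd
    refine closure_minimal ?_ hc hq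
    rintro _ ⟨y, hy, rfl⟩
    exact S.CondN_apply_ξ_mem (S.N0_star hy)
  have hkey : ∀ (g : S.Nrm) (b : C(X, ℂ)),
      ⟪star (g.u * S.ρ b) S.ξ, star x S.ξ - q.2⟫_ℂ =
        ⟪x S.ξ - q.1, (g.u * S.ρ (b * ⟨fun t => (g.d t : ℂ), by fun_prop⟩)) S.ξ⟫_ℂ := by
    intro g b
    have hc : IsClosed {v : H × H | ⟪star (g.u * S.ρ b) S.ξ, star x S.ξ - v.2⟫_ℂ =
        ⟪x S.ξ - v.1, (g.u * S.ρ (b * ⟨fun t => (g.d t : ℂ), by fun_prop⟩)) S.ξ⟫_ℂ} :=
      isClosed_eq (by fun_prop) (by fun_prop)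
    refine closure_minimal ?_ hc hq
    rintro _ ⟨y, hy, rfl⟩
    have := S.CondN_inner_star g b (sub_mem hx (S.N0_mem_M hy))
    rw [star_sub] at this
    exact this
  have hα : x S.ξ - q.1 ∈ S.Hdᗮ := by
    apply S.CondN_mem_orth
    intro g f
    have hne : ∀ t, (1 + (g.d t : ℂ)) ≠ 0 := fun t => by
      have := g.pos t
      exact_mod_cast (by linarith : (1 + g.d t) ≠ 0)
    let b : C(X, ℂ) := ⟨fun t => f t / (1 + (g.d t : ℂ)), Continuous.div (by fun_prop)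
      (by fun_prop) hne⟩
    have hb : f = b + b * ⟨fun t => (g.d t : ℂ), by fun_prop⟩ := by
      ext t
      have := hne t
      simp only [b, ContinuousMap.add_apply, ContinuousMap.mul_apply, ContinuousMap.coe_mk]
      field_simp
    have h1 := horth _ ⟨_, S.CondN_gen_mem g b, rfl⟩
    simp only at h1
    rw [hkey, ← inner_conj_symm (x S.ξ - q.1), Complex.conj_re] at h1
    rw [hb, map_add, mul_add, add_apply, inner_add_left, Complex.add_re]
    exact h1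
  have hβ : star x S.ξ - q.2 ∈ S.Hdᗮ := by
    apply S.CondN_mem_orth
    intro g f
    have hw := S.N0_star (S.CondN_gen_mem g f)
    have h1 := horth _ ⟨_, hw, rfl⟩
    simp only at h1
    rw [star_star, (Submodule.mem_orthogonal _ _).1 hα _ (S.CondN_apply_ξ_mem hw)] at h1
    simpa using h1
  have e1 : S.Hd.starProjection (x S.ξ) = q.1 :=
    Submodule.eq_starProjection_of_mem_orthogonal hq1 hα
  have e2 : S.Hd.starProjection (star x S.ξ) = q.2 :=
    Submodule.eq_starProjection_of_mem_orthogonal hq2 hβ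
  obtain ⟨_, ⟨y, hy, rfl⟩, hd⟩ := Metric.mem_closure_iff.1 hq γ hγ
  rw [Prod.dist_eq, max_lt_iff, dist_eq_norm, dist_eq_norm] at hd
  exact ⟨y, hy, e1 ▸ hd.1, e2 ▸ hd.2⟩

theorem CondN_inner_comm {y s : H →L[ℂ] H} (hy : y ∈ S.M) (hs : s ∈ S.M.commutant) (η ζ : H) :
    ⟪s η, star y ζ⟫_ℂ = ⟪y η, star s ζ⟫_ℂ := by
  rw [ContinuousLinearMap.star_eq_adjoint, ContinuousLinearMap.star_eq_adjoint,
    ContinuousLinearMap.adjoint_inner_right, ContinuousLinearMap.adjoint_inner_right]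
  have := congrArg (fun T : H →L[ℂ] H => T η) (vn_commute hy hs)
  simp only [mul_apply_eq_comp] at this
  rw [this]

theorem inner_proj_star {x s : H →L[ℂ] H} (hx : x ∈ S.M) (hs : s ∈ S.M.commutant) :
    ⟪s S.ξ, S.Hd.starProjection (star x S.ξ)⟫_ℂ = ⟪x S.ξ, S.Hd.starProjection (star s S.ξ)⟫_ℂ := by
  rw [← Submodule.inner_starProjection_left_eq_right S.Hd (x S.ξ)]
  have hc : IsClosed {v : H × H | ⟪s S.ξ, v.2⟫_ℂ = ⟪v.1, star s S.ξ⟫_ℂ} :=
    isClosed_eq (by fun_prop) (by fun_prop)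
  have hq : (S.Hd.starProjection (x S.ξ), S.Hd.starProjection (star x S.ξ)) ∈
      closure {v : H × H | ∃ y ∈ S.N0, v = (y S.ξ, star y S.ξ)} := by
    rw [Metric.mem_closure_iff]
    intro γ hγ
    obtain ⟨y, hy, h1, h2⟩ := S.exists_N0_approx hx hγ
    refine ⟨_, ⟨y, hy, rfl⟩, ?_⟩
    rw [Prod.dist_eq, max_lt_iff, dist_eq_norm, dist_eq_norm]
    exact ⟨h1, h2⟩
  refine closure_minimal ?_ hc hq
  rintro _ ⟨y, hy, rfl⟩
  exact S.CondN_inner_comm (S.N0_mem_M hy) hs _ _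

theorem CondN_proj_apply {n : H →L[ℂ] H} (hn : n ∈ S.N0) (η : H) :
    S.Hd.starProjection (n η) = n (S.Hd.starProjection η) :=
  (congrArg (fun T : H →L[ℂ] H => T η) (S.commute_Hd hn)).symm

theorem CondN_inner_N0 {x s m n : H →L[ℂ] H} (hx : x ∈ S.M) (hs : s ∈ S.M.commutant)
    (hm : m ∈ S.N0) (hn : n ∈ S.N0) :
    ⟪m S.ξ, x (S.Hd.starProjection (s (n S.ξ)))⟫_ℂ =
      ⟪m S.ξ, s (S.Hd.starProjection (x (n S.ξ)))⟫_ℂ := by
  have hmM := S.N0_mem_M hm
  have hnM := S.N0_mem_M hn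
  have hsn : s (n S.ξ) = n (s S.ξ) := congrArg (fun T : H →L[ℂ] H => T S.ξ) (vn_commute hnM hs)
  have hsm : star s (m S.ξ) = m (star s S.ξ) :=
    congrArg (fun T : H →L[ℂ] H => T S.ξ) (vn_commute hmM (star_mem hs))
  have key := S.inner_proj_star (x := star n * star x * m) (s := star s)
    (mul_mem (mul_mem (star_mem hnM) (star_mem hx)) hmM) (star_mem hs)
  rw [star_star] at key
  have e1 : star (star n * star x * m) S.ξ = star m (x (n S.ξ)) := by
    simp only [star_mul, star_star, mul_apply_eq_comp]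
  rw [e1, S.CondN_proj_apply (S.N0_star hm)] at key
  rw [hsn, S.CondN_proj_apply hn]
  calc ⟪m S.ξ, x (n (S.Hd.starProjection (s S.ξ)))⟫_ℂ
      = ⟪(star n * star x * m) S.ξ, S.Hd.starProjection (s S.ξ)⟫_ℂ := by
        simp only [mul_apply_eq_comp, ContinuousLinearMap.star_eq_adjoint,
          ContinuousLinearMap.adjoint_inner_left]
    _ = ⟪star s S.ξ, star m (S.Hd.starProjection (x (n S.ξ)))⟫_ℂ := key.symm
    _ = ⟪star s (m S.ξ), S.Hd.starProjection (x (n S.ξ))⟫_ℂ := by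
        rw [hsm, ContinuousLinearMap.star_eq_adjoint m, ContinuousLinearMap.adjoint_inner_right]
    _ = _ := by
        rw [ContinuousLinearMap.star_eq_adjoint, ContinuousLinearMap.adjoint_inner_left]

/-- Test on `n ξ`, `m ξ` with `n, m ∈ N0` (`inner_proj_star` for `m⋆ x n`). -/
theorem proj_commute {x s : H →L[ℂ] H} (hx : x ∈ S.M) (hs : s ∈ S.M.commutant) :
    (S.Hd.starProjection * x * S.Hd.starProjection) * (S.Hd.starProjection * s * S.Hd.starProjection) =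
    (S.Hd.starProjection * s * S.Hd.starProjection) * (S.Hd.starProjection * x * S.Hd.starProjection) := by
  have h1 : ∀ m ∈ S.N0, ∀ η ∈ S.Hd, ⟪m S.ξ, x (S.Hd.starProjection (s η))⟫_ℂ =
      ⟪m S.ξ, s (S.Hd.starProjection (x η))⟫_ℂ := by
    intro m hm η hη
    rw [← SetLike.mem_coe, S.CondN_Hd_eq] at hη
    have hc : IsClosed {η : H | ⟪m S.ξ, x (S.Hd.starProjection (s η))⟫_ℂ =
      ⟪m S.ξ, s (S.Hd.starProjection (x η))⟫_ℂ} := isClosed_eq (by fun_prop) (by fun_prop)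
    refine closure_minimal ?_ hc hη
    rintro _ ⟨n, hn, rfl⟩
    exact S.CondN_inner_N0 hx hs hm hn
  have h2 : ∀ ζ ∈ S.Hd, ∀ η ∈ S.Hd, ⟪ζ, x (S.Hd.starProjection (s η))⟫_ℂ =
      ⟪ζ, s (S.Hd.starProjection (x η))⟫_ℂ := by
    intro ζ hζ η hη
    rw [← SetLike.mem_coe, S.CondN_Hd_eq] at hζ
    have hc : IsClosed {ζ : H | ⟪ζ, x (S.Hd.starProjection (s η))⟫_ℂ =
      ⟪ζ, s (S.Hd.starProjection (x η))⟫_ℂ} := isClosed_eq (by fun_prop) (by fun_prop)
    refine closure_minimal ?_ hc hζ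
    rintro _ ⟨m, hm, rfl⟩
    exact h1 m hm η hη
  have hPP : ∀ η, S.Hd.starProjection (S.Hd.starProjection η) = S.Hd.starProjection η :=
    fun η => Submodule.starProjection_eq_self_iff.2 (S.Hd.starProjection_apply_mem η)
  ext η
  apply ext_inner_left ℂ
  intro ζ
  simp only [mul_apply_eq_comp, hPP]
  rw [← Submodule.inner_starProjection_left_eq_right,
    ← Submodule.inner_starProjection_left_eq_right]
  exact h2 _ (S.Hd.starProjection_apply_mem ζ) _ (S.Hd.starProjection_apply_mem η)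

theorem CondN_norm_bound {x s : H →L[ℂ] H} (hx : x ∈ S.M) (hs : s ∈ S.M.commutant) :
    ‖s (S.Hd.starProjection (x S.ξ))‖ ≤ ‖x‖ * ‖s S.ξ‖ := by
  set P := S.Hd.starProjection with hP
  have hPξ : P S.ξ = S.ξ := Submodule.starProjection_eq_self_iff.2 S.ξ_mem_Hd
  have hPs : star P = P := (isStarProjection_starProjection (U := S.Hd)).isSelfAdjoint.star_eq
  have hPP : ∀ η, P (P η) = P η :=
    fun η => Submodule.starProjection_eq_self_iff.2 (S.Hd.starProjection_apply_mem η)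
  have hT : P * (star s * s) * P = star (s * P) * (s * P) := by
    rw [star_mul, hPs]; simp only [mul_assoc]
  have hT0 : 0 ≤ P * (star s * s) * P := by rw [hT]; exact star_mul_self_nonneg _
  have hcomm : Commute (P * (star s * s) * P) (P * x * P) :=
    (S.proj_commute hx (mul_mem (star_mem hs) hs)).symm
  set c := CFC.sqrt (P * (star s * s) * P) with hc
  have hcc : c * c = P * (star s * s) * P := CFC.sqrt_mul_sqrt_self _ hT0
  have hcs : star c = c := (CFC.sqrt_nonneg _).isSelfAdjoint.star_eq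
  have hca : Commute c (P * x * P) := hcomm.cfcₙ_nnreal _
  have hn : ∀ η, ‖c η‖ = ‖s (P η)‖ := by
    intro η
    have e1 := norm_apply_sq_eq c η
    have e2 := norm_apply_sq_eq (s * P) η
    rw [hcs, hcc, hT, ← e2] at e1
    exact (pow_left_inj₀ (norm_nonneg _) (norm_nonneg _) two_ne_zero).1 e1
  have hPn : ‖P‖ ≤ 1 := S.Hd.starProjection_norm_le
  have ha : ‖P * x * P‖ ≤ ‖x‖ := by
    calc ‖P * x * P‖ ≤ ‖P‖ * ‖x‖ * ‖P‖ :=
          (norm_mul_le _ _).trans (by gcongr; exact norm_mul_le _ _)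
      _ ≤ 1 * ‖x‖ * 1 := by gcongr
      _ = ‖x‖ := by ring
  calc ‖s (P (x S.ξ))‖ = ‖c ((P * x * P) S.ξ)‖ := by
        rw [hn]; simp only [mul_apply_eq_comp, hPP, hPξ]
    _ = ‖(P * x * P) (c S.ξ)‖ := by
        rw [← mul_apply_eq_comp, hca.eq, mul_apply_eq_comp]
    _ ≤ ‖P * x * P‖ * ‖c S.ξ‖ := ContinuousLinearMap.le_opNorm _ _
    _ ≤ ‖x‖ * ‖s S.ξ‖ := by rw [hn, hPξ]; gcongr

/-- Extend `s ξ ↦ s P x ξ` from `M' ξ`. -/
theorem exists_EN {x : H →L[ℂ] H} (hx : x ∈ S.M) :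
    ∃ n ∈ S.M, ‖n‖ ≤ ‖x‖ ∧ n S.ξ = S.Hd.starProjection (x S.ξ) ∧
      star n S.ξ = S.Hd.starProjection (star x S.ξ) := by
  let W : Submodule ℂ (H →L[ℂ] H) := S.M.commutant.toStarSubalgebra.toSubalgebra.toSubmodule
  let ev : H → W →ₗ[ℂ] H := fun η =>
    { toFun := fun s => (s : H →L[ℂ] H) η
      map_add' := fun _ _ => rfl
      map_smul' := fun _ _ => rfl }
  have hd : DenseRange (ev S.ξ) := by
    refine S.sep.mono ?_
    rintro _ ⟨s, hs, rfl⟩
    exact ⟨⟨s, hs⟩, rfl⟩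
  have hb : ∀ s : W, ‖ev (S.Hd.starProjection (x S.ξ)) s‖ ≤ ‖x‖ * ‖ev S.ξ s‖ :=
    fun s => S.CondN_norm_bound hx s.2
  let n : H →L[ℂ] H := (ev (S.Hd.starProjection (x S.ξ))).extendOfNorm (ev S.ξ)
  have hn : ∀ s ∈ S.M.commutant, n (s S.ξ) = s (S.Hd.starProjection (x S.ξ)) :=
    fun s hs => LinearMap.extendOfNorm_eq hd ⟨_, hb⟩ ⟨s, hs⟩
  refine ⟨n, vn_mem_of_commute fun t ht => ?_,
    LinearMap.opNorm_extendOfNorm_le hd (norm_nonneg _) hb, ?_, ?_⟩
  · ext η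
    refine S.sep.induction (P := fun η => (t * n) η = (n * t) η) ?_
      (isClosed_eq (by fun_prop) (by fun_prop)) η
    rintro _ ⟨s, hs, rfl⟩
    have := hn (t * s) (mul_mem ht hs)
    simp only [mul_apply_eq_comp] at this ⊢
    rw [this, hn s hs]
  · simpa using hn 1 (one_mem _)
  · apply ext_inner_left ℂ
    intro η
    refine S.sep.induction (P := fun η => ⟪η, star n S.ξ⟫_ℂ =
      ⟪η, S.Hd.starProjection (star x S.ξ)⟫_ℂ) ?_ (isClosed_eq (by fun_prop) (by fun_prop)) η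
    rintro _ ⟨s, hs, rfl⟩
    rw [S.inner_proj_star hx hs, ← Submodule.inner_starProjection_left_eq_right,
      ContinuousLinearMap.star_eq_adjoint, ContinuousLinearMap.star_eq_adjoint,
      ContinuousLinearMap.adjoint_inner_right, ContinuousLinearMap.adjoint_inner_right, hn s hs]

theorem exists_split {x : H →L[ℂ] H} (hx : x ∈ S.M) :
    ∃ n, S.Nn n ∧ S.Mo (x - n) ∧ ‖n‖ ≤ ‖x‖ ∧ (IsSelfAdjoint x → IsSelfAdjoint n) := by
  obtain ⟨n, hn, h1, h2, h3⟩ := S.exists_EN hx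
  refine ⟨n, ⟨hn, h2 ▸ S.Hd.starProjection_apply_mem _⟩, ⟨sub_mem hx hn, ?_⟩, h1, fun hsa => ?_⟩
  · rw [sub_apply, h2]
    exact S.Hd.sub_starProjection_mem_orthogonal _
  · rw [hsa.star_eq, ← h2] at h3
    exact S.eq_of_apply_ξ (star_mem hn) hn h3

end Std

end

end Crest.Agent.R109
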