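import Crest.Agent.R109.CondN

/-!
# Row 109: the normaliser algebra and its complement
-/

open Filter Topology
open scoped InnerProductSpace BigOperators ComplexOrder

set_option linter.unusedSectionVars false
set_option linter.deprecated false

namespace Crest.Agent.R109

noncomputable section

open Classical

variable {H : Type*} [NormedAddCommGroup H] [InnerProductSpace ℂ H] [CompleteSpace H]
  {X : Type*} [TopologicalSpace X] [CompactSpace X] [T2Space X] [ExtremallyDisconnected X]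

namespace Std
variable {S : Std H X}

theorem Nn.of_N0 {y : H →L[ℂ] H} (hy : y ∈ S.N0) : S.Nn y :=
  ⟨S.N0_mem_M hy, S.N0_apply_mem hy S.ξ_mem_Hd⟩

theorem Nn.add {y z : H →L[ℂ] H} (hy : S.Nn y) (hz : S.Nn z) : S.Nn (y + z) :=
  ⟨add_mem hy.1 hz.1, by rw [ContinuousLinearMap.add_apply]; exact add_mem hy.2 hz.2⟩

theorem Nn.smul (c : ℂ) {y : H →L[ℂ] H} (hy : S.Nn y) : S.Nn (c • y) :=
  ⟨vn_smul_mem c hy.1, by rw [ContinuousLinearMap.smul_apply]; exact S.Hd.smul_mem c hy.2⟩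

/-- from `exists_EN` and `eq_of_apply_ξ` -/
theorem Nn.star_mem {y : H →L[ℂ] H} (hy : S.Nn y) : S.Nn (star y) := by
  obtain ⟨n, hn, -, h1, h2⟩ := S.exists_EN hy.1
  rw [Submodule.starProjection_eq_self_iff.2 hy.2] at h1
  have h3 : n = y := S.eq_of_apply_ξ hn hy.1 h1
  subst h3
  refine ⟨StarMemClass.star_mem hy.1, ?_⟩
  rw [h2]
  exact S.Hd.starProjection_apply_mem _

/-- `y m ξ = (m⋆ y⋆)⋆ ξ` for `m ∈ N0`, then density -/
theorem Nn.apply_mem {y : H →L[ℂ] H} (hy : S.Nn y) {η : H} (hη : η ∈ S.Hd) : y η ∈ S.Hd := by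
  refine apply_mem_closure_span S.isClosed_Hd y ?_ η hη
  rintro _ ⟨g, f, rfl⟩
  have hm : g.u * S.ρ f ∈ S.N0 := S.N0_mul (S.u_mem_N0 g) (S.ρ_mem_N0 f)
  have h1 : S.Nn (star (g.u * S.ρ f) * star y) :=
    ⟨mul_mem (S.N0_mem_M (S.N0_star hm)) (StarMemClass.star_mem hy.1),
      S.N0_apply_mem (S.N0_star hm) hy.star_mem.2⟩
  have h2 := h1.star_mem.2
  rw [star_mul, star_star, star_star] at h2
  exact h2

theorem Nn.mul {y z : H →L[ℂ] H} (hy : S.Nn y) (hz : S.Nn z) : S.Nn (y * z) :=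
  ⟨mul_mem hy.1 hz.1, hy.apply_mem hz.2⟩

theorem CondN2_one_mem_N0 : (1 : H →L[ℂ] H) ∈ S.N0 := by
  have := S.ρ_mem_N0 1
  rwa [map_one] at this

variable (S) in
/-- the normaliser algebra as a star subalgebra -/
def CondN2_NnAlg : StarSubalgebra ℂ (H →L[ℂ] H) where
  carrier := {y | S.Nn y}
  mul_mem' := fun ha hb => Nn.mul ha hb
  add_mem' := fun ha hb => Nn.add ha hb
  algebraMap_mem' := fun c => by
    rw [Algebra.algebraMap_eq_smul_one]
    exact Nn.smul c (Nn.of_N0 CondN2_one_mem_N0)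
  star_mem' := fun ha => Nn.star_mem ha

variable (S) in
/-- the algebraic crossed product as a star subalgebra -/
def CondN2_N0Alg : StarSubalgebra ℂ (H →L[ℂ] H) where
  carrier := S.N0
  mul_mem' := fun ha hb => S.N0_mul ha hb
  add_mem' := fun ha hb => S.N0.add_mem ha hb
  algebraMap_mem' := fun c => by
    rw [Algebra.algebraMap_eq_smul_one]
    exact S.N0.smul_mem c CondN2_one_mem_N0
  star_mem' := fun ha => S.N0_star ha

theorem Nn.cfc_mem {y : H →L[ℂ] H} (hy : S.Nn y) (f : ℝ → ℝ) : S.Nn (cfc f y) := by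
  have hcl : IsClosed ((CondN2_NnAlg S : StarSubalgebra ℂ (H →L[ℂ] H)) : Set (H →L[ℂ] H)) := by
    have h1 : IsClosed {y : H →L[ℂ] H | y S.ξ ∈ S.Hd} :=
      S.isClosed_Hd.preimage (ContinuousLinearMap.apply ℂ H S.ξ).continuous
    exact (vn_isClosed S.M).inter h1
  exact _root_.cfc_mem (𝕜' := ℂ) (s := CondN2_NnAlg S) (hs := hcl) f hy

theorem Mo.zero : S.Mo 0 :=
  ⟨zero_mem _, by rw [ContinuousLinearMap.zero_apply]; exact zero_mem _⟩

theorem Mo.add {y z : H →L[ℂ] H} (hy : S.Mo y) (hz : S.Mo z) : S.Mo (y + z) :=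
  ⟨add_mem hy.1 hz.1, by rw [ContinuousLinearMap.add_apply]; exact add_mem hy.2 hz.2⟩

theorem Mo.smul (c : ℂ) {y : H →L[ℂ] H} (hy : S.Mo y) : S.Mo (c • y) :=
  ⟨vn_smul_mem c hy.1, by rw [ContinuousLinearMap.smul_apply]; exact S.Hdᗮ.smul_mem c hy.2⟩

theorem Mo.sum {κ : Type*} (s : Finset κ) {y : κ → H →L[ℂ] H} (hy : ∀ i ∈ s, S.Mo (y i)) :
    S.Mo (∑ i ∈ s, y i) :=
  Finset.sum_induction y S.Mo (fun _ _ => Mo.add) Mo.zero hy

theorem Mo.star_mem {y : H →L[ℂ] H} (hy : S.Mo y) : S.Mo (star y) := by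
  obtain ⟨n, hn, -, h1, h2⟩ := S.exists_EN hy.1
  rw [(Submodule.starProjection_apply_eq_zero_iff S.Hd).2 hy.2] at h1
  have h3 : n = 0 := S.eq_zero_of_apply_ξ hn h1
  subst h3
  refine ⟨StarMemClass.star_mem hy.1, ?_⟩
  rw [star_zero, ContinuousLinearMap.zero_apply] at h2
  exact (Submodule.starProjection_apply_eq_zero_iff S.Hd).1 h2.symm

theorem Mo.mul_left {y n : H →L[ℂ] H} (hy : S.Mo y) (hn : S.Nn n) : S.Mo (n * y) := by
  refine ⟨mul_mem hn.1 hy.1, (Submodule.mem_orthogonal _ _).2 fun η hη => ?_⟩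
  have h1 := (Submodule.mem_orthogonal _ _).1 hy.2 _ (hn.star_mem.apply_mem hη)
  rw [ContinuousLinearMap.star_eq_adjoint, ContinuousLinearMap.adjoint_inner_left] at h1
  exact h1

theorem Mo.mul_right {y n : H →L[ℂ] H} (hy : S.Mo y) (hn : S.Nn n) : S.Mo (y * n) := by
  have := (hy.star_mem.mul_left hn.star_mem).star_mem
  rwa [star_mul, star_star, star_star] at this

theorem CondN2_φ_eq_zero {y : H →L[ℂ] H} (hy : S.Mo y) : S.φ y = 0 :=
  (Submodule.mem_orthogonal _ _).1 hy.2 _ S.ξ_mem_Hd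

theorem Mo.E_eq_zero {y : H →L[ℂ] H} (hy : S.Mo y) : S.E y = 0 := by
  refine S.ext_φ fun g => ?_
  rw [S.φ_ρ_mul_E g hy.1, CondN2_φ_eq_zero (hy.mul_left (Nn.of_N0 (S.ρ_mem_N0 g))), mul_zero,
    map_zero, CondN2_φ_eq_zero Mo.zero]

theorem Mo.φ_eq_zero {y : H →L[ℂ] H} (hy : S.Mo y) : S.φ y = 0 :=
  CondN2_φ_eq_zero hy

theorem Mo.of_WL {κ : Type*} {U : Filter κ} [U.NeBot] {T : κ → H →L[ℂ] H} {L : H →L[ℂ] H}
    (h : WL U T L) (hT : ∀ᶠ i in U, S.Mo (T i)) : S.Mo L :=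
  ⟨h.mem (hT.mono fun _ hi => hi.1),
    h.apply_mem S.Hd.isClosed_orthogonal (hT.mono fun _ hi => hi.2)⟩

/-- on bounded subsets of `M` the vector `ξ` controls every other vector -/
theorem CondN2_small (ζ : H) {K ε : ℝ} (hK : 0 ≤ K) (hε : 0 < ε) :
    ∃ δ : ℝ, 0 < δ ∧ ∀ A ∈ S.M, ‖A‖ ≤ K → ‖A S.ξ‖ ≤ δ → ‖A ζ‖ ≤ ε := by
  obtain ⟨_, hd, s, hs, rfl⟩ := S.sep.exists_dist_lt ζ (ε := ε / (2 * (K + 1))) (by positivity) |>.imp
    fun _ h => And.intro h.2 h.1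
  refine ⟨ε / (2 * (‖s‖ + 1)), by positivity, fun A hA hAK hAξ => ?_⟩
  have h1 : A ζ = A (ζ - s S.ξ) + s (A S.ξ) := by
    have := DFunLike.congr_fun (vn_commute hA hs) S.ξ
    rw [ContinuousLinearMap.mul_apply, ContinuousLinearMap.mul_apply] at this
    rw [map_sub, this, sub_add_cancel]
  rw [dist_eq_norm] at hd
  have h2 : ‖A (ζ - s S.ξ)‖ ≤ ε / 2 := by
    calc ‖A (ζ - s S.ξ)‖ ≤ ‖A‖ * ‖ζ - s S.ξ‖ := A.le_opNorm _
      _ ≤ (K + 1) * (ε / (2 * (K + 1))) :=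
        mul_le_mul (by linarith) hd.le (norm_nonneg _) (by linarith)
      _ = ε / 2 := by field_simp
  have h3 : ‖s (A S.ξ)‖ ≤ ε / 2 := by
    calc ‖s (A S.ξ)‖ ≤ ‖s‖ * ‖A S.ξ‖ := s.le_opNorm _
      _ ≤ (‖s‖ + 1) * (ε / (2 * (‖s‖ + 1))) :=
        mul_le_mul (by linarith) hAξ (norm_nonneg _) (by positivity)
      _ = ε / 2 := by field_simp
  rw [h1]
  linarith [norm_add_le (A (ζ - s S.ξ)) (s (A S.ξ))]

/-- `(1 + b²)⁻¹` -/
def CondN2_r (b : H →L[ℂ] H) : H →L[ℂ] H := cfc (fun t : ℝ => (1 + t * t)⁻¹) b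

theorem CondN2_cont : Continuous fun t : ℝ => (1 + t * t)⁻¹ :=
  Continuous.inv₀ (by fun_prop) fun t => by nlinarith [mul_self_nonneg t]

theorem CondN2_cont1 : Continuous fun t : ℝ => (1 + t * t)⁻¹ * t :=
  CondN2_cont.mul continuous_id

theorem CondN2_cont2 : Continuous fun t : ℝ => (1 + t * t)⁻¹ * t * t :=
  CondN2_cont1.mul continuous_id

theorem CondN2_r_mul {b : H →L[ℂ] H} (hb : IsSelfAdjoint b) :
    CondN2_r b * b = cfc (fun t : ℝ => (1 + t * t)⁻¹ * t) b := by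
  rw [cfc_mul _ _ b CondN2_cont.continuousOn, cfc_id' ℝ b, CondN2_r]

theorem CondN2_mul_r {b : H →L[ℂ] H} (hb : IsSelfAdjoint b) :
    b * CondN2_r b = cfc (fun t : ℝ => (1 + t * t)⁻¹ * t) b := by
  have : (fun t : ℝ => (1 + t * t)⁻¹ * t) = fun t : ℝ => t * (1 + t * t)⁻¹ := by
    ext t; ring
  rw [this, cfc_mul _ _ b (by fun_prop) CondN2_cont.continuousOn, cfc_id' ℝ b, CondN2_r]

theorem CondN2_r_mul_mul {b : H →L[ℂ] H} (hb : IsSelfAdjoint b) :
    CondN2_r b * b * b = cfc (fun t : ℝ => (1 + t * t)⁻¹ * t * t) b := by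
  rw [cfc_mul _ _ b CondN2_cont1.continuousOn, cfc_id' ℝ b, CondN2_r_mul hb]

theorem CondN2_r_add {b : H →L[ℂ] H} (hb : IsSelfAdjoint b) :
    CondN2_r b + CondN2_r b * b * b = 1 := by
  rw [CondN2_r_mul_mul hb, CondN2_r, ← cfc_add b _ _ CondN2_cont.continuousOn
    CondN2_cont2.continuousOn, ← cfc_const_one ℝ b]
  congr 1
  ext t
  have : 1 + t * t ≠ 0 := by nlinarith [mul_self_nonneg t]
  field_simp

theorem CondN2_norm_r (b : H →L[ℂ] H) : ‖CondN2_r b‖ ≤ 1 := by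
  refine norm_cfc_le zero_le_one fun t _ => ?_
  have h : 1 ≤ 1 + t * t := by nlinarith [mul_self_nonneg t]
  rw [Real.norm_eq_abs, abs_of_nonneg (by positivity)]
  exact inv_le_one_of_one_le₀ h

theorem CondN2_norm_r_mul {b : H →L[ℂ] H} (hb : IsSelfAdjoint b) : ‖CondN2_r b * b‖ ≤ 1 / 2 := by
  rw [CondN2_r_mul hb]
  refine norm_cfc_le (by norm_num) fun t _ => ?_
  have h : 0 < 1 + t * t := by nlinarith [mul_self_nonneg t]
  rw [Real.norm_eq_abs, abs_mul, abs_of_nonneg (inv_nonneg.2 h.le), inv_mul_le_iff₀ h]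
  nlinarith [sq_nonneg (|t| - 1), abs_mul_abs_self t]

theorem CondN2_norm_r_mul_mul {b : H →L[ℂ] H} (hb : IsSelfAdjoint b) :
    ‖CondN2_r b * b * b‖ ≤ 1 := by
  rw [CondN2_r_mul_mul hb]
  refine norm_cfc_le zero_le_one fun t _ => ?_
  have h : 0 < 1 + t * t := by nlinarith [mul_self_nonneg t]
  rw [Real.norm_eq_abs, mul_assoc,
    abs_of_nonneg (mul_nonneg (inv_nonneg.2 h.le) (mul_self_nonneg t)), inv_mul_le_iff₀ h]
  linarith

theorem CondN2_diff {a b : H →L[ℂ] H} (ha : IsSelfAdjoint a) (hb : IsSelfAdjoint b) :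
    CondN2_r b * b - CondN2_r a * a = CondN2_r b * (b - a) * CondN2_r a -
      CondN2_r b * b * (b - a) * (CondN2_r a * a) := by
  have hc : a * CondN2_r a = CondN2_r a * a := by rw [CondN2_mul_r ha, CondN2_r_mul ha]
  have h1 : CondN2_r a + a * (CondN2_r a * a) = 1 := by
    rw [← mul_assoc, hc, CondN2_r_add ha]
  have h2 := CondN2_r_add hb
  calc CondN2_r b * b - CondN2_r a * a
      = CondN2_r b * b * (CondN2_r a + a * (CondN2_r a * a)) -
          (CondN2_r b + CondN2_r b * b * b) * (CondN2_r a * a) := by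
        rw [h1, h2, mul_one, one_mul]
    _ = CondN2_r b * b * CondN2_r a - CondN2_r b * (CondN2_r a * a) -
          CondN2_r b * b * (b - a) * (CondN2_r a * a) := by noncomm_ring
    _ = _ := by rw [← hc]; noncomm_ring

theorem CondN2_inv {n : H →L[ℂ] H} (hsa : IsSelfAdjoint n) {c : ℝ} (hc : 0 < c) (hn : ‖n‖ ≤ c) :
    ∃ g : ℝ → ℝ, ((2 * c : ℝ) : ℂ) • (CondN2_r (cfc g n) * cfc g n) = n := by
  refine ⟨fun s => s / (c + √(c ^ 2 - s ^ 2)), ?_⟩
  have hg : Continuous fun s : ℝ => s / (c + √(c ^ 2 - s ^ 2)) :=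
    Continuous.div (by fun_prop) (by fun_prop) fun s => by positivity
  rw [CondN2_r_mul (cfc_predicate _ _), ← cfc_comp' _ _ n
    CondN2_cont1.continuousOn hg.continuousOn, Complex.coe_smul,
    ← cfc_const_mul _ _ n (CondN2_cont1.comp' hg).continuousOn]
  refine (cfc_congr fun s hs => ?_).trans (cfc_id' ℝ n)
  have h1 : |s| ≤ c := by
    rcases subsingleton_or_nontrivial (H →L[ℂ] H) with h | h
    · simp [spectrum.of_subsingleton] at hs
    · exact (spectrum.norm_le_norm_of_mem hs).trans hn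
  have h2 : 0 ≤ c ^ 2 - s ^ 2 := by nlinarith [abs_nonneg s, sq_abs s]
  have h3 := Real.sq_sqrt h2
  have h4 := Real.sqrt_nonneg (c ^ 2 - s ^ 2)
  generalize √(c ^ 2 - s ^ 2) = q at h3 h4
  have h5 : c + q ≠ 0 := by positivity
  have h6 : 1 + s / (c + q) * (s / (c + q)) = 2 * c / (c + q) := by
    field_simp
    nlinarith
  simp only [h6]
  field_simp

/-- the real part -/
theorem CondN2_re (y : H →L[ℂ] H) : IsSelfAdjoint ((2⁻¹ : ℂ) • (y + star y)) := by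
  rw [IsSelfAdjoint, star_smul, star_add, star_star, add_comm]
  simp

theorem CondN2_norm_re (y : H →L[ℂ] H) : ‖(2⁻¹ : ℂ) • (y + star y)‖ ≤ ‖y‖ := by
  rw [norm_smul]
  have := norm_add_le y (star y)
  rw [norm_star] at this
  have h2 : ‖(2⁻¹ : ℂ)‖ = 2⁻¹ := by simp
  rw [h2]
  linarith

/-- Bounded approximation.  Recipe: scale to `‖n‖ ≤ 1`; `f t = 2 t / (1 + t²) = 1/(t+i) + 1/(t-i)`,
`n = f w` with `w = cfc (fun s => s / (1 + √(1 - s²))) n ∈ Nn` selfadjoint.  Take `w' ∈ N0`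
selfadjoint with `w' ξ` close to `w ξ` (`exists_N0_approx`, real part).  With the resolvents
`r, r'` at `∓ i` (contractions, cf. `Crest.Agent.R124.kap_resolvent`),
`(r' - r) (w ± i) s ξ = r' s (w - w') ξ` for `s ∈ M'`, and `(w ± i) s ξ` can be chosen close to `ξ`
first.  Finally approximate `f` uniformly on the spectrum of `w'` by a real polynomial
(`exists_polynomial_near_of_continuousOn`); `aeval w' p ∈ N0`. -/
theorem Nn.exists_bounded_sa {n : H →L[ℂ] H} (hn : S.Nn n) (hsa : IsSelfAdjoint n) {γ : ℝ}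
    (hγ : 0 < γ) : ∃ y ∈ S.N0, IsSelfAdjoint y ∧ ‖y‖ ≤ ‖n‖ + γ ∧ ‖(y - n) S.ξ‖ ≤ γ := by
  set c : ℝ := ‖n‖ + γ / 2 with hcdef
  have hc : 0 < c := by positivity
  obtain ⟨g, hg⟩ := CondN2_inv hsa hc (by linarith)
  set a := cfc g n with hadef
  have ha : IsSelfAdjoint a := cfc_predicate _ _
  have haN : S.Nn a := hn.cfc_mem g
  obtain ⟨δ₁, hδ₁, h₁⟩ := CondN2_small (S := S) (CondN2_r a S.ξ) (K := 1 + ‖a‖) (ε := γ / (8 * c))
    (by positivity) (by positivity)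
  obtain ⟨δ₂, hδ₂, h₂⟩ := CondN2_small (S := S) ((CondN2_r a * a) S.ξ) (K := 1 + ‖a‖)
    (ε := γ / (8 * c)) (by positivity) (by positivity)
  obtain ⟨y₀, hy₀, e1, e2⟩ := S.exists_N0_approx haN.1 (lt_min hδ₁ hδ₂)
  rw [ha.star_eq] at e2
  rw [Submodule.starProjection_eq_self_iff.2 haN.2] at e1 e2
  set b := (2⁻¹ : ℂ) • (y₀ + star y₀) with hbdef
  have hb : IsSelfAdjoint b := CondN2_re y₀
  have hbN : b ∈ S.N0 := S.N0.smul_mem _ (S.N0.add_mem hy₀ (S.N0_star hy₀))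
  have hbM : b ∈ S.M := S.N0_mem_M hbN
  have hba : ‖(b - a) S.ξ‖ ≤ min δ₁ δ₂ := by
    have : (b - a) S.ξ = -((2⁻¹ : ℂ) • ((a S.ξ - y₀ S.ξ) + (a S.ξ - star y₀ S.ξ))) := by
      simp only [hbdef, ContinuousLinearMap.sub_apply, ContinuousLinearMap.smul_apply,
        ContinuousLinearMap.add_apply]
      module
    rw [this, norm_neg, norm_smul]
    have h2 : ‖(2⁻¹ : ℂ)‖ = 2⁻¹ := by simp
    rw [h2]
    linarith [norm_add_le (a S.ξ - y₀ S.ξ) (a S.ξ - star y₀ S.ξ)]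
  have hrM : CondN2_r b ∈ S.M := vn_cfc_mem hbM _
  have n1 := CondN2_norm_r b
  have n2 := CondN2_norm_r_mul hb
  have n3 := CondN2_norm_r_mul_mul hb
  have k₁ := h₁ (CondN2_r b * (b - a)) (mul_mem hrM (sub_mem hbM haN.1)) (by
      rw [mul_sub]
      have h3 := norm_sub_le (CondN2_r b * b) (CondN2_r b * a)
      have h4 := norm_mul_le (CondN2_r b) a
      nlinarith [norm_nonneg a]) (by
      rw [ContinuousLinearMap.mul_apply]
      have h3 := (CondN2_r b).le_opNorm ((b - a) S.ξ)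
      have h4 := min_le_left δ₁ δ₂
      nlinarith [norm_nonneg ((b - a) S.ξ)])
  have k₂ := h₂ (CondN2_r b * b * (b - a)) (mul_mem (mul_mem hrM hbM) (sub_mem hbM haN.1)) (by
      rw [mul_sub]
      have h3 := norm_sub_le (CondN2_r b * b * b) (CondN2_r b * b * a)
      have h4 := norm_mul_le (CondN2_r b * b) a
      nlinarith [norm_nonneg a]) (by
      rw [ContinuousLinearMap.mul_apply]
      have h3 := (CondN2_r b * b).le_opNorm ((b - a) S.ξ)
      have h4 := min_le_right δ₁ δ₂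
      nlinarith [norm_nonneg ((b - a) S.ξ)])
  set w := ((2 * c : ℝ) : ℂ) • (CondN2_r b * b) with hwdef
  have h2c : ‖((2 * c : ℝ) : ℂ)‖ = 2 * c := by
    rw [Complex.norm_real, Real.norm_eq_abs, abs_of_pos (by positivity)]
  have hw1 : ‖w‖ ≤ c := by
    rw [hwdef, norm_smul, h2c]
    nlinarith
  have hw2 : ‖(w - n) S.ξ‖ ≤ γ / 2 := by
    rw [hwdef, ← hg, ← smul_sub, CondN2_diff ha hb, ContinuousLinearMap.smul_apply, norm_smul, h2c,
      ContinuousLinearMap.sub_apply, ContinuousLinearMap.mul_apply,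
      ContinuousLinearMap.mul_apply _ (CondN2_r a * a)]
    have h3 := norm_sub_le ((CondN2_r b * (b - a)) (CondN2_r a S.ξ))
      ((CondN2_r b * b * (b - a)) ((CondN2_r a * a) S.ξ))
    calc _ ≤ 2 * c * (γ / (8 * c) + γ / (8 * c)) :=
          mul_le_mul_of_nonneg_left (by linarith) (by positivity)
      _ = γ / 2 := by field_simp; ring
  have hwsa : IsSelfAdjoint w := by
    rw [hwdef, CondN2_r_mul hb, Complex.coe_smul]
    exact IsSelfAdjoint.smul (IsSelfAdjoint.all _) (cfc_predicate _ _)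
  have hwc : w ∈ (CondN2_N0Alg S).topologicalClosure := by
    refine SMulMemClass.smul_mem _ ?_
    rw [CondN2_r_mul hb]
    exact _root_.cfc_mem (𝕜' := ℂ) (s := (CondN2_N0Alg S).topologicalClosure)
      (hs := (CondN2_N0Alg S).isClosed_topologicalClosure) _
      ((CondN2_N0Alg S).le_topologicalClosure hbN)
  obtain ⟨z, hz, hzw⟩ := Metric.mem_closure_iff.1 hwc (γ / (2 * (1 + ‖S.ξ‖))) (by positivity)
  have hz' : z ∈ S.N0 := hz
  rw [dist_comm, dist_eq_norm] at hzw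
  have hyw : ‖(2⁻¹ : ℂ) • (z + star z) - w‖ ≤ γ / (2 * (1 + ‖S.ξ‖)) := by
    have : (2⁻¹ : ℂ) • (z + star z) - w = (2⁻¹ : ℂ) • ((z - w) + star (z - w)) := by
      rw [star_sub, hwsa.star_eq]
      module
    rw [this]
    exact (CondN2_norm_re _).trans hzw.le
  have hsm : γ / (2 * (1 + ‖S.ξ‖)) * (1 + ‖S.ξ‖) = γ / 2 := by field_simp
  have hpos : 0 < γ / (2 * (1 + ‖S.ξ‖)) := by positivity
  refine ⟨(2⁻¹ : ℂ) • (z + star z), S.N0.smul_mem _ (S.N0.add_mem hz' (S.N0_star hz')),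
    CondN2_re z, ?_, ?_⟩
  · have h3 := norm_add_le ((2⁻¹ : ℂ) • (z + star z) - w) w
    rw [sub_add_cancel] at h3
    nlinarith [norm_nonneg S.ξ]
  · have h3 : ((2⁻¹ : ℂ) • (z + star z) - n) S.ξ =
        ((2⁻¹ : ℂ) • (z + star z) - w) S.ξ + (w - n) S.ξ := by
      rw [← ContinuousLinearMap.add_apply, sub_add_sub_cancel]
    have h4 := ((2⁻¹ : ℂ) • (z + star z) - w).le_opNorm S.ξ
    have h5 := mul_le_mul_of_nonneg_right hyw (norm_nonneg S.ξ)
    rw [h3]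
    nlinarith [norm_add_le (((2⁻¹ : ℂ) • (z + star z) - w) S.ξ) ((w - n) S.ξ)]

theorem Nn.exists_bounded {n : H →L[ℂ] H} (hn : S.Nn n) {γ : ℝ} (hγ : 0 < γ) :
    ∃ y ∈ S.N0, ‖y‖ ≤ 2 * ‖n‖ + 1 ∧ ‖(y - n) S.ξ‖ ≤ γ := by
  have hγ' : 0 < min (γ / 2) (1 / 2) := lt_min (by positivity) (by norm_num)
  have hm1 := min_le_left (γ / 2) (1 / 2)
  have hm2 := min_le_right (γ / 2) (1 / 2)
  have hn' : S.Nn ((-Complex.I) • n) := hn.smul _
  obtain ⟨y₁, hy₁, -, a1, b1⟩ := ((hn.add hn.star_mem).smul 2⁻¹).exists_bounded_sa (CondN2_re n) hγ'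
  obtain ⟨y₂, hy₂, -, a2, b2⟩ :=
    ((hn'.add hn'.star_mem).smul 2⁻¹).exists_bounded_sa (CondN2_re _) hγ'
  have c1 := CondN2_norm_re n
  have c2 := CondN2_norm_re ((-Complex.I) • n)
  rw [norm_smul (-Complex.I), norm_neg, Complex.norm_I, one_mul] at c2
  refine ⟨y₁ + Complex.I • y₂, S.N0.add_mem hy₁ (S.N0.smul_mem _ hy₂), ?_, ?_⟩
  · have := norm_add_le y₁ (Complex.I • y₂)
    rw [norm_smul, Complex.norm_I, one_mul] at this
    linarith
  · have h3 : y₁ + Complex.I • y₂ - n = (y₁ - (2⁻¹ : ℂ) • (n + star n)) + Complex.I •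
        (y₂ - (2⁻¹ : ℂ) • ((-Complex.I) • n + star ((-Complex.I) • n))) := by
      rw [star_smul, star_neg, Complex.star_def, Complex.conj_I, neg_neg]
      have hI : Complex.I * Complex.I = -1 := Complex.I_mul_I
      match_scalars
      · ring
      · ring
      · linear_combination (-2⁻¹ : ℂ) * hI
      · linear_combination (2⁻¹ : ℂ) * hI
    rw [h3, ContinuousLinearMap.add_apply, ContinuousLinearMap.smul_apply]
    refine (norm_add_le _ _).trans ?_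
    rw [norm_smul, Complex.norm_I, one_mul]
    linarith

end Std

end

end Crest.Agent.R109
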