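import Crest.Agent.R109.Defs

/-!
# Row 109: the ultralimit pre-Hilbert space of families of vectors indexed by random labels
-/

open Filter Topology
open scoped InnerProductSpace BigOperators ComplexOrder

set_option linter.unusedSectionVars false

namespace Crest.Agent.R109

noncomputable section

open Classical

namespace Fock

variable {H : Type*} [NormedAddCommGroup H] [InnerProductSpace ℂ H] [CompleteSpace H]
  {X : Type*} [TopologicalSpace X] [CompactSpace X] {L : ℕ}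

/-- locally constant labellings -/
abbrev LC (X : Type*) [TopologicalSpace X] (L : ℕ) := {lam : X → Fin L // IsLocallyConstant lam}

/-- the labelling given by labels of the atoms of a partition -/
def lab (Q : DiscreteQuotient X) (lb : Q → Fin L) : LC X L :=
  ⟨lb ∘ Q.proj, Q.proj_isLocallyConstant.comp lb⟩

/-- the average over the labels -/
def avg (F : LC X L → ℂ) (Q : DiscreteQuotient X) : ℂ :=
  (∑ lb : Q → Fin L, F (lab Q lb)) / (Fintype.card (Q → Fin L) : ℂ)

theorem norm_avg_le {F : LC X L → ℂ} {C : ℝ} (hC : 0 ≤ C) (h : ∀ lam, ‖F lam‖ ≤ C)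
    (Q : DiscreteQuotient X) : ‖avg F Q‖ ≤ C := by
  rw [avg, norm_div, Complex.norm_natCast]
  refine div_le_of_le_mul₀ (Nat.cast_nonneg _) hC ((norm_sum_le _ _).trans ?_)
  refine (Finset.sum_le_sum fun lb _ => h (lab Q lb)).trans (le_of_eq ?_)
  rw [Finset.sum_const, Finset.card_univ, nsmul_eq_mul, mul_comm]

/-- the limit of the averages -/
def lm (F : LC X L → ℂ) : ℂ := limUnder (UF X) (avg F)

theorem tendsto_lm {F : LC X L → ℂ} {C : ℝ} (hC : 0 ≤ C) (h : ∀ lam, ‖F lam‖ ≤ C) :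
    Tendsto (avg F) (UF X) (𝓝 (lm F)) := by
  refine tendsto_nhds_limUnder ?_
  obtain ⟨g, -, hl⟩ := (isCompact_closedBall (0 : ℂ) C).ultrafilter_le_nhds
    ((UF X).map (avg F)) (by
      rw [Ultrafilter.coe_map, le_principal_iff, mem_map]
      exact Eventually.of_forall fun Q => by simpa using norm_avg_le hC h Q)
  exact ⟨g, hl⟩

variable (H X L) in
/-- bounded families -/
def Bd : Submodule ℂ (LC X L → H) where
  carrier := {v | ∃ C : ℝ, 0 ≤ C ∧ ∀ lam, ‖v lam‖ ≤ C}
  add_mem' := by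
    rintro v w ⟨C, hC, hv⟩ ⟨D, hD, hw⟩
    exact ⟨C + D, add_nonneg hC hD, fun lam => (norm_add_le _ _).trans (add_le_add (hv _) (hw _))⟩
  zero_mem' := ⟨0, le_rfl, fun _ => by simp⟩
  smul_mem' := by
    rintro c v ⟨C, hC, hv⟩
    refine ⟨‖c‖ * C, by positivity, fun lam => ?_⟩
    rw [Pi.smul_apply, norm_smul]
    exact mul_le_mul_of_nonneg_left (hv _) (norm_nonneg _)

variable (H X L) in
/-- the ultralimit space -/
def FV : Type _ := ↥(Bd H X L)

instance : AddCommGroup (FV H X L) := inferInstanceAs (AddCommGroup ↥(Bd H X L))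

instance : Module ℂ (FV H X L) := inferInstanceAs (Module ℂ ↥(Bd H X L))

/-- the underlying family -/
def FV.val (v : FV H X L) : LC X L → H := Subtype.val v

/-- a bounded family as an element -/
def FV.mk (v : LC X L → H) {C : ℝ} (hC : 0 ≤ C) (h : ∀ lam, ‖v lam‖ ≤ C) : FV H X L :=
  (⟨v, C, hC, h⟩ : ↥(Bd H X L))

@[simp] theorem FV.val_mk (v : LC X L → H) {C : ℝ} (hC : 0 ≤ C) (h : ∀ lam, ‖v lam‖ ≤ C) :
    (FV.mk v hC h).val = v := rfl

theorem FV.bdd (v : FV H X L) : ∃ C : ℝ, 0 ≤ C ∧ ∀ lam, ‖v.val lam‖ ≤ C := Subtype.prop v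

theorem FV.ext {v w : FV H X L} (h : ∀ lam, v.val lam = w.val lam) : v = w :=
  Subtype.ext (funext h)

@[simp] theorem FV.add_val (v w : FV H X L) (lam : LC X L) :
    (v + w).val lam = v.val lam + w.val lam := rfl

@[simp] theorem FV.sub_val (v w : FV H X L) (lam : LC X L) :
    (v - w).val lam = v.val lam - w.val lam := rfl

@[simp] theorem FV.smul_val (c : ℂ) (v : FV H X L) (lam : LC X L) :
    (c • v).val lam = c • v.val lam := rfl

@[simp] theorem FV.zero_val (lam : LC X L) : (0 : FV H X L).val lam = 0 := rfl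

theorem tendsto_lm_inner (v w : FV H X L) :
    Tendsto (avg fun lam => ⟪v.val lam, w.val lam⟫_ℂ) (UF X)
      (𝓝 (lm fun lam => ⟪v.val lam, w.val lam⟫_ℂ)) := by
  obtain ⟨C, hC, hv⟩ := v.bdd
  obtain ⟨D, hD, hw⟩ := w.bdd
  exact tendsto_lm (mul_nonneg hC hD) fun lam =>
    (norm_inner_le_norm _ _).trans (mul_le_mul (hv _) (hw _) (norm_nonneg _) hC)

theorem avg_inner_self (v : LC X L → H) (Q : DiscreteQuotient X) :
    (avg (fun lam => ⟪v lam, v lam⟫_ℂ) Q).re =
      (∑ lb : Q → Fin L, ‖v (lab Q lb)‖ ^ 2) / (Fintype.card (Q → Fin L) : ℝ) := by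
  rw [avg, Complex.div_natCast_re, Complex.re_sum]
  congr 1
  exact Finset.sum_congr rfl fun lb _ => inner_self_eq_norm_sq (𝕜 := ℂ) _

variable (H X L) in
/-- the semi-inner product -/
@[reducible] def core : PreInnerProductSpace.Core ℂ (FV H X L) where
  inner v w := lm fun lam => ⟪v.val lam, w.val lam⟫_ℂ
  conj_inner_symm v w := by
    refine tendsto_nhds_unique
      ((Complex.continuous_conj.tendsto _).comp (tendsto_lm_inner w v)) ?_
    refine (tendsto_lm_inner v w).congr fun Q => ?_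
    simp [avg]
  re_inner_nonneg v := by
    refine ge_of_tendsto' ((Complex.continuous_re.tendsto _).comp (tendsto_lm_inner v v))
      fun Q => ?_
    rw [Function.comp_apply, avg_inner_self]
    positivity
  add_left u v w := by
    refine tendsto_nhds_unique (tendsto_lm_inner (u + v) w) ?_
    refine ((tendsto_lm_inner u w).add (tendsto_lm_inner v w)).congr fun Q => ?_
    simp [avg, inner_add_left, Finset.sum_add_distrib, add_div]
  smul_left v w c := by
    refine tendsto_nhds_unique (tendsto_lm_inner (c • v) w) ?_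
    refine ((tendsto_lm_inner v w).const_mul _).congr fun Q => ?_
    simp only [avg, FV.smul_val, inner_smul_left, ← Finset.mul_sum, mul_div_assoc]

instance : SeminormedAddCommGroup (FV H X L) :=
  @InnerProductSpace.Core.toSeminormedAddCommGroup ℂ (FV H X L) _ _ _ (core H X L)

instance : InnerProductSpace ℂ (FV H X L) := InnerProductSpace.ofCore (core H X L)

theorem tendsto_inner (v w : FV H X L) :
    Tendsto (avg fun lam => ⟪v.val lam, w.val lam⟫_ℂ) (UF X) (𝓝 ⟪v, w⟫_ℂ) :=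
  tendsto_lm_inner v w

theorem inner_congr {v w v' w' : FV H X L}
    (h : ∀ lam, ⟪v.val lam, w.val lam⟫_ℂ = ⟪v'.val lam, w'.val lam⟫_ℂ) : ⟪v, w⟫_ℂ = ⟪v', w'⟫_ℂ :=
  congrArg lm (funext h)

theorem inner_eq_zero {v w : FV H X L} {F : (X → Fin L) → ℂ}
    (h : ∀ lam, ⟪v.val lam, w.val lam⟫_ℂ = F lam.1)
    (h0 : Tendsto (fun Q : DiscreteQuotient X => (∑ lb : Q → Fin L, F (lb ∘ Q.proj)) /
      (Fintype.card (Q → Fin L) : ℂ)) atBot (𝓝 0)) : ⟪v, w⟫_ℂ = 0 := by
  refine tendsto_nhds_unique (tendsto_inner v w) ((h0.mono_left UF_le).congr fun Q => ?_)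
  simp only [avg, h]
  rfl

theorem tendsto_norm_sq (v : FV H X L) :
    Tendsto (fun Q : DiscreteQuotient X => (∑ lb : Q → Fin L, ‖v.val (lab Q lb)‖ ^ 2) /
      (Fintype.card (Q → Fin L) : ℝ)) (UF X) (𝓝 (‖v‖ ^ 2)) := by
  rw [← inner_self_eq_norm_sq (𝕜 := ℂ)]
  exact ((Complex.continuous_re.tendsto _).comp (tendsto_inner v v)).congr fun Q =>
    avg_inner_self _ Q

theorem norm_le_mul {v w : FV H X L} {c : ℝ} (hc : 0 ≤ c)
    (h : ∀ lam, ‖v.val lam‖ ≤ c * ‖w.val lam‖) : ‖v‖ ≤ c * ‖w‖ := by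
  have h1 : ‖v‖ ^ 2 ≤ c ^ 2 * ‖w‖ ^ 2 := by
    refine le_of_tendsto_of_tendsto' (tendsto_norm_sq v) ((tendsto_norm_sq w).const_mul _)
      fun Q => ?_
    rw [← mul_div_assoc, Finset.mul_sum]
    refine div_le_div_of_nonneg_right (Finset.sum_le_sum fun lb _ => ?_) (Nat.cast_nonneg _)
    rw [← mul_pow]
    exact pow_le_pow_left₀ (norm_nonneg _) (h _) 2
  rw [← mul_pow] at h1
  exact le_of_sq_le_sq (by simpa using h1) (by positivity)

theorem norm_le_const {v : FV H X L} {c : ℝ} (hc : 0 ≤ c) (h : ∀ lam, ‖v.val lam‖ ≤ c) :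
    ‖v‖ ≤ c := by
  have h1 : ‖v‖ ^ 2 ≤ c ^ 2 := by
    refine le_of_tendsto' (tendsto_norm_sq v) fun Q => ?_
    refine div_le_of_le_mul₀ (Nat.cast_nonneg _) (by positivity) ?_
    refine (Finset.sum_le_sum fun lb _ => pow_le_pow_left₀ (norm_nonneg _) (h _) 2).trans
      (le_of_eq ?_)
    rw [Finset.sum_const, Finset.card_univ, nsmul_eq_mul, mul_comm]
  exact le_of_sq_le_sq (by simpa using h1) hc

/-- a bounded family of operators acts on the ultralimit space -/
def op (T : LC X L → H →L[ℂ] H) {C : ℝ} (hC : 0 ≤ C) (hT : ∀ lam, ‖T lam‖ ≤ C) :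
    FV H X L →ₗ[ℂ] FV H X L where
  toFun v := (⟨fun lam => T lam (v.val lam), by
    obtain ⟨D, hD, hv⟩ := v.bdd
    exact ⟨C * D, mul_nonneg hC hD, fun lam => ((T lam).le_opNorm _).trans
      (mul_le_mul (hT _) (hv _) (norm_nonneg _) hC)⟩⟩ : ↥(Bd H X L))
  map_add' v w := FV.ext fun lam => map_add (T lam) _ _
  map_smul' c v := FV.ext fun lam => map_smul (T lam) _ _

@[simp] theorem op_val (T : LC X L → H →L[ℂ] H) {C : ℝ} (hC : 0 ≤ C) (hT : ∀ lam, ‖T lam‖ ≤ C)
    (v : FV H X L) (lam : LC X L) : (op T hC hT v).val lam = T lam (v.val lam) := rfl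

theorem norm_op_le (T : LC X L → H →L[ℂ] H) {C : ℝ} (hC : 0 ≤ C) (hT : ∀ lam, ‖T lam‖ ≤ C)
    (v : FV H X L) : ‖op T hC hT v‖ ≤ C * ‖v‖ :=
  norm_le_mul hC fun lam => (T lam).le_of_opNorm_le (hT lam) _

/-- a fixed operator -/
def opc (y : H →L[ℂ] H) : FV H X L →ₗ[ℂ] FV H X L := op (fun _ => y) (norm_nonneg y) fun _ => le_rfl

@[simp] theorem opc_val (y : H →L[ℂ] H) (v : FV H X L) (lam : LC X L) :
    (opc y v).val lam = y (v.val lam) := rfl

theorem norm_opc_le (y : H →L[ℂ] H) (v : FV H X L) : ‖opc y v‖ ≤ ‖y‖ * ‖v‖ := norm_op_le _ _ _ _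

/-- a constant family -/
def cst (η : H) : FV H X L := FV.mk (fun _ => η) (norm_nonneg η) fun _ => le_rfl

@[simp] theorem cst_val (η : H) (lam : LC X L) : (cst η : FV H X L).val lam = η := rfl

theorem pow_val {A : FV H X L →ₗ[ℂ] FV H X L} {T : LC X L → H →L[ℂ] H}
    (h : ∀ v lam, (A v).val lam = T lam (v.val lam)) (n : ℕ) (v : FV H X L) (lam : LC X L) :
    ((A ^ n) v).val lam = (T lam ^ n) (v.val lam) := by
  induction n with
  | zero => rfl
  | succ n ih => rw [pow_succ', pow_succ', Module.End.mul_apply, h, ih]; rfl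

end Fock

end

end Crest.Agent.R109
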