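import Crest.Agent.R109.Vanish2
import Crest.Agent.R109.FockX1

/-!
# Row 109: the norm of a free compression
-/

open Filter Topology
open scoped InnerProductSpace BigOperators ComplexOrder

set_option linter.unusedSectionVars false

namespace Crest.Agent.R109

noncomputable section

open Classical

variable {H : Type*} [NormedAddCommGroup H] [InnerProductSpace ℂ H] [CompleteSpace H]
  {X : Type*} [TopologicalSpace X] [CompactSpace X] [T2Space X] [ExtremallyDisconnected X]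

namespace Std
variable (S : Std H X) {L : ℕ}

open Fock

theorem fock_lword_nil (lam : X → Fin L) : S.lword [] lam = 1 := rfl

theorem fock_lword_cons (c : (X → Fin L) → C(X, ℂ)) (y : H →L[ℂ] H)
    (ws : List (((X → Fin L) → C(X, ℂ)) × (H →L[ℂ] H))) (lam : X → Fin L) :
    S.lword ((c, y) :: ws) lam = S.ρ (c lam) * y * S.lword ws lam := by
  simp [lword]

variable {S} in
theorem fock_admW_cons {c : (X → Fin L) → C(X, ℂ)} {y : H →L[ℂ] H}
    {ws : List (((X → Fin L) → C(X, ℂ)) × (H →L[ℂ] H))} :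
    S.AdmW ((c, y) :: ws) ↔
      S.IsRF c ∧ Cent c ∧ ((ws = [] ∧ y ∈ S.M) ∨ (S.Mo y ∧ S.AdmW ws)) := by
  cases ws with
  | nil => simp [AdmW]
  | cons x ws => simp [AdmW]

variable {S} in
theorem fock_admW_exists {ws : List (((X → Fin L) → C(X, ℂ)) × (H →L[ℂ] H))} (h : S.AdmW ws) :
    ∃ c y ws', ws = (c, y) :: ws' := by
  cases ws with
  | nil => exact absurd h (by simp [AdmW])
  | cons x ws => exact ⟨x.1, x.2, ws, rfl⟩

theorem fock_cent_mul {c : (X → Fin L) → C(X, ℂ)} (h : Cent c) (f : C(X, ℂ)) :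
    Cent fun lam => f * c lam := by
  filter_upwards [h] with Q hQ t
  simp only [ContinuousMap.mul_apply, ← Finset.mul_sum, hQ t, mul_zero]

/-- the family `y (lword ws) ξ` -/
def FockIs (y : H →L[ℂ] H) (ws : List (((X → Fin L) → C(X, ℂ)) × (H →L[ℂ] H))) (v : FV H X L) :
    Prop := ∀ lam : LC X L, v.val lam = y (S.lword ws lam.1 S.ξ)

variable {S} in
theorem fock_exists (y : H →L[ℂ] H) {ws : List (((X → Fin L) → C(X, ℂ)) × (H →L[ℂ] H))}
    (h : ws = [] ∨ S.AdmW ws) : ∃ v, S.FockIs y ws v := by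
  rcases h with rfl | h
  · exact ⟨cst (y S.ξ), fun _ => rfl⟩
  · obtain ⟨C, hC⟩ := (S.uac_lword h).2
    refine ⟨FV.mk (fun lam => y (S.lword ws lam.1 S.ξ)) (C := ‖y‖ * (max C 0 * ‖S.ξ‖))
      (by positivity) fun lam => (y.le_opNorm _).trans ?_, fun _ => rfl⟩
    exact mul_le_mul_of_nonneg_left
      ((S.lword ws lam.1).le_of_opNorm_le ((hC _ lam.2).trans (le_max_left _ _)) _) (norm_nonneg _)

variable (L) in
/-- words that begin with a letter in `Mo` -/
def FockK₁ : Submodule ℂ (FV H X L) :=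
  Submodule.span ℂ {v | ∃ z ws, S.Mo z ∧ (ws = [] ∨ S.AdmW ws) ∧ S.FockIs z ws v}

variable (L) in
/-- the other words -/
def FockK₂ : Submodule ℂ (FV H X L) :=
  Submodule.span ℂ {v | (∃ n, S.Nn n ∧ S.FockIs n [] v) ∨
    ∃ (g : S.Nrm) (ws : _), S.AdmW ws ∧ S.FockIs g.u ws v}

variable {S}

theorem fock_mem₁ {z : H →L[ℂ] H} {ws : List (((X → Fin L) → C(X, ℂ)) × (H →L[ℂ] H))}
    {v : FV H X L} (hz : S.Mo z) (hws : ws = [] ∨ S.AdmW ws) (h : S.FockIs z ws v) :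
    v ∈ S.FockK₁ L := Submodule.subset_span ⟨z, ws, hz, hws, h⟩

theorem fock_mem₂ {n : H →L[ℂ] H} {v : FV H X L} (hn : S.Nn n) (h : S.FockIs n [] v) :
    v ∈ S.FockK₂ L := Submodule.subset_span (Or.inl ⟨n, hn, h⟩)

theorem fock_mem₂' (g : S.Nrm) {ws : List (((X → Fin L) → C(X, ℂ)) × (H →L[ℂ] H))}
    {v : FV H X L} (hws : S.AdmW ws) (h : S.FockIs g.u ws v) :
    v ∈ S.FockK₂ L := Submodule.subset_span (Or.inr ⟨g, ws, hws, h⟩)

theorem fock_span_orth {V : Type*} [SeminormedAddCommGroup V] [InnerProductSpace ℂ V]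
    {s t : Set V} (h : ∀ v ∈ s, ∀ w ∈ t, ⟪v, w⟫_ℂ = 0) :
    ∀ v ∈ Submodule.span ℂ s, ∀ w ∈ Submodule.span ℂ t, ⟪v, w⟫_ℂ = 0 := by
  intro v hv w hw
  induction hv using Submodule.span_induction with
  | mem v hv =>
    induction hw using Submodule.span_induction with
    | mem w hw => exact h v hv w hw
    | zero => exact inner_zero_right _
    | add a b _ _ ha hb => rw [inner_add_right, ha, hb, add_zero]
    | smul c a _ ha => rw [inner_smul_right, ha, mul_zero]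
  | zero => exact inner_zero_left _
  | add a b _ _ ha hb => rw [inner_add_left, ha, hb, add_zero]
  | smul c a _ ha => rw [inner_smul_left, ha, mul_zero]

theorem fock_orth (hL : 0 < L) : ∀ v ∈ S.FockK₁ L, ∀ w ∈ S.FockK₂ L, ⟪v, w⟫_ℂ = 0 := by
  refine fock_span_orth ?_
  · rintro v ⟨z, ws, hz, hws, hv⟩ w (⟨n, hn, hw⟩ | ⟨g, ws', hws', hw⟩)
    · rcases hws with rfl | hws
      · refine Fock.inner_eq_zero (F := fun _ => 0) (fun lam => ?_) (by simp)
        rw [hv, hw]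
        exact Submodule.inner_left_of_mem_orthogonal hn.2 hz.2
      · rw [inner_eq_zero_symm]
        refine Fock.inner_eq_zero (F := fun lam => S.φ (star n * z * S.lword ws lam))
          (fun lam => ?_) (S.vanish_list hL (mul_mem (star_mem hn.1) hz.1) hws)
        rw [hv, hw, mul_assoc, ← S.inner_eq_φ]
        rfl
    · have hzg : S.Mo (star z * g.u) := hz.star_mem.mul_right (Nn.of_N0 (S.u_mem_N0 g))
      rcases hws with rfl | hws
      · refine Fock.inner_eq_zero (F := fun lam => S.φ (star z * g.u * S.lword ws' lam))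
          (fun lam => ?_) (S.vanish_list hL hzg.1 hws')
        rw [hv, hw, mul_assoc, ← S.inner_eq_φ]
        rfl
      · refine Fock.inner_eq_zero
          (F := fun lam => S.φ (star (S.lword ws lam) * (star z * g.u) * S.lword ws' lam))
          (fun lam => ?_) (S.vanish_pair hL hzg hws hws')
        rw [hv, hw, ← mul_assoc, ← star_mul, mul_assoc, ← S.inner_eq_φ]
        rfl

theorem fock_x₂ {x : H →L[ℂ] H} (hx : S.Mo x) : ∀ v ∈ S.FockK₂ L, opc x v ∈ S.FockK₁ L := by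
  refine fun v hv => (show S.FockK₂ L ≤ (S.FockK₁ L).comap (opc x) from Submodule.span_le.2 ?_) hv
  rintro v (⟨n, hn, hv⟩ | ⟨g, ws, hws, hv⟩)
  · exact fock_mem₁ (hx.mul_right hn) (Or.inl rfl) fun lam => by rw [opc_val, hv]; rfl
  · exact fock_mem₁ (hx.mul_right (Nn.of_N0 (S.u_mem_N0 g))) (Or.inr hws)
      fun lam => by rw [opc_val, hv]; rfl

theorem fock_N0 {ws : List (((X → Fin L) → C(X, ℂ)) × (H →L[ℂ] H))} (hws : S.AdmW ws)
    {w : FV H X L} (hw : S.FockIs 1 ws w) {y : H →L[ℂ] H} (hy : y ∈ S.N0) :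
    opc y w ∈ S.FockK₂ L := by
  obtain ⟨c, y₁, ws', rfl⟩ := fock_admW_exists hws
  obtain ⟨h1, h2, h3⟩ := fock_admW_cons.1 hws
  induction hy using Submodule.span_induction with
  | mem y hy =>
    obtain ⟨g, -, f, rfl⟩ := hy
    refine fock_mem₂' g (ws := (fun lam => f * c lam, y₁) :: ws')
      (fock_admW_cons.2 ⟨(IsRF.const f).mul h1, fock_cent_mul h2 f, h3⟩) fun lam => ?_
    rw [opc_val, hw, fock_lword_cons, fock_lword_cons, map_mul]
    rfl
  | zero =>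
    have : opc 0 w = 0 := FV.ext fun lam => rfl
    rw [this]; exact zero_mem _
  | add y y' _ _ h h' =>
    have : opc (y + y') w = opc y w + opc y' w := FV.ext fun lam => rfl
    rw [this]; exact add_mem h h'
  | smul a y _ h =>
    have : opc (a • y) w = a • opc y w := FV.ext fun lam => rfl
    rw [this]; exact Submodule.smul_mem _ a h

theorem fock_Nn {ws : List (((X → Fin L) → C(X, ℂ)) × (H →L[ℂ] H))} (hws : ws = [] ∨ S.AdmW ws)
    {n : H →L[ℂ] H} (hn : S.Nn n) {v : FV H X L} (hv : S.FockIs n ws v) :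
    v ∈ (S.FockK₂ L).topologicalClosure := by
  rcases hws with rfl | hws
  · exact Submodule.le_topologicalClosure _ (fock_mem₂ hn hv)
  obtain ⟨w, hw⟩ := fock_exists 1 (Or.inr hws)
  refine Metric.mem_closure_iff.2 fun ε hε => ?_
  obtain ⟨K, hK, hU⟩ := (S.uac_lword hws).1 ((ε / (2 * (3 * ‖n‖ + 1))) ^ 2) (by positivity)
  obtain ⟨y, hy, hyn, hyξ⟩ := hn.exists_bounded (γ := ε / (2 * (K + 1))) (by positivity)
  refine ⟨opc y w, fock_N0 hws hw hy, ?_⟩
  rw [dist_comm, dist_eq_norm]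
  refine (norm_le_const (c := 3 / 4 * ε) (by positivity) fun lam => ?_).trans_lt (by linarith)
  have h1 := hU _ ⟨lam.1, lam.2, rfl⟩ (y - n) (sub_mem (S.N0_mem_M hy) hn.1)
  have e : (opc y w - v).val lam = (y - n) (S.lword ws lam.1 S.ξ) := by
    rw [FV.sub_val, opc_val, hw, hv]; rfl
  rw [e]
  have h2 : ‖y - n‖ ≤ 3 * ‖n‖ + 1 := (norm_sub_le _ _).trans (by linarith)
  have h3 : (ε / (2 * (3 * ‖n‖ + 1))) ^ 2 * ‖y - n‖ ^ 2 ≤ (ε / 2) ^ 2 := by
    rw [← mul_pow]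
    refine pow_le_pow_left₀ (by positivity) ?_ 2
    calc _ ≤ ε / (2 * (3 * ‖n‖ + 1)) * (3 * ‖n‖ + 1) := by gcongr
      _ = ε / 2 := by field_simp
  have h4 : K * ‖(y - n) S.ξ‖ ^ 2 ≤ (ε / 2) ^ 2 := by
    calc _ ≤ (K + 1) ^ 2 * (ε / (2 * (K + 1))) ^ 2 := by
          gcongr
          nlinarith
      _ = (ε / 2) ^ 2 := by field_simp
  refine (pow_le_pow_iff_left₀ (norm_nonneg _) (by positivity) two_ne_zero).1 ?_
  nlinarith

theorem fock_M {ws : List (((X → Fin L) → C(X, ℂ)) × (H →L[ℂ] H))} (hws : ws = [] ∨ S.AdmW ws)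
    {y : H →L[ℂ] H} (hy : y ∈ S.M) {v : FV H X L} (hv : S.FockIs y ws v) :
    v ∈ (S.FockK₁ L ⊔ S.FockK₂ L).topologicalClosure := by
  obtain ⟨n, hn, hz, -⟩ := S.exists_split hy
  obtain ⟨v₁, h₁⟩ := fock_exists (y - n) hws
  obtain ⟨v₂, h₂⟩ := fock_exists n hws
  have e : v = v₁ + v₂ := FV.ext fun lam => by
    rw [FV.add_val, hv, h₁, h₂]; simp
  rw [e]
  exact add_mem (Submodule.le_topologicalClosure _ (Submodule.mem_sup_left (fock_mem₁ hz hws h₁)))
    (Submodule.topologicalClosure_mono le_sup_right (fock_Nn hws hn h₂))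

theorem fock_x₁ {x : H →L[ℂ] H} (hx : x ∈ S.M) :
    ∀ v ∈ S.FockK₁ L, opc x v ∈ (S.FockK₁ L ⊔ S.FockK₂ L).topologicalClosure := by
  refine fun v hv => (show S.FockK₁ L ≤
    ((S.FockK₁ L ⊔ S.FockK₂ L).topologicalClosure).comap (opc x) from Submodule.span_le.2 ?_) hv
  rintro v ⟨z, ws, hz, hws, hv⟩
  exact fock_M hws (mul_mem hx hz.1) fun lam => by rw [opc_val, hv]; rfl

section b
variable {b : (X → Fin L) → C(X, ℂ)} {B : FV H X L →ₗ[ℂ] FV H X L} {m : C(X, ℂ)}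

theorem fock_b₁ (hb : S.IsRF b) (hB : ∀ v lam, (B v).val lam = S.ρ (b lam.1) (v.val lam))
    (hm : Cent fun lam => b lam - m) :
    ∀ v ∈ S.FockK₁ L, B v - opc (S.ρ m) v ∈ S.FockK₂ L := by
  refine fun v hv => (show S.FockK₁ L ≤ (S.FockK₂ L).comap (B - opc (S.ρ m)) from
    Submodule.span_le.2 ?_) hv
  rintro v ⟨z, ws, hz, hws, hv⟩
  refine fock_mem₂' 1 (ws := (fun lam => b lam - m, z) :: ws)
    (fock_admW_cons.2 ⟨hb.sub (IsRF.const m), hm, ?_⟩) fun lam => ?_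
  · rcases hws with rfl | hws
    · exact Or.inl ⟨rfl, hz.1⟩
    · exact Or.inr ⟨hz, hws⟩
  · rw [LinearMap.sub_apply, FV.sub_val, hB, opc_val, hv, fock_lword_cons, map_sub]
    rfl

theorem fock_b (hL : 0 < L) (hb : S.IsRF b)
    (hB : ∀ v lam, (B v).val lam = S.ρ (b lam.1) (v.val lam)) :
    ∀ v ∈ S.FockK₁ L ⊔ S.FockK₂ L, B v ∈ (S.FockK₁ L ⊔ S.FockK₂ L).topologicalClosure := by
  obtain ⟨m, hm⟩ := hb.exists_mean hL
  refine fun v hv => (show S.FockK₁ L ⊔ S.FockK₂ L ≤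
    ((S.FockK₁ L ⊔ S.FockK₂ L).topologicalClosure).comap B from
      sup_le (Submodule.span_le.2 ?_) (Submodule.span_le.2 ?_)) hv
  · rintro v ⟨z, ws, hz, hws, hv⟩
    have e : B v = (B v - opc (S.ρ m) v) + opc (S.ρ m) v := by simp
    change B v ∈ (S.FockK₁ L ⊔ S.FockK₂ L).topologicalClosure
    rw [e]
    refine add_mem (Submodule.le_topologicalClosure _ (Submodule.mem_sup_right
      (fock_b₁ hb hB hm v (fock_mem₁ hz hws hv)))) ?_
    exact fock_M hws (mul_mem (S.mem m) hz.1) fun lam => by rw [opc_val, hv]; rfl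
  · rintro v (⟨n, hn, hv⟩ | ⟨g, ws, hws, hv⟩)
    · have e : B v = (B v - opc (S.ρ m) v) + opc (S.ρ m) v := by simp
      change B v ∈ (S.FockK₁ L ⊔ S.FockK₂ L).topologicalClosure
      rw [e]
      refine add_mem (Submodule.le_topologicalClosure _ (Submodule.mem_sup_right ?_)) ?_
      · refine fock_mem₂' 1 (ws := [(fun lam => b lam - m, n)])
          (fock_admW_cons.2 ⟨hb.sub (IsRF.const m), hm, Or.inl ⟨rfl, hn.1⟩⟩) fun lam => ?_
        rw [FV.sub_val, hB, opc_val, hv, fock_lword_cons, map_sub]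
        rfl
      · exact fock_M (Or.inl rfl) (mul_mem (S.mem m) hn.1) fun lam => by rw [opc_val, hv]; rfl
    · obtain ⟨c, y, ws', rfl⟩ := fock_admW_exists hws
      obtain ⟨h1, h2, h3⟩ := fock_admW_cons.1 hws
      have hc := (hb.comp g).mul h1
      obtain ⟨m', hm'⟩ := hc.exists_mean hL
      have hadm := fock_admW_cons.2 ⟨hc.sub (IsRF.const m'), hm', h3⟩
      have hws' : ws' = [] ∨ S.AdmW ws' := h3.imp And.left And.right
      have hy : y ∈ S.M := h3.elim And.right fun h => h.1.1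
      obtain ⟨v₁, h₁⟩ := fock_exists g.u (Or.inr hadm)
      obtain ⟨v₂, h₂⟩ := fock_exists (g.u * S.ρ m' * y) hws'
      have e : B v = v₁ + v₂ := FV.ext fun lam => by
        rw [FV.add_val, hB, hv, h₁, h₂, fock_lword_cons, fock_lword_cons, map_sub, map_mul,
          ← mul_apply_eq_comp (S.ρ _) g.u, g.ρ_mul]
        simp
      change B v ∈ (S.FockK₁ L ⊔ S.FockK₂ L).topologicalClosure
      rw [e]
      exact add_mem (Submodule.le_topologicalClosure _ (Submodule.mem_sup_right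
        (fock_mem₂' g hadm h₁))) (fock_M hws' (mul_mem (mul_mem g.mem (S.mem m')) hy) h₂)

theorem fock_norm_mean (hL : 0 < L)
    (hb01 : ∀ lam, IsLocallyConstant lam → ∀ t, b lam t = 0 ∨ b lam t = 1) {θ : ℝ}
    (hθ0 : 0 ≤ θ) (hθ : ∀ᶠ Q : DiscreteQuotient X in atBot, ∀ t,
      (∑ lb : Q → Fin L, b (lb ∘ Q.proj) t).re ≤ θ * Fintype.card (Q → Fin L))
    (hm : Cent fun lam => b lam - m) : ‖m‖ ≤ θ := by
  obtain ⟨Q, h1, h2⟩ := (hθ.and hm).exists
  have : Nonempty (Fin L) := ⟨⟨0, hL⟩⟩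
  have hc : (0 : ℝ) < Fintype.card (Q → Fin L) := by exact_mod_cast Fintype.card_pos
  refine (ContinuousMap.norm_le _ hθ0).2 fun t => ?_
  have h3 := h2 t
  simp only [ContinuousMap.sub_apply, Finset.sum_sub_distrib, Finset.sum_const, Finset.card_univ,
    nsmul_eq_mul, sub_eq_zero] at h3
  have h4 : 0 ≤ ∑ lb : Q → Fin L, b (lb ∘ Q.proj) t := Finset.sum_nonneg fun lb _ => by
    rcases hb01 _ (lab Q lb).2 t with h | h
    · exact le_of_eq h.symm
    · exact zero_le_one.trans (le_of_eq h.symm)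
  have h5 := (Complex.re_eq_norm.2 h4).ge.trans (h1 t)
  rw [h3, norm_mul, Complex.norm_natCast, mul_comm] at h5
  exact le_of_mul_le_mul_right h5 hc

end b

variable (S)

/-- **Free compression.**  Recipe: `V` = bounded families of vectors indexed by
`(Q : DiscreteQuotient X) × (Q → Fin L)` (a submodule of the functions, or `lp _ ∞`), with the
semi-inner product `lim_{UF} avg_lb ⟪η, ζ⟫` (`PreInnerProductSpace.Core`, type synonym).
`K₁` = span of `z ξ` and `z (lword ws) ξ` (`z ∈ Mo`, `AdmW ws`); `K₂` = span of `n ξ` (`n ∈ Nn`) and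
`g.u (lword ws) ξ`.  Orthogonality: `vanish_list`, `vanish_pair`, `star_lword_append`.
`x z = n + z'` (`exists_split`), `n (lword ws) ξ` is a limit of `y (lword ws) ξ`, `y ∈ N0`
(`Nn.exists_bounded`, `uac_lword`), and `g.u ρ f (c₁ y₁ ...)` has first letter `f c₁`, again centred.
With the mean `m` of `b` (`IsRF.exists_mean`; `m t` is real in `[0, θ]`), `b z = m z + (b - m) z`,
`b g.u c₁ = g.u (b ∘ θ) c₁ = g.u (centred + mean)`; `‖b v‖² = ⟪v, m v⟫ ≤ θ ‖v‖²` on `K₁` as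
`(b - m) v ∈ K₂`.  `fock_abstract` with `v = ξ`. -/
theorem free_bound (hL : 0 < L) {x : H →L[ℂ] H} (hx : S.Mo x) {b : (X → Fin L) → C(X, ℂ)}
    (hb : S.IsRF b) (hb01 : ∀ lam, IsLocallyConstant lam → ∀ t, b lam t = 0 ∨ b lam t = 1) {θ : ℝ}
    (hθ0 : 0 ≤ θ) (hθ : ∀ᶠ Q : DiscreteQuotient X in atBot, ∀ t,
      (∑ lb : Q → Fin L, b (lb ∘ Q.proj) t).re ≤ θ * Fintype.card (Q → Fin L))
    (n : ℕ) {γ : ℝ} (hγ : 0 < γ) :
    ∀ᶠ Q : DiscreteQuotient X in UF X,
      ∑ lb : Q → Fin L, ‖((S.ρ (b (lb ∘ Q.proj)) * x * S.ρ (b (lb ∘ Q.proj))) ^ n) S.ξ‖ ^ 2 ≤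
        ((2 * √θ * ‖x‖) ^ (2 * n) * ‖S.ξ‖ ^ 2 + γ) * Fintype.card (Q → Fin L) := by
  obtain ⟨C, hC, hbC⟩ := hb.bdd
  set B : FV H X L →ₗ[ℂ] FV H X L := op (fun lam : LC X L => S.ρ (b lam.1)) hC
    (fun lam => (S.norm_ρ _).trans_le (hbC _ lam.2)) with hBdef
  have hB : ∀ v lam, (B v).val lam = S.ρ (b lam.1) (v.val lam) := fun _ _ => rfl
  have hstar : ∀ lam : LC X L, star (S.ρ (b lam.1)) = S.ρ (b lam.1) := fun lam => by
    rw [← map_star]
    congr 1
    ext t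
    rcases hb01 _ lam.2 t with h | h <;> simp [h]
  have hidem : ∀ lam : LC X L, S.ρ (b lam.1) * S.ρ (b lam.1) = S.ρ (b lam.1) := fun lam => by
    rw [← map_mul]
    congr 1
    ext t
    rcases hb01 _ lam.2 t with h | h <;> simp [h]
  have hbs : ∀ v w, ⟪B v, w⟫_ℂ = ⟪v, B w⟫_ℂ := fun v w => inner_congr fun lam => by
    rw [hB, hB, ← ContinuousLinearMap.adjoint_inner_right, ← ContinuousLinearMap.star_eq_adjoint,
      hstar]
  have hbb : ∀ v, B (B v) = B v := fun v => FV.ext fun lam => by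
    rw [hB, hB, ← mul_apply_eq_comp, hidem]
  obtain ⟨m, hm⟩ := hb.exists_mean hL
  have hmθ := fock_norm_mean hL hb01 hθ0 hθ hm
  have hb1 : ∀ v ∈ S.FockK₁ L, ‖B v‖ ^ 2 ≤ θ * ‖v‖ ^ 2 := by
    intro v hv
    have h1 := fock_orth hL v hv _ (fock_b₁ hb hB hm v hv)
    rw [inner_sub_right, sub_eq_zero] at h1
    rw [← inner_self_eq_norm_sq (𝕜 := ℂ), hbs, hbb, h1]
    refine (RCLike.re_le_norm _).trans ((norm_inner_le_norm _ _).trans ?_)
    have h2 := norm_opc_le (S.ρ m) v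
    rw [S.norm_ρ] at h2
    calc ‖v‖ * ‖opc (S.ρ m) v‖ ≤ ‖v‖ * (θ * ‖v‖) :=
          mul_le_mul_of_nonneg_left (h2.trans (by gcongr)) (norm_nonneg _)
      _ = _ := by ring
  have hξ : (cst S.ξ : FV H X L) ∈ S.FockK₁ L ⊔ S.FockK₂ L :=
    Submodule.mem_sup_right (fock_mem₂ (n := 1) (Nn.of_N0 (S.u_mem_N0 1)) fun _ => rfl)
  have hcl : ∀ (K : Submodule ℂ (FV H X L)) v, v ∈ K.topologicalClosure →
      v ∈ closure (K : Set (FV H X L)) := fun K v hv => hv
  have key := fock_abstract (V := FV H X L) (opc x) B (S.FockK₁ L) (S.FockK₂ L) (norm_nonneg x) hθ0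
    (norm_opc_le x) hbs hbb (fock_orth hL) (fock_x₂ hx)
    (fun v hv => hcl _ _ (fock_x₁ hx.1 v hv)) (fun v hv => hcl _ _ (fock_b hL hb hB v hv)) hb1 hξ n
  have hcst : ‖(cst S.ξ : FV H X L)‖ ≤ ‖S.ξ‖ := norm_le_const (norm_nonneg _) fun _ => le_rfl
  have h1 := key.trans (mul_le_mul_of_nonneg_left hcst (by positivity))
  have h2 := pow_le_pow_left₀ (norm_nonneg _) h1 2
  rw [mul_pow, ← pow_mul, mul_comm n 2] at h2
  have hlt := h2.trans_lt (lt_add_of_pos_right _ hγ)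
  have : Nonempty (Fin L) := ⟨⟨0, hL⟩⟩
  filter_upwards [(tendsto_norm_sq _).eventually (gt_mem_nhds hlt)] with Q hQ
  have hc : (0 : ℝ) < Fintype.card (Q → Fin L) := by exact_mod_cast Fintype.card_pos
  rw [div_lt_iff₀ hc] at hQ
  refine le_trans (le_of_eq (Finset.sum_congr rfl fun lb _ => ?_)) hQ.le
  rw [pow_val (T := fun lam => S.ρ (b lam.1) * x * S.ρ (b lam.1)) (fun _ _ => rfl)]
  rfl

/-- Paving of the orthogonal part by a local rule with random labels (`isRF_colour`,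
`colour_prob_le`, `free_bound` for each colour, `EP_pow`, `norm_sum_p_sq`, and a term is at most the
average). -/
theorem free_paving (hL : 0 < L) {x : H →L[ℂ] H} (hx : S.Mo x) {ι : Type} [Fintype ι]
    (w : ι → S.Nrm) {r : ℕ} (Φ : X → (ι → Fin L) → Fin r)
    (hΦ : ∀ ℓ, IsLocallyConstant fun t => Φ t ℓ)
    (hinj : ∀ (t : X) (ℓ : ι → Fin L), Function.Injective fun l : Fin L =>
      Φ t (fun i => if w i • t = t then l else ℓ i)) {n : ℕ} (hn : 0 < n) {γ : ℝ} (hγ : 0 < γ) :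
    ∃ lam : X → Fin L, IsLocallyConstant lam ∧
      ‖(S.EP (fun t : X => Φ t fun i => lam (w i • t)) x ^ n) S.ξ‖ ^ 2 ≤
        r * (2 * √(1 / L) * ‖x‖) ^ (2 * n) * ‖S.ξ‖ ^ 2 + γ := by
  have : Nonempty (Fin L) := ⟨⟨0, hL⟩⟩
  have hL' : (0 : ℝ) < L := by exact_mod_cast hL
  have hlc : ∀ lam : X → Fin L, IsLocallyConstant lam →
      IsLocallyConstant fun t : X => Φ t fun i => lam (w i • t) := by
    intro lam hlam
    rcases isEmpty_or_nonempty (Fin r) with h | ⟨⟨k⟩⟩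
    · exact fun s => by rw [Set.eq_empty_of_isEmpty s]; exact isOpen_empty
    · exact (isRF_colour w Φ hΦ k).1 lam hlam
  have hcl : ∀ lam : X → Fin L, IsLocallyConstant lam → ∀ k : Fin r,
      IsClopen ((fun t : X => Φ t fun i => lam (w i • t)) ⁻¹' {k}) :=
    fun lam hlam k => (hlc lam hlam).isClopen_fiber k
  have hk : ∀ k : Fin r, ∀ᶠ Q : DiscreteQuotient X in UF X, ∑ lb : Q → Fin L,
      ‖((S.p ((fun t : X => Φ t fun i => (lb ∘ Q.proj) (w i • t)) ⁻¹' {k}) * x *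
        S.p ((fun t : X => Φ t fun i => (lb ∘ Q.proj) (w i • t)) ⁻¹' {k})) ^ n) S.ξ‖ ^ 2 ≤
        ((2 * √(1 / L) * ‖x‖) ^ (2 * n) * ‖S.ξ‖ ^ 2 + γ / (r + 1)) * Fintype.card (Q → Fin L) := by
    intro k
    refine S.free_bound hL hx (isRF_colour w Φ hΦ k).2 (fun lam hlam t => ?_) (by positivity) ?_ n
      (by positivity)
    · rw [ind_apply (hcl lam hlam k)]
      split_ifs <;> simp
    · filter_upwards [colour_prob_le w Φ hinj k] with Q hQ t
      have e : ∀ lb : Q → Fin L,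
          ind ((fun t : X => Φ t fun i => (lb ∘ Q.proj) (w i • t)) ⁻¹' {k}) t =
            if Φ t (fun i => lb (Q.proj (w i • t))) = k then 1 else 0 := fun lb => by
        rw [ind_apply (hcl (lb ∘ Q.proj) (lab Q lb).2 k)]
        congr
      simp only [e]
      rw [Finset.sum_boole, Complex.natCast_re, one_div, ← div_eq_inv_mul, le_div_iff₀ hL',
        mul_comm]
      convert hQ t
  obtain ⟨Q, hQ⟩ := (eventually_all.2 hk).exists
  have hsum : ∑ lb : Q → Fin L, ∑ k : Fin r,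
      ‖((S.p ((fun t : X => Φ t fun i => (lb ∘ Q.proj) (w i • t)) ⁻¹' {k}) * x *
        S.p ((fun t : X => Φ t fun i => (lb ∘ Q.proj) (w i • t)) ⁻¹' {k})) ^ n) S.ξ‖ ^ 2 ≤
      ∑ _lb : Q → Fin L, r * ((2 * √(1 / L) * ‖x‖) ^ (2 * n) * ‖S.ξ‖ ^ 2 + γ / (r + 1)) := by
    rw [Finset.sum_comm]
    refine (Finset.sum_le_sum fun k _ => hQ k).trans (le_of_eq ?_)
    simp only [Finset.sum_const, Finset.card_univ, Fintype.card_fin, nsmul_eq_mul]
    ring
  obtain ⟨lb, -, hlb⟩ := Finset.exists_le_of_sum_le Finset.univ_nonempty hsum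
  have ha := hlc (lb ∘ Q.proj) (lab Q lb).2
  refine ⟨lb ∘ Q.proj, (lab Q lb).2, ?_⟩
  obtain ⟨n, rfl⟩ := Nat.exists_eq_succ_of_ne_zero hn.ne'
  have e : ∀ U : Set X, ((S.p U * x * S.p U) ^ (n + 1)) S.ξ =
      S.p U ((x * S.p U * (S.p U * x * S.p U) ^ n) S.ξ) := fun U => by
    rw [pow_succ', mul_assoc (S.p U), mul_assoc (S.p U)]
    rfl
  rw [S.EP_pow ha x hn, sum_apply]
  simp only [Nat.succ_eq_add_one, e] at hlb ⊢
  rw [S.norm_sum_p_sq ha]
  refine hlb.trans ?_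
  have h1 : (r : ℝ) * (γ / (r + 1)) ≤ γ := by
    rw [← mul_div_assoc, div_le_iff₀ (by positivity)]
    nlinarith
  rw [mul_add, mul_assoc (r : ℝ)]
  linarith

end Std

end

end Crest.Agent.R109
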