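import Crest.Agent.R109.Normal
import Crest.Agent.R109.Fock

/-!
# Row 109: paving in the presence of a central separating vector, II
-/

open Filter Topology
open scoped InnerProductSpace BigOperators ComplexOrder

set_option linter.unusedSectionVars false

namespace Crest.Agent.R109

noncomputable section

open Classical

variable {H : Type*} [NormedAddCommGroup H] [InnerProductSpace ℂ H] [CompleteSpace H]
  {X : Type*} [TopologicalSpace X] [CompactSpace X] [T2Space X] [ExtremallyDisconnected X]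

open MeasureTheory

namespace Std
variable (S : Std H X)

theorem Normal2_sa_EP {ι : Type*} [Fintype ι] (a : X → ι) {y : H →L[ℂ] H} (hy : IsSelfAdjoint y) :
    IsSelfAdjoint (S.EP a y) := by
  rw [IsSelfAdjoint, ← S.EP_star, hy.star_eq]

theorem Normal2_sa_E {y : H →L[ℂ] H} (hM : y ∈ S.M) (hy : IsSelfAdjoint y) :
    IsSelfAdjoint (S.ρ (S.E y)) := by
  rw [IsSelfAdjoint, ← map_star, ← S.E_star hM, hy.star_eq]

/-- a selfadjoint element with a small moment is close to an element of small norm -/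
theorem Normal2_cut {z : H →L[ℂ] H} (hz : z ∈ S.M) (hsa : IsSelfAdjoint z) {t ε s q C : ℝ}
    (ht : 0 < t) (hε : 0 < ε) {n : ℕ} (hs0 : 0 ≤ s) (hs : s ≤ q * t) (hC : 0 ≤ C)
    (hq : C * q ^ (2 * n) ≤ ε ^ 2 / 2)
    (h : ‖(z ^ n) S.ξ‖ ^ 2 ≤ C * s ^ (2 * n) + ε ^ 2 / 2 * t ^ (2 * n)) :
    ∃ w ∈ S.M, ‖w‖ ≤ t ∧ ‖(z - w) S.ξ‖ ≤ ‖z‖ * ε := by
  obtain ⟨r, -, hr1, -, hr2, hr3⟩ := exists_cut_sa hsa ht
  have hrM : r ∈ S.M := vn_mem_of_commute fun s hs => hr1 s (vn_commute hz hs)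
  refine ⟨z * (1 - r), mul_mem hz (sub_mem (one_mem _) hrM), hr2, ?_⟩
  have h1 : C * s ^ (2 * n) ≤ ε ^ 2 / 2 * t ^ (2 * n) := by
    calc C * s ^ (2 * n) ≤ C * (q * t) ^ (2 * n) :=
          mul_le_mul_of_nonneg_left (pow_le_pow_left₀ hs0 hs _) hC
      _ = C * q ^ (2 * n) * t ^ (2 * n) := by rw [mul_pow, mul_assoc]
      _ ≤ _ := mul_le_mul_of_nonneg_right hq (by positivity)
  have h2 : ‖(z ^ n) S.ξ‖ ≤ t ^ n * ε := by
    refine le_of_sq_le_sq (h.trans ?_) (by positivity)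
    rw [mul_pow, ← pow_mul, mul_comm n 2]
    linarith
  have h3 : ‖r S.ξ‖ ≤ ε := le_of_mul_le_mul_left ((hr3 n S.ξ).trans h2) (by positivity)
  rw [mul_sub, mul_one, sub_sub_cancel, mul_apply_eq_comp]
  exact (z.le_opNorm _).trans (mul_le_mul_of_nonneg_left h3 (norm_nonneg _))

theorem Normal2_eventually {q : ℝ} (hq0 : 0 ≤ q) (hq : q < 1) (C : ℝ) {ε : ℝ} (hε : 0 < ε) :
    ∀ᶠ n : ℕ in atTop, C * q ^ n ≤ ε := by
  have h := (tendsto_pow_atTop_nhds_zero_of_lt_one hq0 hq).const_mul C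
  rw [mul_zero] at h
  exact h.eventually (eventually_le_nhds hε)

/-- Recipe: `x = n + x°` (`exists_split`), `y ∈ N0` selfadjoint with `‖y‖ ≤ 1.01`, `(y - n) ξ` small
(`Nn.exists_bounded_sa`), `y₁ = y - ρ (E y)`, `‖y₁‖ ≤ 2.02`.  With `ρ = √(2L)`, choose `n` such that
`(14140.5/14141)^n` and `√(2L) (5.66/6)^n` are small; `nrm_paving` for `y₁ / 2.02` with
`t = 7000.2/ρ`, `free_paving` for `x°` (`‖x°‖ ≤ 2`, `2 √(1/L) 2 ≤ 5.66/ρ`).  `exists_cut_sa` at the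
levels `14141/ρ` and `6/ρ` gives `w = z₁ (1 - r₁) + z₂ (1 - r₂)`.  The remaining term
`EP (n - y) - ρ (E (n - y))` is small on `ξ` (`norm_EP_ξ_le`, `norm_E_ξ_le`), and `E x° = 0`. -/
theorem exists_paving_close {x : H →L[ℂ] H} (hx : x ∈ S.M) (hsa : IsSelfAdjoint x) (hn : ‖x‖ ≤ 1)
    {L : ℕ} (hL : 0 < L) {γ : ℝ} (hγ : 0 < γ) :
    ∃ a : X → Fin (2 * L), IsLocallyConstant a ∧ ∃ w ∈ S.M, ‖w‖ ≤ 15000 / √(2 * L) ∧
      ‖(S.EP a x - S.ρ (S.E x) - w) S.ξ‖ ≤ γ := by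
  obtain ⟨m, hm, hx0, hm1, hmsa⟩ := S.exists_split hx
  replace hmsa := hmsa hsa
  have hγ' : 0 < min (1 / 100 : ℝ) (γ / 8) := lt_min (by norm_num) (by positivity)
  obtain ⟨y, hy, hysa, hy1, hym⟩ := hm.exists_bounded_sa hmsa hγ'
  have hyM := S.N0_mem_M hy
  have hy2 : ‖y‖ ≤ 101 / 100 := by linarith [min_le_left (1 / 100 : ℝ) (γ / 8)]
  set y₂ : H →L[ℂ] H := ((100 / 202 : ℝ) : ℂ) • (y - S.ρ (S.E y)) with hy₂
  have hy₂N : y₂ ∈ S.N0 := Submodule.smul_mem _ _ (sub_mem hy (S.ρ_mem_N0 _))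
  have hy₂sa : IsSelfAdjoint y₂ := by
    rw [IsSelfAdjoint, hy₂, star_smul, (hysa.sub (S.Normal2_sa_E hyM hysa)).star_eq,
      RCLike.star_def, Complex.conj_ofReal]
  have hy₂E : S.E y₂ = 0 := by
    rw [hy₂, S.E_smul _ (sub_mem hyM (S.mem _)), S.E_sub hyM (S.mem _), S.E_ρ, sub_self, smul_zero]
  have hy₂n : ‖y₂‖ ≤ 1 := by
    have h1 := norm_sub_le y (S.ρ (S.E y))
    rw [S.norm_ρ] at h1
    have h2 := S.norm_E_le hyM
    rw [hy₂, norm_smul, Complex.norm_real, Real.norm_of_nonneg (by norm_num)]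
    linarith
  have hx0n : ‖x - m‖ ≤ 2 := by linarith [norm_sub_le x m]
  have hL' : (0 : ℝ) < L := Nat.cast_pos.2 hL
  have hρ : 0 < √(2 * (L : ℝ)) := Real.sqrt_pos.2 (by positivity)
  have hε : 0 < γ / 8 := by positivity
  have hε2 : 0 < (γ / 8) ^ 2 / 2 := by positivity
  obtain ⟨n, ⟨hn1, hn2⟩, hn0⟩ :=
    (((Normal2_eventually (q := (7001 / 7002) ^ 2) (by positivity) (by norm_num) (‖S.ξ‖ ^ 2)
      hε2).and (Normal2_eventually (q := (1 / 2) ^ 2) (by positivity) (by norm_num)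
      (((2 * L : ℕ) : ℝ) * ‖S.ξ‖ ^ 2) hε2)).and (eventually_gt_atTop 0)).exists
  rw [← pow_mul] at hn1 hn2
  obtain ⟨ι, _, w, Φ, hΦ, hinj, hnrm⟩ := S.nrm_paving hy₂N hy₂sa hy₂E hy₂n hL
    (t := 7001 / √(2 * L)) (δ := (γ / 8) ^ 2 / 2 * (7002 / √(2 * L)) ^ (2 * n))
    (div_lt_div_of_pos_right (by norm_num) hρ) (by positivity) n
  obtain ⟨lam, hlam, hfree⟩ := S.free_paving hL hx0 w Φ hΦ hinj hn0
    (γ := (γ / 8) ^ 2 / 2 * (12 / √(2 * L)) ^ (2 * n)) (by positivity)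
  have ha := (S.isRF_colour w Φ hΦ ⟨0, by omega⟩).1 lam hlam
  set a : X → Fin (2 * L) := fun t : X => Φ t fun i => lam (w i • t) with ha_def
  obtain ⟨w₁, hw₁M, hw₁, hw₁'⟩ := S.Normal2_cut (S.EP_mem a (S.N0_mem_M hy₂N))
    (S.Normal2_sa_EP a hy₂sa) (t := 7002 / √(2 * L)) (s := 7001 / √(2 * L)) (by positivity) hε
    (by positivity) (le_of_eq (by ring)) (sq_nonneg _) hn1
    ((hnrm lam hlam).trans (le_of_eq (by ring)))
  have hs : 2 * √(1 / (L : ℝ)) * ‖x - m‖ ≤ 1 / 2 * (12 / √(2 * L)) := by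
    have h1 : √(1 / (L : ℝ)) * √(2 * L) ≤ 3 / 2 := by
      rw [← Real.sqrt_mul (by positivity)]
      refine Real.sqrt_le_iff.2 ⟨by norm_num, ?_⟩
      rw [show 1 / (L : ℝ) * (2 * L) = 2 by field_simp]
      norm_num
    rw [← mul_div_assoc, le_div_iff₀ hρ]
    have h2 := mul_le_mul h1 hx0n (norm_nonneg _) (by norm_num)
    linarith
  obtain ⟨w₂, hw₂M, hw₂, hw₂'⟩ := S.Normal2_cut (S.EP_mem a hx0.1)
    (S.Normal2_sa_EP a (hsa.sub hmsa)) (t := 12 / √(2 * L)) (by positivity) hε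
    (by positivity) hs (by positivity) hn2 (hfree.trans (le_of_eq (by ring)))
  refine ⟨a, ha, ((202 / 100 : ℝ) : ℂ) • w₁ + w₂, add_mem (vn_smul_mem _ hw₁M) hw₂M, ?_, ?_⟩
  · refine (norm_add_le _ _).trans ?_
    rw [norm_smul, Complex.norm_real, Real.norm_of_nonneg (by norm_num)]
    rw [le_div_iff₀ hρ] at hw₁ hw₂ ⊢
    linarith
  · have hmy : m - y ∈ S.M := sub_mem hm.1 hyM
    have e1 : S.E x = S.E (m - y) + S.E y := by
      rw [← S.E_add hmy hyM, sub_add_cancel, ← zero_add (S.E m), ← hx0.E_eq_zero,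
        ← S.E_add hx0.1 hm.1, sub_add_cancel]
    have e2 : ((202 / 100 : ℝ) : ℂ) • S.EP a y₂ = S.EP a y - S.ρ (S.E y) := by
      rw [hy₂, S.EP_smul, smul_smul, ← Complex.ofReal_mul, S.EP_sub, S.EP_ρ ha]
      norm_num
    have e3 : S.EP a x - S.ρ (S.E x) - (((202 / 100 : ℝ) : ℂ) • w₁ + w₂) =
        (S.EP a (m - y) - S.ρ (S.E (m - y))) + ((202 / 100 : ℝ) : ℂ) • (S.EP a y₂ - w₁) +
          (S.EP a (x - m) - w₂) := by
      rw [smul_sub, e2, e1, map_add, S.EP_sub, S.EP_sub]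
      abel
    have h1 : ‖(m - y) S.ξ‖ ≤ γ / 8 := by
      rw [← neg_sub, neg_apply, norm_neg]
      exact hym.trans (min_le_right _ _)
    have h2 := S.norm_EP_ξ_le ha hmy
    have h3 := S.norm_E_ξ_le hmy
    have h4 := norm_sub_le (S.EP a (m - y) S.ξ) (S.ρ (S.E (m - y)) S.ξ)
    have h5 := mul_le_mul_of_nonneg_right ((S.norm_EP_le ha y₂).trans hy₂n) hε.le
    have h6 := mul_le_mul_of_nonneg_right ((S.norm_EP_le ha (x - m)).trans hx0n) hε.le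
    rw [e3, add_apply, add_apply]
    refine (norm_add_le _ _).trans ((add_le_add_left (norm_add_le _ _) _).trans ?_)
    rw [smul_apply, norm_smul, Complex.norm_real,
      Real.norm_of_nonneg (by norm_num), sub_apply (S.EP a (m - y))]
    linarith

/-- **Normal case.**  Recipe: `t = 15000/√(2L) < t' = 16000/√(2L)`.  `UAC.finite` for `F` reduces to
`‖r ξ‖` small; fix `n` with `(t/t')^n` small, then the constants `K_k` of `UAC.pow` (`k < n`), then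
`γ` in `exists_paving_close`.  With `z = w + d`: `‖z^(k+1) ξ‖ ≤ t ‖z^k ξ‖ + ‖d z^k ξ‖`.
`exists_cut_sa`. -/
theorem paving {x : H →L[ℂ] H} (hx : x ∈ S.M) (hsa : IsSelfAdjoint x) (hn : ‖x‖ ≤ 1)
    {L : ℕ} (hL : 0 < L) {F : Set H} (hF : F.Finite) {δ : ℝ} (hδ : 0 < δ) :
    ∃ a : X → Fin (2 * L), IsLocallyConstant a ∧ ∃ r ∈ S.M, IsStarProjection r ∧
      (∀ i, S.p (a ⁻¹' {i}) * r = r * S.p (a ⁻¹' {i})) ∧
      (S.EP a x - S.ρ (S.E x)) * r = r * (S.EP a x - S.ρ (S.E x)) ∧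
      (∀ η ∈ F, ‖r η‖ < δ) ∧ ‖(S.EP a x - S.ρ (S.E x)) * (1 - r)‖ ≤ 16000 / √(2 * L) := by
  have hL' : (0 : ℝ) < L := Nat.cast_pos.2 hL
  have hρ : 0 < √(2 * (L : ℝ)) := Real.sqrt_pos.2 (by positivity)
  set t' : ℝ := 16000 / √(2 * L) with ht'
  have ht'0 : 0 < t' := by positivity
  set t : ℝ := 15000 / √(2 * L) with ht
  have ht0 : 0 < t := by positivity
  have htt : t = 15 / 16 * t' := by rw [ht, ht']; ring
  obtain ⟨K₀, hK₀, hF'⟩ := UAC.finite (S := S) hF (δ ^ 2 / 4) (by positivity)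
  set ε : ℝ := δ / (2 * (K₀ + 1)) with hεdef
  have hε : 0 < ε := by positivity
  obtain ⟨n, hn1⟩ := (Normal2_eventually (q := 15 / 16) (by norm_num) (by norm_num) ‖S.ξ‖
    (half_pos hε)).exists
  set β : ℝ := ε / 2 * t' ^ n / (1 + t) ^ n with hβdef
  have hβ : 0 < β := by positivity
  choose K hK0 hK using fun k => UAC.pow (S := S) hx (S.E x) k (β ^ 2 / 2 / (2 + t) ^ 2)
    (by positivity)
  set K' : ℝ := ∑ k ∈ Finset.range n, K k with hK'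
  have hK'0 : 0 ≤ K' := Finset.sum_nonneg fun k _ => hK0 k
  obtain ⟨a, ha, w, hwM, hw, hwξ⟩ := S.exists_paving_close hx hsa hn hL
    (γ := β / (2 * (K' + 1))) (by positivity)
  set z := S.EP a x - S.ρ (S.E x) with hz
  have hzM : z ∈ S.M := sub_mem (S.EP_mem a hx) (S.mem _)
  have hzsa : IsSelfAdjoint z := (S.Normal2_sa_EP a hsa).sub (S.Normal2_sa_E hx hsa)
  have hd : ‖z - w‖ ≤ 2 + t := by
    have h1 := norm_sub_le z w
    have h2 := norm_sub_le (S.EP a x) (S.ρ (S.E x))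
    rw [S.norm_ρ] at h2
    linarith [S.norm_EP_le ha x, S.norm_E_le hx]
  have hstep : ∀ k < n, ‖(z - w) ((z ^ k) S.ξ)‖ ≤ β := fun k hk => by
    have h1 := hK k _ ⟨_, a, ha, rfl⟩ (z - w) (sub_mem hzM hwM)
    have h2 : β ^ 2 / 2 / (2 + t) ^ 2 * ‖z - w‖ ^ 2 ≤ β ^ 2 / 2 := by
      rw [div_mul_eq_mul_div, div_le_iff₀ (by positivity)]
      exact mul_le_mul_of_nonneg_left (pow_le_pow_left₀ (norm_nonneg _) hd 2) (by positivity)
    have h3 : K k ≤ K' + 1 :=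
      (Finset.single_le_sum (fun k _ => hK0 k) (Finset.mem_range.2 hk)).trans (by linarith)
    have h4 : K k * ‖(z - w) S.ξ‖ ^ 2 ≤ β ^ 2 / 2 := by
      refine (mul_le_mul h3 (pow_le_pow_left₀ (norm_nonneg _) hwξ 2) (by positivity)
        (by positivity)).trans ?_
      rw [show (K' + 1) * (β / (2 * (K' + 1))) ^ 2 = β ^ 2 / (4 * (K' + 1)) by field_simp; ring]
      exact div_le_div_of_nonneg_left (by positivity) two_pos (by linarith)
    exact (pow_le_pow_iff_left₀ (norm_nonneg _) hβ.le two_ne_zero).1 (by linarith)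
  have hpow : ∀ k ≤ n, ‖(z ^ k) S.ξ‖ ≤ t ^ k * ‖S.ξ‖ + β * (1 + t) ^ k := by
    intro k hk
    induction k with
    | zero => simpa using hβ.le
    | succ k ih =>
      have h1 := ih (by omega)
      have h2 : (z ^ (k + 1)) S.ξ = w ((z ^ k) S.ξ) + (z - w) ((z ^ k) S.ξ) := by
        rw [pow_succ', mul_apply_eq_comp, sub_apply z w, add_sub_cancel]
      have h3 := (w.le_opNorm ((z ^ k) S.ξ)).trans (mul_le_mul hw h1 (norm_nonneg _) ht0.le)
      have h4 := hstep k (by omega)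
      have h5 := mul_le_mul_of_nonneg_left (one_le_pow₀ (a := 1 + t) (n := k) (by linarith)) hβ.le
      rw [h2]
      refine (norm_add_le _ _).trans ?_
      rw [pow_succ', pow_succ' (1 + t)]
      linarith
  obtain ⟨r, hr, hr1, -, hr2, hr3⟩ := exists_cut_sa hzsa ht'0
  have hrM : r ∈ S.M := vn_mem_of_commute fun s hs => hr1 s (vn_commute hzM hs)
  have hrξ : ‖r S.ξ‖ ≤ ε := by
    refine le_of_mul_le_mul_left ((hr3 n S.ξ).trans ((hpow n le_rfl).trans ?_)) (pow_pos ht'0 n)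
    have h1 : β * (1 + t) ^ n = ε / 2 * t' ^ n := div_mul_cancel₀ _ (by positivity)
    have h2 := mul_le_mul_of_nonneg_right hn1 (pow_pos ht'0 n).le
    rw [h1, htt, mul_pow]
    linarith
  refine ⟨a, ha, r, hrM, hr, fun i => hr1 _ ?_, hr1 _ rfl, fun η hη => ?_, hr2⟩
  · rw [hz, mul_sub, sub_mul, S.p_mul_EP ha, Setup.p, S.ρ_comm]
  · have h1 := hF' η hη r hrM
    have h2 : δ ^ 2 / 4 * ‖r‖ ^ 2 ≤ δ ^ 2 / 4 :=
      mul_le_of_le_one_right (by positivity) (pow_le_one₀ (norm_nonneg _) hr.norm_le)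
    have h3 : K₀ * ‖r S.ξ‖ ^ 2 ≤ δ ^ 2 / 4 := by
      refine (mul_le_mul (le_add_of_nonneg_right zero_le_one)
        (pow_le_pow_left₀ (norm_nonneg _) hrξ 2) (by positivity) (by positivity)).trans ?_
      rw [show (K₀ + 1) * ε ^ 2 = δ ^ 2 / (4 * (K₀ + 1)) by rw [hεdef]; field_simp; ring]
      exact div_le_div_of_nonneg_left (by positivity) four_pos (by linarith)
    refine (pow_lt_pow_iff_left₀ (norm_nonneg _) hδ.le two_ne_zero).1 ?_
    have h4 : 0 < δ ^ 2 := by positivity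
    linarith

end Std

universe u

/-- a partition of the projection `e` inside `A` -/
structure IsPart {K : Type*} [NormedAddCommGroup K] [InnerProductSpace ℂ K] [CompleteSpace K]
    (A : Set (K →L[ℂ] K)) (e : K →L[ℂ] K) {ι : Type*} [Fintype ι] (p : ι → K →L[ℂ] K) : Prop where
  mem : ∀ i, p i ∈ A
  proj : ∀ i, IsStarProjection (p i)
  orth : ∀ i j, i ≠ j → p i * p j = 0
  sum : ∑ i, p i = e

/-- the normal case for an abstract maximal abelian subalgebra (`exists_setup`, `Std.paving`) -/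
theorem normal_paving {K : Type u} [NormedAddCommGroup K] [InnerProductSpace ℂ K] [CompleteSpace K]
    (M : VonNeumannAlgebra K) (A : StarSubalgebra ℂ (K →L[ℂ] K)) (hAM : A ≤ M.toStarSubalgebra)
    (hA : ∀ a ∈ A, ∀ b ∈ A, a * b = b * a) (hAmax : ∀ y ∈ M, (∀ a ∈ A, a * y = y * a) → y ∈ A)
    (ξ : K) (hsep : Dense {η | ∃ s ∈ M.commutant, s ξ = η})
    (hc : ∀ a ∈ A, ∀ y ∈ M, ⟪ξ, (a * y) ξ⟫_ℂ = ⟪ξ, (y * a) ξ⟫_ℂ)
    {x : K →L[ℂ] K} (hx : x ∈ M) (hsa : IsSelfAdjoint x) (hn : ‖x‖ ≤ 1)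
    {L : ℕ} (hL : 0 < L) {F : Set K} (hF : F.Finite) {δ : ℝ} (hδ : 0 < δ) :
    ∃ p : Fin (2 * L) → K →L[ℂ] K, IsPart (A : Set (K →L[ℂ] K)) 1 p ∧
      ∃ a ∈ A, IsSelfAdjoint a ∧ ‖a‖ ≤ 1 ∧ ∃ r ∈ M, IsStarProjection r ∧ (∀ i, p i * r = r * p i) ∧
        (∑ i, p i * x * p i - a) * r = r * (∑ i, p i * x * p i - a) ∧ (∀ η ∈ F, ‖r η‖ < δ) ∧
        ‖(∑ i, p i * x * p i - a) * (1 - r)‖ ≤ 16000 / √(2 * L) := by
  obtain ⟨X, _, _, _, _, S₀, rfl, hS⟩ := exists_setup M A hAM hA hAmax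
  let S : Std K X := { S₀ with
    ξ := ξ, sep := hsep, central := fun f y hy => hc _ ((hS _).2 ⟨f, rfl⟩) y hy }
  obtain ⟨a, ha, r, hrM, hr, h1, h2, h3, h4⟩ := S.paving hx hsa hn hL hF hδ
  refine ⟨fun i => S.p (a ⁻¹' {i}), ⟨fun i => (hS _).2 ⟨_, rfl⟩, fun i => S.isStarProjection_p _,
    fun i j hij => ?_, S.sum_p ha⟩, S.ρ (S.E x), (hS _).2 ⟨_, rfl⟩, S.Normal2_sa_E hx hsa, ?_,
    r, hrM, hr, h1, h2, h3, h4⟩
  · rw [S.p_mul_p_fiber ha, if_neg hij]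
  · rw [S.norm_ρ]
    exact (S.norm_E_le hx).trans hn

end

end Crest.Agent.R109
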