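import Crest.Agent.R109.Gns
import Crest.Agent.R109.Normal2

/-!
# Row 109: reduction of the normal part to a central separating vector
-/

open Filter Topology
open scoped InnerProductSpace BigOperators ComplexOrder

set_option linter.unusedSectionVars false

namespace Crest.Agent.R109

noncomputable section

open Classical

variable {H : Type*} [NormedAddCommGroup H] [InnerProductSpace ℂ H] [CompleteSpace H]
  {X : Type*} [TopologicalSpace X] [CompactSpace X] [T2Space X] [ExtremallyDisconnected X]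

section Aux

variable {G K : Type*} [NormedAddCommGroup G] [InnerProductSpace ℂ G] [CompleteSpace G]
  [NormedAddCommGroup K] [InnerProductSpace ℂ K] [CompleteSpace K]

/-- data identifying `K` with the range of the projection `q` -/
structure CornerD (q : G →L[ℂ] G) (s : K →L[ℂ] G) (t : G →L[ℂ] K) : Prop where
  ts : ∀ x, t (s x) = x
  st : ∀ x, s (t x) = q x
  adj : ∀ x y, ⟪s x, y⟫_ℂ = ⟪x, t y⟫_ℂ

/-- compression to the corner -/
def Corner_cmp (s : K →L[ℂ] G) (t : G →L[ℂ] K) : (G →L[ℂ] G) →ₗ[ℂ] (K →L[ℂ] K) where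
  toFun a := t ∘L a ∘L s
  map_add' a b := by ext x; simp
  map_smul' c a := by ext x; simp

theorem Corner_cmp_apply (s : K →L[ℂ] G) (t : G →L[ℂ] K) (a : G →L[ℂ] G) (x : K) :
    Corner_cmp s t a x = t (a (s x)) := rfl

/-- extension by zero from the corner -/
def Corner_xpd (s : K →L[ℂ] G) (t : G →L[ℂ] K) (T : K →L[ℂ] K) : G →L[ℂ] G := s ∘L T ∘L t

theorem Corner_xpd_apply (s : K →L[ℂ] G) (t : G →L[ℂ] K) (T : K →L[ℂ] K) (x : G) :
    Corner_xpd s t T x = s (T (t x)) := rfl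

variable {q : G →L[ℂ] G} {s : K →L[ℂ] G} {t : G →L[ℂ] K}

theorem CornerD.adj' (C : CornerD q s t) (x : G) (y : K) : ⟪t x, y⟫_ℂ = ⟪x, s y⟫_ℂ := by
  rw [← inner_conj_symm, ← C.adj, inner_conj_symm]

theorem CornerD.norm_s (C : CornerD q s t) (x : K) : ‖s x‖ = ‖x‖ := by
  have h : ⟪s x, s x⟫_ℂ = ⟪x, x⟫_ℂ := by rw [C.adj, C.ts]
  rw [inner_self_eq_norm_sq_to_K, inner_self_eq_norm_sq_to_K] at h
  have h2 : ‖s x‖ ^ 2 = ‖x‖ ^ 2 := by exact_mod_cast h
  exact (pow_left_inj₀ (norm_nonneg _) (norm_nonneg _) two_ne_zero).1 h2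

theorem CornerD.norm_t (C : CornerD q s t) (x : G) : ‖t x‖ ≤ ‖x‖ := by
  have h : ⟪t x, t x⟫_ℂ = ⟪x, s (t x)⟫_ℂ := C.adj' _ _
  have h1 : ‖t x‖ ^ 2 ≤ ‖x‖ * ‖t x‖ := by
    have h2 := norm_inner_le_norm (𝕜 := ℂ) x (s (t x))
    rw [← h, C.norm_s, inner_self_eq_norm_sq_to_K] at h2
    simpa using h2
  rcases (norm_nonneg (t x)).eq_or_lt with h0 | h0
  · rw [← h0]; exact norm_nonneg _
  · nlinarith

theorem CornerD.qs (C : CornerD q s t) (x : K) : q (s x) = s x := by rw [← C.st, C.ts]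

theorem CornerD.tq (C : CornerD q s t) (x : G) : t (q x) = t x := by rw [← C.st, C.ts]

theorem CornerD.norm_cmp (C : CornerD q s t) (a : G →L[ℂ] G) : ‖Corner_cmp s t a‖ ≤ ‖a‖ := by
  refine ContinuousLinearMap.opNorm_le_bound _ (norm_nonneg _) fun x => ?_
  rw [Corner_cmp_apply]
  refine (C.norm_t _).trans ?_
  simpa [C.norm_s] using a.le_opNorm (s x)

theorem CornerD.norm_xpd (C : CornerD q s t) (T : K →L[ℂ] K) : ‖Corner_xpd s t T‖ ≤ ‖T‖ := by
  refine ContinuousLinearMap.opNorm_le_bound _ (norm_nonneg _) fun x => ?_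
  rw [Corner_xpd_apply, C.norm_s]
  exact (T.le_opNorm _).trans (mul_le_mul_of_nonneg_left (C.norm_t x) (norm_nonneg _))

theorem CornerD.cmp_star (C : CornerD q s t) (a : G →L[ℂ] G) :
    Corner_cmp s t (star a) = star (Corner_cmp s t a) := by
  rw [ContinuousLinearMap.star_eq_adjoint (Corner_cmp s t a), ContinuousLinearMap.eq_adjoint_iff]
  intro x y
  rw [Corner_cmp_apply, Corner_cmp_apply, C.adj', ← C.adj, ContinuousLinearMap.star_eq_adjoint,
    ContinuousLinearMap.adjoint_inner_left]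

theorem CornerD.cmp_mul_left (C : CornerD q s t) {a : G →L[ℂ] G} (ha : a * q = q * a)
    (b : G →L[ℂ] G) : Corner_cmp s t a * Corner_cmp s t b = Corner_cmp s t (a * b) := by
  ext1 x
  have h : a (q (b (s x))) = q (a (b (s x))) := congrArg (fun T : G →L[ℂ] G => T (b (s x))) ha
  simp only [mul_apply_eq_comp, Corner_cmp_apply, C.st, h, C.tq]

theorem CornerD.cmp_mul_right (C : CornerD q s t) (a : G →L[ℂ] G) {b : G →L[ℂ] G}
    (hb : b * q = q * b) : Corner_cmp s t a * Corner_cmp s t b = Corner_cmp s t (a * b) := by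
  ext1 x
  have h : b (q (s x)) = q (b (s x)) := congrArg (fun T : G →L[ℂ] G => T (s x)) hb
  simp only [mul_apply_eq_comp, Corner_cmp_apply, C.st, ← h, C.qs]

theorem CornerD.cmp_q_mul (C : CornerD q s t) (a : G →L[ℂ] G) :
    Corner_cmp s t (q * a) = Corner_cmp s t a := by
  ext1 x
  simp [Corner_cmp_apply, C.tq]

theorem CornerD.cmp_one (C : CornerD q s t) : Corner_cmp s t 1 = 1 := by
  ext1 x
  simp [Corner_cmp_apply, C.ts]

theorem CornerD.cmp_mul_q (C : CornerD q s t) (a : G →L[ℂ] G) :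
    Corner_cmp s t (a * q) = Corner_cmp s t a := by
  ext1 x
  simp [Corner_cmp_apply, C.qs]

theorem CornerD.cmp_q (C : CornerD q s t) : Corner_cmp s t q = 1 := by
  rw [← C.cmp_one, ← C.cmp_mul_q 1, one_mul]

theorem CornerD.xpd_cmp (C : CornerD q s t) (a : G →L[ℂ] G) :
    Corner_xpd s t (Corner_cmp s t a) = q * a * q := by
  ext1 x
  simp [Corner_cmp_apply, Corner_xpd_apply, C.st]

theorem CornerD.cmp_xpd (C : CornerD q s t) (T : K →L[ℂ] K) :
    Corner_cmp s t (Corner_xpd s t T) = T := by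
  ext1 x
  simp [Corner_cmp_apply, Corner_xpd_apply, C.ts]

theorem CornerD.xpd_mul_q (C : CornerD q s t) (T : K →L[ℂ] K) :
    Corner_xpd s t T * q = Corner_xpd s t T := by
  ext1 x
  simp [Corner_xpd_apply, C.tq]

theorem CornerD.xpd_comm (C : CornerD q s t) {a : G →L[ℂ] G} (ha : a * q = q * a) {T : K →L[ℂ] K}
    (h : Corner_cmp s t a * T = T * Corner_cmp s t a) :
    a * Corner_xpd s t T = Corner_xpd s t T * a := by
  ext1 x
  have h1 : ∀ v, a (q v) = q (a v) := fun v => congrArg (fun T : G →L[ℂ] G => T v) ha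
  have h2 : t (a (s (T (t x)))) = T (t (a (s (t x)))) :=
    congrArg (fun T : K →L[ℂ] K => T (t x)) h
  change a (s (T (t x))) = s (T (t (a x)))
  rw [← C.qs, h1, ← C.st, h2, C.st, h1, C.tq]

theorem Corner_exists {q : G →L[ℂ] G} (hq : IsStarProjection q) :
    ∃ (V : Submodule ℂ G) (_ : CompleteSpace V) (t : G →L[ℂ] V), CornerD q V.subtypeL t := by
  let V : Submodule ℂ G := LinearMap.ker ((1 - q : G →L[ℂ] G) : G →ₗ[ℂ] G)
  have hV : ∀ x, x ∈ V ↔ q x = x := by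
    intro x
    simp only [V, LinearMap.mem_ker, ContinuousLinearMap.coe_coe, sub_apply, one_apply_eq_self,
      sub_eq_zero]
    exact eq_comm
  have hVc : IsClosed (V : Set G) := ContinuousLinearMap.isClosed_ker (1 - q)
  have hqq : ∀ x, q (q x) = q x := fun x =>
    congrArg (fun T : G →L[ℂ] G => T x) hq.isIdempotentElem.eq
  refine ⟨V, hVc.completeSpace_coe, q.codRestrict V fun x => (hV _).2 (hqq x),
    fun x => Subtype.ext ((hV _).1 x.2), fun x => rfl, fun x y => ?_⟩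
  change ⟪(x : G), y⟫_ℂ = ⟪(x : G), q y⟫_ℂ
  have h1 : ContinuousLinearMap.adjoint q = q := hq.isSelfAdjoint
  conv_rhs => rw [← h1]
  rw [ContinuousLinearMap.adjoint_inner_right, (hV _).1 x.2]

/-- the image of a star subalgebra under a linear map that is a homomorphism on it -/
def Corner_img (c : (H →L[ℂ] H) →ₗ[ℂ] (K →L[ℂ] K)) (P : StarSubalgebra ℂ (H →L[ℂ] H))
    (h1 : c 1 = 1) (hm : ∀ y ∈ P, ∀ z, c y * c z = c (y * z)) (hs : ∀ y, c (star y) = star (c y)) :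
    StarSubalgebra ℂ (K →L[ℂ] K) where
  carrier := {T | ∃ y ∈ P, c y = T}
  mul_mem' := by
    rintro _ _ ⟨y, hy, rfl⟩ ⟨z, hz, rfl⟩
    exact ⟨y * z, mul_mem hy hz, (hm y hy z).symm⟩
  add_mem' := by
    rintro _ _ ⟨y, hy, rfl⟩ ⟨z, hz, rfl⟩
    exact ⟨y + z, add_mem hy hz, map_add c y z⟩
  algebraMap_mem' r := ⟨algebraMap ℂ _ r, P.algebraMap_mem r, by
    rw [Algebra.algebraMap_eq_smul_one, Algebra.algebraMap_eq_smul_one, map_smul, h1]⟩
  star_mem' := by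
    rintro _ ⟨y, hy, rfl⟩
    exact ⟨star y, star_mem hy, hs y⟩

/-- the corner `e M e` -/
def Corner_eMe (M : VonNeumannAlgebra H) {e : H →L[ℂ] H} (he : IsStarProjection e) :
    NonUnitalStarSubalgebra ℂ (H →L[ℂ] H) where
  carrier := {y | y ∈ M ∧ e * y = y ∧ y * e = y}
  add_mem' := fun {y z} hy hz => ⟨add_mem hy.1 hz.1, by rw [mul_add, hy.2.1, hz.2.1],
    by rw [add_mul, hy.2.2, hz.2.2]⟩
  zero_mem' := ⟨zero_mem _, mul_zero _, zero_mul _⟩
  mul_mem' := fun {y z} hy hz => ⟨mul_mem hy.1 hz.1, by rw [← mul_assoc, hy.2.1],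
    by rw [mul_assoc, hz.2.2]⟩
  smul_mem' := fun r {y} hy => ⟨vn_smul_mem r hy.1, by rw [mul_smul_comm, hy.2.1],
    by rw [smul_mul_assoc, hy.2.2]⟩
  star_mem' := fun {y} hy => ⟨star_mem hy.1,
    by rw [← he.isSelfAdjoint.star_eq, ← star_mul, hy.2.2],
    by rw [← he.isSelfAdjoint.star_eq, ← star_mul, hy.2.1]⟩

/-- the elements of `M` commuting with `e` -/
def Corner_com (M : VonNeumannAlgebra H) {e : H →L[ℂ] H} (he : IsStarProjection e) :
    StarSubalgebra ℂ (H →L[ℂ] H) where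
  carrier := {y | y ∈ M ∧ e * y = y * e}
  mul_mem' := fun {y z} hy hz => ⟨mul_mem hy.1 hz.1, by
    rw [← mul_assoc, hy.2, mul_assoc, hz.2, mul_assoc]⟩
  add_mem' := fun {y z} hy hz => ⟨add_mem hy.1 hz.1, by rw [mul_add, add_mul, hy.2, hz.2]⟩
  algebraMap_mem' r := ⟨M.toStarSubalgebra.algebraMap_mem r, (Algebra.commutes r e).symm⟩
  star_mem' := fun {y} hy => ⟨star_mem hy.1, by
    have h := congrArg star hy.2
    rw [star_mul, star_mul, he.isSelfAdjoint.star_eq] at h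
    exact h.symm⟩

/-- pulling back a paving along a homomorphism that is isometric on the corner -/
theorem Corner_pull (S : Setup H X) (U : Set X) (c : (H →L[ℂ] H) →ₗ[ℂ] (K →L[ℂ] K))
    (h1 : c 1 = 1) (hm : ∀ y ∈ S.M, S.p U * y = y * S.p U → ∀ z, c y * c z = c (y * z))
    (hm' : ∀ z ∈ S.M, S.p U * z = z * S.p U → ∀ y, c y * c z = c (y * z))
    (hs : ∀ y, c (star y) = star (c y)) (he : c (S.p U) = 1)
    (hiso : ∀ y ∈ S.M, S.p U * y = y → y * S.p U = y → ‖y‖ ≤ ‖c y‖)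
    {ι κ : Type*} [Fintype κ] (η : ι → H) (η' : ι → K)
    (hη : ∀ i, ∀ y ∈ S.M, S.p U * y = y → y * S.p U = y → ‖y (η i)‖ ≤ ‖c y (η' i)‖)
    {x : H →L[ℂ] H} (hx : x ∈ S.M) {δ t : ℝ} {p' : κ → K →L[ℂ] K}
    (hp' : IsPart {T | ∃ f, c (S.ρ f) = T} 1 p') (g : C(X, ℂ)) (ha : IsSelfAdjoint (c (S.ρ g)))
    (ha1 : ‖c (S.ρ g)‖ ≤ 1) {y : H →L[ℂ] H} (hy : y ∈ S.M) (hr : IsStarProjection (c y))
    (hpr : ∀ i, p' i * c y = c y * p' i)
    (hzr : (∑ i, p' i * c x * p' i - c (S.ρ g)) * c y = c y * (∑ i, p' i * c x * p' i - c (S.ρ g)))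
    (hδ : ∀ i, ‖c y (η' i)‖ < δ) (ht : ‖(∑ i, p' i * c x * p' i - c (S.ρ g)) * (1 - c y)‖ ≤ t) :
    ∃ p : κ → H →L[ℂ] H, IsPart (Set.range S.ρ) (S.p U) p ∧
      ∃ a ∈ Set.range S.ρ, IsSelfAdjoint a ∧ ‖a‖ ≤ 1 ∧ S.p U * a = a ∧
      ∃ r ∈ S.M, IsStarProjection r ∧ S.p U * r = r ∧ (∀ i, p i * r = r * p i) ∧
        (∑ i, p i * x * p i - a) * r = r * (∑ i, p i * x * p i - a) ∧ (∀ i, ‖r (η i)‖ < δ) ∧
        ‖(∑ i, p i * x * p i - a) * (1 - r)‖ ≤ t := by
  have hep := S.isStarProjection_p U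
  have hee : S.p U * S.p U = S.p U := hep.isIdempotentElem.eq
  have heM := S.p_mem U
  set B := Corner_eMe S.M hep with hB
  have hext : ∀ {y z}, y ∈ B → z ∈ B → c y = c z → y = z := by
    intro y z hy hz h
    have h2 := sub_mem hy hz
    have h3 := hiso _ h2.1 h2.2.1 h2.2.2
    rw [map_sub, h, sub_self, norm_zero] at h3
    exact sub_eq_zero.1 (norm_le_zero_iff.1 h3)
  have hmB : ∀ {y}, y ∈ B → ∀ z, c y * c z = c (y * z) := fun hy =>
    hm _ hy.1 (hy.2.1.trans hy.2.2.symm)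
  have hρB : ∀ f, S.ρ (ind U * f) ∈ B := by
    intro f
    refine ⟨S.mem _, ?_, ?_⟩
    · rw [map_mul, ← mul_assoc]
      exact congrArg (· * S.ρ f) hee
    · rw [mul_comm, map_mul, mul_assoc]
      exact congrArg (S.ρ f * ·) hee
  have hρc : ∀ f, c (S.ρ (ind U * f)) = c (S.ρ f) := by
    intro f
    rw [map_mul, ← hm _ (S.mem _) (S.ρ_comm _ _)]
    exact (congrArg (· * c (S.ρ f)) he).trans (one_mul _)
  choose f hf using hp'.mem
  set p : κ → H →L[ℂ] H := fun i => S.ρ (ind U * f i) with hp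
  have hpB : ∀ i, p i ∈ B := fun i => hρB _
  have hpc : ∀ i, c (p i) = p' i := fun i => (hρc _).trans (hf i)
  have haB := hρB g
  have hac := hρc g
  have hrB : S.p U * y * S.p U ∈ B :=
    ⟨mul_mem (mul_mem heM hy) heM, by rw [← mul_assoc, ← mul_assoc, hee], by rw [mul_assoc, hee]⟩
  have hrc : c (S.p U * y * S.p U) = c y := by
    rw [← hm' _ heM rfl, ← hm _ heM rfl, he, one_mul, mul_one]
  set r := S.p U * y * S.p U with hr'
  set a := S.ρ (ind U * g) with ha'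
  have hzB : ∑ i, p i * x * p i - a ∈ B := by
    refine sub_mem (sum_mem fun i _ => ⟨mul_mem (mul_mem (hpB i).1 hx) (hpB i).1, ?_, ?_⟩) haB
    · rw [← mul_assoc, ← mul_assoc, (hpB i).2.1]
    · rw [mul_assoc, (hpB i).2.2]
  have hzc : c (∑ i, p i * x * p i - a) = ∑ i, p' i * c x * p' i - c (S.ρ g) := by
    rw [map_sub, map_sum, hac]
    congr 1
    refine Finset.sum_congr rfl fun i _ => ?_
    rw [mul_assoc, ← hmB (hpB i), ← hm' _ (hpB i).1 ((hpB i).2.1.trans (hpB i).2.2.symm), hpc,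
      mul_assoc]
  have hproj : ∀ {w}, w ∈ B → IsStarProjection (c w) → IsStarProjection w := by
    intro w hw h
    refine ⟨hext (mul_mem hw hw) hw ?_, hext (star_mem hw) hw ?_⟩
    · rw [← hmB hw]; exact h.isIdempotentElem.eq
    · rw [hs]; exact h.isSelfAdjoint.star_eq
  refine ⟨p, ⟨fun i => ⟨_, rfl⟩, fun i => hproj (hpB i) (hpc i ▸ hp'.proj i), fun i j hij => ?_, ?_⟩,
    a, ⟨_, rfl⟩, ?_, ?_, haB.2.1, r, hrB.1, hproj hrB (hrc ▸ hr), hrB.2.1, fun i => ?_, ?_,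
    fun i => ?_, ?_⟩
  · refine hext (mul_mem (hpB i) (hpB j)) (zero_mem _) ?_
    rw [← hmB (hpB i), hpc, hpc, hp'.orth i j hij, map_zero]
  · refine hext (sum_mem fun i _ => hpB i) ⟨heM, hee, hee⟩ ?_
    rw [map_sum, he, ← hp'.sum]
    exact Finset.sum_congr rfl fun i _ => hpc i
  · refine hext (star_mem haB) haB ?_
    rw [hs, hac]
    exact ha.star_eq
  · exact (hiso _ haB.1 haB.2.1 haB.2.2).trans (hac ▸ ha1)
  · refine hext (mul_mem (hpB i) hrB) (mul_mem hrB (hpB i)) ?_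
    rw [← hmB (hpB i), ← hmB hrB, hpc, hrc, hpr]
  · refine hext (mul_mem hzB hrB) (mul_mem hrB hzB) ?_
    rw [← hmB hzB, ← hmB hrB, hzc, hrc, hzr]
  · exact (hη i r hrB.1 hrB.2.1 hrB.2.2).trans_lt (hrc ▸ hδ i)
  · have h2 : (∑ i, p i * x * p i - a) * (1 - r) ∈ B := by
      rw [mul_sub, mul_one]
      exact sub_mem hzB (mul_mem hzB hrB)
    refine (hiso _ h2.1 h2.2.1 h2.2.2).trans ?_
    rw [← hmB hzB, hzc, map_sub, h1, hrc]
    exact ht

end Aux

universe u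

/-- Abstract corner.  `σ` represents `M` on `G`, `R` is a projection commuting with `σ (M ∩ {e}')`, and the
operators `σ y R`, `y ∈ e M e`, form the bicommutant.  Recipe: `K = ↥(range R)`, `c y` = the
compression of `σ y` to `K` (cf. `CornerData`, `cmp`, `xpd` in `Crest/Agent/R124/Corner.lean`; copy what
you need).  `y ↦ c y` is a unital star homomorphism on `M`, `c e = 1`, injective and hence isometric
on `e M e` (`‖c y‖ = ‖σ y R‖`, hypothesis `hiso`).  `N = {c y | y ∈ M}` is a von Neumann algebra by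
`hbi` (extend by zero), `A' = {c (ρ f)}` is maximal abelian in it, `ξ` is separating by `hsep`
(compress the commutant), central by `hc`.  Apply `normal_paving`; pull back: `p i = e ρ f_i`,
`a = e ρ f`, `r = e y e`. -/
theorem corner_paving {H : Type u} [NormedAddCommGroup H] [InnerProductSpace ℂ H] [CompleteSpace H]
    (S : Setup H X) {G : Type u} [NormedAddCommGroup G] [InnerProductSpace ℂ G] [CompleteSpace G]
    (σ : (H →L[ℂ] H) →⋆ₐ[ℂ] (G →L[ℂ] G)) {R : G →L[ℂ] G} (hR : IsStarProjection R) {U : Set X}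
    (hU : IsClopen U) (hRσ : ∀ y ∈ S.M, S.p U * y = y * S.p U → σ y * R = R * σ y)
    (hRe : σ (S.p U) * R = R)
    (hiso : ∀ y ∈ S.M, S.p U * y * S.p U = y → ‖y‖ ≤ ‖σ y * R‖)
    (hbi : ∀ b : G →L[ℂ] G, b * R = b →
      (∀ s : G →L[ℂ] G, (∀ y ∈ S.M, s * σ y = σ y * s) → s * R = R * s → s * b = b * s) →
      ∃ y ∈ S.M, b = σ y * R)
    (ξ : G) (hξ : R ξ = ξ)
    (hsep : ∀ v : G, R v = v → v ∈ closure {w | ∃ s : G →L[ℂ] G,
      (∀ y ∈ S.M, s * σ y = σ y * s) ∧ s * R = R * s ∧ s ξ = w})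
    (hc : ∀ f, ∀ y ∈ S.M, ⟪ξ, σ (S.ρ f * y) ξ⟫_ℂ = ⟪ξ, σ (y * S.ρ f) ξ⟫_ℂ)
    {ι : Type*} [Fintype ι] (η : ι → H) (η' : ι → G) (hη' : ∀ i, R (η' i) = η' i)
    (hη : ∀ i, ∀ y ∈ S.M, y * S.p U = y → ‖y (η i)‖ ≤ ‖σ y (η' i)‖)
    {x : H →L[ℂ] H} (hx : x ∈ S.M) (hsa : IsSelfAdjoint x) (hn : ‖x‖ ≤ 1) {L : ℕ} (hL : 0 < L)
    {δ : ℝ} (hδ : 0 < δ) :
    ∃ p : Fin (2 * L) → H →L[ℂ] H, IsPart (Set.range S.ρ) (S.p U) p ∧
      ∃ a ∈ Set.range S.ρ, IsSelfAdjoint a ∧ ‖a‖ ≤ 1 ∧ S.p U * a = a ∧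
      ∃ r ∈ S.M, IsStarProjection r ∧ S.p U * r = r ∧ (∀ i, p i * r = r * p i) ∧
        (∑ i, p i * x * p i - a) * r = r * (∑ i, p i * x * p i - a) ∧ (∀ i, ‖r (η i)‖ < δ) ∧
        ‖(∑ i, p i * x * p i - a) * (1 - r)‖ ≤ 16000 / √(2 * L) := by
  obtain ⟨V, hV, t, C⟩ := Corner_exists hR
  set s : V →L[ℂ] G := V.subtypeL with hs'
  let c : (H →L[ℂ] H) →ₗ[ℂ] (V →L[ℂ] V) := Corner_cmp s t ∘ₗ σ.toAlgHom.toLinearMap
  have hcd : ∀ y, c y = Corner_cmp s t (σ y) := fun y => rfl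
  have h1 : c 1 = 1 := by rw [hcd, map_one, C.cmp_one]
  have hm : ∀ y ∈ S.M, S.p U * y = y * S.p U → ∀ z, c y * c z = c (y * z) := fun y hy h z => by
    rw [hcd, hcd, hcd, map_mul, C.cmp_mul_left (hRσ y hy h)]
  have hm' : ∀ z ∈ S.M, S.p U * z = z * S.p U → ∀ y, c y * c z = c (y * z) := fun z hz h y => by
    rw [hcd, hcd, hcd, map_mul, C.cmp_mul_right _ (hRσ z hz h)]
  have hs : ∀ y, c (star y) = star (c y) := fun y => by rw [hcd, hcd, map_star, C.cmp_star]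
  have he : c (S.p U) = 1 := by rw [hcd, ← C.cmp_mul_q, hRe, C.cmp_q]
  have hRR : R * R = R := hR.isIdempotentElem.eq
  have hxp : ∀ y ∈ S.M, S.p U * y = y * S.p U → Corner_xpd s t (c y) = σ y * R := fun y hy h => by
    rw [hcd, C.xpd_cmp, ← hRσ y hy h, mul_assoc, hRR]
  have hiso' : ∀ y ∈ S.M, S.p U * y = y → y * S.p U = y → ‖y‖ ≤ ‖c y‖ := fun y hy h2 h3 => by
    refine (hiso y hy (by rw [h2, h3])).trans ?_
    rw [← hxp y hy (h2.trans h3.symm)]
    exact C.norm_xpd _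
  have hep := S.isStarProjection_p U
  have hee : S.p U * S.p U = S.p U := hep.isIdempotentElem.eq
  have heM := S.p_mem U
  have hyc : ∀ y, c (S.p U * y * S.p U) = c y := fun y => by
    rw [← hm' _ heM rfl, ← hm _ heM rfl, he, one_mul, mul_one]
  have hye : ∀ y, S.p U * (S.p U * y * S.p U) = S.p U * y * S.p U * S.p U := fun y => by
    rw [← mul_assoc, ← mul_assoc, hee, mul_assoc _ (S.p U), hee]
  let B := Corner_img c (Corner_com S.M hep) h1 (fun y hy => hm y hy.1 hy.2) hs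
  have hB : ∀ T, T ∈ B ↔ ∃ y ∈ S.M, c y = T := by
    intro T
    constructor
    · rintro ⟨y, hy, h⟩
      exact ⟨y, hy.1, h⟩
    · rintro ⟨y, hy, h⟩
      exact ⟨_, ⟨mul_mem (mul_mem heM hy) heM, hye y⟩, (hyc y).trans h⟩
  have hcomm : ∀ w : G →L[ℂ] G, (∀ y ∈ S.M, w * σ y = σ y * w) → w * R = R * w →
      Corner_cmp s t w ∈ Set.centralizer (B : Set (V →L[ℂ] V)) := by
    rintro w hw hwR _ ⟨y, hy, rfl⟩
    rw [hcd, C.cmp_mul_left (hRσ y hy.1 hy.2), C.cmp_mul_left hwR, hw y hy.1]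
  let N : VonNeumannAlgebra V :=
    { toStarSubalgebra := B
      centralizer_centralizer' := by
        refine Set.Subset.antisymm (fun T hT => ?_) Set.subset_centralizer_centralizer
        obtain ⟨y, hy, hb⟩ := hbi (Corner_xpd s t T) (C.xpd_mul_q T)
          fun w hw hwR => C.xpd_comm hwR (hT _ (hcomm w hw hwR))
        exact (hB T).2 ⟨y, hy, by rw [hcd, ← C.cmp_mul_q, ← hb, C.cmp_xpd]⟩ }
  have hN : ∀ T, T ∈ N ↔ ∃ y ∈ S.M, c y = T := hB
  have hfe : ∀ f, S.p U * S.ρ f = S.ρ f * S.p U := fun f => S.ρ_comm _ _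
  let A := Corner_img c S.ρ.range h1 (by rintro _ ⟨f, rfl⟩; exact hm _ (S.mem f) (hfe f)) hs
  have hA : ∀ T, T ∈ A ↔ ∃ f, c (S.ρ f) = T := by
    intro T
    constructor
    · rintro ⟨_, ⟨f, rfl⟩, h⟩
      exact ⟨f, h⟩
    · rintro ⟨f, h⟩
      exact ⟨_, ⟨f, rfl⟩, h⟩
  have hsξ : s (t ξ) = ξ := by rw [C.st, hξ]
  obtain ⟨p', hp', a', ha', ha1, ha2, r', hr', hr1, hr2, hr3, hr4, hr5⟩ :=
    normal_paving N A (x := c x) (F := Set.range fun i => t (η' i))
      (fun T hT => by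
        obtain ⟨f, rfl⟩ := (hA T).1 hT
        exact (hN _).2 ⟨_, S.mem f, rfl⟩)
      (fun a ha b hb => by
        obtain ⟨f, rfl⟩ := (hA a).1 ha
        obtain ⟨g, rfl⟩ := (hA b).1 hb
        rw [hm _ (S.mem f) (hfe f), hm _ (S.mem g) (hfe g), S.ρ_comm])
      (fun T hT hc' => by
        obtain ⟨y, hy, rfl⟩ := (hN T).1 hT
        have hyM : S.p U * y * S.p U ∈ S.M := mul_mem (mul_mem heM hy) heM
        obtain ⟨g, hg⟩ := S.max _ hyM fun f => by
          have hf := hfe f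
          have h2 := hiso' (S.ρ f * (S.p U * y * S.p U) - S.p U * y * S.p U * S.ρ f)
            (sub_mem (mul_mem (S.mem f) hyM) (mul_mem hyM (S.mem f)))
            (by rw [mul_sub, ← mul_assoc, hf]; simp only [← mul_assoc, hee]
                rw [mul_assoc (S.ρ f), hee])
            (by rw [sub_mul, mul_assoc _ (S.ρ f), ← hf]; simp only [mul_assoc, hee]
                rw [← mul_assoc (S.p U) (S.p U), hee])
          rw [map_sub, ← hm _ (S.mem f) hf, ← hm _ hyM (hye y), hyc, hc' _ ((hA _).2 ⟨f, rfl⟩),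
            sub_self] at h2
          exact sub_eq_zero.1 (norm_le_zero_iff.1 (h2.trans_eq ContinuousLinearMap.opNorm_zero))
        exact (hA _).2 ⟨g, by rw [hg, hyc]⟩)
      (t ξ)
      (fun v => by
        have h2 := map_mem_closure t.continuous (hsep (s v) (C.qs v))
          (t := {η | ∃ w ∈ N.commutant, w (t ξ) = η}) (by
            rintro _ ⟨w, hw, hwR, rfl⟩
            refine ⟨Corner_cmp s t w, ?_, by rw [Corner_cmp_apply, hsξ]⟩
            rw [VonNeumannAlgebra.mem_commutant_iff]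
            exact hcomm w hw hwR)
        rwa [C.ts] at h2)
      (fun a ha T hT => by
        obtain ⟨f, rfl⟩ := (hA a).1 ha
        obtain ⟨y, hy, rfl⟩ := (hN T).1 hT
        rw [hm _ (S.mem f) (hfe f), hm' _ (S.mem f) (hfe f), hcd, hcd, Corner_cmp_apply,
          Corner_cmp_apply, ← C.adj, ← C.adj, hsξ, hc f y hy])
      ((hN _).2 ⟨x, hx, rfl⟩) (by rw [IsSelfAdjoint, ← hs, hsa.star_eq])
      ((C.norm_cmp _).trans ((NonUnitalStarAlgHom.norm_apply_le σ x).trans hn)) hL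
      (Set.finite_range _) hδ
  obtain ⟨g, rfl⟩ := (hA _).1 ha'
  obtain ⟨y, hy, rfl⟩ := (hN _).1 hr'
  refine Corner_pull S U c h1 hm hm' hs he hiso' η (fun i => t (η' i)) (fun i w hw h3 h2 => ?_) hx
    ⟨fun i => (hA _).1 (hp'.mem i), hp'.proj, hp'.orth, hp'.sum⟩ g ha1 ha2 hy hr1 hr2 hr3
    (fun i => hr4 _ ⟨i, rfl⟩) hr5
  refine (hη i w hw h2).trans (le_of_eq ?_)
  rw [← C.norm_s, ← Corner_xpd_apply, hxp w hw (h3.trans h2.symm), mul_apply_eq_comp, hη']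

end

end Crest.Agent.R109
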