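import Crest.Agent.R109.StdE

/-!
# Row 109: uniform absolute continuity
-/

open Filter Topology
open scoped InnerProductSpace BigOperators ComplexOrder

set_option linter.unusedSectionVars false

namespace Crest.Agent.R109

noncomputable section

open Classical

variable {H : Type*} [NormedAddCommGroup H] [InnerProductSpace ℂ H] [CompleteSpace H]
  {X : Type*} [TopologicalSpace X] [CompactSpace X] [T2Space X] [ExtremallyDisconnected X]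

namespace Std
variable {S : Std H X}

/-- the linear form of the definition -/
theorem UAC_iff {F : Set H} : S.UAC F ↔ ∀ γ : ℝ, 0 < γ → ∃ K : ℝ, 0 ≤ K ∧
    ∀ η ∈ F, ∀ d ∈ S.M, ‖d η‖ ≤ γ * ‖d‖ + K * ‖d S.ξ‖ := by
  constructor
  · intro h γ hγ
    obtain ⟨K, hK, h1⟩ := h (γ ^ 2) (by positivity)
    refine ⟨√K, Real.sqrt_nonneg K, fun η hη d hd => ?_⟩
    refine (pow_le_pow_iff_left₀ (norm_nonneg _) (by positivity) two_ne_zero).1
      ((h1 η hη d hd).trans ?_)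
    have h2 : (√K * ‖d S.ξ‖) ^ 2 = K * ‖d S.ξ‖ ^ 2 := by rw [mul_pow, Real.sq_sqrt hK]
    have h3 : 0 ≤ γ * ‖d‖ * (√K * ‖d S.ξ‖) := by positivity
    nlinarith
  · intro h γ hγ
    obtain ⟨K, hK, h1⟩ := h (√(γ / 2)) (by positivity)
    refine ⟨2 * K ^ 2, by positivity, fun η hη d hd => ?_⟩
    have h2 := pow_le_pow_left₀ (norm_nonneg _) (h1 η hη d hd) 2
    have h3 : (√(γ / 2) * ‖d‖) ^ 2 = γ / 2 * ‖d‖ ^ 2 := by
      rw [mul_pow, Real.sq_sqrt (by positivity)]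
    nlinarith [sq_nonneg (√(γ / 2) * ‖d‖ - K * ‖d S.ξ‖)]

theorem UAC_approx (η : H) {δ : ℝ} (hδ : 0 < δ) :
    ∃ K : ℝ, 0 ≤ K ∧ ∀ d ∈ S.M, ‖d η‖ ≤ δ * ‖d‖ + K * ‖d S.ξ‖ := by
  obtain ⟨_, ⟨s, hs, rfl⟩, h⟩ := S.sep.exists_dist_lt η hδ
  refine ⟨‖s‖, norm_nonneg _, fun d hd => ?_⟩
  have e : d η = d (η - s S.ξ) + s (d S.ξ) := by
    have : s (d S.ξ) = d (s S.ξ) := congrArg (fun T : H →L[ℂ] H => T S.ξ) (vn_commute hd hs)
    rw [this, map_sub, sub_add_cancel]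
  rw [e, dist_eq_norm] at *
  refine (norm_add_le _ _).trans (add_le_add ?_ (s.le_opNorm _))
  rw [mul_comm]
  exact (d.le_opNorm _).trans (mul_le_mul_of_nonneg_left h.le (norm_nonneg _))

theorem UAC.mono {F F' : Set H} (h : S.UAC F) (hF : F' ⊆ F) : S.UAC F' := by
  intro γ hγ
  obtain ⟨K, hK, h1⟩ := h γ hγ
  exact ⟨K, hK, fun η hη => h1 η (hF hη)⟩

theorem UAC.union {F F' : Set H} (h : S.UAC F) (h' : S.UAC F') : S.UAC (F ∪ F') := by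
  intro γ hγ
  obtain ⟨K, hK, h1⟩ := h γ hγ
  obtain ⟨K', hK', h1'⟩ := h' γ hγ
  refine ⟨K + K', add_nonneg hK hK', fun η hη d hd => ?_⟩
  have h2 := mul_nonneg hK (sq_nonneg ‖d S.ξ‖)
  have h3 := mul_nonneg hK' (sq_nonneg ‖d S.ξ‖)
  rcases hη with hη | hη
  · linarith [h1 η hη d hd]
  · linarith [h1' η hη d hd]

/-- approximate `η` by `s ξ`, `s ∈ M'` -/
theorem UAC.single (η : H) : S.UAC {η} := by
  refine UAC_iff.2 fun γ hγ => ?_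
  obtain ⟨K, hK, h⟩ := UAC_approx (S := S) η hγ
  exact ⟨K, hK, fun η' hη' => hη' ▸ h⟩

theorem UAC.finite {F : Set H} (hF : F.Finite) : S.UAC F := by
  induction F, hF using Set.Finite.induction_on with
  | empty => exact fun γ _ => ⟨0, le_rfl, fun _ h => h.elim⟩
  | insert _ _ ih => exact (UAC.single _).union ih

/-- Recipe: first `{ρ a (y ξ)}` is `UAC` (approximate `y ξ` by `s ξ`, `norm_mul_ρ_ξ_le`), then apply
the hypothesis to `d * ρ a * y`. -/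
theorem UAC.step {F : Set H} (h : S.UAC F) {y : H →L[ℂ] H} (hy : y ∈ S.M) :
    S.UAC {ζ | ∃ (a : C(X, ℂ)) (η : H), ‖a‖ ≤ 1 ∧ η ∈ F ∧ ζ = S.ρ a (y η)} := by
  refine UAC_iff.2 fun γ hγ => ?_
  obtain ⟨K, hK, h1⟩ := UAC_iff.1 h (γ / 2 / (‖y‖ + 1)) (by positivity)
  obtain ⟨_, ⟨s, hs, rfl⟩, h2⟩ := S.sep.exists_dist_lt (y S.ξ)
    (show 0 < γ / 2 / (K + 1) by positivity)
  refine ⟨K * ‖s‖, by positivity, ?_⟩
  rintro _ ⟨a, η, ha, hη, rfl⟩ d hd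
  have hda : d * S.ρ a ∈ S.M := mul_mem hd (S.mem a)
  have h3 : ‖d * S.ρ a‖ ≤ ‖d‖ := (norm_mul_le _ _).trans
    (mul_le_of_le_one_right (norm_nonneg _) (by rwa [S.norm_ρ]))
  have h4 : ‖d (S.ρ a (y η))‖ ≤ _ := h1 η hη (d * S.ρ a * y) (mul_mem hda hy)
  have h5 : ‖d * S.ρ a * y‖ ≤ ‖d‖ * (‖y‖ + 1) := (norm_mul_le _ _).trans
    (mul_le_mul h3 (by linarith) (norm_nonneg _) (norm_nonneg _))
  have e : (d * S.ρ a * y) S.ξ = (d * S.ρ a) (y S.ξ - s S.ξ) + s (d (S.ρ a S.ξ)) := by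
    have : s (d (S.ρ a S.ξ)) = (d * S.ρ a) (s S.ξ) :=
      congrArg (fun T : H →L[ℂ] H => T S.ξ) (vn_commute hda hs)
    rw [this, map_sub, sub_add_cancel]
    rfl
  have h6 : ‖(d * S.ρ a * y) S.ξ‖ ≤ ‖d‖ * (γ / 2 / (K + 1)) + ‖s‖ * ‖d S.ξ‖ := by
    rw [e]
    rw [dist_eq_norm] at h2
    refine (norm_add_le _ _).trans (add_le_add ?_ ((s.le_opNorm _).trans ?_))
    · exact ((d * S.ρ a).le_opNorm _).trans (mul_le_mul h3 h2.le (norm_nonneg _) (norm_nonneg _))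
    · exact mul_le_mul_of_nonneg_left ((S.norm_mul_ρ_ξ_le hd a).trans
        (mul_le_of_le_one_left (norm_nonneg _) ha)) (norm_nonneg _)
  have h7 : γ / 2 / (‖y‖ + 1) * (‖d‖ * (‖y‖ + 1)) = γ / 2 * ‖d‖ := by field_simp
  have h8 : (K + 1) * (‖d‖ * (γ / 2 / (K + 1))) = γ / 2 * ‖d‖ := by field_simp
  have h9 := mul_le_mul_of_nonneg_left h5 (show 0 ≤ γ / 2 / (‖y‖ + 1) by positivity)
  have h10 := mul_le_mul_of_nonneg_left h6 hK
  have h11 : 0 ≤ ‖d‖ * (γ / 2 / (K + 1)) := by positivity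
  nlinarith

theorem UAC.apply {F : Set H} (h : S.UAC F) {y : H →L[ℂ] H} (hy : y ∈ S.M) :
    S.UAC ((fun η => y η) '' F) := by
  refine (h.step hy).mono ?_
  rintro _ ⟨η, hη, rfl⟩
  exact ⟨1, η, (ContinuousMap.norm_le _ zero_le_one).2 fun _ => by simp, hη, by simp⟩

/-- words with fixed letters in `M` and arbitrary contractions in `A` -/
theorem UAC.seg_family {F : Set H} (h : S.UAC F) {y : ℕ → H →L[ℂ] H} (hy : ∀ i, y i ∈ S.M) (s n : ℕ) :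
    S.UAC {ζ | ∃ (a : ℕ → C(X, ℂ)) (η : H), (∀ i, ‖a i‖ ≤ 1) ∧ η ∈ F ∧
      ζ = seg y (fun i => S.ρ (a i)) s n η} := by
  induction n generalizing F with
  | zero =>
    refine h.mono ?_
    rintro _ ⟨a, η, -, hη, rfl⟩
    exact hη
  | succ n ih =>
    refine (ih (h.step (hy (s + n + 1)))).mono ?_
    rintro _ ⟨a, η, ha, hη, rfl⟩
    exact ⟨a, _, ha, ⟨a (s + n), η, ha _, hη, rfl⟩, rfl⟩

/-- the defining inequality is convex in the vector -/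
theorem UAC.hull {F : Set H} (h : S.UAC F) : S.UAC (convexHull ℝ F) := by
  refine UAC_iff.2 fun γ hγ => ?_
  obtain ⟨K, hK, h1⟩ := UAC_iff.1 h γ hγ
  refine ⟨K, hK, fun η hη d hd => ?_⟩
  refine convexHull_min (t := {η | ‖d η‖ ≤ γ * ‖d‖ + K * ‖d S.ξ‖}) (fun η hη => h1 η hη d hd)
    ?_ hη
  have := (convex_closedBall (0 : H) (γ * ‖d‖ + K * ‖d S.ξ‖)).linear_preimage
    (d.toLinearMap.restrictScalars ℝ)
  convert this using 1
  ext η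
  simp

theorem UAC.sub {F F' : Set H} (h : S.UAC F) (h' : S.UAC F') :
    S.UAC {ζ | ∃ η ∈ F, ∃ η' ∈ F', ζ = η - η'} := by
  refine UAC_iff.2 fun γ hγ => ?_
  obtain ⟨K, hK, h1⟩ := UAC_iff.1 h (γ / 2) (by positivity)
  obtain ⟨K', hK', h1'⟩ := UAC_iff.1 h' (γ / 2) (by positivity)
  refine ⟨K + K', add_nonneg hK hK', ?_⟩
  rintro _ ⟨η, hη, η', hη', rfl⟩ d hd
  rw [map_sub]
  linarith [norm_sub_le (d η) (d η'), h1 η hη d hd, h1' η' hη' d hd]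

/-- several operators at once -/
theorem UAC.sum_le {F : Set H} (h : S.UAC F) {γ : ℝ} (hγ : 0 < γ) :
    ∃ K : ℝ, 0 ≤ K ∧ ∀ η ∈ F, ∀ (κ : Type*) [Fintype κ] (d : κ → H →L[ℂ] H), (∀ i, d i ∈ S.M) →
      ∑ i, ‖d i η‖ ^ 2 ≤ γ * ‖∑ i, star (d i) * d i‖ + K * ∑ i, ‖d i S.ξ‖ ^ 2 := by
  obtain ⟨K, hK, h1⟩ := h γ hγ
  refine ⟨K, hK, fun η hη κ _ d hd => ?_⟩
  set T := ∑ i, star (d i) * d i with hT
  have hT0 : 0 ≤ T := Finset.sum_nonneg fun i _ => star_mul_self_nonneg _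
  have hTM : T ∈ S.M := sum_mem fun i _ => mul_mem (star_mem (hd i)) (hd i)
  have hc : star (cfc Real.sqrt T) * cfc Real.sqrt T = T := by
    rw [(cfc_predicate Real.sqrt T : IsSelfAdjoint _).star_eq, ← cfc_mul ..]
    conv_rhs => rw [← cfc_id' ℝ T]
    exact cfc_congr fun t ht => Real.mul_self_sqrt (spectrum_nonneg_of_nonneg hT0 ht)
  have h2 : ∀ ζ, ∑ i, ‖d i ζ‖ ^ 2 = ‖cfc Real.sqrt T ζ‖ ^ 2 := fun ζ => by
    simp only [norm_apply_sq_eq]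
    rw [hc, hT, sum_apply, inner_sum, Complex.re_sum]
  have h3 : ‖T‖ = ‖cfc Real.sqrt T‖ ^ 2 := by
    rw [sq, ← CStarRing.norm_star_mul_self, hc]
  rw [h2, h2, h3]
  exact h1 η hη _ (vn_cfc_mem hTM _)

theorem UAC_EP_mem {ι : Type*} [Fintype ι] {a : X → ι} (ha : IsLocallyConstant a)
    (x : H →L[ℂ] H) (ζ : H) {G : Set H} (hG : ∀ ε, S.ρ (sgn a ε) (x (S.ρ (sgn a ε) ζ)) ∈ G) :
    S.EP a x ζ ∈ convexHull ℝ G := by
  have e : S.EP a x = ∑ ε : ι → Bool,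
      ((2 : ℝ) ^ Fintype.card ι)⁻¹ • (S.ρ (sgn a ε) * x * S.ρ (sgn a ε)) := by
    rw [← Finset.smul_sum, S.sum_sgn_conj ha, ← Complex.coe_smul, smul_smul]
    push_cast
    rw [inv_mul_cancel₀ (pow_ne_zero _ two_ne_zero), one_smul]
  rw [e, sum_apply]
  exact (convex_convexHull ℝ _).sum_mem (w := fun _ => ((2 : ℝ) ^ Fintype.card ι)⁻¹)
    (z := fun ε => S.ρ (sgn a ε) (x (S.ρ (sgn a ε) ζ))) (fun _ _ => by positivity) (by simp)
    fun ε _ => subset_convexHull ℝ _ (hG ε)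

/-- The vectors `(EP a x - ρ b) ^ k ξ`, uniformly in the partition (induction on `k`; `EP a x η` is
an average of vectors `u x u η` by `sum_sgn_conj`). -/
theorem UAC.pow {x : H →L[ℂ] H} (hx : x ∈ S.M) (b : C(X, ℂ)) (k : ℕ) :
    S.UAC {ζ | ∃ (r : ℕ) (a : X → Fin r), IsLocallyConstant a ∧
      ζ = ((S.EP a x - S.ρ b) ^ k) S.ξ} := by
  induction k with
  | zero =>
    refine (UAC.single S.ξ).mono ?_
    rintro _ ⟨r, a, -, rfl⟩
    rfl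
  | succ k ih =>
    refine (((ih.step (one_mem _)).step hx).hull.sub (ih.apply (S.mem b))).mono ?_
    rintro _ ⟨r, a, ha, rfl⟩
    refine ⟨S.EP a x (((S.EP a x - S.ρ b) ^ k) S.ξ), ?_, _, ⟨_, ⟨r, a, ha, rfl⟩, rfl⟩, ?_⟩
    · refine UAC_EP_mem ha x _ fun ε => ?_
      exact ⟨_, _, (sgn_mul_self ha ε).2.2,
        ⟨_, _, (sgn_mul_self ha ε).2.2, ⟨r, a, ha, rfl⟩, rfl⟩, rfl⟩
    · rw [pow_succ']
      rfl

end Std

end

end Crest.Agent.R109
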