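import Crest.Agent.R109.Atom
import Crest.Agent.R109.UAC

/-!
# Row 109: adjacent and crossing coincidences are negligible
-/

open Filter Topology
open scoped InnerProductSpace BigOperators ComplexOrder

set_option linter.unusedSectionVars false

namespace Crest.Agent.R109

noncomputable section

open Classical

variable {H : Type*} [NormedAddCommGroup H] [InnerProductSpace ℂ H] [CompleteSpace H]
  {X : Type*} [TopologicalSpace X] [CompactSpace X] [T2Space X] [ExtremallyDisconnected X]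

theorem Cross_mul_self_le {a : H →L[ℂ] H} (ha : 0 ≤ a) {c : ℝ} (hc : ‖a‖ ≤ c) :
    star a * a ≤ c • a := by
  obtain ⟨s, hs, h1⟩ : ∃ s : H →L[ℂ] H, IsSelfAdjoint s ∧ s * s = a :=
    ⟨CFC.sqrt a, (CFC.sqrt_nonneg a).isSelfAdjoint, CFC.sqrt_mul_sqrt_self a ha⟩
  have h2 := CStarAlgebra.star_left_conjugate_le_norm_smul (a := s) (b := a) ha.isSelfAdjoint
  rw [hs.star_eq, h1] at h2
  have h3 : s * a * s = a * a := by
    rw [← h1]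
    simp only [mul_assoc]
  rw [ha.isSelfAdjoint.star_eq, ← h3]
  refine h2.trans ?_
  rw [← sub_nonneg, ← sub_smul]
  exact smul_nonneg (sub_nonneg.2 hc) ha

theorem Cross_amgm {x y δ : ℝ} (hδ : 0 < δ) : x * y ≤ δ / 2 * x ^ 2 + 1 / (2 * δ) * y ^ 2 := by
  have h : 0 ≤ (δ * x - y) ^ 2 / (2 * δ) := by positivity
  have : δ / 2 * x ^ 2 + 1 / (2 * δ) * y ^ 2 - x * y = (δ * x - y) ^ 2 / (2 * δ) := by
    field_simp
    ring
  linarith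

theorem Cross_small {K θ : ℝ} (hK : 0 ≤ K) (hθ : 0 < θ) : ∃ δ : ℝ, 0 < δ ∧ K * δ ^ 2 ≤ θ := by
  refine ⟨min 1 (θ / (K + 1)), by positivity, ?_⟩
  have h1 : min 1 (θ / (K + 1)) ≤ 1 := min_le_left _ _
  have h2 : min 1 (θ / (K + 1)) ≤ θ / (K + 1) := min_le_right _ _
  have h0 : 0 < min 1 (θ / (K + 1)) := by positivity
  have h3 : min 1 (θ / (K + 1)) ^ 2 ≤ θ / (K + 1) := by nlinarith
  calc K * min 1 (θ / (K + 1)) ^ 2 ≤ (K + 1) * (θ / (K + 1)) := by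
        apply mul_le_mul (by linarith) h3 (by positivity) (by positivity)
    _ = θ := by field_simp

namespace Setup
variable (S : Setup H X) {ι κ : Type*} [Fintype ι] [Fintype κ]

theorem Cross_EP_sum (a : X → ι) (y : κ → H →L[ℂ] H) :
    S.EP a (∑ k, y k) = ∑ k, S.EP a (y k) := by
  unfold EP
  rw [Finset.sum_comm]
  refine Finset.sum_congr rfl fun i _ => ?_
  rw [Finset.mul_sum, Finset.sum_mul]

theorem Cross_ρ_sgn {a : X → ι} (ha : IsLocallyConstant a) (ε : ι → Bool) :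
    S.ρ (sgn a ε) = ∑ i, (if ε i then (1 : ℂ) else -1) • S.p (a ⁻¹' {i}) := by
  have := cm_comp_eq_sum ha (fun i => if ε i then (1 : ℂ) else -1)
  unfold sgn
  rw [this, map_sum]
  refine Finset.sum_congr rfl fun i _ => ?_
  rw [map_smul]
  rfl

theorem Cross_avg {a : X → ι} (ha : IsLocallyConstant a) (T : κ → H →L[ℂ] H) (ζ : H) {B : ℝ}
    (h : ∀ ε : ι → Bool, ∑ k, ‖T k (S.ρ (sgn a ε) ζ)‖ ^ 2 ≤ B) :
    ∑ i, ∑ k, ‖T k (S.p (a ⁻¹' {i}) ζ)‖ ^ 2 ≤ B := by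
  have h1 : ∀ k, ∑ ε : ι → Bool, ‖T k (S.ρ (sgn a ε) ζ)‖ ^ 2 =
      2 ^ Fintype.card ι * ∑ i, ‖T k (S.p (a ⁻¹' {i}) ζ)‖ ^ 2 := fun k => by
    rw [← sum_sign_norm_sq]
    refine Finset.sum_congr rfl fun ε _ => ?_
    rw [S.Cross_ρ_sgn ha, sum_apply, map_sum]
    simp only [ContinuousLinearMap.smul_apply, map_smul]
  have h2 : (2 : ℝ) ^ Fintype.card ι * ∑ i, ∑ k, ‖T k (S.p (a ⁻¹' {i}) ζ)‖ ^ 2 ≤
      2 ^ Fintype.card ι * B := by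
    rw [Finset.sum_comm, Finset.mul_sum, ← Finset.sum_congr rfl fun k _ => h1 k, Finset.sum_comm]
    refine (Finset.sum_le_sum fun ε _ => h ε).trans ?_
    rw [Finset.sum_const, Finset.card_univ, nsmul_eq_mul, Fintype.card_fun, Fintype.card_bool]
    push_cast
    exact le_rfl
  exact le_of_mul_le_mul_left h2 (by positivity)

theorem Cross_sum_sq (a : X → ι) (U : Set X) (y : H →L[ℂ] H) (η : H) :
    ∑ j, ‖S.p U (y (S.p (a ⁻¹' {j}) η))‖ ^ 2 = (⟪η, S.EP a (star y * S.p U * y) η⟫_ℂ).re := by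
  unfold EP
  rw [sum_apply, inner_sum, Complex.re_sum]
  refine Finset.sum_congr rfl fun j _ => ?_
  have h := norm_apply_sq_eq (S.p U * y * S.p (a ⁻¹' {j})) η
  have e : star (S.p U * y * S.p (a ⁻¹' {j})) * (S.p U * y * S.p (a ⁻¹' {j})) =
      S.p (a ⁻¹' {j}) * (star y * S.p U * y) * S.p (a ⁻¹' {j}) := by
    rw [star_mul, star_mul, (S.isStarProjection_p U).isSelfAdjoint.star_eq,
      (S.isStarProjection_p _).isSelfAdjoint.star_eq]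
    calc _ = S.p (a ⁻¹' {j}) * (star y * (S.p U * S.p U) * y) * S.p (a ⁻¹' {j}) := by
          simp only [mul_assoc]
      _ = _ := by rw [(S.isStarProjection_p U).isIdempotentElem.eq]
  rw [e] at h
  exact h

theorem Cross_norm_p_mono {U V : Set X} (hU : IsClopen U) (hV : IsClopen V) (h : U ⊆ V) (η : H) :
    ‖S.p U η‖ ≤ ‖S.p V η‖ := by
  have e : S.p U = S.p U * S.p V := by rw [S.p_mul_p hU hV, Set.inter_eq_left.2 h]
  rw [e, mul_apply_eq_comp]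
  refine ((S.p U).le_opNorm _).trans ?_
  exact mul_le_of_le_one_left (norm_nonneg _) (S.norm_p_le U)

theorem Cross_norm_sum_le {a : X → ι} {b : X → κ} (ha : IsLocallyConstant a)
    (hb : IsLocallyConstant b) (y : H →L[ℂ] H) :
    ‖∑ k, star (S.EP a (star y * S.p (b ⁻¹' {k}) * y)) * S.EP a (star y * S.p (b ⁻¹' {k}) * y)‖ ≤
      ‖y‖ ^ 4 := by
  have hpos : ∀ k, 0 ≤ S.EP a (star y * S.p (b ⁻¹' {k}) * y) := fun k =>
    S.EP_nonneg a (star_left_conjugate_nonneg (S.isStarProjection_p _).nonneg y)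
  have hsum : ∑ k, S.EP a (star y * S.p (b ⁻¹' {k}) * y) = S.EP a (star y * y) := by
    rw [← Cross_EP_sum, ← Finset.sum_mul, ← Finset.mul_sum, S.sum_p hb, mul_one]
  have hn : ‖S.EP a (star y * y)‖ ≤ ‖y‖ ^ 2 := by
    refine (S.norm_EP_le ha _).trans ?_
    rw [CStarRing.norm_star_mul_self, sq]
  have hk : ∀ k, ‖S.EP a (star y * S.p (b ⁻¹' {k}) * y)‖ ≤ ‖y‖ ^ 2 := fun k => by
    refine le_trans (CStarAlgebra.norm_le_norm_of_nonneg_of_le (hpos k) ?_) hn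
    rw [← hsum]
    exact Finset.single_le_sum (f := fun k => S.EP a (star y * S.p (b ⁻¹' {k}) * y))
      (fun k _ => hpos k) (Finset.mem_univ k)
  have hle : ∑ k, star (S.EP a (star y * S.p (b ⁻¹' {k}) * y)) *
      S.EP a (star y * S.p (b ⁻¹' {k}) * y) ≤ (‖y‖ ^ 2) • S.EP a (star y * y) := by
    rw [← hsum, Finset.smul_sum]
    exact Finset.sum_le_sum fun k _ => Cross_mul_self_le (hpos k) (hk k)
  refine (CStarAlgebra.norm_le_norm_of_nonneg_of_le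
    (Finset.sum_nonneg fun k _ => star_mul_self_nonneg _) hle).trans ?_
  rw [norm_smul, Real.norm_of_nonneg (by positivity)]
  calc ‖y‖ ^ 2 * ‖S.EP a (star y * y)‖ ≤ ‖y‖ ^ 2 * ‖y‖ ^ 2 :=
        mul_le_mul_of_nonneg_left hn (by positivity)
    _ = ‖y‖ ^ 4 := by ring

end Setup

namespace Std
variable (S : Std H X)

/-- Adjacent coincidence. -/
theorem eventually_EP_small {κ : H →L[ℂ] H} (hκ : S.Mo κ) {F : Set H} (hF : S.UAC F) {γ : ℝ}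
    (hγ : 0 < γ) : ∀ᶠ Q : DiscreteQuotient X in atBot, ∀ η ∈ F, ‖S.EP Q.proj κ η‖ ≤ γ := by
  obtain ⟨K, hK, hF⟩ := hF (γ ^ 2 / (2 * (‖κ‖ ^ 2 + 1))) (by positivity)
  obtain ⟨δ, hδ, hKδ⟩ := Cross_small (θ := γ ^ 2 / 2) hK (by positivity)
  filter_upwards [S.eventually_EP_close hκ.1 hδ] with Q hQ η hη
  rw [hκ.E_eq_zero, map_zero, sub_zero] at hQ
  have h1 := hF η hη _ (S.EP_mem Q.proj hκ.1)
  have h2 : ‖S.EP Q.proj κ‖ ≤ ‖κ‖ := S.norm_EP_le Q.proj_isLocallyConstant κ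
  have h3 : ‖S.EP Q.proj κ‖ ^ 2 ≤ ‖κ‖ ^ 2 + 1 := by
    have := pow_le_pow_left₀ (norm_nonneg _) h2 2
    linarith
  have h4 : γ ^ 2 / (2 * (‖κ‖ ^ 2 + 1)) * ‖S.EP Q.proj κ‖ ^ 2 ≤ γ ^ 2 / 2 := by
    calc _ ≤ γ ^ 2 / (2 * (‖κ‖ ^ 2 + 1)) * (‖κ‖ ^ 2 + 1) :=
          mul_le_mul_of_nonneg_left h3 (by positivity)
      _ = _ := by field_simp
  have h5 : K * ‖S.EP Q.proj κ S.ξ‖ ^ 2 ≤ γ ^ 2 / 2 :=
    (mul_le_mul_of_nonneg_left (pow_le_pow_left₀ (norm_nonneg _) hQ 2) hK).trans hKδ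
  exact (pow_le_pow_iff_left₀ (norm_nonneg _) hγ.le two_ne_zero).1 (by linarith)

theorem Cross_eventually_atoms {κ : H →L[ℂ] H} (hκ : S.Mo κ) {θ : ℝ} (hθ : 0 < θ) :
    ∃ Q₁ : DiscreteQuotient X, ∀ᶠ Q : DiscreteQuotient X in atBot,
      ∑ K : Q₁, ‖S.EP Q.proj (star κ * S.p (Q₁.proj ⁻¹' {K}) * κ) S.ξ‖ ^ 2 ≤ θ := by
  obtain ⟨Q₁, hQ₁⟩ := Mo.exists_small_atoms S hκ (γ := θ / 4) (by positivity)
  obtain ⟨δ, hδ, hNδ⟩ := Cross_small (K := (Fintype.card Q₁ : ℝ)) (θ := θ / 4) (by positivity)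
    (by positivity)
  refine ⟨Q₁, ?_⟩
  have hmem : ∀ K : Q₁, star κ * S.p (Q₁.proj ⁻¹' {K}) * κ ∈ S.M := fun K =>
    mul_mem (mul_mem (star_mem hκ.1) (S.p_mem _)) hκ.1
  filter_upwards [eventually_all.2 fun K : Q₁ => S.eventually_EP_close (hmem K) hδ] with Q hQ
  have h1 : ∀ K : Q₁, ‖S.EP Q.proj (star κ * S.p (Q₁.proj ⁻¹' {K}) * κ) S.ξ‖ ^ 2 ≤
      2 * ‖S.ρ (S.al κ (Q₁.proj ⁻¹' {K})) S.ξ‖ ^ 2 + 2 * δ ^ 2 := fun K => by
    have h2 := hQ K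
    rw [sub_apply] at h2
    have h3 : ‖S.EP Q.proj (star κ * S.p (Q₁.proj ⁻¹' {K}) * κ) S.ξ‖ ≤
        ‖S.ρ (S.al κ (Q₁.proj ⁻¹' {K})) S.ξ‖ + δ := by
      have := norm_le_norm_add_norm_sub' (S.EP Q.proj (star κ * S.p (Q₁.proj ⁻¹' {K}) * κ) S.ξ)
        (S.ρ (S.al κ (Q₁.proj ⁻¹' {K})) S.ξ)
      unfold al at this ⊢
      linarith
    have h4 := pow_le_pow_left₀ (norm_nonneg _) h3 2
    nlinarith [sq_nonneg (‖S.ρ (S.al κ (Q₁.proj ⁻¹' {K})) S.ξ‖ - δ)]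
  refine (Finset.sum_le_sum fun K _ => h1 K).trans ?_
  rw [Finset.sum_add_distrib, ← Finset.mul_sum, Finset.sum_const, Finset.card_univ, nsmul_eq_mul]
  nlinarith

/-- Crossing coincidence.  Recipe: fix `Q₁` from `exists_small_atoms`, `C K = EP Q (κ⋆ p_K κ)` for
the atoms `K` of `Q₁`; `0 ≤ C K`, `∑ C K ≤ ‖κ‖²`, so `‖∑ (C K)²‖ ≤ ‖κ‖⁴`, and `C K ξ → ρ (al κ K) ξ`.
For `Q ≤ Q₁`: `∑_J ‖p_I κ p_J η‖² ≤ re ⟪η, C (K I) η⟫`; Cauchy-Schwarz in `I`: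
`∑_I ‖w p_I ζ‖² ≤ C⁴` and `∑_I ∑_K ‖C K w p_I ζ‖²` is the average over signs `ε` of
`∑_K ‖C K w ρ(sgn ε) ζ‖²` (`sum_sign_norm_sq`), bounded by `UAC.sum_le`. -/
theorem eventually_cross_small {κ : H →L[ℂ] H} (hκ : S.Mo κ) (W : Set ((H →L[ℂ] H) × H)) {C : ℝ}
    (hW : ∀ x ∈ W, ‖x.1‖ ≤ C ∧ ‖x.2‖ ≤ C)
    (hF : S.UAC {η | ∃ x ∈ W, ∃ a : C(X, ℂ), ‖a‖ ≤ 1 ∧ η = x.1 (S.ρ a x.2)}) {γ : ℝ}
    (hγ : 0 < γ) : ∀ᶠ Q : DiscreteQuotient X in atBot, ∀ x ∈ W,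
      ∑ I : Q, ∑ J : Q, ‖S.p (Q.proj ⁻¹' {I}) (κ (S.p (Q.proj ⁻¹' {J})
        (x.1 (S.p (Q.proj ⁻¹' {I}) x.2))))‖ ^ 2 ≤ γ := by
  set δ : ℝ := γ / (C ^ 4 + 1) with hδdef
  have hδ : 0 < δ := by positivity
  obtain ⟨K', hK', hsum⟩ := hF.sum_le (γ := δ * γ / (2 * (‖κ‖ ^ 4 + 1))) (by positivity)
  obtain ⟨Q₁, hQ₁⟩ := S.Cross_eventually_atoms hκ (θ := δ * γ / (2 * (K' + 1))) (by positivity)
  filter_upwards [hQ₁, eventually_le_atBot Q₁] with Q hQ hle x hx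
  set D : Q₁ → H →L[ℂ] H := fun K => S.EP Q.proj (star κ * S.p (Q₁.proj ⁻¹' {K}) * κ) with hD
  have hDmem : ∀ K, D K ∈ S.M := fun K =>
    S.EP_mem _ (mul_mem (mul_mem (star_mem hκ.1) (S.p_mem _)) hκ.1)
  set η : Q → H := fun I => x.1 (S.p (Q.proj ⁻¹' {I}) x.2) with hη
  have hlc := Q.proj_isLocallyConstant
  -- the bound for one sign pattern
  have hT1 : ∀ ε : Q → Bool, ∑ K, ‖D K (x.1 (S.ρ (sgn Q.proj ε) x.2))‖ ^ 2 ≤ δ * γ := by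
    intro ε
    have h1 := hsum _ ⟨x, hx, sgn Q.proj ε, (sgn_mul_self hlc ε).2.2, rfl⟩ Q₁ D hDmem
    have h2 : ‖∑ K, star (D K) * D K‖ ≤ ‖κ‖ ^ 4 + 1 :=
      (S.Cross_norm_sum_le hlc Q₁.proj_isLocallyConstant κ).trans (by linarith)
    have h3 : δ * γ / (2 * (‖κ‖ ^ 4 + 1)) * ‖∑ K, star (D K) * D K‖ ≤ δ * γ / 2 := by
      calc _ ≤ δ * γ / (2 * (‖κ‖ ^ 4 + 1)) * (‖κ‖ ^ 4 + 1) :=
            mul_le_mul_of_nonneg_left h2 (by positivity)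
        _ = _ := by field_simp
    have h4 : K' * ∑ K, ‖D K S.ξ‖ ^ 2 ≤ δ * γ / 2 := by
      calc _ ≤ (K' + 1) * (δ * γ / (2 * (K' + 1))) :=
            mul_le_mul (by linarith) hQ (Finset.sum_nonneg fun _ _ => by positivity) (by positivity)
        _ = _ := by field_simp
    linarith
  have hT2 : ∑ I, ∑ K, ‖D K (η I)‖ ^ 2 ≤ δ * γ := by
    exact S.Cross_avg hlc (fun K => D K * x.1) x.2 hT1
  have hC : 0 ≤ C := (norm_nonneg _).trans (hW x hx).1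
  have hT3 : ∑ I, ‖η I‖ ^ 2 ≤ C ^ 4 := by
    have h1 : ∀ I, ‖η I‖ ^ 2 ≤ C ^ 2 * ‖S.p (Q.proj ⁻¹' {I}) x.2‖ ^ 2 := fun I => by
      rw [← mul_pow]
      refine pow_le_pow_left₀ (norm_nonneg _) ((x.1.le_opNorm _).trans ?_) 2
      exact mul_le_mul_of_nonneg_right (hW x hx).1 (norm_nonneg _)
    refine (Finset.sum_le_sum fun I _ => h1 I).trans ?_
    rw [← Finset.mul_sum, S.sum_norm_p_sq hlc]
    calc C ^ 2 * ‖x.2‖ ^ 2 ≤ C ^ 2 * C ^ 2 :=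
          mul_le_mul_of_nonneg_left (pow_le_pow_left₀ (norm_nonneg _) (hW x hx).2 2) (by positivity)
      _ = C ^ 4 := by ring
  have hT4 : ∀ I : Q, ∑ J : Q, ‖S.p (Q.proj ⁻¹' {I}) (κ (S.p (Q.proj ⁻¹' {J}) (η I)))‖ ^ 2 ≤
      δ / 2 * ‖η I‖ ^ 2 + 1 / (2 * δ) * ∑ K, ‖D K (η I)‖ ^ 2 := fun I => by
    have hsub : Q.proj ⁻¹' {I} ⊆ Q₁.proj ⁻¹' {DiscreteQuotient.ofLE hle I} := by
      intro t ht
      rw [Set.mem_preimage, Set.mem_singleton_iff] at ht ⊢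
      rw [← ht, DiscreteQuotient.ofLE_proj]
    calc _ ≤ ∑ J : Q, ‖S.p (Q₁.proj ⁻¹' {DiscreteQuotient.ofLE hle I})
            (κ (S.p (Q.proj ⁻¹' {J}) (η I)))‖ ^ 2 :=
          Finset.sum_le_sum fun J _ => pow_le_pow_left₀ (norm_nonneg _)
            (S.Cross_norm_p_mono (Q.isClopen_preimage _) (Q₁.isClopen_preimage _) hsub _) 2
      _ = (⟪η I, D (DiscreteQuotient.ofLE hle I) (η I)⟫_ℂ).re := S.Cross_sum_sq _ _ _ _
      _ ≤ ‖η I‖ * ‖D (DiscreteQuotient.ofLE hle I) (η I)‖ :=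
          (Complex.re_le_norm _).trans (norm_inner_le_norm _ _)
      _ ≤ δ / 2 * ‖η I‖ ^ 2 + 1 / (2 * δ) * ‖D (DiscreteQuotient.ofLE hle I) (η I)‖ ^ 2 :=
          Cross_amgm hδ
      _ ≤ _ := by
          gcongr
          exact Finset.single_le_sum (f := fun K => ‖D K (η I)‖ ^ 2) (fun K _ => by positivity)
            (Finset.mem_univ _)
  refine (Finset.sum_le_sum fun I _ => hT4 I).trans ?_
  rw [Finset.sum_add_distrib, ← Finset.mul_sum, ← Finset.mul_sum]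
  have h1 : δ / 2 * ∑ I, ‖η I‖ ^ 2 ≤ γ / 2 := by
    calc _ ≤ δ / 2 * (C ^ 4 + 1) := mul_le_mul_of_nonneg_left (by linarith) (by positivity)
      _ = _ := by rw [hδdef]; field_simp
  have h2 : 1 / (2 * δ) * ∑ I, ∑ K, ‖D K (η I)‖ ^ 2 ≤ γ / 2 := by
    calc _ ≤ 1 / (2 * δ) * (δ * γ) := mul_le_mul_of_nonneg_left hT2 (by positivity)
      _ = _ := by field_simp
  linarith

end Std

end

end Crest.Agent.R109
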