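import Mathlib

/-!
# Row 109: definitions for the operator-algebraic part

A maximal abelian subalgebra is written `ρ (C(X, ℂ))`, `X` its (extremally disconnected) spectrum.
Finite partitions of unity are locally constant functions `a : X → ι`.
-/

open Filter Topology
open scoped InnerProductSpace BigOperators

set_option linter.unusedSectionVars false

namespace Crest.Agent.R109

noncomputable section

open Classical

section Top
variable {X : Type*} [TopologicalSpace X]

/-- a function as a continuous map (junk value `0`) -/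
def cm (f : X → ℂ) : C(X, ℂ) := if h : Continuous f then ⟨f, h⟩ else 0

theorem cm_apply {f : X → ℂ} (h : Continuous f) (t : X) : cm f t = f t := by
  simp [cm, h]

theorem cm_apply_lc {f : X → ℂ} (h : IsLocallyConstant f) (t : X) : cm f t = f t :=
  cm_apply h.continuous t

/-- the indicator function of a clopen set -/
def ind (U : Set X) : C(X, ℂ) := cm fun t => if t ∈ U then 1 else 0

theorem ind_apply {U : Set X} (hU : IsClopen U) (t : X) : ind U t = if t ∈ U then 1 else 0 := by
  refine cm_apply ?_ t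
  have h : (fun t => if t ∈ U then (1 : ℂ) else 0) = U.indicator 1 := by
    ext t; simp [Set.indicator]
  rw [h]
  exact (LocallyConstant.charFn ℂ hU).continuous

instance fintypeDQ [CompactSpace X] (Q : DiscreteQuotient X) : Fintype Q := Fintype.ofFinite Q

/-- a fixed ultrafilter of finer and finer clopen partitions -/
def UF (X : Type*) [TopologicalSpace X] : Ultrafilter (DiscreteQuotient X) := Ultrafilter.of atBot

theorem UF_le : (UF X : Filter (DiscreteQuotient X)) ≤ atBot := Ultrafilter.of_le _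

/-- `a` is finer than `b` -/
def Refines {X ι κ : Type*} (a : X → ι) (b : X → κ) : Prop := ∀ s t, a s = a t → b s = b t

theorem eventually_refines {κ : Type*} {b : X → κ} (hb : IsLocallyConstant b) :
    ∀ᶠ Q : DiscreteQuotient X in atBot, Refines Q.proj b := by
  filter_upwards [eventually_le_atBot (LocallyConstant.discreteQuotient ⟨b, hb⟩)] with Q hQ s t h
  exact hQ (Quotient.exact h)

/-- the measurable structure is generated by the clopen sets -/
class ClopenSpace (X : Type*) [TopologicalSpace X] [m : MeasurableSpace X] : Prop where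
  eq : m = MeasurableSpace.generateFrom {U | IsClopen U}

end Top

section Op
variable {H : Type*} [NormedAddCommGroup H] [InnerProductSpace ℂ H] [CompleteSpace H]

/-- weak operator convergence -/
def WL {ι : Type*} (U : Filter ι) (T : ι → H →L[ℂ] H) (L : H →L[ℂ] H) : Prop :=
  ∀ η ζ, Tendsto (fun i => ⟪η, T i ζ⟫_ℂ) U (𝓝 ⟪η, L ζ⟫_ℂ)

/-- the weak operator limit (junk value if there is none) -/
def wlim {ι : Type*} (U : Filter ι) (T : ι → H →L[ℂ] H) : H →L[ℂ] H :=
  Classical.epsilon (WL U T)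

/-- `a s * y (s+1) * a (s+1) * y (s+2) * ... * a (s+n-1) * y (s+n)` -/
def seg {R : Type*} [Monoid R] (y a : ℕ → R) (s : ℕ) : ℕ → R
  | 0 => 1
  | n + 1 => seg y a s n * a (s + n) * y (s + n + 1)

end Op

/-- a von Neumann algebra with a maximal abelian subalgebra `ρ (C(X, ℂ))` -/
structure Setup (H X : Type*) [NormedAddCommGroup H] [InnerProductSpace ℂ H] [CompleteSpace H]
    [TopologicalSpace X] where
  M : VonNeumannAlgebra H
  ρ : C(X, ℂ) →⋆ₐ[ℂ] (H →L[ℂ] H)
  inj : Function.Injective ρ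
  mem : ∀ f, ρ f ∈ M
  max : ∀ y ∈ M, (∀ f, ρ f * y = y * ρ f) → ∃ f, ρ f = y

/-- moreover a separating vector whose state is `A`-central -/
structure Std (H X : Type*) [NormedAddCommGroup H] [InnerProductSpace ℂ H] [CompleteSpace H]
    [TopologicalSpace X] extends Setup H X where
  ξ : H
  sep : Dense {η | ∃ s ∈ M.commutant, s ξ = η}
  central : ∀ f, ∀ y ∈ M, ⟪ξ, (ρ f * y) ξ⟫_ℂ = ⟪ξ, (y * ρ f) ξ⟫_ℂ

variable {H : Type*} [NormedAddCommGroup H] [InnerProductSpace ℂ H] [CompleteSpace H]
  {X : Type*} [TopologicalSpace X] [CompactSpace X]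

namespace Setup
variable (S : Setup H X)

/-- the projection of a clopen set -/
def p (U : Set X) : H →L[ℂ] H := S.ρ (ind U)

/-- the paving of `y` along the partition `a` -/
def EP {ι : Type*} [Fintype ι] (a : X → ι) (y : H →L[ℂ] H) : H →L[ℂ] H :=
  ∑ i, S.p (a ⁻¹' {i}) * y * S.p (a ⁻¹' {i})

/-- the limit of the pavings -/
def E0 (y : H →L[ℂ] H) : H →L[ℂ] H := wlim (UF X) fun Q : DiscreteQuotient X => S.EP Q.proj y

/-- the conditional expectation, as a function on `X` (meaningful for `y ∈ M`) -/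
def E (y : H →L[ℂ] H) : C(X, ℂ) := Function.invFun S.ρ (S.E0 y)

end Setup

namespace Std
variable (S : Std H X)

/-- the state -/
def φ (y : H →L[ℂ] H) : ℂ := ⟪S.ξ, y S.ξ⟫_ℂ

/-- uniformly absolutely continuous families of vectors -/
def UAC (F : Set H) : Prop :=
  ∀ γ : ℝ, 0 < γ → ∃ K : ℝ, 0 ≤ K ∧ ∀ η ∈ F, ∀ d ∈ S.M, ‖d η‖ ^ 2 ≤ γ * ‖d‖ ^ 2 + K * ‖d S.ξ‖ ^ 2

/-- normalising unitaries with a bounded invertible Radon-Nikodym derivative -/
@[ext]
structure Nrm where
  u : H →L[ℂ] H
  θ : X ≃ₜ X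
  d : C(X, ℝ)
  mem : u ∈ S.M
  unit : u ∈ unitary (H →L[ℂ] H)
  conj : ∀ f : C(X, ℂ), star u * S.ρ f * u = S.ρ (f.comp ⟨θ, θ.continuous⟩)
  pos : ∀ t, 0 < d t
  rn : ∀ f : C(X, ℂ), S.φ (u * S.ρ f * star u) =
    S.φ (S.ρ (f * ⟨fun t => (d t : ℂ), by fun_prop⟩))

variable {S}

theorem Nrm.conj' (g : S.Nrm) (f : C(X, ℂ)) :
    g.u * S.ρ f * star g.u = S.ρ (f.comp ⟨g.θ.symm, g.θ.symm.continuous⟩) := by
  have h := g.conj (f.comp ⟨g.θ.symm, g.θ.symm.continuous⟩)
  have h2 : (f.comp ⟨g.θ.symm, g.θ.symm.continuous⟩).comp ⟨g.θ, g.θ.continuous⟩ = f := by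
    ext t; simp
  rw [h2] at h
  rw [← h]
  calc g.u * (star g.u * S.ρ (f.comp ⟨g.θ.symm, g.θ.symm.continuous⟩) * g.u) * star g.u
      = (g.u * star g.u) * S.ρ (f.comp ⟨g.θ.symm, g.θ.symm.continuous⟩) * (g.u * star g.u) := by
        simp only [mul_assoc]
    _ = _ := by rw [g.unit.2, one_mul, mul_one]

instance : One S.Nrm := ⟨
  { u := 1, θ := Homeomorph.refl X, d := 1, mem := one_mem _, unit := one_mem _
    conj := fun f => by
      rw [star_one, one_mul, mul_one]; rfl
    pos := fun _ => by simp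
    rn := fun f => by
      rw [star_one, one_mul, mul_one]
      congr 2
      ext t; simp }⟩

instance : Mul S.Nrm := ⟨fun g h =>
  { u := g.u * h.u, θ := h.θ.trans g.θ
    d := g.d.comp ⟨h.θ, h.θ.continuous⟩ * h.d
    mem := mul_mem g.mem h.mem, unit := mul_mem g.unit h.unit
    conj := fun f => by
      calc star (g.u * h.u) * S.ρ f * (g.u * h.u)
          = star h.u * (star g.u * S.ρ f * g.u) * h.u := by simp only [star_mul, mul_assoc]
        _ = _ := by rw [g.conj, h.conj]; rfl
    pos := fun t => mul_pos (g.pos _) (h.pos _)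
    rn := fun f => by
      have e1 : g.u * h.u * S.ρ f * star (g.u * h.u) =
          g.u * (h.u * S.ρ f * star h.u) * star g.u := by simp only [star_mul, mul_assoc]
      rw [e1, h.conj', g.rn]
      have e2 := h.rn (f * ⟨fun t => (g.d (h.θ t) : ℂ), by fun_prop⟩)
      rw [h.conj'] at e2
      convert e2 using 3
      · ext t; simp
      · ext t; simp [mul_assoc] }⟩

instance : Inv S.Nrm := ⟨fun g =>
  { u := star g.u, θ := g.θ.symm
    d := ⟨fun t => (g.d (g.θ.symm t))⁻¹,
      Continuous.inv₀ (by fun_prop) fun t => (g.pos _).ne'⟩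
    mem := star_mem g.mem, unit := Unitary.star_mem g.unit
    conj := fun f => by rw [star_star]; exact g.conj' f
    pos := fun t => inv_pos.2 (g.pos _)
    rn := fun f => by
      rw [star_star, g.conj]
      have hc : Continuous fun t => ((g.d t : ℝ) : ℂ)⁻¹ :=
        Continuous.inv₀ (by fun_prop) fun t => by exact_mod_cast (g.pos t).ne'
      have e2 := g.rn (f.comp ⟨g.θ, g.θ.continuous⟩ * ⟨fun t => ((g.d t : ℝ) : ℂ)⁻¹, hc⟩)
      rw [g.conj'] at e2
      symm
      convert e2 using 3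
      · ext t; simp
      · ext t
        have : ((g.d t : ℝ) : ℂ) ≠ 0 := by exact_mod_cast (g.pos t).ne'
        simp [mul_assoc, this] }⟩

@[simp] theorem Nrm.one_u : (1 : S.Nrm).u = 1 := rfl
@[simp] theorem Nrm.mul_u (g h : S.Nrm) : (g * h).u = g.u * h.u := rfl
@[simp] theorem Nrm.inv_u (g : S.Nrm) : (g⁻¹).u = star g.u := rfl
@[simp] theorem Nrm.one_θ (t : X) : (1 : S.Nrm).θ t = t := rfl
@[simp] theorem Nrm.mul_θ (g h : S.Nrm) (t : X) : (g * h).θ t = g.θ (h.θ t) := rfl
@[simp] theorem Nrm.inv_θ (g : S.Nrm) (t : X) : (g⁻¹).θ t = g.θ.symm t := rfl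
@[simp] theorem Nrm.one_d (t : X) : (1 : S.Nrm).d t = 1 := rfl
@[simp] theorem Nrm.mul_d (g h : S.Nrm) (t : X) : (g * h).d t = g.d (h.θ t) * h.d t := rfl
@[simp] theorem Nrm.inv_d (g : S.Nrm) (t : X) : (g⁻¹).d t = (g.d (g.θ.symm t))⁻¹ := rfl

instance : Group S.Nrm where
  mul_assoc a b c := Nrm.ext (mul_assoc _ _ _) rfl (by ext t; simp [mul_assoc])
  one_mul a := Nrm.ext (one_mul _) rfl (by ext t; simp)
  mul_one a := Nrm.ext (mul_one _) rfl (by ext t; simp)
  inv_mul_cancel a := Nrm.ext a.unit.1 (by ext t; simp)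
    (by ext t; simp [(a.pos t).ne'])

instance : MulAction S.Nrm X where
  smul g t := g.θ t
  one_smul _ := rfl
  mul_smul _ _ _ := rfl

theorem Nrm.smul_def (g : S.Nrm) (t : X) : g • t = g.θ t := rfl

theorem Nrm.continuous_smul (g : S.Nrm) : Continuous fun t : X => g • t := g.θ.continuous

variable (S)

/-- the span of `V · A` -/
def NV (V : Set S.Nrm) : Submodule ℂ (H →L[ℂ] H) :=
  Submodule.span ℂ {y | ∃ g ∈ V, ∃ f, y = g.u * S.ρ f}

/-- the algebraic crossed product -/
def N0 : Submodule ℂ (H →L[ℂ] H) := S.NV Set.univ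

/-- the closure of `N0 ξ` -/
def Hd : Submodule ℂ H :=
  (Submodule.span ℂ {η | ∃ (g : S.Nrm) (f : C(X, ℂ)), η = g.u (S.ρ f S.ξ)}).topologicalClosure

instance : S.Hd.HasOrthogonalProjection := by
  unfold Hd; infer_instance

/-- the normaliser algebra -/
def Nn (y : H →L[ℂ] H) : Prop := y ∈ S.M ∧ y S.ξ ∈ S.Hd

/-- its orthogonal complement -/
def Mo (y : H →L[ℂ] H) : Prop := y ∈ S.M ∧ y S.ξ ∈ S.Hdᗮ

/-- functions that depend on the labels `lam` at finitely many translates of the point -/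
def IsRF {L : ℕ} (c : (X → Fin L) → C(X, ℂ)) : Prop :=
  ∃ (ι : Type) (_ : Fintype ι) (w : ι → S.Nrm) (f : (ι → Fin L) → C(X, ℂ)),
    ∀ lam, IsLocallyConstant lam → ∀ t, c lam t = f (fun i => lam (w i • t)) t

/-- base point of the orbit -/
def base (t : X) : X := Quotient.out (Quotient.mk (MulAction.orbitRel S.Nrm X) t)

theorem exists_smul_base (t : X) : ∃ g : S.Nrm, g • S.base t = t := by
  have h : (MulAction.orbitRel S.Nrm X) t (S.base t) :=
    (MulAction.orbitRel S.Nrm X).symm (Quotient.mk_out (s := MulAction.orbitRel S.Nrm X) t)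
  exact h

/-- a normalising unitary that moves the base point to `t` -/
def vv (t : X) : S.Nrm := (S.exists_smul_base t).choose

theorem vv_smul (t : X) : S.vv t • S.base t = t := (S.exists_smul_base t).choose_spec

/-- the matrix of `y` on the orbits -/
def ker (y : H →L[ℂ] H) (s t : X) : ℂ :=
  if S.base s = S.base t then S.E (star (S.vv s).u * y * (S.vv t).u) (S.base t) else 0

end Std

/-- mean zero for independent uniform labels on the atoms of all fine partitions -/
def Cent {L : ℕ} (c : (X → Fin L) → C(X, ℂ)) : Prop :=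
  ∀ᶠ Q : DiscreteQuotient X in atBot, ∀ t, ∑ l : Q → Fin L, c (l ∘ Q.proj) t = 0

end

end Crest.Agent.R109
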