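import Crest.Agent.R109.Corner

/-!
# Row 109: the dichotomy
-/

open Filter Topology
open scoped InnerProductSpace BigOperators ComplexOrder

set_option linter.unusedSectionVars false

namespace Crest.Agent.R109

noncomputable section

open Classical

variable {H : Type*} [NormedAddCommGroup H] [InnerProductSpace ℂ H] [CompleteSpace H]
  {X : Type*} [TopologicalSpace X] [CompactSpace X] [T2Space X] [ExtremallyDisconnected X]

universe u

section Blocks
variable {L : Type*} [NormedAddCommGroup L] [InnerProductSpace ℂ L] [CompleteSpace L]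

/-- first inclusion -/
def Dich_J1 : H →L[ℂ] WithLp 2 (H × L) :=
  (WithLp.prodContinuousLinearEquiv 2 ℂ H L).symm.toContinuousLinearMap ∘L
    ContinuousLinearMap.inl ℂ H L

/-- second inclusion -/
def Dich_J2 : L →L[ℂ] WithLp 2 (H × L) :=
  (WithLp.prodContinuousLinearEquiv 2 ℂ H L).symm.toContinuousLinearMap ∘L
    ContinuousLinearMap.inr ℂ H L

@[simp] theorem Dich_J1_fst (h : H) : (Dich_J1 (L := L) h).fst = h := rfl
@[simp] theorem Dich_J1_snd (h : H) : (Dich_J1 (L := L) h).snd = 0 := rfl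
@[simp] theorem Dich_J2_fst (h : L) : (Dich_J2 (H := H) h).fst = 0 := rfl
@[simp] theorem Dich_J2_snd (h : L) : (Dich_J2 (H := H) h).snd = h := rfl

theorem Dich_norm_J1 (h : H) : ‖Dich_J1 (L := L) h‖ = ‖h‖ := WithLp.norm_toLp_fst 2 H L h

/-- block operators -/
def Dich_blk (a : H →L[ℂ] H) (b : L →L[ℂ] H) (c : H →L[ℂ] L) (d : L →L[ℂ] L) :
    WithLp 2 (H × L) →L[ℂ] WithLp 2 (H × L) :=
  Dich_J1 ∘L (a ∘L WithLp.fstL 2 ℂ H L + b ∘L WithLp.sndL 2 ℂ H L) +
    Dich_J2 ∘L (c ∘L WithLp.fstL 2 ℂ H L + d ∘L WithLp.sndL 2 ℂ H L)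

@[simp] theorem Dich_fst (a : H →L[ℂ] H) (b : L →L[ℂ] H) (c : H →L[ℂ] L) (d : L →L[ℂ] L)
    (v : WithLp 2 (H × L)) : (Dich_blk a b c d v).fst = a v.fst + b v.snd := add_zero _

@[simp] theorem Dich_snd (a : H →L[ℂ] H) (b : L →L[ℂ] H) (c : H →L[ℂ] L) (d : L →L[ℂ] L)
    (v : WithLp 2 (H × L)) : (Dich_blk a b c d v).snd = c v.fst + d v.snd := zero_add _

theorem Dich_vext {v w : WithLp 2 (H × L)} (h1 : v.fst = w.fst) (h2 : v.snd = w.snd) : v = w :=
  WithLp.ofLp_injective 2 (Prod.ext h1 h2)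

theorem Dich_ext {a b : WithLp 2 (H × L) →L[ℂ] WithLp 2 (H × L)}
    (h : ∀ v, (a v).fst = (b v).fst ∧ (a v).snd = (b v).snd) : a = b :=
  ContinuousLinearMap.ext fun v => Dich_vext (h v).1 (h v).2

theorem Dich_diag_mul (a a' : H →L[ℂ] H) (d d' : L →L[ℂ] L) :
    Dich_blk a 0 0 d * Dich_blk a' 0 0 d' = Dich_blk (a * a') 0 0 (d * d') :=
  Dich_ext fun v => by simp

theorem Dich_diag_star (a : H →L[ℂ] H) (d : L →L[ℂ] L) :
    star (Dich_blk a 0 0 d) = Dich_blk (star a) 0 0 (star d) := by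
  rw [ContinuousLinearMap.star_eq_adjoint, eq_comm, ContinuousLinearMap.eq_adjoint_iff]
  intro v w
  change ⟪(Dich_blk (star a) 0 0 (star d) v).fst, w.fst⟫_ℂ +
    ⟪(Dich_blk (star a) 0 0 (star d) v).snd, w.snd⟫_ℂ =
    ⟪v.fst, (Dich_blk a 0 0 d w).fst⟫_ℂ + ⟪v.snd, (Dich_blk a 0 0 d w).snd⟫_ℂ
  simp [ContinuousLinearMap.star_eq_adjoint, ContinuousLinearMap.adjoint_inner_left]

theorem Dich_diag (b : WithLp 2 (H × L) →L[ℂ] WithLp 2 (H × L))
    (h : Dich_blk 1 0 0 0 * b = b * Dich_blk 1 0 0 0) : ∃ b₁ b₂, b = Dich_blk b₁ 0 0 b₂ := by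
  have h1 : ∀ v, Dich_J1 (b v).fst = b (Dich_J1 v.fst) := fun v => by
    have e : ∀ w : WithLp 2 (H × L), Dich_blk 1 0 0 0 w = Dich_J1 w.fst := fun w =>
      Dich_vext (by simp) (by simp)
    rw [← e, ← e]
    exact congrArg (fun a : WithLp 2 (H × L) →L[ℂ] WithLp 2 (H × L) => a v) h
  refine ⟨WithLp.fstL 2 ℂ H L ∘L b ∘L Dich_J1, WithLp.sndL 2 ℂ H L ∘L b ∘L Dich_J2,
    Dich_ext fun v => ⟨?_, ?_⟩⟩
  · simpa using congrArg WithLp.fst (h1 v)
  · have e : v = Dich_J1 v.fst + Dich_J2 v.snd := Dich_vext (by simp) (by simp)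
    conv_lhs => rw [e, map_add, ← h1]
    simp

/-- the direct sum of the identity representation and `π` -/
def Dich_σ (π : (H →L[ℂ] H) →⋆ₐ[ℂ] (L →L[ℂ] L)) :
    (H →L[ℂ] H) →⋆ₐ[ℂ] (WithLp 2 (H × L) →L[ℂ] WithLp 2 (H × L)) where
  toFun y := Dich_blk y 0 0 (π y)
  map_one' := Dich_ext fun v => by simp
  map_mul' y y' := by rw [Dich_diag_mul, map_mul]
  map_zero' := Dich_ext fun v => by simp
  map_add' y y' := Dich_ext fun v => by simp
  commutes' c := Dich_ext fun v => by simp [Algebra.algebraMap_eq_smul_one]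
  map_star' y := by rw [Dich_diag_star, map_star]

theorem Dich_σ_apply (π : (H →L[ℂ] H) →⋆ₐ[ℂ] (L →L[ℂ] L)) (y : H →L[ℂ] H) :
    Dich_σ π y = Dich_blk y 0 0 (π y) := rfl

end Blocks

/-- Recipe: `exists_gns`, `exists_e_eq`, `GnsData.sing`, and `corner_paving` with
`G = WithLp 2 (H × L)`, `σ y = y ⊕ π y`, `R = e ⊕ π e z`, `ξ = (0, z ζ)`, `η' i = (e (η i), 0)`.
`hbi`: `b` commutes with `1 ⊕ 0`, so `b = b₁ ⊕ b₂`; with `s ⊕ 0` (`s ∈ M'`), so `b₁ ∈ M`; with the
lower-left block `t ∈ Int` (it commutes with `R`: `π e z t = t e`), so `b₂ t = π b₁ t` and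
`b₂ z = π b₁ z` (`eq_zero_of_comp_int`); use `b R = b`.
`hsep`: the set is a subspace `W` invariant under these operators; it contains `(t⋆ ζ, 0)`, hence its
closure contains `eS ⊕ 0`, and then `(0, t h)` for `h ∈ eS`; and `π e z L` is the closed span of the
`π e t h = t (e h)`. -/
theorem dichotomy {H : Type u} [NormedAddCommGroup H] [InnerProductSpace ℂ H] [CompleteSpace H]
    (S : Setup H X) {ι : Type*} [Fintype ι] (η : ι → H) :
    ∃ U : Set X, IsClopen U ∧ S.Sing (fun i => S.p Uᶜ (η i)) ∧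
      ∀ x ∈ S.M, IsSelfAdjoint x → ‖x‖ ≤ 1 → ∀ L : ℕ, 0 < L → ∀ δ : ℝ, 0 < δ →
      ∃ p : Fin (2 * L) → H →L[ℂ] H, IsPart (Set.range S.ρ) (S.p U) p ∧
        ∃ a ∈ Set.range S.ρ, IsSelfAdjoint a ∧ ‖a‖ ≤ 1 ∧ S.p U * a = a ∧
        ∃ r ∈ S.M, IsStarProjection r ∧ S.p U * r = r ∧ (∀ i, p i * r = r * p i) ∧
          (∑ i, p i * x * p i - a) * r = r * (∑ i, p i * x * p i - a) ∧ (∀ i, ‖r (η i)‖ < δ) ∧
          ‖(∑ i, p i * x * p i - a) * (1 - r)‖ ≤ 16000 / √(2 * L) := by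
  obtain ⟨L, _, _, _, ⟨D⟩⟩ := exists_gns S η
  obtain ⟨U, hU, he⟩ := D.exists_e_eq
  refine ⟨U, hU, ?_, fun x hx hsa hn N hN δ hδ => ?_⟩
  · have := D.sing
    rwa [he, ← S.p_compl hU] at this
  have eM : S.p U ∈ S.M := S.p_mem U
  have pU := S.isStarProjection_p U
  have pz := D.isStarProjection_z
  have ee : S.p U * S.p U = S.p U := pU.isIdempotentElem.eq
  have zz : D.z * D.z = D.z := pz.isIdempotentElem.eq
  have ez := D.π_mul_z eM
  have ee' : ∀ v, S.p U (S.p U v) = S.p U v := fun v => congrArg (fun a : H →L[ℂ] H => a v) ee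
  have hR2 : D.π (S.p U) * D.z * (D.π (S.p U) * D.z) = D.π (S.p U) * D.z := by
    rw [mul_assoc, ← mul_assoc D.z, ← ez, mul_assoc, zz, ← mul_assoc, ← map_mul, ee]
  have hR3 : star (D.π (S.p U) * D.z) = D.π (S.p U) * D.z := by
    rw [star_mul, pz.isSelfAdjoint.star_eq, ← map_star, pU.isSelfAdjoint.star_eq, ez]
  have hξ : (D.π (S.p U) * D.z) (D.z D.ζ) = D.z D.ζ := by
    have := D.π_e_z_ζ
    rw [he] at this
    rw [mul_apply_eq_comp, ← mul_apply_eq_comp D.z, zz, this]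
  -- intertwiners
  have t1 : ∀ {t : H →L[ℂ] L}, D.Int t → ∀ y ∈ S.M, ∀ h, t (y h) = D.π y (t h) :=
    fun ht y hy h => congrArg (fun a : H →L[ℂ] L => a h) (ht y hy)
  have t2 : ∀ {t : H →L[ℂ] L}, D.Int t → ∀ h, D.z (t h) = t h :=
    fun ht h => congrArg (fun a : H →L[ℂ] L => a h) (D.z_comp ht)
  have t3 : ∀ {t : H →L[ℂ] L}, D.Int t → ∀ y ∈ S.M, ∀ v,
      ContinuousLinearMap.adjoint t (D.π y v) = y (ContinuousLinearMap.adjoint t v) :=
    fun {t} ht y hy v => ext_inner_left ℂ fun h => by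
      rw [ContinuousLinearMap.adjoint_inner_right, ← ContinuousLinearMap.adjoint_inner_left,
        ← ContinuousLinearMap.star_eq_adjoint, ← map_star, ← t1 ht _ (star_mem hy),
        ← ContinuousLinearMap.adjoint_inner_right, ContinuousLinearMap.star_eq_adjoint,
        ContinuousLinearMap.adjoint_inner_left]
  have t4 : ∀ {t : H →L[ℂ] L}, D.Int t → ∀ v,
      ContinuousLinearMap.adjoint t (D.z v) = ContinuousLinearMap.adjoint t v :=
    fun {t} ht v => ext_inner_left ℂ fun h => by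
      rw [ContinuousLinearMap.adjoint_inner_right, ← ContinuousLinearMap.adjoint_inner_left,
        ← ContinuousLinearMap.star_eq_adjoint, pz.isSelfAdjoint.star_eq, t2 ht,
        ContinuousLinearMap.adjoint_inner_right]
  set R := Dich_blk (S.p U) 0 0 (D.π (S.p U) * D.z) with hR
  -- the four kinds of commuting operators
  let C : (WithLp 2 (H × L) →L[ℂ] WithLp 2 (H × L)) → Prop := fun s =>
    (∀ y ∈ S.M, s * Dich_σ D.π y = Dich_σ D.π y * s) ∧ s * R = R * s
  have c1 : C (Dich_blk 1 0 0 0) :=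
    ⟨fun y _ => Dich_ext fun v => by simp [Dich_σ_apply], Dich_ext fun v => by simp [hR]⟩
  have c2 : ∀ s ∈ S.M.commutant, C (Dich_blk s 0 0 0) := fun s hs =>
    have h : ∀ y ∈ S.M, ∀ v, s (y v) = y (s v) := fun y hy v =>
      congrArg (fun a : H →L[ℂ] H => a v) (vn_commute hy hs)
    ⟨fun y hy => Dich_ext fun v => by simp [Dich_σ_apply, h y hy],
      Dich_ext fun v => by simp [hR, h _ eM]⟩
  have c3 : ∀ t, D.Int t → C (Dich_blk 0 0 t 0) := fun t ht =>
    ⟨fun y hy => Dich_ext fun v => by simp [Dich_σ_apply, t1 ht y hy],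
      Dich_ext fun v => by simp [hR, t1 ht _ eM, t2 ht]⟩
  have c4 : ∀ t, D.Int t → C (Dich_blk 0 (ContinuousLinearMap.adjoint t) 0 0) := fun t ht =>
    ⟨fun y hy => Dich_ext fun v => by simp [Dich_σ_apply, t3 ht y hy],
      Dich_ext fun v => by simp [hR, t3 ht _ eM, t4 ht]⟩
  refine corner_paving S (Dich_σ D.π) (R := R) ⟨?_, ?_⟩ hU (fun y hy hye => ?_) ?_
    (fun y _ hye => ?_) (fun b hb hbs => ?_) (Dich_J2 (D.z D.ζ)) ?_ (fun v hv => ?_)
    (fun f y hy => ?_) η (fun i => Dich_J1 (S.p U (η i))) (fun i => ?_) (fun i y _ hye => ?_)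
    hx hsa hn hN hδ
  · rw [IsIdempotentElem, hR, Dich_diag_mul, ee, hR2]
  · rw [IsSelfAdjoint, hR, Dich_diag_star, pU.isSelfAdjoint.star_eq, hR3]
  · rw [hR, Dich_σ_apply, Dich_diag_mul, Dich_diag_mul, hye, ← mul_assoc, ← map_mul, ← hye,
      map_mul, mul_assoc, D.π_mul_z hy, mul_assoc]
  · rw [hR, Dich_σ_apply, Dich_diag_mul, ee, ← mul_assoc, ← map_mul, ee]
  · refine ContinuousLinearMap.opNorm_le_bound _ (norm_nonneg _) fun h => ?_
    have hy2 : y * S.p U = y := by rw [← hye, mul_assoc _ (S.p U), ee]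
    have h1 : ((Dich_σ D.π y * R) (Dich_J1 h)).fst = y h := by
      simp only [hR, Dich_σ_apply, Dich_diag_mul, hy2]
      simp
    rw [← h1, ← Dich_norm_J1 (L := L) h]
    exact (WithLp.norm_fst_le _ _).trans (ContinuousLinearMap.le_opNorm _ _)
  · obtain ⟨b₁, b₂, rfl⟩ := Dich_diag b (hbs _ c1.1 c1.2)
    have hb1 : b₁ ∈ S.M := vn_mem_of_commute fun s hs => by
      ext h
      simpa using congrArg (fun a => (a (Dich_J1 h)).fst) (hbs _ (c2 s hs).1 (c2 s hs).2)
    have hb2 : (b₂ - D.π b₁) ∘L D.z = 0 := D.eq_zero_of_comp_int fun t ht => by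
      ext h
      have := congrArg (fun a => (a (Dich_J1 h)).snd) (hbs _ (c3 t ht).1 (c3 t ht).2)
      simp only [mul_apply_eq_comp, Dich_snd, Dich_fst, Dich_J1_fst, Dich_J1_snd, map_zero,
        add_zero, zero_apply, zero_add] at this
      simp [← this, t1 ht _ hb1]
    have hb3 : b₂ * D.z = D.π b₁ * D.z := by
      rw [← sub_eq_zero, ← sub_mul]
      exact hb2
    refine ⟨b₁, hb1, ?_⟩
    rw [← hb, hR, Dich_σ_apply, Dich_diag_mul, Dich_diag_mul, ez, ← mul_assoc, ← mul_assoc, hb3]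
  · exact Dich_vext (by simp [hR]) (by simpa [hR] using hξ)
  · let W : Submodule ℂ (WithLp 2 (H × L)) :=
      { carrier := {w | ∃ s : WithLp 2 (H × L) →L[ℂ] WithLp 2 (H × L),
          (∀ y ∈ S.M, s * Dich_σ D.π y = Dich_σ D.π y * s) ∧ s * R = R * s ∧
            s (Dich_J2 (D.z D.ζ)) = w}
        zero_mem' := ⟨0, by simp, by simp, rfl⟩
        add_mem' := by
          rintro _ _ ⟨s, h1, h2, rfl⟩ ⟨s', h1', h2', rfl⟩
          exact ⟨s + s', fun y hy => by rw [add_mul, mul_add, h1 y hy, h1' y hy],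
            by rw [add_mul, mul_add, h2, h2'], rfl⟩
        smul_mem' := by
          rintro c _ ⟨s, h1, h2, rfl⟩
          exact ⟨c • s, fun y hy => by rw [smul_mul_assoc, mul_smul_comm, h1 y hy],
            by rw [smul_mul_assoc, mul_smul_comm, h2], rfl⟩ }
    have hcl : IsClosed (W.topologicalClosure : Set (WithLp 2 (H × L))) :=
      W.isClosed_topologicalClosure
    have hinv : ∀ s, C s → ∀ w ∈ W.topologicalClosure, s w ∈ W.topologicalClosure := by
      intro s hs w hw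
      refine map_mem_closure (s := (W : Set (WithLp 2 (H × L))))
        (t := (W : Set (WithLp 2 (H × L)))) s.continuous hw ?_
      rintro _ ⟨s', h1, h2, rfl⟩
      exact ⟨s * s', fun y hy => by rw [mul_assoc, h1 y hy, ← mul_assoc, hs.1 y hy, mul_assoc],
        by rw [mul_assoc, h2, ← mul_assoc, hs.2, mul_assoc], rfl⟩
    have k1 : ∀ h ∈ D.eS, Dich_J1 h ∈ W.topologicalClosure := by
      refine apply_mem_closure_span hcl Dich_J1 ?_
      rintro _ ⟨t, ht, rfl⟩
      exact W.le_topologicalClosure ⟨_, (c4 t ht).1, (c4 t ht).2,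
        Dich_vext (by simp [t4 ht]) (by simp)⟩
    have k2 : ∀ h, Dich_J1 (S.p U h) ∈ W.topologicalClosure := fun h =>
      k1 _ (he ▸ D.eS.starProjection_apply_mem h)
    have k3 : ∀ w ∈ D.Z, (Dich_J2 ∘L D.π (S.p U)) w ∈ W.topologicalClosure := by
      refine apply_mem_closure_span hcl _ ?_
      rintro _ ⟨t, h, ht, rfl⟩
      convert hinv _ (c3 t ht) _ (k2 h) using 1
      exact Dich_vext (by simp) (by simp [t1 ht _ eM])
    have k4 := add_mem (k2 v.fst) (k3 _ (D.Z.starProjection_apply_mem v.snd))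
    change v ∈ W.topologicalClosure
    convert k4 using 1
    rw [← hv]
    exact Dich_vext (by simp [hR, ee']) (by
      have := congrArg (fun a : L →L[ℂ] L => a v.snd) hR2
      simpa [hR, GnsData.z] using this.symm)
  · simpa [Dich_σ_apply, WithLp.prod_inner_apply] using D.central f hy
  · exact Dich_vext (by simp [hR, ee']) (by simp [hR])
  · have h1 : (Dich_σ D.π y (Dich_J1 (S.p U (η i)))).fst = y (η i) := by
      conv_rhs => rw [← hye]
      simp [Dich_σ_apply]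
    rw [← h1]
    exact WithLp.norm_fst_le _ _

end

end Crest.Agent.R109
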