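import Crest.Agent.R109.VN

/-!
# Row 109: the spectrum of a maximal abelian subalgebra
-/

open Filter Topology
open scoped InnerProductSpace BigOperators

set_option linter.unusedSectionVars false

namespace Crest.Agent.R109

noncomputable section

universe u

theorem Gelfand_urysohn {X : Type*} [TopologicalSpace X] [CompactSpace X] [T2Space X] {C : Set X}
    (hC : IsClosed C) {t : X} (ht : t ∉ C) : ∃ f : C(X, ℂ), f t = 1 ∧ ∀ s ∈ C, f s = 0 := by
  obtain ⟨f, h0, h1, -⟩ := exists_continuous_zero_one_of_isClosed hC (isClosed_singleton (x := t))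
    (Set.disjoint_singleton_right.2 ht)
  refine ⟨ContinuousMap.comp ⟨Complex.ofReal, Complex.continuous_ofReal⟩ f, ?_, fun s hs => ?_⟩
  · show ((f t : ℝ) : ℂ) = 1
    rw [h1 (Set.mem_singleton t)]
    simp
  · show ((f s : ℝ) : ℂ) = 0
    rw [h0 hs]
    simp

/-- Recipe: for `O` open let `r` be the projection onto the closed span of the vectors `ρ f η`,
`f` vanishing off `O`.  It commutes with `M'` and with `ρ`, so `r = ρ g` with `g` idempotent, the
indicator function of a clopen set `U`.  Urysohn (`exists_continuous_zero_one_of_isClosed`):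
`f g = f` shows `O ⊆ U`; if `t ∉ closure O` take `f₀ t = 1`, `f₀ = 0` on `closure O`: `ρ f₀ r = 0`,
so `g t = 0`.  Hence `U = closure O`. -/
theorem Setup.extremallyDisconnected {H : Type*} [NormedAddCommGroup H] [InnerProductSpace ℂ H]
    [CompleteSpace H] {X : Type*} [TopologicalSpace X] [CompactSpace X] [T2Space X]
    (S : Setup H X) : ExtremallyDisconnected X := by
  refine ⟨fun O hO => ?_⟩
  let s' : Set H := {ζ | ∃ (f : C(X, ℂ)) (η : H), (∀ t, t ∉ O → f t = 0) ∧ ζ = S.ρ f η}
  let K : Submodule ℂ H := (Submodule.span ℂ s').topologicalClosure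
  have hK : IsClosed (K : Set H) := Submodule.isClosed_topologicalClosure _
  have : CompleteSpace K := hK.completeSpace_coe
  have hgen : ∀ ζ ∈ s', ζ ∈ K := fun ζ h =>
    Submodule.le_topologicalClosure _ (Submodule.subset_span h)
  have hinv : ∀ a : H →L[ℂ] H, (∀ f, a * S.ρ f = S.ρ f * a) → ∀ η ∈ K, a η ∈ K := by
    intro a ha
    refine apply_mem_closure_span hK a ?_
    rintro _ ⟨f, η, hf, rfl⟩
    refine hgen _ ⟨f, a η, hf, ?_⟩
    exact congrArg (fun T : H →L[ℂ] H => T η) (ha f)
  have hcomm : ∀ f f', S.ρ f * S.ρ f' = S.ρ f' * S.ρ f := fun f f' => by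
    rw [← map_mul, ← map_mul, mul_comm]
  have hrM : K.starProjection ∈ S.M := by
    refine vn_mem_of_commute fun s hs => commute_starProjection K ?_ ?_
    · exact hinv s fun f => vn_commute (S.mem f) hs
    · exact hinv (star s) fun f => vn_commute (S.mem f) (star_mem hs)
  obtain ⟨g, hg⟩ := S.max _ hrM fun f => commute_starProjection K (hinv _ (hcomm f)) (by
    rw [← map_star]
    exact hinv _ (hcomm _))
  have h1 : ∀ t ∈ O, g t = 1 := by
    intro t ht
    obtain ⟨f, hf1, hf0⟩ := Gelfand_urysohn hO.isClosed_compl (t := t) (by simpa using ht)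
    have e : g * f = f := by
      apply S.inj
      rw [map_mul, hg]
      ext η
      exact Submodule.starProjection_eq_self_iff.2 (hgen _ ⟨f, η, hf0, rfl⟩)
    have := congrArg (fun h : C(X, ℂ) => h t) e
    simpa [hf1] using this
  have h0 : ∀ t, t ∉ closure O → g t = 0 := by
    intro t ht
    obtain ⟨f, hf1, hf0⟩ := Gelfand_urysohn isClosed_closure ht
    have hkill : ∀ η ∈ K, S.ρ f η ∈ (⊥ : Submodule ℂ H) := by
      refine apply_mem_closure_span (K := ⊥) (by simp) (S.ρ f) ?_
      rintro _ ⟨f', η, hf', rfl⟩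
      have e : f * f' = 0 := by
        ext s
        by_cases hs : s ∈ O
        · simp [hf0 s (subset_closure hs)]
        · simp [hf' s hs]
      have e2 : S.ρ f (S.ρ f' η) = S.ρ (f * f') η := by
        rw [map_mul]
        rfl
      rw [e2, e, map_zero]
      exact Submodule.zero_mem _
    have e : f * g = 0 := by
      apply S.inj
      rw [map_mul, hg, map_zero]
      ext η
      exact hkill _ (K.starProjection_apply_mem η)
    have := congrArg (fun h : C(X, ℂ) => h t) e
    simpa [hf1] using this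
  have hcl : closure O = {t | g t ≠ 0} := by
    refine Set.Subset.antisymm (fun t ht => ?_) (fun t ht => by_contra fun h => ht (h0 t h))
    have : t ∈ {t | g t = 1} :=
      closure_minimal h1 (isClosed_eq g.continuous continuous_const) ht
    show g t ≠ 0
    rw [show g t = 1 from this]
    exact one_ne_zero
  rw [hcl]
  exact isOpen_ne_fun g.continuous continuous_const

/-- Recipe: `A` is closed (it is the centraliser of `A` in the closed set `M`); build a
`CommCStarAlgebra` structure on `↥A`; `X = WeakDual.characterSpace ℂ A`,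
`ρ = A.subtype.comp (gelfandStarTransform A).symm`. -/
theorem exists_setup {H : Type u} [NormedAddCommGroup H] [InnerProductSpace ℂ H] [CompleteSpace H]
    (M : VonNeumannAlgebra H) (A : StarSubalgebra ℂ (H →L[ℂ] H)) (hAM : A ≤ M.toStarSubalgebra)
    (hA : ∀ a ∈ A, ∀ b ∈ A, a * b = b * a)
    (hAmax : ∀ y ∈ M, (∀ a ∈ A, a * y = y * a) → y ∈ A) :
    ∃ (X : Type u) (_ : TopologicalSpace X) (_ : CompactSpace X) (_ : T2Space X)
      (_ : ExtremallyDisconnected X) (S : Setup H X), S.M = M ∧ ∀ y, y ∈ A ↔ ∃ f, S.ρ f = y := by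
  have hcl : IsClosed (A : Set (H →L[ℂ] H)) := by
    have e : (A : Set (H →L[ℂ] H)) = (M : Set (H →L[ℂ] H)) ∩ ⋂ a ∈ A, {y | a * y = y * a} := by
      ext y
      simp only [Set.mem_inter_iff, Set.mem_iInter, Set.mem_ofPred_eq, SetLike.mem_coe]
      exact ⟨fun hy => ⟨hAM hy, fun a ha => hA a ha y hy⟩, fun hy => hAmax y hy.1 hy.2⟩
    rw [e]
    exact (vn_isClosed M).inter (isClosed_biInter fun a _ =>
      isClosed_eq (continuous_const.mul continuous_id) (continuous_id.mul continuous_const))
  let _ : CommCStarAlgebra A :=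
    { StarSubalgebra.cstarAlgebra A (h_closed := hcl) with
      mul_comm := fun a b => Subtype.ext (hA a a.2 b b.2) }
  let ρ : C(WeakDual.characterSpace ℂ A, ℂ) →⋆ₐ[ℂ] (H →L[ℂ] H) :=
    A.subtype.comp ((gelfandStarTransform A).symm : C(WeakDual.characterSpace ℂ A, ℂ) →⋆ₐ[ℂ] A)
  have hρ : ∀ f, ρ f = ((gelfandStarTransform A).symm f : A) := fun f => rfl
  have hrange : ∀ y, y ∈ A ↔ ∃ f, ρ f = y := by
    intro y
    constructor
    · intro hy
      exact ⟨gelfandStarTransform A ⟨y, hy⟩, by rw [hρ, StarAlgEquiv.symm_apply_apply]⟩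
    · rintro ⟨f, rfl⟩
      exact ((gelfandStarTransform A).symm f).2
  let S : Setup H (WeakDual.characterSpace ℂ A) :=
    { M := M
      ρ := ρ
      inj := fun f f' h => (gelfandStarTransform A).symm.injective (Subtype.ext h)
      mem := fun f => hAM ((hrange _).2 ⟨f, rfl⟩)
      max := fun y hy h => (hrange y).1 (hAmax y hy fun a ha => by
        obtain ⟨f, rfl⟩ := (hrange a).1 ha
        exact h f) }
  exact ⟨WeakDual.characterSpace ℂ A, inferInstance, inferInstance, inferInstance,
    S.extremallyDisconnected, S, rfl, hrange⟩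

/-- A star homomorphism of `C(X, ℂ)` that is an involution comes from a homeomorphism.  Recipe:
`θ t = (WeakDual.CharacterSpace.homeoEval X ℂ).symm (ev_t ∘ α)`
(`WeakDual.CharacterSpace.compContinuousMap`). -/
theorem exists_homeo_of_invol {X : Type*} [TopologicalSpace X] [CompactSpace X] [T2Space X]
    (α : C(X, ℂ) →⋆ₐ[ℂ] C(X, ℂ)) (hα : ∀ f, α (α f) = f) :
    ∃ θ : X ≃ₜ X, ∀ f t, α f t = f (θ t) := by
  let e := WeakDual.CharacterSpace.homeoEval X ℂ
  let θ₀ : X → X := fun t => e.symm (WeakDual.CharacterSpace.compContinuousMap α (e t))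
  have hc : Continuous θ₀ :=
    e.symm.continuous.comp ((WeakDual.CharacterSpace.compContinuousMap α).continuous.comp
      e.continuous)
  have he : ∀ (t : X) (f : C(X, ℂ)), e t f = f t := fun _ _ => rfl
  have key : ∀ f t, α f t = f (θ₀ t) := by
    intro f t
    rw [← he (θ₀ t) f]
    simp only [θ₀, Homeomorph.apply_symm_apply]
    rfl
  have hinv : Function.Involutive θ₀ := by
    intro t
    apply e.injective
    ext f
    rw [he, he, ← key, ← key, hα]
  exact ⟨⟨hinv.toPerm, hc, hc⟩, key⟩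

/-- Frolík's theorem.  Recipe: Zorn gives a maximal open `O` with `O ∩ θ O = ∅`; its closure is
clopen with the same property (`ExtremallyDisconnected.disjoint_closure_of_disjoint_isOpen`), so `O`
is clopen.  A point outside `O ∪ θ O ∪ θ⁻¹ O` that is moved has a small open neighbourhood that can
be added to `O`. -/
theorem frolik {X : Type*} [TopologicalSpace X] [T2Space X] [ExtremallyDisconnected X]
    (θ : X ≃ₜ X) : ∃ O : Set X, IsClopen O ∧ Disjoint O (θ ⁻¹' O) ∧
      {t | θ t = t}ᶜ = O ∪ θ ⁻¹' O ∪ θ.symm ⁻¹' O := by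
  obtain ⟨O, hO⟩ := zorn_subset {O : Set X | IsOpen O ∧ Disjoint O (θ ⁻¹' O)} (by
    intro c hc hchain
    refine ⟨⋃₀ c, ⟨isOpen_sUnion fun O hO => (hc hO).1, ?_⟩, fun O hO => Set.subset_sUnion_of_mem hO⟩
    rw [Set.disjoint_left]
    rintro t ⟨O₁, h1, ht1⟩ ⟨O₂, h2, ht2⟩
    rcases hchain.total h1 h2 with h | h
    · exact Set.disjoint_left.1 (hc h2).2 (h ht1) ht2
    · exact Set.disjoint_left.1 (hc h1).2 ht1 (h ht2))
  have hopen : IsOpen O := hO.prop.1
  have hdisj : Disjoint O (θ ⁻¹' O) := hO.prop.2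
  have hclosed : IsClosed O := by
    have h1 : closure O ∈ {O : Set X | IsOpen O ∧ Disjoint O (θ ⁻¹' O)} := by
      refine ⟨ExtremallyDisconnected.open_closure O hopen, ?_⟩
      rw [θ.preimage_closure]
      exact ExtremallyDisconnected.disjoint_closure_of_disjoint_isOpen hdisj hopen
        (hopen.preimage θ.continuous)
    exact closure_subset_iff_isClosed.1 (hO.le_of_ge h1 subset_closure)
  refine ⟨O, ⟨hclosed, hopen⟩, hdisj, Set.Subset.antisymm (fun t ht => ?_) (fun t ht h => ?_)⟩
  · by_contra hn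
    have hC : IsClosed (O ∪ θ ⁻¹' O ∪ θ.symm ⁻¹' O) :=
      (hclosed.union (hclosed.preimage θ.continuous)).union (hclosed.preimage θ.symm.continuous)
    obtain ⟨U, V, hU, hV, htU, htV, hUV⟩ := t2_separation (Ne.symm (show θ t ≠ t from ht))
    have h1 : O ∪ U ∩ θ ⁻¹' V ∩ (O ∪ θ ⁻¹' O ∪ θ.symm ⁻¹' O)ᶜ ∈
        {O : Set X | IsOpen O ∧ Disjoint O (θ ⁻¹' O)} := by
      refine ⟨hopen.union ((hU.inter (hV.preimage θ.continuous)).inter hC.isOpen_compl), ?_⟩
      rw [Set.disjoint_left]
      rintro x (hx | hx) (hx' | hx')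
      · exact Set.disjoint_left.1 hdisj hx hx'
      · refine hx'.2 (Or.inr ?_)
        show θ.symm (θ x) ∈ O
        rwa [θ.symm_apply_apply]
      · exact hx.2 (Or.inl (Or.inr hx'))
      · exact Set.disjoint_left.1 hUV hx'.1.1 hx.1.2
    exact hn (Or.inl (Or.inl
      (hO.le_of_ge h1 Set.subset_union_left (Or.inr ⟨⟨htU, htV⟩, hn⟩))))
  · have h' : θ t = t := h
    have hO' : t ∈ O := by
      rcases ht with (ht | ht) | ht
      · exact ht
      · rwa [Set.mem_preimage, h'] at ht
      · rwa [Set.mem_preimage, ← h', θ.symm_apply_apply] at ht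
    exact Set.disjoint_left.1 hdisj hO' (by rwa [Set.mem_preimage, h'])

theorem isClopen_fix {X : Type*} [TopologicalSpace X] [T2Space X] [ExtremallyDisconnected X]
    (θ : X ≃ₜ X) : IsClopen {t | θ t = t} := by
  obtain ⟨O, hO, -, h⟩ := frolik θ
  rw [← isClopen_compl_iff, h]
  exact (hO.union (hO.preimage θ.continuous)).union (hO.preimage θ.symm.continuous)

/-- Fine partitions separate `θ t` from `θ' t` wherever they differ.  Recipe: `{θ t ≠ θ' t}` is
compact (`isClopen_fix` for `θ.trans θ'.symm`); around each of its points choose a clopen `V` with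
`θ t ∈ V`, `θ' t ∉ V`; finitely many suffice. -/
theorem eventually_separates {X : Type*} [TopologicalSpace X] [CompactSpace X] [T2Space X]
    [ExtremallyDisconnected X] (θ θ' : X ≃ₜ X) :
    ∀ᶠ Q : DiscreteQuotient X in atBot, ∀ t, Q.proj (θ t) = Q.proj (θ' t) → θ t = θ' t := by
  have hD : IsCompact {t | (θ.trans θ'.symm) t = t}ᶜ :=
    (isClopen_fix (θ.trans θ'.symm)).compl.isClosed.isCompact
  have hiff : ∀ t, (θ.trans θ'.symm) t = t ↔ θ t = θ' t := fun t => by
    rw [Homeomorph.trans_apply, Homeomorph.symm_apply_eq]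
  have key : ∀ᶠ Q : DiscreteQuotient X in atBot,
      ∀ t ∈ {t | (θ.trans θ'.symm) t = t}ᶜ, Q.proj (θ t) ≠ Q.proj (θ' t) := by
    refine hD.induction_on (p := fun A => ∀ᶠ Q : DiscreteQuotient X in atBot,
      ∀ t ∈ A, Q.proj (θ t) ≠ Q.proj (θ' t)) ?_ ?_ ?_ ?_
    · exact Eventually.of_forall fun _ _ h => h.elim
    · intro A B hAB hB
      exact hB.mono fun Q hQ t ht => hQ t (hAB ht)
    · intro A B hA hB
      filter_upwards [hA, hB] with Q h1 h2 t ht
      exact ht.elim (h1 t) (h2 t)
    · intro t ht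
      have hne : θ t ≠ θ' t := fun h => ht ((hiff t).2 h)
      obtain ⟨V, hV, h1, h2⟩ := exists_isClopen_of_totally_separated hne
      refine ⟨θ ⁻¹' V ∩ θ' ⁻¹' Vᶜ, mem_nhdsWithin_of_mem_nhds (IsOpen.mem_nhds
        ((hV.isOpen.preimage θ.continuous).inter (hV.compl.isOpen.preimage θ'.continuous))
        ⟨h1, h2⟩), ?_⟩
      filter_upwards [eventually_le_atBot (DiscreteQuotient.ofIsClopen hV)] with Q hQ s hs h
      have h3 : θ s ∈ V ↔ θ' s ∈ V := hQ (Quotient.exact h)
      exact hs.2 (h3.1 hs.1)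
  filter_upwards [key] with Q hQ t h
  by_contra hne
  exact hQ t (fun h' => hne ((hiff t).1 h')) h

end

end Crest.Agent.R109
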