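import Crest.Agent.R109.StdE
import Crest.Agent.R109.Gelfand

/-!
# Row 109: fixed points of normalising unitaries
-/

open Filter Topology
open scoped InnerProductSpace BigOperators ComplexOrder

set_option linter.unusedSectionVars false

namespace Crest.Agent.R109

noncomputable section

open Classical

variable {H : Type*} [NormedAddCommGroup H] [InnerProductSpace ℂ H] [CompleteSpace H]
  {X : Type*} [TopologicalSpace X] [CompactSpace X] [T2Space X] [ExtremallyDisconnected X]

namespace Std
variable (S : Std H X)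

theorem Fix_E_ne (g : S.Nrm) {t : X} (ht : g • t ≠ t) : S.E g.u t = 0 := by
  obtain ⟨V, hV, h1, h2⟩ := exists_clopen_nhds (isOpen_compl_singleton (x := g • t)) ht.symm
  have e := S.E_ρ_mul (ind V) g.mem
  rw [g.ρ_mul, S.E_mul_ρ _ g.mem] at e
  have e' := DFunLike.congr_fun e t
  have h3 : g.θ t ∉ V := fun h => h2 h rfl
  simpa [ind_apply hV, h1, h3] using e'.symm

/-- On the fixed set a normalising unitary lies in `A`.  Recipe: `isClopen_fix`; `u p_F` commutes
with `ρ`; off `F` use `frolik`: for a clopen `O` with `O ∩ θ⁻¹ O = ∅`,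
`E u · 1_O = 1_O E u 1_O = E (p_O u p_O) = E (u p_{θ⁻¹ O ∩ O}) = 0`. -/
theorem mul_p_fix (g : S.Nrm) :
    IsClopen {t : X | g • t = t} ∧ g.u * S.p {t : X | g • t = t} = S.ρ (S.E g.u) := by
  have hF : IsClopen {t : X | g • t = t} := isClopen_fix g.θ
  refine ⟨hF, ?_⟩
  obtain ⟨h, hh⟩ := S.max (g.u * S.p {t : X | g • t = t}) (mul_mem g.mem (S.p_mem _)) fun f => by
    rw [← mul_assoc, g.ρ_mul, mul_assoc, mul_assoc, Setup.p, ← map_mul, ← map_mul]
    congr 2
    ext t
    simp only [ContinuousMap.mul_apply, ind_apply hF, ContinuousMap.comp_apply,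
      ContinuousMap.coe_mk, Set.mem_ofPred_eq]
    split_ifs with ht
    · rw [show g.θ t = t from ht, mul_comm]
    · simp
  have e := S.E_mul_ρ (ind {t : X | g • t = t}) g.mem
  rw [← Setup.p, ← hh, S.E_ρ] at e
  rw [← hh, e]
  congr 1
  ext t
  rw [ContinuousMap.mul_apply, ind_apply hF]
  split_ifs with ht
  · exact mul_one _
  · rw [mul_zero, S.Fix_E_ne g ht]

theorem E_u_of_ne (g : S.Nrm) {t : X} (ht : g • t ≠ t) : S.E g.u t = 0 := by
  exact S.Fix_E_ne g ht

theorem E_u_of_eq (g : S.Nrm) {t : X} (ht : g • t = t) : star (S.E g.u t) * S.E g.u t = 1 := by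
  obtain ⟨hF, e⟩ := S.mul_p_fix g
  have e2 : S.ρ (star (S.E g.u) * S.E g.u) = S.ρ (ind {t : X | g • t = t}) := by
    rw [map_mul, map_star, ← e, star_mul, mul_assoc, ← mul_assoc (star g.u), g.unit.1, one_mul,
      (S.isStarProjection_p _).isSelfAdjoint.star_eq, (S.isStarProjection_p _).isIdempotentElem.eq,
      Setup.p]
  have e3 := DFunLike.congr_fun (S.inj e2) t
  rw [ind_apply hF, if_pos (show t ∈ {t : X | g • t = t} from ht)] at e3
  exact e3

theorem Fix_set (g g' : S.Nrm) : {t : X | g • t = g' • t} = {t : X | (g⁻¹ * g') • t = t} := by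
  ext t
  simp only [Set.mem_ofPred_eq, mul_smul, inv_smul_eq_iff]
  exact eq_comm

theorem isClopen_smul_eq (g g' : S.Nrm) : IsClopen {t : X | g • t = g' • t} := by
  rw [S.Fix_set]
  exact (S.mul_p_fix _).1

/-- two normalising unitaries with the same value at `t` agree near `t` up to a phase -/
theorem mul_p_eq (g g' : S.Nrm) :
    g'.u * S.p {t : X | g • t = g' • t} = g.u * S.ρ (S.E (star g.u * g'.u)) := by
  have e := (S.mul_p_fix (g⁻¹ * g')).2
  rw [Nrm.mul_u, Nrm.inv_u] at e
  rw [S.Fix_set, ← e, ← mul_assoc, ← mul_assoc, g.unit.2, one_mul]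

/-- `φ (u ρ(f 1_F) u⋆) = φ (u' ρ(f 1_F) u'⋆)`, `ext_φ` -/
theorem d_eq_of_smul_eq (g g' : S.Nrm) {t : X} (h : g • t = g' • t) : g.d t = g'.d t := by
  have hF := S.isClopen_smul_eq g g'
  have e := S.mul_p_eq g g'
  set F := {t : X | g • t = g' • t} with hFd
  set c := S.E (star g.u * g'.u) with hc
  have hcc : ∀ s, star (c s) * c s = ind F s := fun s => by
    rw [ind_apply hF, hFd, S.Fix_set]
    split_ifs with hs
    · exact S.E_u_of_eq (g⁻¹ * g') hs
    · rw [show c s = 0 from S.E_u_of_ne (g⁻¹ * g') hs, mul_zero]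
  have key : ind F * ⟨fun t => (g.d t : ℂ), by fun_prop⟩ =
      ind F * ⟨fun t => (g'.d t : ℂ), by fun_prop⟩ := S.ext_φ fun f => by
    rw [← mul_assoc, ← mul_assoc, ← g.rn, ← g'.rn]
    congr 1
    have e1 : f * ind F = c * f * star c := by
      ext s
      simp only [ContinuousMap.mul_apply, ContinuousMap.star_apply, ← hcc]
      ring
    have e2 : f * ind F = ind F * f * star (ind F) := by
      rw [star_ind, mul_comm (ind F), mul_assoc, ind_mul hF hF, Set.inter_self]
    calc _ = g.u * S.ρ c * S.ρ f * star (g.u * S.ρ c) := by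
          rw [e1]; simp only [map_mul, map_star, star_mul, mul_assoc]
      _ = _ := by rw [← e, e2, Setup.p]; simp only [map_mul, map_star, star_mul, mul_assoc]
  have e3 := DFunLike.congr_fun key t
  simpa [ind_apply hF, show t ∈ F from h] using e3

theorem eventually_sep {ι : Type*} [Finite ι] (w : ι → S.Nrm) :
    ∀ᶠ Q : DiscreteQuotient X in atBot, ∀ i j (t : X),
      Q.proj (w i • t) = Q.proj (w j • t) → w i • t = w j • t := by
  simp only [Filter.eventually_all]
  exact fun i j => eventually_separates (w i).θ (w j).θ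

end Std

end

end Crest.Agent.R109
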