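import Crest.Agent.R109.BarPoly

/-!
# Row 109, measured graphs: definitions, balls, mass transport
-/

open MeasureTheory
open scoped BigOperators Pointwise

set_option linter.unusedSectionVars false

namespace Crest.Agent.R109

noncomputable section

open Classical

/-- A Hermitian kernel of norm `≤ 1` on the orbit graph of a quasi-invariant group action.
`hh` is a (non-measurable) primitive of the Radon-Nikodym cocycle. -/
structure GraphData (Γ X : Type*) [Group Γ] [MulAction Γ X] [MeasurableSpace X]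
    (μ : Measure X) where
  V : Finset Γ
  one_mem : (1 : Γ) ∈ V
  inv_mem : ∀ v ∈ V, v⁻¹ ∈ V
  hh : X → ℝ
  T : ℝ
  Y : X → X → ℂ
  meas_smul : ∀ g : Γ, Measurable fun t : X => g • t
  meas_fix : ∀ g : Γ, MeasurableSet {t : X | g • t = t}
  meas_h : ∀ g : Γ, Measurable fun t : X => hh (g • t) - hh t
  h_bound : ∀ v ∈ V, ∀ t, |hh (v • t) - hh t| ≤ T
  transport : ∀ g : Γ, Measure.map (fun t : X => g • t)
    (μ.withDensity fun t => ENNReal.ofReal (Real.exp (hh (g • t) - hh t))) = μ
  sep : ∀ W : Finset Γ, ∃ (J : ℕ) (a : X → Fin J), Measurable a ∧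
    ∀ g ∈ W, ∀ t, g • t ≠ t → a (g • t) ≠ a t
  herm : Herm Y
  diag : ∀ t, Y t t = 0
  supp : ∀ s t, Y s t ≠ 0 → ∃ v ∈ V, s = v • t
  form : ∀ Λ, FormLe Y Λ 1
  gauge : ∃ (Yt : Γ → Γ → X → ℂ) (u : Γ → X → ℂ), (∀ g g', Measurable (Yt g g')) ∧
    (∀ g t, star (u g t) * u g t = 1) ∧
    ∀ g g' t, Y (g • t) (g' • t) = star (u g t) * Yt g g' t * u g' t

/-- measurability of a map to a (finite) type without measurable structure -/
def FM {X β : Type*} [MeasurableSpace X] (f : X → β) : Prop := ∀ b, MeasurableSet {t | f t = b}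

section FM
variable {X β γ : Type*} [MeasurableSpace X]

theorem GDefs_set_fin {f : X → β} (hf : FM f) (hfin : (Set.range f).Finite)
    (p : β → X → Prop) (hp : ∀ b, MeasurableSet {t | p b t}) :
    MeasurableSet {t | p (f t) t} := by
  have e : {t | p (f t) t} = ⋃ b ∈ Set.range f, ({t | f t = b} ∩ {t | p b t}) := by
    ext t
    simp only [Set.mem_ofPred_eq, Set.mem_iUnion, Set.mem_inter_iff, exists_prop]
    constructor
    · intro h
      exact ⟨f t, ⟨t, rfl⟩, rfl, h⟩
    · rintro ⟨b, -, rfl, h⟩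
      exact h
  rw [e]
  exact hfin.measurableSet_biUnion fun b _ => (hf b).inter (hp b)

theorem FM.const (b : β) : FM (fun _ : X => b) := by
  intro b'
  exact MeasurableSet.const _

theorem FM.comp [Finite β] {f : X → β} (hf : FM f) (g : β → γ) : FM (fun t => g (f t)) := by
  intro c
  exact GDefs_set_fin hf (Set.toFinite _) (fun b _ => g b = c) fun b => MeasurableSet.const _

theorem FM.prod {f : X → β} {g : X → γ} (hf : FM f) (hg : FM g) : FM (fun t => (f t, g t)) := by
  rintro ⟨b, c⟩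
  have e : {t | (f t, g t) = (b, c)} = {t | f t = b} ∩ {t | g t = c} := by
    ext t
    simp
  rw [e]
  exact (hf b).inter (hg c)

theorem FM.pi {ι : Type*} [Finite ι] {f : ι → X → β} (hf : ∀ i, FM (f i)) :
    FM (fun t i => f i t) := by
  intro b
  have e : {t | (fun i => f i t) = b} = ⋂ i, {t | f i t = b i} := by
    ext t
    simp [funext_iff]
  rw [e]
  exact MeasurableSet.iInter fun i => hf i (b i)

theorem FM.of_set {S : Set X} (hS : MeasurableSet S) : FM (fun t => t ∈ S) := by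
  intro b
  by_cases hb : b
  · have e : {t | (t ∈ S) = b} = S := by
      ext t
      simp [hb]
    rw [e]
    exact hS
  · have e : {t | (t ∈ S) = b} = Sᶜ := by
      ext t
      simp [hb]
    rw [e]
    exact hS.compl

theorem FM.filter {ι : Type*} (W : Finset ι) {p : ι → X → Prop}
    (hp : ∀ i ∈ W, MeasurableSet {t | p i t}) : FM (fun t => W.filter (fun i => p i t)) := by
  intro S
  have e : {t | W.filter (fun i => p i t) = S} =
      {_t | S ⊆ W} ∩ ⋂ i ∈ W, {t | (t ∈ {t | p i t}) = (i ∈ S)} := by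
    ext t
    simp only [Set.mem_ofPred_eq, Set.mem_inter_iff, Set.mem_iInter, eq_iff_iff]
    constructor
    · rintro rfl
      exact ⟨Finset.filter_subset _ _, fun i hi => by simp [hi]⟩
    · rintro ⟨h1, h2⟩
      ext i
      rw [Finset.mem_filter]
      exact ⟨fun h => (h2 i h.1).1 h.2, fun h => ⟨h1 h, (h2 i (h1 h)).2 h⟩⟩
  rw [e]
  exact (MeasurableSet.const _).inter
    (W.measurableSet_biInter fun i hi => FM.of_set (hp i hi) (i ∈ S))

theorem FM.set [Finite β] {f : X → β} (hf : FM f) (p : β → Prop) :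
    MeasurableSet {t | p (f t)} := by
  exact GDefs_set_fin hf (Set.toFinite _) (fun b _ => p b) fun b => MeasurableSet.const _

theorem FM.precomp {Z : Type*} [MeasurableSpace Z] {f : X → β} (hf : FM f) {g : Z → X}
    (hg : Measurable g) : FM (fun z => f (g z)) := by
  intro b
  exact hg (hf b)

/-- case distinction along a function with finite range -/
theorem FM.measurable_cases {Z : Type*} [MeasurableSpace Z] {f : X → β} (hf : FM f)
    (hfin : (Set.range f).Finite) {G : β → X → Z} (hG : ∀ b, Measurable (G b)) :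
    Measurable fun t => G (f t) t := by
  intro s hs
  exact GDefs_set_fin hf hfin (fun b t => G b t ∈ s) fun b => hG b hs

theorem FM.cases {f : X → β} (hf : FM f) (hfin : (Set.range f).Finite) {G : β → X → γ}
    (hG : ∀ b, FM (G b)) : FM fun t => G (f t) t := by
  intro c
  exact GDefs_set_fin hf hfin (fun b t => G b t = c) fun b => hG b c

theorem FM.of_measurable {n : ℕ} {f : X → Fin n} (hf : Measurable f) : FM f := by
  intro b
  exact hf (measurableSet_singleton b)

theorem FM.measurable {n : ℕ} {f : X → Fin n} (hf : FM f) : Measurable f := by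
  intro s _
  exact hf.set (· ∈ s)

end FM

namespace GraphData

variable {Γ X : Type*} [Group Γ] [MulAction Γ X] [MeasurableSpace X] {μ : Measure X}
  (G : GraphData Γ X μ)

/-- the same graph with the kernel `-Y` -/
def neg : GraphData Γ X μ :=
  { G with
    Y := fun s t => - G.Y s t
    herm := fun s t => by
      show - G.Y s t = star (- G.Y t s)
      rw [G.herm s t, star_neg]
    diag := fun t => by rw [G.diag, neg_zero]
    supp := fun s t h => G.supp s t (fun h0 => h (by rw [h0, neg_zero]))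
    form := fun Λ c => by
      have := G.form Λ c
      simpa only [mul_neg, neg_mul, Finset.sum_neg_distrib, norm_neg] using this
    gauge := by
      obtain ⟨Yt, u, h1, h2, h3⟩ := G.gauge
      exact ⟨fun g g' t => - Yt g g' t, u, fun g g' => (h1 g g').neg, h2, fun g g' t => by
        rw [h3]; ring⟩ }

def ball (n : ℕ) (t : X) : Finset X := (G.V ^ n).image (· • t)

@[simp] theorem neg_V : G.neg.V = G.V := rfl
@[simp] theorem neg_hh : G.neg.hh = G.hh := rfl
@[simp] theorem neg_T : G.neg.T = G.T := rfl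
@[simp] theorem neg_ball : G.neg.ball = G.ball := rfl

theorem mem_ball {n : ℕ} {s t : X} : s ∈ G.ball n t ↔ ∃ g ∈ G.V ^ n, g • t = s := by
  exact Finset.mem_image

theorem inv_mem_pow {n : ℕ} {g : Γ} (hg : g ∈ G.V ^ n) : g⁻¹ ∈ G.V ^ n := by
  induction n generalizing g with
  | zero =>
    rw [pow_zero, Finset.mem_one] at hg ⊢
    rw [hg, inv_one]
  | succ n ih =>
    rw [pow_succ] at hg
    obtain ⟨a, ha, v, hv, rfl⟩ := Finset.mem_mul.1 hg
    rw [pow_succ', mul_inv_rev]
    exact Finset.mul_mem_mul (G.inv_mem v hv) (ih ha)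

theorem one_mem_pow (n : ℕ) : (1 : Γ) ∈ G.V ^ n := by
  exact Finset.one_mem_pow G.one_mem

theorem ball_zero (t : X) : G.ball 0 t = {t} := by
  ext s
  rw [mem_ball, pow_zero, Finset.mem_singleton]
  constructor
  · rintro ⟨g, hg, rfl⟩
    rw [Finset.mem_one.1 hg, one_smul]
  · rintro rfl
    exact ⟨1, Finset.mem_one.2 rfl, one_smul _ _⟩

theorem mem_ball_self (n : ℕ) (t : X) : t ∈ G.ball n t := by
  exact G.mem_ball.2 ⟨1, G.one_mem_pow n, one_smul _ _⟩

theorem mem_ball_comm {n : ℕ} {s t : X} : s ∈ G.ball n t ↔ t ∈ G.ball n s := by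
  have key : ∀ s t : X, s ∈ G.ball n t → t ∈ G.ball n s := by
    intro s t h
    obtain ⟨g, hg, rfl⟩ := G.mem_ball.1 h
    exact G.mem_ball.2 ⟨g⁻¹, G.inv_mem_pow hg, inv_smul_smul _ _⟩
  exact ⟨key s t, key t s⟩

theorem mem_ball_trans {n m : ℕ} {s t o : X} (h1 : s ∈ G.ball n t) (h2 : t ∈ G.ball m o) :
    s ∈ G.ball (n + m) o := by
  obtain ⟨g, hg, rfl⟩ := G.mem_ball.1 h1
  obtain ⟨g', hg', rfl⟩ := G.mem_ball.1 h2
  refine G.mem_ball.2 ⟨g * g', ?_, mul_smul _ _ _⟩
  rw [pow_add]
  exact Finset.mul_mem_mul hg hg'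

theorem ball_mono {n m : ℕ} (h : n ≤ m) (t : X) : G.ball n t ⊆ G.ball m t := by
  intro s hs
  obtain ⟨k, rfl⟩ := Nat.exists_eq_add_of_le h
  exact G.mem_ball_trans hs (G.mem_ball_self k t)

theorem card_ball_le (n : ℕ) (t : X) : (G.ball n t).card ≤ G.V.card ^ n := by
  exact Finset.card_image_le.trans Finset.card_pow_le

theorem abs_hh_le {n : ℕ} {s t : X} (h : s ∈ G.ball n t) : |G.hh s - G.hh t| ≤ n * G.T := by
  induction n generalizing s with
  | zero =>
    rw [ball_zero, Finset.mem_singleton] at h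
    simp [h]
  | succ n ih =>
    obtain ⟨g, hg, rfl⟩ := G.mem_ball.1 h
    rw [pow_succ'] at hg
    obtain ⟨v, hv, a, ha, rfl⟩ := Finset.mem_mul.1 hg
    have h1 := ih (G.mem_ball.2 ⟨a, ha, rfl⟩)
    have h2 := G.h_bound v hv (a • t)
    rw [mul_smul]
    have h3 := abs_sub_le (G.hh (v • a • t)) (G.hh (a • t)) (G.hh t)
    push_cast
    linarith

theorem T_nonneg (t : X) : 0 ≤ G.T := by
  exact (abs_nonneg _).trans (G.h_bound 1 G.one_mem t)

theorem mem_ball_of_Y {s t : X} (h : G.Y s t ≠ 0) : s ∈ G.ball 1 t := by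
  obtain ⟨v, hv, rfl⟩ := G.supp s t h
  exact G.mem_ball.2 ⟨v, by rwa [pow_one], rfl⟩

/-- from `form` on `{s, t}` with a suitable phase (and `diag`, `herm`) -/
theorem norm_Y_le (s t : X) : ‖G.Y s t‖ ≤ 1 := by
  by_cases hst : s = t
  · subst hst
    rw [G.diag, norm_zero]
    exact zero_le_one
  have h := G.form {s, t} (fun x => if x = s then (‖G.Y s t‖ : ℂ) else star (G.Y s t))
  have hts : t ≠ s := fun e => hst e.symm
  simp only [Finset.sum_pair hst, if_true, if_neg hts, G.diag, mul_zero, zero_mul, zero_add,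
    add_zero, star_star, one_mul] at h
  rw [G.herm t s] at h
  have e1 : G.Y s t * star (G.Y s t) = ((‖G.Y s t‖ ^ 2 : ℝ) : ℂ) := by
    rw [Complex.star_def, Complex.mul_conj, Complex.normSq_eq_norm_sq]
  have e2 : star (‖G.Y s t‖ : ℂ) * G.Y s t * star (G.Y s t) +
      G.Y s t * star (G.Y s t) * (‖G.Y s t‖ : ℂ) = ((2 * ‖G.Y s t‖ ^ 3 : ℝ) : ℂ) := by
    rw [mul_assoc, e1, Complex.star_def, Complex.conj_ofReal]
    push_cast
    ring
  rw [e2, Complex.norm_real, Complex.norm_real, norm_star, norm_norm,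
    Real.norm_of_nonneg (by positivity)] at h
  by_contra hlt
  have h1 : 1 < ‖G.Y s t‖ := not_le.1 hlt
  nlinarith [mul_pos (mul_pos (zero_lt_one.trans h1) (zero_lt_one.trans h1)) (sub_pos.2 h1)]

theorem sum_norm_Y_le (Λ : Finset X) (s : X) : ∑ t ∈ Λ, ‖G.Y s t‖ ≤ G.V.card := by
  have h1 : ∑ t ∈ Λ, ‖G.Y s t‖ = ∑ t ∈ Λ.filter (· ∈ G.ball 1 s), ‖G.Y s t‖ := by
    rw [Finset.sum_filter]
    refine Finset.sum_congr rfl fun t _ => ?_
    split_ifs with h
    · rfl
    · by_contra hne
      exact h (G.mem_ball_comm.1 (G.mem_ball_of_Y fun h0 => hne (by rw [h0, norm_zero])))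
  rw [h1]
  have h2 : (Λ.filter (· ∈ G.ball 1 s)).card ≤ G.V.card := by
    refine le_trans (Finset.card_le_card fun t ht => (Finset.mem_filter.1 ht).2) ?_
    simpa using G.card_ball_le 1 s
  calc ∑ t ∈ Λ.filter (· ∈ G.ball 1 s), ‖G.Y s t‖
      ≤ ∑ _t ∈ Λ.filter (· ∈ G.ball 1 s), (1 : ℝ) := Finset.sum_le_sum fun t _ => G.norm_Y_le s t
    _ = (Λ.filter (· ∈ G.ball 1 s)).card := by simp
    _ ≤ G.V.card := by exact_mod_cast h2

include G in
theorem measurableSet_smul_eq (g g' : Γ) : MeasurableSet {t : X | g • t = g' • t} := by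
  have e : {t : X | g • t = g' • t} = {t : X | (g'⁻¹ * g) • t = t} := by
    ext t
    simp only [Set.mem_ofPred_eq, mul_smul, inv_smul_eq_iff]
  rw [e]
  exact G.meas_fix _

/-- `a` separates the points at distance `≤ n` -/
def Sep {J : ℕ} (a : X → Fin J) (n : ℕ) : Prop := ∀ s t, s ∈ G.ball n t → a s = a t → s = t

theorem exists_sep (n : ℕ) : ∃ (J : ℕ) (a : X → Fin J), Measurable a ∧ G.Sep a n := by
  obtain ⟨J, a, ha, h⟩ := G.sep (G.V ^ n)
  refine ⟨J, a, ha, fun s t hs e => ?_⟩
  obtain ⟨g, hg, rfl⟩ := G.mem_ball.1 hs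
  by_contra hne
  exact h g hg t hne e

end GraphData

end

end Crest.Agent.R109
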