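import Crest.Agent.R109.Colour

/-!
# Row 109: the paving theorem for measured graphs
-/

open MeasureTheory
open scoped BigOperators Pointwise

set_option linter.unusedSectionVars false

namespace Crest.Agent.R109

noncomputable section

open Classical

theorem GPave_adm_if {X : Type*} [MeasurableSpace X] {r : ℕ} (k : Fin r) {β : ℝ} (hβ : 0 ≤ β)
    {A : Set X} (hA : MeasurableSet A) :
    GraphData.Adm (fun s => if s ∈ A then (Pi.single k β : Fin r → ℝ) else 0) β := by
  refine ⟨fun k' => ?_, fun s k' => ?_, fun s => ?_⟩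
  · have : (fun s => (if s ∈ A then (Pi.single k β : Fin r → ℝ) else 0) k') =
        fun s => if s ∈ A then (Pi.single k β : Fin r → ℝ) k' else 0 := by
      funext s
      split_ifs <;> rfl
    rw [this]
    exact Measurable.ite hA measurable_const measurable_const
  · split_ifs
    · by_cases h : k' = k
      · subst h
        simpa using hβ
      · simp [Pi.single_eq_of_ne h]
    · exact le_rfl
  · split_ifs
    · simp
    · simpa using hβ

theorem GPave_adm_wOf {X : Type*} [MeasurableSpace X] {r : ℕ} {β : ℝ} (hβ : 0 ≤ β)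
    {c : X → Fin r} (hc : Measurable c) :
    GraphData.Adm (wOf β fun s => some (c s)) β := by
  refine ⟨fun k' => ?_, fun s k' => ?_, fun s => ?_⟩
  · exact (measurable_of_countable (fun k : Fin r => (Pi.single k β : Fin r → ℝ) k')).comp hc
  · show 0 ≤ (Pi.single (c s) β : Fin r → ℝ) k'
    by_cases h : k' = c s
    · subst h
      simpa using hβ
    · simp [Pi.single_eq_of_ne h]
  · show ∑ k, (Pi.single (c s) β : Fin r → ℝ) k ≤ β
    simp

theorem GPave_exists_beta {s₀ t A B C c δ : ℝ} (hs₀ : 0 ≤ s₀) (ht : s₀ < t) (hA : 0 ≤ A)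
    (hδ : 0 < δ) :
    ∃ β : ℝ, 0 < β ∧ A * (Real.exp (s₀ * β) + B) < δ * (Real.exp (β * t - c) - C) := by
  set M : ℝ := A + |A * B| + |δ * C| with hM
  have hM0 : 0 ≤ M := by positivity
  have hd : 0 < δ * Real.exp (-c) := by positivity
  have hts : 0 < t - s₀ := sub_pos.2 ht
  refine ⟨(M / (δ * Real.exp (-c)) + 1) / (t - s₀), by positivity, ?_⟩
  set β : ℝ := (M / (δ * Real.exp (-c)) + 1) / (t - s₀) with hβ
  have hβ0 : 0 < β := by positivity
  have h1 : (t - s₀) * β = M / (δ * Real.exp (-c)) + 1 := by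
    rw [hβ]
    field_simp
  have h2 : M / (δ * Real.exp (-c)) < Real.exp ((t - s₀) * β) := by
    have := Real.add_one_le_exp ((t - s₀) * β)
    linarith
  have h3 : M < δ * Real.exp (-c) * Real.exp ((t - s₀) * β) := by
    rw [div_lt_iff₀ hd] at h2
    linarith
  have h4 : 1 ≤ Real.exp (s₀ * β) := Real.one_le_exp (by positivity)
  have h5 : Real.exp (β * t - c) =
      Real.exp (-c) * Real.exp ((t - s₀) * β) * Real.exp (s₀ * β) := by
    rw [← Real.exp_add, ← Real.exp_add]
    congr 1
    ring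
  have h6 : M * Real.exp (s₀ * β) < δ * Real.exp (β * t - c) := by
    rw [h5]
    have := mul_lt_mul_of_pos_right h3 (Real.exp_pos (s₀ * β))
    linarith
  have h7 : A * B ≤ |A * B| * Real.exp (s₀ * β) :=
    (le_abs_self _).trans (le_mul_of_one_le_right (abs_nonneg _) h4)
  have h8 : δ * C ≤ |δ * C| * Real.exp (s₀ * β) :=
    (le_abs_self _).trans (le_mul_of_one_le_right (abs_nonneg _) h4)
  rw [hM] at h6
  linarith

/-- a Hermitian form is real -/
theorem GPave_norm_form_le {X : Type*} {Y : X → X → ℂ} (hY : Herm Y) (Λ : Finset X) (x : X → ℂ)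
    {b : ℝ} (h1 : (∑ s ∈ Λ, ∑ s' ∈ Λ, star (x s) * Y s s' * x s').re ≤ b)
    (h2 : (∑ s ∈ Λ, ∑ s' ∈ Λ, star (x s) * (- Y s s') * x s').re ≤ b) :
    ‖∑ s ∈ Λ, ∑ s' ∈ Λ, star (x s) * Y s s' * x s'‖ ≤ b := by
  set z : ℂ := ∑ s ∈ Λ, ∑ s' ∈ Λ, star (x s) * Y s s' * x s' with hz
  have hstar : star z = z := by
    rw [hz, star_sum, Finset.sum_comm]
    refine Finset.sum_congr rfl fun s _ => ?_
    rw [star_sum]
    refine Finset.sum_congr rfl fun s' _ => ?_
    rw [star_mul', star_mul', star_star, hY s' s]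
    ring
  have him : z.im = 0 := Complex.conj_eq_iff_im.1 hstar
  have hneg : (∑ s ∈ Λ, ∑ s' ∈ Λ, star (x s) * (- Y s s') * x s') = -z := by
    simp only [hz, mul_neg, neg_mul, Finset.sum_neg_distrib]
  rw [hneg, Complex.neg_re] at h2
  rw [← Complex.abs_re_eq_norm.2 him, abs_le]
  exact ⟨by linarith, h1⟩

/-- the label attached to a set of indices -/
def GPave_lab {ι : Type*} {L : ℕ} (hL : 0 < L) (ℓ : ι → Fin L) (A : Finset ι) : Fin L :=
  if h : A.Nonempty then ℓ h.choose else ⟨0, hL⟩

theorem GPave_lab_congr {ι : Type*} {L : ℕ} (hL : 0 < L) {ℓ ℓ' : ι → Fin L} {A : Finset ι}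
    (h : ∀ g ∈ A, ℓ g = ℓ' g) : GPave_lab hL ℓ A = GPave_lab hL ℓ' A := by
  unfold GPave_lab
  split_ifs with hA
  · exact h _ hA.choose_spec
  · rfl

theorem GPave_lab_eq {ι : Type*} {L : ℕ} (hL : 0 < L) {ℓ : ι → Fin L} {A : Finset ι}
    (hA : A.Nonempty) {l : Fin L} (h : ∀ g ∈ A, ℓ g = l) : GPave_lab hL ℓ A = l := by
  unfold GPave_lab
  rw [dif_pos hA]
  exact h _ hA.choose_spec

namespace GraphData

variable {Γ X : Type*} [Group Γ] [MulAction Γ X] [MeasurableSpace X] {μ : Measure X}
  (G : GraphData Γ X μ) {J L : ℕ}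

include G in
theorem GPave_measurableSet_smul_eq (g g' : Γ) : MeasurableSet {t : X | g • t = g' • t} := by
  have : {t : X | g • t = g' • t} = {t : X | (g'⁻¹ * g) • t = t} := by
    ext t
    simp only [Set.mem_ofPred_eq, mul_smul, inv_smul_eq_iff]
  rw [this]
  exact G.meas_fix _

/-- From a bound on the potential to a bound on the bad centres.  Recipe: fix `a₀ : X → Fin J₀`
with `Sep a₀ (2n+1)` (outside, it must not depend on `β`).  `Bad k` is the set of `o` with
`b ≤ pot Y (rel o) (1[c = k] single k β) (ball n o)`, `b = exp (β t - n T) - D^n exp (n T)`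
(measurable by `measurable_pot`); off `Bad k` the form bound holds by `pot_final` and `pot_subset`.
For each atom `i`, `C₀ = Bad k ∩ {a₀ = i}`, the field `θ' = 1[c = k, near C₀] single k β` is below
the final field: `DD_mono`, `le_DD`. -/
theorem bad_small [IsFiniteMeasure μ] {r J₀ : ℕ} (n j : ℕ) (hn : n ≤ j) {a₀ : X → Fin J₀}
    (ha₀ : Measurable a₀) (hs₀ : G.Sep a₀ (2 * n + 1)) {a : X → Fin J} (ha : Measurable a)
    (hs : G.Sep a (4 * j)) {β S t D : ℝ} (hβ : 0 < β) (hS : 1 ≤ S) {c : X → Fin r}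
    (hc : Measurable c) (hD : G.DD (2 * j) a (wOf β fun s => some (c s)) ≤ D) :
    ∃ Bad : Set X, MeasurableSet Bad ∧
      (Real.exp (β * t - n * G.T) - G.V.card ^ n * Real.exp (n * G.T)) * μ.real Bad ≤
        r * J₀ * (D + G.err j β S * μ.real Set.univ) ∧
      ∀ o, o ∉ Bad → ∀ (k : Fin r) (x : X → ℂ),
        (∑ s ∈ (G.ball n o).filter (c · = k), ∑ s' ∈ (G.ball n o).filter (c · = k),
          star (x s) * G.Y s s' * x s').re ≤
          t * ∑ s ∈ (G.ball n o).filter (c · = k), ‖x s‖ ^ 2 := by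
  set b : ℝ := Real.exp (β * t - n * G.T) - G.V.card ^ n * Real.exp (n * G.T) with hb
  let θk : Fin r → X → Fin r → ℝ := fun k s =>
    if s ∈ c ⁻¹' {k} then (Pi.single k β : Fin r → ℝ) else 0
  have hck : ∀ k, MeasurableSet (c ⁻¹' {k}) := fun k => hc (measurableSet_singleton k)
  have hθk : ∀ k, Adm (θk k) β := fun k => GPave_adm_if k hβ.le (hck k)
  let B : Fin r → Set X := fun k => {o | b ≤ pot G.Y (G.rel o) (θk k) (G.ball n o)}
  have hB : ∀ k, MeasurableSet (B k) := by
    intro k
    have h := G.measurable_pot (G.V ^ n) (fun _ _ => True) (fun _ => by simp)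
      (fun o => G.rel o) (fun g => G.meas_h g) (fun _ => θk k)
      (fun g k' => ((hθk k).meas k').comp (G.meas_smul g))
    simp only [Finset.filter_true] at h
    exact measurableSet_le measurable_const h
  have hθ := GPave_adm_wOf hβ.le hc
  have herr : 0 ≤ G.err j β S := by
    have : 0 < S := by linarith
    unfold err
    positivity
  have hD0 : 0 ≤ D :=
    le_trans (integral_nonneg fun o => G.dens_nonneg _ a hθ.nonneg o) hD
  have hpiece : ∀ (k : Fin r) (i : Fin J₀),
      b * μ.real (B k ∩ a₀ ⁻¹' {i}) ≤ D + G.err j β S * μ.real Set.univ := by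
    intro k i
    have hC : MeasurableSet (B k ∩ a₀ ⁻¹' {i}) := (hB k).inter (ha₀ (measurableSet_singleton i))
    set C₀ : Set X := B k ∩ a₀ ⁻¹' {i} with hC₀
    have hN := (G.measure_ball_meets_le n hC).1
    have hθ' := GPave_adm_if k hβ.le ((hck k).inter hN)
    refine le_trans (G.le_DD (m := 2 * j) (n := n) (by omega) ha ?_ hθ' hC ?_ ?_ ?_) ?_
    · intro s s' h1 h2
      exact hs s s' (G.ball_mono (by omega) s' h1) h2
    · intro s h1 s' h2 h3
      exact hs₀ s s' h3 (h1.2.trans h2.2.symm)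
    · intro s k' h
      split_ifs at h with h'
      · obtain ⟨o, h1, h2⟩ := h'.2
        exact ⟨o, h2, G.mem_ball_comm.1 h1⟩
      · exact absurd rfl h
    · intro o ho
      refine le_of_le_of_eq ho.1 (pot_congr (fun _ _ _ _ => rfl) (fun _ _ => rfl) ?_)
      intro s hs'
      have : s ∈ {o | ∃ s ∈ G.ball n o, s ∈ C₀} := ⟨o, G.mem_ball_comm.1 hs', ho⟩
      simp only [θk, Set.mem_inter_iff, this, and_true]
    · refine le_trans (G.DD_mono j ha hs hS hθ hθ' ?_) (by linarith)
      intro s k'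
      split_ifs with h'
      · have : c s = k := h'.1
        subst this
        exact le_rfl
      · exact hθ.nonneg s k'
  refine ⟨⋃ k, B k, MeasurableSet.iUnion hB, ?_, ?_⟩
  · rcases le_total b 0 with hb0 | hb0
    · refine le_trans (mul_nonpos_of_nonpos_of_nonneg hb0 measureReal_nonneg) ?_
      have := mul_nonneg herr (measureReal_nonneg (μ := μ) (s := Set.univ))
      positivity
    · have hU : (⋃ k, B k) = ⋃ p : Fin r × Fin J₀, B p.1 ∩ a₀ ⁻¹' {p.2} := by
        ext o
        simp only [Set.mem_iUnion, Set.mem_inter_iff, Set.mem_preimage, Set.mem_singleton_iff,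
          Prod.exists]
        exact ⟨fun ⟨k, hk⟩ => ⟨k, a₀ o, hk, rfl⟩, fun ⟨k, _, hk, _⟩ => ⟨k, hk⟩⟩
      rw [hU]
      refine le_trans (mul_le_mul_of_nonneg_left (measureReal_iUnion_fintype_le _) hb0) ?_
      rw [Finset.mul_sum]
      refine le_trans (Finset.sum_le_sum fun p _ => hpiece p.1 p.2) ?_
      rw [Finset.sum_const, Finset.card_univ, Fintype.card_prod, Fintype.card_fin,
        Fintype.card_fin, nsmul_eq_mul, Nat.cast_mul]
  · intro o ho k x
    by_contra hlt
    rw [not_le] at hlt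
    apply ho
    refine Set.mem_iUnion.2 ⟨k, ?_⟩
    have h1 := pot_final G.herm (G.rel o) ((G.ball n o).filter (c · = k)) k hβ
      (T := n * G.T) (fun s hs' => G.abs_hh_le (Finset.mem_filter.1 hs').1) x hlt
    have h2 : pot G.Y (G.rel o) (θk k) (G.ball n o) =
        pot G.Y (G.rel o) (θk k) ((G.ball n o).filter (c · = k)) := by
      refine pot_subset _ _ _ (Finset.filter_subset _ _) ?_
      intro s h3 h4 k'
      have : s ∉ c ⁻¹' {k} := fun h5 => h4 (Finset.mem_filter.2 ⟨h3, h5⟩)
      simp only [θk, this, if_false, Pi.zero_apply]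
    have h3 : pot G.Y (G.rel o) (θk k) ((G.ball n o).filter (c · = k)) =
        pot G.Y (G.rel o) (fun _ => (Pi.single k β : Fin r → ℝ))
          ((G.ball n o).filter (c · = k)) := by
      refine pot_congr (fun _ _ _ _ => rfl) (fun _ _ => rfl) ?_
      intro s h4
      have : s ∈ c ⁻¹' {k} := (Finset.mem_filter.1 h4).2
      simp only [θk, this, if_true]
    have h4 : ((((G.ball n o).filter (c · = k)).card : ℕ) : ℝ) ≤ (G.V.card : ℝ) ^ n := by
      exact_mod_cast (Finset.card_filter_le _ _).trans (G.card_ball_le n o)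
    have h5 := mul_le_mul_of_nonneg_right h4 (Real.exp_pos (n * G.T)).le
    show b ≤ _
    rw [h2, h3]
    linarith

/-- **Local paving of a measured graph.**  Recipe: choose `a₀`, then `β` so large that
`2 r J₀ (exp (7000 β/√r) + 6 exp 16 + 2) μ univ ≤ δ (exp (β t - n T) - D^n exp (n T))`, then `S, j`
with `err j (1000 β) S ≤ 1` (`err` is monotone in `Θ`), then `a`, `m = 2j`, `W = V ^ (m J)`.
`Φ t ℓ` is the colour `col m β a lam_{t,ℓ} J t` where `lam_{t,ℓ} s = ℓ (ch {g ∈ W | g • t = s})` for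
a fixed choice function `ch` on finsets of `W` (default label if the finset is empty).  (a) `fm_col`;
(b) `col_stable`, `col_congr` and injectivity of `pick`; (c) `col_congr` identifies the colouring
with `col m β a lam J`; `DD_col`, `bad_small` for `G` and `G.neg` (the form is real by `herm`). -/
theorem paving [IsFiniteMeasure μ] (hL : 0 < L) {t δ : ℝ} (ht : 7000 / √(2 * L) < t)
    (hδ : 0 < δ) (n : ℕ) :
    ∃ (W : Finset Γ) (Φ : X → (W → Fin L) → Fin (2 * L)),
      (∀ ℓ, FM fun o => Φ o ℓ) ∧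
      (∀ (o : X) (ℓ : W → Fin L), Function.Injective fun l : Fin L =>
        Φ o (fun g => if (g : Γ) • o = o then l else ℓ g)) ∧
      ∀ lam : X → Fin L, Measurable lam → ∃ Bad : Set X, MeasurableSet Bad ∧ μ.real Bad ≤ δ ∧
        ∀ o, o ∉ Bad → ∀ k, FormLe G.Y
          ((G.ball n o).filter fun s => Φ s (fun g => lam ((g : Γ) • s)) = k) t := by
  obtain ⟨J₀, a₀, ha₀, hs₀⟩ := G.exists_sep (2 * n + 1)
  obtain ⟨β, hβ, hβ'⟩ := GPave_exists_beta (s₀ := 7000 / √(2 * L))
    (A := 2 * (((2 * L : ℕ) : ℝ) * J₀ * μ.real Set.univ)) (B := 6 * Real.exp 16 + 2)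
    (C := G.V.card ^ n * Real.exp (n * G.T)) (c := n * G.T) (by positivity) ht
    (by have := measureReal_nonneg (μ := μ) (s := Set.univ); positivity) hδ
  obtain ⟨S, j, hS, hj, herr⟩ := G.exists_err_le (1000 * β) one_pos n
  have herr' : G.err j β S ≤ 1 := by
    refine le_trans ?_ herr
    have : 0 < S := by linarith
    unfold err
    gcongr
    linarith
  obtain ⟨J, a, ha, hs⟩ := G.exists_sep (4 * j)
  set W : Finset Γ := G.V ^ (2 * j * J) with hW
  let lo : X → (W → Fin L) → X → Fin L := fun o ℓ s =>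
    GPave_lab hL ℓ (Finset.univ.filter fun g : W => (g : Γ) • o = s)
  let d : Fin (2 * L) := ⟨0, by omega⟩
  refine ⟨W, fun o ℓ => (G.col (2 * j) β a (lo o ℓ) J o).getD d, ?_, ?_, ?_⟩
  · intro ℓ
    have h := G.fm_col (2 * j) β ha (fun o => lo o ℓ) (fun g =>
      (FM.filter (Finset.univ : Finset W) (p := fun g' o => (g' : Γ) • o = g • o)
        (fun g' _ => G.GPave_measurableSet_smul_eq g' g)).comp (GPave_lab hL ℓ)) J 1
    simp only [one_smul] at h
    exact h.comp fun c => c.getD d
  · intro o ℓ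
    have hkey : ∀ l : Fin L,
        (G.col (2 * j) β a (lo o fun g => if (g : Γ) • o = o then l else ℓ g) J o).getD d =
          pick L (G.good (2 * j) β (G.col (2 * j) β a (lo o ℓ) (a o)) o) l := by
      intro l
      have e1 : G.col (2 * j) β a (lo o fun g => if (g : Γ) • o = o then l else ℓ g) (a o) =
          G.col (2 * j) β a (lo o ℓ) (a o) := by
        funext s
        refine G.col_congr _ _ _ _ _ _ _ fun s' _ h => GPave_lab_congr hL fun g hg => ?_
        have h1 : (g : Γ) • o = s' := (Finset.mem_filter.1 hg).2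
        have h2 : (g : Γ) • o ≠ o := by
          rw [h1]
          rintro rfl
          exact lt_irrefl _ h
        exact if_neg h2
      have e2 : (lo o fun g => if (g : Γ) • o = o then l else ℓ g) o = l := by
        refine GPave_lab_eq hL ⟨⟨1, G.one_mem_pow _⟩, ?_⟩ fun g hg => ?_
        · simp
        · exact if_pos (Finset.mem_filter.1 hg).2
      rw [G.col_stable (2 * j) β a _ (a o).2, Option.getD_some, e1, e2]
    intro l l' h
    simp only [hkey] at h
    exact (exists_pick L).choose_spec.1 _ h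
  · intro lam hlam
    let c : X → Fin (2 * L) := fun s => (G.col (2 * j) β a lam J s).getD d
    have hΦ : ∀ s, (G.col (2 * j) β a (lo s fun g => lam ((g : Γ) • s)) J s).getD d = c s := by
      intro s
      refine congrArg (fun c : Option (Fin (2 * L)) => c.getD d) ?_
      refine G.col_congr _ _ _ _ _ _ _ fun s' hs' _ => ?_
      obtain ⟨g, hg, hgs⟩ := G.mem_ball.1 hs'
      refine GPave_lab_eq hL ⟨⟨g, hg⟩, ?_⟩ fun g' hg' => ?_
      · simpa using hgs
      · exact congrArg lam (Finset.mem_filter.1 hg').2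
    have hc : Measurable c := by
      have h := G.fm_col (2 * j) β ha (fun _ => lam)
        (fun g => (FM.of_measurable hlam).precomp (G.meas_smul g)) J 1
      simp only [one_smul] at h
      exact (h.comp fun c => c.getD d).measurable
    have hcol : G.col (2 * j) β a lam J = fun s => some (c s) := by
      funext s
      simp only [c, G.col_stable (2 * j) β a lam (a s).2, Option.getD_some]
    obtain ⟨hD1, hD2⟩ := G.DD_col hL j hβ.le hS ha hs hlam
    rw [hcol] at hD1 hD2
    obtain ⟨B₁, hB₁, hb₁, hf₁⟩ := G.bad_small n j hj ha₀ hs₀ ha hs (t := t) hβ hS hc hD1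
    obtain ⟨B₂, hB₂, hb₂, hf₂⟩ := G.neg.bad_small n j hj ha₀ hs₀ ha hs (t := t) hβ hS hc hD2
    refine ⟨B₁ ∪ B₂, hB₁.union hB₂, ?_, ?_⟩
    · have hμ := measureReal_nonneg (μ := μ) (s := Set.univ)
      have he : G.neg.err j β S = G.err j β S := rfl
      rw [he, neg_T, neg_V] at hb₂
      have hs0 : 7000 * β / √(2 * L) = 7000 / √(2 * L) * β := by ring
      rw [hs0] at hb₁ hb₂
      set b : ℝ := Real.exp (β * t - n * G.T) - G.V.card ^ n * Real.exp (n * G.T) with hb
      set E : ℝ := Real.exp (7000 / √(2 * L) * β) with hE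
      have hE0 : 0 < E := Real.exp_pos _
      set K : ℝ := ((2 * L : ℕ) : ℝ) * J₀ with hK
      have hK0 : 0 ≤ K := by positivity
      set U : ℝ := μ.real Set.univ with hU
      have hbd : K * ((E + 6 * Real.exp 16 + G.err j (1000 * β) S) * U + G.err j β S * U) ≤
          K * U * (E + (6 * Real.exp 16 + 2)) := by
        rw [mul_assoc K U]
        refine mul_le_mul_of_nonneg_left ?_ hK0
        have h1 := mul_le_mul_of_nonneg_right herr hμ
        have h2 := mul_le_mul_of_nonneg_right herr' hμ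
        linarith
      have hpos : 0 ≤ 2 * (K * U) * (E + (6 * Real.exp 16 + 2)) := by positivity
      have hb0 : 0 < b := (pos_iff_pos_of_mul_pos (hpos.trans_lt hβ')).1 hδ
      have hun := mul_le_mul_of_nonneg_left (measureReal_union_le (μ := μ) B₁ B₂) hb0.le
      refine le_of_mul_le_mul_left ?_ hb0
      linarith
    · intro o ho k x
      rw [Set.mem_union, not_or] at ho
      simp only [hΦ]
      exact GPave_norm_form_le G.herm _ x (hf₁ o ho.1 k x) (hf₂ o ho.2 k x)

end GraphData

end

end Crest.Agent.R109
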