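import Crest.Agent.R109.SetupE
import Crest.Agent.R124.Kaplansky

/-!
# Row 109: auxiliary constructions for `Gns`: right multiplications, block diagonal operators
-/

open Filter Topology
open scoped InnerProductSpace BigOperators ComplexOrder

set_option linter.unusedSectionVars false

namespace Crest.Agent.R109

noncomputable section

section right

variable {A : Type*} [CStarAlgebra A] [PartialOrder A] [StarOrderedRing A] (φ : A →ₚ[ℂ] ℂ)

/-- right multiplication on the pre-GNS space -/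
def gnsRightPre (c : A)
    (h : ∀ y, φ (star (y * c) * (y * c)) ≤ ((‖c‖ ^ 2 : ℝ) : ℂ) * φ (star y * y)) :
    φ.PreGNS →L[ℂ] φ.PreGNS :=
  (φ.toPreGNS.toLinearMap ∘ₗ LinearMap.mulRight ℂ c ∘ₗ φ.ofPreGNS.toLinearMap).mkContinuous ‖c‖
    fun x => by
      rw [← sq_le_sq₀ (by positivity) (by positivity), mul_pow, ← Complex.real_le_real]
      have h1 := h (φ.ofPreGNS x)
      rw [← φ.preGNS_norm_sq] at h1
      push_cast at h1 ⊢
      rw [φ.preGNS_norm_sq]
      exact h1

theorem gnsRightPre_apply (c : A) (h) (x : φ.PreGNS) :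
    gnsRightPre φ c h x = φ.toPreGNS (φ.ofPreGNS x * c) := rfl

theorem gns_apply_coe (a : A) (x : φ.PreGNS) :
    φ.gnsStarAlgHom a (x : φ.GNS) = (φ.toPreGNS (a * φ.ofPreGNS x) : φ.PreGNS) :=
  φ.gnsNonUnitalStarAlgHom_apply_coe

theorem gnsRight_comm (c : A) (h) (y : A) :
    (gnsRightPre φ c h).completion * φ.gnsStarAlgHom y =
      φ.gnsStarAlgHom y * (gnsRightPre φ c h).completion := by
  ext v
  induction v using UniformSpace.Completion.induction_on with
  | hp => apply isClosed_eq <;> fun_prop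
  | ih x =>
    simp only [mul_apply_eq_comp, gns_apply_coe, ContinuousLinearMap.completion_apply_coe,
      gnsRightPre_apply, PositiveLinearMap.ofPreGNS_toPreGNS, mul_assoc]

theorem gnsRight_star (c : A) (h) (h') (hc : ∀ w, φ (c * w) = φ (w * c)) :
    star (gnsRightPre φ c h).completion = (gnsRightPre φ (star c) h').completion := by
  symm
  refine (ContinuousLinearMap.eq_adjoint_iff _ _).2 fun v w => ?_
  induction v, w using UniformSpace.Completion.induction_on₂ with
  | hp => apply isClosed_eq <;> fun_prop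
  | ih x y =>
    simp only [ContinuousLinearMap.completion_apply_coe, UniformSpace.Completion.inner_coe,
      gnsRightPre_apply, PositiveLinearMap.preGNS_inner_def, PositiveLinearMap.ofPreGNS_toPreGNS,
      star_mul, star_star, mul_assoc]
    rw [hc, mul_assoc]

end right

section diag

variable {H L : Type*} [NormedAddCommGroup H] [InnerProductSpace ℂ H] [CompleteSpace H]
  [NormedAddCommGroup L] [InnerProductSpace ℂ L] [CompleteSpace L]

/-- block diagonal operators -/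
def bdiag (a : H →L[ℂ] H) (b : L →L[ℂ] L) : WithLp 2 (H × L) →L[ℂ] WithLp 2 (H × L) :=
  (WithLp.prodContinuousLinearEquiv 2 ℂ H L).symm.toContinuousLinearMap ∘L a.prodMap b ∘L
    (WithLp.prodContinuousLinearEquiv 2 ℂ H L).toContinuousLinearMap

@[simp] theorem bdiag_fst (a : H →L[ℂ] H) (b : L →L[ℂ] L) (v : WithLp 2 (H × L)) :
    (bdiag a b v).fst = a v.fst := rfl

@[simp] theorem bdiag_snd (a : H →L[ℂ] H) (b : L →L[ℂ] L) (v : WithLp 2 (H × L)) :
    (bdiag a b v).snd = b v.snd := rfl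

theorem prod2_ext {v w : WithLp 2 (H × L)} (h1 : v.fst = w.fst) (h2 : v.snd = w.snd) : v = w :=
  (WithLp.prodContinuousLinearEquiv 2 ℂ H L).injective (Prod.ext h1 h2)

theorem star_bdiag (a : H →L[ℂ] H) (b : L →L[ℂ] L) :
    star (bdiag a b) = bdiag (star a) (star b) := by
  symm
  refine (ContinuousLinearMap.eq_adjoint_iff _ _).2 fun v w => ?_
  rw [WithLp.prod_inner_apply, WithLp.prod_inner_apply]
  exact congrArg₂ (· + ·) (VN_star_inner a _ _) (VN_star_inner b _ _)

/-- the direct sum of two representations -/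
def sumRep {A : Type*} [CStarAlgebra A] (π₁ : A →⋆ₐ[ℂ] (H →L[ℂ] H)) (π₂ : A →⋆ₐ[ℂ] (L →L[ℂ] L)) :
    A →⋆ₐ[ℂ] (WithLp 2 (H × L) →L[ℂ] WithLp 2 (H × L)) where
  toFun x := bdiag (π₁ x) (π₂ x)
  map_one' := ContinuousLinearMap.ext fun v => prod2_ext (by simp) (by simp)
  map_mul' x y := ContinuousLinearMap.ext fun v => prod2_ext (by simp) (by simp)
  map_zero' := ContinuousLinearMap.ext fun v => prod2_ext (by simp) (by simp)
  map_add' x y := ContinuousLinearMap.ext fun v => prod2_ext (by simp) (by simp)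
  commutes' c := ContinuousLinearMap.ext fun v => prod2_ext
    (by simp [Algebra.algebraMap_eq_smul_one]) (by simp [Algebra.algebraMap_eq_smul_one])
  map_star' x := by rw [star_bdiag, map_star, map_star]

theorem sumRep_apply {A : Type*} [CStarAlgebra A] (π₁ : A →⋆ₐ[ℂ] (H →L[ℂ] H))
    (π₂ : A →⋆ₐ[ℂ] (L →L[ℂ] L)) (x : A) : sumRep π₁ π₂ x = bdiag (π₁ x) (π₂ x) := rfl

/-- the first inclusion -/
def in1 (H L : Type*) [NormedAddCommGroup H] [InnerProductSpace ℂ H] [NormedAddCommGroup L]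
    [InnerProductSpace ℂ L] : H →L[ℂ] WithLp 2 (H × L) :=
  (WithLp.prodContinuousLinearEquiv 2 ℂ H L).symm.toContinuousLinearMap ∘L
    ContinuousLinearMap.inl ℂ H L

/-- the second inclusion -/
def in2 (H L : Type*) [NormedAddCommGroup H] [InnerProductSpace ℂ H] [NormedAddCommGroup L]
    [InnerProductSpace ℂ L] : L →L[ℂ] WithLp 2 (H × L) :=
  (WithLp.prodContinuousLinearEquiv 2 ℂ H L).symm.toContinuousLinearMap ∘L
    ContinuousLinearMap.inr ℂ H L

@[simp] theorem in1_fst (h : H) : (in1 H L h).fst = h := rfl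
@[simp] theorem in1_snd (h : H) : (in1 H L h).snd = 0 := rfl
@[simp] theorem in2_fst (l : L) : (in2 H L l).fst = 0 := rfl
@[simp] theorem in2_snd (l : L) : (in2 H L l).snd = l := rfl

theorem bdiag_in1 (a : H →L[ℂ] H) (b : L →L[ℂ] L) (h : H) :
    bdiag a b (in1 H L h) = in1 H L (a h) := prod2_ext rfl (by simp)

theorem bdiag_in2 (a : H →L[ℂ] H) (b : L →L[ℂ] L) (l : L) :
    bdiag a b (in2 H L l) = in2 H L (b l) := prod2_ext (by simp) rfl

theorem eq_in1_add_in2 (v : WithLp 2 (H × L)) : v = in1 H L v.fst + in2 H L v.snd :=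
  prod2_ext (by simp) (by simp)

theorem norm_in1 (h : H) : ‖in1 H L h‖ ^ 2 = ‖h‖ ^ 2 := by
  rw [WithLp.prod_norm_sq_eq_of_L2]; simp

theorem norm_in2 (l : L) : ‖in2 H L l‖ ^ 2 = ‖l‖ ^ 2 := by
  rw [WithLp.prod_norm_sq_eq_of_L2]; simp

/-- Density for a direct sum: if `1 ⊕ z` is in the bicommutant and `z ζ = 0`, a selfadjoint element
almost fixes finitely many vectors of the first summand and almost kills `ζ`. -/
theorem exists_sa_sumRep {A : Type*} [CStarAlgebra A] (π₁ : A →⋆ₐ[ℂ] (H →L[ℂ] H))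
    (π₂ : A →⋆ₐ[ℂ] (L →L[ℂ] L)) {z : L →L[ℂ] L} (hz : IsStarProjection z)
    (h1 : ∀ t : H →L[ℂ] L, (∀ x, t ∘L π₁ x = π₂ x ∘L t) → z ∘L t = t)
    (h2 : ∀ s : L →L[ℂ] L, (∀ x, s * π₂ x = π₂ x * s) → s * z = z * s)
    {ι : Type*} [Fintype ι] (χ : ι → H) {ζ : L} (hζ : z ζ = 0) {δ : ℝ} (hδ : 0 < δ) :
    ∃ x, IsSelfAdjoint x ∧ ‖π₂ x ζ‖ ^ 2 + ∑ i, ‖χ i - π₁ x (χ i)‖ ^ 2 ≤ δ ^ 2 := by
  classical
  set b := bdiag (1 : H →L[ℂ] H) z with hb
  have hsa : IsSelfAdjoint b := by
    rw [IsSelfAdjoint, hb, star_bdiag, star_one, hz.isSelfAdjoint.star_eq]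
  have key : ∀ w ∈ R124.commutantOf (sumRep π₁ π₂), b * w * b = w * b := by
    intro w hw
    have hw' : ∀ x v, w (bdiag (π₁ x) (π₂ x) v) = bdiag (π₁ x) (π₂ x) (w v) := fun x v =>
      congrArg (fun T : WithLp 2 (H × L) →L[ℂ] WithLp 2 (H × L) => T v)
        (((R124.mem_commutantOf _).1 hw x).eq)
    have e1 := h1 (WithLp.sndL 2 ℂ H L ∘L w ∘L in1 H L) fun x => by
      ext h
      change (w (in1 H L (π₁ x h))).snd = π₂ x (w (in1 H L h)).snd
      rw [← bdiag_in1 _ (π₂ x), hw', bdiag_snd]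
    have e2 := h2 (WithLp.sndL 2 ℂ H L ∘L w ∘L in2 H L) fun x => by
      ext l
      change (w (in2 H L (π₂ x l))).snd = π₂ x (w (in2 H L l)).snd
      rw [← bdiag_in2 (π₁ x), hw', bdiag_snd]
    refine ContinuousLinearMap.ext fun v => prod2_ext rfl ?_
    change z (w (b v)).snd = (w (b v)).snd
    have e3 : z (w (in1 H L v.fst)).snd = (w (in1 H L v.fst)).snd :=
      congrArg (fun T : H →L[ℂ] L => T v.fst) e1
    have e4 : (w (in2 H L (z v.snd))).snd = z (w (in2 H L v.snd)).snd :=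
      congrArg (fun T : L →L[ℂ] L => T v.snd) e2
    have e5 : ∀ l, z (z l) = z l := fun l =>
      congrArg (fun T : L →L[ℂ] L => T l) hz.isIdempotentElem.eq
    have e6 : b v = in1 H L v.fst + in2 H L (z v.snd) := eq_in1_add_in2 _
    rw [e6, map_add, WithLp.add_snd, map_add, e3, e4, e5]
  have hmem : b ∈ (R124.commutantOf (sumRep π₁ π₂)).commutant := by
    rw [VonNeumannAlgebra.mem_commutant_iff]
    intro w hw
    have e := congrArg star (key _ (star_mem hw))
    simp only [star_mul, star_star, hsa.star_eq] at e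
    exact (key w hw).symm.trans ((mul_assoc _ _ _).trans e)
  let ε := Fintype.equivFin ι
  let Ξ : R124.Amp (Option (Fin (Fintype.card ι))) (WithLp 2 (H × L)) :=
    WithLp.toLp 2 fun o => o.elim (in2 H L ζ) fun k => in1 H L (χ (ε.symm k))
  obtain ⟨_, ⟨x, hx, rfl⟩, hd⟩ := Metric.mem_closure_iff.1
    (R124.kap_mem_closure_sa (sumRep π₁ π₂) hmem hsa Ξ) δ hδ
  refine ⟨x, hx, ?_⟩
  rw [dist_eq_norm] at hd
  refine le_trans (le_of_eq ?_) (pow_le_pow_left₀ (norm_nonneg _) hd.le 2)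
  rw [PiLp.norm_sq_eq_of_L2, Fintype.sum_option, ← ε.symm.sum_comp]
  simp only [PiLp.sub_apply, R124.amp_apply, Ξ, Option.elim, sumRep_apply, hb, bdiag_in1, bdiag_in2,
    ← map_sub, norm_in1, norm_in2, hζ, zero_sub, norm_neg]
  rfl

end diag

end

end Crest.Agent.R109
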