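import Crest.Agent.R109.Sing1
import Crest.Agent.R124.Kaplansky
import Crest.Agent.R109.GnsX

/-!
# Row 109: the GNS representation of the averaged state and its normal part
-/

open Filter Topology
open scoped InnerProductSpace BigOperators ComplexOrder

set_option linter.unusedSectionVars false

namespace Crest.Agent.R109

noncomputable section

open Classical

variable {H : Type*} [NormedAddCommGroup H] [InnerProductSpace ℂ H] [CompleteSpace H]
  {X : Type*} [TopologicalSpace X] [CompactSpace X] [T2Space X] [ExtremallyDisconnected X]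

/-- GNS data of the functional `y ↦ ∑ ⟪η i, E0 y (η i)⟫`, with the right action `T` of `A` -/
structure GnsData (S : Setup H X) {ι : Type*} [Fintype ι] (η : ι → H) (L : Type*)
    [NormedAddCommGroup L] [InnerProductSpace ℂ L] [CompleteSpace L] where
  π : (H →L[ℂ] H) →⋆ₐ[ℂ] (L →L[ℂ] L)
  ζ : L
  T : C(X, ℂ) → L →L[ℂ] L
  state : ∀ y, ⟪ζ, π y ζ⟫_ℂ = ∑ i, ⟪η i, S.E0 y (η i)⟫_ℂ
  comm : ∀ f y, T f * π y = π y * T f
  right : ∀ f, T f ζ = π (S.ρ f) ζ
  star_T : ∀ f, star (T f) = T (star f)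

theorem Gns_inner_nonneg {a : H →L[ℂ] H} (ha : 0 ≤ a) (η : H) : 0 ≤ ⟪η, a η⟫_ℂ :=
  ((ContinuousLinearMap.nonneg_iff_isPositive a).1 ha).inner_nonneg_right η

theorem Gns_re_le {a c : H →L[ℂ] H} (h : a ≤ (4 : ℝ) • (star c * c)) (v : H) :
    (⟪v, a v⟫_ℂ).re ≤ 4 * ‖c v‖ ^ 2 := by
  have h1 := VN_re_nonneg (sub_nonneg.2 h) v
  rw [← Complex.coe_smul, sub_apply, inner_sub_right, smul_apply, inner_smul_right, Complex.sub_re,
    Complex.re_ofReal_mul, ← norm_apply_sq_eq] at h1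
  linarith

/-- the averaged state -/
def Setup.gnsState (S : Setup H X) {ι : Type*} [Fintype ι] (η : ι → H) :
    (H →L[ℂ] H) →ₚ[ℂ] ℂ :=
  PositiveLinearMap.mk₀
    { toFun := fun y => ∑ i, ⟪η i, S.E0 y (η i)⟫_ℂ
      map_add' := fun y z => by
        simp only [S.E0_add, add_apply, inner_add_right, Finset.sum_add_distrib]
      map_smul' := fun c y => by
        simp only [S.E0_smul, smul_apply, inner_smul_right, RingHom.id_apply, smul_eq_mul,
          Finset.mul_sum] }
    fun y hy => Finset.sum_nonneg fun i _ => Gns_inner_nonneg (S.E0_nonneg hy) (η i)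

theorem Setup.gnsState_apply (S : Setup H X) {ι : Type*} [Fintype ι] (η : ι → H)
    (y : H →L[ℂ] H) : S.gnsState η y = ∑ i, ⟪η i, S.E0 y (η i)⟫_ℂ := rfl

theorem Setup.gnsState_comm (S : Setup H X) {ι : Type*} [Fintype ι] (η : ι → H) (f : C(X, ℂ))
    (y : H →L[ℂ] H) : S.gnsState η (S.ρ f * y) = S.gnsState η (y * S.ρ f) := by
  rw [S.gnsState_apply, S.gnsState_apply, S.E0_ρ_mul, S.E0_mul_ρ, S.ρ_mul_E0]

theorem Setup.gnsState_bound (S : Setup H X) {ι : Type*} [Fintype ι] (η : ι → H) (f : C(X, ℂ))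
    (y : H →L[ℂ] H) : S.gnsState η (star (y * S.ρ f) * (y * S.ρ f)) ≤
      ((‖S.ρ f‖ ^ 2 : ℝ) : ℂ) * S.gnsState η (star y * y) := by
  have h1 : 0 ≤ algebraMap ℝ (H →L[ℂ] H) (‖S.ρ f‖ ^ 2) - star (S.ρ f) * S.ρ f :=
    sub_nonneg.2 CStarAlgebra.star_mul_le_algebraMap_norm_sq
  have h2 : Commute (algebraMap ℝ (H →L[ℂ] H) (‖S.ρ f‖ ^ 2) - star (S.ρ f) * S.ρ f)
      (S.E0 (star y * y)) := by
    refine Commute.sub_left (Algebra.commutes _ _) ?_
    rw [← map_star, ← map_mul]
    exact S.ρ_mul_E0 _ _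
  have h3 := Commute.mul_nonneg h1 (S.E0_nonneg (star_mul_self_nonneg y)) h2
  have h4 : S.E0 (star (y * S.ρ f) * (y * S.ρ f)) = star (S.ρ f) * S.ρ f * S.E0 (star y * y) := by
    rw [star_mul, mul_assoc, ← map_star, S.E0_ρ_mul, ← mul_assoc (star y), S.E0_mul_ρ,
      ← S.ρ_mul_E0, mul_assoc]
  rw [S.gnsState_apply, S.gnsState_apply, h4, Finset.mul_sum]
  refine Finset.sum_le_sum fun i _ => ?_
  have h5 := Gns_inner_nonneg h3 (η i)
  rwa [sub_mul, Algebra.algebraMap_eq_smul_one, smul_mul_assoc, one_mul, ← Complex.coe_smul,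
    sub_apply, inner_sub_right, smul_apply, inner_smul_right, sub_nonneg] at h5

universe u

/-- Recipe: `PositiveLinearMap.gnsStarAlgHom` for the positive functional on all of `H →L[ℂ] H`
(`E0_add`, `E0_smul`, `E0_nonneg`); `ζ` = the class of `1`; `T f` = completion of the right
multiplication by `ρ f` on `PreGNS`, bounded by `‖f‖` because
`E0 (ρ f⋆ y⋆ y ρ f) = ρ |f|² E0 (y⋆ y) ≤ ‖f‖² E0 (y⋆ y)` (`E0_ρ_mul`, `E0_mul_ρ`, `ρ_mul_E0`). -/
theorem exists_gns {H : Type u} [NormedAddCommGroup H] [InnerProductSpace ℂ H] [CompleteSpace H]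
    (S : Setup H X) {ι : Type*} [Fintype ι] (η : ι → H) :
    ∃ (L : Type u) (_ : NormedAddCommGroup L) (_ : InnerProductSpace ℂ L) (_ : CompleteSpace L),
      Nonempty (GnsData S η L) := by
  let φ := S.gnsState η
  refine ⟨φ.GNS, inferInstance, inferInstance, inferInstance, ⟨
    { π := φ.gnsStarAlgHom
      ζ := (φ.toPreGNS 1 : φ.PreGNS)
      T := fun f => (gnsRightPre φ (S.ρ f) (S.gnsState_bound η f)).completion
      state := fun y => ?_
      comm := fun f y => gnsRight_comm φ _ _ y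
      right := fun f => ?_
      star_T := fun f => ?_ }⟩⟩
  · rw [gns_apply_coe, UniformSpace.Completion.inner_coe, PositiveLinearMap.preGNS_inner_def]
    simp only [PositiveLinearMap.ofPreGNS_toPreGNS, star_one, one_mul, mul_one]
    rfl
  · rw [gns_apply_coe, ContinuousLinearMap.completion_apply_coe, gnsRightPre_apply]
    simp only [PositiveLinearMap.ofPreGNS_toPreGNS, one_mul, mul_one]
  · have h := S.gnsState_bound η (star f)
    rw [map_star] at h
    rw [gnsRight_star φ _ _ h (S.gnsState_comm η f)]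
    simp only [map_star]

namespace GnsData
variable {S : Setup H X} {ι : Type*} [Fintype ι] {η : ι → H} {L : Type*}
  [NormedAddCommGroup L] [InnerProductSpace ℂ L] [CompleteSpace L] (D : GnsData S η L)

/-- intertwiners from the identity representation -/
def Int (t : H →L[ℂ] L) : Prop := ∀ y ∈ S.M, t ∘L y = D.π y ∘L t

def Z : Submodule ℂ L := (Submodule.span ℂ {v | ∃ t h, D.Int t ∧ v = t h}).topologicalClosure

instance : D.Z.HasOrthogonalProjection := by unfold Z; infer_instance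

/-- the projection onto the normal part -/
def z : L →L[ℂ] L := D.Z.starProjection

def eS : Submodule ℂ H :=
  (Submodule.span ℂ {h | ∃ t, D.Int t ∧ h = ContinuousLinearMap.adjoint t D.ζ}).topologicalClosure

instance : D.eS.HasOrthogonalProjection := by unfold eS; infer_instance

/-- the support of the normal part of the state -/
def e : H →L[ℂ] H := D.eS.starProjection

theorem Gns_mem_Z {t : H →L[ℂ] L} (ht : D.Int t) (h : H) : t h ∈ D.Z :=
  Submodule.le_topologicalClosure _ (Submodule.subset_span ⟨t, h, ht, rfl⟩)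

theorem Gns_mem_eS {t : H →L[ℂ] L} (ht : D.Int t) :
    ContinuousLinearMap.adjoint t D.ζ ∈ D.eS :=
  Submodule.le_topologicalClosure _ (Submodule.subset_span ⟨t, ht, rfl⟩)

theorem Gns_int_apply {t : H →L[ℂ] L} (ht : D.Int t) {y : H →L[ℂ] H} (hy : y ∈ S.M) (h : H) :
    t (y h) = D.π y (t h) := congrArg (fun a : H →L[ℂ] L => a h) (ht y hy)

theorem Gns_adj_apply {t : H →L[ℂ] L} (ht : D.Int t) {y : H →L[ℂ] H} (hy : y ∈ S.M) (l : L) :
    ContinuousLinearMap.adjoint t (D.π y l) = y (ContinuousLinearMap.adjoint t l) := by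
  refine ext_inner_left ℂ fun h => ?_
  rw [ContinuousLinearMap.adjoint_inner_right, ← VN_star_inner, ← map_star,
    ← D.Gns_int_apply ht (star_mem hy), ← VN_star_inner, ContinuousLinearMap.adjoint_inner_right]

theorem Gns_int_left {t : H →L[ℂ] L} (ht : D.Int t) {s : L →L[ℂ] L}
    (hs : ∀ y ∈ S.M, s * D.π y = D.π y * s) : D.Int (s ∘L t) := fun y hy => by
  ext h
  change s (t (y h)) = (D.π y * s) (t h)
  rw [D.Gns_int_apply ht hy, ← hs y hy]
  rfl

theorem Gns_int_right {t : H →L[ℂ] L} (ht : D.Int t) {s : H →L[ℂ] H} (hs : s ∈ S.M.commutant) :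
    D.Int (t ∘L s) := fun y hy => by
  ext h
  change t ((s * y) h) = D.π y (t (s h))
  rw [vn_commute hy hs, ← D.Gns_int_apply ht hy]
  rfl

theorem Gns_isStarProjection_e : IsStarProjection D.e := isStarProjection_starProjection

theorem isStarProjection_z : IsStarProjection D.z := by
  exact isStarProjection_starProjection

theorem z_comp {t : H →L[ℂ] L} (ht : D.Int t) : D.z ∘L t = t := by
  ext h
  exact Submodule.starProjection_eq_self_iff.2 (D.Gns_mem_Z ht h)

theorem π_mul_z {y : H →L[ℂ] H} (hy : y ∈ S.M) : D.π y * D.z = D.z * D.π y := by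
  have key : ∀ y ∈ S.M, ∀ v ∈ D.Z, D.π y v ∈ D.Z := fun y hy =>
    apply_mem_closure_span (Submodule.isClosed_topologicalClosure _) (D.π y) (by
      rintro _ ⟨t, h, ht, rfl⟩
      rw [← D.Gns_int_apply ht hy]
      exact D.Gns_mem_Z ht _)
  refine commute_starProjection D.Z (key y hy) ?_
  rw [← map_star]
  exact key _ (star_mem hy)

theorem mul_z {s : L →L[ℂ] L} (hs : ∀ y ∈ S.M, s * D.π y = D.π y * s) : s * D.z = D.z * s := by
  have key : ∀ s : L →L[ℂ] L, (∀ y ∈ S.M, s * D.π y = D.π y * s) → ∀ v ∈ D.Z, s v ∈ D.Z :=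
    fun s hs => apply_mem_closure_span (Submodule.isClosed_topologicalClosure _) s (by
      rintro _ ⟨t, h, ht, rfl⟩
      exact D.Gns_mem_Z (D.Gns_int_left ht hs) h)
  refine commute_starProjection D.Z (key s hs) (key _ fun y hy => ?_)
  have := congrArg star (hs _ (star_mem hy))
  simp only [star_mul, map_star, star_star] at this
  exact this.symm

theorem eq_zero_of_comp_int {K : Type*} [NormedAddCommGroup K] [InnerProductSpace ℂ K]
    {a : L →L[ℂ] K} (h : ∀ t, D.Int t → a ∘L t = 0) : a ∘L D.z = 0 := by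
  have h1 : D.Z ≤ a.ker := by
    refine Submodule.topologicalClosure_minimal _ (Submodule.span_le.2 ?_) a.isClosed_ker
    rintro _ ⟨t, v, ht, rfl⟩
    exact congrArg (fun b : H →L[ℂ] K => b v) (h t ht)
  ext l
  exact h1 (D.Z.starProjection_apply_mem l)

/-- `eS` is invariant under `M'` (`t ∘ s⋆` intertwines) and under `ρ f`
(`ρ f t⋆ ζ = t⋆ (T f) ζ = (T f⋆ ∘ t)⋆ ζ`) -/
theorem exists_e_eq : ∃ U, IsClopen U ∧ D.e = S.p U := by
  have hcl : IsClosed (D.eS : Set H) := Submodule.isClosed_topologicalClosure _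
  have k1 : ∀ s ∈ S.M.commutant, ∀ v ∈ D.eS, s v ∈ D.eS := fun s hs =>
    apply_mem_closure_span hcl s (by
      rintro _ ⟨t, ht, rfl⟩
      have := D.Gns_mem_eS (D.Gns_int_right ht (star_mem hs))
      rwa [ContinuousLinearMap.adjoint_comp, ← ContinuousLinearMap.star_eq_adjoint,
        star_star] at this)
  have k2 : ∀ f, ∀ v ∈ D.eS, S.ρ f v ∈ D.eS := fun f =>
    apply_mem_closure_span hcl (S.ρ f) (by
      rintro _ ⟨t, ht, rfl⟩
      have := D.Gns_mem_eS (D.Gns_int_left ht fun y _ => D.comm (star f) y)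
      rw [ContinuousLinearMap.adjoint_comp, ← ContinuousLinearMap.star_eq_adjoint, D.star_T,
        star_star] at this
      rw [← D.Gns_adj_apply ht (S.mem f), ← D.right]
      exact this)
  have hM : D.e ∈ S.M := vn_mem_of_commute fun s hs =>
    commute_starProjection D.eS (k1 s hs) (k1 _ (star_mem hs))
  obtain ⟨g, hg⟩ := S.max _ hM fun f =>
    commute_starProjection D.eS (k2 f) (by rw [← map_star]; exact k2 _)
  obtain ⟨U, hU, rfl⟩ := exists_ind_of_idem (f := g) (S.inj (by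
    rw [map_mul, hg, D.Gns_isStarProjection_e.isIdempotentElem.eq]))
  exact ⟨U, hU, hg.symm⟩

theorem Gns_e_mem : D.e ∈ S.M := by
  obtain ⟨U, -, h⟩ := D.exists_e_eq
  rw [h]
  exact S.p_mem U

theorem Gns_z_π_ζ : D.z (D.π (1 - D.e) D.ζ) = 0 := by
  refine (Submodule.starProjection_apply_eq_zero_iff _).2 ?_
  rw [Z, Submodule.orthogonal_closure, Submodule.mem_orthogonal]
  intro v hv
  induction hv using Submodule.span_induction with
  | mem v hv =>
    obtain ⟨t, h, ht, rfl⟩ := hv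
    have h1 : D.e (ContinuousLinearMap.adjoint t D.ζ) = ContinuousLinearMap.adjoint t D.ζ :=
      Submodule.starProjection_eq_self_iff.2 (D.Gns_mem_eS ht)
    rw [← ContinuousLinearMap.adjoint_inner_right,
      D.Gns_adj_apply ht (sub_mem (one_mem _) D.Gns_e_mem), sub_apply, h1]
    simp
  | zero => simp
  | add v w _ _ hv hw => rw [inner_add_left, hv, hw, add_zero]
  | smul c v _ hv => rw [inner_smul_left, hv, mul_zero]

theorem π_e_z_ζ : D.π D.e (D.z D.ζ) = D.z D.ζ := by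
  have h1 := D.Gns_z_π_ζ
  rw [← mul_apply_eq_comp, ← D.π_mul_z (sub_mem (one_mem _) D.Gns_e_mem), map_sub, map_one,
    mul_apply_eq_comp, sub_apply, sub_eq_zero] at h1
  exact h1.symm

/-- `π (ρ f) z ζ = T f z ζ`, `star_T`, `comm` -/
theorem central (f : C(X, ℂ)) {y : H →L[ℂ] H} (hy : y ∈ S.M) :
    ⟪D.z D.ζ, D.π (S.ρ f * y) (D.z D.ζ)⟫_ℂ = ⟪D.z D.ζ, D.π (y * S.ρ f) (D.z D.ζ)⟫_ℂ := by
  have h1 : ∀ f, D.π (S.ρ f) (D.z D.ζ) = D.T f (D.z D.ζ) := fun f => by
    rw [← mul_apply_eq_comp, D.π_mul_z (S.mem f), mul_apply_eq_comp, ← D.right,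
      ← mul_apply_eq_comp, ← D.mul_z fun y _ => D.comm f y, mul_apply_eq_comp]
  rw [map_mul, map_mul, mul_apply_eq_comp, mul_apply_eq_comp, ← VN_star_inner (D.π (S.ρ f)),
    ← map_star, ← map_star, h1, h1, ← D.star_T, VN_star_inner, ← mul_apply_eq_comp, D.comm,
    mul_apply_eq_comp]

/-- Recipe: `σ y = y ⊕ π y` is a representation of the C⋆-algebra `↥M.toStarSubalgebra` on
`WithLp 2 (H × L)`.  The blocks of an operator commuting with `σ` are in `M'`, `Int`, `Int⋆`,
`π(M)'`, so `b = 1 ⊕ z` is in the bicommutant.  `Crest.Agent.R124.kap_mem_closure_sa` for the family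
`((1 - e) η i, 0)`, `(0, π (1 - e) ζ)` (index `Option (Fin n)`) gives a selfadjoint `y ∈ M` with
`y χ i ≈ χ i`, `π y π(1 - e) ζ ≈ z π (1 - e) ζ = 0`.  Take `q = cfc (fun t => min (4 t²) 1) y`:
`q ≤ 4 y²`, `1 - q ≤ 4 (1 - y)²`. -/
theorem sing : S.Sing fun i => (1 - D.e) (η i) := by
  intro γ hγ
  have : IsClosed (S.M.toStarSubalgebra : Set (H →L[ℂ] H)) := vn_isClosed S.M
  obtain ⟨x, hx, hle⟩ := exists_sa_sumRep (A := S.M.toStarSubalgebra) S.M.toStarSubalgebra.subtype
    (D.π.comp S.M.toStarSubalgebra.subtype) D.isStarProjection_z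
    (fun t ht => D.z_comp fun y hy => ht ⟨y, hy⟩) (fun s hs => D.mul_z fun y hy => hs ⟨y, hy⟩)
    (fun i => (1 - D.e) (η i)) D.Gns_z_π_ζ (δ := √γ / 2) (by positivity)
  obtain ⟨y, hy⟩ := x
  have hsa : IsSelfAdjoint y := congrArg Subtype.val hx.star_eq
  rw [div_pow, Real.sq_sqrt hγ.le] at hle
  change ‖D.π y (D.π (1 - D.e) D.ζ)‖ ^ 2 + ∑ i, ‖(1 - D.e) (η i) - y ((1 - D.e) (η i))‖ ^ 2 ≤ _
    at hle
  have hs1 : 0 ≤ ∑ i, ‖(1 - D.e) (η i) - y ((1 - D.e) (η i))‖ ^ 2 := by positivity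
  have hs2 : 0 ≤ ‖D.π y (D.π (1 - D.e) D.ζ)‖ ^ 2 := by positivity
  let g : ℝ → ℝ := fun t => min (4 * (t * t)) 1
  have hg : Continuous g := by fun_prop
  have hq1 : cfc g y ≤ (4 : ℝ) • (star y * y) := by
    have e : cfc (fun t : ℝ => 4 * (t * t)) y = (4 : ℝ) • (star y * y) := by
      rw [cfc_const_mul _ _ y, cfc_mul (fun t => t) (fun t => t) y, cfc_id' ℝ y, hsa.star_eq]
    rw [← e]
    exact cfc_mono fun t _ => min_le_left _ _
  have hq2 : 1 - cfc g y ≤ (4 : ℝ) • (star (1 - y) * (1 - y)) := by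
    have e : cfc (fun t : ℝ => 4 * ((1 - t) * (1 - t))) y =
        (4 : ℝ) • (star (1 - y) * (1 - y)) := by
      rw [cfc_const_mul _ _ y, cfc_mul (fun t => 1 - t) (fun t => 1 - t) y,
        cfc_sub (fun _ => 1) (fun t => t) y, cfc_id' ℝ y, cfc_const_one ℝ y, star_sub, star_one,
        hsa.star_eq]
    have e' : cfc (fun t : ℝ => 1 - g t) y = 1 - cfc g y := by
      rw [cfc_sub (fun _ => 1) g y, cfc_const_one ℝ y]
    rw [← e, ← e']
    refine cfc_mono fun t _ => ?_
    rcases le_total (4 * (t * t)) 1 with h | h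
    · rw [show g t = 4 * (t * t) from min_eq_left h]
      nlinarith [sq_nonneg (2 * t - 1), sq_nonneg (8 * t - 4), sq_nonneg t]
    · rw [show g t = 1 from min_eq_right h]
      nlinarith [mul_self_nonneg (1 - t)]
  obtain ⟨U, hU, he⟩ := D.exists_e_eq
  have he' : 1 - D.e = S.ρ (ind Uᶜ) := by rw [he, ← S.p_compl hU]; rfl
  have hse : star (1 - D.e) = 1 - D.e := D.Gns_isStarProjection_e.one_sub.isSelfAdjoint.star_eq
  refine ⟨cfc g y, vn_cfc_mem hy g,
    cfc_nonneg fun t _ => le_min (by nlinarith [mul_self_nonneg t]) zero_le_one,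
    cfc_le_one g y fun t _ => min_le_right _ _, ?_, ?_⟩
  · refine (Finset.sum_le_sum fun i _ => Gns_re_le hq2 _).trans ?_
    rw [← Finset.mul_sum]
    change 4 * ∑ i, ‖(1 - D.e) (η i) - y ((1 - D.e) (η i))‖ ^ 2 ≤ γ
    linarith
  · have h1 : D.π (cfc g y) ≤ (4 : ℝ) • (star (D.π y) * D.π y) := by
      have := OrderHomClass.mono D.π hq1
      rwa [← Complex.coe_smul, map_smul, map_mul, map_star, Complex.coe_smul] at this
    have h2 := D.state (star (1 - D.e) * cfc g y * (1 - D.e))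
    have h3 : S.E0 (star (1 - D.e) * cfc g y * (1 - D.e)) =
        star (1 - D.e) * S.E0 (cfc g y) * (1 - D.e) := by
      rw [hse, he', S.E0_mul_ρ, S.E0_ρ_mul]
    rw [h3, map_mul, map_mul, map_star] at h2
    simp only [mul_apply_eq_comp, VN_inner_star] at h2
    have h4 := Gns_re_le h1 (D.π (1 - D.e) D.ζ)
    rw [h2, Complex.re_sum] at h4
    linarith

end GnsData

end

end Crest.Agent.R109
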