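import Crest.Agent.R109.Mix

/-!
# Row 109: basic properties of the potential
-/

open Polynomial
open scoped BigOperators

set_option linter.unusedSectionVars false

namespace Crest.Agent.R109

noncomputable section

section Basic
variable {α α' κ : Type*} [Fintype α] [DecidableEq α] [Fintype α'] [DecidableEq α']
  [Fintype κ] [DecidableEq κ]

theorem pot_roots_prod {ι : Type*} (s : Finset ι) (a : ι → ℂ) :
    ((∏ c ∈ s, (X - C (a c))).roots.map Complex.exp).sum = ∑ c ∈ s, Complex.exp (a c) := by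
  have h : ∏ c ∈ s, (X - C (a c)) = ((s.1.map a).map fun x => X - C x).prod := by
    rw [Multiset.map_map]
    rfl
  rw [h, roots_multiset_prod_X_sub_C, Multiset.map_map]
  rfl

theorem pot_roots_comp {p : ℂ[X]} (hp : p.Monic) (b : ℂ) :
    (p.comp (X - C b)).roots = p.roots.map fun x => x + b := by
  conv_lhs => rw [(IsAlgClosed.splits p).eq_prod_roots_of_monic hp, multiset_prod_comp]
  rw [← roots_multiset_prod_X_sub_C (p.roots.map fun x => x + b), Multiset.map_map,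
    Multiset.map_map]
  congr 2
  refine Multiset.map_congr rfl fun x _ => ?_
  simp only [Function.comp_apply, sub_comp, X_comp, C_comp, C_add]
  ring

theorem pot_decouple (p : α → Prop) [DecidablePred p] (Y : α → α → ℂ) (h : α → ℝ) (θ : α → κ → ℝ)
    (hY : ∀ c c', p c → ¬ p c' → Y c' c = 0) :
    psi0 Y h θ = psi0 (fun c c' : {c // p c} => Y c c') (fun c => h c) (fun c => θ c) +
      psi0 (fun c c' : {c // ¬ p c} => Y c c') (fun c => h c) (fun c => θ c) := by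
  have h2 : PP Y h (fun c k => (θ c k : ℂ)) =
      PP (fun c c' : {c // p c} => Y c c') (fun c => h c) (fun c k => (θ c k : ℂ)) *
        PP (fun c c' : {c // ¬ p c} => Y c c') (fun c => h c) (fun c k => (θ c k : ℂ)) :=
    mix_decouple p Y _ fun c c' hc hc' => Or.inl (hY c c' hc hc')
  have h4 := (monic_PP Y h fun c k => (θ c k : ℂ)).1.ne_zero
  unfold psi0 Psi
  rw [h2] at h4
  rw [h2, roots_mul h4, Multiset.map_add, Multiset.sum_add, Complex.add_re,
    ← Fintype.sum_subtype_add_sum_subtype p fun c => Real.exp (h c)]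
  ring

/-- Recipe: `mix_embed` for `PP`, `roots_mul`, `roots_prod_X_sub_C`-style. -/
theorem psi0_embed (j : α ↪ α') (Y : α' → α' → ℂ) (h : α' → ℝ) (θ : α' → κ → ℝ)
    (hθ : ∀ c', c' ∉ Set.range j → ∀ k, θ c' k = 0) :
    psi0 Y h θ = psi0 (fun c c' => Y (j c) (j c')) (fun c => h (j c)) (fun c => θ (j c)) := by
  have h1 := mix_embed j Y (wP h fun c k => (θ c k : ℂ)) fun c' hc' k => by
    simp [wP, hθ c' hc' k]
  generalize hs : Finset.univ.filter (fun c' => c' ∉ Set.range j) = s at h1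
  have h2 : PP Y h (fun c k => (θ c k : ℂ)) =
      PP (fun c c' => Y (j c) (j c')) (fun c => h (j c)) (fun c k => (θ (j c) k : ℂ)) *
        ∏ c' ∈ s, (X - C (h c' : ℂ)) := h1
  have h3 : ∑ c', Real.exp (h c') = ∑ c, Real.exp (h (j c)) + ∑ c' ∈ s, Real.exp (h c') := by
    rw [← hs, ← Finset.sum_map Finset.univ j fun c' => Real.exp (h c'), ← Finset.sum_union]
    · congr 1
      ext c'
      by_cases hc : c' ∈ Set.range j
      · simpa using Or.inl hc
      · simpa using Or.inr (by simpa using hc)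
    · refine Finset.disjoint_left.2 fun c' h1 h2 => (Finset.mem_filter.1 h2).2 ?_
      obtain ⟨c, -, rfl⟩ := Finset.mem_map.1 h1
      exact ⟨c, rfl⟩
  have h4 := (monic_PP Y h fun c k => (θ c k : ℂ)).1.ne_zero
  unfold psi0 Psi
  rw [h2] at h4
  rw [h3, h2, roots_mul h4, Multiset.map_add, Multiset.sum_add, pot_roots_prod, Complex.add_re,
    Complex.re_sum]
  simp only [Complex.exp_ofReal_re]
  ring

/-- Recipe: `PP Y (h + b) θ = (PP Y h θ).comp (X - C b)` (`map_mix` with `aeval (X - C b)`); the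
roots are shifted by `b` (write the monic split polynomial as a product over its roots). -/
theorem psi0_shift (Y : α → α → ℂ) (h : α → ℝ) (θ : α → κ → ℝ) (b : ℝ) :
    psi0 Y (fun c => h c + b) θ = Real.exp b * psi0 Y h θ := by
  have h1 : PP Y (fun c => h c + b) (fun c k => (θ c k : ℂ)) =
      (PP Y h fun c k => (θ c k : ℂ)).comp (X - C (b : ℂ)) := by
    rw [comp_eq_aeval, PP, PP, map_mix]
    congr 1
    funext c o
    cases o with
    | none =>
      simp only [wP, wt_none, map_sub, aeval_X, aeval_C, algebraMap_eq, Complex.ofReal_add, C_add]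
      ring
    | some k => simp [wP]
  unfold psi0 Psi
  rw [h1, pot_roots_comp (monic_PP _ _ _).1, Multiset.map_map]
  simp only [Function.comp_def, Complex.exp_add, Real.exp_add]
  rw [Multiset.sum_map_mul_right, ← Finset.sum_mul, ← Complex.ofReal_exp, Complex.re_mul_ofReal]
  ring

theorem psi0_gauge (u : α → ℂ) (hu : ∀ c, star (u c) * u c = 1) (Y : α → α → ℂ) (h : α → ℝ)
    (θ : α → κ → ℝ) : psi0 (fun c c' => star (u c) * Y c c' * u c') h θ = psi0 Y h θ := by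
  unfold psi0 Psi PP
  rw [mix_gauge u hu]

variable {X : Type*} [DecidableEq X]

theorem pot_congr {Y Y' : X → X → ℂ} {h h' : X → ℝ} {θ θ' : X → κ → ℝ} {Λ : Finset X}
    (hY : ∀ s ∈ Λ, ∀ t ∈ Λ, Y s t = Y' s t) (hh : ∀ s ∈ Λ, h s = h' s)
    (hθ : ∀ s ∈ Λ, θ s = θ' s) : pot Y h θ Λ = pot Y' h' θ' Λ := by
  unfold pot
  congr 1
  · exact funext fun s => funext fun t => hY s s.2 t t.2
  · exact funext fun s => hh s s.2
  · exact funext fun s => hθ s s.2

theorem pot_subset (Y : X → X → ℂ) (h : X → ℝ) (θ : X → κ → ℝ) {Λ Λ' : Finset X} (hΛ : Λ ⊆ Λ')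
    (hθ : ∀ s ∈ Λ', s ∉ Λ → ∀ k, θ s k = 0) : pot Y h θ Λ' = pot Y h θ Λ :=   psi0_embed (⟨fun s => ⟨s.1, hΛ s.2⟩, fun _ _ e => Subtype.ext (congrArg Subtype.val e :)⟩ : Λ ↪ Λ')
    _ _ _ fun c' hc' => hθ c' c'.2 fun hm => hc' ⟨⟨c', hm⟩, rfl⟩

theorem pot_empty (Y : X → X → ℂ) (h : X → ℝ) (θ : X → κ → ℝ) : pot Y h θ ∅ = 0 := by
  have h1 := monic_PP (fun s t : (∅ : Finset X) => Y s t) (fun s => h s) fun s k => (θ s k : ℂ)
  unfold pot psi0 Psi
  rw [h1.1.natDegree_eq_zero.1 (h1.2.trans (by simp))]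
  simp

theorem pot_shift (Y : X → X → ℂ) (h : X → ℝ) (θ : X → κ → ℝ) (Λ : Finset X) (b : ℝ) :
    pot Y (fun s => h s + b) θ Λ = Real.exp b * pot Y h θ Λ :=   psi0_shift _ _ _ b

/-- `pot` of an image computed on the index set, with the weights of an index set to zero unless
it is in `W₀`, a set of representatives. -/
theorem pot_image {ι : Type*} [Fintype ι] [DecidableEq ι] (f : ι → X) (W₀ : Finset ι)
    (hf : Set.InjOn f W₀) (Y : X → X → ℂ) (h : X → ℝ) (θ : X → κ → ℝ) :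
    pot Y h θ (W₀.image f) = psi0 (fun i i' => Y (f i) (f i')) (fun i => h (f i))
      (fun i k => if i ∈ W₀ then θ (f i) k else 0) := by
  rw [psi0_embed (Function.Embedding.subtype (· ∈ W₀)) _ _ _ fun i hi k =>
    if_neg fun hm => hi ⟨⟨i, hm⟩, rfl⟩]
  refine (psi0_embed (⟨fun i => ⟨f i, Finset.mem_image_of_mem f i.2⟩,
    fun i i' e => Subtype.ext (hf i.2 i'.2 (congrArg Subtype.val e))⟩ : W₀ ↪ W₀.image f)
    _ _ _ fun c' hc' => absurd ?_ hc').trans ?_
  · obtain ⟨i, hi, e⟩ := Finset.mem_image.1 c'.2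
    exact ⟨⟨i, hi⟩, Subtype.ext e⟩
  · congr 1
    funext i k
    exact (if_pos i.2).symm

/-- Recipe: `mix_decouple` on the subtype of `Λ₁ ∪ Λ₂`, `roots_mul`, `psi0_embed` for the
reindexing equivalences. -/
theorem pot_union (Y : X → X → ℂ) (h : X → ℝ) (θ : X → κ → ℝ) {Λ₁ Λ₂ : Finset X}
    (hd : Disjoint Λ₁ Λ₂) (hY : ∀ s ∈ Λ₁, ∀ t ∈ Λ₂, Y t s = 0) :
    pot Y h θ (Λ₁ ∪ Λ₂) = pot Y h θ Λ₁ + pot Y h θ Λ₂ := by
  have h2 : ∀ c : ↥(Λ₁ ∪ Λ₂), c.1 ∉ Λ₁ → c.1 ∈ Λ₂ := fun c hc =>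
    (Finset.mem_union.1 c.2).resolve_left hc
  refine (pot_decouple (fun c : ↥(Λ₁ ∪ Λ₂) => c.1 ∈ Λ₁) _ _ _
    fun c c' hc hc' => hY c hc c' (h2 c' hc')).trans ?_
  congr 1
  · exact psi0_embed (⟨fun s => ⟨⟨s.1, Finset.mem_union_left _ s.2⟩, s.2⟩,
      fun _ _ e => Subtype.ext (congrArg (fun x => x.1.1) e)⟩ : Λ₁ ↪ {c : ↥(Λ₁ ∪ Λ₂) // c.1 ∈ Λ₁})
      _ _ _ fun c' hc' => absurd ⟨⟨c'.1.1, c'.2⟩, rfl⟩ hc'
  · exact psi0_embed (⟨fun s => ⟨⟨s.1, Finset.mem_union_right _ s.2⟩,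
        fun hm => Finset.disjoint_left.1 hd hm s.2⟩,
      fun _ _ e => Subtype.ext (congrArg (fun x => x.1.1) e)⟩ : Λ₂ ↪ {c : ↥(Λ₁ ∪ Λ₂) // ¬ c.1 ∈ Λ₁})
      _ _ _ fun c' hc' => absurd ⟨⟨c'.1.1, h2 c'.1 c'.2⟩, rfl⟩ hc'

end Basic

end

end Crest.Agent.R109
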