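import Crest.Agent.R109.Barrier
import Crest.Agent.R109.Pot

/-!
# Row 109: initial and final bounds for the potential
-/

open Polynomial
open scoped BigOperators

set_option linter.unusedSectionVars false

namespace Crest.Agent.R109

noncomputable section

variable {α κ : Type*} [Fintype α] [DecidableEq α] [Fintype κ] [DecidableEq κ]

variable {X : Type*} [DecidableEq X]

theorem initFin_form {Y : X → X → ℂ} {Λ : Finset X} {t : ℝ} (hf : FormLe Y Λ t) {j : α → X}
    (hj : Function.Injective j) (hΛ : ∀ a, j a ∈ Λ) :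
    FormLe (fun a b => Y (j a) (j b)) Finset.univ t := fun c => by
  classical
  have key : ∀ {M : Type} [AddCommMonoid M] (f : X → ℂ → M), (∀ s, f s 0 = 0) →
      ∑ a, f (j a) (c a) = ∑ s ∈ Λ, f s (Function.extend j c 0 s) := fun f h0 =>
    Finset.sum_of_injOn j hj.injOn (fun a _ => hΛ a)
      (fun s _ hs => by rw [Function.extend_apply' _ _ _ (by simpa using hs), Pi.zero_apply, h0])
      (fun a _ => by rw [hj.extend_apply])
  have h := hf (Function.extend j c 0)
  rw [← key (fun _ z => ‖z‖ ^ 2) (by simp),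
    ← key (fun s z => ∑ s' ∈ Λ, star z * Y s s' * Function.extend j c 0 s') (by simp)] at h
  have h2 := fun a => key (fun s z => star (c a) * Y (j a) s * z) (by simp)
  simpa only [← h2] using h

/-- Initial bound.  Recipe: on the subtype `Λ`, second part of `psi0_update` and `EE_le_exp` with
`T = h o + 7000 β / √r`; positivity of the model with `θ o = 0` follows from `mix_embed` (factor
`x - h o > 0`) and `barrier` on `Λ.erase o`; `pot_subset` identifies `pot .. (Λ.erase o)`. -/
theorem pot_init [Nonempty κ] {Y : X → X → ℂ} (hY : Herm Y) (hd : ∀ s, Y s s = 0) (h : X → ℝ)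
    {Λ : Finset X} (hf : FormLe Y Λ 1) {o : X} (ho : o ∈ Λ) (hh : ∀ s ∈ Λ, h s ≤ h o) {β : ℝ}
    (hβ : 0 ≤ β) :
    pot Y h (fun _ (_ : κ) => β * (1000 / Fintype.card κ)) Λ -
      pot Y h (fun _ (_ : κ) => β * (1000 / Fintype.card κ)) (Λ.erase o) ≤
      Real.exp (h o + 7000 * β / √(Fintype.card κ)) := by
  set b : ℝ := β * (1000 / Fintype.card κ) with hb
  have hb0 : 0 ≤ b := by positivity
  have hr : (0 : ℝ) < Fintype.card κ := Nat.cast_pos.2 Fintype.card_pos
  have hT : 7 * b * √(Fintype.card κ) = 7000 * β / √(Fintype.card κ) := by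
    rw [eq_div_iff (Real.sqrt_pos.2 hr).ne', mul_assoc, Real.mul_self_sqrt hr.le, hb]
    field_simp
    ring
  obtain ⟨P, m, hm0, hm1, hm2⟩ := psi0_update (Y := fun s t : Λ => Y s t) (fun s t => hY s t)
    (fun s => hd s) (fun s : Λ => h s) (fun _ (_ : κ) => b) (fun _ _ => hb0) ⟨o, ho⟩
  have e0 := hm1 (fun _ => b) (fun _ => hb0)
  have e1 : pot Y h (fun _ (_ : κ) => b) (Λ.erase o) = psi0 (fun s t : Λ => Y s t)
      (fun s : Λ => h s) (Function.update (fun _ (_ : κ) => b) ⟨o, ho⟩ 0) := by
    rw [pot_congr (θ' := Function.update (fun _ (_ : κ) => b) o 0) (fun _ _ _ _ => rfl)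
      (fun _ _ => rfl) (fun s hs => (Function.update_of_ne (Finset.mem_erase.1 hs).1 _ _).symm),
      ← pot_subset Y h _ (Finset.erase_subset o Λ) (fun s hs hs' k => by
        rw [show s = o by simpa [hs] using hs', Function.update_self, Pi.zero_apply]), pot]
    congr 1
    funext s
    simp [Function.update_apply, Subtype.ext_iff]
  have e2 := EE_le_exp (h o) P (fun μ => ∑ k, b * m k μ)
    (T := h o + 7000 * β / √(Fintype.card κ)) fun x hx _ => by
      have hz : ∀ s ∈ Λ, 7 * b * √(Fintype.card κ) < x - h s := fun s hs => by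
        linarith [hh s hs]
      have hx' : h o < x := lt_of_le_of_lt (le_add_of_nonneg_right (by positivity)) hx
      refine hm2 (fun _ => b) (fun _ => hb0) x ?_ ?_ hx'
      · simpa using barrier (κ := κ) (fun s t : Λ => hY s t) (fun s => hd s)
          (initFin_form hf Subtype.val_injective fun s => s.2) hb0 _ fun s => hz s s.2
      · have h1 := barrier (κ := κ) (fun s t : {s : Λ // s ≠ ⟨o, ho⟩} => hY s t) (fun s => hd s)
          (initFin_form hf (Subtype.val_injective.comp Subtype.val_injective) fun s => s.1.2) hb0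
          _ fun s => hz s s.1.2
        rw [FF, mix_embed (Function.Embedding.subtype (· ≠ (⟨o, ho⟩ : Λ))) _ _
          (fun s hs k => by simp [show s = ⟨o, ho⟩ by simpa using hs]), Finset.prod_eq_single ⟨o, ho⟩ (by simp) (by simp), wt_none,
          ← Complex.ofReal_sub, Complex.re_mul_ofReal]
        refine mul_pos ?_ (sub_pos.2 hx')
        rw [FF] at h1
        refine h1.trans_eq (congrArg Complex.re (congrArg (mix _) ?_))
        funext s o'
        cases o' <;> simp [Function.update_of_ne s.2]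
  rw [Function.update_eq_self] at e0
  rw [e1, pot, e0]
  linarith [Real.exp_pos (h o)]

/-- Final bound.  Recipe: by `FF_unit`, `PP` is the characteristic polynomial of the Hermitian
matrix `diagonal h + β Y` on `Λ` (`Matrix.IsHermitian.roots_charpoly_eq_eigenvalues`); if all
eigenvalues were `< β t - T` the Rayleigh quotient at `c` would be too (spectral theorem, or
`Matrix.IsHermitian.posSemidef_iff_eigenvalues_nonneg` for `(β t - T) 1 - A`). -/
theorem pot_final {Y : X → X → ℂ} (hY : Herm Y) (h : X → ℝ) (Λ : Finset X) (k : κ) {t T β : ℝ}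
    (hβ : 0 < β) (hh : ∀ s ∈ Λ, |h s| ≤ T) (c : X → ℂ)
    (hc : t * ∑ s ∈ Λ, ‖c s‖ ^ 2 < (∑ s ∈ Λ, ∑ s' ∈ Λ, star (c s) * Y s s' * c s').re) :
    Real.exp (β * t - T) - Λ.card * Real.exp T ≤ pot Y h (fun _ => Pi.single k β) Λ := by
  set M : ℝ → Matrix Λ Λ ℂ := fun x => Matrix.of fun s s' =>
    (if s = s' then (x : ℂ) - h s else 0) - β * Y s s' with hM
  have hH : (M (β * t - T)).IsHermitian := Matrix.IsHermitian.ext fun s s' => by
    by_cases hs : s = s' <;> simp [hM, hs, hY s s', eq_comm, ← hY s' s']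
  obtain ⟨i, hi⟩ : ∃ i, hH.eigenvalues i < 0 := by
    by_contra! hn
    have h1 := (hH.posSemidef_iff_eigenvalues_nonneg.2 hn).re_dotProduct_nonneg fun s => c s
    have h2 : star (fun s : Λ => c s) ⬝ᵥ (M (β * t - T)).mulVec (fun s => c s)
        = ((∑ s ∈ Λ, (β * t - T - h s) * ‖c s‖ ^ 2 : ℝ) : ℂ)
          - β * ∑ s ∈ Λ, ∑ s' ∈ Λ, star (c s) * Y s s' * c s' := by
      simp only [← Finset.sum_coe_sort Λ, hM, dotProduct, Matrix.mulVec, Matrix.of_apply, sub_mul,
        Finset.sum_sub_distrib, mul_sub, ite_mul, zero_mul, Finset.sum_ite_eq, Finset.mem_univ,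
        if_true, Finset.mul_sum, Pi.star_apply]
      push_cast
      simp only [← Complex.conj_mul', Complex.star_def, mul_assoc, mul_left_comm, sub_mul, mul_sub,
        Finset.sum_sub_distrib]
    have h3 : ∑ s ∈ Λ, (β * t - T - h s) * ‖c s‖ ^ 2 ≤ β * (t * ∑ s ∈ Λ, ‖c s‖ ^ 2) := by
      rw [← mul_assoc, Finset.mul_sum]
      refine Finset.sum_le_sum fun s hs => mul_le_mul_of_nonneg_right ?_ (by positivity)
      linarith [(abs_le.1 (hh s hs)).1]
    rw [h2, RCLike.re_to_complex, Complex.sub_re, Complex.ofReal_re, Complex.re_ofReal_mul] at h1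
    linarith [mul_lt_mul_of_pos_left hc hβ]
  have hroot : ((β * t - T - hH.eigenvalues i : ℝ) : ℂ) ∈ (PP (fun s t : Λ => Y s t)
      (fun s => h s) fun _ k' => ((Pi.single k β : κ → ℝ) k' : ℂ)).roots := by
    have h1 := FF_unit (fun s t : Λ => Y s t)
      (fun s => ((β * t - T - hH.eigenvalues i : ℝ) : ℂ) - h s) (fun _ => some k) fun _ => β
    rw [mem_roots (monic_PP _ _ _).1.ne_zero, IsRoot, eval_PP]
    convert h1.trans (Matrix.exists_mulVec_eq_zero_iff.1 ⟨⇑(hH.eigenvectorBasis i), by
      simpa using hH.eigenvectorBasis.orthonormal.ne_zero i, ?_⟩) using 2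
    · funext s k'
      by_cases hk : k = k' <;> simp [hk]
    · funext s
      have h2 := congrFun (hH.mulVec_eigenvectorBasis i) s
      simp [hM, dotProduct, Matrix.mulVec, sub_mul] at h2 ⊢
      linear_combination h2
  have h1 : ∑ s : Λ, Real.exp (h s) ≤ Λ.card * Real.exp T := by
    simpa using Finset.sum_le_card_nsmul Finset.univ (fun s : Λ => Real.exp (h s)) _
      fun s _ => Real.exp_le_exp.2 (abs_le.1 (hh s s.2)).2
  refine sub_le_sub ((Real.exp_le_exp.2 ((le_sub_self_iff _).2 hi.le)).trans ?_) h1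
  rw [Psi, ← Complex.reCLM_apply, map_multiset_sum, ← Complex.exp_ofReal_re]
  refine Multiset.single_le_sum (fun x hx => ?_) _
    (Multiset.mem_map_of_mem _ (Multiset.mem_map_of_mem _ hroot))
  simp only [Multiset.mem_map] at hx
  obtain ⟨_, ⟨z, hz, rfl⟩, rfl⟩ := hx
  have h2 := im_eq_zero_of_mem_roots_PP (fun s t : Λ => hY s t) _ _
    (fun _ => step_single_nonneg k hβ.le) hz
  simp [Complex.exp_re, h2, Real.exp_nonneg]

end

end Crest.Agent.R109
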