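import Crest.Agent.R109.Mu
import Crest.Agent.R109.CondN

/-!
# Row 109: the matrix of an element of the crossed product on the orbits
-/

open Filter Topology
open scoped InnerProductSpace BigOperators ComplexOrder

set_option linter.unusedSectionVars false

namespace Crest.Agent.R109

noncomputable section

open Classical

variable {H : Type*} [NormedAddCommGroup H] [InnerProductSpace ℂ H] [CompleteSpace H]
  {X : Type*} [TopologicalSpace X] [CompactSpace X] [T2Space X] [ExtremallyDisconnected X]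

open MeasureTheory
open scoped Pointwise

namespace Std
variable (S : Std H X)

theorem base_smul (g : S.Nrm) (t : X) : S.base (g • t) = S.base t := by
  unfold base
  congr 1
  exact Quotient.sound (MulAction.mem_orbit t g)

theorem Kernel_vv (g : S.Nrm) (t : X) : (g * S.vv t) • S.base t = S.vv (g • t) • S.base t := by
  rw [mul_smul, vv_smul, ← S.base_smul g t, vv_smul]

theorem Kernel_phase {g g' : S.Nrm} {t : X} (h : g • t = g' • t) :
    star (S.E (star g.u * g'.u) t) * S.E (star g.u * g'.u) t = 1 :=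
  S.E_u_of_eq (g⁻¹ * g') (by rw [mul_smul, ← h, inv_smul_smul])

theorem Kernel_right {g g' : S.Nrm} {t : X} (h : g • t = g' • t) {x : H →L[ℂ] H} (hx : x ∈ S.M) :
    S.E (x * g'.u) t = S.E (x * g.u) t * S.E (star g.u * g'.u) t := by
  have h1 : S.E (x * g'.u * S.ρ (ind {t : X | g • t = g' • t})) =
      S.E (x * g.u * S.ρ (S.E (star g.u * g'.u))) := by
    rw [mul_assoc, mul_assoc, ← S.mul_p_eq g g']
    rfl
  rw [S.E_mul_ρ _ (mul_mem hx g'.mem), S.E_mul_ρ _ (mul_mem hx g.mem)] at h1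
  have h2 := DFunLike.congr_fun h1 t
  rw [ContinuousMap.mul_apply, ContinuousMap.mul_apply, ind_apply (S.isClopen_smul_eq g g'),
    if_pos (show t ∈ {t : X | g • t = g' • t} from h), mul_one] at h2
  exact h2

theorem Kernel_left {g g' : S.Nrm} {t : X} (h : g • t = g' • t) {x : H →L[ℂ] H} (hx : x ∈ S.M) :
    S.E (star g'.u * x) t = star (S.E (star g.u * g'.u) t) * S.E (star g.u * x) t := by
  have h1 := S.Kernel_right h (star_mem hx)
  have e : ∀ k : S.Nrm, S.E (star k.u * x) t = star (S.E (star x * k.u) t) := by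
    intro k
    rw [← ContinuousMap.star_apply, ← S.E_star (mul_mem (star_mem hx) k.mem), star_mul, star_star]
  rw [e, e, h1, star_mul']
  ring

/-- Recipe: `vv (g • t)` and `g * vv t` both send `base t` to `g • t`; `mul_p_eq`, `E_u_of_eq`,
`E_ρ_mul`, `E_mul_ρ`, `E_conj`. -/
theorem ker_gauge : ∃ u : S.Nrm → X → ℂ, (∀ g t, star (u g t) * u g t = 1) ∧
    ∀ y ∈ S.M, ∀ (g g' : S.Nrm) (t : X),
      S.ker y (g • t) (g' • t) = star (u g t) * S.E (star g.u * y * g'.u) t * u g' t := by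
  refine ⟨fun g t => S.E (star (g * S.vv t).u * (S.vv (g • t)).u) (S.base t),
    fun g t => S.Kernel_phase (S.Kernel_vv g t), fun y hy g g' t => ?_⟩
  have hb : S.base (g • t) = S.base (g' • t) := by rw [base_smul, base_smul]
  rw [ker, if_pos hb, base_smul,
    S.Kernel_right (S.Kernel_vv g' t) (mul_mem (star_mem (S.vv _).mem) hy), mul_assoc (star _) y,
    S.Kernel_left (S.Kernel_vv g t) (mul_mem hy (g' * S.vv t).mem)]
  congr 2
  have h := S.E_conj (S.vv t) (mul_mem (mul_mem (star_mem g.mem) hy) g'.mem) (S.base t)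
  rw [vv_smul] at h
  rw [← h]
  simp only [Nrm.mul_u, star_mul, mul_assoc]

theorem ker_herm {y : H →L[ℂ] H} (hy : y ∈ S.M) (hsa : IsSelfAdjoint y) : Herm (S.ker y) := by
  intro s t
  unfold ker
  by_cases h : S.base s = S.base t
  · rw [if_pos h, if_pos h.symm, ← ContinuousMap.star_apply,
      ← S.E_star (mul_mem (mul_mem (star_mem (S.vv t).mem) hy) (S.vv s).mem), h]
    simp only [star_mul, star_star, hsa.star_eq, mul_assoc]
  · rw [if_neg h, if_neg (Ne.symm h), star_zero]

theorem ker_diag {y : H →L[ℂ] H} (hy : y ∈ S.M) (t : X) : S.ker y t t = S.E y t := by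
  rw [ker, if_pos rfl, S.E_conj _ hy, vv_smul]

theorem ker_one (s t : X) : S.ker 1 s t = if s = t then 1 else 0 := by
  by_cases hst : s = t
  · subst hst
    rw [S.ker_diag (one_mem _), S.E_one, if_pos rfl]
    rfl
  · rw [if_neg hst, ker]
    split_ifs with h
    · rw [mul_one]
      refine S.E_u_of_ne ((S.vv s)⁻¹ * S.vv t) fun h' => hst ?_
      rw [mul_smul, vv_smul, inv_smul_eq_iff, ← h, vv_smul] at h'
      exact h'.symm
    · rfl

theorem Kernel_NV {V : Set S.Nrm} {y : H →L[ℂ] H} (hy : y ∈ S.NV V) : y ∈ S.M :=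
  S.N0_mem_M (S.NV_mono (Set.subset_univ V) hy)

theorem Kernel_zero (s t : X) : S.ker 0 s t = 0 := by
  rw [ker, mul_zero, zero_mul, S.E_zero]
  simp

theorem Kernel_add {y z : H →L[ℂ] H} (hy : y ∈ S.M) (hz : z ∈ S.M) (s t : X) :
    S.ker (y + z) s t = S.ker y s t + S.ker z s t := by
  unfold ker
  split_ifs
  · rw [mul_add, add_mul, S.E_add (mul_mem (mul_mem (star_mem (S.vv s).mem) hy) (S.vv t).mem)
      (mul_mem (mul_mem (star_mem (S.vv s).mem) hz) (S.vv t).mem), ContinuousMap.add_apply]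
  · rw [add_zero]

theorem Kernel_smul (c : ℂ) {y : H →L[ℂ] H} (hy : y ∈ S.M) (s t : X) :
    S.ker (c • y) s t = c * S.ker y s t := by
  unfold ker
  split_ifs
  · rw [mul_smul_comm, smul_mul_assoc,
      S.E_smul c (mul_mem (mul_mem (star_mem (S.vv s).mem) hy) (S.vv t).mem),
      ContinuousMap.smul_apply, smul_eq_mul]
  · rw [mul_zero]

theorem Kernel_sum {κ : Type*} (T : Finset κ) {y : κ → H →L[ℂ] H} (hy : ∀ i ∈ T, y i ∈ S.M)
    (s t : X) : S.ker (∑ i ∈ T, y i) s t = ∑ i ∈ T, S.ker (y i) s t := by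
  induction T using Finset.induction_on with
  | empty => simpa using S.Kernel_zero s t
  | insert i T hi ih =>
    rw [Finset.sum_insert hi, Finset.sum_insert hi,
      S.Kernel_add (hy i (Finset.mem_insert_self _ _))
        (sum_mem fun j hj => hy j (Finset.mem_insert_of_mem hj)),
      ih fun j hj => hy j (Finset.mem_insert_of_mem hj)]

theorem Kernel_mul_ρ (f : C(X, ℂ)) {y : H →L[ℂ] H} (hy : y ∈ S.M) (s t : X) :
    S.ker (y * S.ρ f) s t = S.ker y s t * f t := by
  unfold ker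
  split_ifs
  · have e : star (S.vv s).u * (y * S.ρ f) * (S.vv t).u = star (S.vv s).u * y * (S.vv t).u *
        S.ρ (f.comp ⟨(S.vv t).θ, (S.vv t).θ.continuous⟩) := by
      rw [mul_assoc _ (S.vv t).u, ← Nrm.ρ_mul]
      simp only [mul_assoc]
    rw [e, S.E_mul_ρ _ (mul_mem (mul_mem (star_mem (S.vv s).mem) hy) (S.vv t).mem),
      ContinuousMap.mul_apply]
    congr 1
    exact congrArg f (S.vv_smul t)
  · rw [zero_mul]

theorem Kernel_ρ_mul (f : C(X, ℂ)) {y : H →L[ℂ] H} (hy : y ∈ S.M) (s t : X) :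
    S.ker (S.ρ f * y) s t = f s * S.ker y s t := by
  unfold ker
  split_ifs with h
  · have e : star (S.vv s).u * (S.ρ f * y) * (S.vv t).u =
        S.ρ (f.comp ⟨(S.vv s).θ, (S.vv s).θ.continuous⟩) * (star (S.vv s).u * y * (S.vv t).u) := by
      rw [← (S.vv s).conj f]
      have := (S.vv s).unit.2
      calc star (S.vv s).u * (S.ρ f * y) * (S.vv t).u
          = star (S.vv s).u * S.ρ f * ((S.vv s).u * star (S.vv s).u) * y * (S.vv t).u := by
            rw [this]; simp only [mul_one, mul_assoc]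
        _ = _ := by simp only [mul_assoc]
    rw [e, S.E_ρ_mul _ (mul_mem (mul_mem (star_mem (S.vv s).mem) hy) (S.vv t).mem),
      ContinuousMap.mul_apply]
    congr 1
    rw [← h]
    exact congrArg f (S.vv_smul s)
  · rw [mul_zero]

theorem Kernel_gen (g : S.Nrm) (f : C(X, ℂ)) (t : X) : ∃ c : ℂ, ∀ z ∈ S.M, ∀ s,
    S.ker (z * (g.u * S.ρ f)) s t = S.ker z s (g • t) * c := by
  refine ⟨S.E (star (S.vv (g • t)).u * (g * S.vv t).u) (S.base t) * f t, fun z hz s => ?_⟩
  rw [← mul_assoc, S.Kernel_mul_ρ f (mul_mem hz g.mem), ← mul_assoc]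
  congr 1
  unfold ker
  rw [base_smul]
  split_ifs
  · rw [← S.Kernel_right (S.Kernel_vv g t).symm (mul_mem (star_mem (S.vv s).mem) hz)]
    simp only [Nrm.mul_u, mul_assoc]
  · rw [zero_mul]

theorem ker_supp {V : Set S.Nrm} {y : H →L[ℂ] H} (hy : y ∈ S.NV V) {s t : X}
    (h : S.ker y s t ≠ 0) : ∃ v ∈ V, s = v • t := by
  by_contra hcon
  push Not at hcon
  apply h
  clear h
  induction hy using Submodule.span_induction with
  | mem x hx =>
    obtain ⟨g, hg, f, rfl⟩ := hx
    obtain ⟨c, hc⟩ := S.Kernel_gen g f t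
    have h1 := hc 1 (one_mem _) s
    rw [one_mul, ker_one, if_neg (hcon g hg), zero_mul] at h1
    exact h1
  | zero => exact S.Kernel_zero s t
  | add x x' hx hx' h h' => rw [S.Kernel_add (S.Kernel_NV hx) (S.Kernel_NV hx'), h, h', add_zero]
  | smul c x hx h => rw [S.Kernel_smul c (S.Kernel_NV hx), h, mul_zero]

theorem Kernel_pos {y : H →L[ℂ] H} (hy : y ∈ S.M) (h0 : 0 ≤ y) (Λ : Finset X) (c : X → ℂ) :
    0 ≤ ∑ s ∈ Λ, ∑ s' ∈ Λ, star (c s) * S.ker y s s' * c s' := by
  let w : X → H →L[ℂ] H := fun o => ∑ s ∈ Λ, (if S.base s = o then c s else 0) • (S.vv s).u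
  have hw : ∀ o, w o ∈ S.M := fun o => sum_mem fun s _ => vn_smul_mem _ (S.vv s).mem
  have hm : ∀ s s', star (S.vv s).u * y * (S.vv s').u ∈ S.M := fun s s' =>
    mul_mem (mul_mem (star_mem (S.vv s).mem) hy) (S.vv s').mem
  have e1 : ∀ o, S.E (star (w o) * y * w o) o = ∑ s ∈ Λ, ∑ s' ∈ Λ,
      star (if S.base s = o then c s else 0) * S.E (star (S.vv s).u * y * (S.vv s').u) o *
        (if S.base s' = o then c s' else 0) := by
    intro o
    have e : star (w o) * y * w o = ∑ s ∈ Λ, ∑ s' ∈ Λ,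
        (star (if S.base s = o then c s else 0) * (if S.base s' = o then c s' else 0)) •
          (star (S.vv s).u * y * (S.vv s').u) := by
      simp only [w, star_sum, star_smul, Finset.sum_mul, smul_mul_assoc]
      refine Finset.sum_congr rfl fun s _ => ?_
      rw [Finset.mul_sum, Finset.smul_sum]
      refine Finset.sum_congr rfl fun s' _ => ?_
      rw [mul_smul_comm, smul_smul]
    rw [e, S.E_sum _ fun s _ => sum_mem fun s' _ => vn_smul_mem _ (hm s s'),
      ContinuousMap.sum_apply]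
    refine Finset.sum_congr rfl fun s _ => ?_
    rw [S.E_sum _ fun s' _ => vn_smul_mem _ (hm s s'), ContinuousMap.sum_apply]
    refine Finset.sum_congr rfl fun s' _ => ?_
    rw [S.E_smul _ (hm s s'), ContinuousMap.smul_apply, smul_eq_mul]
    ring
  have e2 : ∑ s ∈ Λ, ∑ s' ∈ Λ, star (c s) * S.ker y s s' * c s' =
      ∑ o ∈ Λ.image S.base, S.E (star (w o) * y * w o) o := by
    simp only [e1]
    rw [Finset.sum_comm (s := Λ.image S.base)]
    refine Finset.sum_congr rfl fun s _ => ?_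
    rw [Finset.sum_comm (s := Λ.image S.base)]
    refine Finset.sum_congr rfl fun s' hs' => ?_
    rw [Finset.sum_eq_single (S.base s')]
    · rw [ker, if_pos rfl]
      split_ifs <;> simp
    · intro o _ ho
      rw [if_neg (Ne.symm ho), mul_zero]
    · intro h
      exact absurd (Finset.mem_image_of_mem _ hs') h
  rw [e2]
  exact Finset.sum_nonneg fun o _ => S.E_nonneg (mul_mem (mul_mem (star_mem (hw o)) hy) (hw o))
    (star_left_conjugate_nonneg h0 _) o

/-- Recipe: split `Λ` by `base`; on one orbit, with `w = ∑ c s • (vv s).u`, the form is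
`E (w⋆ y w) o` and `-‖y‖ w⋆ w ≤ w⋆ y w ≤ ‖y‖ w⋆ w`, `E (w⋆ w) o = ∑ ‖c s‖²` (`ker_one`). -/
theorem ker_form {y : H →L[ℂ] H} (hy : y ∈ S.M) (hsa : IsSelfAdjoint y) (Λ : Finset X) :
    FormLe (S.ker y) Λ ‖y‖ := by
  intro c
  have hn : algebraMap ℝ (H →L[ℂ] H) ‖y‖ = (‖y‖ : ℂ) • (1 : H →L[ℂ] H) := by
    rw [Algebra.algebraMap_eq_smul_one, Complex.coe_smul]
  have h1m : (‖y‖ : ℂ) • (1 : H →L[ℂ] H) ∈ S.M := vn_smul_mem _ (one_mem _)
  have hym : (-1 : ℂ) • y ∈ S.M := vn_smul_mem _ hy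
  have h1 : 0 ≤ (‖y‖ : ℂ) • (1 : H →L[ℂ] H) + (-1 : ℂ) • y := by
    rw [neg_one_smul, ← sub_eq_add_neg, ← hn]
    exact sub_nonneg.2 hsa.le_algebraMap_norm_self
  have h2 : 0 ≤ (‖y‖ : ℂ) • (1 : H →L[ℂ] H) + y := by
    rw [← hn]
    exact neg_le_iff_add_nonneg'.1 hsa.neg_algebraMap_norm_le_self
  have p1 := S.Kernel_pos (add_mem h1m hym) h1 Λ c
  have p2 := S.Kernel_pos (add_mem h1m hy) h2 Λ c
  have e : ∑ s ∈ Λ, ∑ s' ∈ Λ, star (c s) * S.ker ((‖y‖ : ℂ) • (1 : H →L[ℂ] H)) s s' * c s' =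
      ((‖y‖ * ∑ s ∈ Λ, ‖c s‖ ^ 2 : ℝ) : ℂ) := by
    rw [Finset.mul_sum, Complex.ofReal_sum]
    refine Finset.sum_congr rfl fun s hs => ?_
    rw [Finset.sum_eq_single s]
    · rw [S.Kernel_smul _ (one_mem _), ker_one, if_pos rfl, mul_one, mul_right_comm,
        Complex.star_def, Complex.conj_mul']
      push_cast
      ring
    · intro s' _ hne
      rw [S.Kernel_smul _ (one_mem _), ker_one, if_neg (Ne.symm hne)]
      simp
    · intro h
      exact absurd hs h
  simp only [S.Kernel_add h1m hym, S.Kernel_add h1m hy, S.Kernel_smul (-1) hy, mul_add, add_mul,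
    Finset.sum_add_distrib, e, neg_mul, one_mul, mul_neg, Finset.sum_neg_distrib] at p1 p2
  generalize ∑ s ∈ Λ, ∑ s' ∈ Λ, star (c s) * S.ker y s s' * c s' = B at p1 p2 ⊢
  generalize ‖y‖ * ∑ s ∈ Λ, ‖c s‖ ^ 2 = r at p1 p2 ⊢
  rw [Complex.nonneg_iff] at p1 p2
  simp only [Complex.add_re, Complex.ofReal_re, Complex.neg_re, Complex.add_im, Complex.ofReal_im,
    zero_add] at p1 p2
  rw [← Complex.abs_re_eq_norm.2 p2.2.symm]
  exact abs_le.2 ⟨by linarith [p2.1], by linarith [p1.1]⟩

theorem ker_EP {ι : Type*} [Fintype ι] {a : X → ι} (ha : IsLocallyConstant a) {y : H →L[ℂ] H}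
    (hy : y ∈ S.M) (s t : X) : S.ker (S.EP a y) s t = if a s = a t then S.ker y s t else 0 := by
  rw [Setup.EP, S.Kernel_sum _ fun i _ => mul_mem (mul_mem (S.p_mem _) hy) (S.p_mem _)]
  have e : ∀ i, S.ker (S.p (a ⁻¹' {i}) * y * S.p (a ⁻¹' {i})) s t =
      (if a s = i then 1 else 0) * S.ker y s t * (if a t = i then 1 else 0) := by
    intro i
    have hc : IsClopen (a ⁻¹' {i}) := ha.isClopen_fiber i
    rw [Setup.p, S.Kernel_mul_ρ _ (mul_mem (S.mem _) hy), S.Kernel_ρ_mul _ hy, ind_apply hc,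
      ind_apply hc]
    simp only [Set.mem_preimage, Set.mem_singleton_iff]
  simp only [e]
  rw [Finset.sum_eq_single (a t)]
  · split_ifs <;> simp_all
  · intro i _ hi
    rw [if_neg (Ne.symm hi), mul_zero]
  · simp

/-- Multiplicativity.  Recipe: linear in `y` (span induction); for `y = v.u ρ f`,
`y (vv t).u p_F = (vv (v • t)).u ρ γ` near the base point (`mul_p_eq`), so both sides are
`ker z s (v • t)` times the same scalar (`ker_one`/`E_u_of_ne` kill the other terms). -/
theorem ker_mul {V : Finset S.Nrm} {y z : H →L[ℂ] H} (hy : y ∈ S.NV V) (hz : z ∈ S.M) (s t : X) :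
    S.ker (z * y) s t = ∑ s' ∈ V.image (· • t), S.ker z s s' * S.ker y s' t := by
  induction hy using Submodule.span_induction with
  | mem x hx =>
    obtain ⟨g, hg, f, rfl⟩ := hx
    obtain ⟨c, hc⟩ := S.Kernel_gen g f t
    have h1 : ∀ s', S.ker (g.u * S.ρ f) s' t = (if s' = g • t then 1 else 0) * c := by
      intro s'
      have := hc 1 (one_mem _) s'
      rwa [one_mul, ker_one] at this
    rw [hc z hz, Finset.sum_eq_single (g • t)]
    · rw [h1, if_pos rfl, one_mul]
    · intro s' _ hs'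
      rw [h1, if_neg hs', zero_mul, mul_zero]
    · intro h
      exact absurd (Finset.mem_image_of_mem (· • t) (Finset.mem_coe.1 hg)) h
  | zero => simp [S.Kernel_zero]
  | add x x' hx hx' h h' =>
    rw [mul_add, S.Kernel_add (mul_mem hz (S.Kernel_NV hx)) (mul_mem hz (S.Kernel_NV hx')), h, h',
      ← Finset.sum_add_distrib]
    refine Finset.sum_congr rfl fun s' _ => ?_
    rw [S.Kernel_add (S.Kernel_NV hx) (S.Kernel_NV hx'), mul_add]
  | smul c x hx h =>
    rw [mul_smul_comm, S.Kernel_smul c (mul_mem hz (S.Kernel_NV hx)), h, Finset.mul_sum]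
    refine Finset.sum_congr rfl fun s' _ => ?_
    rw [S.Kernel_smul c (S.Kernel_NV hx)]
    ring

/-- The height function: `hh t = log ((vv t).d (base t))` (`d_eq_of_smul_eq`, `Nrm.mul_d`). -/
theorem exists_height : ∃ hh : X → ℝ, ∀ (g : S.Nrm) (t : X), hh (g • t) - hh t = Real.log (g.d t) := by
  refine ⟨fun t => Real.log ((S.vv t).d (S.base t)), fun g t => ?_⟩
  simp only
  rw [base_smul, ← S.d_eq_of_smul_eq _ _ (S.Kernel_vv g t), Nrm.mul_d, ← Nrm.smul_def, vv_smul,
    Real.log_mul (g.pos t).ne' ((S.vv t).pos _).ne', add_sub_cancel_right]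

/-- Recipe: `sep` from `eventually_sep` and `Fintype.equivFin`; `T` from compactness. -/
theorem exists_graph [MeasurableSpace X] [ClopenSpace X] {μ : Measure X} [IsFiniteMeasure μ]
    (hμ : S.IsMu μ) {V : Finset S.Nrm} (h1 : 1 ∈ V) (hinv : ∀ v ∈ V, v⁻¹ ∈ V) {y : H →L[ℂ] H}
    (hy : y ∈ S.NV V) (hsa : IsSelfAdjoint y) (hE : S.E y = 0) (hn : ‖y‖ ≤ 1) :
    ∃ G : GraphData S.Nrm X μ, G.V = V ∧ G.Y = S.ker y := by
  obtain ⟨hh, hhh⟩ := S.exists_height
  obtain ⟨u, hu, hgauge⟩ := S.ker_gauge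
  have hyM := S.Kernel_NV hy
  let L : S.Nrm → C(X, ℝ) := fun g =>
    ⟨fun t => Real.log (g.d t), g.d.continuous.log fun t => (g.pos t).ne'⟩
  refine ⟨{
    V := V
    one_mem := h1
    inv_mem := hinv
    hh := hh
    T := ∑ v ∈ V, ‖L v‖
    Y := S.ker y
    meas_smul := fun g => measurable_homeo g.θ
    meas_fix := fun g => measurableSet_clopen (S.mul_p_fix g).1
    meas_h := fun g => ?_
    h_bound := fun v hv t => ?_
    transport := fun g => ?_
    sep := fun W => ?_
    herm := S.ker_herm hyM hsa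
    diag := fun t => by rw [S.ker_diag hyM, hE]; rfl
    supp := fun s t h => S.ker_supp hy h
    form := fun Λ c => (S.ker_form hyM hsa Λ c).trans
      (mul_le_mul_of_nonneg_right hn (Finset.sum_nonneg fun _ _ => sq_nonneg _))
    gauge := ⟨fun g g' t => S.E (star g.u * y * g'.u) t, u, fun g g' => measurable_cont _, hu,
      hgauge y hyM⟩ }, rfl, rfl⟩
  · simp only [hhh]
    exact measurable_cont_real (L g)
  · rw [hhh]
    exact ((L v).norm_coe_le_norm t).trans
      (Finset.single_le_sum (f := fun v => ‖L v‖) (fun _ _ => norm_nonneg _) hv)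
  · simp only [hhh, Real.exp_log (g.pos _)]
    exact hμ.transport S g
  · obtain ⟨Q, hQ⟩ := (S.eventually_sep (ι := Option W) fun i => i.elim 1 fun g => g.1).exists
    refine ⟨Fintype.card Q, fun t => Fintype.equivFin Q (Q.proj t), ?_, fun g hg t hne e => hne ?_⟩
    · exact (fm_of_lc (Q.proj_isLocallyConstant.comp _)).measurable
    · have := hQ (some ⟨g, hg⟩) none t (by simpa using e)
      simpa using this

end Std

end

end Crest.Agent.R109
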