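import Mathlib

/-!
# Row 109: power sums of roots, iterated Schwarz lemma
-/

open Polynomial
open scoped BigOperators

set_option linter.unusedSectionVars false

namespace Crest.Agent.R109

noncomputable section


/-- power sum of the roots -/
def psum (p : ℂ[X]) (n : ℕ) : ℂ := (p.roots.map (· ^ n)).sum

theorem Psum_enum (s : Multiset ℂ) {N : ℕ} (h : s.card = N) :
    ∃ f : Fin N → ℂ, Finset.univ.val.map f = s := by
  induction s using Quotient.inductionOn with
  | h l =>
    subst h
    exact ⟨l.get, (Fin.univ_val_map (n := l.length) l.get).trans (by rw [List.ofFn_get]; rfl)⟩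

theorem Psum_aeval_mem {Ω σ : Type*} (S : Subalgebra ℂ (Ω → ℂ)) (e : σ → Ω → ℂ)
    (he : ∀ i, e i ∈ S) (q : MvPolynomial σ ℂ) :
    (fun ω => MvPolynomial.aeval (fun i => e i ω) q) ∈ S := by
  induction q using MvPolynomial.induction_on with
  | C a =>
    simp only [MvPolynomial.aeval_C]
    exact S.algebraMap_mem a
  | add p q hp hq =>
    simp only [map_add]
    exact S.add_mem hp hq
  | mul_X p i hp =>
    simp only [map_mul, MvPolynomial.aeval_X]
    exact S.mul_mem hp (he i)

/-- Power sums are polynomials in the coefficients.  Recipe: strong induction with Newton's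
identities (`MvPolynomial.psum_eq_mul_esymm_sub_sum` evaluated at an enumeration
`Fin N → ℂ` of the roots, `MvPolynomial.aeval_esymm_eq_multiset_esymm`,
`Polynomial.coeff_eq_esymm_roots_of_card`); `esymm k = 0` for `N < k`; `psum 0 = N`. -/
theorem psum_mem {Ω : Type*} (S : Subalgebra ℂ (Ω → ℂ)) (P : Ω → ℂ[X]) (N : ℕ)
    (hP : ∀ ω, (P ω).Monic ∧ (P ω).natDegree = N) (hc : ∀ i, (fun ω => (P ω).coeff i) ∈ S)
    (n : ℕ) : (fun ω => psum (P ω) n) ∈ S := by
  obtain ⟨q, hq⟩ := MvPolynomial.esymmAlgHom_fin_surjective ℂ (le_refl N)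
    ⟨MvPolynomial.psum (Fin N) ℂ n, MvPolynomial.psum_isSymmetric _ _ n⟩
  have hq' := congrArg Subtype.val hq
  rw [MvPolynomial.esymmAlgHom_apply] at hq'
  have he : ∀ i : Fin N, (fun ω => (P ω).roots.esymm (i + 1)) ∈ S := fun i => by
    have h1 : (fun ω => (P ω).roots.esymm (i + 1)) =
        ((-1 : ℂ) ^ ((i : ℕ) + 1)) • fun ω => (P ω).coeff (N - (i + 1)) := by
      funext ω
      have h2 := coeff_eq_esymm_roots_of_card (p := P ω) IsAlgClosed.card_roots_eq_natDegree
        (k := N - (i + 1)) (by rw [(hP ω).2]; omega)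
      have h3 : N - (N - (i + 1)) = i + 1 := by have := i.2; omega
      rw [(hP ω).2, (hP ω).1.leadingCoeff, one_mul, h3] at h2
      simp only [Pi.smul_apply, smul_eq_mul, h2]
      rw [← mul_assoc, ← mul_pow]
      simp
    rw [h1]
    exact S.smul_mem (hc _) _
  convert Psum_aeval_mem S _ he q using 2 with ω
  obtain ⟨f, hf⟩ := Psum_enum (P ω).roots
    (IsAlgClosed.card_roots_eq_natDegree.trans (hP ω).2)
  have h1 := congrArg (MvPolynomial.aeval f) hq'
  rw [← AlgHom.comp_apply, MvPolynomial.comp_aeval] at h1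
  simp only [MvPolynomial.aeval_esymm_eq_multiset_esymm, hf] at h1
  rw [h1, psum, ← hf, Multiset.map_map, MvPolynomial.psum]
  simp [List.sum_ofFn]

theorem hasSum_psum (p : ℂ[X]) :
    HasSum (fun n : ℕ => psum p n / (n.factorial : ℂ)) (p.roots.map Complex.exp).sum := by
  unfold psum
  induction p.roots using Multiset.induction_on with
  | empty => simp
  | cons a s ih =>
    simp only [Multiset.map_cons, Multiset.sum_cons, add_div]
    refine HasSum.add ?_ ih
    rw [Complex.exp_eq_exp_ℂ]
    exact NormedSpace.expSeries_div_hasSum_exp a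

theorem norm_psum_le (p : ℂ[X]) {R : ℝ} (hR : ∀ z ∈ p.roots, ‖z‖ ≤ R) (n : ℕ) :
    ‖psum p n‖ ≤ p.natDegree * R ^ n := by
  rw [← IsAlgClosed.card_roots_eq_natDegree]
  unfold psum
  revert hR
  induction p.roots using Multiset.induction_on with
  | empty => simp
  | cons a s ih =>
    intro hR
    rw [Multiset.map_cons, Multiset.sum_cons, Multiset.card_cons]
    have h1 := ih fun z hz => hR z (Multiset.mem_cons_of_mem hz)
    have h2 : ‖a ^ n‖ ≤ R ^ n := by
      rw [norm_pow]
      exact pow_le_pow_left₀ (norm_nonneg _) (hR a (Multiset.mem_cons_self _ _)) _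
    refine (norm_add_le _ _).trans ?_
    push_cast
    linarith

theorem psum_mul {p q : ℂ[X]} (hp : p ≠ 0) (hq : q ≠ 0) (n : ℕ) :
    psum (p * q) n = psum p n + psum q n := by
  rw [psum, roots_mul (mul_ne_zero hp hq), Multiset.map_add, Multiset.sum_add, psum, psum]

/-- Iterated Schwarz lemma.  Recipe: show by `Finset.induction_on` on `T` that
`‖f s‖ ≤ M / S ^ card T` whenever `s i = 1` on `T` and `‖s i‖ ≤ S` off `T`; the step is the Schwarz
lemma (`Complex.dist_le_div_mul_dist_of_mapsTo_ball`, or the maximum principle for `dslope`) for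
`w ↦ f (update s i w)`; treat `S = 1` separately if needed. -/
theorem iterated_schwarz {ι : Type*} [Fintype ι] [DecidableEq ι] (f : (ι → ℂ) → ℂ) {M S : ℝ}
    (hS : 1 ≤ S) (hd : ∀ s i, Differentiable ℂ fun w => f (Function.update s i w))
    (hM : ∀ s, (∀ i, ‖s i‖ ≤ S) → ‖f s‖ ≤ M) (h0 : ∀ s i, s i = 0 → f s = 0) :
    ‖f (fun _ => 1)‖ ≤ M / S ^ Fintype.card ι := by
  rcases hS.eq_or_lt with rfl | hS'
  · simpa using hM (fun _ => 1) (by simp)
  have key : ∀ T : Finset ι, ∀ s : ι → ℂ, (∀ i ∈ T, s i = 1) → (∀ i, i ∉ T → ‖s i‖ ≤ S) →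
      ‖f s‖ ≤ M / S ^ T.card := by
    intro T
    induction T using Finset.induction_on with
    | empty => exact fun s _ h => by simpa using hM s fun i => h i (by simp)
    | insert a T ha ih =>
      intro s h1 h2
      have h3 := Complex.dist_le_div_mul_dist_of_mapsTo_ball (c := (0 : ℂ)) (z := 1) (R₁ := S)
        (R₂ := M / S ^ T.card) (hd s a).differentiableOn (fun w hw => by
          rw [h0 (Function.update s a 0) a (by simp), mem_closedBall_zero_iff]
          refine ih _ (fun i hi => ?_) fun i hi => ?_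
          · rw [Function.update_of_ne (ne_of_mem_of_not_mem hi ha),
              h1 i (Finset.mem_insert_of_mem hi)]
          · rcases eq_or_ne i a with rfl | hia
            · rw [Function.update_self]
              exact (mem_ball_zero_iff.1 hw).le
            · rw [Function.update_of_ne hia]
              exact h2 i (by simp [hia, hi])) (by simpa using hS')
      rw [h0 (Function.update s a 0) a (by simp), ← h1 a (Finset.mem_insert_self _ _),
        Function.update_eq_self, h1 a (Finset.mem_insert_self _ _)] at h3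
      rw [Finset.card_insert_of_notMem ha, pow_succ, ← div_div]
      simpa using h3
  exact key Finset.univ _ (fun _ _ => rfl) (by simp)

end

end Crest.Agent.R109
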