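import Crest.Agent.R109.Stab
import Crest.Agent.R109.Psum

/-!
# Row 109, finite model: locality and measurability of the potential
-/

open Polynomial
open scoped BigOperators

set_option linter.unusedSectionVars false

namespace Crest.Agent.R109

noncomputable section

variable {α κ : Type*} [Fintype α] [DecidableEq α] [Fintype κ] [DecidableEq κ]

/-- families of polynomials with all coefficients in `S` -/
def locCoeff {Ω : Type*} (S : Subalgebra ℂ (Ω → ℂ)) : Subring (Ω → ℂ[X]) where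
  carrier := {P | ∀ i, (fun ω => (P ω).coeff i) ∈ S}
  mul_mem' := by
    intro P Q hP hQ i
    have e : (fun ω => ((P * Q) ω).coeff i) = ∑ x ∈ Finset.HasAntidiagonal.antidiagonal i,
        (fun ω => (P ω).coeff x.1) * fun ω => (Q ω).coeff x.2 := by
      funext ω
      simp only [Pi.mul_apply, coeff_mul, Finset.sum_apply]
    rw [e]
    exact S.sum_mem (fun x _ => S.mul_mem (hP _) (hQ _))
  one_mem' := fun i => S.algebraMap_mem ((1 : ℂ[X]).coeff i)
  add_mem' := by
    intro P Q hP hQ i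
    have := S.add_mem (hP i) (hQ i)
    convert this using 1
    funext ω
    simp
  zero_mem' := fun _ => S.zero_mem
  neg_mem' := by
    intro P hP i
    have := S.neg_mem (hP i)
    convert this using 1
    funext ω
    simp

theorem loc_const_mem {Ω : Type*} (S : Subalgebra ℂ (Ω → ℂ)) (p : ℂ[X]) :
    (fun _ => p) ∈ locCoeff S := fun i => S.algebraMap_mem (p.coeff i)

theorem loc_C_mem {Ω : Type*} (S : Subalgebra ℂ (Ω → ℂ)) {f : Ω → ℂ} (hf : f ∈ S) :
    (fun ω => C (f ω)) ∈ locCoeff S := by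
  intro i
  simp only [coeff_C]
  split_ifs
  · exact hf
  · exact S.zero_mem

/-- measurable functions -/
def locMeas (Ω : Type*) [MeasurableSpace Ω] : Subalgebra ℂ (Ω → ℂ) where
  carrier := {f | Measurable f}
  mul_mem' := fun ha hb => Measurable.mul ha hb
  add_mem' := fun ha hb => Measurable.add ha hb
  algebraMap_mem' := fun _ => measurable_const

/-- entire functions -/
def locDiff : Subalgebra ℂ (ℂ → ℂ) where
  carrier := {f | Differentiable ℂ f}
  mul_mem' := fun ha hb => Differentiable.mul ha hb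
  add_mem' := fun ha hb => Differentiable.add ha hb
  algebraMap_mem' := fun r => differentiable_const r

/-- The coefficients of `PP` lie in any algebra of functions containing the data
(`Polynomial.coeff` of finite sums and products: show by induction that the set of
`P : Ω → ℂ[X]` with all coefficients in `S` is closed under `+`, `*` (`coeff_mul`), and contains
`X`, `C ∘ f`; `Matrix.det_apply'`). -/
theorem coeff_PP_mem {Ω : Type*} (S : Subalgebra ℂ (Ω → ℂ)) (Y : Ω → α → α → ℂ) (h : Ω → α → ℝ)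
    (θ : Ω → α → κ → ℂ) (hY : ∀ c c', (fun ω => Y ω c c') ∈ S)
    (hh : ∀ c, (fun ω => (h ω c : ℂ)) ∈ S) (hθ : ∀ c k, (fun ω => θ ω c k) ∈ S) (i : ℕ) :
    (fun ω => (PP (Y ω) (h ω) (θ ω)).coeff i) ∈ S := by
  have e : (fun ω => PP (Y ω) (h ω) (θ ω)) = ∑ τ : α → Option κ,
      (fun ω => C ((NM (Y ω) τ).det)) * ∏ c, fun ω => wP (h ω) (θ ω) c (τ c) := by
    funext ω
    simp only [PP, mix, Finset.sum_apply, Pi.mul_apply, Finset.prod_apply, smul_eq_C_mul]
  have key : (fun ω => PP (Y ω) (h ω) (θ ω)) ∈ locCoeff S := by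
    rw [e]
    refine Subring.sum_mem _ (fun τ _ => Subring.mul_mem _ (loc_C_mem S ?_)
      (Subring.prod_mem _ (fun c _ => ?_)))
    · have e2 : (fun ω => (NM (Y ω) τ).det) = ∑ σ : Equiv.Perm α,
          ((Equiv.Perm.sign σ : ℤ) : ℂ) • ∏ c, fun ω => NM (Y ω) τ (σ c) c := by
        funext ω
        simp only [Matrix.det_apply', Finset.sum_apply, Pi.smul_apply, Finset.prod_apply,
          smul_eq_mul]
      rw [e2]
      refine S.sum_mem (fun σ _ => S.smul_mem (S.prod_mem (fun c _ => ?_)) _)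
      simp only [NM, Matrix.of_apply]
      split_ifs
      · exact S.one_mem
      · exact S.zero_mem
      · exact S.neg_mem (hY _ _)
      · exact S.zero_mem
    · cases τ c with
      | none => exact Subring.sub_mem _ (loc_const_mem S X) (loc_C_mem S (hh c))
      | some k => exact loc_C_mem S (hθ c k)
  exact key i

/-- Recipe: `coeff_PP_mem`, `psum_mem` for the subalgebra of measurable functions, `hasSum_psum`,
`measurable_of_tendsto_metrizable` on the partial sums. -/
theorem measurable_psi0 {Ω : Type*} [MeasurableSpace Ω] (Y : Ω → α → α → ℂ) (h : Ω → α → ℝ)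
    (θ : Ω → α → κ → ℝ) (hY : ∀ c c', Measurable fun ω => Y ω c c')
    (hh : ∀ c, Measurable fun ω => h ω c) (hθ : ∀ c k, Measurable fun ω => θ ω c k) :
    Measurable fun ω => psi0 (Y ω) (h ω) (θ ω) := by
  have h1 : ∀ n, Measurable fun ω => psum (PP (Y ω) (h ω) (fun c k => (θ ω c k : ℂ))) n :=
    fun n => psum_mem (locMeas Ω) _ (Fintype.card α) (fun ω => monic_PP _ _ _)
      (coeff_PP_mem (locMeas Ω) Y h (fun ω c k => (θ ω c k : ℂ)) hY
        (fun c => Complex.measurable_ofReal.comp (hh c))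
        (fun c k => Complex.measurable_ofReal.comp (hθ c k))) n
  have h2 : Measurable fun ω => Psi (Y ω) (h ω) (fun c k => (θ ω c k : ℂ)) := by
    refine measurable_of_tendsto_metrizable (f := fun N ω => ∑ n ∈ Finset.range N,
      psum (PP (Y ω) (h ω) (fun c k => (θ ω c k : ℂ))) n / (n.factorial : ℂ))
      (fun N => Finset.measurable_sum _ (fun n _ => (h1 n).div_const _)) ?_
    exact tendsto_pi_nhds.2 (fun ω => (hasSum_psum _).tendsto_sum_nat)
  exact (Complex.measurable_re.comp h2).sub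
    (Finset.measurable_sum _ (fun c _ => Real.measurable_exp.comp (hh c)))

open Classical in
/-- the damping factor of a cell -/
def locG (B : ℕ → Set α) {j : ℕ} (s : Fin j → ℂ) (c : α) : ℂ :=
  ∏ i : Fin j, if c ∈ B (i + 1) ∧ c ∉ B i then s i else 1

theorem locG_one (B : ℕ → Set α) (j : ℕ) (c : α) : locG B (fun _ : Fin j => 1) c = 1 := by
  simp [locG]

theorem locG_zero (B : ℕ → Set α) {j : ℕ} {s : Fin j → ℂ} {i : Fin j} (hs : s i = 0) {c : α}
    (h1 : c ∈ B (i + 1)) (h2 : c ∉ B i) : locG B s c = 0 :=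
  Finset.prod_eq_zero (Finset.mem_univ i) (by rw [if_pos ⟨h1, h2⟩, hs])

theorem locG_norm_le {B : ℕ → Set α} (hmono : Monotone B) {j : ℕ} {s : Fin j → ℂ} {S : ℝ}
    (hS : 1 ≤ S) (hs : ∀ i, ‖s i‖ ≤ S) (c : α) : ‖locG B s c‖ ≤ S := by
  by_cases hc : ∃ i : Fin j, c ∈ B (i + 1) ∧ c ∉ B i
  · obtain ⟨i, hi⟩ := hc
    rw [locG, Finset.prod_eq_single i, if_pos hi]
    · exact hs i
    · intro i' _ hne
      refine if_neg (fun hi' => hne (Fin.ext ?_))
      rcases lt_trichotomy (i' : ℕ) i with hlt | heq | hlt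
      · exact absurd (hmono (Nat.succ_le_of_lt hlt) hi'.1) hi.2
      · exact heq
      · exact absurd (hmono (Nat.succ_le_of_lt hlt) hi.1) hi'.2
    · intro hi'
      exact absurd (Finset.mem_univ i) hi'
  · rw [locG, Finset.prod_eq_one (fun i _ => if_neg fun hi => hc ⟨i, hi⟩), norm_one]
    exact hS

theorem locG_diff (B : ℕ → Set α) {j : ℕ} (s : Fin j → ℂ) (i : Fin j) (c : α) :
    (fun w => locG B (Function.update s i w) c) ∈ locDiff := by
  classical
  have e : (fun w => locG B (Function.update s i w) c) =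
      ∏ i' : Fin j, fun w => if c ∈ B (i' + 1) ∧ c ∉ B i' then Function.update s i w i' else 1 := by
    funext w
    simp only [locG, Finset.prod_apply]
  rw [e]
  refine locDiff.prod_mem (fun i' _ => ?_)
  split_ifs
  · by_cases hi : i' = i
    · subst hi
      simp only [Function.update_self]
      exact differentiable_id
    · simp only [Function.update_of_ne hi]
      exact differentiable_const _
  · exact differentiable_const _

theorem loc_psum_diff (Y : α → α → ℂ) (h : α → ℝ) (θ : α → κ → ℂ) (B : ℕ → Set α) {j : ℕ}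
    (s : Fin j → ℂ) (i : Fin j) (n : ℕ) :
    Differentiable ℂ fun w =>
      psum (PP Y h fun c k => locG B (Function.update s i w) c * θ c k) n :=
  psum_mem locDiff _ (Fintype.card α) (fun _ => monic_PP _ _ _)
    (coeff_PP_mem locDiff (fun _ => Y) (fun _ => h)
      (fun w c k => locG B (Function.update s i w) c * θ c k)
      (fun _ _ => differentiable_const _) (fun _ => differentiable_const _)
      (fun c k => Differentiable.mul_const (locG_diff B s i c) (θ c k))) n

theorem loc_psum_norm_le (Y : α → α → ℂ) (h : α → ℝ) (θ : α → κ → ℂ) {B : ℕ → Set α}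
    (hmono : Monotone B) {j : ℕ} {s : Fin j → ℂ} {T K S : ℝ} (hS : 1 ≤ S) (hs : ∀ i, ‖s i‖ ≤ S)
    (hh : ∀ c, |h c| ≤ T) (hK : ∀ c, (∑ k, ‖θ c k‖) * (∑ c', ‖Y c c'‖) ≤ K) (n : ℕ) :
    ‖psum (PP Y h fun c k => locG B s c * θ c k) n‖ ≤ Fintype.card α * (T + S * K) ^ n := by
  have := norm_psum_le (PP Y h fun c k => locG B s c * θ c k) (R := T + S * K)
    (fun z hz => norm_le_of_mem_roots_PP Y h _ hh (fun c => ?_) hz) n
  · rwa [(monic_PP _ _ _).2] at this
  · simp only [norm_mul]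
    rw [← Finset.mul_sum, mul_assoc]
    exact mul_le_mul (locG_norm_le hmono hS hs c) (hK c)
      (mul_nonneg (Finset.sum_nonneg fun _ _ => norm_nonneg _)
        (Finset.sum_nonneg fun _ _ => norm_nonneg _)) (le_trans zero_le_one hS)

theorem loc_psum_split (p : α → Prop) [DecidablePred p] (Y : α → α → ℂ) (h : α → ℝ)
    (θ : α → κ → ℂ) (hY : ∀ c c', p c → ¬ p c' → Y c' c = 0 ∨ ∀ k, θ c' k = 0) (n : ℕ) :
    psum (PP Y h θ) n =
      psum (PP (fun c c' : {c // p c} => Y c c') (fun c => h c) (fun c => θ c)) n +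
      psum (PP (fun c c' : {c // ¬ p c} => Y c c') (fun c => h c) (fun c => θ c)) n := by
  rw [← psum_mul (monic_PP _ _ _).1.ne_zero (monic_PP _ _ _).1.ne_zero]
  congr 1
  refine mix_decouple p Y (wP h θ) (fun c c' hc hc' => ?_)
  rcases hY c c' hc hc' with h1 | h1
  · exact Or.inl h1
  · exact Or.inr (Or.inr fun k => by simp [wP, h1 k])

theorem loc_main (Y : α → α → ℂ) (h : α → ℝ) (θ₁ θ₂ θ₃ θ₄ : α → κ → ℂ) (B : ℕ → Set α)
    (hmono : Monotone B) (hB : ∀ i s t, t ∈ B i → Y s t ≠ 0 → s ∈ B (i + 1)) (j : ℕ)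
    (h13 : ∀ c ∈ B j, θ₁ c = θ₃ c) (h24 : ∀ c ∈ B j, θ₂ c = θ₄ c)
    (h12 : ∀ c, c ∉ B 0 → θ₁ c = θ₂ c) (h34 : ∀ c, c ∉ B 0 → θ₃ c = θ₄ c) {T K S : ℝ}
    (_hK0 : 0 ≤ K) (hS : 1 ≤ S) (hh : ∀ c, |h c| ≤ T)
    (hK₁ : ∀ c, (∑ k, ‖θ₁ c k‖) * (∑ c', ‖Y c c'‖) ≤ K)
    (hK₂ : ∀ c, (∑ k, ‖θ₂ c k‖) * (∑ c', ‖Y c c'‖) ≤ K)
    (hK₃ : ∀ c, (∑ k, ‖θ₃ c k‖) * (∑ c', ‖Y c c'‖) ≤ K)
    (hK₄ : ∀ c, (∑ k, ‖θ₄ c k‖) * (∑ c', ‖Y c c'‖) ≤ K) :
    ‖(Psi Y h θ₁ - Psi Y h θ₂) - (Psi Y h θ₃ - Psi Y h θ₄)‖ ≤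
      4 * Fintype.card α * Real.exp (T + S * K) / S ^ j := by
  classical
  have hn : ∀ n : ℕ, ‖(psum (PP Y h θ₁) n - psum (PP Y h θ₂) n) -
      (psum (PP Y h θ₃) n - psum (PP Y h θ₄) n)‖ ≤
      4 * Fintype.card α * (T + S * K) ^ n / S ^ j := by
    intro n
    have := iterated_schwarz (ι := Fin j) (fun s =>
      (psum (PP Y h fun c k => locG B s c * θ₁ c k) n -
        psum (PP Y h fun c k => locG B s c * θ₂ c k) n) -
      (psum (PP Y h fun c k => locG B s c * θ₃ c k) n -
        psum (PP Y h fun c k => locG B s c * θ₄ c k) n))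
      (M := 4 * Fintype.card α * (T + S * K) ^ n) hS
      (fun s i => ((loc_psum_diff Y h θ₁ B s i n).sub (loc_psum_diff Y h θ₂ B s i n)).sub
        ((loc_psum_diff Y h θ₃ B s i n).sub (loc_psum_diff Y h θ₄ B s i n)))
      (fun s hs => ?_) (fun s i hs => ?_)
    · simpa only [locG_one, one_mul, Fintype.card_fin] using this
    · have a1 := loc_psum_norm_le Y h θ₁ hmono hS hs hh hK₁ n
      have a2 := loc_psum_norm_le Y h θ₂ hmono hS hs hh hK₂ n
      have a3 := loc_psum_norm_le Y h θ₃ hmono hS hs hh hK₃ n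
      have a4 := loc_psum_norm_le Y h θ₄ hmono hS hs hh hK₄ n
      refine (norm_sub_le _ _).trans ((add_le_add (norm_sub_le _ _) (norm_sub_le _ _)).trans ?_)
      linarith
    · have hsp : ∀ θ : α → κ → ℂ, ∀ c c', c ∈ B i → ¬ c' ∈ B i →
          Y c' c = 0 ∨ ∀ k, locG B s c' * θ c' k = 0 := by
        intro θ c c' hc hc'
        by_cases hY : Y c' c = 0
        · exact Or.inl hY
        · exact Or.inr fun k => by rw [locG_zero B hs (hB i c' c hc hY) hc', zero_mul]
      have e13 : (fun (c : {c // c ∈ B i}) k => locG B s c * θ₃ c k) =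
          fun (c : {c // c ∈ B i}) k => locG B s c * θ₁ c k := by
        funext c; rw [h13 c (hmono i.2.le c.2)]
      have e24 : (fun (c : {c // c ∈ B i}) k => locG B s c * θ₄ c k) =
          fun (c : {c // c ∈ B i}) k => locG B s c * θ₂ c k := by
        funext c; rw [h24 c (hmono i.2.le c.2)]
      have e12 : (fun (c : {c // ¬ c ∈ B i}) k => locG B s c * θ₂ c k) =
          fun (c : {c // ¬ c ∈ B i}) k => locG B s c * θ₁ c k := by
        funext c; rw [h12 c (fun hc => c.2 (hmono (Nat.zero_le _) hc))]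
      have e34 : (fun (c : {c // ¬ c ∈ B i}) k => locG B s c * θ₄ c k) =
          fun (c : {c // ¬ c ∈ B i}) k => locG B s c * θ₃ c k := by
        funext c; rw [h34 c (fun hc => c.2 (hmono (Nat.zero_le _) hc))]
      rw [loc_psum_split (· ∈ B i) Y h _ (hsp θ₁), loc_psum_split (· ∈ B i) Y h _ (hsp θ₂),
        loc_psum_split (· ∈ B i) Y h _ (hsp θ₃), loc_psum_split (· ∈ B i) Y h _ (hsp θ₄),
        e13, e24, e12, e34]
      ring
  have hs := ((hasSum_psum (PP Y h θ₁)).sub (hasSum_psum (PP Y h θ₂))).sub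
    ((hasSum_psum (PP Y h θ₃)).sub (hasSum_psum (PP Y h θ₄)))
  have he := (NormedSpace.expSeries_div_hasSum_exp (T + S * K)).mul_left
    (4 * Fintype.card α / S ^ j)
  rw [← Real.exp_eq_exp_ℝ] at he
  refine le_trans (hs.norm_le_of_bounded he (fun n => ?_)) (le_of_eq (by ring))
  rw [← sub_div, ← sub_div, ← sub_div, norm_div, Complex.norm_natCast]
  refine le_trans (div_le_div_of_nonneg_right (hn n) (Nat.cast_nonneg _)) (le_of_eq (by ring))

open Classical in
/-- Locality of the first difference at `o`.  Recipe: work on the subtype `Λ` with four masked weight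
fields (`pot_subset`, `pot_congr`): masks `1`, `1[≠ o]`, `1[∈ B j]`, `1[∈ B j, ≠ o]`.  For
`s : Fin j → ℂ` multiply the weights of the cell `c` by
`∏ i, if c ∈ B (i+1) ∧ c ∉ B i then s i else 1` (at most one factor is not `1`).  For each `n` let
`f n s` be the alternating sum of the four `psum .. n`.  It is differentiable in each variable
(`coeff_PP_mem`, `psum_mem` for the subalgebra of differentiable functions `ℂ → ℂ`), bounded by
`4 card Λ (T + S K) ^ n` on the polydisc (`norm_le_of_mem_roots_PP`, `norm_psum_le`), and vanishes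
when `s i = 0`: `mix_decouple` with `p = (· ∈ B i)`, `psum_mul`; inner parts agree for masks 1,3 and
2,4, outer parts for 1,2 and 3,4.  `iterated_schwarz`, then sum with `hasSum_psum`. -/
theorem pot_loc {X : Type*} [DecidableEq X] (Y : X → X → ℂ) (h : X → ℝ) (θ : X → κ → ℝ)
    (Λ : Finset X) (o : X) (B : ℕ → Set X) (hmono : Monotone B) (ho : o ∈ B 0)
    (hB : ∀ i, ∀ s ∈ Λ, ∀ t ∈ Λ, t ∈ B i → Y s t ≠ 0 → s ∈ B (i + 1)) (j : ℕ) {T K S : ℝ}
    (hK0 : 0 ≤ K) (hS : 1 ≤ S) (hh : ∀ s ∈ Λ, |h s| ≤ T)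
    (hK : ∀ s ∈ Λ, (∑ k, |θ s k|) * (∑ t ∈ Λ, ‖Y s t‖) ≤ K) :
    |(pot Y h θ Λ - pot Y h θ (Λ.erase o)) -
      (pot Y h θ (Λ.filter (· ∈ B j)) - pot Y h θ ((Λ.filter (· ∈ B j)).erase o))| ≤
      4 * Λ.card * Real.exp (T + S * K) / S ^ j := by
  have hm : ∀ (q : X → Prop) [DecidablePred q] (Λ' : Finset X), (∀ s, s ∈ Λ' ↔ s ∈ Λ ∧ q s) →
      pot Y h θ Λ' = (Psi (fun s t : Λ => Y s t) (fun s : Λ => h s)
        (fun (s : Λ) k => ((if q s then θ s k else 0 : ℝ) : ℂ))).re -
          ∑ s : Λ, Real.exp (h s) := by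
    intro q _ Λ' hΛ'
    have e1 : pot Y h θ Λ' = pot Y h (fun s k => if q s then θ s k else 0) Λ' :=
      pot_congr (fun _ _ _ _ => rfl) (fun _ _ => rfl)
        (fun s hs => funext fun k => (if_pos ((hΛ' s).1 hs).2).symm)
    rw [e1, ← pot_subset Y h (fun s k => if q s then θ s k else 0) (Λ := Λ') (Λ' := Λ)
      (fun s hs => ((hΛ' s).1 hs).1) (fun s hs hs' k => if_neg fun hq => hs' ((hΛ' s).2 ⟨hs, hq⟩))]
    rfl
  have hb : ∀ (q : X → Prop) [DecidablePred q] (c : Λ),
      (∑ k, ‖((if q c then θ c k else 0 : ℝ) : ℂ)‖) * (∑ c' : Λ, ‖Y c c'‖) ≤ K := by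
    intro q _ c
    refine le_trans ?_ (hK c c.2)
    rw [Finset.sum_coe_sort Λ (fun t => ‖Y c t‖)]
    refine mul_le_mul_of_nonneg_right (Finset.sum_le_sum fun k _ => ?_)
      (Finset.sum_nonneg fun _ _ => norm_nonneg _)
    rw [Complex.norm_real, Real.norm_eq_abs]
    split_ifs
    · exact le_rfl
    · simp
  rw [hm (fun _ => True) Λ (by simp), hm (fun s => s ≠ o) (Λ.erase o) (by simp [and_comm]),
    hm (fun s => s ∈ B j) (Λ.filter (· ∈ B j)) (by simp),
    hm (fun s => s ∈ B j ∧ s ≠ o) ((Λ.filter (· ∈ B j)).erase o) (by simp; tauto)]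
  have key := loc_main (fun s t : Λ => Y s t) (fun s : Λ => h s)
    (fun (s : Λ) k => ((if True then θ s k else 0 : ℝ) : ℂ))
    (fun (s : Λ) k => ((if (s : X) ≠ o then θ s k else 0 : ℝ) : ℂ))
    (fun (s : Λ) k => ((if (s : X) ∈ B j then θ s k else 0 : ℝ) : ℂ))
    (fun (s : Λ) k => ((if (s : X) ∈ B j ∧ (s : X) ≠ o then θ s k else 0 : ℝ) : ℂ))
    (fun i => {s : Λ | (s : X) ∈ B i}) (fun i i' hi s hs => hmono hi hs)
    (fun i s t ht hst => hB i s s.2 t t.2 ht hst) j
    (fun c hc => by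
      have hc' : (c : X) ∈ B j := hc
      funext k; simp [hc'])
    (fun c hc => by
      have hc' : (c : X) ∈ B j := hc
      funext k; simp [hc'])
    (fun c hc => by
      have hc' : (c : X) ≠ o := fun e => hc (show (c : X) ∈ B 0 from e ▸ ho)
      funext k; simp [hc'])
    (fun c hc => by
      have hc' : (c : X) ≠ o := fun e => hc (show (c : X) ∈ B 0 from e ▸ ho)
      funext k; simp [hc'])
    hK0 hS (fun c => hh c c.2) (hb (fun _ => True)) (hb (fun s => s ≠ o)) (hb (fun s => s ∈ B j))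
    (hb (fun s => s ∈ B j ∧ s ≠ o))
  rw [Fintype.card_coe] at key
  refine le_trans (le_of_eq ?_) ((Complex.abs_re_le_norm _).trans key)
  congr 1
  simp only [Complex.sub_re]
  ring

end

end Crest.Agent.R109
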