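import Crest.Agent.R109.Sing1

/-!
# Row 109: the singular case: paving with few projections
-/

open Filter Topology
open scoped InnerProductSpace BigOperators ComplexOrder

set_option linter.unusedSectionVars false

namespace Crest.Agent.R109

noncomputable section

open Classical

variable {H : Type*} [NormedAddCommGroup H] [InnerProductSpace ℂ H] [CompleteSpace H]
  {X : Type*} [TopologicalSpace X] [CompactSpace X] [T2Space X] [ExtremallyDisconnected X]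

theorem Sing2_refines_of_le {Q R : DiscreteQuotient X} (h : Q ≤ R) : Refines Q.proj R.proj :=
  fun _ _ hst => Quotient.sound (h (Quotient.exact hst))

theorem Sing2_exists_dq {κ : Type*} {b : X → κ} (hb : IsLocallyConstant b) :
    ∃ Q : DiscreteQuotient X, Refines Q.proj b ∧ Refines b Q.proj :=
  ⟨LocallyConstant.discreteQuotient ⟨b, hb⟩, fun _ _ h => Quotient.exact h,
    fun _ _ h => Quotient.sound h⟩

theorem Sing2_le_of_refines {Q R : DiscreteQuotient X} (h : Refines Q.proj R.proj) : Q ≤ R :=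
  fun _ _ hst => Quotient.exact (h _ _ (Quotient.sound hst))

theorem Sing2_lc_pi {j : ℕ} {c : Fin j → X → Bool} (hc : ∀ i, IsLocallyConstant (c i)) :
    IsLocallyConstant (fun t i => c i t) := by
  rw [IsLocallyConstant.iff_eventually_eq]
  intro t
  have := fun i => (IsLocallyConstant.iff_eventually_eq _).1 (hc i) t
  filter_upwards [eventually_all.2 this] with s hs
  exact funext hs

namespace Setup
variable (S : Setup H X) {ι : Type*} [Fintype ι]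

/-- the vector `(q n (χ i))_i` -/
def nu (χ : ι → H) (q n : H →L[ℂ] H) : PiLp 2 (fun _ : ι => H) := WithLp.toLp 2 fun i => q (n (χ i))

/-- `nu` as a linear map -/
def Sing2_nuL (χ : ι → H) (q : H →L[ℂ] H) : (H →L[ℂ] H) →ₗ[ℂ] PiLp 2 (fun _ : ι => H) where
  toFun := nu χ q
  map_add' a b := by ext i; simp [nu]
  map_smul' c a := by ext i; simp [nu]

theorem Sing2_nu_eq (χ : ι → H) (q n : H →L[ℂ] H) : nu χ q n = Sing2_nuL χ q n := rfl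

theorem Sing2_norm_nu_sq (χ : ι → H) (q n : H →L[ℂ] H) :
    ‖nu χ q n‖ ^ 2 = ∑ i, ‖q (n (χ i))‖ ^ 2 := by
  rw [PiLp.norm_sq_eq_of_L2]; rfl

theorem Sing2_norm_nu_sq_le (χ : ι → H) {q n : H →L[ℂ] H} (hq : IsStarProjection q) {c : ℝ}
    (hn : ‖n‖ ≤ c) : ‖nu χ q n‖ ^ 2 ≤ c ^ 2 * ∑ i, ‖χ i‖ ^ 2 := by
  rw [Sing2_norm_nu_sq, Finset.mul_sum]
  refine Finset.sum_le_sum fun i _ => ?_
  rw [← mul_pow]
  gcongr
  calc ‖q (n (χ i))‖ ≤ ‖q‖ * (‖n‖ * ‖χ i‖) :=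
        (q.le_opNorm _).trans (by gcongr; exact n.le_opNorm _)
    _ ≤ 1 * (c * ‖χ i‖) := by gcongr; exact hq.norm_le
    _ = _ := one_mul _

theorem Sing2_norm_EP_le {Q R : DiscreteQuotient X} (h : Q ≤ R) (y : H →L[ℂ] H) :
    ‖S.EP Q.proj y‖ ≤ ‖S.EP R.proj y‖ := by
  rw [← (S.EP_EP Q.proj_isLocallyConstant R.proj_isLocallyConstant (Sing2_refines_of_le h) y).1]
  exact S.norm_EP_le Q.proj_isLocallyConstant _

theorem Sing2_sum_noise (χ : ι → H) {κ : Type*} [Fintype κ] {a : X → κ}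
    (ha : IsLocallyConstant a) {q z : H →L[ℂ] H} (hq : IsStarProjection q) (hz : ‖z‖ ≤ 1) {σ : ℝ}
    (hσ : ‖S.EP a q‖ ≤ σ) :
    ∑ ε : κ → Bool, ‖nu χ q (S.ρ (sgn a ε) * z * S.ρ (sgn a ε) - S.EP a z)‖ ^ 2 ≤
      2 ^ Fintype.card κ * (2 * σ * ∑ i, ‖χ i‖ ^ 2) := by
  simp only [Sing2_norm_nu_sq]
  rw [Finset.sum_comm, Finset.mul_sum, Finset.mul_sum]
  refine Finset.sum_le_sum fun i _ => (S.sum_noise_le ha hq z (χ i)).trans ?_
  have h0 : 0 ≤ σ := (norm_nonneg _).trans hσ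
  have h1 : ‖z‖ ^ 2 ≤ 1 := pow_le_one₀ (norm_nonneg _) hz
  calc (2 : ℝ) ^ Fintype.card κ * (2 * ‖S.EP a q‖ * ‖z‖ ^ 2 * ‖χ i‖ ^ 2)
      ≤ 2 ^ Fintype.card κ * (2 * σ * 1 * ‖χ i‖ ^ 2) := by gcongr
    _ = _ := by ring

theorem Sing2_exists_noise (χ : ι → H) {κ : Type*} [Fintype κ] {a : X → κ}
    (ha : IsLocallyConstant a) {q z : H →L[ℂ] H} (hq : IsStarProjection q) (hz : ‖z‖ ≤ 1) {σ : ℝ}
    (hσ : ‖S.EP a q‖ ≤ σ) :
    ∃ ε : κ → Bool, ‖nu χ q (S.ρ (sgn a ε) * z * S.ρ (sgn a ε) - S.EP a z)‖ ≤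
      √(2 * σ * ∑ i, ‖χ i‖ ^ 2) := by
  have h := S.Sing2_sum_noise χ ha hq hz hσ
  have h2 : ∑ _ε : κ → Bool, (2 * σ * ∑ i, ‖χ i‖ ^ 2) =
      2 ^ Fintype.card κ * (2 * σ * ∑ i, ‖χ i‖ ^ 2) := by
    simp
  rw [← h2] at h
  obtain ⟨ε, -, hε⟩ := Finset.exists_le_of_sum_le Finset.univ_nonempty h
  exact ⟨ε, Real.le_sqrt_of_sq_le hε⟩

theorem Sing2_tree_zero (χ : ι → H) (x : H →L[ℂ] H) {q : H →L[ℂ] H} (hq : IsStarProjection q)
    (g : PiLp 2 fun _ : ι => H) :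
    Tendsto (fun Q : DiscreteQuotient X => ⟪g, nu χ q (S.EP Q.proj x - S.E0 x)⟫_ℂ) (UF X)
      (𝓝 0) := by
  have e : ∀ Q : DiscreteQuotient X, ⟪g, nu χ q (S.EP Q.proj x - S.E0 x)⟫_ℂ =
      ∑ i, (⟪q (g i), S.EP Q.proj x (χ i)⟫_ℂ - ⟪q (g i), S.E0 x (χ i)⟫_ℂ) := by
    intro Q
    rw [PiLp.inner_apply]
    refine Finset.sum_congr rfl fun i _ => ?_
    rw [← inner_sub_right]
    have := ContinuousLinearMap.adjoint_inner_left q ((S.EP Q.proj x - S.E0 x) (χ i)) (g i)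
    rw [← ContinuousLinearMap.star_eq_adjoint, hq.isSelfAdjoint.star_eq] at this
    exact this.symm
  simp only [e]
  have : (0 : ℂ) = ∑ i, (⟪q (g i), S.E0 x (χ i)⟫_ℂ - ⟪q (g i), S.E0 x (χ i)⟫_ℂ) := by simp
  rw [this]
  exact tendsto_finsetSum _ fun i _ => (S.WL_E0 x _ _).sub tendsto_const_nhds

/-- Binary tree of random merges. -/
theorem tree (χ : ι → H) {x q : H →L[ℂ] H} (hx : ‖x‖ ≤ 1) (hq : IsStarProjection q)
    (Q₀ : DiscreteQuotient X) {σ : ℝ} (hσ : ‖S.EP Q₀.proj q‖ ≤ σ) (k : ℕ)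
    (Q₁ : DiscreteQuotient X) (G : Finset (PiLp 2 fun _ : ι => H)) {s : ℝ} (hs : 0 < s) :
    ∃ Q ≤ Q₁, ∃ β : PiLp 2 (fun _ : ι => H),
      ‖β‖ ^ 2 ≤ 4 * (∑ i, ‖χ i‖ ^ 2) / 2 ^ k + s ∧ (∀ g ∈ G, ‖⟪g, β⟫_ℂ‖ ≤ s) ∧
      ‖nu χ q (S.EP Q.proj x - S.E0 x) - β‖ ≤ k * √(2 * σ * ∑ i, ‖χ i‖ ^ 2) := by
  induction k generalizing Q₁ G with
  | zero =>
    have h1 : ∀ᶠ Q : DiscreteQuotient X in UF X, Q ≤ Q₁ := UF_le (eventually_le_atBot Q₁)
    have h2 : ∀ᶠ Q : DiscreteQuotient X in UF X, ∀ g ∈ G,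
        ‖⟪g, nu χ q (S.EP Q.proj x - S.E0 x)⟫_ℂ‖ ≤ s := by
      rw [eventually_all_finset]
      intro g _
      have := (S.Sing2_tree_zero χ x hq g).norm
      rw [norm_zero] at this
      exact this.eventually (ge_mem_nhds hs)
    obtain ⟨Q, hQ1, hQ2⟩ := (h1.and h2).exists
    refine ⟨Q, hQ1, _, ?_, hQ2, by simp⟩
    have hn : ‖S.EP Q.proj x - S.E0 x‖ ≤ 2 := by
      have := S.norm_EP_le Q.proj_isLocallyConstant x
      have := S.norm_E0_le x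
      have := norm_sub_le (S.EP Q.proj x) (S.E0 x)
      linarith
    have := Sing2_norm_nu_sq_le χ hq hn
    rw [pow_zero, div_one]
    linarith
  | succ k ih =>
    obtain ⟨R₁, hR₁, β₁, a1, a2, a3⟩ := ih (Q₁ ⊓ Q₀) G
    obtain ⟨R₂, hR₂, β₂, b1, b2, b3⟩ := ih R₁ (insert β₁ G)
    have hz : ‖S.EP R₁.proj x‖ ≤ 1 := (S.norm_EP_le R₁.proj_isLocallyConstant x).trans hx
    have hσ₂ : ‖S.EP R₂.proj q‖ ≤ σ :=
      (S.Sing2_norm_EP_le (hR₂.trans (hR₁.trans inf_le_right)) q).trans hσ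
    obtain ⟨ε, hε⟩ := S.Sing2_exists_noise χ R₂.proj_isLocallyConstant hq hz hσ₂
    rw [(S.EP_EP R₂.proj_isLocallyConstant R₁.proj_isLocallyConstant
      (Sing2_refines_of_le hR₂) x).1] at hε
    have hc : IsLocallyConstant fun t => ε (R₂.proj t) := R₂.proj_isLocallyConstant.comp ε
    have hb : IsLocallyConstant fun t => (R₁.proj t, ε (R₂.proj t)) :=
      R₁.proj_isLocallyConstant.prodMk hc
    obtain ⟨Q, hQ1, hQ2⟩ := Sing2_exists_dq hb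
    have hQ : Q ≤ R₁ := Sing2_le_of_refines fun s t h => congrArg Prod.fst (hQ1 s t h)
    have hE : S.EP Q.proj x = (2⁻¹ : ℂ) • (S.EP R₁.proj x +
        S.ρ (sgn R₂.proj ε) * S.EP R₁.proj x * S.ρ (sgn R₂.proj ε)) := by
      rw [S.EP_congr Q.proj_isLocallyConstant hb hQ1 hQ2,
        S.EP_split R₁.proj_isLocallyConstant hc]
      rfl
    have h2 : ‖(2⁻¹ : ℂ)‖ = 2⁻¹ := by simp
    refine ⟨Q, hQ.trans (hR₁.trans inf_le_left), (2⁻¹ : ℂ) • (β₁ + β₂), ?_, fun g hg => ?_, ?_⟩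
    · have b4 := b2 β₁ (Finset.mem_insert_self _ _)
      have b5 : RCLike.re ⟪β₁, β₂⟫_ℂ ≤ s := (RCLike.re_le_norm _).trans b4
      rw [norm_smul, mul_pow, norm_add_sq (𝕜 := ℂ), h2, pow_succ (2 : ℝ) k, ← div_div]
      linarith
    · rw [inner_smul_right, norm_mul, h2, inner_add_right]
      have := norm_add_le ⟪g, β₁⟫_ℂ ⟪g, β₂⟫_ℂ
      have := a2 g hg
      have := b2 g (Finset.mem_insert_of_mem hg)
      linarith
    · have e : nu χ q (S.EP Q.proj x - S.E0 x) - (2⁻¹ : ℂ) • (β₁ + β₂) =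
          (2⁻¹ : ℂ) • ((nu χ q (S.EP R₁.proj x - S.E0 x) - β₁) +
            (nu χ q (S.EP R₂.proj x - S.E0 x) - β₂) +
            nu χ q (S.ρ (sgn R₂.proj ε) * S.EP R₁.proj x * S.ρ (sgn R₂.proj ε) -
              S.EP R₂.proj x)) := by
        rw [hE]
        simp only [Sing2_nu_eq, map_sub, map_add, map_smul]
        module
      rw [e, norm_smul, h2]
      have := norm_add₃_le (a := nu χ q (S.EP R₁.proj x - S.E0 x) - β₁)
        (b := nu χ q (S.EP R₂.proj x - S.E0 x) - β₂)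
        (c := nu χ q (S.ρ (sgn R₂.proj ε) * S.EP R₁.proj x * S.ρ (sgn R₂.proj ε) -
              S.EP R₂.proj x))
      have h0 := Real.sqrt_nonneg (2 * σ * ∑ i, ‖χ i‖ ^ 2)
      push_cast
      linarith

/-- choose `k`, then `σ`, `exists_proj` with a large `j`, `tree` -/
theorem Sing.exists_flat {χ : ι → H} (h : S.Sing χ) {V : Set X} (hV : IsClopen V)
    (hχ : ∀ i, S.p V (χ i) = χ i) {x : H →L[ℂ] H} (hx : ‖x‖ ≤ 1) {γ : ℝ} (hγ : 0 < γ) :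
    ∃ q ∈ S.M, IsStarProjection q ∧ ∑ i, ‖(1 - q) (χ i)‖ ^ 2 ≤ γ ∧ ∃ Q : DiscreteQuotient X,
      ‖S.EP Q.proj q‖ ≤ γ ∧ ‖nu χ q (S.EP Q.proj x - S.E0 x)‖ ≤ γ := by
  set C := ∑ i, ‖χ i‖ ^ 2 with hC
  have hC0 : 0 ≤ C := Finset.sum_nonneg fun i _ => by positivity
  obtain ⟨k, hk⟩ : ∃ k : ℕ, 4 * C / 2 ^ k ≤ γ ^ 2 / 8 := by
    obtain ⟨k, hk⟩ := pow_unbounded_of_one_lt (4 * C / (γ ^ 2 / 8)) (one_lt_two (α := ℝ))
    refine ⟨k, ?_⟩
    rw [div_lt_iff₀ (by positivity)] at hk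
    rw [div_le_iff₀ (by positivity)]
    linarith
  set σ := min γ (γ ^ 2 / (8 * (k ^ 2 * C + 1))) with hσ
  have hσ0 : 0 < σ := lt_min hγ (by positivity)
  have hσ1 : σ ≤ γ := min_le_left _ _
  have hσ2 : σ * (8 * (k ^ 2 * C + 1)) ≤ γ ^ 2 :=
    (le_div_iff₀ (by positivity)).1 (min_le_right _ _)
  obtain ⟨j, hj⟩ : ∃ j : ℕ, 1 / 2 ^ j ≤ σ / 2 := by
    obtain ⟨j, hj⟩ := exists_pow_lt_of_lt_one (half_pos hσ0) (one_half_lt_one (α := ℝ))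
    exact ⟨j, by rw [← one_div_pow]; exact hj.le⟩
  obtain ⟨c, hc, q, hqM, hq, -, h1, h2⟩ := Sing.exists_proj S h hV hχ j (half_pos hσ0)
  obtain ⟨Q₀, hQ1, hQ2⟩ := Sing2_exists_dq (Sing2_lc_pi hc)
  have hQ₀ : ‖S.EP Q₀.proj q‖ ≤ σ := by
    rw [S.EP_congr Q₀.proj_isLocallyConstant (Sing2_lc_pi hc) hQ1 hQ2]
    linarith
  obtain ⟨Q, hQ, β, b1, -, b3⟩ := S.tree χ hx hq Q₀ hQ₀ k Q₀ ∅ (s := γ ^ 2 / 8) (by positivity)
  refine ⟨q, hqM, hq, by linarith, Q, ((S.Sing2_norm_EP_le hQ q).trans hQ₀).trans hσ1, ?_⟩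
  have c1 : ‖β‖ ≤ γ / 2 := by
    apply le_of_sq_le_sq _ (by positivity)
    rw [← hC] at b1
    nlinarith
  have c2 : k * √(2 * σ * C) ≤ γ / 2 := by
    apply le_of_sq_le_sq _ (by positivity)
    rw [mul_pow, Real.sq_sqrt (by positivity)]
    nlinarith
  have := norm_le_norm_add_norm_sub' (nu χ q (S.EP Q.proj x - S.E0 x)) β
  linarith

theorem Sing2_norm_le_of_inner {a h : H →L[ℂ] H} {s : ℝ} (hs : 0 ≤ s) {q : H →L[ℂ] H}
    (hle : ∀ η, ‖a η‖ ^ 2 ≤ (⟪η, h η⟫_ℂ).re)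
    (hq : ∀ η, (⟪q η, h (q η)⟫_ℂ).re ≤ s ^ 2 * ‖η‖ ^ 2) : ‖a * q‖ ≤ s := by
  refine ContinuousLinearMap.opNorm_le_bound _ hs fun η => ?_
  apply le_of_sq_le_sq _ (by positivity)
  rw [mul_pow]
  exact (hle (q η)).trans (hq η)

/-- the cut that makes `q n q` small -/
theorem Sing2_cut {χ : ι → H} {V : Set X} (hχ : ∀ i, S.p V (χ i) = χ i) {q n : H →L[ℂ] H}
    (hqM : q ∈ S.M) (hq : IsStarProjection q) (hnM : n ∈ S.M) (hn : ‖n‖ ≤ 2) {γ : ℝ}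
    (hγ : 0 < γ) (hsmall : ∑ i, ‖(1 - q) (χ i)‖ ^ 2 + ‖nu χ q n‖ ^ 2 ≤ (γ / 3) ^ 2 * γ) :
    ∃ r ∈ S.M, IsStarProjection r ∧ S.p V * r = r ∧ ∑ i, ‖(1 - r) (χ i)‖ ^ 2 ≤ γ ∧
      ‖r * n * r‖ ≤ γ := by
  have hqq : star (q * n) * (q * n) = star n * q * n := by
    rw [star_mul, hq.isSelfAdjoint.star_eq, mul_assoc, ← mul_assoc q, hq.isIdempotentElem.eq,
      mul_assoc]
  have hin : ∀ η, (⟪η, ((1 - q) + star (q * n) * (q * n)) η⟫_ℂ).re =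
      ‖(1 - q) η‖ ^ 2 + ‖(q * n) η‖ ^ 2 := by
    intro η
    rw [add_apply, inner_add_right, Complex.add_re, norm_apply_sq_eq (q * n),
      IsStarProjection.norm_apply_sq hq.one_sub]
  have h0 : 0 ≤ (1 - q) + star (q * n) * (q * n) :=
    add_nonneg hq.one_sub.nonneg (star_mul_self_nonneg _)
  have hM : (1 - q) + star (q * n) * (q * n) ∈ S.M :=
    add_mem (sub_mem (one_mem _) hqM) (mul_mem (star_mem (mul_mem hqM hnM)) (mul_mem hqM hnM))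
  have hs : 0 < (γ / 3) ^ 2 := by positivity
  obtain ⟨r, hrM, hr, hpr, h1, h2⟩ :=
    exists_cut_le (S.isStarProjection_p V) (S.p_mem V) h0 hM hs
  refine ⟨r, hrM, hr, hpr, ?_, ?_⟩
  · refine le_of_mul_le_mul_left (le_trans ?_ hsmall) hs
    rw [Finset.mul_sum, Sing2_norm_nu_sq, ← Finset.sum_add_distrib]
    refine Finset.sum_le_sum fun i _ => (h1 _ (hχ i)).trans ?_
    rw [hin]; rfl
  · have a1 : ‖(1 - q) * r‖ ≤ γ / 3 :=
      Sing2_norm_le_of_inner (by positivity) (fun η => by rw [hin]; nlinarith [sq_nonneg ‖(q * n) η‖]) h2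
    have a2 : ‖(q * n) * r‖ ≤ γ / 3 :=
      Sing2_norm_le_of_inner (by positivity) (fun η => by rw [hin]; nlinarith [sq_nonneg ‖(1 - q) η‖]) h2
    have a3 : ‖r * (1 - q)‖ ≤ γ / 3 := by
      rw [← norm_star, star_mul, hr.isSelfAdjoint.star_eq, hq.one_sub.isSelfAdjoint.star_eq]
      exact a1
    have hr1 : ‖r‖ ≤ 1 := hr.norm_le
    have e : r * n * r = r * (1 - q) * n * r + r * (q * n * r) := by noncomm_ring
    calc ‖r * n * r‖ ≤ ‖r * (1 - q) * n * r‖ + ‖r * (q * n * r)‖ := by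
          rw [e]; exact norm_add_le _ _
      _ ≤ ‖r * (1 - q)‖ * ‖n‖ * ‖r‖ + ‖r‖ * ‖q * n * r‖ :=
          add_le_add ((norm_mul_le _ _).trans (by gcongr; exact norm_mul_le _ _))
            (norm_mul_le _ _)
      _ ≤ γ / 3 * 2 * 1 + 1 * (γ / 3) := by gcongr
      _ = γ := by ring

/-- **Singular case.** -/
theorem Sing.paving {χ : ι → H} (h : S.Sing χ) {V : Set X} (hV : IsClopen V)
    (hχ : ∀ i, S.p V (χ i) = χ i) {x : H →L[ℂ] H} (hxM : x ∈ S.M) (hx : ‖x‖ ≤ 1) (j : ℕ) {γ : ℝ}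
    (hγ : 0 < γ) :
    ∃ c : Fin j → X → Bool, (∀ i, IsLocallyConstant (c i)) ∧ ∃ q ∈ S.M, IsStarProjection q ∧
      S.p V * q = q ∧ ∑ i, ‖(1 - q) (χ i)‖ ^ 2 ≤ γ ∧
      ‖q * (S.EP (fun t i => c i t) x - ((1 - 1 / 2 ^ j : ℝ) : ℂ) • S.E0 x) * q‖ ≤
        1 / 2 ^ j + γ := by
  set C := ∑ i, ‖χ i‖ ^ 2 with hC
  have hC0 : 0 ≤ C := Finset.sum_nonneg fun i _ => by positivity
  set γ₁ := min 1 ((γ / 3) ^ 2 * γ / (3 + 4 * 2 ^ j * C)) with hγ₁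
  have g0 : 0 < γ₁ := lt_min one_pos (by positivity)
  have g1 : γ₁ ≤ 1 := min_le_left _ _
  have g2 : γ₁ * (3 + 4 * 2 ^ j * C) ≤ (γ / 3) ^ 2 * γ :=
    (le_div_iff₀ (by positivity)).1 (min_le_right _ _)
  obtain ⟨q, hqM, hq, h1, Q, h2, h3⟩ := Sing.exists_flat S h hV hχ hx g0
  obtain ⟨ε, hε⟩ := exists_signs j
    (fun δ : Q → Bool => ‖nu χ q (S.ρ (sgn Q.proj δ) * x * S.ρ (sgn Q.proj δ) - S.EP Q.proj x)‖ ^ 2)
    (S.Sing2_sum_noise χ Q.proj_isLocallyConstant hq hx h2)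
  let c : Fin j → X → Bool := fun i t => ε i (Q.proj t)
  have hc : ∀ i, IsLocallyConstant (c i) := fun i => Q.proj_isLocallyConstant.comp (ε i)
  let u : Finset (Fin j) → H →L[ℂ] H := fun T =>
    S.ρ (sgn Q.proj fun b => decide (Even (T.filter fun i => ε i b = false).card))
  let N : Finset (Finset (Fin j)) := Finset.univ.filter fun T => T.Nonempty
  have hNe : N = Finset.univ.erase ∅ := by
    ext T; simp [N, Finset.nonempty_iff_ne_empty]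
  have hNc : (N.card : ℝ) = 2 ^ j - 1 := by
    rw [hNe, Finset.card_erase_of_mem (Finset.mem_univ _), Nat.cast_sub (by simp [Nat.one_le_two_pow])]
    simp
  have hNc' : (N.card : ℂ) = 2 ^ j - 1 := by exact_mod_cast hNc
  have hE : (2 : ℂ) ^ j • S.EP (fun t i => c i t) x = x + ∑ T ∈ N, u T * x * u T := by
    rw [S.EP_pi hc, hNe, ← Finset.add_sum_erase _ _ (Finset.mem_univ ∅)]
    simp only [Finset.prod_empty, map_one, one_mul, mul_one]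
    congr 1
    refine Finset.sum_congr rfl fun T _ => ?_
    rw [prod_sgn Q.proj_isLocallyConstant ε T]
  have h2j : (2 : ℂ) ^ j ≠ 0 := by positivity
  have hp : (0 : ℝ) < 2 ^ j := by positivity
  have hp1 : (1 : ℝ) / 2 ^ j ≤ 1 := by
    rw [div_le_one hp]; exact one_le_pow₀ one_le_two
  set n := S.EP (fun t i => c i t) x - ((1 - 1 / 2 ^ j : ℝ) : ℂ) • S.E0 x -
    ((1 / 2 ^ j : ℝ) : ℂ) • x with hn
  have hnM : n ∈ S.M :=
    sub_mem (sub_mem (S.EP_mem _ hxM) (vn_smul_mem _ (S.ρ_E hxM ▸ S.mem _))) (vn_smul_mem _ hxM)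
  have hn2 : ‖n‖ ≤ 2 := by
    have a1 := (S.norm_EP_le (Sing2_lc_pi hc) x).trans hx
    have a2 : ‖((1 - 1 / 2 ^ j : ℝ) : ℂ) • S.E0 x‖ ≤ 1 - 1 / 2 ^ j := by
      rw [norm_smul, Complex.norm_real, Real.norm_of_nonneg (by linarith)]
      exact mul_le_of_le_one_right (by linarith) ((S.norm_E0_le x).trans hx)
    have a3 : ‖((1 / 2 ^ j : ℝ) : ℂ) • x‖ ≤ 1 / 2 ^ j := by
      rw [norm_smul, Complex.norm_real, Real.norm_of_nonneg (by positivity)]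
      exact mul_le_of_le_one_right (by positivity) hx
    have a4 := norm_sub_le (S.EP (fun t i => c i t) x - ((1 - 1 / 2 ^ j : ℝ) : ℂ) • S.E0 x)
      (((1 / 2 ^ j : ℝ) : ℂ) • x)
    have a5 := norm_sub_le (S.EP (fun t i => c i t) x) (((1 - 1 / 2 ^ j : ℝ) : ℂ) • S.E0 x)
    linarith
  have hne : (2 : ℂ) ^ j • n =
      ∑ T ∈ N, ((u T * x * u T - S.EP Q.proj x) + (S.EP Q.proj x - S.E0 x)) := by
    simp only [sub_add_sub_cancel, Finset.sum_sub_distrib, Finset.sum_const]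
    rw [hn, smul_sub, smul_sub, hE, smul_smul, smul_smul, ← Nat.cast_smul_eq_nsmul ℂ, hNc']
    push_cast
    rw [mul_one_div_cancel h2j, mul_sub, mul_one_div_cancel h2j, mul_one, one_smul]
    abel
  set τ := √(2 ^ j * (2 * γ₁ * C)) with hτ
  have hT : ∀ T ∈ N, ‖nu χ q (u T * x * u T - S.EP Q.proj x)‖ ≤ τ := by
    intro T hT
    apply Real.le_sqrt_of_sq_le
    have := Finset.single_le_sum (f := fun T => ‖nu χ q (u T * x * u T - S.EP Q.proj x)‖ ^ 2)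
      (fun T _ => sq_nonneg _) hT
    have h4 : (0 : ℝ) ≤ 2 * γ₁ * C := by positivity
    have h5 : ∑ T ∈ N, ‖nu χ q (u T * x * u T - S.EP Q.proj x)‖ ^ 2 ≤
      (2 ^ j - 1) * (2 * γ₁ * C) := hε
    nlinarith
  have hτ0 : 0 ≤ τ := Real.sqrt_nonneg _
  have hnu : ‖nu χ q n‖ ≤ τ + γ₁ := by
    refine le_of_mul_le_mul_left ?_ hp
    calc 2 ^ j * ‖nu χ q n‖ = ‖nu χ q ((2 : ℂ) ^ j • n)‖ := by
          rw [Sing2_nu_eq, Sing2_nu_eq, map_smul, norm_smul]; simp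
      _ ≤ ∑ T ∈ N, (τ + γ₁) := by
          rw [hne, Sing2_nu_eq, map_sum]
          refine norm_sum_le_of_le _ fun T hT' => ?_
          rw [map_add]
          exact (norm_add_le _ _).trans (add_le_add (hT T hT') h3)
      _ ≤ 2 ^ j * (τ + γ₁) := by
          rw [Finset.sum_const, nsmul_eq_mul, hNc]
          nlinarith
  have hτ2 : τ ^ 2 = 2 ^ j * (2 * γ₁ * C) := Real.sq_sqrt (by positivity)
  have hsmall : ∑ i, ‖(1 - q) (χ i)‖ ^ 2 + ‖nu χ q n‖ ^ 2 ≤ (γ / 3) ^ 2 * γ := by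
    have b1 : ‖nu χ q n‖ ^ 2 ≤ (τ + γ₁) ^ 2 := by gcongr
    have b2 : (τ + γ₁) ^ 2 ≤ 2 * τ ^ 2 + 2 * γ₁ ^ 2 := by nlinarith [sq_nonneg (τ - γ₁)]
    have b3 : γ₁ ^ 2 ≤ γ₁ := by nlinarith
    rw [hτ2] at b2
    nlinarith
  obtain ⟨r, hrM, hr, hpr, r1, r2⟩ := S.Sing2_cut hχ hqM hq hnM hn2 hγ hsmall
  refine ⟨c, hc, r, hrM, hr, hpr, r1, ?_⟩
  have e : r * (S.EP (fun t i => c i t) x - ((1 - 1 / 2 ^ j : ℝ) : ℂ) • S.E0 x) * r =
      ((1 / 2 ^ j : ℝ) : ℂ) • (r * x * r) + r * n * r := by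
    rw [hn, mul_sub r _ (_ • x), sub_mul _ (r * _ • x), mul_smul_comm, smul_mul_assoc]
    abel
  have hr1 : ‖r‖ ≤ 1 := hr.norm_le
  have a1 : ‖r * x * r‖ ≤ 1 := by
    calc ‖r * x * r‖ ≤ ‖r‖ * ‖x‖ * ‖r‖ := (norm_mul_le _ _).trans (by gcongr; exact norm_mul_le _ _)
      _ ≤ 1 * 1 * 1 := by gcongr
      _ = 1 := by ring
  rw [e]
  refine (norm_add_le _ _).trans (add_le_add ?_ r2)
  rw [norm_smul, Complex.norm_real, Real.norm_of_nonneg (by positivity)]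
  exact mul_le_of_le_one_right (by positivity) a1

end Setup

end

end Crest.Agent.R109
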