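import Crest.Agent.R109.Dich
import Crest.Agent.R109.Sing2

/-!
# Row 109: so-paving
-/

open Filter Topology
open scoped InnerProductSpace BigOperators ComplexOrder

set_option linter.unusedSectionVars false

namespace Crest.Agent.R109

noncomputable section

open Classical

variable {H : Type*} [NormedAddCommGroup H] [InnerProductSpace ℂ H] [CompleteSpace H]
  {X : Type*} [TopologicalSpace X] [CompactSpace X] [T2Space X] [ExtremallyDisconnected X]

universe u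

theorem Main43_mul_eq {A : Set (H →L[ℂ] H)} {e : H →L[ℂ] H} {ι : Type*} [Fintype ι]
    {p : ι → H →L[ℂ] H} (hp : IsPart A e p) (i : ι) : e * p i = p i ∧ p i * e = p i := by
  rw [← hp.sum, Finset.sum_mul, Finset.mul_sum]
  exact ⟨(Finset.sum_eq_single i (fun j _ hj => hp.orth j i hj) (by simp)).trans
      (hp.proj i).isIdempotentElem,
    (Finset.sum_eq_single i (fun j _ hj => hp.orth i j hj.symm) (by simp)).trans
      (hp.proj i).isIdempotentElem⟩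

theorem IsPart.pad {A : Set (H →L[ℂ] H)} (h0 : (0 : H →L[ℂ] H) ∈ A) {e : H →L[ℂ] H} {ι : Type*}
    [Fintype ι] {p : ι → H →L[ℂ] H} (hp : IsPart A e p) {r : ℕ} (hr : Fintype.card ι ≤ r) :
    ∃ p' : Fin r → H →L[ℂ] H, IsPart A e p' ∧ ∀ y, ∑ i, p' i * y * p' i = ∑ i, p i * y * p i := by
  obtain ⟨k⟩ : Nonempty (ι ↪ Fin r) := Function.Embedding.nonempty_of_card_le (by simpa using hr)
  have hsum : ∀ G : (H →L[ℂ] H) → H →L[ℂ] H, G 0 = 0 →
      ∑ i, G (Function.extend k p 0 i) = ∑ i, G (p i) := by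
    intro G hG
    rw [← Finset.sum_subset (Finset.subset_univ (Finset.univ.map k)), Finset.sum_map]
    · simp only [k.injective.extend_apply]
    · intro i _ hi
      rw [Function.extend_apply' _ _ _ (by simpa using hi)]
      exact hG
  have hcase : ∀ i, (∃ a, i = k a ∧ Function.extend k p 0 i = p a) ∨
      Function.extend k p 0 i = 0 := by
    intro i
    by_cases hi : ∃ a, k a = i
    · obtain ⟨a, rfl⟩ := hi
      exact Or.inl ⟨a, rfl, k.injective.extend_apply _ _ _⟩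
    · exact Or.inr (Function.extend_apply' _ _ _ hi)
  refine ⟨Function.extend k p 0, ⟨fun i => ?_, fun i => ?_, fun i j hij => ?_,
    (hsum id rfl).trans hp.sum⟩, fun y => hsum (fun u => u * y * u) (mul_zero _)⟩
  · rcases hcase i with ⟨a, -, h⟩ | h <;> rw [h]
    exacts [hp.mem a, h0]
  · rcases hcase i with ⟨a, -, h⟩ | h <;> rw [h]
    exacts [hp.proj a, IsStarProjection.zero _]
  · rcases hcase i with ⟨a, ha, h⟩ | h <;> rw [h]
    · rcases hcase j with ⟨b, hb, h'⟩ | h' <;> rw [h']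
      · exact hp.orth a b fun hab => hij (by rw [ha, hb, hab])
      · exact mul_zero _
    · exact zero_mul _

theorem IsPart.sumElim {A : Set (H →L[ℂ] H)} {e f : H →L[ℂ] H} (hef : e * f = 0) {ι κ : Type*}
    [Fintype ι] [Fintype κ] {p : ι → H →L[ℂ] H} {p' : κ → H →L[ℂ] H} (hp : IsPart A e p)
    (hp' : IsPart A f p') : IsPart A (e + f) (Sum.elim p p') := by
  have h1 : ∀ i j, p i * p' j = 0 := fun i j => by
    rw [← (Main43_mul_eq hp i).2, ← (Main43_mul_eq hp' j).1, mul_assoc, ← mul_assoc e, hef,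
      zero_mul, mul_zero]
  have h2 : ∀ i j, p' j * p i = 0 := fun i j => by
    have := congrArg star (h1 i j)
    rwa [star_mul, (hp.proj i).isSelfAdjoint.star_eq, (hp'.proj j).isSelfAdjoint.star_eq,
      star_zero] at this
  refine ⟨?_, ?_, ?_, ?_⟩
  · rintro (i | i)
    exacts [hp.mem i, hp'.mem i]
  · rintro (i | i)
    exacts [hp.proj i, hp'.proj i]
  · rintro (i | i) (j | j) hij
    exacts [hp.orth i j fun h => hij (congrArg _ h), h1 i j, h2 j i,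
      hp'.orth i j fun h => hij (congrArg _ h)]
  · rw [Fintype.sum_sum_type, ← hp.sum, ← hp'.sum]
    rfl

theorem IsPart.mul_eq {A : Set (H →L[ℂ] H)} {e : H →L[ℂ] H} {ι : Type*} [Fintype ι]
    {p : ι → H →L[ℂ] H} (hp : IsPart A e p) (i : ι) : e * p i = p i ∧ p i * e = p i := by
  exact Main43_mul_eq hp i

theorem Setup.isPart_cut (S : Setup H X) {ι : Type*} [Fintype ι] {a : X → ι}
    (ha : IsLocallyConstant a) {V : Set X} (hV : IsClopen V) :
    IsPart (Set.range S.ρ) (S.p V) (fun i => S.p V * S.p (a ⁻¹' {i})) ∧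
      ∀ y, ∑ i, (S.p V * S.p (a ⁻¹' {i})) * y * (S.p V * S.p (a ⁻¹' {i})) =
        S.p V * S.EP a y * S.p V := by
  have hc : ∀ W, S.p V * S.p W = S.p W * S.p V := fun W => S.ρ_comm _ _
  refine ⟨⟨fun i => ⟨_, map_mul S.ρ _ _⟩,
    fun i => (S.isStarProjection_p _).mul (S.isStarProjection_p _) (hc _), fun i j hij => ?_, ?_⟩,
    fun y => ?_⟩
  · rw [hc (a ⁻¹' {j}), mul_assoc, ← mul_assoc (S.p (a ⁻¹' {i})), S.p_mul_p_fiber ha, if_neg hij,
      zero_mul, mul_zero]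
  · rw [← Finset.mul_sum, S.sum_p ha, mul_one]
  · rw [Setup.EP, Finset.mul_sum, Finset.sum_mul]
    refine Finset.sum_congr rfl fun i _ => ?_
    conv_lhs => rw [mul_assoc, mul_assoc, hc (a ⁻¹' {i})]
    simp only [mul_assoc]

theorem exists_L_j {ε : ℝ} (hε : 0 < ε) (hε1 : ε < 1) : ∃ L j : ℕ, 0 < L ∧
    2 * L ≤ Nat.ceil (400000000 / ε ^ 2) ∧ 16000 / √(2 * L) ≤ ε ∧
    2 ^ j ≤ Nat.ceil (4 / ε) ∧ (1 : ℝ) / 2 ^ j ≤ ε / 2 := by
  have h2 : ε ^ 2 < 1 := by nlinarith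
  have h3 : 0 < ε ^ 2 := by positivity
  obtain ⟨n, hn1, hn2⟩ := exists_nat_pow_near (x := 2 / ε) (y := 2)
    (by rw [le_div_iff₀ hε]; linarith) one_lt_two
  have hL := Nat.le_ceil (128000000 / ε ^ 2)
  have hL' := Nat.ceil_lt_add_one (show 0 ≤ 128000000 / ε ^ 2 by positivity)
  have hLpos : 0 < Nat.ceil (128000000 / ε ^ 2) := Nat.ceil_pos.2 (by positivity)
  refine ⟨Nat.ceil (128000000 / ε ^ 2), n + 1, hLpos, ?_, ?_, ?_, ?_⟩
  · have h4 : (2 : ℝ) ≤ 144000000 / ε ^ 2 := by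
      rw [le_div_iff₀ h3]
      linarith
    have h5 : (400000000 : ℝ) / ε ^ 2 = 2 * (128000000 / ε ^ 2) + 144000000 / ε ^ 2 := by ring
    have h6 := Nat.le_ceil (400000000 / ε ^ 2)
    have h7 : ((2 * Nat.ceil (128000000 / ε ^ 2) : ℕ) : ℝ) ≤ Nat.ceil (400000000 / ε ^ 2) := by
      push_cast
      linarith
    exact_mod_cast h7
  · have h4 : 16000 / ε ≤ √(2 * (Nat.ceil (128000000 / ε ^ 2) : ℕ)) := by
      refine Real.le_sqrt_of_sq_le ?_
      have : (16000 / ε) ^ 2 = 2 * (128000000 / ε ^ 2) := by ring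
      linarith
    have h5 : 0 < 16000 / ε := by positivity
    rw [div_le_iff₀ (h5.trans_le h4)]
    rw [div_le_iff₀ hε] at h4
    linarith
  · have h4 : (((2 ^ (n + 1) : ℕ)) : ℝ) ≤ Nat.ceil (4 / ε) := by
      refine le_trans ?_ (Nat.le_ceil _)
      have : 4 / ε = 2 / ε * 2 := by ring
      push_cast
      rw [pow_succ, this]
      linarith
    exact_mod_cast h4
  · rw [div_lt_iff₀ hε] at hn2
    rw [div_le_div_iff₀ (by positivity) two_pos]
    linarith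

theorem Main43_swap {e r : H →L[ℂ] H} (he : IsSelfAdjoint e) (hr : IsSelfAdjoint r)
    (h : e * r = r) : r * e = r := by
  have := congrArg star h
  rwa [star_mul, he.star_eq, hr.star_eq] at this

/-- the norm one case -/
theorem Main43_aux {ε : ℝ} (hε : 0 < ε) (hε1 : ε < 1) {H : Type u} [NormedAddCommGroup H]
    [InnerProductSpace ℂ H] [CompleteSpace H] (S : Setup H X) {x : H →L[ℂ] H} (hxM : x ∈ S.M)
    (hx : IsSelfAdjoint x) (hn : ‖x‖ ≤ 1) {ι : Type*} [Fintype ι] (η : ι → H) {δ : ℝ}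
    (hδ : 0 < δ) :
    ∃ p : Fin (Nat.ceil (400000000 / ε ^ 2) + Nat.ceil (4 / ε) + 1) → (H →L[ℂ] H),
      IsPart (Set.range S.ρ) 1 p ∧ ∃ a ∈ Set.range S.ρ, IsSelfAdjoint a ∧ ‖a‖ ≤ 1 ∧
        ∃ q ∈ S.M, IsStarProjection q ∧ (∀ i, ‖(1 - q) (η i)‖ < δ) ∧
          ‖q * (∑ i, p i * x * p i - a) * q‖ ≤ ε := by
  obtain ⟨L, j, hL, hL1, hL2, hj1, hj2⟩ := exists_L_j hε hε1
  obtain ⟨U, hU, hS, hN⟩ := dichotomy S η
  obtain ⟨p₁, hp₁, a₁, ⟨g₁, hg₁⟩, ha₁s, ha₁n, hea₁, r, hrM, hr, her, -, -, hrη, hz₁⟩ :=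
    hN x hxM hx hn L hL (δ / 2) (half_pos hδ)
  have he := S.isStarProjection_p U
  have hf := S.isStarProjection_p Uᶜ
  have hff : S.p Uᶜ * S.p Uᶜ = S.p Uᶜ := hf.isIdempotentElem
  have hγ : 0 < min (ε / 2) ((δ / 2) ^ 2) := lt_min (half_pos hε) (by positivity)
  obtain ⟨c, hc, q', hq'M, hq', hfq', hq'η, hz₂⟩ := hS.paving S hU.compl
    (fun i => DFunLike.congr_fun hff (η i)) hxM hn j hγ
  have hlc : IsLocallyConstant fun t i => c i t :=
    (IsLocallyConstant.iff_continuous _).2 (continuous_pi fun i => (hc i).continuous)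
  obtain ⟨hp₂, hp₂x⟩ := S.isPart_cut hlc hU.compl
  have hef : S.p U * S.p Uᶜ = 0 := by rw [S.p_compl hU]; exact he.mul_one_sub_self
  have hfe : S.p Uᶜ * S.p U = 0 := by rw [S.p_compl hU]; exact he.one_sub_mul_self
  have hsum : S.p U + S.p Uᶜ = 1 := by rw [S.p_compl hU, add_sub_cancel]
  obtain ⟨p, hp, hpx⟩ := IsPart.pad (Set.mem_range.2 ⟨0, map_zero S.ρ⟩) (hp₁.sumElim hef hp₂)
    (r := Nat.ceil (400000000 / ε ^ 2) + Nat.ceil (4 / ε) + 1) (by
      simp only [Fintype.card_sum, Fintype.card_fin, Fintype.card_pi, Fintype.card_bool,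
        Finset.prod_const, Finset.card_univ]
      omega)
  rw [hsum] at hp
  set t : ℂ := ((1 - 1 / 2 ^ j : ℝ) : ℂ) with ht
  have hts : IsSelfAdjoint t := Complex.conj_ofReal _
  have htn : ‖t‖ ≤ 1 := by
    have h1 : (0 : ℝ) < 1 / 2 ^ j := by positivity
    rw [ht, Complex.norm_real, Real.norm_eq_abs, abs_le]
    constructor <;> linarith
  have hE : IsSelfAdjoint (S.E0 x) := by
    rw [IsSelfAdjoint, ← S.E0_star, hx.star_eq]
  set a₂ := S.p Uᶜ * (t • S.E0 x) * S.p Uᶜ with ha₂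
  have ha₂s : IsSelfAdjoint a₂ := (hts.smul hE).conjugate_self hf.isSelfAdjoint
  have ha₂n : ‖a₂‖ ≤ 1 := by
    refine (norm_mul_le _ _).trans (mul_le_one₀ ((norm_mul_le _ _).trans
      (mul_le_one₀ (S.norm_p_le _) (norm_nonneg _) ?_)) (norm_nonneg _) (S.norm_p_le _))
    rw [norm_smul]
    exact mul_le_one₀ htn (norm_nonneg _) ((S.norm_E0_le x).trans hn)
  have hae₁ : a₁ * S.p U = a₁ := Main43_swap he.isSelfAdjoint ha₁s hea₁
  have hre : r * S.p U = r := Main43_swap he.isSelfAdjoint hr.isSelfAdjoint her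
  have hq'f : q' * S.p Uᶜ = q' := Main43_swap hf.isSelfAdjoint hq'.isSelfAdjoint hfq'
  have hee : S.p U * S.p U = S.p U := he.isIdempotentElem
  have hs : IsStarProjection (S.p U - r) := hr.sub_of_mul_eq_left he hre
  have hse : (S.p U - r) * S.p U = S.p U - r := by rw [sub_mul, hee, hre]
  have hes : S.p U * (S.p U - r) = S.p U - r := by rw [mul_sub, hee, her]
  have hsf : (S.p U - r) * S.p Uᶜ = 0 := by rw [← hse, mul_assoc, hef, mul_zero]
  have hfs : S.p Uᶜ * (S.p U - r) = 0 := by rw [← hes, ← mul_assoc, hfe, zero_mul]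
  have hq'e : q' * S.p U = 0 := by rw [← hq'f, mul_assoc, hfe, mul_zero]
  have heq' : S.p U * q' = 0 := by rw [← hfq', ← mul_assoc, hef, zero_mul]
  refine ⟨p, hp, a₁ + a₂, ⟨g₁ + ind Uᶜ * (t • S.E x) * ind Uᶜ, ?_⟩, ha₁s.add ha₂s, ?_,
    (S.p U - r) + q', add_mem (sub_mem (S.p_mem U) hrM) hq'M,
    hs.add hq' (by rw [← hfq', ← mul_assoc, hsf, zero_mul]), fun i => ?_, ?_⟩
  · rw [map_add, map_mul, map_mul, map_smul, S.ρ_E hxM, hg₁]
    rfl
  · refine (norm_add_le_max he hf hef (by rw [hea₁, hae₁]) ?_).trans (max_le ha₁n ha₂n)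
    rw [ha₂, ← mul_assoc, ← mul_assoc, hff, mul_assoc, hff]
  · have e : 1 - (S.p U - r + q') = r + (1 - q') * S.p Uᶜ := by
      rw [sub_mul, one_mul, hq'f, S.p_compl hU]
      abel
    have h1 : ‖(1 - q') (S.p Uᶜ (η i))‖ ≤ δ / 2 := by
      refine (abs_le_of_sq_le_sq' ?_ (half_pos hδ).le).2
      exact (Finset.single_le_sum (f := fun i => ‖(1 - q') (S.p Uᶜ (η i))‖ ^ 2)
        (fun _ _ => sq_nonneg _) (Finset.mem_univ i)).trans (hq'η.trans (min_le_right _ _))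
    rw [e]
    refine (norm_add_le (r (η i)) ((1 - q') (S.p Uᶜ (η i)))).trans_lt ?_
    linarith [hrη i]
  · set z₁ := ∑ i, p₁ i * x * p₁ i - a₁ with hz₁d
    set w := S.EP (fun t i => c i t) x - t • S.E0 x with hw
    have hez : S.p U * z₁ = z₁ := by
      rw [hz₁d, mul_sub, hea₁, Finset.mul_sum]
      simp only [← mul_assoc, (hp₁.mul_eq _).1]
    have hze : z₁ * S.p U = z₁ := by
      rw [hz₁d, sub_mul, hae₁, Finset.sum_mul]
      simp only [mul_assoc, (hp₁.mul_eq _).2]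
    have e1 : ∑ i, p i * x * p i - (a₁ + a₂) = z₁ + S.p Uᶜ * w * S.p Uᶜ := by
      rw [hpx, Fintype.sum_sum_type]
      simp only [Sum.elim_inl, Sum.elim_inr]
      rw [hp₂x, hz₁d, hw, ha₂, mul_sub, sub_mul]
      abel
    have k1 : q' * z₁ = 0 := by rw [← hez, ← mul_assoc, hq'e, zero_mul]
    have k2 : z₁ * q' = 0 := by rw [← hze, mul_assoc, heq', mul_zero]
    have k3 : z₁ * (S.p U - r) = z₁ * (1 - r) := by rw [mul_sub, mul_sub, hze, mul_one]
    have e2 : (S.p U - r + q') * (z₁ + S.p Uᶜ * w * S.p Uᶜ) * (S.p U - r + q') =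
        (S.p U - r) * (z₁ * (S.p U - r)) + q' * w * q' := by
      have l1 : (S.p U - r + q') * (z₁ + S.p Uᶜ * w * S.p Uᶜ) =
          (S.p U - r) * z₁ + q' * w * S.p Uᶜ := by
        rw [add_mul, mul_add, mul_add, k1, ← mul_assoc, ← mul_assoc, hsf, ← mul_assoc,
          ← mul_assoc, hq'f]
        simp
      rw [l1, add_mul, mul_add, mul_add, mul_assoc _ z₁ q', k2, mul_assoc _ (S.p Uᶜ), hfs,
        mul_assoc _ (S.p Uᶜ), hfq', mul_assoc]
      simp
    rw [e1, e2]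
    refine (norm_add_le_max he hf hef ?_ ?_).trans (max_le ?_ ?_)
    · rw [← mul_assoc, hes, mul_assoc, mul_assoc, hse]
    · rw [← mul_assoc, ← mul_assoc, hfq', mul_assoc, hq'f]
    · rw [k3]
      exact (norm_mul_le _ _).trans ((mul_le_of_le_one_left (norm_nonneg _) (hs.norm_le _)).trans
        (hz₁.trans hL2))
    · refine hz₂.trans ?_
      linarith [min_le_left (ε / 2) ((δ / 2) ^ 2)]

/-- Recipe: `exists_setup`; if `x = 0` take `q = 1`; otherwise scale to norm one.  `dichotomy` for the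
family `F`; `Sing.paving` with `V = Uᶜ`, `γ = min (ε/2) (δ²/4)..`; the partition is
`Sum.elim p (p Uᶜ * p (c ⁻¹' {σ}))` padded; `a = a₁ + (1 - 2^{-j}) p Uᶜ E0 x`, `q = (e - r) + q'`;
`norm_add_le_max`. -/
theorem so_paving (ε : ℝ) (hε : 0 < ε) (hε1 : ε < 1)
    (H : Type u) [NormedAddCommGroup H] [InnerProductSpace ℂ H] [CompleteSpace H]
    (M : VonNeumannAlgebra H) (A : StarSubalgebra ℂ (H →L[ℂ] H))
    (hAM : A ≤ M.toStarSubalgebra) (hA : ∀ a ∈ A, ∀ b ∈ A, a * b = b * a)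
    (hAmax : ∀ y ∈ M, (∀ a ∈ A, a * y = y * a) → y ∈ A)
    (x : H →L[ℂ] H) (hxM : x ∈ M) (hx : IsSelfAdjoint x) (F : Finset H) (δ : ℝ) (hδ : 0 < δ) :
    ∃ p : Fin (Nat.ceil (400000000 / ε ^ 2) + Nat.ceil (4 / ε) + 1) → (H →L[ℂ] H),
      (∀ i, p i ∈ A ∧ IsStarProjection (p i)) ∧ (∀ i j, i ≠ j → p i * p j = 0) ∧
      ∑ i, p i = 1 ∧
      ∃ a ∈ A, IsSelfAdjoint a ∧ ‖a‖ ≤ ‖x‖ ∧
        ∃ q ∈ M, IsStarProjection q ∧ (∀ ξ ∈ F, ‖(1 - q) ξ‖ < δ) ∧
          ‖q * (∑ i, p i * x * p i - a) * q‖ ≤ ε * ‖x‖ := by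
  obtain ⟨X, _, _, _, _, S, rfl, hA'⟩ := exists_setup M A hAM hA hAmax
  have hc : IsSelfAdjoint ((‖x‖ : ℝ) : ℂ) := Complex.conj_ofReal _
  have hc' : IsSelfAdjoint ((‖x‖⁻¹ : ℝ) : ℂ) := Complex.conj_ofReal _
  have hn : ‖((‖x‖⁻¹ : ℝ) : ℂ) • x‖ ≤ 1 := by
    rw [norm_smul, Complex.norm_real, norm_inv, norm_norm]
    exact inv_mul_le_one_of_le₀ le_rfl (norm_nonneg _)
  have hxx : ((‖x‖ : ℝ) : ℂ) • ((‖x‖⁻¹ : ℝ) : ℂ) • x = x := by
    by_cases h0 : x = 0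
    · simp [h0]
    · rw [smul_smul, ← Complex.ofReal_mul, mul_inv_cancel₀ (norm_ne_zero_iff.2 h0)]
      simp
  obtain ⟨p, hp, a, ⟨g, rfl⟩, has, han, q, hqM, hq, hqF, hb⟩ := Main43_aux hε hε1 S
    (vn_smul_mem _ hxM) (hc'.smul hx) hn (fun ξ : F => (ξ : H)) hδ
  refine ⟨p, fun i => ⟨(hA' _).2 (hp.mem i), hp.proj i⟩, hp.orth, hp.sum,
    ((‖x‖ : ℝ) : ℂ) • S.ρ g, (hA' _).2 ⟨_, map_smul S.ρ _ _⟩, hc.smul has, ?_, q, hqM, hq,
    fun ξ hξ => hqF ⟨ξ, hξ⟩, ?_⟩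
  · rw [norm_smul, Complex.norm_real, norm_norm]
    exact mul_le_of_le_one_right (norm_nonneg _) han
  · have e : q * (∑ i, p i * x * p i - ((‖x‖ : ℝ) : ℂ) • S.ρ g) * q = ((‖x‖ : ℝ) : ℂ) •
        (q * (∑ i, p i * (((‖x‖⁻¹ : ℝ) : ℂ) • x) * p i - S.ρ g) * q) := by
      rw [← smul_mul_assoc, ← mul_smul_comm, smul_sub, Finset.smul_sum]
      have e' : ∀ i, ((‖x‖ : ℝ) : ℂ) • (p i * (((‖x‖⁻¹ : ℝ) : ℂ) • x) * p i) = p i * x * p i :=
        fun i => by rw [← smul_mul_assoc, ← mul_smul_comm, hxx]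
      simp only [e']
    rw [e, norm_smul, Complex.norm_real, norm_norm, mul_comm]
    exact mul_le_mul_of_nonneg_right hb (norm_nonneg _)

end

end Crest.Agent.R109
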