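import Crest.Agent.R109.Main43

/-!
# Row 109: approximation paving
-/

open Filter Topology
open scoped InnerProductSpace BigOperators ComplexOrder

set_option linter.unusedSectionVars false

namespace Crest.Agent.R109

noncomputable section

open Classical

variable {H : Type*} [NormedAddCommGroup H] [InnerProductSpace ℂ H] [CompleteSpace H]
  {X : Type*} [TopologicalSpace X] [CompactSpace X] [T2Space X] [ExtremallyDisconnected X]

universe u

theorem main44_norm_le {a b : H →L[ℂ] H} (ha : IsSelfAdjoint a) (hb : IsSelfAdjoint b)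
    (h1 : -b ≤ a) (h2 : a ≤ b) : ‖a‖ ≤ ‖b‖ := by
  have h3 : a ≤ algebraMap ℝ (H →L[ℂ] H) ‖b‖ := h2.trans hb.le_algebraMap_norm_self
  have h4 : algebraMap ℝ (H →L[ℂ] H) (-‖b‖) ≤ a := by
    rw [map_neg]
    exact (neg_le_neg hb.le_algebraMap_norm_self).trans h1
  rw [le_algebraMap_iff_spectrum_le ha] at h3
  rw [algebraMap_le_iff_le_spectrum ha] at h4
  conv_lhs => rw [← cfc_id ℝ a]
  exact norm_cfc_le (norm_nonneg _) fun t ht => abs_le.2 ⟨h4 t ht, h3 t ht⟩

theorem main44_conj_le {q x : H →L[ℂ] H} (hq : IsStarProjection q) (hx : IsSelfAdjoint x) :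
    q * x * q ≤ ‖x‖ • q := by
  have := CStarAlgebra.star_left_conjugate_le_norm_smul (a := q) hx
  rwa [hq.isSelfAdjoint.star_eq, hq.isIdempotentElem.eq] at this

theorem main44_neg_le_conj {q x : H →L[ℂ] H} (hq : IsStarProjection q) (hx : IsSelfAdjoint x) :
    -(‖x‖ • q) ≤ q * x * q := by
  have := main44_conj_le hq hx.neg
  rw [norm_neg, mul_neg, neg_mul] at this
  exact neg_le.1 this

theorem main44_sa_conj {q x : H →L[ℂ] H} (hq : IsStarProjection q) (hx : IsSelfAdjoint x) :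
    IsSelfAdjoint (q * x * q) := by
  rw [IsSelfAdjoint, star_mul, star_mul, hq.isSelfAdjoint.star_eq, hx.star_eq, mul_assoc]

theorem IsPart.main44_sa {A : Set (H →L[ℂ] H)} {e : H →L[ℂ] H} {ι : Type*} [Fintype ι]
    {p : ι → H →L[ℂ] H} (hp : IsPart A e p) {x : H →L[ℂ] H} (hx : IsSelfAdjoint x) :
    IsSelfAdjoint (∑ i, p i * x * p i) := by
  rw [IsSelfAdjoint, star_sum]
  exact Finset.sum_congr rfl fun i _ => (main44_sa_conj (hp.proj i) hx).star_eq

theorem IsPart.main44_norm_le {A : Set (H →L[ℂ] H)} {e : H →L[ℂ] H} {ι : Type*} [Fintype ι]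
    {p : ι → H →L[ℂ] H} (hp : IsPart A e p) (he : IsStarProjection e) {x : H →L[ℂ] H}
    (hx : IsSelfAdjoint x) : ‖∑ i, p i * x * p i‖ ≤ ‖x‖ := by
  have h1 : ‖∑ i, p i * x * p i‖ ≤ ‖‖x‖ • e‖ := by
    refine R109.main44_norm_le (hp.main44_sa hx) ((IsSelfAdjoint.all ‖x‖).smul he.isSelfAdjoint)
      ?_ ?_
    · rw [← hp.sum, Finset.smul_sum, ← Finset.sum_neg_distrib]
      exact Finset.sum_le_sum fun i _ => main44_neg_le_conj (hp.proj i) hx
    · rw [← hp.sum, Finset.smul_sum]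
      exact Finset.sum_le_sum fun i _ => main44_conj_le (hp.proj i) hx
  rw [norm_smul, norm_norm] at h1
  exact h1.trans (mul_le_of_le_one_right (norm_nonneg _) (he.norm_le _))

theorem Setup.main44_norm_EP (S : Setup H X) {ι : Type*} [Fintype ι] (c : X → ι)
    {q x : H →L[ℂ] H} (hq : IsStarProjection q) (hx : IsSelfAdjoint x) (hn : ‖x‖ ≤ 1) :
    ‖S.EP c (q * x * q)‖ ≤ ‖S.EP c q‖ := by
  have h0 : ‖x‖ • q ≤ q := by
    have : 0 ≤ (1 - ‖x‖) • q := smul_nonneg (sub_nonneg.2 hn) hq.nonneg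
    rwa [sub_smul, one_smul, sub_nonneg] at this
  refine main44_norm_le ?_ ?_ ?_ ?_
  · rw [IsSelfAdjoint, ← S.EP_star, (main44_sa_conj hq hx).star_eq]
  · rw [IsSelfAdjoint, ← S.EP_star, hq.isSelfAdjoint.star_eq]
  · have h1 : 0 ≤ q * x * q + q := by
      have := (neg_le_neg h0).trans (main44_neg_le_conj hq hx)
      exact neg_le_iff_add_nonneg.1 this
    have h2 := S.EP_nonneg c h1
    rw [S.EP_add] at h2
    exact neg_le_iff_add_nonneg.2 h2
  · have h2 := S.EP_nonneg c (sub_nonneg.2 ((main44_conj_le hq hx).trans h0))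
    rwa [S.EP_sub, sub_nonneg] at h2

/-- Norm one case.  Recipe: `dichotomy` for the family `η i`, `x (η i)` (index `ι ⊕ ι`);
`Sing.exists_proj` with `V = Uᶜ` gives `q' ≤ f`; `Q = e + q'` is a projection close to `1` on the
family; `z = ∑ p i x p i - a`, `g = z r` (selfadjoint, `‖g‖ ≤ 2`, commutes with the `p i`);
`y = Q x Q - g`.  Then `∑ p i y p i = a + z (1 - r)` and
`f (EP c y) f = f EP c (q' x q') f` with `-q' ≤ q' x q' ≤ q'`, so its norm is `≤ ‖EP c q'‖`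
(`EP_nonneg`); `norm_add_le_max`. -/
theorem approx_paving_aux {ε : ℝ} (hε : 0 < ε) (hε1 : ε < 1) {H : Type u} [NormedAddCommGroup H]
    [InnerProductSpace ℂ H] [CompleteSpace H] (S : Setup H X) {x : H →L[ℂ] H} (hxM : x ∈ S.M)
    (hx : IsSelfAdjoint x) (hn : ‖x‖ ≤ 1) {ι : Type*} [Fintype ι] (η : ι → H) {δ : ℝ} (hδ : 0 < δ) :
    ∃ y ∈ S.M, IsSelfAdjoint y ∧ ‖y‖ ≤ 3 ∧ (∀ i, ‖(y - x) (η i)‖ < δ) ∧
      ∃ p : Fin (Nat.ceil (400000000 / ε ^ 2) + Nat.ceil (4 / ε) + 1) → (H →L[ℂ] H),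
        IsPart (Set.range S.ρ) 1 p ∧ ∃ a ∈ Set.range S.ρ, IsSelfAdjoint a ∧
          ‖∑ i, p i * y * p i - a‖ ≤ ε := by
  obtain ⟨L, j, hL, hL1, hL2, hj1, hj2⟩ := exists_L_j hε hε1
  obtain ⟨U, hU, hsing, hd⟩ := dichotomy S (Sum.elim η fun i => x (η i))
  obtain ⟨p, hp, a, haA, ha, han, hea, r, hrM, hr, her, hpr, hzr, hrη, hz⟩ :=
    hd x hxM hx hn L hL (δ / 4) (by positivity)
  have he : IsStarProjection (S.p U) := S.isStarProjection_p U
  have hf : IsStarProjection (S.p Uᶜ) := S.isStarProjection_p Uᶜ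
  have hef1 : S.p Uᶜ = 1 - S.p U := S.p_compl hU
  obtain ⟨c, hc, q, hqM, hq, hfq, hqη, hqc⟩ := Setup.Sing.exists_proj S hsing hU.compl
    (fun i => by rw [← mul_apply_eq_comp, hf.isIdempotentElem.eq]) j
    (γ := min (ε / 2) ((δ / 4) ^ 2)) (by positivity)
  set e := S.p U with hedef
  set f := S.p Uᶜ with hfdef
  set z := ∑ i, p i * x * p i - a with hzdef
  have hef : e * f = 0 := by rw [hef1]; exact he.mul_one_sub_self
  have hfe : f * e = 0 := by rw [hef1]; exact he.one_sub_mul_self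
  have hst : ∀ {u v w : H →L[ℂ] H}, IsSelfAdjoint u → IsSelfAdjoint v → IsSelfAdjoint w →
      u * v = w → v * u = w := by
    intro u v w hu hv hw h
    have := congrArg star h
    rwa [star_mul, hu.star_eq, hv.star_eq, hw.star_eq] at this
  have hqf : q * f = q := hst hf.isSelfAdjoint hq.isSelfAdjoint hq.isSelfAdjoint hfq
  have heq : e * q = 0 := by rw [← hfq, ← mul_assoc, hef, zero_mul]
  have hqe : q * e = 0 := by rw [← hqf, mul_assoc, hfe, mul_zero]
  have hre : r * e = r := hst he.isSelfAdjoint hr.isSelfAdjoint hr.isSelfAdjoint her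
  have hQ : IsStarProjection (e + q) := he.add hq heq
  have hzsa : IsSelfAdjoint z := (hp.main44_sa hx).sub ha
  have hzn : ‖z‖ ≤ 2 := by
    have h1 := hp.main44_norm_le he hx
    have h2 := norm_sub_le (∑ i, p i * x * p i) a
    linarith
  have hez : e * z = z := by
    rw [hzdef, mul_sub, hea, Finset.mul_sum]
    congr 1
    exact Finset.sum_congr rfl fun i _ => by rw [← mul_assoc, ← mul_assoc, (hp.mul_eq i).1]
  have hze : z * e = z := hst he.isSelfAdjoint hzsa hzsa hez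
  have hpM : ∀ i, p i ∈ S.M := fun i => by
    obtain ⟨g, hg⟩ := hp.mem i
    exact hg ▸ S.mem g
  have hzM : z ∈ S.M := by
    obtain ⟨g, hg⟩ := haA
    exact sub_mem (sum_mem fun i _ => mul_mem (mul_mem (hpM i) hxM) (hpM i)) (hg ▸ S.mem g)
  have hpz : ∀ i, p i * z = z * p i := by
    intro i
    have h1 : p i * a = a * p i := by
      obtain ⟨g, hg⟩ := haA
      obtain ⟨g', hg'⟩ := hp.mem i
      rw [← hg, ← hg', S.ρ_comm]
    have h2 : p i * ∑ k, p k * x * p k = p i * x * p i := by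
      rw [Finset.mul_sum, Finset.sum_eq_single i]
      · rw [← mul_assoc, ← mul_assoc, (hp.proj i).isIdempotentElem.eq]
      · intro k _ hk
        rw [← mul_assoc, ← mul_assoc, hp.orth i k hk.symm, zero_mul, zero_mul]
      · simp
    have h3 := hst (hp.proj i).isSelfAdjoint (hp.main44_sa hx) (main44_sa_conj (hp.proj i) hx) h2
    rw [hzdef, mul_sub, sub_mul, h1, h2, h3]
  have hgsa : IsSelfAdjoint (z * r) := by
    rw [IsSelfAdjoint, star_mul, hzsa.star_eq, hr.isSelfAdjoint.star_eq, hzr]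
  have hQη : ∀ i, ‖(1 - (e + q)) (Sum.elim η (fun i => x (η i)) i)‖ ≤ δ / 4 := by
    intro i
    have h1 : 1 - (e + q) = (1 - q) * f := by rw [sub_mul, one_mul, hqf, hef1, sub_sub]
    rw [h1, mul_apply_eq_comp]
    refine (sq_le_sq₀ (norm_nonneg _) (by positivity)).1 (le_trans ?_ (hqη.trans (min_le_right _ _)))
    exact Finset.single_le_sum (f := fun i => ‖(1 - q) (f (Sum.elim η (fun i => x (η i)) i))‖ ^ 2)
      (fun _ _ => sq_nonneg _) (Finset.mem_univ i)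
  have hcl : IsLocallyConstant fun t i => c i t := by
    rw [IsLocallyConstant.iff_continuous]
    exact continuous_pi fun i => (hc i).continuous
  obtain ⟨hcut, hcut'⟩ := S.isPart_cut hcl hU.compl
  have hP := hp.sumElim hef hcut
  rw [show e + S.p Uᶜ = 1 by rw [← hfdef, hef1, add_sub_cancel]] at hP
  obtain ⟨P, hP', hPs⟩ := IsPart.pad (A := Set.range S.ρ) ⟨0, map_zero _⟩ hP
    (r := Nat.ceil (400000000 / ε ^ 2) + Nat.ceil (4 / ε) + 1) (by
      simp only [Fintype.card_sum, Fintype.card_fin, Fintype.card_pi, Fintype.card_bool,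
        Finset.prod_const, Finset.card_univ]
      omega)
  refine ⟨(e + q) * x * (e + q) - z * r, ?_, (main44_sa_conj hQ hx).sub hgsa, ?_, fun i => ?_,
    P, hP', a, haA, ha, ?_⟩
  · have hQM : e + q ∈ S.M := add_mem (S.p_mem U) hqM
    exact sub_mem (mul_mem (mul_mem hQM hxM) hQM) (mul_mem hzM hrM)
  · have h1 : ‖(e + q) * x * (e + q)‖ ≤ 1 * 1 * 1 :=
      (norm_mul_le _ _).trans (mul_le_mul ((norm_mul_le _ _).trans
        (mul_le_mul (hQ.norm_le _) hn (norm_nonneg _) zero_le_one)) (hQ.norm_le _)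
        (norm_nonneg _) (by positivity))
    have h2 : ‖z * r‖ ≤ 2 * 1 :=
      (norm_mul_le _ _).trans (mul_le_mul hzn (hr.norm_le _) (norm_nonneg _) zero_le_two)
    have h3 := norm_sub_le ((e + q) * x * (e + q)) (z * r)
    linarith
  · have h1 : ((e + q) * x * (e + q) - z * r - x) (η i) =
        -(((e + q) * x) ((1 - (e + q)) (η i))) - (1 - (e + q)) (x (η i)) - z (r (η i)) := by
      have : (e + q) * x * (e + q) - z * r - x =
          -((e + q) * x * (1 - (e + q))) - (1 - (e + q)) * x - z * r := by noncomm_ring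
      rw [this]
      rfl
    have h2 : ‖((e + q) * x) ((1 - (e + q)) (η i))‖ ≤ 1 * 1 * (δ / 4) :=
      (ContinuousLinearMap.le_opNorm _ _).trans (mul_le_mul ((norm_mul_le _ _).trans
        (mul_le_mul (hQ.norm_le _) hn (norm_nonneg _) zero_le_one)) (hQη (Sum.inl i))
        (norm_nonneg _) (by positivity))
    have h3 : ‖(1 - (e + q)) (x (η i))‖ ≤ δ / 4 := hQη (Sum.inr i)
    have h4 : ‖z (r (η i))‖ ≤ 2 * ‖r (η i)‖ :=
      (z.le_opNorm _).trans (mul_le_mul_of_nonneg_right hzn (norm_nonneg _))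
    have h5 : ‖r (η i)‖ < δ / 4 := hrη (Sum.inl i)
    rw [h1]
    have h6 := norm_sub_le (-(((e + q) * x) ((1 - (e + q)) (η i))) - (1 - (e + q)) (x (η i)))
      (z (r (η i)))
    have h7 := norm_sub_le (-(((e + q) * x) ((1 - (e + q)) (η i)))) ((1 - (e + q)) (x (η i)))
    rw [norm_neg] at h7
    linarith
  · rw [hPs, Fintype.sum_sum_type]
    simp only [Sum.elim_inl, Sum.elim_inr]
    rw [hcut']
    have h1 : ∑ i, p i * ((e + q) * x * (e + q) - z * r) * p i = a + z * (1 - r) := by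
      have h2 : ∀ i, p i * ((e + q) * x * (e + q) - z * r) * p i =
          p i * x * p i - z * r * p i := by
        intro i
        have h3 : p i * (e + q) = p i := by
          rw [mul_add, (hp.mul_eq i).2, ← (hp.mul_eq i).2, mul_assoc, heq, mul_zero, add_zero]
        have h4 : (e + q) * p i = p i :=
          hst (hp.proj i).isSelfAdjoint hQ.isSelfAdjoint (hp.proj i).isSelfAdjoint h3
        have h5 : p i * (z * r) * p i = z * r * p i := by
          rw [← mul_assoc, hpz, mul_assoc z, hpr, ← mul_assoc, mul_assoc _ (p i) (p i),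
            (hp.proj i).isIdempotentElem.eq]
        rw [mul_sub, sub_mul, h5, ← mul_assoc, ← mul_assoc, h3, mul_assoc _ (e + q), h4]
      rw [Finset.sum_congr rfl fun i _ => h2 i, Finset.sum_sub_distrib, ← Finset.mul_sum, hp.sum,
        mul_assoc z r, hre, mul_sub, mul_one, hzdef]
      abel
    have hEP : ∀ w, f * S.EP (fun t i => c i t) w * f = S.EP (fun t i => c i t) (f * w * f) := by
      intro w
      rw [hfdef, Setup.p, S.EP_mul_ρ, S.EP_ρ_mul]
    have h2 : f * ((e + q) * x * (e + q) - z * r) * f = q * x * q := by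
      have h3 : f * (e + q) = q := by rw [mul_add, hfe, hfq, zero_add]
      have h4 : (e + q) * f = q := by rw [add_mul, hef, hqf, zero_add]
      have h5 : f * z = 0 := by rw [← hez, ← mul_assoc, hfe, zero_mul]
      rw [mul_sub, sub_mul, ← mul_assoc f z, h5, zero_mul, zero_mul, sub_zero, ← mul_assoc,
        ← mul_assoc, h3, mul_assoc _ (e + q), h4]
    rw [h1, hEP, h2, add_assoc, add_sub_cancel_left]
    refine (norm_add_le_max he hf hef ?_ ?_).trans (max_le (hz.trans hL2) ?_)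
    · rw [← mul_assoc, hez, mul_assoc, sub_mul 1 r e, one_mul, hre, mul_sub z, hze, mul_sub z,
        mul_one]
    · rw [hEP, ← mul_assoc, ← mul_assoc, hfq, mul_assoc _ q f, hqf]
    · have h3 := S.main44_norm_EP (fun t i => c i t) hq hx hn
      have h4 := min_le_left (ε / 2) ((δ / 4) ^ 2)
      linarith

theorem approx_paving_one {ε : ℝ} (hε : 0 < ε) (hε1 : ε < 1) {H : Type u} [NormedAddCommGroup H]
    [InnerProductSpace ℂ H] [CompleteSpace H] (S : Setup H X) {x : H →L[ℂ] H} (hxM : x ∈ S.M)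
    (hx : IsSelfAdjoint x) (hn : ‖x‖ = 1) (F : Finset H) {δ : ℝ} (hδ : 0 < δ) :
    ∃ y ∈ S.M, IsSelfAdjoint y ∧ ‖y‖ ≤ 3 ∧ (∀ ξ ∈ F, ‖(y - x) ξ‖ < δ) ∧
      ∃ p : Fin (Nat.ceil (400000000 / (ε / 4) ^ 2) + Nat.ceil (4 / (ε / 4)) + 1) → (H →L[ℂ] H),
        IsPart (Set.range S.ρ) 1 p ∧ ∃ a ∈ Set.range S.ρ, IsSelfAdjoint a ∧ ‖a‖ ≤ ‖y‖ ∧
          ‖∑ i, p i * y * p i - a‖ ≤ ε * ‖y‖ := by
  obtain ⟨η₀, hη₀, hxη₀⟩ := x.exists_lt_apply_of_lt_opNorm (r := 0.9) (by rw [hn]; norm_num)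
  obtain ⟨y, hyM, hy, hyn, hyη, p, hp, a, ⟨g, hg⟩, ha, han⟩ :=
    approx_paving_aux (ε := ε / 4) (by positivity) (by linarith) S hxM hx hn.le
      (fun i : Option F => i.elim η₀ Subtype.val) (δ := min δ 0.1) (by positivity)
  have hy8 : 0.8 ≤ ‖y‖ := by
    have h1 : ‖(y - x) η₀‖ < min δ 0.1 := hyη none
    have h2 := min_le_right δ 0.1
    have h3 : ‖y η₀‖ ≤ ‖y‖ := (y.le_opNorm η₀).trans (mul_le_of_le_one_right (norm_nonneg _) hη₀.le)
    have h4 : x η₀ = y η₀ - (y - x) η₀ := by simp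
    have h5 := norm_sub_le (y η₀) ((y - x) η₀)
    rw [← h4] at h5
    linarith
  have ha1 : ‖a‖ ≤ ‖y‖ + ε / 4 := by
    have h1 := hp.main44_norm_le (IsStarProjection.one _) hy
    have h2 := norm_sub_le (∑ i, p i * y * p i) (∑ i, p i * y * p i - a)
    rw [sub_sub_cancel] at h2
    linarith
  set t : ℝ := ‖y‖ / (‖y‖ + ε / 4) with ht
  have hd : 0 < ‖y‖ + ε / 4 := by positivity
  have ht0 : 0 ≤ t := by positivity
  have ht1 : t * (‖y‖ + ε / 4) = ‖y‖ := div_mul_cancel₀ _ hd.ne'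
  have ht2 : 0 ≤ 1 - t := by rw [sub_nonneg, ht, div_le_one hd]; linarith
  refine ⟨y, hyM, hy, hyn, fun ξ hξ => (hyη (some ⟨ξ, hξ⟩)).trans_le (min_le_left _ _), p, hp,
    (t : ℂ) • a, ⟨(t : ℂ) • g, by rw [map_smul, hg]⟩, IsSelfAdjoint.smul (Complex.conj_ofReal t) ha,
    ?_, ?_⟩
  · rw [norm_smul, Complex.norm_real, Real.norm_of_nonneg ht0, ← ht1]
    exact mul_le_mul_of_nonneg_left ha1 ht0
  · have h1 : ∑ i, p i * y * p i - (t : ℂ) • a =
        (∑ i, p i * y * p i - a) + ((1 - t : ℝ) : ℂ) • a := by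
      push_cast
      rw [sub_smul, one_smul]
      abel
    have h2 : ‖((1 - t : ℝ) : ℂ) • a‖ ≤ ε / 4 := by
      rw [norm_smul, Complex.norm_real, Real.norm_of_nonneg ht2]
      have := mul_le_mul_of_nonneg_left ha1 ht2
      nlinarith
    rw [h1]
    have h3 := norm_add_le (∑ i, p i * y * p i - a) (((1 - t : ℝ) : ℂ) • a)
    nlinarith

/-- Recipe: `R` as in `approx_paving_aux` for `ε/4`, `C = 10^10`.  If `x = 0` take `y = 0`.  Otherwise
scale to `‖x‖ = 1`, add a vector `η₀` with `‖η₀‖ ≤ 1`, `‖x η₀‖ > 0.9` to the family and take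
`δ ≤ 0.1`, so `‖y‖ ≥ 0.8`; `‖a‖ ≤ ‖y‖ + ε/4` (the paving is contractive), replace `a` by
`(‖y‖ / (‖y‖ + ε/4)) a`. -/
theorem approx_paving :
    ∃ C : ℝ, 0 < C ∧ ∀ ε : ℝ, 0 < ε → ε < 1 → ∃ R : ℕ, (R : ℝ) ≤ C / ε ^ 6 ∧
      ∀ (H : Type u) [NormedAddCommGroup H] [InnerProductSpace ℂ H] [CompleteSpace H]
        (M : VonNeumannAlgebra H) (A : StarSubalgebra ℂ (H →L[ℂ] H)),
        A ≤ M.toStarSubalgebra → (∀ a ∈ A, ∀ b ∈ A, a * b = b * a) →
        (∀ y ∈ M, (∀ a ∈ A, a * y = y * a) → y ∈ A) →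
        ∀ x ∈ M, IsSelfAdjoint x → ∀ (F : Finset H) (δ : ℝ), 0 < δ →
          ∃ y ∈ M, IsSelfAdjoint y ∧ ‖y‖ ≤ 3 * ‖x‖ ∧ (∀ ξ ∈ F, ‖(y - x) ξ‖ < δ) ∧
            ∃ p : Fin R → (H →L[ℂ] H),
              (∀ i, p i ∈ A ∧ IsStarProjection (p i)) ∧ (∀ i j, i ≠ j → p i * p j = 0) ∧
              ∑ i, p i = 1 ∧
              ∃ a ∈ A, IsSelfAdjoint a ∧ ‖a‖ ≤ ‖y‖ ∧ ‖∑ i, p i * y * p i - a‖ ≤ ε * ‖y‖ := by
  refine ⟨10000000000, by norm_num, fun ε hε hε1 =>
    ⟨Nat.ceil (400000000 / (ε / 4) ^ 2) + Nat.ceil (4 / (ε / 4)) + 1, ?_, ?_⟩⟩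
  · have h1 := Nat.ceil_lt_add_one (a := 400000000 / (ε / 4) ^ 2) (by positivity)
    have h2 := Nat.ceil_lt_add_one (a := 4 / (ε / 4)) (by positivity)
    have h6 : 0 < ε ^ 6 := by positivity
    have h3 : 400000000 / (ε / 4) ^ 2 ≤ 6400000000 / ε ^ 6 := by
      rw [div_le_div_iff₀ (by positivity) h6]
      have := pow_le_pow_of_le_one hε.le hε1.le (show 2 ≤ 6 by norm_num)
      nlinarith
    have h4 : 4 / (ε / 4) ≤ 16 / ε ^ 6 := by
      rw [div_le_div_iff₀ (by positivity) h6]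
      have := pow_le_pow_of_le_one hε.le hε1.le (show 1 ≤ 6 by norm_num)
      rw [pow_one] at this
      nlinarith
    have h5 : 3 ≤ 3 / ε ^ 6 := by
      rw [le_div_iff₀ h6]
      have := pow_le_one₀ hε.le hε1.le (n := 6)
      nlinarith
    have h7 : 6400000000 / ε ^ 6 + 16 / ε ^ 6 + 3 / ε ^ 6 ≤ 10000000000 / ε ^ 6 := by
      rw [← add_div, ← add_div]
      exact div_le_div_of_nonneg_right (by norm_num) h6.le
    push_cast
    linarith
  · intro H _ _ _ M A hAM hA hAmax x hxM hx F δ hδ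
    obtain ⟨X, _, _, _, _, S, rfl, hS⟩ := exists_setup M A hAM hA hAmax
    by_cases hx0 : x = 0
    · subst hx0
      obtain ⟨y, -, -, -, -, p, hp, -⟩ := approx_paving_aux (ε := ε / 4) (by positivity)
        (by linarith) S hxM hx (by simp) (fun i : Empty => i.elim) one_pos
      exact ⟨0, hxM, hx, by simp, fun ξ _ => by simpa using hδ, p,
        fun i => ⟨(hS _).2 (hp.mem i), hp.proj i⟩, hp.orth, hp.sum, 0, zero_mem _, hx, le_rfl,
        by simp⟩
    · have hc : 0 < ‖x‖ := norm_pos_iff.2 hx0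
      have hnc : ‖((‖x‖ : ℝ) : ℂ)‖ = ‖x‖ := by rw [Complex.norm_real, norm_norm]
      have hcc : ((‖x‖ : ℝ) : ℂ) • ((‖x‖⁻¹ : ℝ) : ℂ) • x = x := by
        rw [smul_smul, ← Complex.ofReal_mul, mul_inv_cancel₀ hc.ne', Complex.ofReal_one, one_smul]
      obtain ⟨y, hyM, hy, hyn, hyF, p, hp, a, ⟨g, hg⟩, ha, han, hpa⟩ :=
        approx_paving_one hε hε1 S (x := ((‖x‖⁻¹ : ℝ) : ℂ) • x) (vn_smul_mem _ hxM)
          (IsSelfAdjoint.smul (Complex.conj_ofReal _) hx)
          (by rw [norm_smul, Complex.norm_real, norm_inv, norm_norm, inv_mul_cancel₀ hc.ne'])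
          F (δ := δ / ‖x‖) (by positivity)
      refine ⟨((‖x‖ : ℝ) : ℂ) • y, vn_smul_mem _ hyM,
        IsSelfAdjoint.smul (Complex.conj_ofReal _) hy, ?_, fun ξ hξ => ?_, p,
        fun i => ⟨(hS _).2 (hp.mem i), hp.proj i⟩, hp.orth, hp.sum, ((‖x‖ : ℝ) : ℂ) • a,
        (hS _).2 ⟨((‖x‖ : ℝ) : ℂ) • g, by rw [map_smul, hg]⟩,
        IsSelfAdjoint.smul (Complex.conj_ofReal _) ha, ?_, ?_⟩
      · rw [norm_smul, hnc, mul_comm]
        exact mul_le_mul_of_nonneg_right hyn hc.le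
      · have h1 : ((‖x‖ : ℝ) : ℂ) • y - x = ((‖x‖ : ℝ) : ℂ) • (y - ((‖x‖⁻¹ : ℝ) : ℂ) • x) := by
          rw [smul_sub, hcc]
        rw [h1, _root_.smul_apply, norm_smul, hnc, mul_comm]
        exact (lt_div_iff₀ hc).1 (hyF ξ hξ)
      · rw [norm_smul, norm_smul, hnc]
        exact mul_le_mul_of_nonneg_left han hc.le
      · have h1 : ∑ i, p i * (((‖x‖ : ℝ) : ℂ) • y) * p i - ((‖x‖ : ℝ) : ℂ) • a =
            ((‖x‖ : ℝ) : ℂ) • (∑ i, p i * y * p i - a) := by
          simp only [mul_smul_comm, smul_mul_assoc, smul_sub, Finset.smul_sum]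
        rw [h1, norm_smul, norm_smul, hnc]
        nlinarith [mul_le_mul_of_nonneg_left hpa hc.le]

end

end Crest.Agent.R109
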