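import Crest.Agent.R109.Kernel

/-!
# Row 109: moments from local form bounds
-/

open Filter Topology
open scoped InnerProductSpace BigOperators ComplexOrder

set_option linter.unusedSectionVars false

namespace Crest.Agent.R109

noncomputable section

open Classical

variable {H : Type*} [NormedAddCommGroup H] [InnerProductSpace ℂ H] [CompleteSpace H]
  {X : Type*} [TopologicalSpace X] [CompactSpace X] [T2Space X] [ExtremallyDisconnected X]

open MeasureTheory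
open scoped Pointwise

/-- polarisation -/
theorem Moment_polar {α : Type*} {Y : α → α → ℂ} (hY : Herm Y) {Λ : Finset α} {t : ℝ}
    (hf : FormLe Y Λ t) (c d : α → ℂ) :
    4 * (∑ s ∈ Λ, ∑ s' ∈ Λ, star (c s) * Y s s' * d s').re ≤
      2 * t * (∑ s ∈ Λ, ‖c s‖ ^ 2 + ∑ s ∈ Λ, ‖d s‖ ^ 2) := by
  have h1 := hf (c + d)
  have h2 := hf (c - d)
  have hsym : ∑ s ∈ Λ, ∑ s' ∈ Λ, star (d s) * Y s s' * c s' =
      star (∑ s ∈ Λ, ∑ s' ∈ Λ, star (c s) * Y s s' * d s') := by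
    rw [Finset.sum_comm, star_sum]
    refine Finset.sum_congr rfl fun s _ => ?_
    rw [star_sum]
    refine Finset.sum_congr rfl fun s' _ => ?_
    rw [hY s' s, star_mul, star_mul, star_star]
    ring
  have hdiff : ∑ s ∈ Λ, ∑ s' ∈ Λ, star ((c + d) s) * Y s s' * (c + d) s' -
      ∑ s ∈ Λ, ∑ s' ∈ Λ, star ((c - d) s) * Y s s' * (c - d) s' =
      2 * ∑ s ∈ Λ, ∑ s' ∈ Λ, star (c s) * Y s s' * d s' +
      2 * ∑ s ∈ Λ, ∑ s' ∈ Λ, star (d s) * Y s s' * c s' := by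
    simp only [Finset.mul_sum, ← Finset.sum_sub_distrib, ← Finset.sum_add_distrib]
    refine Finset.sum_congr rfl fun s _ => Finset.sum_congr rfl fun s' _ => ?_
    simp only [Pi.add_apply, Pi.sub_apply, star_add, star_sub]
    ring
  have hpar : ∑ s ∈ Λ, ‖(c + d) s‖ ^ 2 + ∑ s ∈ Λ, ‖(c - d) s‖ ^ 2 =
      2 * (∑ s ∈ Λ, ‖c s‖ ^ 2 + ∑ s ∈ Λ, ‖d s‖ ^ 2) := by
    simp only [Finset.mul_sum, ← Finset.sum_add_distrib]
    refine Finset.sum_congr rfl fun s _ => ?_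
    simp only [Pi.add_apply, Pi.sub_apply]
    have := parallelogram_law_with_norm ℂ (c s) (d s)
    nlinarith only [this]
  rw [hsym] at hdiff
  have h3 := congrArg Complex.re hdiff
  simp only [Complex.sub_re, Complex.add_re, Complex.star_def, Complex.mul_re, Complex.re_ofNat,
    Complex.im_ofNat, zero_mul, sub_zero, Complex.conj_re] at h3
  have h4 := (Complex.re_le_norm _).trans h1
  have h5 := (neg_le_of_abs_le (Complex.abs_re_le_norm _)).trans' (neg_le_neg h2)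
  simp only [Complex.star_def] at h4 h5 ⊢
  have h6 : t * (∑ s ∈ Λ, ‖(c + d) s‖ ^ 2) + t * (∑ s ∈ Λ, ‖(c - d) s‖ ^ 2) =
      2 * t * (∑ s ∈ Λ, ‖c s‖ ^ 2 + ∑ s ∈ Λ, ‖d s‖ ^ 2) := by
    rw [← mul_add, hpar]; ring
  linarith only [h3, h4, h5, h6]

/-- the operator bound from the form bound -/
theorem Moment_op {α : Type*} {Y : α → α → ℂ} (hY : Herm Y) {Λ : Finset α} {t : ℝ} (ht : 0 ≤ t)
    (hf : FormLe Y Λ t) (w : α → ℂ) :
    ∑ s' ∈ Λ, ‖∑ s ∈ Λ, w s * Y s s'‖ ^ 2 ≤ t ^ 2 * ∑ s ∈ Λ, ‖w s‖ ^ 2 := by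
  have key : ∀ l : ℝ, 4 * (l * ∑ s' ∈ Λ, ‖∑ s ∈ Λ, w s * Y s s'‖ ^ 2) ≤
      2 * t * (l ^ 2 * ∑ s ∈ Λ, ‖w s‖ ^ 2 + ∑ s' ∈ Λ, ‖∑ s ∈ Λ, w s * Y s s'‖ ^ 2) := by
    intro l
    have h := Moment_polar hY hf (fun s => (l : ℂ) * star (w s))
      (fun s' => star (∑ s ∈ Λ, w s * Y s s'))
    have e1 : ∑ s ∈ Λ, ∑ s' ∈ Λ, star ((l : ℂ) * star (w s)) * Y s s' *
        star (∑ s ∈ Λ, w s * Y s s') =
        ((l * ∑ s' ∈ Λ, ‖∑ s ∈ Λ, w s * Y s s'‖ ^ 2 : ℝ) : ℂ) := by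
      rw [Finset.sum_comm]
      push_cast
      rw [Finset.mul_sum]
      refine Finset.sum_congr rfl fun s' _ => ?_
      rw [← Finset.sum_mul, ← Complex.mul_conj', ← mul_assoc, Finset.mul_sum]
      congr 1
      refine Finset.sum_congr rfl fun s _ => ?_
      simp only [star_mul, Complex.star_def, Complex.conj_ofReal, Complex.conj_conj]
      ring
    have e2 : ∑ s ∈ Λ, ‖(l : ℂ) * star (w s)‖ ^ 2 = l ^ 2 * ∑ s ∈ Λ, ‖w s‖ ^ 2 := by
      rw [Finset.mul_sum]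
      refine Finset.sum_congr rfl fun s _ => ?_
      rw [norm_mul, norm_star, mul_pow, Complex.norm_real, Real.norm_eq_abs, sq_abs]
    simp only [norm_star] at h
    rw [e1, e2, Complex.ofReal_re] at h
    exact h
  have hU : 0 ≤ ∑ s' ∈ Λ, ‖∑ s ∈ Λ, w s * Y s s'‖ ^ 2 := by positivity
  rcases ht.eq_or_lt with rfl | ht'
  · have := key 1
    linarith only [this]
  · have := key t
    refine le_of_mul_le_mul_left ?_ ht'
    nlinarith only [this]

namespace Std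
variable (S : Std H X)

theorem Moment_mul {V W : Finset S.Nrm} {y z : H →L[ℂ] H} (hy : y ∈ S.NV V) (hz : z ∈ S.NV W) :
    y * z ∈ S.NV (V * W : Finset S.Nrm) := by
  have h : S.NV V * S.NV W ≤ S.NV (V * W : Finset S.Nrm) := by
    unfold NV
    rw [Submodule.span_mul_span]
    refine Submodule.span_mono ?_
    rintro _ ⟨_, ⟨g, hg, f, rfl⟩, _, ⟨g', hg', f', rfl⟩, rfl⟩
    refine ⟨g * g', Finset.mem_coe.2 (Finset.mul_mem_mul hg hg'),
      f.comp ⟨g'.θ, g'.θ.continuous⟩ * f', ?_⟩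
    show g.u * S.ρ f * (g'.u * S.ρ f') = _
    rw [Nrm.mul_u, map_mul, mul_assoc, ← mul_assoc (S.ρ f), Nrm.ρ_mul]
    simp only [mul_assoc]
  exact h (Submodule.mul_mem_mul hy hz)

theorem Moment_ρ_mem (f : C(X, ℂ)) : S.ρ f ∈ S.NV (1 : Finset S.Nrm) :=
  Submodule.subset_span ⟨1, by simp, f, by simp⟩

theorem Moment_pow {V : Finset S.Nrm} {y : H →L[ℂ] H} (hy : y ∈ S.NV V) (n : ℕ) :
    y ^ n ∈ S.NV (V ^ n : Finset S.Nrm) := by
  induction n with
  | zero =>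
    rw [pow_zero, pow_zero, ← map_one S.ρ]
    exact S.Moment_ρ_mem 1
  | succ n ih =>
    rw [pow_succ, pow_succ]
    exact S.Moment_mul ih hy

theorem Moment_EP {V : Finset S.Nrm} {y : H →L[ℂ] H} (hy : y ∈ S.NV V) {ι : Type*} [Fintype ι]
    (a : X → ι) : S.EP a y ∈ S.NV V := by
  refine Submodule.sum_mem _ fun i _ => ?_
  have := S.Moment_mul (S.Moment_mul (S.Moment_ρ_mem (ind (a ⁻¹' {i}))) hy)
    (S.Moment_ρ_mem (ind (a ⁻¹' {i})))
  rwa [one_mul, mul_one] at this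

theorem Moment_mem_M {V : Set S.Nrm} {y : H →L[ℂ] H} (hy : y ∈ S.NV V) : y ∈ S.M :=
  S.N0_mem_M (S.NV_mono (Set.subset_univ _) hy)

/-- Moments from the local form bound.  Recipe: `z = EP a y ∈ NV V`; `x j s = ker (z ^ j) s o` is
supported in the ball of radius `j` and in the class of `o` (`ker_supp`-like induction with `ker_mul`
and `ker_herm`, `ker_EP`), `x (j+1) = Z x j` on `Λ`; polarisation turns `FormLe` into
`‖Z x‖ ≤ t ‖x‖` on `Λ` (Hermitian matrix; e.g. `IsSymmetric` Rayleigh quotient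
`ContinuousLinearMap.norm_eq_iSup_rayleighQuotient`, or the parallelogram trick); finally
`E (z ^ (2n)) o = ker (z^n z^n) o o = ∑ ‖x n s‖²` (`ker_mul` for `z ^ n ∈ NV (V ^ n)`). -/
theorem E_pow_le {V : Finset S.Nrm} (h1 : 1 ∈ V) (hinv : ∀ v ∈ V, v⁻¹ ∈ V) {y : H →L[ℂ] H}
    (hy : y ∈ S.NV V) (hsa : IsSelfAdjoint y) {r : ℕ} {a : X → Fin r} (ha : IsLocallyConstant a)
    (n : ℕ) {t : ℝ} (ht : 0 ≤ t) (o : X)
    (hf : FormLe (S.ker y) (((V ^ n).image (· • o)).filter (a · = a o)) t) :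
    (S.E (S.EP a y ^ (2 * n)) o).re ≤ t ^ (2 * n) := by
  set z := S.EP a y with hz
  set Λ := ((V ^ n).image (· • o)).filter (a · = a o) with hΛ
  have hyM : y ∈ S.M := S.Moment_mem_M hy
  have hzV : z ∈ S.NV V := S.Moment_EP hy a
  have hzM : ∀ j, z ^ j ∈ S.M := fun j => pow_mem (S.Moment_mem_M hzV) j
  have hzsa : IsSelfAdjoint z := by
    show star z = z
    rw [hz, ← S.EP_star, hsa.star_eq]
  have hrec : ∀ j s, S.ker (z ^ (j + 1)) o s =
      ∑ s' ∈ V.image (· • s), S.ker (z ^ j) o s' * S.ker z s' s := fun j s => by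
    rw [pow_succ, S.ker_mul hzV (hzM j)]
  have hsupp : ∀ j s, S.ker (z ^ j) o s ≠ 0 → (∃ g ∈ V ^ j, g • o = s) ∧ a s = a o := by
    intro j
    induction j with
    | zero =>
      intro s hs
      rw [pow_zero, S.ker_one] at hs
      have : o = s := by by_contra h; exact hs (if_neg h)
      subst this
      exact ⟨⟨1, by simp, one_smul _ _⟩, rfl⟩
    | succ j ih =>
      intro s hs
      rw [hrec] at hs
      obtain ⟨s', hs', hne⟩ := Finset.exists_ne_zero_of_sum_ne_zero hs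
      obtain ⟨v, hv, rfl⟩ := Finset.mem_image.1 hs'
      obtain ⟨⟨g, hg, hgo⟩, hao⟩ := ih _ (left_ne_zero_of_mul hne)
      have h2 := right_ne_zero_of_mul hne
      rw [hz, S.ker_EP ha hyM] at h2
      have h3 : a (v • s) = a s := by by_contra h; exact h2 (if_neg h)
      refine ⟨⟨v⁻¹ * g, ?_, ?_⟩, h3.symm.trans hao⟩
      · rw [pow_succ']
        exact Finset.mul_mem_mul (hinv v hv) hg
      · rw [mul_smul, hgo, inv_smul_smul]
  have hsuppΛ : ∀ j ≤ n, ∀ s, S.ker (z ^ j) o s ≠ 0 → s ∈ Λ := by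
    intro j hj s hs
    obtain ⟨⟨g, hg, hgo⟩, hao⟩ := hsupp j s hs
    exact Finset.mem_filter.2
      ⟨Finset.mem_image.2 ⟨g, Finset.pow_subset_pow_right h1 hj hg, hgo⟩, hao⟩
  have hrec' : ∀ j ≤ n, ∀ s ∈ Λ, S.ker (z ^ (j + 1)) o s =
      ∑ s' ∈ Λ, S.ker (z ^ j) o s' * S.ker y s' s := by
    intro j hj s hs
    have has : a s = a o := (Finset.mem_filter.1 hs).2
    have e : ∑ s' ∈ Λ, S.ker (z ^ j) o s' * S.ker y s' s =
        ∑ s' ∈ Λ, S.ker (z ^ j) o s' * S.ker z s' s := by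
      refine Finset.sum_congr rfl fun s' hs' => ?_
      rw [hz, S.ker_EP ha hyM, if_pos ((Finset.mem_filter.1 hs').2.trans has.symm)]
    rw [hrec, e]
    refine Finset.sum_congr_of_eq_on_inter ?_ ?_ fun _ _ _ => rfl
    · intro s' _ hs'
      have : S.ker (z ^ j) o s' = 0 := by
        by_contra h; exact hs' (hsuppΛ j hj s' h)
      rw [this, zero_mul]
    · intro s' _ hs'
      have : S.ker z s' s = 0 := by
        by_contra h
        obtain ⟨v, hv, rfl⟩ := S.ker_supp hzV h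
        exact hs' (Finset.mem_image.2 ⟨v, hv, rfl⟩)
      rw [this, mul_zero]
  have hN : ∀ j ≤ n, ∑ s ∈ Λ, ‖S.ker (z ^ j) o s‖ ^ 2 ≤ t ^ (2 * j) := by
    intro j
    induction j with
    | zero =>
      intro _
      simp only [pow_zero, S.ker_one, mul_zero]
      have : ∀ s, ‖(if o = s then (1 : ℂ) else 0)‖ ^ 2 = if o = s then (1 : ℝ) else 0 := by
        intro s; split_ifs <;> simp
      simp only [this, Finset.sum_ite_eq]
      split_ifs <;> norm_num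
    | succ j ih =>
      intro hj
      have hj' : j ≤ n := by omega
      calc ∑ s ∈ Λ, ‖S.ker (z ^ (j + 1)) o s‖ ^ 2
          = ∑ s ∈ Λ, ‖∑ s' ∈ Λ, S.ker (z ^ j) o s' * S.ker y s' s‖ ^ 2 :=
            Finset.sum_congr rfl fun s hs => by rw [hrec' j hj' s hs]
        _ ≤ t ^ 2 * ∑ s ∈ Λ, ‖S.ker (z ^ j) o s‖ ^ 2 := Moment_op (S.ker_herm hyM hsa) ht hf _
        _ ≤ t ^ 2 * t ^ (2 * j) := by gcongr; exact ih hj'
        _ = _ := by ring
  refine le_trans (le_of_eq ?_) (hN n le_rfl)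
  rw [← S.ker_diag (hzM _), two_mul, pow_add, S.ker_mul (S.Moment_pow hzV n) (hzM n),
    Complex.re_sum]
  refine Finset.sum_congr_of_eq_on_inter ?_ ?_ ?_
  · intro s' _ hs'
    have : S.ker (z ^ n) o s' = 0 := by
      by_contra h; exact hs' (hsuppΛ n le_rfl s' h)
    rw [this, zero_mul, Complex.zero_re]
  · intro s' hs' hs''
    exact absurd (Finset.mem_filter.1 hs').1 hs''
  · intro s' _ _
    rw [S.ker_herm (hzM n) (hzsa.pow n) s' o, Complex.star_def, Complex.mul_conj',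
      ← Complex.ofReal_pow, Complex.ofReal_re]

end Std

end

end Crest.Agent.R109
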