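import Crest.Agent.R109.Fix
import Crest.Agent.R109.GDefs

/-!
# Row 109: the measure on the spectrum
-/

open Filter Topology
open scoped InnerProductSpace BigOperators ComplexOrder

set_option linter.unusedSectionVars false

namespace Crest.Agent.R109

noncomputable section

open Classical

variable {H : Type*} [NormedAddCommGroup H] [InnerProductSpace ℂ H] [CompleteSpace H]
  {X : Type*} [TopologicalSpace X] [CompactSpace X] [T2Space X] [ExtremallyDisconnected X]

open MeasureTheory

/-- a real function as a complex one -/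
def Mu_of (f : C(X, ℝ)) : C(X, ℂ) := ⟨fun t => (f t : ℂ), by fun_prop⟩

theorem Mu_of_apply (f : C(X, ℝ)) (t : X) : Mu_of f t = (f t : ℂ) := rfl

theorem Mu_φ_add (S : Std H X) (f g : C(X, ℂ)) :
    S.φ (S.ρ (f + g)) = S.φ (S.ρ f) + S.φ (S.ρ g) := by
  simp [Std.φ]

theorem Mu_φ_smul (S : Std H X) (c : ℂ) (f : C(X, ℂ)) :
    S.φ (S.ρ (c • f)) = c * S.φ (S.ρ f) := by
  simp [Std.φ]

theorem Mu_φ_real (S : Std H X) (f : C(X, ℝ)) :
    ((S.φ (S.ρ (Mu_of f))).re : ℂ) = S.φ (S.ρ (Mu_of f)) := by
  have h1 : star (Mu_of f) = Mu_of f := by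
    ext t
    simp [Mu_of_apply]
  have h2 : star (S.ρ (Mu_of f)) = S.ρ (Mu_of f) := by rw [← map_star, h1]
  rw [← Complex.conj_eq_iff_re, Std.φ, inner_conj_symm, ← ContinuousLinearMap.adjoint_inner_right,
    ← ContinuousLinearMap.star_eq_adjoint, h2]

open CompactlySupported in
theorem Mu_borel [MeasurableSpace X] [BorelSpace X] (S : Std H X) :
    ∃ ν : Measure X, IsFiniteMeasure ν ∧ ∀ f : C(X, ℂ), ∫ t, f t ∂ν = S.φ (S.ρ f) := by
  let Λ : C_c(X, ℝ) →ₚ[ℝ] ℝ :=
    { toFun := fun f => (S.φ (S.ρ (Mu_of f.toContinuousMap))).re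
      map_add' := fun f g => by
        rw [← Complex.add_re, ← Mu_φ_add]
        congr 3
        ext t
        simp [Mu_of_apply]
      map_smul' := fun c f => by
        rw [RingHom.id_apply, smul_eq_mul, ← Complex.re_ofReal_mul, ← Mu_φ_smul]
        congr 3
        ext t
        simp [Mu_of_apply]
      monotone' := fun f g hfg => by
        have h1 : Mu_of g.toContinuousMap =
            Mu_of f.toContinuousMap + Mu_of (g.toContinuousMap - f.toContinuousMap) := by
          ext t
          simp [Mu_of_apply]
        have h2 := S.φ_ρ_nonneg (f := Mu_of (g.toContinuousMap - f.toContinuousMap)) fun t =>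
          Complex.zero_le_real.2 (sub_nonneg.2 (hfg t))
        change (S.φ (S.ρ (Mu_of f.toContinuousMap))).re ≤ (S.φ (S.ρ (Mu_of g.toContinuousMap))).re
        rw [h1, Mu_φ_add, Complex.add_re]
        exact le_add_of_nonneg_right (Complex.nonneg_iff.1 h2).1 }
  have key : ∀ f : C(X, ℝ), ∫ t, Mu_of f t ∂(RealRMK.rieszMeasure Λ) = S.φ (S.ρ (Mu_of f)) := by
    intro f
    have := RealRMK.integral_rieszMeasure Λ ⟨f, HasCompactSupport.of_compactSpace _⟩
    rw [← Mu_φ_real]
    simp only [Mu_of_apply]
    rw [integral_complex_ofReal]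
    exact congrArg _ this
  refine ⟨RealRMK.rieszMeasure Λ, inferInstance, fun f => ?_⟩
  have int : ∀ g : C(X, ℂ), Integrable (fun t => g t) (RealRMK.rieszMeasure Λ) := fun g =>
    g.continuous.integrable_of_hasCompactSupport (HasCompactSupport.of_compactSpace _)
  let a : C(X, ℝ) := ⟨fun t => (f t).re, by fun_prop⟩
  let b : C(X, ℝ) := ⟨fun t => (f t).im, by fun_prop⟩
  have e : f = Mu_of a + Complex.I • Mu_of b := by
    ext t
    simp [Mu_of_apply, a, b, mul_comm Complex.I]
  rw [e, Mu_φ_add, Mu_φ_smul, ← key, ← key, ← integral_const_mul,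
    ← integral_add (int _) ((int _).const_mul _)]
  rfl

section Clopen
variable [MeasurableSpace X] [ClopenSpace X]

theorem measurableSet_clopen {U : Set X} (hU : IsClopen U) : MeasurableSet U :=
  (ClopenSpace.eq (X := X)).ge _ (MeasurableSpace.measurableSet_generateFrom hU)

/-- uniform limits of locally constant functions (`exists_lc_approx`) -/
theorem measurable_cont (f : C(X, ℂ)) : Measurable f := by
  choose Q c h using fun n : ℕ => exists_lc_approx f (Nat.one_div_pos_of_nat (n := n))
  refine measurable_of_tendsto_metrizable (f := fun n t => c n ((Q n).proj t)) (fun n => ?_)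
    (tendsto_pi_nhds.2 fun t => ?_)
  · exact FM.measurable_cases (f := (Q n).proj)
      (fun b => measurableSet_clopen ((Q n).proj_isLocallyConstant.isClopen_fiber b))
      (Set.toFinite _) (G := fun b _ => c n b) fun b => measurable_const
  · rw [tendsto_iff_norm_sub_tendsto_zero]
    refine squeeze_zero (fun _ => norm_nonneg _) (fun n => ?_)
      tendsto_one_div_add_atTop_nhds_zero_nat
    rw [norm_sub_rev]
    exact h n t

theorem measurable_cont_real (f : C(X, ℝ)) : Measurable f :=
  Complex.measurable_re.comp (measurable_cont (Mu_of f))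

theorem measurable_homeo (θ : X ≃ₜ X) : Measurable θ :=
  (measurable_generateFrom (s := {U : Set X | IsClopen U}) fun _ hU =>
    measurableSet_clopen (IsClopen.preimage hU θ.continuous)).mono le_rfl
      (ClopenSpace.eq (X := X)).le

theorem fm_of_lc {β : Type*} {f : X → β} (hf : IsLocallyConstant f) : FM f :=
  fun b => measurableSet_clopen (hf.isClopen_fiber b)

/-- Recipe: `Measure.MeasureDense.of_generateFrom_isSetAlgebra_finite` gives clopen sets `U b` close
to the fibres; let `f' t` be the first `b` (for `Fintype.equivFin`) with `t ∈ U b`, or a default. -/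
theorem exists_lc_approx_fm (μ : Measure X) [IsFiniteMeasure μ] {β : Type*} [Finite β]
    [Nonempty β] {f : X → β} (hf : FM f) {δ : ℝ} (hδ : 0 < δ) :
    ∃ f' : X → β, IsLocallyConstant f' ∧ MeasurableSet {t | f' t ≠ f t} ∧
      μ.real {t | f' t ≠ f t} ≤ δ := by
  have := Fintype.ofFinite β
  have hd : μ.MeasureDense {U : Set X | IsClopen U} :=
    Measure.MeasureDense.of_generateFrom_isSetAlgebra_finite μ
      ⟨isClopen_empty, fun _ h => IsClopen.compl h, fun _ _ h h' => IsClopen.union h h'⟩
      ClopenSpace.eq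
  have hc : (0 : ℝ) < Fintype.card β := by exact_mod_cast Fintype.card_pos
  choose U hU hμ using fun b => hd.approx _ (hf b) (measure_ne_top _ _) _ (div_pos hδ hc)
  let F : (β → Prop) → β := fun p => if h : ∃ b, p b then h.choose else Classical.arbitrary β
  have hσ : IsLocallyConstant fun t b => t ∈ U b := by
    rw [IsLocallyConstant.iff_eventually_eq]
    intro t
    simp only [funext_iff]
    refine eventually_all.2 fun b => ?_
    have hb : IsClopen (U b) := hU b
    by_cases ht : t ∈ U b
    · filter_upwards [hb.isOpen.mem_nhds ht] with s hs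
      simp [ht, hs]
    · filter_upwards [hb.compl.isOpen.mem_nhds ht] with s hs
      have : s ∉ U b := hs
      simp [ht, this]
  have hlc : IsLocallyConstant fun t => F fun b => t ∈ U b := hσ.comp F
  refine ⟨_, hlc, ((fm_of_lc hlc).prod hf).set fun p => p.1 ≠ p.2, ?_⟩
  have hsub : {t | (F fun b => t ∈ U b) ≠ f t} ⊆ ⋃ b, symmDiff {t | f t = b} (U b) := by
    intro t ht
    by_contra hn
    simp only [Set.mem_iUnion, Set.mem_symmDiff, Set.mem_ofPred_eq, not_exists, not_or, not_and,
      not_not] at hn
    have he : ∃ b, t ∈ U b := ⟨_, (hn _).1 rfl⟩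
    refine ht ?_
    simp only [F]
    rw [dif_pos he]
    exact ((hn _).2 he.choose_spec).symm
  refine (measureReal_mono hsub).trans ((measureReal_iUnion_fintype_le _).trans ?_)
  refine (Finset.sum_le_card_nsmul _ _ (δ / Fintype.card β) fun b _ => ?_).trans ?_
  · exact ENNReal.toReal_le_of_le_ofReal (div_pos hδ hc).le (hμ b).le
  · rw [Finset.card_univ, nsmul_eq_mul, mul_div_cancel₀ _ hc.ne']

namespace Std
variable (S : Std H X)

/-- `μ` represents the state on `A` -/
def IsMu (μ : Measure X) : Prop := ∀ f : C(X, ℂ), ∫ t, f t ∂μ = S.φ (S.ρ f)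

/-- Recipe: `RealRMK.rieszMeasure` for the Borel structure and the positive functional
`f ↦ re φ (ρ f)` on `C_c(X, ℝ)`, then `Measure.trim` (`integral_trim`); real and imaginary parts. -/
theorem exists_mu : ∃ μ : Measure X, IsFiniteMeasure μ ∧ S.IsMu μ := by
  obtain ⟨ν, hν, h⟩ := @Mu_borel H _ _ _ X _ _ _ _ (borel X) (@BorelSpace.mk X _ (borel X) rfl) S
  have hle : ‹MeasurableSpace X› ≤ borel X := by
    refine (ClopenSpace.eq (X := X)).le.trans (MeasurableSpace.generateFrom_le fun U hU => ?_)
    exact MeasurableSpace.measurableSet_generateFrom (IsClopen.isOpen hU)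
  refine ⟨ν.trim hle, isFiniteMeasure_trim hle, fun f => ?_⟩
  rw [← integral_trim hle (measurable_cont f).stronglyMeasurable, h]

theorem IsMu.univ {μ : Measure X} [IsFiniteMeasure μ] (h : S.IsMu μ) :
    μ.real Set.univ = ‖S.ξ‖ ^ 2 := by
  have := h 1
  simp only [ContinuousMap.one_apply, integral_const, map_one, φ, one_apply_eq_self,
    inner_self_eq_norm_sq_to_K, Complex.real_smul, mul_one] at this
  exact Complex.ofReal_injective (by rw [this, Complex.ofReal_pow]; rfl)

/-- Recipe: `ext_of_generate_finite` on the π-system of clopen sets; `g.rn` for `ind (θ⁻¹ U)`. -/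
theorem IsMu.transport {μ : Measure X} [IsFiniteMeasure μ] (h : S.IsMu μ) (g : S.Nrm) :
    Measure.map (fun t : X => g • t) (μ.withDensity fun t => ENNReal.ofReal (g.d t)) = μ := by
  have hm : Measurable fun t : X => g • t := measurable_homeo g.θ
  have key : ∀ U : Set X, IsClopen U → μ U =
      Measure.map (fun t : X => g • t) (μ.withDensity fun t => ENNReal.ofReal (g.d t)) U := by
    intro U hU
    have hV : IsClopen ((fun t : X => g • t) ⁻¹' U) := hU.preimage g.continuous_smul
    have mU := measurableSet_clopen hU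
    have mV := measurableSet_clopen hV
    have hint : Integrable (fun t => g.d t) μ :=
      Integrable.of_bound (measurable_cont_real g.d).aestronglyMeasurable ‖g.d‖
        (Eventually.of_forall fun t => g.d.norm_coe_le_norm t)
    rw [Measure.map_apply hm mU, withDensity_apply _ mV,
      ← ofReal_integral_eq_lintegral_ofReal hint.integrableOn
        (Eventually.of_forall fun t => (g.pos t).le), ← ofReal_measureReal]
    congr 1
    have e := g.rn (ind ((fun t : X => g • t) ⁻¹' U))
    rw [g.conj', ← h, ← h] at e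
    have e1 : (fun t => ((ind ((fun t : X => g • t) ⁻¹' U)).comp
        ⟨g.θ.symm, g.θ.symm.continuous⟩) t) = fun t => ((U.indicator (1 : X → ℝ) t : ℝ) : ℂ) := by
      funext t
      rw [ContinuousMap.comp_apply, ind_apply hV]
      by_cases ht : t ∈ U <;> simp [ht, Nrm.smul_def]
    have e2 : (fun t => (ind ((fun t : X => g • t) ⁻¹' U) *
        (⟨fun t => (g.d t : ℂ), by fun_prop⟩ : C(X, ℂ))) t) =
        fun t => ((((fun t : X => g • t) ⁻¹' U).indicator (fun t => g.d t) t : ℝ) : ℂ) := by
      funext t
      rw [ContinuousMap.mul_apply, ind_apply hV]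
      by_cases ht : t ∈ (fun t : X => g • t) ⁻¹' U <;> simp [ht]
    rw [e1, e2, integral_complex_ofReal, integral_complex_ofReal, integral_indicator_one mU,
      integral_indicator mV] at e
    exact_mod_cast e
  exact (ext_of_generate_finite {U : Set X | IsClopen U} ClopenSpace.eq
    (fun U hU V hV _ => IsClopen.inter hU hV) key (key _ isClopen_univ)).symm

end Std

end Clopen

end

end Crest.Agent.R109
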