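import Crest.Agent.R109.Moment
import Crest.Agent.R109.GPave

/-!
# Row 109: paving in the presence of a central separating vector
-/

open Filter Topology
open scoped InnerProductSpace BigOperators ComplexOrder

set_option linter.unusedSectionVars false

namespace Crest.Agent.R109

noncomputable section

open Classical

variable {H : Type*} [NormedAddCommGroup H] [InnerProductSpace ℂ H] [CompleteSpace H]
  {X : Type*} [TopologicalSpace X] [CompactSpace X] [T2Space X] [ExtremallyDisconnected X]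

open MeasureTheory

theorem Normal_lc_pi {Z ι β : Type*} [TopologicalSpace Z] [Finite ι] {f : Z → ι → β}
    (hf : ∀ i, IsLocallyConstant fun z => f z i) : IsLocallyConstant f := by
  rw [IsLocallyConstant.iff_eventually_eq]
  intro x
  filter_upwards [Filter.eventually_all.2 fun i => (hf i).eventually_eq x] with z hz
  exact funext hz

theorem Normal_lc_mem {Z : Type*} [TopologicalSpace Z] {U : Set Z} (hU : IsClopen U) :
    IsLocallyConstant fun z => z ∈ U := by
  rw [IsLocallyConstant.iff_eventually_eq]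
  intro x
  by_cases hx : x ∈ U
  · filter_upwards [hU.isOpen.mem_nhds hx] with z hz
    exact propext (iff_of_true hz hx)
  · filter_upwards [hU.compl.isOpen.mem_nhds hx] with z hz
    exact propext (iff_of_false hz hx)

namespace Std
variable (S : Std H X)

theorem Normal_moment [MeasurableSpace X] [ClopenSpace X] {μ : Measure X} [IsFiniteMeasure μ]
    (hμ : S.IsMu μ) {z : H →L[ℂ] H} (hz : z ∈ S.M) (hsa : IsSelfAdjoint z) (hn : ‖z‖ ≤ 1) (n : ℕ)
    {B : Set X} (hB : MeasurableSet B) {c : ℝ} (hc : 0 ≤ c)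
    (h : ∀ o, o ∉ B → (S.E (z ^ (2 * n)) o).re ≤ c) :
    ‖(z ^ n) S.ξ‖ ^ 2 ≤ c * ‖S.ξ‖ ^ 2 + μ.real B := by
  have hm : z ^ (2 * n) ∈ S.M := pow_mem hz _
  have hp : ∀ k : ℕ, ‖z ^ k‖ ≤ 1 := fun k => by
    induction k with
    | zero => exact ContinuousLinearMap.norm_id_le
    | succ k ih =>
      rw [pow_succ]
      exact (norm_mul_le _ _).trans (mul_le_one₀ ih (norm_nonneg _) hn)
  set f := S.E (z ^ (2 * n)) with hf
  have hi : Integrable f μ := Integrable.of_bound (measurable_cont f).aestronglyMeasurable ‖f‖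
    (ae_of_all _ fun t => f.norm_coe_le_norm t)
  have h1 : ‖(z ^ n) S.ξ‖ ^ 2 = ∫ o, (f o).re ∂μ := by
    have e : ∫ o, (f o).re ∂μ = (∫ o, f o ∂μ).re := integral_re hi
    rw [e, hμ, hf, S.φ_E hm, two_mul, pow_add, ← (hsa.pow n).star_eq, ← inner_self_eq_norm_sq (𝕜 := ℂ),
      S.inner_eq_φ, (hsa.pow n).star_eq, (hsa.pow n).star_eq]
    rfl
  have h2 : Integrable (B.indicator fun _ => (1 : ℝ)) μ := (integrable_const _).indicator hB
  calc ‖(z ^ n) S.ξ‖ ^ 2 ≤ ∫ o, (c + B.indicator (fun _ => (1 : ℝ)) o) ∂μ := by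
        rw [h1]
        refine integral_mono hi.re ((integrable_const _).add h2) fun o => ?_
        by_cases ho : o ∈ B
        · have := (Complex.re_le_norm (f o)).trans ((f.norm_coe_le_norm o).trans
            ((S.norm_E_le hm).trans (hp _)))
          simp only [Set.indicator_of_mem ho]
          linarith
        · simpa only [Set.indicator_of_notMem ho, add_zero] using h o ho
    _ = _ := by
        rw [integral_add (integrable_const _) h2, integral_const, integral_indicator hB,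
          setIntegral_const, hμ.univ, smul_eq_mul, smul_eq_mul, mul_one, mul_comm]

/-- Paving of the crossed-product part by a local rule.  Recipe: `letI` the clopen measurable
structure, `exists_mu`, `exists_finset_NV`, `exists_graph`, `GraphData.paving`.  Approximate
`o ↦ Φ o : X → ((W → Fin L) → Fin (2L))` (`FM.pi`) by a locally constant `Φ'`
(`exists_lc_approx_fm`), and on the clopen set where the injectivity property fails for `Φ'`
replace it by `ℓ ↦ castLE (ℓ g₀)` if some `g₀ ∈ W` fixes `o` (there is one unless `L = 1`; simply add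
the index: use `ι = Option W`, `w none = 1`).  Outside `Bad` and the points whose ball meets
`{Φ' ≠ Φ}` (`measure_ball_meets_le`) use `E_pow_le`; elsewhere `|E (z ^ (2n))| ≤ 1`;
`‖z ^ n ξ‖² = ∫ E (z ^ (2n)) dμ`.  (Reindex by `Fin (card _)` to land in `Type`.) -/
theorem nrm_paving {y : H →L[ℂ] H} (hy : y ∈ S.N0) (hsa : IsSelfAdjoint y) (hE : S.E y = 0)
    (hn : ‖y‖ ≤ 1) {L : ℕ} (hL : 0 < L) {t δ : ℝ} (ht : 7000 / √(2 * L) < t) (hδ : 0 < δ)
    (n : ℕ) :
    ∃ (ι : Type) (_ : Fintype ι) (w : ι → S.Nrm) (Φ : X → (ι → Fin L) → Fin (2 * L)),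
      (∀ ℓ, IsLocallyConstant fun s => Φ s ℓ) ∧
      (∀ (s : X) (ℓ : ι → Fin L), Function.Injective fun l : Fin L =>
        Φ s (fun i => if w i • s = s then l else ℓ i)) ∧
      ∀ lam : X → Fin L, IsLocallyConstant lam →
        ‖(S.EP (fun s : X => Φ s fun i => lam (w i • s)) y ^ n) S.ξ‖ ^ 2 ≤
          t ^ (2 * n) * ‖S.ξ‖ ^ 2 + δ := by
  let _ : MeasurableSpace X := MeasurableSpace.generateFrom {U | IsClopen U}
  have : ClopenSpace X := ⟨rfl⟩
  have : Nonempty (Fin (2 * L)) := ⟨⟨0, by omega⟩⟩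
  have ht0 : 0 ≤ t := le_trans (by positivity) ht.le
  obtain ⟨μ, _, hμ⟩ := S.exists_mu
  obtain ⟨V, h1, hinv, hV⟩ := S.exists_finset_NV hy
  obtain ⟨G, rfl, hY⟩ := S.exists_graph hμ h1 hinv hV hsa hE hn
  obtain ⟨W, Φ, hΦ1, hΦ2, hΦ3⟩ := G.paving hL ht (half_pos hδ) n
  set C : ℝ := G.V.card ^ n * Real.exp (n * G.T) with hC
  have hC0 : 0 ≤ C := by positivity
  obtain ⟨Φ', hl, hD, hDμ⟩ := exists_lc_approx_fm μ (f := Φ) (FM.pi hΦ1)
    (δ := δ / 2 / (C + 1)) (by positivity)
  let P : (W → Prop) → ((W → Fin L) → Fin (2 * L)) → Prop := fun F φ =>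
    ∀ ℓ : W → Fin L, Function.Injective fun l : Fin L => φ fun g => if F g then l else ℓ g
  let F : X → W → Prop := fun o g => (g : S.Nrm) • o = o
  have hF : IsLocallyConstant F := Normal_lc_pi fun g => Normal_lc_mem (S.mul_p_fix g).1
  let Ψ : X → (W → Fin L) → Fin (2 * L) := fun o =>
    if P (F o) (Φ' o) then Φ' o else Classical.epsilon (P (F o))
  have hΨ : IsLocallyConstant Ψ :=
    (hF.prodMk hl).comp fun q => if P q.1 q.2 then q.2 else Classical.epsilon (P q.1)
  have hΨ2 : ∀ o, P (F o) (Ψ o) := fun o => by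
    by_cases h : P (F o) (Φ' o)
    · simpa only [Ψ, if_pos h] using h
    · simpa only [Ψ, if_neg h] using Classical.epsilon_spec (p := P (F o)) ⟨Φ o, hΦ2 o⟩
  have hΨ3 : ∀ o, Φ' o = Φ o → Ψ o = Φ o := fun o h => by
    have h' : P (F o) (Φ' o) := h ▸ hΦ2 o
    simpa only [Ψ, if_pos h'] using h
  refine ⟨Fin W.card, inferInstance, fun i => W.equivFin.symm i,
    fun s ℓ => Ψ s fun g => ℓ (W.equivFin g), fun ℓ => hΨ.comp fun φ => φ _, fun s ℓ => ?_,
    fun lam hlam => ?_⟩
  · simpa only [Equiv.symm_apply_apply] using hΨ2 s fun g => ℓ (W.equivFin g)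
  · simp only [Equiv.symm_apply_apply]
    obtain ⟨B, hB, hBμ, hB'⟩ := hΦ3 lam (fm_of_lc hlam).measurable
    obtain ⟨hB2, hB2μ⟩ := G.measure_ball_meets_le n hD
    have ha : IsLocallyConstant fun s => Ψ s fun g : W => lam ((g : S.Nrm) • s) :=
      (hΨ.prodMk (Normal_lc_pi (f := fun s (g : W) => lam ((g : S.Nrm) • s)) fun g =>
        hlam.comp_continuous (g : S.Nrm).continuous_smul)).comp fun q => q.1 q.2
    have hyM := S.N0_mem_M hy
    refine (S.Normal_moment hμ (S.EP_mem _ hyM) (by rw [IsSelfAdjoint, ← S.EP_star, hsa.star_eq])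
      ((S.norm_EP_le ha y).trans hn) n (hB.union hB2) (pow_nonneg ht0 (2 * n)) fun o ho => ?_).trans ?_
    · rw [Set.mem_union, not_or] at ho
      refine S.E_pow_le h1 hinv hV hsa ha n ht0 o ?_
      have h2 := hB' o ho.1 (Ψ o fun g : W => lam ((g : S.Nrm) • o))
      rw [hY, Finset.filter_congr (q := fun s => (Ψ s fun g : W => lam ((g : S.Nrm) • s)) =
        Ψ o fun g : W => lam ((g : S.Nrm) • o)) fun s hs => by
          rw [hΨ3 s (not_not.1 fun h => ho.2 ⟨s, hs, h⟩)]] at h2
      exact h2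
    · have h2 : μ.real {o | ∃ s ∈ G.ball n o, s ∈ {t | Φ' t ≠ Φ t}} ≤ C * (δ / 2 / (C + 1)) := by
        refine (ENNReal.toReal_mono (by finiteness) hB2μ).trans ?_
        rw [ENNReal.toReal_mul, ENNReal.toReal_ofReal hC0]
        exact mul_le_mul_of_nonneg_left hDμ hC0
      have h3 : C * (δ / 2 / (C + 1)) ≤ δ / 2 := by
        rw [← mul_div_assoc, div_le_iff₀ (by positivity)]
        nlinarith
      have h4 := measureReal_union_le (μ := μ) B {o | ∃ s ∈ G.ball n o, s ∈ {t | Φ' t ≠ Φ t}}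
      linarith

end Std

end

end Crest.Agent.R109
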