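import Crest.Agent.R109.CondN2
import Crest.Agent.R109.Gelfand

/-!
# Row 109: normalising elements have a component in the crossed product
-/

open Filter Topology
open scoped InnerProductSpace BigOperators ComplexOrder

set_option linter.unusedSectionVars false

namespace Crest.Agent.R109

noncomputable section

open Classical

variable {H : Type*} [NormedAddCommGroup H] [InnerProductSpace ℂ H] [CompleteSpace H]
  {X : Type*} [TopologicalSpace X] [CompactSpace X] [T2Space X] [ExtremallyDisconnected X]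

namespace Std
variable (S : Std H X)

theorem NrmCut_inner_p (U : Set X) (η : H) : ⟪η, S.p U η⟫_ℂ = ((‖S.p U η‖ ^ 2 : ℝ) : ℂ) := by
  have h := S.isStarProjection_p U
  calc ⟪η, S.p U η⟫_ℂ = ⟪η, (star (S.p U) * S.p U) η⟫_ℂ := by
        rw [h.isSelfAdjoint.star_eq, h.isIdempotentElem.eq]
    _ = ⟪S.p U η, S.p U η⟫_ℂ := by
        rw [mul_apply_eq_comp, ContinuousLinearMap.star_eq_adjoint,
          ContinuousLinearMap.adjoint_inner_right]
    _ = _ := by rw [inner_self_eq_norm_sq_to_K]; simp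

theorem NrmCut_inner_cm (Q : DiscreteQuotient X) {a : Q → ℂ} {f : C(X, ℂ)}
    (hf : ∀ t, f t = a (Q.proj t)) (η : H) :
    ⟪η, S.ρ f η⟫_ℂ = ∑ i, a i * ((‖S.p (Q.proj ⁻¹' {i}) η‖ ^ 2 : ℝ) : ℂ) := by
  have e : f = cm fun t => a (Q.proj t) := by
    ext t
    exact (hf t).trans (cm_apply_lc (Q.proj_isLocallyConstant.comp a) t).symm
  rw [e, cm_comp_eq_sum Q.proj_isLocallyConstant, map_sum, sum_apply, inner_sum]
  refine Finset.sum_congr rfl fun i _ => ?_
  rw [map_smul, smul_apply, inner_smul_right, ← S.NrmCut_inner_p]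
  rfl

/-- Radon-Nikodym derivative of a dominated functional.  Recipe:
`d Q = ∑_I (ψ 1_I / ω 1_I) 1_I`, `exists_limA` along `UF`; test on indicator functions
(`eventually_refines`; `ω 1_I = 0` forces `ψ 1_I = 0`), then `induction_ind`.  Here
`ω f = ⟪η, ρ f η⟫ + ⟪ζ, ρ f ζ⟫` and `ψ f = ⟪ζ, ρ f ζ⟫`. -/
theorem exists_rn (η ζ : H) : ∃ d : C(X, ℝ), (∀ t, 0 ≤ d t ∧ d t ≤ 1) ∧ ∀ f : C(X, ℂ),
    ⟪ζ, S.ρ f ζ⟫_ℂ = ⟪η, S.ρ (f * ⟨fun t => (d t : ℂ), by fun_prop⟩) η⟫_ℂ +
      ⟪ζ, S.ρ (f * ⟨fun t => (d t : ℂ), by fun_prop⟩) ζ⟫_ℂ := by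
  let c : ∀ Q : DiscreteQuotient X, Q → ℝ := fun Q i =>
    ‖S.p (Q.proj ⁻¹' {i}) ζ‖ ^ 2 / (‖S.p (Q.proj ⁻¹' {i}) η‖ ^ 2 + ‖S.p (Q.proj ⁻¹' {i}) ζ‖ ^ 2)
  have hc : ∀ Q i, 0 ≤ c Q i ∧ c Q i ≤ 1 := fun Q i =>
    ⟨by positivity, div_le_one_of_le₀ (le_add_of_nonneg_left (by positivity)) (by positivity)⟩
  let D : DiscreteQuotient X → C(X, ℂ) := fun Q => cm fun t => (c Q (Q.proj t) : ℂ)
  have hD : ∀ Q t, D Q t = (c Q (Q.proj t) : ℂ) := fun Q t =>
    cm_apply_lc (Q.proj_isLocallyConstant.comp fun i => (c Q i : ℂ)) t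
  obtain ⟨g, hg⟩ := S.exists_limA (UF X) D (C := 1) fun Q =>
    (ContinuousMap.norm_le _ zero_le_one).2 fun t => by
      rw [hD, Complex.norm_real, Real.norm_of_nonneg (hc _ _).1]
      exact (hc _ _).2
  have g0 : ∀ t, 0 ≤ g t := S.ge_of_WL (b := 0) hg (Eventually.of_forall fun Q t => by
    rw [hD]; exact Complex.zero_le_real.2 (hc _ _).1)
  have g1 : ∀ t, g t ≤ 1 := S.le_of_WL (b := 1) hg (Eventually.of_forall fun Q t => by
    rw [hD, ContinuousMap.one_apply]; exact_mod_cast (hc Q _).2)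
  refine ⟨⟨fun t => (g t).re, by fun_prop⟩,
    fun t => ⟨(Complex.le_def.1 (g0 t)).1, (Complex.le_def.1 (g1 t)).1⟩, fun f => ?_⟩
  have e : (⟨fun t => (((g t).re : ℝ) : ℂ), by fun_prop⟩ : C(X, ℂ)) = g := by
    ext t
    exact Complex.ext rfl (by simpa using (Complex.le_def.1 (g0 t)).2)
  change _ = ⟪η, S.ρ (f * ⟨fun t => (((g t).re : ℝ) : ℂ), _⟩) η⟫_ℂ +
    ⟪ζ, S.ρ (f * ⟨fun t => (((g t).re : ℝ) : ℂ), _⟩) ζ⟫_ℂ
  rw [e]
  have hρ := S.continuous_ρ
  refine induction_ind (P := fun f => ⟪ζ, S.ρ f ζ⟫_ℂ = ⟪η, S.ρ (f * g) η⟫_ℂ + ⟪ζ, S.ρ (f * g) ζ⟫_ℂ)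
    (isClosed_eq (by fun_prop) (by fun_prop)) (by simp) (fun f f' h h' => ?_) (fun a f h => ?_)
    (fun U hU => ?_) f
  · simp only [add_mul, map_add, add_apply, inner_add_right, h, h']
    ring
  · simp only [smul_mul_assoc, map_smul, smul_apply, inner_smul_right, h]
    ring
  · have h1 := ((hg.mul_left (S.ρ (ind U))) η η).add ((hg.mul_left (S.ρ (ind U))) ζ ζ)
    simp only [← map_mul] at h1
    refine tendsto_nhds_unique (tendsto_const_nhds.congr' ?_) h1
    have hb : IsLocallyConstant fun t => t ∈ U := by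
      rw [IsLocallyConstant.iff_eventually_eq]
      intro t
      by_cases ht : t ∈ U
      · filter_upwards [hU.2.mem_nhds ht] with s hs using by simp [hs, ht]
      · filter_upwards [hU.compl.2.mem_nhds ht] with s hs using by simp [show s ∉ U from hs, ht]
    filter_upwards [UF_le (eventually_refines hb)] with Q hQ
    let e : Q → ℂ := fun i => if ∃ t ∈ U, Q.proj t = i then 1 else 0
    have he : ∀ t, ind U t = e (Q.proj t) := fun t => by
      rw [ind_apply hU]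
      exact if_congr ⟨fun h => ⟨t, h, rfl⟩, fun ⟨s, hs, h⟩ => (hQ s t h).mp hs⟩ rfl rfl
    have e2 : ∀ t, (ind U * D Q) t = (fun i => e i * c Q i) (Q.proj t) := fun t => by
      rw [ContinuousMap.mul_apply, he, hD]
    rw [S.NrmCut_inner_cm Q (a := fun i => e i * c Q i) e2 η,
      S.NrmCut_inner_cm Q (a := fun i => e i * c Q i) e2 ζ, S.NrmCut_inner_cm Q he,
      ← Finset.sum_add_distrib]
    refine Finset.sum_congr rfl fun i _ => ?_
    rw [mul_assoc, mul_assoc, ← mul_add, ← mul_add, ← Complex.ofReal_add, ← Complex.ofReal_mul]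
    congr 2
    by_cases h0 : ‖S.p (Q.proj ⁻¹' {i}) η‖ ^ 2 + ‖S.p (Q.proj ⁻¹' {i}) ζ‖ ^ 2 = 0
    · rw [h0, mul_zero]
      nlinarith [sq_nonneg ‖S.p (Q.proj ⁻¹' {i}) η‖, sq_nonneg ‖S.p (Q.proj ⁻¹' {i}) ζ‖]
    · exact (div_mul_cancel₀ _ h0).symm

theorem NrmCut_alg {R : Type*} [Ring R] [StarRing R] {w P Q u : R} (h1 : star w * w = P)
    (h2 : w * star w = Q) (h3 : P * w = 0) (h4 : w * P = w) (hu : u = w + star w + (1 - P - Q)) :
    star u = u ∧ u * u = 1 ∧ u * P = w ∧ u * Q = star w ∧ u * (1 - P - Q) = 1 - P - Q ∧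
      P * Q = 0 := by
  have sP : star P = P := by rw [← h1, star_mul, star_star]
  have sQ : star Q = Q := by rw [← h2, star_mul, star_star]
  have a1 : star w * P = 0 := by rw [← sP, ← star_mul, h3, star_zero]
  have a2 : P * star w = star w := by rw [← sP, ← star_mul, h4]
  have a3 : P * P = P := by
    calc P * P = star w * (w * P) := by rw [← mul_assoc, h1]
      _ = P := by rw [h4, h1]
  have a4 : Q * w = w := by rw [← h2, mul_assoc, h1, h4]
  have a5 : Q * Q = Q := by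
    calc Q * Q = Q * w * star w := by rw [mul_assoc, h2]
      _ = Q := by rw [a4, h2]
  have a6 : P * Q = 0 := by rw [← h2, ← mul_assoc, h3, zero_mul]
  have a7 : Q * P = 0 := by rw [← h2, mul_assoc, a1, mul_zero]
  have a8 : w * Q = 0 := by rw [← h4, mul_assoc, a6, mul_zero]
  have a9 : star w * Q = star w := by rw [← sQ, ← star_mul, a4]
  have b1 : Q * star w = 0 := by rw [← sQ, ← star_mul, a8, star_zero]
  have b2 : w * w = 0 := by rw [← h4, mul_assoc, ← mul_assoc P, h3, zero_mul, mul_zero]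
  have b3 : star w * star w = 0 := by rw [← star_mul, b2, star_zero]
  subst hu
  refine ⟨?_, ?_, ?_, ?_, ?_, a6⟩
  · simp only [star_add, star_sub, star_one, star_star, sP, sQ]
    abel
  all_goals
    simp only [add_mul, mul_add, sub_mul, mul_sub, one_mul, mul_one, h1, h2, h3, h4, a1, a2, a3,
      a4, a5, a6, a7, a8, a9, b1, b2, b3]
    abel

theorem NrmCut_homeo {u : H →L[ℂ] H} (hs : star u = u) (hu : u * u = 1)
    (h : ∀ f, ∃ f', S.ρ f' = u * S.ρ f * u) : ∃ (α : C(X, ℂ) →⋆ₐ[ℂ] C(X, ℂ)) (θ : X ≃ₜ X),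
      (∀ f, S.ρ (α f) = u * S.ρ f * u) ∧ (∀ f, α (α f) = f) ∧ ∀ f t, α f t = f (θ t) := by
  choose a ha using h
  have hu' : ∀ y, u * (u * y) = y := fun y => by rw [← mul_assoc, hu, one_mul]
  let α : C(X, ℂ) →⋆ₐ[ℂ] C(X, ℂ) :=
    { toFun := a
      map_one' := S.inj (by rw [ha, map_one, mul_one, hu])
      map_mul' := fun f g => S.inj (by simp only [ha, map_mul, mul_assoc, hu'])
      map_zero' := S.inj (by simp [ha])
      map_add' := fun f g => S.inj (by simp only [ha, map_add, mul_add, add_mul])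
      commutes' := fun c => S.inj (by
        rw [ha, AlgHomClass.commutes, ← Algebra.commutes, mul_assoc, hu, mul_one])
      map_star' := fun f => S.inj (by simp only [ha, map_star, star_mul, hs, mul_assoc]) }
  have hα : ∀ f, α (α f) = f := fun f => S.inj (by
    change S.ρ (a (a f)) = _
    simp only [ha, mul_assoc, hu', hu, mul_one])
  obtain ⟨θ, hθ⟩ := exists_homeo_of_invol α hα
  exact ⟨α, θ, ha, hα, hθ⟩

omit [CompactSpace X] [T2Space X] [ExtremallyDisconnected X] in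
theorem NrmCut_cont {Y : Type*} [TopologicalSpace Y] {W : Set X} (hW : IsClopen W) {f : X → Y}
    (hf : ContinuousOn f W) (y : Y) : Continuous fun t => if t ∈ W then f t else y := by
  refine continuous_if (fun a ha => ?_) ?_ continuousOn_const
  · rw [Set.ofPred_mem_eq, hW.frontier_eq] at ha
    exact ha.elim
  · rwa [Set.ofPred_mem_eq, hW.1.closure_eq]

/-- A normalising partial isometry with disjoint source and range can be cut down to a piece of an
element of `Nrm`.  Recipe: `exists_rn` with `η = ξ`, `ζ = v⋆ ξ`: `φ (v f (1-d) v⋆) = φ (f d)`.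
On `U` neither `d` nor `1 - d` vanishes on a nonempty open set (faithfulness: `φ_p_pos`, and
`v p_W v⋆` is a nonzero projection), so there is a nonempty clopen `W ⊆ U` with `γ ≤ d ≤ 1 - γ` on
`W`.  Put `w = v p_W`, `w w⋆ = p_{W'}` (`exists_ind_of_idem`), `W ∩ W' = ∅`,
`u = w + w⋆ + 1 - p_W - p_{W'}`, a selfadjoint unitary with `u ρ f u ∈ ρ (C(X))`; the induced
involution of `C(X, ℂ)` (`Function.invFun`/choice, `S.inj`) comes from `θ` (`exists_homeo_of_invol`).
The derivative is `δ = d/(1-d)` on `W`, `(δ ∘ θ)⁻¹` on `W'`, `1` elsewhere. -/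
theorem exists_nrm_of_piso {v : H →L[ℂ] H} (hv : v ∈ S.M) {U : Set X} (hU : IsClopen U)
    (hne : U.Nonempty) (hvv : star v * v = S.p U) (hsq : S.p U * v = 0)
    (h1 : ∀ f, ∃ f', S.ρ f' = star v * S.ρ f * v) (h2 : ∀ f, ∃ f', S.ρ f' = v * S.ρ f * star v) :
    ∃ (g : S.Nrm) (W : Set X), IsClopen W ∧ W.Nonempty ∧ W ⊆ U ∧ g.u * S.p W = v * S.p W := by
  obtain ⟨d, hd', hd⟩ := S.exists_rn S.ξ (star v S.ξ)
  set dc : C(X, ℂ) := ⟨fun t => (d t : ℂ), by fun_prop⟩ with hdc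
  have hφ : ∀ y : H →L[ℂ] H, ⟪star v S.ξ, y (star v S.ξ)⟫_ℂ = S.φ (v * y * star v) := fun y => by
    rw [φ, ContinuousLinearMap.star_eq_adjoint, ContinuousLinearMap.adjoint_inner_left]
    rfl
  have hrn : ∀ f : C(X, ℂ), S.φ (v * S.ρ (f * (1 - dc)) * star v) = S.φ (S.ρ (f * dc)) := by
    intro f
    have h := hd f
    rw [← hφ, mul_sub, mul_one, map_sub, sub_apply, inner_sub_right, h,
      add_sub_cancel_right]
    rfl
  have hsub : ∀ {W : Set X}, IsClopen W → W ⊆ U → S.p W * S.p U = S.p W ∧ S.p U * S.p W = S.p W :=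
    fun hW hWU => ⟨by rw [S.p_mul_p hW hU, Set.inter_eq_left.2 hWU],
      by rw [S.p_mul_p hU hW, Set.inter_eq_right.2 hWU]⟩
  -- a point where the derivative is neither `0` nor `1`
  have hpt : ∃ t ∈ U, d t ≠ 0 ∧ d t ≠ 1 := by
    by_contra hcon
    push Not at hcon
    obtain ⟨t, ht⟩ := hne
    by_cases h0 : d t = 0
    · obtain ⟨W, hW, htW, hWO⟩ := exists_clopen_nhds
        (hU.2.inter (isOpen_ne_fun d.continuous (continuous_const (y := (1 : ℝ)))))
        ⟨ht, show d t ≠ 1 by rw [h0]; exact zero_ne_one⟩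
      have hz : ∀ s ∈ W, d s = 0 := fun s hs => by
        by_contra h
        exact (hWO hs).2 (hcon s (hWO hs).1 h)
      have e1 : ind W * dc = 0 := by
        ext s
        by_cases hs : s ∈ W <;> simp [ind_apply hW, hs, hz, hdc]
      have h := hrn (ind W)
      rw [mul_sub, mul_one, e1, sub_zero, map_zero, ← hφ] at h
      have h3 := S.NrmCut_inner_p W (star v S.ξ)
      rw [show S.p W = S.ρ (ind W) from rfl, h] at h3
      have h4 : (S.p W * star v) S.ξ = 0 := by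
        have : ‖S.ρ (ind W) (star v S.ξ)‖ ^ 2 = 0 := by
          have h5 : S.φ 0 = 0 := by simp [φ]
          rw [h5] at h3
          exact_mod_cast h3.symm
        exact norm_eq_zero.1 (pow_eq_zero_iff two_ne_zero |>.1 this)
      have h5 := S.eq_zero_of_apply_ξ (mul_mem (S.p_mem W) (star_mem hv)) h4
      refine S.p_ne_zero hW ⟨t, htW⟩ ?_
      rw [← (hsub hW fun s hs => (hWO hs).1).1, ← hvv, ← mul_assoc, h5, zero_mul]
    · obtain ⟨W, hW, htW, hWO⟩ := exists_clopen_nhds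
        (hU.2.inter (isOpen_ne_fun d.continuous (continuous_const (y := (0 : ℝ))))) ⟨ht, h0⟩
      have e1 : ind W * dc = ind W := by
        ext s
        by_cases hs : s ∈ W
        · simp [hdc, hcon s (hWO hs).1 (hWO hs).2]
        · simp [ind_apply hW, hs]
      have h := hrn (ind W)
      rw [mul_sub, mul_one, e1, sub_self, map_zero, mul_zero, zero_mul] at h
      have h3 := S.φ_p_pos hW ⟨t, htW⟩
      rw [show S.p W = S.ρ (ind W) from rfl, ← h] at h3
      simp [φ] at h3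
  obtain ⟨t₀, ht₀, ht0, ht1⟩ := hpt
  have hd01 : ∀ t, 0 ≤ d t ∧ d t ≤ 1 := hd'
  obtain ⟨W, hW, htW, hWO⟩ := exists_clopen_nhds
    (hU.2.inter ((isOpen_ne_fun d.continuous (continuous_const (y := (0 : ℝ)))).inter
      (isOpen_ne_fun d.continuous (continuous_const (y := (1 : ℝ)))))) ⟨ht₀, ht0, ht1⟩
  have hWU : W ⊆ U := fun s hs => (hWO hs).1
  have hdW : ∀ s ∈ W, 0 < d s ∧ 0 < 1 - d s := fun s hs =>
    ⟨(hd01 s).1.lt_of_ne' (hWO hs).2.1, sub_pos.2 ((hd01 s).2.lt_of_ne (hWO hs).2.2)⟩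
  have pW := S.isStarProjection_p W
  have sW : star (S.p W) = S.p W := pW.isSelfAdjoint.star_eq
  have mW : S.p W * S.p W = S.p W := pW.isIdempotentElem.eq
  set w := v * S.p W with hw
  have w1 : star w * w = S.p W := by
    rw [hw, star_mul, sW, mul_assoc, ← mul_assoc (star v), hvv, (hsub hW hWU).2, mW]
  have w3 : S.p W * w = 0 := by
    rw [hw, ← (hsub hW hWU).1, mul_assoc, ← mul_assoc (S.p U), hsq, zero_mul, mul_zero]
  have w4 : w * S.p W = w := by rw [hw, mul_assoc, mW]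
  have hw2 : ∀ f, w * S.ρ f * star w = v * S.ρ (ind W * f * ind W) * star v := fun f => by
    simp only [hw, star_mul, sW, map_mul, mul_assoc]
    rfl
  obtain ⟨k, hk⟩ := h2 (ind W * 1 * ind W)
  rw [← hw2, map_one, mul_one] at hk
  obtain ⟨W', hW', rfl⟩ := exists_ind_of_idem (f := k) (S.inj (by
    rw [map_mul, hk, mul_assoc, ← mul_assoc (star w), w1, ← mul_assoc, w4]))
  obtain ⟨u, hu⟩ : ∃ u, u = w + star w + (1 - S.p W - S.ρ (ind W')) := ⟨_, rfl⟩
  obtain ⟨u1, u2, u3, u4, u5, u6⟩ := NrmCut_alg w1 hk.symm w3 w4 hu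
  have hdis : ∀ s ∈ W, s ∉ W' := fun s hs hs' =>
    S.p_ne_zero (hW.inter hW') ⟨s, hs, hs'⟩ (by rw [← S.p_mul_p hW hW']; exact u6)
  set R : C(X, ℂ) := 1 - ind W - ind W' with hR
  have hRρ : S.ρ R = 1 - S.p W - S.ρ (ind W') := by rw [hR, map_sub, map_sub, map_one]; rfl
  have sR : star R = R := by rw [hR, star_sub, star_sub, star_one, star_ind, star_ind]
  have v3 : S.ρ (ind W) * u = star w := by
    rw [← u3, star_mul, u1, sW]; rfl
  have v4 : S.ρ (ind W') * u = w := by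
    have := congrArg star u4
    rwa [star_mul, u1, star_star, ← map_star, star_ind] at this
  have v5 : S.ρ R * u = S.ρ R := by
    have := congrArg star u5
    rwa [← hRρ, star_mul, u1, ← map_star, sR] at this
  rw [← hRρ] at u5
  have c1 : ∀ f, u * S.ρ (ind W * f * ind W) * u = w * S.ρ f * star w := fun f => by
    rw [map_mul, map_mul, ← v3, ← u3]
    simp only [mul_assoc]
    rfl
  have c2 : ∀ f, u * S.ρ (ind W' * f * ind W') * u = star w * S.ρ f * w := fun f => by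
    rw [map_mul, map_mul, ← u4]
    simp only [mul_assoc, v4]
  have c3 : ∀ f, u * S.ρ (R * f * R) * u = S.ρ (R * f * R) := fun f => by
    rw [map_mul, map_mul, ← mul_assoc, ← mul_assoc, u5, mul_assoc, v5]
  have hsplit : ∀ f : C(X, ℂ), f = ind W * f * ind W + ind W' * f * ind W' + R * f * R := by
    intro f
    ext s
    by_cases hs : s ∈ W
    · simp [hR, ind_apply hW, ind_apply hW', hs, hdis s hs]
    · by_cases hs' : s ∈ W' <;> simp [hR, ind_apply hW, ind_apply hW', hs, hs']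
  obtain ⟨α, θ, a1, a2, a3⟩ := S.NrmCut_homeo u1 u2 fun f => by
    obtain ⟨f1, hf1⟩ := h2 (ind W * f * ind W)
    obtain ⟨f2, hf2⟩ := h1 f
    refine ⟨f1 + ind W * f2 * ind W + R * f * R, ?_⟩
    conv_rhs => rw [hsplit f]
    rw [map_add, map_add, map_add, map_add, mul_add, mul_add, add_mul, add_mul, c1, c2, c3, hw2,
      hf1, map_mul _ (ind W * f2), map_mul _ (ind W) f2, hf2]
    simp only [hw, star_mul, sW, mul_assoc]
    rfl
  have aW : α (ind W) = ind W' := S.inj (by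
    rw [a1, hk, ← v3, ← u3]
    simp only [mul_assoc]
    rw [← mul_assoc (S.p W), show S.p W * S.ρ (ind W) = S.ρ (ind W) from mW])
  have aW' : α (ind W') = ind W := by rw [← aW, a2]
  have hθ : ∀ s, θ s ∈ W ↔ s ∈ W' := fun s => by
    have := a3 (ind W) s
    rw [aW, ind_apply hW, ind_apply hW'] at this
    by_cases h : s ∈ W' <;> by_cases h' : θ s ∈ W <;> simp [h, h'] at this ⊢
  -- the derivative
  let δ : C(X, ℝ) := ⟨fun s => if s ∈ W then d s / (1 - d s) else 1, NrmCut_cont hW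
    (d.continuous.continuousOn.div (by fun_prop) fun s hs => (hdW s hs).2.ne') _⟩
  have hδ : ∀ s, δ s = if s ∈ W then d s / (1 - d s) else 1 := fun _ => rfl
  have δ0 : ∀ s, 0 < δ s := fun s => by
    rw [hδ]
    split_ifs with hs
    · exact div_pos (hdW s hs).1 (hdW s hs).2
    · exact one_pos
  have δ0' : ∀ s, (δ s : ℂ) ≠ 0 := fun s => by exact_mod_cast (δ0 s).ne'
  let D : C(X, ℂ) := ⟨fun s => (δ s : ℂ), by fun_prop⟩
  let D' : C(X, ℂ) := ⟨fun s => (δ s : ℂ)⁻¹, Continuous.inv₀ (by fun_prop) δ0'⟩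
  let e : C(X, ℂ) := ⟨fun s => if s ∈ W then (1 - (d s : ℂ))⁻¹ else 0, NrmCut_cont hW
    (ContinuousOn.inv₀ (by fun_prop) fun s hs => by exact_mod_cast (hdW s hs).2.ne') _⟩
  have hA : ∀ f, S.φ (S.ρ (α (ind W * f * ind W))) = S.φ (S.ρ (ind W * f * D)) := fun f => by
    have e1 : ind W * f * ind W = (ind W * f * e) * (1 - dc) := by
      ext s
      by_cases hs : s ∈ W
      · have : (1 - (d s : ℂ)) ≠ 0 := by exact_mod_cast (hdW s hs).2.ne'
        simp [e, hdc, ind_apply hW, hs, mul_assoc, this]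
      · simp [ind_apply hW, hs]
    have e2 : ind W * f * e * dc = ind W * f * D := by
      ext s
      by_cases hs : s ∈ W
      · simp [e, D, hδ, hdc, hs, mul_assoc, div_eq_inv_mul]
      · simp [ind_apply hW, hs]
    rw [a1, c1, hw2, e1, hrn, e2]
  have hB : ∀ f, S.φ (S.ρ (α (ind W' * f * ind W'))) = S.φ (S.ρ (ind W' * f * α D')) := fun f => by
    have h := hA (α f * D')
    have e1 : ind W * (α f * D') * D = α (ind W' * f * ind W') := by
      rw [map_mul, map_mul, aW']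
      ext s
      by_cases hs : s ∈ W
      · simp [D, D', ind_apply hW, hs, mul_assoc, δ0' s]
      · simp [ind_apply hW, hs]
    have e2 : α (ind W * (α f * D') * ind W) = ind W' * f * α D' := by
      rw [map_mul, map_mul, map_mul, aW, a2]
      ext s
      by_cases hs : s ∈ W' <;> simp [ind_apply hW', hs]
    rw [← e1, ← h, e2]
  have hadd : ∀ y z, S.φ (y + z) = S.φ y + S.φ z := fun y z => by simp [φ]
  have hwM : w ∈ S.M := mul_mem hv (S.p_mem W)
  refine ⟨⟨u, θ, ⟨fun s => δ s * (δ (θ s))⁻¹,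
      δ.continuous.mul (Continuous.inv₀ (by fun_prop) fun s => (δ0 _).ne')⟩,
    hu ▸ add_mem (add_mem hwM (star_mem hwM)) (hRρ ▸ S.mem R), ⟨by rw [u1, u2], by rw [u1, u2]⟩,
    fun f => ?_, fun s => mul_pos (δ0 _) (inv_pos.2 (δ0 _)), fun f => ?_⟩, W, hW, ⟨t₀, htW⟩, hWU, u3⟩
  · rw [u1, ← a1]
    congr 1
    ext s
    exact a3 f s
  · rw [u1, ← a1]
    conv_lhs => rw [hsplit f]
    rw [map_add, map_add, map_add, map_add, hadd, hadd, hA, hB, a1, c3, ← hadd, ← hadd, ← map_add,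
      ← map_add]
    congr 2
    ext s
    by_cases hs : s ∈ W
    · have h3 : θ s ∉ W := fun h => hdis s hs ((hθ s).1 h)
      simp [hR, D, ind_apply hW, ind_apply hW', hs, hdis s hs, hδ (θ s), h3]
    · by_cases hs' : s ∈ W'
      · simp [hR, D', a3, ind_apply hW, ind_apply hW', hs, hs', hδ s]
      · have h3 : θ s ∉ W := fun h => hs' ((hθ s).1 h)
        simp [hR, ind_apply hW, ind_apply hW', hs, hs', hδ, h3]

theorem NrmCut_norm {z : H →L[ℂ] H} (h1 : ∀ f, ∃ f', S.ρ f' = star z * S.ρ f * z)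
    (h2 : ∀ f, ∃ f', S.ρ f' = z * S.ρ f * star z) (a b : C(X, ℂ)) :
    (∀ f, ∃ f', S.ρ f' = star (S.ρ a * z * S.ρ b) * S.ρ f * (S.ρ a * z * S.ρ b)) ∧
      ∀ f, ∃ f', S.ρ f' = S.ρ a * z * S.ρ b * S.ρ f * star (S.ρ a * z * S.ρ b) := by
  refine ⟨fun f => ?_, fun f => ?_⟩
  · obtain ⟨g, hg⟩ := h1 (star a * f * a)
    exact ⟨star b * g * b, by simp only [map_mul, hg, map_star, star_mul, mul_assoc]⟩
  · obtain ⟨g, hg⟩ := h2 (b * f * star b)
    exact ⟨a * g * star a, by simp only [map_mul, hg, map_star, star_mul, mul_assoc]⟩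

/-- Recipe: if `z ≠ 0` then `z⋆ z = ρ k`, `k ≥ 0`, `k ≠ 0`; choose a nonempty clopen `U₀` with `k ≥ γ` on it,
`c = 1_{U₀} k^{-1/2}`, `v₀ = z ρ c`: a normalising partial isometry with `v₀⋆ v₀ = p U₀`, in `Mo`.
As `E v₀ = 0 ≠ v₀`, `v₀ ∉ A`, so `p U v₀ ≠ v₀ p U` for some clopen `U`
(`exists_ρ_of_commute_p`); then `v = p₁ v₀ p₂ ≠ 0` with `{p₁, p₂} = {p U, p Uᶜ}`; `v⋆ v` is a nonzero
projection of `A` below `p₂`, and `p₂ v = 0`.  `exists_nrm_of_piso` gives `u p_W = v p_W`, and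
`⟪u p_W ξ, v p_W ξ⟫ = φ (p_W) > 0` contradicts `v p_W ∈ Mo`. -/
theorem Mo.eq_zero_of_normalises {z : H →L[ℂ] H} (hz : S.Mo z)
    (h1 : ∀ f, ∃ f', S.ρ f' = star z * S.ρ f * z) (h2 : ∀ f, ∃ f', S.ρ f' = z * S.ρ f * star z) :
    z = 0 := by
  by_contra hz0
  have hMo : ∀ {y : H →L[ℂ] H}, S.Mo y → ∀ a b, S.Mo (S.ρ a * y * S.ρ b) := fun hy a b =>
    (hy.mul_left (Nn.of_N0 (S.ρ_mem_N0 a))).mul_right (Nn.of_N0 (S.ρ_mem_N0 b))
  -- an off-diagonal corner
  have hV : ∃ V, IsClopen V ∧ S.p Vᶜ * z * S.p V ≠ 0 := by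
    by_contra hcon
    push Not at hcon
    obtain ⟨f, hf⟩ := S.exists_ρ_of_commute_p hz.1 fun U hU => by
      have e1 := hcon U hU
      have e2 := hcon Uᶜ hU.compl
      rw [compl_compl] at e2
      rw [S.p_compl hU] at e1 e2
      rw [sub_mul, one_mul, sub_mul, sub_eq_zero] at e1
      rw [mul_sub, mul_one, sub_eq_zero] at e2
      rw [e1, ← e2]
    have h3 := hz.E_eq_zero
    rw [← hf, S.E_ρ] at h3
    exact hz0 (by rw [← hf, h3, map_zero])
  obtain ⟨V, hV, hy0⟩ := hV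
  obtain ⟨k1, k2⟩ := S.NrmCut_norm h1 h2 (ind Vᶜ) (ind V)
  have hy := hMo hz (ind Vᶜ) (ind V)
  change S.ρ (ind Vᶜ) * z * S.ρ (ind V) ≠ 0 at hy0
  have hyV : S.ρ (ind Vᶜ) * z * S.ρ (ind V) * S.ρ (ind V) = S.ρ (ind Vᶜ) * z * S.ρ (ind V) := by
    rw [mul_assoc, ← map_mul, ind_mul hV hV, Set.inter_self]
  have hVy : S.p V * (S.ρ (ind Vᶜ) * z * S.ρ (ind V)) = 0 := by
    rw [← mul_assoc, ← mul_assoc, show S.p V * S.ρ (ind Vᶜ) = S.p (V ∩ Vᶜ) from
      S.p_mul_p hV hV.compl, Set.inter_compl_self, S.p_empty, zero_mul, zero_mul]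
  generalize S.ρ (ind Vᶜ) * z * S.ρ (ind V) = y at hy0 k1 k2 hy hyV hVy
  obtain ⟨k, hk⟩ := k1 1
  rw [map_one, mul_one] at hk
  have k0 : ∀ t, 0 ≤ k t := (S.ρ_nonneg_iff k).1 (hk ▸ star_mul_self_nonneg y)
  have hkV : k * ind V = k := S.inj (by rw [map_mul, hk, mul_assoc, hyV])
  obtain ⟨t₀, ht₀⟩ : ∃ t, k t ≠ 0 := by
    by_contra hcon
    push Not at hcon
    rw [show k = 0 from ContinuousMap.ext hcon, map_zero] at hk
    exact hy0 (CStarRing.star_mul_self_eq_zero_iff y |>.1 hk.symm)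
  obtain ⟨U, hU, htU, hUO⟩ := exists_clopen_nhds
    (isOpen_ne_fun k.continuous (continuous_const (y := (0 : ℂ)))) ht₀
  have hkU : ∀ t ∈ U, 0 < (k t).re ∧ ((k t).re : ℂ) = k t := fun t ht => by
    have h3 : ((k t).re : ℂ) = k t :=
      Complex.ext rfl (by simpa using (Complex.le_def.1 (k0 t)).2)
    refine ⟨(Complex.le_def.1 (k0 t)).1.lt_of_ne' fun h => hUO ht ?_, h3⟩
    rw [← h3, h]
    rfl
  have hUV : U ⊆ V := fun t ht => by
    by_contra h
    have := congrArg (fun f : C(X, ℂ) => f t) hkV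
    simp only [ContinuousMap.mul_apply, ind_apply hV, h, if_false, mul_zero] at this
    exact hUO ht this.symm
  let c : C(X, ℂ) := ⟨fun t => if t ∈ U then ((√(k t).re : ℝ) : ℂ)⁻¹ else 0, NrmCut_cont hU
    (ContinuousOn.inv₀ (by fun_prop) fun t ht => by
      exact_mod_cast (Real.sqrt_pos.2 (hkU t ht).1).ne') _⟩
  have hc : star c * k * c = ind U := by
    ext t
    by_cases ht : t ∈ U
    · have h3 : ((√(k t).re : ℝ) : ℂ) ≠ 0 := by
        exact_mod_cast (Real.sqrt_pos.2 (hkU t ht).1).ne'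
      have h4 : k t = ((√(k t).re : ℝ) : ℂ) * ((√(k t).re : ℝ) : ℂ) := by
        rw [← Complex.ofReal_mul, Real.mul_self_sqrt (hkU t ht).1.le, (hkU t ht).2]
      simp only [c, ContinuousMap.mul_apply, ContinuousMap.star_apply, ContinuousMap.coe_mk, ht,
        if_true, ind_apply hU, star_inv₀, Complex.star_def, Complex.conj_ofReal]
      generalize ((√(k t).re : ℝ) : ℂ) = r at h3 h4
      rw [h4]
      field_simp
    · simp [c, ind_apply hU, ht]
  obtain ⟨l1, l2⟩ := S.NrmCut_norm k1 k2 1 c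
  have hv := hMo hy 1 c
  rw [map_one, one_mul] at l1 l2 hv
  have hvv : star (y * S.ρ c) * (y * S.ρ c) = S.p U := by
    rw [star_mul, mul_assoc, ← mul_assoc (star y), ← hk, ← map_star, ← mul_assoc, ← map_mul,
      ← map_mul, hc]
    rfl
  have hsq : S.p U * (y * S.ρ c) = 0 := by
    rw [← Set.inter_eq_left.2 hUV, ← S.p_mul_p hU hV, mul_assoc, ← mul_assoc (S.p V), hVy,
      zero_mul, mul_zero]
  obtain ⟨g, W, hW, hne, hWU, hg⟩ := S.exists_nrm_of_piso hv.1 hU ⟨t₀, htU⟩ hvv hsq l1 l2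
  have m1 : S.Mo (y * S.ρ c * S.p W) := hv.mul_right (Nn.of_N0 (S.ρ_mem_N0 _))
  have m2 : (y * S.ρ c * S.p W) S.ξ ∈ S.Hd := by
    rw [← hg]
    exact Submodule.le_topologicalClosure _ (Submodule.subset_span ⟨g, ind W, rfl⟩)
  have m3 := S.eq_zero_of_apply_ξ m1.1 (inner_self_eq_zero.1 (m1.2 _ m2))
  refine S.p_ne_zero hW hne ?_
  rw [← Set.inter_eq_right.2 hWU, ← S.p_mul_p hU hW, ← hvv, mul_assoc, m3, mul_zero]

end Std

end

end Crest.Agent.R109
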