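import Crest.Agent.R109.Fix

/-!
# Row 109: functions of random labels
-/

open Filter Topology
open scoped InnerProductSpace BigOperators ComplexOrder

set_option linter.unusedSectionVars false

namespace Crest.Agent.R109

noncomputable section

open Classical

variable {H : Type*} [NormedAddCommGroup H] [InnerProductSpace ℂ H] [CompleteSpace H]
  {X : Type*} [TopologicalSpace X] [CompactSpace X] [T2Space X] [ExtremallyDisconnected X]

namespace Std
variable {S : Std H X} {L : ℕ}

theorem isLocallyConstant_labels {ι : Type*} [Finite ι] (w : ι → S.Nrm) {β : Type*} {lam : X → β}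
    (hlam : IsLocallyConstant lam) : IsLocallyConstant fun (t : X) i => lam (w i • t) := by
  refine (IsLocallyConstant.iff_eventually_eq _).2 fun x => ?_
  have h := Filter.eventually_all.2 fun i =>
    (hlam.comp_continuous (w i).continuous_smul).eventually_eq x
  exact h.mono fun y hy => funext hy

theorem IsRF.const (f : C(X, ℂ)) : S.IsRF (L := L) fun _ => f := by
  exact ⟨Empty, inferInstance, Empty.elim, fun _ => f, fun _ _ _ => rfl⟩

theorem RF_bin (op : C(X, ℂ) → C(X, ℂ) → C(X, ℂ)) (op' : ℂ → ℂ → ℂ)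
    (hop : ∀ f g t, op f g t = op' (f t) (g t)) {c c' : (X → Fin L) → C(X, ℂ)} (h : S.IsRF c)
    (h' : S.IsRF c') : S.IsRF fun lam => op (c lam) (c' lam) := by
  obtain ⟨ι, _, w, f, hf⟩ := h
  obtain ⟨ι', _, w', f', hf'⟩ := h'
  refine ⟨ι ⊕ ι', inferInstance, Sum.elim w w',
    fun ℓ => op (f fun i => ℓ (Sum.inl i)) (f' fun i => ℓ (Sum.inr i)), fun lam hlam t => ?_⟩
  rw [hop, hop, hf lam hlam, hf' lam hlam]
  rfl

theorem IsRF.add {c c' : (X → Fin L) → C(X, ℂ)} (h : S.IsRF c) (h' : S.IsRF c') :
    S.IsRF fun lam => c lam + c' lam := by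
  exact RF_bin (· + ·) (· + ·) (fun _ _ _ => rfl) h h'

theorem IsRF.sub {c c' : (X → Fin L) → C(X, ℂ)} (h : S.IsRF c) (h' : S.IsRF c') :
    S.IsRF fun lam => c lam - c' lam := by
  exact RF_bin (· - ·) (· - ·) (fun _ _ _ => rfl) h h'

theorem IsRF.mul {c c' : (X → Fin L) → C(X, ℂ)} (h : S.IsRF c) (h' : S.IsRF c') :
    S.IsRF fun lam => c lam * c' lam := by
  exact RF_bin (· * ·) (· * ·) (fun _ _ _ => rfl) h h'

theorem IsRF.star_mem {c : (X → Fin L) → C(X, ℂ)} (h : S.IsRF c) :
    S.IsRF fun lam => star (c lam) := by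
  exact RF_bin (fun f _ => star f) (fun a _ => star a) (fun _ _ _ => rfl) h h

theorem IsRF.comp {c : (X → Fin L) → C(X, ℂ)} (h : S.IsRF c) (g : S.Nrm) :
    S.IsRF fun lam => (c lam).comp ⟨g.θ, g.θ.continuous⟩ := by
  obtain ⟨ι, _, w, f, hf⟩ := h
  refine ⟨ι, inferInstance, fun i => w i * g, fun ℓ => (f ℓ).comp ⟨g.θ, g.θ.continuous⟩,
    fun lam hlam t => ?_⟩
  exact hf lam hlam (g.θ t)

theorem IsRF.bdd {c : (X → Fin L) → C(X, ℂ)} (h : S.IsRF c) :
    ∃ C : ℝ, 0 ≤ C ∧ ∀ lam, IsLocallyConstant lam → ‖c lam‖ ≤ C := by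
  obtain ⟨ι, _, w, f, hf⟩ := h
  have h0 : 0 ≤ ∑ ℓ, ‖f ℓ‖ := Finset.sum_nonneg fun _ _ => norm_nonneg _
  refine ⟨∑ ℓ, ‖f ℓ‖, h0, fun lam hlam => (ContinuousMap.norm_le _ h0).2 fun t => ?_⟩
  rw [hf lam hlam]
  exact ((f _).norm_coe_le_norm t).trans
    (Finset.single_le_sum (f := fun ℓ => ‖f ℓ‖) (fun _ _ => norm_nonneg _) (Finset.mem_univ _))

/-- finitely many random functions can be written over the same family of translates -/
theorem IsRF.common {c : ℕ → (X → Fin L) → C(X, ℂ)} (l : ℕ) (h : ∀ i < l, S.IsRF (c i)) :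
    ∃ (ι : Type) (_ : Fintype ι) (w : ι → S.Nrm) (f : ℕ → (ι → Fin L) → C(X, ℂ)),
      ∀ i < l, ∀ lam, IsLocallyConstant lam → ∀ t, c i lam t = f i (fun j => lam (w j • t)) t := by
  induction l with
  | zero => exact ⟨Empty, inferInstance, Empty.elim, fun _ _ => 0, fun i hi => absurd hi (by omega)⟩
  | succ l ih =>
    obtain ⟨ι, _, w, f, hf⟩ := ih fun i hi => h i (by omega)
    obtain ⟨ι', _, w', f', hf'⟩ := h l (by omega)
    refine ⟨ι ⊕ ι', inferInstance, Sum.elim w w', fun i ℓ =>
      if i < l then f i fun j => ℓ (Sum.inl j) else f' fun j => ℓ (Sum.inr j),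
      fun i hi lam hlam t => ?_⟩
    by_cases hil : i < l
    · simp only [if_pos hil]
      exact hf i hil lam hlam t
    · obtain rfl : i = l := by omega
      simp only [if_neg hil]
      exact hf' lam hlam t

/-- The law of `l ∘ J` for uniform `l` only depends on the kernel of `J`. -/
theorem card_filter_comp_eq {σ β : Type*} [Fintype σ] [Fintype β] (hL : 0 < L) (J : σ → β)
    (ℓ : σ → Fin L) :
    ((Finset.univ.filter fun l : β → Fin L => l ∘ J = ℓ).card : ℝ) / (L : ℝ) ^ Fintype.card β =
      if ∀ s s', J s = J s' → ℓ s = ℓ s' then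
        1 / (L : ℝ) ^ (Finset.univ.image fun s => Finset.univ.filter fun s' => J s = J s').card
      else 0 := by
  split_ifs with hc
  · have h1 : (Finset.univ.image fun s => Finset.univ.filter fun s' => J s = J s').card =
        (Finset.univ.image J).card := by
      rw [← Finset.card_image_of_injOn (s := Finset.univ.image J)
        (f := fun b => Finset.univ.filter fun s' => b = J s'), Finset.image_image]
      · rfl
      · intro b hb b' _ h
        obtain ⟨s, -, rfl⟩ := Finset.mem_image.1 hb
        have h2 : s ∈ Finset.univ.filter fun s' => b' = J s' := by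
          simp only at h
          rw [← h]
          simp
        exact (Finset.mem_filter.1 h2).2.symm
    have h2 : (Finset.univ.filter fun l : β → Fin L => l ∘ J = ℓ) =
        Fintype.piFinset fun b => Finset.univ.filter fun x : Fin L => ∀ s, J s = b → x = ℓ s := by
      ext l
      simp only [Finset.mem_filter, Finset.mem_univ, true_and, Fintype.mem_piFinset, funext_iff,
        Function.comp_apply]
      exact ⟨fun h b s hs => hs ▸ h s, fun h s => h _ s rfl⟩
    have h3 : ∀ b, (Finset.univ.filter fun x : Fin L => ∀ s, J s = b → x = ℓ s).card =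
        if b ∈ Finset.univ.image J then 1 else L := by
      intro b
      split_ifs with hb
      · obtain ⟨s, -, rfl⟩ := Finset.mem_image.1 hb
        refine Finset.card_eq_one.2 ⟨ℓ s, ?_⟩
        ext x
        simp only [Finset.mem_filter, Finset.mem_univ, true_and, Finset.mem_singleton]
        exact ⟨fun h => h s rfl, fun h s' hs' => h.trans (hc _ _ hs'.symm)⟩
      · rw [Finset.filter_true_of_mem, Finset.card_univ, Fintype.card_fin]
        exact fun x _ s hs => absurd (Finset.mem_image.2 ⟨s, Finset.mem_univ _, hs⟩) hb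
    have h4 := Finset.card_filter_add_card_filter_not (s := Finset.univ)
      fun b => b ∈ Finset.univ.image J
    rw [Finset.filter_mem_eq_inter, Finset.univ_inter, Finset.card_univ] at h4
    have hL' : (L : ℝ) ≠ 0 := by exact_mod_cast hL.ne'
    rw [h1, h2, Fintype.card_piFinset, Finset.prod_congr rfl fun b _ => h3 b, Finset.prod_ite,
      Finset.prod_const_one, one_mul, Finset.prod_const, ← h4, pow_add]
    push_cast
    field_simp
  · rw [Finset.filter_false_of_mem, Finset.card_empty, Nat.cast_zero, zero_div]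
    rintro l - rfl
    exact hc fun s s' h => congrArg l h

/-- The mean.  Recipe: the pattern `R t = {(i, j) | w i • t = w j • t}` is locally constant
(`isClopen_smul_eq`); put `m t = ∑_ℓ P(R t, ℓ) f ℓ t` with the weights of `card_filter_comp_eq`; for
`Q` as in `eventually_sep` the kernel of `i ↦ Q.proj (w i • t)` is `R t`. -/
theorem IsRF.exists_mean (hL : 0 < L) {c : (X → Fin L) → C(X, ℂ)} (h : S.IsRF c) :
    ∃ m : C(X, ℂ), Cent fun lam => c lam - m := by
  obtain ⟨ι, _, w, f, hf⟩ := h
  let R : X → ι → ι → Prop := fun t i j => w i • t = w j • t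
  have hR : IsLocallyConstant R := by
    refine (IsLocallyConstant.iff_eventually_eq _).2 fun x => ?_
    have h1 : ∀ i j, ∀ᶠ y in 𝓝 x, R y i j = R x i j := by
      intro i j
      have hc := S.isClopen_smul_eq (w i) (w j)
      by_cases hx : R x i j
      · exact Filter.mem_of_superset (hc.isOpen.mem_nhds hx) fun y hy => propext (iff_of_true hy hx)
      · exact Filter.mem_of_superset (hc.compl.isOpen.mem_nhds hx)
          fun y hy => propext (iff_of_false hy hx)
    exact (Filter.eventually_all.2 fun i => Filter.eventually_all.2 (h1 i)).mono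
      fun y hy => funext fun i => funext (hy i)
  let P : (ι → Fin L) → (ι → ι → Prop) → ℝ := fun ℓ r => if ∀ s s', r s s' → ℓ s = ℓ s' then
    1 / (L : ℝ) ^ (Finset.univ.image fun s => Finset.univ.filter fun s' => r s s').card else 0
  refine ⟨∑ ℓ, cm (fun t => (P ℓ (R t) : ℂ)) * f ℓ, ?_⟩
  filter_upwards [S.eventually_sep w] with Q hQ t
  have hJ : (fun i j => Q.proj (w i • t) = Q.proj (w j • t)) = R t :=
    funext fun i => funext fun j => propext ⟨hQ i j t, congrArg Q.proj⟩
  have hL' : (L : ℝ) ^ Fintype.card Q ≠ 0 := pow_ne_zero _ (by exact_mod_cast hL.ne')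
  have h1 : ∀ ℓ, ((Finset.univ.filter fun l : Q → Fin L =>
      (l ∘ fun i => Q.proj (w i • t)) = ℓ).card : ℝ) = (L : ℝ) ^ Fintype.card Q * P ℓ (R t) := by
    intro ℓ
    rw [← hJ, mul_comm, ← div_eq_iff hL']
    convert card_filter_comp_eq hL (fun i => Q.proj (w i • t)) ℓ
  have h2 : ∀ l : Q → Fin L, c (l ∘ Q.proj) t = f (l ∘ fun i => Q.proj (w i • t)) t :=
    fun l => hf _ (Q.proj_isLocallyConstant.comp l) t
  have h3 : ∀ ℓ, cm (fun t => (P ℓ (R t) : ℂ)) t = P ℓ (R t) := fun ℓ =>
    cm_apply_lc (hR.comp fun r => (P ℓ r : ℂ)) t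
  simp only [ContinuousMap.sub_apply, Finset.sum_sub_distrib, h2, ContinuousMap.sum_apply,
    ContinuousMap.mul_apply, h3, Finset.sum_const, Finset.card_univ, Fintype.card_fun,
    Fintype.card_fin, nsmul_eq_mul]
  rw [sub_eq_zero, ← Finset.sum_fiberwise (s := Finset.univ)
    (g := fun l : Q → Fin L => l ∘ fun i => Q.proj (w i • t)), Finset.mul_sum]
  refine Finset.sum_congr rfl fun ℓ _ => ?_
  rw [Finset.sum_congr rfl fun l hl => by rw [(Finset.mem_filter.1 hl).2], Finset.sum_const,
    nsmul_eq_mul, ← mul_assoc]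
  congr 1
  exact_mod_cast h1 ℓ

theorem cent_star {c : (X → Fin L) → C(X, ℂ)} (h : Cent c) : Cent fun lam => star (c lam) := by
  filter_upwards [h] with Q hQ t
  simp only [ContinuousMap.star_apply]
  rw [← star_sum, hQ t, star_zero]

theorem cent_comp {c : (X → Fin L) → C(X, ℂ)} (h : Cent c) (g : S.Nrm) :
    Cent fun lam => (c lam).comp ⟨g.θ, g.θ.continuous⟩ := by
  filter_upwards [h] with Q hQ t
  exact hQ (g.θ t)

/-- the colour classes of a local rule are random functions -/
theorem isRF_colour {ι : Type} [Fintype ι] (w : ι → S.Nrm) {r : ℕ} (Φ : X → (ι → Fin L) → Fin r)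
    (hΦ : ∀ ℓ, IsLocallyConstant fun t => Φ t ℓ) (k : Fin r) :
    (∀ lam, IsLocallyConstant lam → IsLocallyConstant fun t : X => Φ t fun i => lam (w i • t)) ∧
    S.IsRF fun lam : X → Fin L => ind ((fun t : X => Φ t fun i => lam (w i • t)) ⁻¹' {k}) := by
  have h1 : ∀ lam : X → Fin L, IsLocallyConstant lam →
      IsLocallyConstant fun t : X => Φ t fun i => lam (w i • t) := by
    intro lam hlam
    refine (IsLocallyConstant.iff_eventually_eq _).2 fun x => ?_
    filter_upwards [(isLocallyConstant_labels w hlam).eventually_eq x,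
      (hΦ fun i => lam (w i • x)).eventually_eq x] with y hy hy'
    rw [hy, hy']
  refine ⟨h1, ι, inferInstance, w, fun ℓ => ind ((fun t => Φ t ℓ) ⁻¹' {k}), fun lam hlam t => ?_⟩
  exact (ind_apply ((h1 lam hlam).isClopen_fiber k) t).trans
    (ind_apply ((hΦ fun i => lam (w i • t)).isClopen_fiber k) t).symm

/-- Each colour has probability at most `1 / L` at each point.  Recipe: for `Q` separating the
`w i • t` and `t` (`eventually_sep` for `Option ι`), change the label of the atom of `t`
(`Function.update`, fibre counting along `Equiv.funSplitAt`). -/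
theorem colour_prob_le {ι : Type} [Fintype ι] (w : ι → S.Nrm) {r : ℕ}
    (Φ : X → (ι → Fin L) → Fin r)
    (hinj : ∀ (t : X) (ℓ : ι → Fin L), Function.Injective fun l : Fin L =>
      Φ t (fun i => if w i • t = t then l else ℓ i)) (k : Fin r) :
    ∀ᶠ Q : DiscreteQuotient X in atBot, ∀ t : X,
      (L : ℝ) * (Finset.univ.filter fun l : Q → Fin L =>
        Φ t (fun i => l (Q.proj (w i • t))) = k).card ≤ Fintype.card (Q → Fin L) := by
  filter_upwards [S.eventually_sep fun o : Option ι => o.elim 1 w] with Q hQ t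
  have hq : ∀ i, Q.proj (w i • t) = Q.proj t ↔ w i • t = t := fun i =>
    ⟨hQ (some i) none t, congrArg Q.proj⟩
  have h := Finset.card_le_card_of_injOn
    (s := (Finset.univ : Finset (Fin L)) ×ˢ Finset.univ.filter fun l : Q → Fin L =>
      Φ t (fun i => l (Q.proj (w i • t))) = k) (t := Finset.univ)
    (fun x => Function.update x.2 (Q.proj t) x.1) (fun _ _ => Finset.mem_univ _) ?_
  · rw [Finset.card_product, Finset.card_univ, Fintype.card_fin, Finset.card_univ] at h
    exact_mod_cast h
  · rintro ⟨a, l⟩ hl ⟨a', l'⟩ hl' h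
    have hk := (Finset.mem_filter.1 (Finset.mem_product.1 hl).2).2
    have hk' := (Finset.mem_filter.1 (Finset.mem_product.1 hl').2).2
    simp only at h hk hk'
    have ha : a = a' := by simpa using congrFun h (Q.proj t)
    have hoff : ∀ q, q ≠ Q.proj t → l q = l' q := fun q hq => by
      simpa [Function.update_of_ne hq] using congrFun h q
    have e1 : (fun i => l (Q.proj (w i • t))) =
        fun i => if w i • t = t then l (Q.proj t) else l (Q.proj (w i • t)) := by
      funext i
      split_ifs with hi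
      · rw [hi]
      · rfl
    have e2 : (fun i => l' (Q.proj (w i • t))) =
        fun i => if w i • t = t then l' (Q.proj t) else l (Q.proj (w i • t)) := by
      funext i
      split_ifs with hi
      · rw [hi]
      · exact (hoff _ fun h => hi ((hq i).1 h)).symm
    rw [e1] at hk
    rw [e2] at hk'
    have hon : l (Q.proj t) = l' (Q.proj t) :=
      hinj t (fun i => l (Q.proj (w i • t))) (hk.trans hk'.symm)
    refine Prod.ext ha (funext fun q => ?_)
    by_cases hq' : q = Q.proj t
    · rw [hq']
      exact hon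
    · exact hoff q hq'

end Std

end

end Crest.Agent.R109
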