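import Crest.Agent.R109.Transport
import Crest.Agent.R109.Step

/-!
# Row 109, measured graphs: the potential density and the effect of one round
-/

open MeasureTheory
open scoped BigOperators Pointwise

set_option linter.unusedSectionVars false

namespace Crest.Agent.R109

noncomputable section

open Classical

namespace GraphData

variable {Γ X : Type*} [Group Γ] [MulAction Γ X] [MeasurableSpace X] {μ : Measure X}
  (G : GraphData Γ X μ) {κ : Type*} [Fintype κ] [DecidableEq κ] {J : ℕ}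

/-- the order: first the height `hh`, then the atom -/
def key (a : X → Fin J) (t : X) : ℝ ×ₗ Fin J := toLex (G.hh t, a t)

def pre (m : ℕ) (a : X → Fin J) (o : X) : Finset X :=
  (G.ball m o).filter (fun s => G.key a s ≤ G.key a o)

/-- heights relative to `o` -/
def rel (o : X) : X → ℝ := fun s => G.hh s - G.hh o

def dens (m : ℕ) (a : X → Fin J) (θ : X → κ → ℝ) (o : X) : ℝ :=
  pot G.Y (G.rel o) θ (G.pre m a o) - pot G.Y (G.rel o) θ ((G.pre m a o).erase o)

def DD (m : ℕ) (a : X → Fin J) (θ : X → κ → ℝ) : ℝ := ∫ o, G.dens m a θ o ∂μ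

/-- admissible weight fields -/
structure Adm (θ : X → κ → ℝ) (Θ : ℝ) : Prop where
  meas : ∀ k, Measurable fun t => θ t k
  nonneg : ∀ t k, 0 ≤ θ t k
  le : ∀ t, ∑ k, θ t k ≤ Θ

/-- the locality error -/
def err (j : ℕ) (Θ S : ℝ) : ℝ :=
  16 * (G.V.card : ℝ) ^ (4 * j) * Real.exp (6 * j * G.T + S * (Θ * G.V.card)) / S ^ j

theorem exists_err_le (Θ : ℝ) {ε : ℝ} (hε : 0 < ε) (j₀ : ℕ) :
    ∃ (S : ℝ) (j : ℕ), 1 ≤ S ∧ j₀ ≤ j ∧ G.err j Θ S ≤ ε := by
  set q : ℝ := (G.V.card : ℝ) ^ 4 * Real.exp (6 * G.T) with hq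
  have hq0 : 0 ≤ q := by positivity
  have hr : q / (q + 1) < 1 := by
    rw [div_lt_one (by linarith)]
    linarith
  have h1 := (tendsto_pow_atTop_nhds_zero_of_lt_one (by positivity) hr).const_mul
    (16 * Real.exp ((q + 1) * (Θ * G.V.card)))
  rw [mul_zero] at h1
  obtain ⟨j, hj1, hj2⟩ := ((h1.eventually (ge_mem_nhds hε)).and
    (Filter.eventually_ge_atTop j₀)).exists
  refine ⟨q + 1, j, by linarith, hj2, le_trans (le_of_eq ?_) hj1⟩
  rw [err, Real.exp_add, div_pow, hq, mul_pow, ← pow_mul, ← Real.exp_nat_mul,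
    show (j : ℝ) * (6 * G.T) = 6 * j * G.T by ring]
  ring

theorem Round_Theta_nonneg {θ : X → κ → ℝ} {Θ : ℝ} (hθ : Adm θ Θ) (t : X) : 0 ≤ Θ :=
  (Finset.sum_nonneg fun k _ => hθ.nonneg t k).trans (hθ.le t)

theorem Round_hK {θ : X → κ → ℝ} {Θ : ℝ} (hθ : Adm θ Θ) (Λ : Finset X) (s : X) :
    (∑ k, |θ s k|) * (∑ t ∈ Λ, ‖G.Y s t‖) ≤ Θ * G.V.card := by
  have e : ∑ k, |θ s k| = ∑ k, θ s k :=
    Finset.sum_congr rfl fun k _ => abs_of_nonneg (hθ.nonneg s k)
  rw [e]
  exact mul_le_mul (hθ.le s) (G.sum_norm_Y_le Λ s) (Finset.sum_nonneg fun _ _ => norm_nonneg _)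
    (Round_Theta_nonneg hθ s)

theorem Round_abs_pot_le (m : ℕ) {θ : X → κ → ℝ} {Θ : ℝ} (hθ : Adm θ Θ) (o : X) {Λ : Finset X}
    (hΛ : Λ ⊆ G.ball m o) :
    |pot G.Y (G.rel o) θ Λ| ≤ 2 * (G.V.card : ℝ) ^ m * Real.exp (m * G.T + Θ * G.V.card) := by
  refine (abs_pot_le G.Y (G.rel o) θ Λ (T := m * G.T) (K := Θ * G.V.card)
    (mul_nonneg (Round_Theta_nonneg hθ o) (Nat.cast_nonneg _))
    (fun s hs => G.abs_hh_le (hΛ hs)) (fun s _ => G.Round_hK hθ Λ s)).trans ?_
  have h : (Λ.card : ℝ) ≤ (G.V.card : ℝ) ^ m := by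
    exact_mod_cast (Finset.card_le_card hΛ).trans (G.card_ball_le m o)
  gcongr

theorem Round_measurableSet_key {a : X → Fin J} (ha : Measurable a) (g : Γ) :
    MeasurableSet {o : X | G.key a (g • o) ≤ G.key a o} := by
  have e : {o : X | G.key a (g • o) ≤ G.key a o} =
      {o : X | G.hh (g • o) - G.hh o < 0} ∪
        ({o : X | G.hh (g • o) - G.hh o = 0} ∩ {o : X | a (g • o) ≤ a o}) := by
    ext o
    simp only [key, Set.mem_ofPred_eq, Prod.Lex.toLex_le_toLex, Set.mem_union, Set.mem_inter_iff,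
      sub_neg, sub_eq_zero]
  rw [e]
  refine (measurableSet_lt (G.meas_h g) measurable_const).union
    ((measurableSet_eq_fun (G.meas_h g) measurable_const).inter ?_)
  exact (((FM.of_measurable ha).precomp (G.meas_smul g)).prod (FM.of_measurable ha)).set
    (fun x => x.1 ≤ x.2)

theorem Round_pre_subset (m : ℕ) (a : X → Fin J) (o : X) : G.pre m a o ⊆ G.ball m o :=
  Finset.filter_subset _ _

/-- Recipe: `measurable_pot` (`pre` and its erasure are images of filtered `V ^ m`; the comparison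
of keys is measurable: `Prod.Lex.toLex_le_toLex`, `meas_h`), `abs_pot_le`. -/
theorem integrable_dens [IsFiniteMeasure μ] (m : ℕ) {a : X → Fin J} (ha : Measurable a)
    {θ : X → κ → ℝ} {Θ : ℝ} (hθ : Adm θ Θ) :
    Measurable (G.dens m a θ) ∧ ∃ C, ∀ o, |G.dens m a θ o| ≤ C := by
  constructor
  · have h1 := G.measurable_pot (G.V ^ m) (fun g o => G.key a (g • o) ≤ G.key a o)
      (G.Round_measurableSet_key ha) G.rel (fun g => G.meas_h g) (fun _ => θ)
      (fun g k => (hθ.meas k).comp (G.meas_smul g))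
    have h2 := G.measurable_pot (G.V ^ m) (fun g o => G.key a (g • o) ≤ G.key a o ∧ g • o ≠ o)
      (fun g => (G.Round_measurableSet_key ha g).inter (G.meas_fix g).compl) G.rel
      (fun g => G.meas_h g) (fun _ => θ) (fun g k => (hθ.meas k).comp (G.meas_smul g))
    convert h1.sub h2 using 1
    funext o
    simp only [dens]
    congr 2
    · ext s
      simp only [pre, Finset.mem_filter, mem_ball, Finset.mem_image]
      constructor
      · rintro ⟨⟨g, hg, rfl⟩, h⟩
        exact ⟨g, ⟨hg, h⟩, rfl⟩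
      · rintro ⟨g, ⟨hg, h⟩, rfl⟩
        exact ⟨⟨g, hg, rfl⟩, h⟩
    · ext s
      simp only [pre, Finset.mem_erase, Finset.mem_filter, mem_ball, Finset.mem_image]
      constructor
      · rintro ⟨hne, ⟨g, hg, rfl⟩, h⟩
        exact ⟨g, ⟨hg, h, hne⟩, rfl⟩
      · rintro ⟨g, ⟨hg, h, hne⟩, rfl⟩
        exact ⟨hne, ⟨g, hg, rfl⟩, h⟩
  · refine ⟨2 * (2 * (G.V.card : ℝ) ^ m * Real.exp (m * G.T + Θ * G.V.card)), fun o => ?_⟩
    have h1 := G.Round_abs_pot_le m hθ o (G.Round_pre_subset m a o)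
    have h2 := G.Round_abs_pot_le m hθ o
      ((Finset.erase_subset o _).trans (G.Round_pre_subset m a o))
    have h3 := abs_sub (pot G.Y (G.rel o) θ (G.pre m a o))
      (pot G.Y (G.rel o) θ ((G.pre m a o).erase o))
    rw [dens]
    linarith

theorem dens_nonneg (m : ℕ) (a : X → Fin J) {θ : X → κ → ℝ} (hθ : ∀ t k, 0 ≤ θ t k) (o : X) :
    0 ≤ G.dens m a θ o := by
  exact sub_nonneg.2 (pot_erase_le G.herm G.diag _ hθ o _)

/-- first difference of the potential at `o` -/
def Round_D (θ : X → κ → ℝ) (o : X) (Λ : Finset X) : ℝ :=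
  pot G.Y (G.rel o) θ Λ - pot G.Y (G.rel o) θ (Λ.erase o)

theorem Round_D_congr {θ θ' : X → κ → ℝ} (o : X) {Λ : Finset X} (h : ∀ s ∈ Λ, θ' s = θ s) :
    G.Round_D θ' o Λ = G.Round_D θ o Λ := by
  rw [Round_D, Round_D, pot_congr (fun _ _ _ _ => rfl) (fun _ _ => rfl) h,
    pot_congr (fun _ _ _ _ => rfl) (fun _ _ => rfl) fun s hs => h s (Finset.mem_of_mem_erase hs)]

theorem Round_loc (j : ℕ) {θ : X → κ → ℝ} {Θ S : ℝ} (hS : 1 ≤ S) (hθ : Adm θ Θ) (o : X)
    {Λ : Finset X} (hΛ : Λ ⊆ G.ball (4 * j) o) (hcard : Λ.card ≤ G.V.card ^ (2 * j)) :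
    |G.Round_D θ o Λ - G.Round_D θ o (Λ ∩ G.ball j o)| ≤
      4 * (G.V.card : ℝ) ^ (2 * j) * Real.exp (4 * j * G.T + S * (Θ * G.V.card)) / S ^ j := by
  have h := pot_loc G.Y (G.rel o) θ Λ o (fun i => (G.ball i o : Set X))
    (fun i i' hi => Finset.coe_subset.2 (G.ball_mono hi o)) (G.mem_ball_self 0 o)
    (fun i s _ t _ ht hY => by
      have := G.mem_ball_trans (G.mem_ball_of_Y hY) (Finset.mem_coe.1 ht)
      rw [add_comm] at this
      exact this) j (T := 4 * j * G.T) (K := Θ * G.V.card)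
    (mul_nonneg (Round_Theta_nonneg hθ o) (Nat.cast_nonneg _)) hS
    (fun s hs => by
      have := G.abs_hh_le (hΛ hs)
      push_cast at this
      exact this) (fun s _ => G.Round_hK hθ Λ s)
  have hc : (Λ.card : ℝ) ≤ (G.V.card : ℝ) ^ (2 * j) := by exact_mod_cast hcard
  have hS0 : 0 < S := by linarith
  refine le_trans (le_of_eq ?_) (h.trans (by gcongr))
  rw [Round_D, Round_D]
  congr 4 <;> (ext s; simp)

/-- Pointwise part of the round lemma.  Recipe: `Λ = ball (2j) t`; `sum_telescope` with `key a`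
(injective on `Λ` by `Sep a (4j)`), `pot_empty`; for `o ∈ Λ`, `pot_shift` moves the heights from
`rel t` to `rel o`.  For `Γ₁ = pre (2j) a o`, `Γ₂ = Λ.filter (key ≤ key o)` and `θ, θ'` apply
`pot_loc` four times with `B i = ball i o`, `T = 4 j G.T`, `K = Θ card V`.  If `t ∈ ball j o` then
`ball j o ⊆ Λ` and both truncated regions coincide; otherwise `θ = θ'` on `ball j o`
(`pot_congr`). -/
theorem sum_dens_sub_le (j : ℕ) {a : X → Fin J} (hs : G.Sep a (4 * j)) {θ θ' : X → κ → ℝ}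
    {Θ S : ℝ} (hS : 1 ≤ S) (hθ : Adm θ Θ) (hθ' : Adm θ' Θ) (t : X)
    (heq : ∀ s ∈ G.ball (4 * j) t, s ≠ t → θ' s = θ s) :
    ∑ o ∈ G.ball (2 * j) t,
        (G.dens (2 * j) a θ' o - G.dens (2 * j) a θ o) * Real.exp (G.hh o - G.hh t) ≤
      pot G.Y (G.rel t) θ' (G.ball (2 * j) t) - pot G.Y (G.rel t) θ (G.ball (2 * j) t) +
        G.err j Θ S := by
  set Λ := G.ball (2 * j) t with hΛ
  have h4 : ∀ o ∈ Λ, ∀ s ∈ Λ, s ∈ G.ball (4 * j) o := by
    intro o ho s hs
    have := G.mem_ball_trans hs (G.mem_ball_comm.1 ho)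
    rwa [show 2 * j + 2 * j = 4 * j by ring] at this
  have hinj : Set.InjOn (G.key a) Λ := by
    intro s hs' o ho e
    exact hs s o (h4 o ho s hs') (congrArg (fun x => (ofLex x).2) e)
  have htel : ∀ θ : X → κ → ℝ, pot G.Y (G.rel t) θ Λ =
      ∑ o ∈ Λ, G.Round_D θ o (Λ.filter (fun s => G.key a s ≤ G.key a o)) *
        Real.exp (G.hh o - G.hh t) := by
    intro θ
    have h := sum_telescope (G.key a) Λ hinj (pot G.Y (G.rel t) θ)
    rw [pot_empty, sub_zero] at h
    rw [← h]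
    refine Finset.sum_congr rfl fun o _ => ?_
    have e : G.rel t = fun s => G.rel o s + (G.hh o - G.hh t) := by
      funext s
      simp only [rel]
      ring
    rw [e, pot_shift, pot_shift, Round_D]
    ring
  set E : ℝ := 4 * (G.V.card : ℝ) ^ (2 * j) * Real.exp (4 * j * G.T + S * (Θ * G.V.card)) / S ^ j
    with hE
  have hS0 : 0 < S := by linarith
  have hE0 : 0 ≤ E := by positivity
  have hpt : ∀ o ∈ Λ, (G.dens (2 * j) a θ' o - G.dens (2 * j) a θ o) * Real.exp (G.hh o - G.hh t) ≤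
      G.Round_D θ' o (Λ.filter (fun s => G.key a s ≤ G.key a o)) * Real.exp (G.hh o - G.hh t) -
      G.Round_D θ o (Λ.filter (fun s => G.key a s ≤ G.key a o)) * Real.exp (G.hh o - G.hh t) +
        4 * E * Real.exp (2 * j * G.T) := by
    intro o ho
    set Γ₁ := G.pre (2 * j) a o with hΓ₁
    set Γ₂ := Λ.filter (fun s => G.key a s ≤ G.key a o) with hΓ₂
    have s1 : Γ₁ ⊆ G.ball (4 * j) o :=
      (G.Round_pre_subset _ a o).trans (G.ball_mono (by omega) o)
    have c1 : Γ₁.card ≤ G.V.card ^ (2 * j) :=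
      (Finset.card_le_card (G.Round_pre_subset _ a o)).trans (G.card_ball_le _ o)
    have s2 : Γ₂ ⊆ G.ball (4 * j) o := fun s hs => h4 o ho s (Finset.mem_filter.1 hs).1
    have c2 : Γ₂.card ≤ G.V.card ^ (2 * j) :=
      (Finset.card_le_card (Finset.filter_subset _ _)).trans (G.card_ball_le _ t)
    have l1 := abs_le.1 (G.Round_loc j hS hθ o s1 c1)
    have l2 := abs_le.1 (G.Round_loc j hS hθ' o s1 c1)
    have l3 := abs_le.1 (G.Round_loc j hS hθ o s2 c2)
    have l4 := abs_le.1 (G.Round_loc j hS hθ' o s2 c2)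
    have hkey : G.Round_D θ' o (Γ₁ ∩ G.ball j o) - G.Round_D θ o (Γ₁ ∩ G.ball j o) =
        G.Round_D θ' o (Γ₂ ∩ G.ball j o) - G.Round_D θ o (Γ₂ ∩ G.ball j o) := by
      by_cases ht : t ∈ G.ball j o
      · have e : Γ₁ ∩ G.ball j o = Γ₂ ∩ G.ball j o := by
          ext s
          simp only [hΓ₁, hΓ₂, pre, Finset.mem_inter, Finset.mem_filter]
          refine and_congr_left fun hs => and_congr_left fun _ => ?_
          refine iff_of_true (G.ball_mono (by omega) o hs) ?_
          have := G.mem_ball_trans hs (G.mem_ball_comm.1 ht)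
          rwa [← two_mul] at this
        rw [e]
      · have hθθ : ∀ s ∈ G.ball j o, θ' s = θ s := by
          intro s hs
          refine heq s (G.ball_mono (by omega) t (G.mem_ball_trans hs ho)) ?_
          rintro rfl
          exact ht hs
        rw [G.Round_D_congr o (fun s hs => hθθ s (Finset.mem_inter.1 hs).2),
          G.Round_D_congr o (Λ := Γ₂ ∩ G.ball j o) (fun s hs => hθθ s (Finset.mem_inter.1 hs).2),
          sub_self, sub_self]
    have hd : G.dens (2 * j) a θ' o - G.dens (2 * j) a θ o ≤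
        G.Round_D θ' o Γ₂ - G.Round_D θ o Γ₂ + 4 * E := by
      change G.Round_D θ' o Γ₁ - G.Round_D θ o Γ₁ ≤ _
      linarith [l1.1, l2.2, l3.2, l4.1]
    have hexp : Real.exp (G.hh o - G.hh t) ≤ Real.exp (2 * j * G.T) := by
      refine Real.exp_le_exp.2 ((le_abs_self _).trans ?_)
      have := G.abs_hh_le ho
      push_cast at this
      exact this
    have h5 := mul_le_mul_of_nonneg_right hd (Real.exp_pos (G.hh o - G.hh t)).le
    have h6 := mul_le_mul_of_nonneg_left hexp (by positivity : 0 ≤ 4 * E)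
    linarith
  refine (Finset.sum_le_sum hpt).trans ?_
  rw [Finset.sum_add_distrib, Finset.sum_sub_distrib, ← htel, ← htel, Finset.sum_const,
    nsmul_eq_mul]
  have hc : (Λ.card : ℝ) ≤ (G.V.card : ℝ) ^ (2 * j) := by exact_mod_cast G.card_ball_le _ t
  have h7 : (G.V.card : ℝ) ^ (2 * j) * (4 * E * Real.exp (2 * j * G.T)) = G.err j Θ S := by
    rw [hE, err, show 6 * j * G.T + S * (Θ * G.V.card) =
      (4 * j * G.T + S * (Θ * G.V.card)) + 2 * j * G.T by ring, Real.exp_add (_ + _)]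
    ring
  rw [← h7]
  gcongr

/-- One round.  Recipe: `mass_transport` for `f o t = 1[t ∈ U] (dens θ' o - dens θ o)`: a ball of
radius `2j` contains at most one point of `U`, and if it contains none the two densities agree. -/
theorem round [IsFiniteMeasure μ] (j : ℕ) {a : X → Fin J} (ha : Measurable a)
    (hs : G.Sep a (4 * j)) {θ θ' : X → κ → ℝ} {Θ S c : ℝ} (hS : 1 ≤ S) (hθ : Adm θ Θ)
    (hθ' : Adm θ' Θ) {U : Set X} (hU : MeasurableSet U)
    (hUs : ∀ s ∈ U, ∀ t ∈ U, s ∈ G.ball (4 * j) t → s = t) (heq : ∀ s, s ∉ U → θ' s = θ s)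
    (hc : ∀ t ∈ U, pot G.Y (G.rel t) θ' (G.ball (2 * j) t) ≤
      pot G.Y (G.rel t) θ (G.ball (2 * j) t) + c) :
    G.DD (2 * j) a θ' ≤ G.DD (2 * j) a θ + (c + G.err j Θ S) * μ.real U := by
  obtain ⟨hm, C, hC⟩ := G.integrable_dens (μ := μ) (2 * j) ha hθ
  obtain ⟨hm', C', hC'⟩ := G.integrable_dens (μ := μ) (2 * j) ha hθ'
  have i1 : Integrable (G.dens (2 * j) a θ) μ :=
    Integrable.of_bound hm.aestronglyMeasurable C (Filter.Eventually.of_forall hC)
  have i2 : Integrable (G.dens (2 * j) a θ') μ :=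
    Integrable.of_bound hm'.aestronglyMeasurable C' (Filter.Eventually.of_forall hC')
  obtain ⟨-, i3, hmt⟩ := G.mass_transport (2 * j)
    (fun o t => if t ∈ U then G.dens (2 * j) a θ' o - G.dens (2 * j) a θ o else 0)
    (fun g => Measurable.ite hU ((hm'.sub hm).comp (G.meas_smul g)) measurable_const)
    (C := C' + C) (fun o t _ => by
      have h1 := hC o
      have h2 := hC' o
      split_ifs
      · exact (abs_sub _ _).trans (add_le_add h2 h1)
      · rw [abs_zero]
        exact add_nonneg ((abs_nonneg _).trans h2) ((abs_nonneg _).trans h1))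
  have e1 : ∀ o, ∑ t ∈ G.ball (2 * j) o,
      (if t ∈ U then G.dens (2 * j) a θ' o - G.dens (2 * j) a θ o else 0) =
      G.dens (2 * j) a θ' o - G.dens (2 * j) a θ o := by
    intro o
    by_cases hex : ∃ u ∈ G.ball (2 * j) o, u ∈ U
    · obtain ⟨u, hu, huU⟩ := hex
      rw [Finset.sum_eq_single_of_mem u hu, if_pos huU]
      intro t ht htu
      refine if_neg fun htU => htu (hUs t htU u huU ?_)
      have := G.mem_ball_trans ht (G.mem_ball_comm.1 hu)
      rwa [show 2 * j + 2 * j = 4 * j by ring] at this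
    · rw [Finset.sum_eq_zero fun t ht => if_neg fun htU => hex ⟨t, ht, htU⟩]
      have := G.Round_D_congr (θ := θ) (θ' := θ') o (Λ := G.pre (2 * j) a o)
        fun s hs => heq s fun hsU => hex ⟨s, G.Round_pre_subset _ a o hs, hsU⟩
      exact (sub_eq_zero.2 this).symm
  have e2 : ∀ t, ∑ o ∈ G.ball (2 * j) t,
      (if t ∈ U then G.dens (2 * j) a θ' o - G.dens (2 * j) a θ o else 0) *
        Real.exp (G.hh o - G.hh t) ≤ U.indicator (fun _ => c + G.err j Θ S) t := by
    intro t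
    by_cases ht : t ∈ U
    · simp only [if_pos ht, Set.indicator_of_mem ht]
      have h1 := G.sum_dens_sub_le j hs hS hθ hθ' t
        fun s hs hst => heq s fun hsU => hst (hUs s hsU t ht hs)
      have h2 := hc t ht
      linarith
    · simp only [if_neg ht, Set.indicator_of_notMem ht, zero_mul, Finset.sum_const_zero, le_refl]
  have h3 := integral_mono i3 ((integrable_const _).indicator hU) e2
  rw [← hmt, integral_indicator_const _ hU, smul_eq_mul] at h3
  simp only [e1] at h3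
  rw [integral_sub i2 i1] at h3
  rw [DD, DD]
  linarith

end GraphData

end

end Crest.Agent.R109
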