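import Crest.Agent.R109.Round
import Crest.Agent.R109.InitFin

/-!
# Row 109: monotonicity, initial and final bounds for the mean potential
-/

open MeasureTheory
open scoped BigOperators Pointwise

set_option linter.unusedSectionVars false

namespace Crest.Agent.R109

noncomputable section

open Classical

namespace GraphData

variable {Γ X : Type*} [Group Γ] [MulAction Γ X] [MeasurableSpace X] {μ : Measure X}
  (G : GraphData Γ X μ) {κ : Type*} [Fintype κ] [DecidableEq κ] {J : ℕ}

/-- Lowering the weights.  Recipe: rounds over the atoms of `a`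
(`θ_i t = if a t < i then θ' t else θ t`), `round` with `c = 0` and `pot_mono`. -/
theorem DD_mono [IsFiniteMeasure μ] (j : ℕ) {a : X → Fin J} (ha : Measurable a)
    (hs : G.Sep a (4 * j)) {θ θ' : X → κ → ℝ} {Θ S : ℝ} (hS : 1 ≤ S) (hθ : Adm θ Θ)
    (hθ' : Adm θ' Θ) (hle : ∀ t k, θ' t k ≤ θ t k) :
    G.DD (2 * j) a θ' ≤ G.DD (2 * j) a θ + G.err j Θ S * μ.real Set.univ := by
  let θi : ℕ → X → κ → ℝ := fun i t => if (a t : ℕ) < i then θ' t else θ t
  have hlt : ∀ i : ℕ, MeasurableSet {t | (a t : ℕ) < i} := fun i =>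
    ha (MeasurableSet.of_discrete (s := {x : Fin J | (x : ℕ) < i}))
  have heqs : ∀ i : ℕ, MeasurableSet {t | (a t : ℕ) = i} := fun i =>
    ha (MeasurableSet.of_discrete (s := {x : Fin J | (x : ℕ) = i}))
  have hadm : ∀ i, Adm (θi i) Θ := by
    intro i
    refine ⟨fun k => ?_, fun t k => ?_, fun t => ?_⟩
    · have : (fun t => θi i t k) = fun t => if (a t : ℕ) < i then θ' t k else θ t k := by
        funext t
        simp only [θi]
        split_ifs <;> rfl
      rw [this]
      exact Measurable.ite (hlt i) (hθ'.meas k) (hθ.meas k)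
    · simp only [θi]
      split_ifs
      exacts [hθ'.nonneg t k, hθ.nonneg t k]
    · simp only [θi]
      split_ifs
      exacts [hθ'.le t, hθ.le t]
  have key : ∀ i : ℕ, G.DD (2 * j) a (θi i) ≤
      G.DD (2 * j) a θ + G.err j Θ S * μ.real {t | (a t : ℕ) < i} := by
    intro i
    induction i with
    | zero =>
      have : θi 0 = θ := by funext t; simp [θi]
      simp [this]
    | succ i ih =>
      have hoff : ∀ s, (a s : ℕ) ≠ i → θi (i + 1) s = θi i s := by
        intro s hs'
        have : ((a s : ℕ) < i + 1) ↔ ((a s : ℕ) < i) := by omega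
        simp only [θi, this]
      have h1 := G.round j ha hs (c := 0) hS (hadm i) (hadm (i + 1)) (heqs i)
        (fun s hs1 t ht1 hst => hs s t hst (Fin.ext (hs1.trans ht1.symm))) hoff (by
          intro t ht
          have ht' : (a t : ℕ) = i := ht
          rw [add_zero, pot_congr (Y' := G.Y) (h' := G.rel t) (θ := θi i)
            (θ' := Function.update (θi (i + 1)) t (θ t)) (fun _ _ _ _ => rfl) (fun _ _ => rfl)]
          · refine pot_mono G.herm G.diag _ (hadm (i + 1)).nonneg t (fun k => ?_)
              (fun s hs' => Function.update_of_ne hs' _ _) _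
            simp [θi, ht', hle]
          · intro s hs'
            by_cases e : s = t
            · subst e
              simp [θi, ht']
            · rw [Function.update_of_ne e, hoff]
              intro h2
              exact e (hs s t (G.ball_mono (by omega) t hs') (Fin.ext (h2.trans ht'.symm))))
      have h2 : {t | (a t : ℕ) < i + 1} = {t | (a t : ℕ) < i} ∪ {t | (a t : ℕ) = i} := by
        ext t
        simp only [Set.mem_ofPred_eq, Set.mem_union]
        omega
      rw [h2, measureReal_union _ (heqs i)]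
      · linarith
      · rw [Set.disjoint_left]
        intro t h3 h4
        simp only [Set.mem_ofPred_eq] at h3 h4
        omega
  have e1 : θi J = θ' := by funext t; simp [θi]
  have e2 : {t | (a t : ℕ) < J} = Set.univ := by ext t; simp
  have := key J
  rwa [e1, e2] at this

/-- `pot_init`: the heights on `pre` are `≤ 0`. -/
theorem DD_init [IsFiniteMeasure μ] [Nonempty κ] (m : ℕ) {a : X → Fin J} (ha : Measurable a)
    {β : ℝ} (hβ : 0 ≤ β) :
    G.DD m a (fun _ (_ : κ) => β * (1000 / Fintype.card κ)) ≤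
      Real.exp (7000 * β / √(Fintype.card κ)) * μ.real Set.univ := by
  have hadm : Adm (fun (_ : X) (_ : κ) => β * (1000 / Fintype.card κ))
      (∑ _k : κ, β * (1000 / Fintype.card κ)) :=
    ⟨fun _ => measurable_const, fun _ _ => by positivity, fun _ => le_rfl⟩
  obtain ⟨hm, C, hC⟩ := G.integrable_dens m ha hadm
  have hint : Integrable (G.dens m a fun _ (_ : κ) => β * (1000 / Fintype.card κ)) μ :=
    Integrable.of_bound hm.aestronglyMeasurable C (ae_of_all _ hC)
  have := integral_mono hint (integrable_const (Real.exp (7000 * β / √(Fintype.card κ)))) (by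
    intro o
    have h1 := pot_init (κ := κ) G.herm G.diag (G.rel o) (G.form (G.pre m a o)) (o := o)
      (Finset.mem_filter.2 ⟨G.mem_ball_self m o, le_rfl⟩) (fun s hs => by
        have h2 := Prod.Lex.monotone_fst _ _ (Finset.mem_filter.1 hs).2
        simp only [key, ofLex_toLex] at h2
        simp only [rel]
        linarith) hβ
    simpa [rel, dens] using h1)
  rw [integral_const, smul_eq_mul, mul_comm (μ.real _)] at this
  exact this

theorem round2_split {n : ℕ} {θ : X → κ → ℝ} {C₀ : Set X}
    (hCs : ∀ s ∈ C₀, ∀ t ∈ C₀, s ∈ G.ball (2 * n + 1) t → s = t)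
    (hsupp : ∀ s k, θ s k ≠ 0 → ∃ c ∈ C₀, s ∈ G.ball n c) {c : X} (hc : c ∈ C₀) (h : X → ℝ)
    (P : Finset X) : pot G.Y h θ P = pot G.Y h θ (P.filter (· ∈ G.ball n c)) +
      pot G.Y h θ (P.filter (fun s => s ∉ G.ball n c ∧ ∃ k, θ s k ≠ 0)) := by
  rw [← pot_union]
  · refine pot_subset _ _ _ (Finset.union_subset (Finset.filter_subset _ _)
      (Finset.filter_subset _ _)) fun s hs hs' k => ?_
    by_contra h0
    by_cases e : s ∈ G.ball n c
    · exact hs' (Finset.mem_union_left _ (Finset.mem_filter.2 ⟨hs, e⟩))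
    · exact hs' (Finset.mem_union_right _ (Finset.mem_filter.2 ⟨hs, e, k, h0⟩))
  · rw [Finset.disjoint_left]
    intro s h1 h2
    exact (Finset.mem_filter.1 h2).2.1 (Finset.mem_filter.1 h1).2
  · intro s h1 t h2
    by_contra h0
    obtain ⟨-, h3, k, h4⟩ := Finset.mem_filter.1 h2
    obtain ⟨c', hc', h5⟩ := hsupp t k h4
    have h6 := G.mem_ball_trans (G.mem_ball_trans (G.mem_ball_comm.1 h5) (G.mem_ball_of_Y h0))
      (Finset.mem_filter.1 h1).2
    have := hCs c' hc' c hc (G.ball_mono (by omega) c h6)
    exact h3 (this ▸ h5)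

/-- Lower bound by separated balls.  Recipe: `dens ≥ 0`; `mass_transport` with radius `n` for
`f o c = 1[c ∈ C₀] dens θ o` (at most one `c`).  For `c ∈ C₀`, `o ∈ ball n c`: drop the points of
weight zero (`pot_subset`), split the rest of `pre m a o` into the part in `ball n c` and the part in
the balls around other centres (no edges between them since the centres are `(2n+1)`-separated;
`pot_union`), so `dens θ o` is the first difference inside `ball n c ⊆ ball m o`; `pot_shift`,
`sum_telescope`. -/
theorem le_DD [IsFiniteMeasure μ] {m n : ℕ} (hm : 2 * n ≤ m) {a : X → Fin J} (ha : Measurable a)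
    (hs : G.Sep a (2 * n)) {θ : X → κ → ℝ} {Θ b : ℝ} (hθ : Adm θ Θ) {C₀ : Set X}
    (hC : MeasurableSet C₀) (hCs : ∀ s ∈ C₀, ∀ t ∈ C₀, s ∈ G.ball (2 * n + 1) t → s = t)
    (hsupp : ∀ s k, θ s k ≠ 0 → ∃ c ∈ C₀, s ∈ G.ball n c)
    (hb : ∀ c ∈ C₀, b ≤ pot G.Y (G.rel c) θ (G.ball n c)) :
    b * μ.real C₀ ≤ G.DD m a θ := by
  obtain ⟨hmeas, C, hCb⟩ := G.integrable_dens m ha hθ
  have hint : Integrable (G.dens m a θ) μ :=
    Integrable.of_bound hmeas.aestronglyMeasurable C (ae_of_all _ hCb)
  obtain ⟨i1, i2, hmt⟩ := G.mass_transport n (fun o c => if c ∈ C₀ then G.dens m a θ o else 0)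
    (fun g => Measurable.ite hC (hmeas.comp (G.meas_smul g)) measurable_const) (C := C)
    (fun o t _ => by
      split_ifs
      · exact hCb o
      · simpa using (abs_nonneg _).trans (hCb o))
  have h1 : ∫ o, ∑ t ∈ G.ball n o, (if t ∈ C₀ then G.dens m a θ o else 0) ∂μ ≤ G.DD m a θ := by
    refine integral_mono i1 hint fun o => ?_
    have h0 := G.dens_nonneg m a hθ.nonneg o
    simp only [← Finset.sum_filter, Finset.sum_const, nsmul_eq_mul]
    have hc : ((G.ball n o).filter (· ∈ C₀)).card ≤ 1 := by
      refine Finset.card_le_one.2 fun s hs1 t ht1 => ?_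
      rw [Finset.mem_filter] at hs1 ht1
      exact hCs s hs1.2 t ht1.2 (G.ball_mono (by omega) t
        (G.mem_ball_trans hs1.1 (G.mem_ball_comm.1 ht1.1)))
    have hc' : (((G.ball n o).filter (· ∈ C₀)).card : ℝ) ≤ 1 := by exact_mod_cast hc
    nlinarith
  refine le_trans ?_ (hmt ▸ h1)
  rw [mul_comm, ← smul_eq_mul, ← integral_indicator_const _ hC]
  refine integral_mono ((integrable_const b).indicator hC) i2 fun c => ?_
  by_cases hc : c ∈ C₀
  · simp only [Set.indicator_of_mem hc, if_pos hc]
    have hinj : Set.InjOn (G.key a) (G.ball n c) := by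
      intro s hs1 t ht1 e
      refine hs s t (G.ball_mono (by omega) t
        (G.mem_ball_trans (Finset.mem_coe.1 hs1) (G.mem_ball_comm.1 (Finset.mem_coe.1 ht1)))) ?_
      exact congrArg (fun x => (ofLex x).2) e
    have htel := sum_telescope (G.key a) (G.ball n c) hinj (pot G.Y (G.rel c) θ)
    rw [pot_empty, sub_zero] at htel
    refine (hb c hc).trans (le_of_eq ?_)
    rw [← htel]
    refine Finset.sum_congr rfl fun o ho => ?_
    have hrel : G.rel c = fun s => G.rel o s + (G.hh o - G.hh c) := by
      funext s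
      simp only [rel]
      ring
    have e1 : (G.pre m a o).filter (· ∈ G.ball n c) =
        (G.ball n c).filter (fun s => G.key a s ≤ G.key a o) := by
      ext s
      simp only [pre, Finset.mem_filter]
      exact ⟨fun h => ⟨h.2, h.1.2⟩, fun h => ⟨⟨G.ball_mono (by omega) o
        (G.mem_ball_trans h.1 (G.mem_ball_comm.1 ho)), h.2⟩, h.1⟩⟩
    have e2 : ((G.pre m a o).erase o).filter (fun s => s ∉ G.ball n c ∧ ∃ k, θ s k ≠ 0) =
        (G.pre m a o).filter (fun s => s ∉ G.ball n c ∧ ∃ k, θ s k ≠ 0) := by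
      ext s
      simp only [Finset.mem_filter, Finset.mem_erase]
      exact ⟨fun h => ⟨h.1.2, h.2⟩, fun h => ⟨⟨fun e => h.2.1 (e ▸ ho), h.1⟩, h.2⟩⟩
    rw [hrel, pot_shift, pot_shift, dens, G.round2_split hCs hsupp hc _ (G.pre m a o),
      G.round2_split hCs hsupp hc _ ((G.pre m a o).erase o), e2, Finset.filter_erase, e1]
    ring
  · simp [hc]

end GraphData

end

end Crest.Agent.R109
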