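import Mathlib

/-!
# Row 109: the secular equation `x - h = ∑ a μ / (x - μ)`
-/

open Polynomial MeasureTheory Set
open scoped BigOperators

namespace Crest.Agent.R109

noncomputable section

/-- the region where the secular function lies above `x - h` -/
def Om (h : ℝ) (P : Finset ℝ) (a : ℝ → ℝ) : Set ℝ := {x | x - h < ∑ μ ∈ P, a μ / (x - μ)}

/-- its exponential weight -/
def EE (h : ℝ) (P : Finset ℝ) (a : ℝ → ℝ) : ℝ := ∫ x in Om h P a, Real.exp x

theorem measurableSet_Om (h : ℝ) (P : Finset ℝ) (a : ℝ → ℝ) : MeasurableSet (Om h P a) :=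
  measurableSet_lt (by fun_prop) (Finset.measurable_sum _ fun μ _ => by fun_prop)

/-- far to the right nothing is in `Om`, far to the left everything is -/
theorem Om_bounds (h : ℝ) (P : Finset ℝ) (a : ℝ → ℝ) :
    ∃ T : ℝ, Om h P a ⊆ Iio T ∧ Iio (-T) ⊆ Om h P a := by
  set S₁ : ℝ := ∑ μ ∈ P, |μ| with hS₁
  set S₂ : ℝ := ∑ μ ∈ P, |a μ| with hS₂
  have h1 : 0 ≤ S₁ := Finset.sum_nonneg fun _ _ => abs_nonneg _
  have h2 : 0 ≤ S₂ := Finset.sum_nonneg fun _ _ => abs_nonneg _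
  have h3 : ∀ μ ∈ P, |μ| ≤ S₁ := fun μ hμ =>
    Finset.single_le_sum (f := fun μ : ℝ => |μ|) (fun _ _ => abs_nonneg _) hμ
  have key : ∀ x, S₁ + 1 ≤ |x| → |∑ μ ∈ P, a μ / (x - μ)| ≤ S₂ := by
    intro x hx
    refine (Finset.abs_sum_le_sum_abs _ _).trans (Finset.sum_le_sum fun μ hμ => ?_)
    have := abs_sub_abs_le_abs_sub x μ
    rw [abs_div]
    exact div_le_self (abs_nonneg _) (by linarith [h3 μ hμ])
  have hh := abs_nonneg h
  refine ⟨S₁ + S₂ + |h| + 1, fun x hx => ?_, fun x hx => ?_⟩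
  · by_contra hc
    have hc' : S₁ + S₂ + |h| + 1 ≤ x := not_lt.1 hc
    have := (abs_le.1 (key x (by linarith [le_abs_self x]))).2
    have hx' : x - h < ∑ μ ∈ P, a μ / (x - μ) := hx
    linarith [neg_abs_le h, le_abs_self h]
  · have hc' : x < -(S₁ + S₂ + |h| + 1) := hx
    have := (abs_le.1 (key x (by linarith [neg_le_abs x]))).1
    show x - h < ∑ μ ∈ P, a μ / (x - μ)
    linarith [neg_abs_le h, le_abs_self h]

theorem integrableOn_exp_Om (h : ℝ) (P : Finset ℝ) (a : ℝ → ℝ) :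
    IntegrableOn Real.exp (Om h P a) := by
  obtain ⟨T, hT, -⟩ := Om_bounds h P a
  exact (integrableOn_exp_Iic T).mono_set (hT.trans Iio_subset_Iic_self)

/-- the numerator of the secular function -/
def Secular_r (h : ℝ) (P : Finset ℝ) (a : ℝ → ℝ) : ℂ[X] :=
  (X - C (h : ℂ)) * ∏ μ ∈ P, (X - C (μ : ℂ)) -
    ∑ μ ∈ P, C (a μ : ℂ) * ∏ ν ∈ P.erase μ, (X - C (ν : ℂ))

theorem Secular_r_monic (h : ℝ) (P : Finset ℝ) (a : ℝ → ℝ) :
    (Secular_r h P a).Monic ∧ (Secular_r h P a).natDegree = P.card + 1 := by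
  have hm : ∀ Q : Finset ℝ, (∏ μ ∈ Q, (X - C (μ : ℂ))).Monic := fun Q =>
    monic_prod_of_monic _ _ fun μ _ => monic_X_sub_C _
  have hd : ∀ Q : Finset ℝ, (∏ μ ∈ Q, (X - C (μ : ℂ))).natDegree = Q.card := fun Q => by
    rw [natDegree_prod_of_monic _ _ fun μ _ => monic_X_sub_C _]
    simp
  have h1 : ((X - C (h : ℂ)) * ∏ μ ∈ P, (X - C (μ : ℂ))).Monic := (monic_X_sub_C _).mul (hm P)
  have h2 : ((X - C (h : ℂ)) * ∏ μ ∈ P, (X - C (μ : ℂ))).natDegree = P.card + 1 := by
    rw [(monic_X_sub_C _).natDegree_mul (hm P), hd, natDegree_X_sub_C, add_comm]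
  have h3 : (∑ μ ∈ P, C (a μ : ℂ) * ∏ ν ∈ P.erase μ, (X - C (ν : ℂ))).natDegree ≤ P.card :=
    natDegree_sum_le_of_forall_le _ _ fun μ _ => (natDegree_C_mul_le _ _).trans (by
      rw [hd]; exact Finset.card_erase_le)
  have h4 : (∑ μ ∈ P, C (a μ : ℂ) * ∏ ν ∈ P.erase μ, (X - C (ν : ℂ))).natDegree <
      ((X - C (h : ℂ)) * ∏ μ ∈ P, (X - C (μ : ℂ))).natDegree := by omega
  exact ⟨h1.sub_of_left (degree_lt_degree h4),
    (natDegree_sub_eq_left_of_natDegree_lt h4).trans h2⟩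

theorem Secular_r_eval' (h : ℝ) (P : Finset ℝ) (a : ℝ → ℝ) (z : ℂ) :
    (Secular_r h P a).eval z = (z - h) * ∏ μ ∈ P, (z - μ) -
      ∑ μ ∈ P, (a μ : ℂ) * ∏ ν ∈ P.erase μ, (z - ν) := by
  simp [Secular_r, eval_prod, eval_finsetSum]

theorem Secular_r_eval (h : ℝ) (P : Finset ℝ) (a : ℝ → ℝ) {z : ℂ} (hz : ∀ μ ∈ P, z ≠ μ) :
    (Secular_r h P a).eval z =
      (∏ μ ∈ P, (z - μ)) * (z - h - ∑ μ ∈ P, (a μ : ℂ) / (z - μ)) := by
  rw [Secular_r_eval', mul_sub (∏ μ ∈ P, (z - (μ : ℂ))), mul_comm (z - h), Finset.mul_sum]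
  congr 1
  refine Finset.sum_congr rfl fun μ hμ => ?_
  rw [← Finset.mul_prod_erase P (fun ν : ℝ => z - ν) hμ]
  have := sub_ne_zero.2 (hz μ hμ)
  field_simp

theorem Secular_root_ne {h : ℝ} {P : Finset ℝ} {a : ℝ → ℝ} (ha : ∀ μ ∈ P, 0 < a μ) {z : ℂ}
    (hz : (Secular_r h P a).eval z = 0) : ∀ μ ∈ P, z ≠ μ := by
  rintro μ hμ rfl
  rw [Secular_r_eval', Finset.prod_eq_zero hμ (sub_self (μ : ℂ)), mul_zero, zero_sub, neg_eq_zero,
    Finset.sum_eq_single_of_mem μ hμ] at hz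
  · rcases mul_eq_zero.1 hz with h1 | h1
    · exact (ha μ hμ).ne' (by exact_mod_cast h1)
    · obtain ⟨ν, hν, h2⟩ := Finset.prod_eq_zero_iff.1 h1
      exact (Finset.mem_erase.1 hν).1 (by exact_mod_cast (sub_eq_zero.1 h2).symm)
  · intro ν _ hν
    rw [Finset.prod_eq_zero (Finset.mem_erase.2 ⟨hν.symm, hμ⟩) (sub_self (μ : ℂ)), mul_zero]

theorem Secular_root_eq {h : ℝ} {P : Finset ℝ} {a : ℝ → ℝ} (ha : ∀ μ ∈ P, 0 < a μ) {z : ℂ}
    (hz : (Secular_r h P a).eval z = 0) : z - h - ∑ μ ∈ P, (a μ : ℂ) / (z - μ) = 0 := by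
  have h1 := Secular_root_ne ha hz
  rw [Secular_r_eval h P a h1] at hz
  exact (mul_eq_zero.1 hz).resolve_left
    (Finset.prod_ne_zero_iff.2 fun μ hμ => sub_ne_zero.2 (h1 μ hμ))

theorem Secular_root_real {h : ℝ} {P : Finset ℝ} {a : ℝ → ℝ} (ha : ∀ μ ∈ P, 0 < a μ) {z : ℂ}
    (hz : (Secular_r h P a).eval z = 0) : (z.re : ℂ) = z := by
  have h1 := congrArg Complex.im (Secular_root_eq ha hz)
  have h2 : ∀ μ : ℝ, ((a μ : ℂ) / (z - μ)).im = -(a μ / Complex.normSq (z - μ)) * z.im := by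
    intro μ
    rw [Complex.div_im]
    simp
    ring
  simp only [Complex.sub_im, Complex.ofReal_im, Complex.im_sum, h2, Complex.zero_im, sub_zero,
    ← Finset.sum_mul, Finset.sum_neg_distrib] at h1
  have h3 : 0 ≤ ∑ μ ∈ P, a μ / Complex.normSq (z - μ) :=
    Finset.sum_nonneg fun μ hμ => div_nonneg (ha μ hμ).le (Complex.normSq_nonneg _)
  have h4 : (1 + ∑ μ ∈ P, a μ / Complex.normSq (z - μ)) * z.im = 0 := by linarith
  have h5 : z.im = 0 := (mul_eq_zero.1 h4).resolve_left (by linarith)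
  exact Complex.ext (by simp) (by simp [h5])

theorem Secular_nodup {h : ℝ} {P : Finset ℝ} {a : ℝ → ℝ} (ha : ∀ μ ∈ P, 0 < a μ) :
    (Secular_r h P a).roots.Nodup := by
  rw [Multiset.nodup_iff_count_le_one]
  intro z
  rw [count_roots]
  by_contra hc
  obtain ⟨hz, hz'⟩ := (one_lt_rootMultiplicity_iff_isRoot (Secular_r_monic h P a).1.ne_zero).1
    (not_le.1 hc)
  have h1 := Secular_root_ne ha hz
  have h2 := Secular_root_eq ha hz
  have h3 := Secular_root_real ha hz
  have hF : HasDerivAt (fun w : ℂ => w - h - ∑ μ ∈ P, (a μ : ℂ) / (w - μ))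
      (1 - ∑ μ ∈ P, -(a μ : ℂ) / (z - μ) ^ 2) z := by
    refine ((hasDerivAt_id z).sub_const _).sub (HasDerivAt.fun_sum fun μ hμ => ?_)
    refine ((hasDerivAt_const z (a μ : ℂ)).div ((hasDerivAt_id z).sub_const (μ : ℂ))
      (sub_ne_zero.2 (h1 μ hμ))).congr_deriv ?_
    simp
  have hG := (∏ μ ∈ P, (X - C (μ : ℂ)) : ℂ[X]).hasDerivAt z
  have hr := (Secular_r h P a).hasDerivAt z
  have hev : ∀ᶠ w : ℂ in nhds z, ∀ μ ∈ P, w ≠ (μ : ℂ) :=
    (Filter.eventually_all_finset P).2 fun μ hμ => eventually_ne_nhds (h1 μ hμ)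
  have h4 := (hG.mul hF).congr_of_eventuallyEq (f₁ := fun w => (Secular_r h P a).eval w)
    (hev.mono fun w hw => by simp [Secular_r_eval h P a hw, eval_prod])
  have h5 := hr.unique h4
  rw [hz'.eq_zero, h2, mul_zero, zero_add] at h5
  rcases mul_eq_zero.1 h5.symm with h6 | h6
  · rw [eval_prod] at h6
    obtain ⟨μ, hμ, h7⟩ := Finset.prod_eq_zero_iff.1 h6
    exact h1 μ hμ (sub_eq_zero.1 (by simpa using h7))
  · rw [← h3] at h6
    have h7 : (1 : ℝ) - ∑ μ ∈ P, -a μ / (z.re - μ) ^ 2 = 0 := by exact_mod_cast h6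
    have h8 : ∑ μ ∈ P, -a μ / (z.re - μ) ^ 2 ≤ 0 :=
      Finset.sum_nonpos fun μ hμ => div_nonpos_of_nonpos_of_nonneg (by linarith [ha μ hμ])
        (sq_nonneg _)
    linarith

/-- strict monotonicity between consecutive poles -/
theorem Secular_mono (h : ℝ) {P : Finset ℝ} {a : ℝ → ℝ} (ha : ∀ μ ∈ P, 0 < a μ) {x y : ℝ}
    (hxy : x < y) (hy : y ∉ P) (hc : (P.filter (· < x)).card = (P.filter (· < y)).card) :
    x - h - ∑ μ ∈ P, a μ / (x - μ) < y - h - ∑ μ ∈ P, a μ / (y - μ) := by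
  have h1 : P.filter (· < x) = P.filter (· < y) :=
    Finset.eq_of_subset_of_card_le (fun μ hμ => Finset.mem_filter.2
      ⟨(Finset.mem_filter.1 hμ).1, (Finset.mem_filter.1 hμ).2.trans hxy⟩) hc.ge
  have h2 : ∑ μ ∈ P, a μ / (y - μ) ≤ ∑ μ ∈ P, a μ / (x - μ) := by
    refine Finset.sum_le_sum fun μ hμ => ?_
    have h0 := ha μ hμ
    rcases lt_trichotomy μ y with h3 | h3 | h3
    · have h4 : μ ∈ P.filter (· < x) := h1 ▸ Finset.mem_filter.2 ⟨hμ, h3⟩
      have h5 : μ < x := (Finset.mem_filter.1 h4).2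
      exact div_le_div_of_nonneg_left h0.le (by linarith) (by linarith)
    · exact absurd (h3 ▸ hμ) hy
    · have h5 : a μ / (μ - x) ≤ a μ / (μ - y) :=
        div_le_div_of_nonneg_left h0.le (by linarith) (by linarith)
      rw [← neg_sub μ y, ← neg_sub μ x, div_neg, div_neg]
      linarith
  linarith

/-- the counting identity for positive masses -/
theorem Secular_count {h : ℝ} {P : Finset ℝ} {a : ℝ → ℝ} (ha : ∀ μ ∈ P, 0 < a μ) {S : Finset ℝ}
    (hS : S.card = P.card + 1) (h1 : ∀ ρ ∈ S, ρ ∉ P)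
    (h2 : ∀ ρ ∈ S, ρ - h - ∑ μ ∈ P, a μ / (ρ - μ) = 0) {x : ℝ} (hx : x ∉ P) :
    (S.filter (x < ·)).card = (P.filter (x < ·)).card +
      if x - h < ∑ μ ∈ P, a μ / (x - μ) then 1 else 0 := by
  set c : ℝ → ℕ := fun y => (P.filter (· < y)).card with hc
  have hmono : Monotone c := fun y y' hy => Finset.card_le_card fun μ hμ => Finset.mem_filter.2
    ⟨(Finset.mem_filter.1 hμ).1, (Finset.mem_filter.1 hμ).2.trans_le hy⟩
  have hinj : Set.InjOn c S := by
    intro ρ hρ ρ' hρ' he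
    rcases lt_trichotomy ρ ρ' with h3 | h3 | h3
    · have := Secular_mono h ha h3 (h1 ρ' hρ') he
      rw [h2 ρ hρ, h2 ρ' hρ'] at this
      exact absurd this (lt_irrefl _)
    · exact h3
    · have := Secular_mono h ha h3 (h1 ρ hρ) he.symm
      rw [h2 ρ hρ, h2 ρ' hρ'] at this
      exact absurd this (lt_irrefl _)
  have hle : ∀ y, c y ≤ P.card := fun y => Finset.card_filter_le _ _
  have him : S.image c = Finset.range (P.card + 1) :=
    Finset.eq_of_subset_of_card_le (fun j hj => by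
      obtain ⟨ρ, -, rfl⟩ := Finset.mem_image.1 hj
      exact Finset.mem_range.2 (Nat.lt_succ_of_le (hle ρ)))
      (by rw [Finset.card_image_of_injOn hinj, Finset.card_range, hS])
  have hP : (P.filter (x < ·)).card + c x = P.card := by
    rw [← Finset.card_filter_add_card_filter_not (s := P) (x < ·)]
    have : P.filter (· < x) = P.filter (fun μ => ¬ x < μ) :=
      Finset.filter_congr fun μ hμ => ⟨fun h3 => not_lt.2 (le_of_lt h3),
        fun h3 => lt_of_le_of_ne (not_lt.1 h3) fun e => hx (e ▸ hμ)⟩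
    rw [← this]
  have hiff : ∀ ρ ∈ S, x < ρ ↔
      (if x - h < ∑ μ ∈ P, a μ / (x - μ) then c x else c x + 1) ≤ c ρ := by
    intro ρ hρ
    have h3 := h2 ρ hρ
    rcases lt_trichotomy (c x) (c ρ) with h4 | h4 | h4
    · refine iff_of_true (hmono.reflect_lt h4) ?_
      split_ifs <;> omega
    · rcases lt_trichotomy x ρ with h5 | h5 | h5
      · have := Secular_mono h ha h5 (h1 ρ hρ) h4
        rw [if_pos (by linarith)]
        exact iff_of_true h5 h4.le
      · rw [if_neg (by rw [h5]; linarith)]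
        exact iff_of_false (by linarith) (by omega)
      · have := Secular_mono h ha h5 hx h4.symm
        rw [if_neg (by linarith)]
        exact iff_of_false (by linarith) (by omega)
    · refine iff_of_false (not_lt.2 (hmono.reflect_lt h4).le) ?_
      split_ifs <;> omega
  set k := if x - h < ∑ μ ∈ P, a μ / (x - μ) then c x else c x + 1 with hk
  have e1 : (S.filter (x < ·)).card = ((Finset.range (P.card + 1)).filter (k ≤ ·)).card := by
    rw [Finset.filter_congr hiff, ← him, Finset.filter_image,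
      Finset.card_image_of_injOn (hinj.mono (by
        intro ρ hρ
        exact (Finset.mem_filter.1 hρ).1))]
  have e2 : (Finset.range (P.card + 1)).filter (k ≤ ·) = Finset.Ico k (P.card + 1) := by
    ext j
    simp only [Finset.mem_filter, Finset.mem_range, Finset.mem_Ico]
    tauto
  rw [e1, e2, Nat.card_Ico, hk]
  split_ifs <;> omega

/-- Interlacing, as a counting identity.  Recipe: let `P' = P.filter (0 < a ·)`,
`r = (X - h) ∏_{P'} (X - μ) - ∑_{P'} a μ ∏_{P' \ μ} (X - ν) : ℂ[X]`, monic of degree `card P' + 1`.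
Its roots are not poles (`r μ ≠ 0`), real (`im (z - h - ∑ a μ / (z - μ))` has the sign of `im z`),
simple (the derivative of `f x = x - h - ∑ a μ / (x - μ)` is `≥ 1`), and between two roots there is
a pole of `P'` (`f` is strictly increasing on an interval without pole: compare termwise).  Hence
for a convex set `I`, `#(roots ∩ I) ≤ #(P' ∩ I) + 1` (inject `ρ ↦ #{μ ∈ P' ∩ I | μ < ρ}`); applied
to `Ioi x` and `Iic x` this gives `#roots > x ∈ {#P' > x, #P' > x + 1}`; the sign of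
`∏ (x - ρ) / ∏ (x - μ) = f x` decides (sign of `∏ (x - ρ)` is `(-1) ^ #{ρ > x}`).  Take
`R = roots + (P \ P')`.  The exceptional set (roots and poles) is finite. -/
theorem secular_count (h : ℝ) (P : Finset ℝ) (a : ℝ → ℝ) (ha : ∀ μ ∈ P, 0 ≤ a μ) :
    ∃ R : Multiset ℝ, R.card = P.card + 1 ∧
      (∀ z : ℂ, (∀ μ ∈ P, z ≠ μ) → (R.map fun ρ : ℝ => z - ρ).prod =
        (∏ μ ∈ P, (z - μ)) * (z - h - ∑ μ ∈ P, (a μ : ℂ) / (z - μ))) ∧
      ∃ F : Finset ℝ, ∀ x, x ∉ F →
        ((R.filter (x < ·)).card : ℝ) =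
          (P.filter (x < ·)).card + (Om h P a).indicator (fun _ => (1 : ℝ)) x := by
  set P' := P.filter (0 < a ·) with hP'
  set P₀ := P.filter (fun μ => ¬ 0 < a μ) with hP₀
  have ha' : ∀ μ ∈ P', 0 < a μ := fun μ hμ => (Finset.mem_filter.1 hμ).2
  have hsub : P' ⊆ P := Finset.filter_subset _ _
  have hz0 : ∀ μ ∈ P, μ ∉ P' → a μ = 0 := fun μ hμ hn =>
    le_antisymm (not_lt.1 fun h1 => hn (Finset.mem_filter.2 ⟨hμ, h1⟩)) (ha μ hμ)
  set r := Secular_r h P' a with hr
  obtain ⟨hm, hd⟩ := Secular_r_monic h P' a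
  have hroot : ∀ z ∈ r.roots, r.eval z = 0 := fun z hz => (mem_roots hm.ne_zero).1 hz
  have hnd : (r.roots.map Complex.re).Nodup :=
    (Secular_nodup ha').map_on fun z hz w hw e => by
      rw [← Secular_root_real ha' (hroot z hz), ← Secular_root_real ha' (hroot w hw), e]
  have hcard : (r.roots.map Complex.re).card = P'.card + 1 := by
    rw [Multiset.card_map, IsAlgClosed.card_roots_eq_natDegree, hd]
  refine ⟨r.roots.map Complex.re + P₀.val, ?_, fun z hz => ?_, P, fun x hx => ?_⟩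
  · rw [Multiset.card_add, hcard, ← Finset.card_filter_add_card_filter_not (s := P) (0 < a ·)]
    show P'.card + 1 + P₀.card = P'.card + P₀.card + 1
    ring
  · rw [Multiset.map_add, Multiset.prod_add, Multiset.map_map,
      Multiset.map_congr rfl (g := fun w => z - w) fun w hw => by
        simp only [Function.comp, Secular_root_real ha' (hroot w hw)],
      ← (IsAlgClosed.splits r).eval_eq_prod_roots_of_monic hm,
      Secular_r_eval h P' a fun μ hμ => hz μ (hsub hμ),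
      ← Finset.prod_filter_mul_prod_filter_not P (0 < a ·),
      ← Finset.sum_subset hsub fun μ hμ hn => by simp [hz0 μ hμ hn]]
    show _ * (∏ μ ∈ P₀, (z - μ)) = _
    ring
  · have h1 := Secular_count (h := h) ha' (S := ⟨_, hnd⟩) hcard (x := x)
      (fun ρ hρ hP => by
        obtain ⟨z, hz, rfl⟩ := Multiset.mem_map.1 hρ
        exact Secular_root_ne ha' (hroot z hz) _ hP (Secular_root_real ha' (hroot z hz)).symm)
      (fun ρ hρ => by
        obtain ⟨z, hz, rfl⟩ := Multiset.mem_map.1 hρ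
        have h2 := Secular_root_eq ha' (hroot z hz)
        rw [← Secular_root_real ha' (hroot z hz)] at h2
        exact_mod_cast h2)
      fun hP => hx (hsub hP)
    have h2 : ∑ μ ∈ P', a μ / (x - μ) = ∑ μ ∈ P, a μ / (x - μ) :=
      Finset.sum_subset hsub fun μ hμ hn => by simp [hz0 μ hμ hn]
    have h3 : (P.filter (x < ·)).card = (P'.filter (x < ·)).card + (P₀.filter (x < ·)).card := by
      rw [← Finset.card_filter_add_card_filter_not (s := P.filter (x < ·)) (0 < a ·),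
        Finset.filter_comm, Finset.filter_comm (x < ·)]
    have h4 : ((r.roots.map Complex.re + P₀.val).filter (x < ·)).card =
        ((⟨_, hnd⟩ : Finset ℝ).filter (x < ·)).card + (P₀.filter (x < ·)).card := by
      rw [Multiset.filter_add, Multiset.card_add]
      rfl
    rw [h4, h1, h2, h3]
    by_cases hO : x ∈ Om h P a
    · rw [if_pos (show x - h < _ from hO), Set.indicator_of_mem hO]
      push_cast
      ring
    · rw [if_neg (show ¬ x - h < _ from hO), Set.indicator_of_notMem hO]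
      push_cast
      ring

end

end Crest.Agent.R109
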