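import Crest.Agent.R109.Secular

/-!
# Row 109: consequences of the interlacing
-/

open Polynomial MeasureTheory Set
open scoped BigOperators

set_option linter.unusedSectionVars false

namespace Crest.Agent.R109

noncomputable section

theorem Secular2_count_int (w : ℝ → ℝ) (hw : ∀ b, IntegrableOn w (Iio b)) (R : Multiset ℝ) :
    Integrable (fun x => ((R.filter (x < ·)).card : ℝ) * w x) ∧
      ∫ x, ((R.filter (x < ·)).card : ℝ) * w x = (R.map fun b => ∫ x in Iio b, w x).sum := by
  induction R using Multiset.induction_on with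
  | empty => simp
  | cons b R ih =>
    have e : (fun x => (((b ::ₘ R).filter (x < ·)).card : ℝ) * w x) =
        fun x => (Iio b).indicator w x + ((R.filter (x < ·)).card : ℝ) * w x := by
      funext x
      by_cases hx : x < b
      · rw [Multiset.filter_cons_of_pos _ hx, Multiset.card_cons, indicator_of_mem (mem_Iio.2 hx)]
        push_cast
        ring
      · rw [Multiset.filter_cons_of_neg _ hx, indicator_of_notMem (fun h => hx (mem_Iio.1 h)), zero_add]
    have h1 := (integrable_indicator_iff measurableSet_Iio).2 (hw b)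
    rw [e, integral_add h1 ih.1, ih.2, integral_indicator measurableSet_Iio, Multiset.map_cons,
      Multiset.sum_cons]
    exact ⟨h1.add ih.1, rfl⟩

/-- integrating the counting identity against a weight -/
theorem Secular2_int {h : ℝ} {P : Finset ℝ} {a : ℝ → ℝ} {R : Multiset ℝ} {F : Finset ℝ}
    (hF : ∀ x, x ∉ F → ((R.filter (x < ·)).card : ℝ) =
      (P.filter (x < ·)).card + (Om h P a).indicator (fun _ => (1 : ℝ)) x)
    (w : ℝ → ℝ) (hw : ∀ b, IntegrableOn w (Iio b)) :
    ∫ x in Om h P a, w x =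
      (R.map fun b => ∫ x in Iio b, w x).sum - ∑ μ ∈ P, ∫ x in Iio μ, w x := by
  obtain ⟨h1, h2⟩ := Secular2_count_int w hw R
  obtain ⟨h3, h4⟩ := Secular2_count_int w hw P.val
  rw [← h2, Finset.sum_eq_multiset_sum, ← h4, ← integral_sub h1 h3,
    ← integral_indicator (measurableSet_Om h P a)]
  refine integral_congr_ae ?_
  filter_upwards [F.finite_toSet.countable.ae_notMem volume] with x hx
  have e : ((P.val.filter (x < ·)).card : ℝ) = (P.filter (x < ·)).card := rfl
  rw [hF x hx, e]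
  by_cases hm : x ∈ Om h P a <;> simp [hm, add_mul]

theorem Secular2_sum {h : ℝ} {P : Finset ℝ} {a : ℝ → ℝ} {R : Multiset ℝ} (hc : R.card = P.card + 1)
    (hR : ∀ z : ℂ, (∀ μ ∈ P, z ≠ μ) → (R.map fun ρ : ℝ => z - ρ).prod =
      (∏ μ ∈ P, (z - μ)) * (z - h - ∑ μ ∈ P, (a μ : ℂ) / (z - μ))) :
    R.sum = h + ∑ μ ∈ P, μ := by
  have e : (R.map fun ρ : ℝ => X - C ρ).prod = ((h ::ₘ P.val).map fun ρ : ℝ => X - C ρ).prod
      - ∑ μ ∈ P, C (a μ) * ∏ ν ∈ P.erase μ, (X - C ν) := by
    refine Polynomial.eq_of_infinite_eval_eq _ _ (P.finite_toSet.infinite_compl.mono fun x hx => ?_)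
    have hx' : ∀ μ ∈ P, x ≠ μ := fun μ hμ e => hx (e ▸ hμ)
    have h1 := hR x fun μ hμ e => hx' μ hμ (by exact_mod_cast e)
    have h2 : (R.map fun ρ : ℝ => x - ρ).prod =
        (∏ μ ∈ P, (x - μ)) * (x - h - ∑ μ ∈ P, a μ / (x - μ)) := by
      apply Complex.ofReal_injective
      rw [← Complex.coe_algebraMap, map_multiset_prod, Multiset.map_map]
      simpa using h1
    simp only [mem_ofPred_eq, eval_sub, eval_multiset_prod, Multiset.map_map, Function.comp_def,
      eval_X, eval_C, h2, Multiset.map_cons, Multiset.prod_cons, eval_mul, eval_finsetSum,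
      eval_prod]
    rw [← Finset.prod_eq_multiset_prod, mul_sub, Finset.mul_sum, mul_comm]
    congr 1
    refine Finset.sum_congr rfl fun μ hμ => ?_
    have := sub_ne_zero.2 (hx' μ hμ)
    rw [← Finset.mul_prod_erase _ _ hμ]
    field_simp
  have h1 := multiset_prod_X_sub_C_coeff_card_pred R (by omega)
  have h2 := multiset_prod_X_sub_C_coeff_card_pred (h ::ₘ P.val) (by simp)
  rw [hc, Nat.add_sub_cancel, e, coeff_sub, finsetSum_coeff, Finset.sum_eq_zero, sub_zero] at h1
  · rw [Multiset.card_cons, Nat.add_sub_cancel, Finset.card_val, h1, Multiset.sum_cons] at h2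
    rw [neg_injective h2, Finset.sum_eq_multiset_sum, Multiset.map_id']
  · intro μ hμ
    refine coeff_eq_zero_of_natDegree_lt ((natDegree_C_mul_le _ _).trans_lt ?_)
    rw [natDegree_finsetProd_X_sub_C_eq_card]
    exact Finset.card_erase_lt_of_mem hμ

theorem Secular2_len (h : ℝ) (P : Finset ℝ) (a : ℝ → ℝ) (ha : ∀ μ ∈ P, 0 ≤ a μ) :
    ∃ c₀, Iio c₀ ⊆ Om h P a ∧ ∀ c ≤ c₀, volume (Om h P a ∩ Ici c) = ENNReal.ofReal (h - c) := by
  obtain ⟨R, hc, hR, F, hF⟩ := secular_count h P a ha
  obtain ⟨T, hT1, hT2⟩ := Om_bounds h P a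
  obtain ⟨m, hm⟩ := (R.toFinset ∪ P).bddBelow
  refine ⟨min m (-T), (Iio_subset_Iio (min_le_right _ _)).trans hT2, fun c hc' => ?_⟩
  have hcm : c ≤ m := hc'.trans (min_le_left _ _)
  have e : ∀ s : Set ℝ, ∫ x in s, (Ici c).indicator (fun _ => (1 : ℝ)) x = volume.real (s ∩ Ici c) :=
    fun s => by rw [setIntegral_indicator measurableSet_Ici]; simp
  have e2 : ∀ b, c ≤ b → ∫ x in Iio b, (Ici c).indicator (fun _ => (1 : ℝ)) x = b - c :=
    fun b hb => by rw [e, Iio_inter_Ici, Real.volume_real_Ico_of_le hb]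
  have h1 := Secular2_int hF ((Ici c).indicator fun _ => (1 : ℝ)) fun b => by
    rw [integrableOn_indicator_iff measurableSet_Ici, Ici_inter_Iio]
    exact integrableOn_const (by simp)
  rw [e, Multiset.map_congr rfl fun b hb => e2 b (hcm.trans (hm (by simp [hb]))),
    Finset.sum_congr rfl fun b hb => e2 b (hcm.trans (hm (by simp [hb]))),
    Multiset.sum_map_sub, Multiset.map_id', Secular2_sum hc hR, Finset.sum_sub_distrib,
    Multiset.map_const', Multiset.sum_replicate, hc, Finset.sum_const, succ_nsmul] at h1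
  have hfin : volume (Om h P a ∩ Ici c) ≠ ⊤ :=
    ne_top_of_le_ne_top (by simp) (measure_mono (t := Ico c T) fun x hx => ⟨hx.2, hT1 hx.1⟩)
  rw [← ENNReal.ofReal_toReal hfin, ← measureReal_def, h1]
  congr 1
  ring

theorem Secular2_diff {A B : Set ℝ} (hA : MeasurableSet A) (hB : MeasurableSet B) {c : ℝ}
    (hAc : Iio c ⊆ A) (hBc : Iio c ⊆ B) (h : volume (A ∩ Ici c) = volume (B ∩ Ici c))
    (hf : volume (A ∩ Ici c) ≠ ⊤) : volume (A \ B) = volume (B \ A) ∧ volume (A \ B) ≠ ⊤ := by
  have e : ∀ {A B : Set ℝ}, Iio c ⊆ B → (A ∩ Ici c) \ B = A \ B := fun {A B} hB => by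
    ext x
    exact ⟨fun hx => ⟨hx.1.1, hx.2⟩, fun hx => ⟨⟨hx.1, mem_Ici.2 (not_lt.1 fun h => hx.2 (hB (mem_Iio.2 h)))⟩, hx.2⟩⟩
  have h1 := measure_inter_add_sdiff (μ := volume) (A ∩ Ici c) hB
  have h2 := measure_inter_add_sdiff (μ := volume) (B ∩ Ici c) hA
  rw [e hBc] at h1
  rw [e hAc, ← h, ← h1, show B ∩ Ici c ∩ A = A ∩ Ici c ∩ B by ext x; simp only [mem_inter_iff]; tauto]
    at h2
  exact ⟨((ENNReal.add_right_inj (ne_top_of_le_ne_top hf (measure_mono inter_subset_left))).1 h2).symm,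
    ne_top_of_le_ne_top hf (by rw [← e hBc]; exact measure_mono sdiff_subset)⟩

/-- Length identity.  Recipe: comparing the coefficient of `X ^ card P` in the polynomial identity
behind `secular_count` (`Polynomial.eq_of_infinite_eval_eq`; or let `z → ∞`) gives
`R.sum = h + ∑ μ`; integrate the counting identity over `Ioi (-T)`. -/
theorem length_identity (h : ℝ) (P : Finset ℝ) (a : ℝ → ℝ) (ha : ∀ μ ∈ P, 0 ≤ a μ) :
    volume (Om h P a \ Iio h) = volume (Iio h \ Om h P a) ∧ volume (Om h P a \ Iio h) ≠ ⊤ := by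
  obtain ⟨c, h1, h2⟩ := Secular2_len h P a ha
  have h3 := h2 (min c h) (min_le_left _ _)
  exact Secular2_diff (measurableSet_Om h P a) measurableSet_Iio (c := min c h)
    ((Iio_subset_Iio (min_le_left _ _)).trans h1) (Iio_subset_Iio (min_le_right _ _))
    (by rw [h3, Iio_inter_Ici, Real.volume_Ico]) (by rw [h3]; simp)

theorem Secular2_exp_Iio (b : ℝ) : ∫ x in Iio b, Real.exp x = Real.exp b := by
  rw [← integral_Iic_eq_integral_Iio, integral_exp_Iic]

/-- Recipe: `P₁ * ∏ (X - μ) = P₀ * ∏ (X - ρ)` as polynomials (equal at infinitely many points), so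
the roots add up; `∫_{Om} exp = ∑ exp ρ - ∑ exp μ` from the counting identity and
`∫_{Iio b} exp = exp b` (`integral_exp_Iic`). -/
theorem EE_eq (h : ℝ) (P : Finset ℝ) (a : ℝ → ℝ) (ha : ∀ μ ∈ P, 0 ≤ a μ) (P₁ P₀ : ℂ[X])
    (h₀ : P₀ ≠ 0)
    (hP : ∀ z : ℂ, 0 < z.im →
      P₁.eval z = P₀.eval z * (z - h - ∑ μ ∈ P, (a μ : ℂ) / (z - μ))) :
    (P₁.roots.map Complex.exp).sum = (P₀.roots.map Complex.exp).sum + (EE h P a : ℂ) := by
  obtain ⟨R, -, hR, F, hF⟩ := secular_count h P a ha
  have h1 := Secular2_int hF Real.exp fun b =>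
    (integrableOn_exp_Iic b).mono_set Iio_subset_Iic_self
  simp only [Secular2_exp_Iio] at h1
  have e : P₁ * ((P.val.map fun x : ℝ => (x : ℂ)).map fun ρ => X - C ρ).prod =
      P₀ * ((R.map fun x : ℝ => (x : ℂ)).map fun ρ => X - C ρ).prod := by
    have hinf : {z : ℂ | 0 < z.im}.Infinite :=
      infinite_of_injective_forall_mem (f := fun n : ℕ => (n : ℂ) + Complex.I)
        (fun m n h => by simpa using h) fun n => by simp
    refine Polynomial.eq_of_infinite_eval_eq _ _ (hinf.mono fun z hz => ?_)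
    have hz' : 0 < z.im := hz
    simp only [mem_ofPred_eq, eval_mul, eval_multiset_prod, Multiset.map_map, Function.comp_def,
      eval_sub, eval_X, eval_C]
    rw [hP z hz', hR z fun μ _ e => by simp [e] at hz', ← Finset.prod_eq_multiset_prod]
    ring
  have hne : P₀ * ((R.map fun x : ℝ => (x : ℂ)).map fun ρ => X - C ρ).prod ≠ 0 :=
    mul_ne_zero h₀ (monic_multisetProd_X_sub_C _).ne_zero
  have h2 := congrArg (fun p : ℂ[X] => (p.roots.map Complex.exp).sum) e
  simp only [roots_mul hne, roots_mul (e ▸ hne), roots_multiset_prod_X_sub_C, Multiset.map_add,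
    Multiset.sum_add] at h2
  have h3 : ∀ S : Multiset ℝ, ((S.map fun x : ℝ => (x : ℂ)).map Complex.exp).sum =
      (((S.map Real.exp).sum : ℝ) : ℂ) := fun S => by
    rw [← Complex.coe_algebraMap, map_multiset_sum, Multiset.map_map, Multiset.map_map]
    simp
  rw [h3, h3] at h2
  rw [EE, h1, Finset.sum_eq_multiset_sum, Complex.ofReal_sub]
  linear_combination h2

theorem Secular2_step (h : ℝ) (P : Finset ℝ) {a a' : ℝ → ℝ} (ha : ∀ μ ∈ P, 0 ≤ a μ)
    (haa : ∀ μ ∈ P, a μ ≤ a' μ) (m : ℝ) (hm : ∀ μ ∈ P, μ ≠ m → a μ = a' μ) :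
    EE h P a ≤ EE h P a' := by
  obtain ⟨c, h1, h2⟩ := Secular2_len h P a ha
  obtain ⟨c', h1', h2'⟩ := Secular2_len h P a' fun μ hμ => (ha μ hμ).trans (haa μ hμ)
  have mA := measurableSet_Om h P a
  have mB := measurableSet_Om h P a'
  have iA := integrableOn_exp_Om h P a
  have iB := integrableOn_exp_Om h P a'
  obtain ⟨h3, h4⟩ := Secular2_diff mA mB (c := min c c')
    ((Iio_subset_Iio (min_le_left _ _)).trans h1) ((Iio_subset_Iio (min_le_right _ _)).trans h1')
    (by rw [h2 _ (min_le_left _ _), h2' _ (min_le_right _ _)])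
    (by rw [h2 _ (min_le_left _ _)]; simp)
  have s1 : ∀ x ∈ Om h P a \ Om h P a', x ≤ m := by
    intro x hx
    by_contra hlt
    have h1 : x - h < ∑ μ ∈ P, a μ / (x - μ) := hx.1
    refine hx.2 (show x - h < ∑ μ ∈ P, a' μ / (x - μ) from
      lt_of_lt_of_le h1 (Finset.sum_le_sum fun μ hμ => ?_))
    by_cases e : μ = m
    · exact div_le_div_of_nonneg_right (haa μ hμ) (by rw [e]; linarith)
    · rw [hm μ hμ e]
  have s2 : ∀ x ∈ Om h P a' \ Om h P a, m ≤ x := by
    intro x hx
    by_contra hlt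
    have h1 : x - h < ∑ μ ∈ P, a' μ / (x - μ) := hx.1
    refine hx.2 (show x - h < ∑ μ ∈ P, a μ / (x - μ) from
      lt_of_lt_of_le h1 (Finset.sum_le_sum fun μ hμ => ?_))
    by_cases e : μ = m
    · exact div_le_div_of_nonpos_of_le (by rw [e]; linarith) (haa μ hμ)
    · rw [hm μ hμ e]
  unfold EE
  rw [← integral_inter_add_sdiff mB iA, ← integral_inter_add_sdiff mA iB, inter_comm]
  refine add_le_add le_rfl ?_
  calc ∫ x in Om h P a \ Om h P a', Real.exp x ≤ ∫ _ in Om h P a \ Om h P a', Real.exp m :=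
        setIntegral_mono_on (iA.mono_set sdiff_subset) (integrableOn_const h4) (mA.diff mB)
          fun x hx => Real.exp_le_exp.2 (s1 x hx)
    _ = ∫ _ in Om h P a' \ Om h P a, Real.exp m := by
        rw [setIntegral_const, setIntegral_const, measureReal_def, measureReal_def, h3]
    _ ≤ _ := setIntegral_mono_on (integrableOn_const (h3 ▸ h4)) (iB.mono_set sdiff_subset)
          (mB.diff mA) fun x hx => Real.exp_le_exp.2 (s2 x hx)

theorem Secular2_congr (h : ℝ) (P : Finset ℝ) {a a' : ℝ → ℝ} (haa : ∀ μ ∈ P, a μ = a' μ) :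
    Om h P a = Om h P a' := by
  ext x
  simp only [Om, mem_ofPred_eq]
  rw [Finset.sum_congr rfl fun μ hμ => by rw [haa μ hμ]]

/-- Monotonicity.  Recipe: change one mass at a time (induct on the finset where `a ≠ a'`).
Raising `a μ₀` gains only points `> μ₀` and loses only points `< μ₀`; by `length_identity` (twice)
gain and loss have the same finite measure, so the weight `exp` increases. -/
theorem EE_mono (h : ℝ) (P : Finset ℝ) {a a' : ℝ → ℝ} (ha : ∀ μ ∈ P, 0 ≤ a μ)
    (haa : ∀ μ ∈ P, a μ ≤ a' μ) : EE h P a ≤ EE h P a' := by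
  have key : ∀ s : Finset ℝ, EE h P a ≤ EE h P (fun μ => if μ ∈ s then a' μ else a μ) := by
    intro s
    induction s using Finset.induction_on with
    | empty => simp
    | insert m s hm ih =>
      refine ih.trans (Secular2_step h P (fun μ hμ => ?_) (fun μ hμ => ?_) m fun μ _ hne => ?_)
      · split_ifs
        exacts [(ha μ hμ).trans (haa μ hμ), ha μ hμ]
      · by_cases h1 : μ ∈ s
        · simp [h1]
        · rw [if_neg h1]
          split_ifs
          exacts [haa μ hμ, le_rfl]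
      · simp [hne]
  refine (key P).trans (le_of_eq ?_)
  unfold EE
  rw [Secular2_congr h P (a' := a') fun μ hμ => if_pos hμ]

theorem EE_zero (h : ℝ) (P : Finset ℝ) : EE h P (fun _ => 0) = Real.exp h := by
  have : Om h P (fun _ => 0) = Iio h := by
    ext x
    simp [Om]
  rw [EE, this, Secular2_exp_Iio]

/-- `Om ⊆ Iic T` up to a finite set gives `EE ≤ exp T`. -/
theorem EE_le_exp (h : ℝ) (P : Finset ℝ) (a : ℝ → ℝ) {T : ℝ}
    (hT : ∀ x, T < x → x ∉ P → x ∉ Om h P a) : EE h P a ≤ Real.exp T := by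
  rw [← integral_exp_Iic]
  refine setIntegral_mono_set (integrableOn_exp_Iic T)
    (Filter.Eventually.of_forall fun x => (Real.exp_pos x).le) ?_
  filter_upwards [P.finite_toSet.countable.ae_notMem volume] with x hx hx'
  exact not_lt.1 fun h' => hT x h' hx hx'

end

end Crest.Agent.R109
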