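import Crest.Agent.R109.SetupEP

/-!
# Row 109: the limit of the pavings
-/

open Filter Topology
open scoped InnerProductSpace BigOperators ComplexOrder

set_option linter.unusedSectionVars false

namespace Crest.Agent.R109

noncomputable section

open Classical

variable {H : Type*} [NormedAddCommGroup H] [InnerProductSpace ℂ H] [CompleteSpace H]
  {X : Type*} [TopologicalSpace X] [CompactSpace X] [T2Space X] [ExtremallyDisconnected X]

namespace Setup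
variable (S : Setup H X) {ι : Type*} [Fintype ι]

theorem WL_E0 (y : H →L[ℂ] H) :
    WL (UF X) (fun Q : DiscreteQuotient X => S.EP Q.proj y) (S.E0 y) := by
  exact WL_wlim (UF X) _ fun Q => S.norm_EP_le Q.proj_isLocallyConstant y

theorem norm_E0_le (y : H →L[ℂ] H) : ‖S.E0 y‖ ≤ ‖y‖ := by
  exact (S.WL_E0 y).norm_le (Eventually.of_forall fun Q => S.norm_EP_le Q.proj_isLocallyConstant y)

theorem E0_add (y z : H →L[ℂ] H) : S.E0 (y + z) = S.E0 y + S.E0 z := by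
  refine (S.WL_E0 _).unique (((S.WL_E0 y).add (S.WL_E0 z)).congr ?_)
  exact Eventually.of_forall fun Q => (S.EP_add _ _ _).symm

theorem E0_smul (c : ℂ) (y : H →L[ℂ] H) : S.E0 (c • y) = c • S.E0 y := by
  refine (S.WL_E0 _).unique (((S.WL_E0 y).smul c).congr ?_)
  exact Eventually.of_forall fun Q => (S.EP_smul _ _ _).symm

theorem E0_star (y : H →L[ℂ] H) : S.E0 (star y) = star (S.E0 y) := by
  refine (S.WL_E0 _).unique ((S.WL_E0 y).star_lim.congr ?_)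
  exact Eventually.of_forall fun Q => (S.EP_star _ _).symm

theorem E0_nonneg {y : H →L[ℂ] H} (hy : 0 ≤ y) : 0 ≤ S.E0 y := by
  exact (S.WL_E0 y).nonneg (Eventually.of_forall fun Q => S.EP_nonneg _ hy)

theorem E0_ρ_mul (f : C(X, ℂ)) (y : H →L[ℂ] H) : S.E0 (S.ρ f * y) = S.ρ f * S.E0 y := by
  refine (S.WL_E0 _).unique (((S.WL_E0 y).mul_left (S.ρ f)).congr ?_)
  exact Eventually.of_forall fun Q => (S.EP_ρ_mul _ _ _).symm

theorem E0_mul_ρ (f : C(X, ℂ)) (y : H →L[ℂ] H) : S.E0 (y * S.ρ f) = S.E0 y * S.ρ f := by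
  refine (S.WL_E0 _).unique (((S.WL_E0 y).mul_right (S.ρ f)).congr ?_)
  exact Eventually.of_forall fun Q => (S.EP_mul_ρ _ _ _).symm

theorem E0_ρ (f : C(X, ℂ)) : S.E0 (S.ρ f) = S.ρ f := by
  refine (S.WL_E0 _).unique ((WL.const (S.ρ f)).congr ?_)
  exact Eventually.of_forall fun Q => (S.EP_ρ Q.proj_isLocallyConstant _).symm

theorem ρ_mul_E0 (f : C(X, ℂ)) (y : H →L[ℂ] H) : S.ρ f * S.E0 y = S.E0 y * S.ρ f := by
  refine S.commute_of_commute_p (fun U hU => (S.WL_E0 y).mul_eq ?_) f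
  have hb : IsLocallyConstant U.boolIndicator :=
    (IsLocallyConstant.iff_continuous _).2 ((continuous_boolIndicator_iff_isClopen U).2 hU)
  filter_upwards [UF_le (eventually_refines hb)] with Q hQ
  have := S.p_mul_EP_of_refines Q.proj_isLocallyConstant hQ {true} y
  rwa [Set.preimage_boolIndicator_true] at this

theorem ρ_E {y : H →L[ℂ] H} (hy : y ∈ S.M) : S.ρ (S.E y) = S.E0 y := by
  exact Function.invFun_eq (S.max _
    ((S.WL_E0 y).mem (Eventually.of_forall fun Q => S.EP_mem _ hy)) fun f => S.ρ_mul_E0 f y)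

theorem E_ρ (f : C(X, ℂ)) : S.E (S.ρ f) = f := by
  exact S.inj (by rw [S.ρ_E (S.mem f), S.E0_ρ])

theorem E_zero : S.E 0 = 0 := by
  simpa using S.E_ρ 0

theorem E_one : S.E 1 = 1 := by
  simpa using S.E_ρ 1

theorem E_add {y z : H →L[ℂ] H} (hy : y ∈ S.M) (hz : z ∈ S.M) : S.E (y + z) = S.E y + S.E z := by
  exact S.inj (by rw [map_add, S.ρ_E (add_mem hy hz), S.ρ_E hy, S.ρ_E hz, S.E0_add])

theorem E_sub {y z : H →L[ℂ] H} (hy : y ∈ S.M) (hz : z ∈ S.M) : S.E (y - z) = S.E y - S.E z := by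
  have := S.E_add (sub_mem hy hz) hz
  rw [sub_add_cancel] at this
  rw [this, add_sub_cancel_right]

theorem E_smul (c : ℂ) {y : H →L[ℂ] H} (hy : y ∈ S.M) : S.E (c • y) = c • S.E y := by
  exact S.inj (by rw [map_smul, S.ρ_E (vn_smul_mem c hy), S.ρ_E hy, S.E0_smul])

theorem E_sum {κ : Type*} (s : Finset κ) {y : κ → H →L[ℂ] H} (hy : ∀ i ∈ s, y i ∈ S.M) :
    S.E (∑ i ∈ s, y i) = ∑ i ∈ s, S.E (y i) := by
  induction s using Finset.induction_on with
  | empty => simpa using S.E_zero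
  | insert i s hi ih =>
    have h' : ∀ j ∈ s, y j ∈ S.M := fun j hj => hy j (Finset.mem_insert_of_mem hj)
    rw [Finset.sum_insert hi, Finset.sum_insert hi,
      S.E_add (hy i (Finset.mem_insert_self _ _)) (sum_mem h'), ih h']

theorem E_star {y : H →L[ℂ] H} (hy : y ∈ S.M) : S.E (star y) = star (S.E y) := by
  exact S.inj (by rw [map_star, S.ρ_E (star_mem hy), S.ρ_E hy, S.E0_star])

theorem E_ρ_mul (f : C(X, ℂ)) {y : H →L[ℂ] H} (hy : y ∈ S.M) : S.E (S.ρ f * y) = f * S.E y := by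
  exact S.inj (by rw [map_mul, S.ρ_E (mul_mem (S.mem f) hy), S.ρ_E hy, S.E0_ρ_mul])

theorem E_mul_ρ (f : C(X, ℂ)) {y : H →L[ℂ] H} (hy : y ∈ S.M) : S.E (y * S.ρ f) = S.E y * f := by
  exact S.inj (by rw [map_mul, S.ρ_E (mul_mem hy (S.mem f)), S.ρ_E hy, S.E0_mul_ρ])

theorem norm_E_le {y : H →L[ℂ] H} (hy : y ∈ S.M) : ‖S.E y‖ ≤ ‖y‖ := by
  rw [← S.norm_ρ, S.ρ_E hy]
  exact S.norm_E0_le y

theorem E_nonneg {y : H →L[ℂ] H} (hy : y ∈ S.M) (h0 : 0 ≤ y) (t : X) : 0 ≤ S.E y t := by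
  exact (S.ρ_nonneg_iff _).1 (by rw [S.ρ_E hy]; exact S.E0_nonneg h0) t

theorem E_EP {a : X → ι} (ha : IsLocallyConstant a) {y : H →L[ℂ] H} (hy : y ∈ S.M) :
    S.E (S.EP a y) = S.E y := by
  refine S.inj ?_
  rw [S.ρ_E (S.EP_mem a hy), S.ρ_E hy]
  refine (S.WL_E0 _).unique ((S.WL_E0 y).congr ?_)
  filter_upwards [UF_le (eventually_refines ha)] with Q hQ
  exact (S.EP_EP Q.proj_isLocallyConstant ha hQ y).1.symm

/-- weak limits of bounded families in `A` are in `A` -/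
theorem exists_limA {κ : Type*} (U : Ultrafilter κ) (f : κ → C(X, ℂ)) {C : ℝ}
    (hf : ∀ i, ‖f i‖ ≤ C) : ∃ g : C(X, ℂ), WL U (fun i => S.ρ (f i)) (S.ρ g) := by
  obtain ⟨L, hL⟩ := exists_WL U (fun i => S.ρ (f i)) (C := C) fun i => by
    rw [S.norm_ρ]; exact hf i
  obtain ⟨g, rfl⟩ := S.max L (hL.mem (Eventually.of_forall fun i => S.mem _)) fun g =>
    hL.mul_eq (Eventually.of_forall fun i => S.ρ_comm _ _)
  exact ⟨g, hL⟩

theorem le_of_WL {κ : Type*} {U : Filter κ} [U.NeBot] {f : κ → C(X, ℂ)} {g b : C(X, ℂ)}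
    (h : WL U (fun i => S.ρ (f i)) (S.ρ g)) (hb : ∀ᶠ i in U, ∀ t, f i t ≤ b t) (t : X) :
    g t ≤ b t := by
  have h1 : 0 ≤ S.ρ b - S.ρ g := ((WL.const (S.ρ b)).sub h).nonneg (hb.mono fun i hi => by
    rw [← map_sub]
    exact (S.ρ_nonneg_iff _).2 fun t => sub_nonneg.2 (hi t))
  rw [← map_sub] at h1
  exact sub_nonneg.1 ((S.ρ_nonneg_iff _).1 h1 t)

theorem ge_of_WL {κ : Type*} {U : Filter κ} [U.NeBot] {f : κ → C(X, ℂ)} {g b : C(X, ℂ)}
    (h : WL U (fun i => S.ρ (f i)) (S.ρ g)) (hb : ∀ᶠ i in U, ∀ t, b t ≤ f i t) (t : X) :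
    b t ≤ g t := by
  have h1 : 0 ≤ S.ρ g - S.ρ b := (h.sub (WL.const (S.ρ b))).nonneg (hb.mono fun i hi => by
    rw [← map_sub]
    exact (S.ρ_nonneg_iff _).2 fun t => sub_nonneg.2 (hi t))
  rw [← map_sub] at h1
  exact sub_nonneg.1 ((S.ρ_nonneg_iff _).1 h1 t)

end Setup

end

end Crest.Agent.R109
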