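import Crest.Agent.R109.SetupP

/-!
# Row 109: pavings along locally constant functions
-/

open Filter Topology
open scoped InnerProductSpace BigOperators ComplexOrder

set_option linter.unusedSectionVars false

namespace Crest.Agent.R109

noncomputable section

open Classical

variable {H : Type*} [NormedAddCommGroup H] [InnerProductSpace ℂ H] [CompleteSpace H]
  {X : Type*} [TopologicalSpace X] [CompactSpace X] [T2Space X] [ExtremallyDisconnected X]

namespace Setup
variable (S : Setup H X) {ι κ : Type*} [Fintype ι] [Fintype κ]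

theorem EP_mem (a : X → ι) {y : H →L[ℂ] H} (hy : y ∈ S.M) : S.EP a y ∈ S.M := by
  exact sum_mem fun i _ => mul_mem (mul_mem (S.p_mem _) hy) (S.p_mem _)

theorem EP_add (a : X → ι) (y z : H →L[ℂ] H) : S.EP a (y + z) = S.EP a y + S.EP a z := by
  simp only [EP, mul_add, add_mul, Finset.sum_add_distrib]

theorem EP_sub (a : X → ι) (y z : H →L[ℂ] H) : S.EP a (y - z) = S.EP a y - S.EP a z := by
  simp only [EP, mul_sub, sub_mul, Finset.sum_sub_distrib]

theorem EP_smul (a : X → ι) (c : ℂ) (y : H →L[ℂ] H) : S.EP a (c • y) = c • S.EP a y := by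
  simp only [EP, mul_smul_comm, smul_mul_assoc, Finset.smul_sum]

theorem EP_star (a : X → ι) (y : H →L[ℂ] H) : S.EP a (star y) = star (S.EP a y) := by
  simp only [EP, star_sum, star_mul, (S.isStarProjection_p _).isSelfAdjoint.star_eq, mul_assoc]

theorem EP_ρ_mul (a : X → ι) (f : C(X, ℂ)) (y : H →L[ℂ] H) :
    S.EP a (S.ρ f * y) = S.ρ f * S.EP a y := by
  simp only [EP, Finset.mul_sum, ← mul_assoc]
  exact Finset.sum_congr rfl fun i _ => by rw [p, S.ρ_comm]

theorem EP_mul_ρ (a : X → ι) (f : C(X, ℂ)) (y : H →L[ℂ] H) :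
    S.EP a (y * S.ρ f) = S.EP a y * S.ρ f := by
  simp only [EP, Finset.sum_mul, mul_assoc]
  exact Finset.sum_congr rfl fun i _ => by rw [p, S.ρ_comm]

theorem SetupEP_one {a : X → ι} (ha : IsLocallyConstant a) : S.EP a 1 = 1 := by
  simp only [EP, mul_one, (S.isStarProjection_p _).isIdempotentElem.eq, S.sum_p ha]

theorem SetupEP_sum {σ : Type*} (a : X → ι) (T : Finset σ) (y : σ → H →L[ℂ] H) :
    S.EP a (∑ k ∈ T, y k) = ∑ k ∈ T, S.EP a (y k) := by
  simp only [EP, Finset.mul_sum, Finset.sum_mul]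
  exact Finset.sum_comm

/-- pavings commute -/
theorem SetupEP_comm (a : X → ι) (b : X → κ) (y : H →L[ℂ] H) :
    S.EP a (S.EP b y) = S.EP b (S.EP a y) := by
  conv_lhs => rw [EP]
  conv_rhs => rw [EP.eq_1 S a, S.SetupEP_sum]
  exact Finset.sum_congr rfl fun i _ => by rw [p, S.EP_mul_ρ, S.EP_ρ_mul]

theorem SetupEP_ρ_mul_p {a : X → ι} (ha : IsLocallyConstant a) {g : C(X, ℂ)}
    (hg : ∀ s t, a s = a t → g s = g t) (i : ι) :
    ∃ c : ℂ, S.ρ g * S.p (a ⁻¹' {i}) = c • S.p (a ⁻¹' {i}) := by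
  have hcl : IsClopen (a ⁻¹' {i}) := ha.isClopen_fiber i
  have h : ∃ c : ℂ, ∀ t, a t = i → g t = c := by
    by_cases hi : ∃ t, a t = i
    · obtain ⟨t, ht⟩ := hi
      exact ⟨g t, fun s hs => hg s t (hs.trans ht.symm)⟩
    · exact ⟨0, fun t ht => absurd ⟨t, ht⟩ hi⟩
  obtain ⟨c, hc⟩ := h
  refine ⟨c, ?_⟩
  rw [p, ← map_mul, ← map_smul]
  congr 1
  ext t
  simp only [ContinuousMap.mul_apply, ContinuousMap.smul_apply, ind_apply hcl, smul_eq_mul]
  split_ifs with ht
  · rw [hc t ht]
  · simp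

theorem SetupEP_ρ_comm {a : X → ι} (ha : IsLocallyConstant a) {g : C(X, ℂ)}
    (hg : ∀ s t, a s = a t → g s = g t) (y : H →L[ℂ] H) :
    S.ρ g * S.EP a y = S.EP a y * S.ρ g := by
  simp only [EP, Finset.mul_sum, Finset.sum_mul]
  refine Finset.sum_congr rfl fun i _ => ?_
  obtain ⟨c, hc⟩ := S.SetupEP_ρ_mul_p ha hg i
  have hc' : S.p (a ⁻¹' {i}) * S.ρ g = c • S.p (a ⁻¹' {i}) := by rw [← hc, p, S.ρ_comm]
  rw [← mul_assoc, ← mul_assoc, hc, mul_assoc _ _ (S.ρ g), hc', smul_mul_assoc, smul_mul_assoc,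
    mul_smul_comm]

theorem EP_ρ {a : X → ι} (ha : IsLocallyConstant a) (f : C(X, ℂ)) : S.EP a (S.ρ f) = S.ρ f := by
  rw [← mul_one (S.ρ f), S.EP_ρ_mul, S.SetupEP_one ha]

theorem EP_nonneg (a : X → ι) {y : H →L[ℂ] H} (hy : 0 ≤ y) : 0 ≤ S.EP a y := by
  refine Finset.sum_nonneg fun i _ => ?_
  have h := star_left_conjugate_nonneg hy (S.p (a ⁻¹' {i}))
  rwa [(S.isStarProjection_p _).isSelfAdjoint.star_eq] at h

theorem norm_EP_le {a : X → ι} (ha : IsLocallyConstant a) (y : H →L[ℂ] H) :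
    ‖S.EP a y‖ ≤ ‖y‖ := by
  refine ContinuousLinearMap.opNorm_le_bound _ (norm_nonneg _) fun η => ?_
  refine (pow_le_pow_iff_left₀ (norm_nonneg _) (by positivity) two_ne_zero).1 ?_
  have h : S.EP a y η = ∑ i, S.p (a ⁻¹' {i}) (y (S.p (a ⁻¹' {i}) η)) := by
    simp only [EP, sum_apply, mul_apply_eq_comp]
  rw [h, S.norm_sum_p_sq ha, mul_pow, ← S.sum_norm_p_sq ha η, Finset.mul_sum]
  refine Finset.sum_le_sum fun i _ => ?_
  rw [← mul_pow]
  refine pow_le_pow_left₀ (norm_nonneg _) ?_ 2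
  refine ((S.p (a ⁻¹' {i})).le_opNorm _).trans ?_
  exact (mul_le_of_le_one_left (norm_nonneg _) (S.norm_p_le _)).trans (y.le_opNorm _)

theorem SetupEP_ind_congr (U : Set X) {s t : X} (h : s ∈ U ↔ t ∈ U) : ind U s = ind U t := by
  unfold ind cm
  split_ifs with hc
  · simp [h]
  · rfl

theorem p_mul_EP {a : X → ι} (ha : IsLocallyConstant a) (s : Set ι) (y : H →L[ℂ] H) :
    S.p (a ⁻¹' s) * S.EP a y = S.EP a y * S.p (a ⁻¹' s) := by
  exact S.SetupEP_ρ_comm ha (fun s' t h => SetupEP_ind_congr _ (by simp [h])) y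

theorem p_mul_EP_of_refines {κ : Type*} {a : X → ι} {b : X → κ} (ha : IsLocallyConstant a)
    (hab : Refines a b) (s : Set κ) (y : H →L[ℂ] H) :
    S.p (b ⁻¹' s) * S.EP a y = S.EP a y * S.p (b ⁻¹' s) := by
  exact S.SetupEP_ρ_comm ha (fun s' t h => SetupEP_ind_congr _ (by simp [hab s' t h])) y

theorem EP_of_commute {a : X → ι} (ha : IsLocallyConstant a) {y : H →L[ℂ] H}
    (h : ∀ i, S.p (a ⁻¹' {i}) * y = y * S.p (a ⁻¹' {i})) : S.EP a y = y := by
  simp only [EP, h, mul_assoc, (S.isStarProjection_p _).isIdempotentElem.eq, ← Finset.mul_sum,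
    S.sum_p ha, mul_one]

theorem EP_EP {a : X → ι} {b : X → κ} (ha : IsLocallyConstant a) (hb : IsLocallyConstant b)
    (hab : Refines a b) (y : H →L[ℂ] H) :
    S.EP a (S.EP b y) = S.EP a y ∧ S.EP b (S.EP a y) = S.EP a y := by
  have h := S.EP_of_commute hb fun i => S.p_mul_EP_of_refines ha hab {i} y
  exact ⟨(S.SetupEP_comm a b y).trans h, h⟩

theorem EP_congr {a : X → ι} {b : X → κ} (ha : IsLocallyConstant a) (hb : IsLocallyConstant b)
    (hab : Refines a b) (hba : Refines b a) (y : H →L[ℂ] H) : S.EP a y = S.EP b y := by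
  exact (S.EP_EP ha hb hab y).1.symm.trans (S.EP_EP hb ha hba y).2

theorem EP_pow {a : X → ι} (ha : IsLocallyConstant a) (y : H →L[ℂ] H) {n : ℕ} (hn : 0 < n) :
    S.EP a y ^ n = ∑ i, (S.p (a ⁻¹' {i}) * y * S.p (a ⁻¹' {i})) ^ n := by
  obtain ⟨m, rfl⟩ : ∃ m, n = m + 1 := ⟨n - 1, by omega⟩
  clear hn
  induction m with
  | zero => simp [EP]
  | succ m ih =>
    rw [pow_succ, ih, EP, Finset.sum_mul_sum]
    refine Finset.sum_congr rfl fun i _ => ?_
    rw [Finset.sum_eq_single i, ← pow_succ]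
    · intro j _ hj
      have h := S.p_mul_p_fiber ha i j
      rw [if_neg (Ne.symm hj)] at h
      rw [pow_succ]
      simp only [mul_assoc]
      rw [← mul_assoc (S.p (a ⁻¹' {i})) (S.p (a ⁻¹' {j})), h]
      simp
    · simp

theorem SetupEP_prod {a : X → ι} {b : X → κ} (ha : IsLocallyConstant a) (hb : IsLocallyConstant b)
    (y : H →L[ℂ] H) : S.EP (fun t => (a t, b t)) y = S.EP b (S.EP a y) := by
  simp only [EP, Finset.mul_sum, Finset.sum_mul]
  rw [Fintype.sum_prod_type_right]
  refine Finset.sum_congr rfl fun j _ => Finset.sum_congr rfl fun i _ => ?_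
  have h : (fun t => (a t, b t)) ⁻¹' {(i, j)} = a ⁻¹' {i} ∩ b ⁻¹' {j} := by
    ext t
    simp
  have h1 := S.p_mul_p (U := a ⁻¹' {i}) (V := b ⁻¹' {j}) (ha.isClopen_fiber i) (hb.isClopen_fiber j)
  have h2 := S.p_mul_p (U := b ⁻¹' {j}) (V := a ⁻¹' {i}) (hb.isClopen_fiber j) (ha.isClopen_fiber i)
  rw [Set.inter_comm] at h2
  rw [h]
  calc _ = S.p (b ⁻¹' {j}) * S.p (a ⁻¹' {i}) * y * (S.p (a ⁻¹' {i}) * S.p (b ⁻¹' {j})) := by
        rw [h1, h2]
    _ = _ := by simp only [mul_assoc]

theorem SetupEP_ρ_sgn {a : X → ι} (ha : IsLocallyConstant a) (ε : ι → Bool) :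
    S.ρ (sgn a ε) = ∑ i, (if ε i then (1 : ℂ) else -1) • S.p (a ⁻¹' {i}) := by
  have h := cm_comp_eq_sum ha fun i => if ε i then (1 : ℂ) else -1
  rw [sgn, h, map_sum]
  simp only [map_smul, p]

theorem SetupEP_bool {c : X → Bool} (hc : IsLocallyConstant c) (z : H →L[ℂ] H) :
    S.EP c z = (2⁻¹ : ℂ) • (z + S.ρ (sgn c id) * z * S.ρ (sgn c id)) := by
  have h1 := S.sum_p hc
  have h2 := S.SetupEP_ρ_sgn hc id
  rw [Fintype.sum_bool] at h1 h2
  simp only [id, if_true, one_smul, Bool.false_eq_true, if_false, neg_smul] at h2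
  have h3 : z = (S.p (c ⁻¹' {true}) + S.p (c ⁻¹' {false})) * z *
      (S.p (c ⁻¹' {true}) + S.p (c ⁻¹' {false})) := by rw [h1, one_mul, mul_one]
  rw [EP, Fintype.sum_bool, h2, eq_inv_smul_iff₀ two_ne_zero, two_smul]
  nth_rewrite 5 [h3]
  noncomm_ring

/-- splitting every atom of `b` in two -/
theorem EP_split {b : X → κ} (hb : IsLocallyConstant b) {c : X → Bool} (hc : IsLocallyConstant c)
    (y : H →L[ℂ] H) : S.EP (fun t => (b t, c t)) y =
      (2⁻¹ : ℂ) • (S.EP b y + S.ρ (sgn c id) * S.EP b y * S.ρ (sgn c id)) := by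
  rw [S.SetupEP_prod hb hc, S.SetupEP_bool hc]

/-- the paving is the average of the conjugates by the sign functions -/
theorem sum_sgn_conj {a : X → ι} (ha : IsLocallyConstant a) (y : H →L[ℂ] H) :
    ∑ ε : ι → Bool, S.ρ (sgn a ε) * y * S.ρ (sgn a ε) = (2 : ℂ) ^ Fintype.card ι • S.EP a y := by
  simp only [S.SetupEP_ρ_sgn ha, Finset.sum_mul, Finset.mul_sum, smul_mul_assoc, mul_smul_comm,
    Finset.smul_sum, smul_smul]
  rw [Finset.sum_comm, EP, Finset.smul_sum]
  refine Finset.sum_congr rfl fun j _ => ?_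
  rw [Finset.sum_comm]
  simp only [← Finset.sum_smul, sum_sign_mul, ite_smul, zero_smul, Finset.sum_ite_eq,
    Finset.mem_univ, if_true]

/-- The paving along `j` two-colourings is the average over the group they generate
(induction on `j` with `EP_split`, or `sum_sgn_conj`-like character sums). -/
theorem EP_pi {j : ℕ} {c : Fin j → X → Bool} (hc : ∀ i, IsLocallyConstant (c i))
    (y : H →L[ℂ] H) : (2 : ℂ) ^ j • S.EP (fun t i => c i t) y =
      ∑ T : Finset (Fin j), S.ρ (∏ i ∈ T, sgn (c i) id) * y * S.ρ (∏ i ∈ T, sgn (c i) id) := by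
  have key : ∀ s : Finset (Fin j),
      (2 : ℂ) ^ s.card • S.EP (fun t i => if i ∈ s then c i t else false) y =
        ∑ T ∈ s.powerset, S.ρ (∏ i ∈ T, sgn (c i) id) * y * S.ρ (∏ i ∈ T, sgn (c i) id) := by
    have hlc : ∀ s : Finset (Fin j),
        IsLocallyConstant fun t i => if i ∈ s then c i t else false := fun s =>
      (IsLocallyConstant.iff_continuous _).2 (continuous_pi fun i => by
        by_cases hi : i ∈ s
        · simpa only [hi, if_true] using (hc i).continuous
        · simpa only [hi, if_false] using continuous_const)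
    intro s
    induction s using Finset.induction_on with
    | empty =>
      rw [S.EP_of_commute (hlc ∅) fun i => ?_]
      · simp
      · obtain ⟨d, hd⟩ := S.SetupEP_ρ_mul_p (a := fun _ => ()) (IsLocallyConstant.const ())
          (g := ind ((fun t i => if i ∈ (∅ : Finset (Fin j)) then c i t else false) ⁻¹' {i}))
          (fun s t _ => SetupEP_ind_congr _ (by simp)) ()
        have h1 : (fun _ : X => ()) ⁻¹' {()} = Set.univ := by ext; simp
        rw [h1, S.p_univ, mul_one] at hd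
        rw [p, hd, smul_mul_assoc, mul_smul_comm, one_mul, mul_one]
    | insert i s hi ih =>
      have h1 : S.EP (fun t k => if k ∈ insert i s then c k t else false) y =
          S.EP (fun t => (fun k => if k ∈ s then c k t else false, c i t)) y := by
        refine S.EP_congr (hlc _) ((hlc s).prodMk (hc i)) (fun t t' h => ?_) (fun t t' h => ?_) y
        · refine Prod.ext (funext fun k => ?_) ?_
          · have := congrFun h k
            by_cases hk : k ∈ s
            · simpa [hk] using this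
            · simp [hk]
          · simpa using congrFun h i
        · funext k
          have h2 := congrFun (congrArg Prod.fst h) k
          have h3 := congrArg Prod.snd h
          by_cases hk : k ∈ s
          · simpa [hk] using h2
          · by_cases hki : k = i
            · subst hki
              simpa using h3
            · simp [hk, hki]
      rw [h1, S.EP_split (hlc s) (hc i), Finset.card_insert_of_notMem hi,
        Finset.sum_powerset_insert hi, pow_succ, mul_smul, smul_inv_smul₀ two_ne_zero, smul_add,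
        ← smul_mul_assoc, ← mul_smul_comm, ih, Finset.mul_sum, Finset.sum_mul]
      congr 1
      refine Finset.sum_congr rfl fun T hT => ?_
      have hiT : i ∉ T := fun h => hi (Finset.mem_powerset.1 hT h)
      rw [Finset.prod_insert hiT]
      nth_rewrite 2 [mul_comm (sgn (c i) id)]
      simp only [map_mul, mul_assoc]
  simpa using key Finset.univ

end Setup

end

end Crest.Agent.R109
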