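import Crest.Agent.R109.VN

/-!
# Row 109: projections and pavings in a maximal abelian subalgebra
-/

open Filter Topology
open scoped InnerProductSpace BigOperators ComplexOrder

set_option linter.unusedSectionVars false

namespace Crest.Agent.R109

noncomputable section

open Classical

variable {H : Type*} [NormedAddCommGroup H] [InnerProductSpace ℂ H] [CompleteSpace H]
  {X : Type*} [TopologicalSpace X] [CompactSpace X] [T2Space X] [ExtremallyDisconnected X]

theorem SetupP_ind_of_not {U : Set X} (hU : ¬ IsClopen U) : ind U = 0 := by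
  unfold ind cm
  rw [dif_neg]
  intro h
  apply hU
  have h1 : U = (fun t => if t ∈ U then (1 : ℂ) else 0) ⁻¹' {1} := by
    ext t; by_cases ht : t ∈ U <;> simp [ht]
  have h2 : U = (fun t => if t ∈ U then (1 : ℂ) else 0) ⁻¹' {0}ᶜ := by
    ext t; by_cases ht : t ∈ U <;> simp [ht]
  constructor
  · rw [h1]; exact isClosed_singleton.preimage h
  · rw [h2]; exact isClosed_singleton.isOpen_compl.preimage h

theorem ind_mul {U V : Set X} (hU : IsClopen U) (hV : IsClopen V) : ind U * ind V = ind (U ∩ V) := by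
  ext t
  rw [ContinuousMap.mul_apply, ind_apply hU, ind_apply hV, ind_apply (hU.inter hV)]
  by_cases h1 : t ∈ U <;> by_cases h2 : t ∈ V <;> simp [h1, h2]

theorem star_ind (U : Set X) : star (ind U) = ind U := by
  by_cases hU : IsClopen U
  · ext t
    rw [ContinuousMap.star_apply, ind_apply hU]
    by_cases h : t ∈ U <;> simp [h]
  · rw [SetupP_ind_of_not hU, star_zero]

theorem ind_univ : ind (Set.univ : Set X) = 1 := by
  ext t; rw [ind_apply isClopen_univ]; simp

theorem ind_empty : ind (∅ : Set X) = 0 := by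
  ext t; rw [ind_apply isClopen_empty]; simp

theorem ind_compl {U : Set X} (hU : IsClopen U) : ind Uᶜ = 1 - ind U := by
  ext t
  rw [ind_apply hU.compl, ContinuousMap.sub_apply, ind_apply hU]
  by_cases h : t ∈ U <;> simp [h]

theorem norm_ind_le (U : Set X) : ‖ind U‖ ≤ 1 := by
  by_cases hU : IsClopen U
  · refine (ContinuousMap.norm_le _ zero_le_one).2 fun t => ?_
    rw [ind_apply hU]
    by_cases h : t ∈ U <;> simp [h]
  · rw [SetupP_ind_of_not hU]; simp

/-- a projection of `C(X, ℂ)` is the indicator function of a clopen set -/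
theorem exists_ind_of_idem {f : C(X, ℂ)} (hf : f * f = f) : ∃ U, IsClopen U ∧ f = ind U := by
  have h01 : ∀ t, f t = 0 ∨ f t = 1 := by
    intro t
    have h := congrArg (fun g : C(X, ℂ) => g t) hf
    simp only [ContinuousMap.mul_apply] at h
    by_cases h0 : f t = 0
    · exact Or.inl h0
    · exact Or.inr (mul_left_cancel₀ h0 (by rw [h, mul_one]))
  have hU : IsClopen (f ⁻¹' {1}) := by
    constructor
    · exact isClosed_singleton.preimage f.continuous
    · have h2 : f ⁻¹' {1} = f ⁻¹' {0}ᶜ := by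
        ext t
        rcases h01 t with h | h <;> simp [h]
      rw [h2]; exact isClosed_singleton.isOpen_compl.preimage f.continuous
  refine ⟨_, hU, ?_⟩
  ext t
  rw [ind_apply hU]
  rcases h01 t with h | h <;> simp [h]

/-- Recipe: locally constant functions are dense (Stone-Weierstrass
`ContinuousMap.starSubalgebra_topologicalClosure_eq_top_of_separatesPoints`, or a direct cover by
clopen sets on which `f` oscillates little, `loc_compact_Haus_tot_disc_of_zero_dim`). -/
theorem exists_lc_approx (f : C(X, ℂ)) {γ : ℝ} (hγ : 0 < γ) :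
    ∃ (Q : DiscreteQuotient X) (c : Q → ℂ), ∀ t, ‖f t - c (Q.proj t)‖ ≤ γ := by
  have hS : {p : ℂ × ℂ | ‖p.1 - p.2‖ < γ} ∈ nhdsSet (Set.diagonal ℂ) := by
    refine (isOpen_lt (by fun_prop) continuous_const).mem_nhdsSet.2 ?_
    rintro ⟨x, y⟩ (h : x = y)
    simp [h, hγ]
  obtain ⟨n, g, h, hg, hgh⟩ := f.exists_finite_approximation_of_mem_nhds_diagonal hS
  have hl : IsLocallyConstant (fun t => h (g t)) :=
    ((IsLocallyConstant.iff_continuous g).2 hg).comp h
  let F : LocallyConstant X ℂ := ⟨_, hl⟩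
  exact ⟨F.discreteQuotient, F.lift, fun t => (hgh t).le⟩

theorem SetupP_clopen {ι : Type*} {a : X → ι} (ha : IsLocallyConstant a) (s : Set ι) :
    IsClopen (a ⁻¹' s) :=
  ⟨⟨ha sᶜ⟩, ha s⟩

theorem cm_comp_eq_sum {ι : Type*} [Fintype ι] {a : X → ι} (ha : IsLocallyConstant a)
    (c : ι → ℂ) : cm (fun t => c (a t)) = ∑ i, c i • ind (a ⁻¹' {i}) := by
  ext t
  rw [cm_apply_lc (f := fun t => c (a t)) (ha.comp c), ContinuousMap.coe_sum, Finset.sum_apply,
    Finset.sum_eq_single (a t)]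
  · rw [ContinuousMap.smul_apply, ind_apply (SetupP_clopen ha _)]; simp
  · intro i _ hi
    rw [ContinuousMap.smul_apply, ind_apply (SetupP_clopen ha _)]; simp [hi.symm]
  · simp

/-- a closed subspace containing the indicator functions is everything -/
theorem induction_ind {P : C(X, ℂ) → Prop} (hcl : IsClosed {f | P f}) (h0 : P 0)
    (hadd : ∀ f g, P f → P g → P (f + g)) (hsmul : ∀ (c : ℂ) f, P f → P (c • f))
    (hind : ∀ U, IsClopen U → P (ind U)) (f : C(X, ℂ)) : P f := by
  refine hcl.closure_subset (Metric.mem_closure_iff.2 fun ε hε => ?_)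
  obtain ⟨Q, c, hc⟩ := exists_lc_approx f (half_pos hε)
  refine ⟨cm fun t => c (Q.proj t), ?_, ?_⟩
  · rw [cm_comp_eq_sum Q.proj_isLocallyConstant c]
    exact Finset.sum_induction _ P hadd h0 fun i _ => hsmul _ _ (hind _ (Q.isClopen_preimage _))
  · rw [dist_eq_norm]
    refine lt_of_le_of_lt ((ContinuousMap.norm_le _ (half_pos hε).le).2 fun t => ?_)
      (half_lt_self hε)
    rw [ContinuousMap.sub_apply, 
      cm_apply_lc (f := fun t => c (Q.proj t)) (Q.proj_isLocallyConstant.comp c)]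
    exact hc t

theorem exists_clopen_nhds {O : Set X} (hO : IsOpen O) {t : X} (ht : t ∈ O) :
    ∃ U, IsClopen U ∧ t ∈ U ∧ U ⊆ O := compact_exists_isClopen_in_isOpen hO ht

/-- the sign function of a two-colouring of the atoms -/
def sgn {ι : Type*} (a : X → ι) (ε : ι → Bool) : C(X, ℂ) :=
  cm fun t => if ε (a t) then 1 else -1

theorem sgn_mul_self {ι : Type*} {a : X → ι} (ha : IsLocallyConstant a) (ε : ι → Bool) :
    sgn a ε * sgn a ε = 1 ∧ star (sgn a ε) = sgn a ε ∧ ‖sgn a ε‖ ≤ 1 := by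
  have hl : IsLocallyConstant fun t => if ε (a t) then (1 : ℂ) else -1 :=
    ha.comp fun i => if ε i then (1 : ℂ) else -1
  have h : ∀ t, sgn a ε t = if ε (a t) then 1 else -1 := fun t => cm_apply_lc hl t
  refine ⟨?_, ?_, ?_⟩
  · ext t
    rw [ContinuousMap.mul_apply, h]
    cases ε (a t) <;> simp
  · ext t
    rw [ContinuousMap.star_apply, h]
    cases ε (a t) <;> simp
  · refine (ContinuousMap.norm_le _ zero_le_one).2 fun t => ?_
    rw [h]
    cases ε (a t) <;> simp

namespace Setup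
variable (S : Setup H X) {ι κ : Type*} [Fintype ι] [Fintype κ]

theorem ρ_comm (f g : C(X, ℂ)) : S.ρ f * S.ρ g = S.ρ g * S.ρ f := by
  rw [← map_mul, ← map_mul, mul_comm]

theorem norm_ρ (f : C(X, ℂ)) : ‖S.ρ f‖ = ‖f‖ := NonUnitalStarAlgHom.norm_map S.ρ S.inj f

theorem continuous_ρ : Continuous S.ρ := (NonUnitalStarAlgHom.isometry S.ρ S.inj).continuous

theorem ρ_nonneg_iff (f : C(X, ℂ)) : 0 ≤ S.ρ f ↔ ∀ t, 0 ≤ f t := by
  constructor
  · intro h
    have hsa : IsSelfAdjoint f := by
      apply S.inj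
      rw [map_star]
      exact h.isSelfAdjoint
    have h1 := (StarOrderedRing.nonneg_iff_spectrum_nonneg (R := ℝ) _ h.isSelfAdjoint).1 h
    rw [hsa.map_spectrum_real S.ρ S.inj] at h1
    intro t
    have h2 : ((f t).re : ℂ) = f t := by
      have h3 := congrArg (fun g : C(X, ℂ) => g t) hsa.star_eq
      simp only [ContinuousMap.star_apply] at h3
      exact Complex.conj_eq_iff_re.1 h3
    have h4 : (f t).re ∈ spectrum ℝ f := by
      rw [spectrum.mem_iff]
      intro hu
      have h5 := hu.map (ContinuousMap.evalAlgHom ℂ ℂ t)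
      have h6 : (ContinuousMap.evalAlgHom ℂ ℂ t) (algebraMap ℝ C(X, ℂ) (f t).re - f) = 0 := by
        simp [Algebra.algebraMap_eq_smul_one, h2]
      rw [h6] at h5
      exact not_isUnit_zero h5
    rw [← h2]
    exact_mod_cast h1 _ h4
  · intro h
    have h1 : (0 : C(X, ℂ)) ≤ f := fun t => h t
    exact map_nonneg S.ρ h1

theorem p_mem (U : Set X) : S.p U ∈ S.M := S.mem _

theorem isStarProjection_p (U : Set X) : IsStarProjection (S.p U) := by
  constructor
  · show S.ρ (ind U) * S.ρ (ind U) = S.ρ (ind U)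
    rw [← map_mul]
    by_cases hU : IsClopen U
    · rw [ind_mul hU hU, Set.inter_self]
    · rw [SetupP_ind_of_not hU, mul_zero]
  · show star (S.ρ (ind U)) = S.ρ (ind U)
    rw [← map_star, star_ind]

theorem p_mul_p {U V : Set X} (hU : IsClopen U) (hV : IsClopen V) :
    S.p U * S.p V = S.p (U ∩ V) := by
  unfold p; rw [← map_mul, ind_mul hU hV]

theorem p_univ : S.p Set.univ = 1 := by
  unfold p; rw [ind_univ, map_one]

theorem p_empty : S.p ∅ = 0 := by
  unfold p; rw [ind_empty, map_zero]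

theorem p_compl {U : Set X} (hU : IsClopen U) : S.p Uᶜ = 1 - S.p U := by
  unfold p; rw [ind_compl hU, map_sub, map_one]

theorem p_ne_zero {U : Set X} (hU : IsClopen U) (hne : U.Nonempty) : S.p U ≠ 0 := by
  intro h
  have h1 : ind U = 0 := S.inj (by rw [map_zero]; exact h)
  obtain ⟨t, ht⟩ := hne
  have h2 := ind_apply hU t
  rw [h1] at h2
  simp [ht] at h2

theorem norm_p_le (U : Set X) : ‖S.p U‖ ≤ 1 := by
  unfold p; rw [norm_ρ]; exact norm_ind_le U

theorem p_mul_p_fiber {a : X → ι} (ha : IsLocallyConstant a) (i j : ι) :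
    S.p (a ⁻¹' {i}) * S.p (a ⁻¹' {j}) = if i = j then S.p (a ⁻¹' {i}) else 0 := by
  rw [S.p_mul_p (SetupP_clopen ha _) (SetupP_clopen ha _)]
  split_ifs with h
  · subst h; exact congrArg S.p (Set.inter_self _)
  · rw [← S.p_empty]
    congr 1
    ext t
    simp only [Set.mem_inter_iff, Set.mem_preimage, Set.mem_singleton_iff, Set.mem_empty_iff_false,
      iff_false, not_and]
    intro h1 h2
    exact h (h1.symm.trans h2)

theorem sum_p {a : X → ι} (ha : IsLocallyConstant a) : ∑ i, S.p (a ⁻¹' {i}) = 1 := by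
  have h := cm_comp_eq_sum ha fun _ => (1 : ℂ)
  simp only [one_smul] at h
  unfold p
  rw [← map_sum, ← h, ← map_one S.ρ]
  congr 1
  ext t
  rw [cm_apply continuous_const]; rfl

theorem p_preimage {a : X → ι} (ha : IsLocallyConstant a) (s : Set ι) :
    S.p (a ⁻¹' s) = ∑ i ∈ Finset.univ.filter (· ∈ s), S.p (a ⁻¹' {i}) := by
  have h := cm_comp_eq_sum ha fun i => if i ∈ s then (1 : ℂ) else 0
  unfold p
  rw [← map_sum, Finset.sum_filter]
  congr 1
  refine h.trans (Finset.sum_congr rfl fun i _ => ?_)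
  split_ifs <;> simp

theorem SetupP_norm_sum_p_sq {a : X → ι} (ha : IsLocallyConstant a) (η : ι → H) :
    ‖∑ i, S.p (a ⁻¹' {i}) (η i)‖ ^ 2 = ∑ i, ‖S.p (a ⁻¹' {i}) (η i)‖ ^ 2 := by
  have key : ∀ i j, ⟪S.p (a ⁻¹' {i}) (η i), S.p (a ⁻¹' {j}) (η j)⟫_ℂ =
      if i = j then ⟪S.p (a ⁻¹' {i}) (η i), S.p (a ⁻¹' {i}) (η i)⟫_ℂ else 0 := by
    intro i j
    split_ifs with h
    · rw [h]
    · have h1 := S.p_mul_p_fiber ha i j
      rw [if_neg h] at h1
      have h2 : ContinuousLinearMap.adjoint (S.p (a ⁻¹' {i})) = S.p (a ⁻¹' {i}) :=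
        (S.isStarProjection_p _).isSelfAdjoint
      rw [← ContinuousLinearMap.adjoint_inner_right, h2, ← mul_apply_eq_comp, h1]
      simp
  rw [← inner_self_eq_norm_sq (𝕜 := ℂ), sum_inner, map_sum]
  refine Finset.sum_congr rfl fun i _ => ?_
  rw [inner_sum]
  rw [Finset.sum_congr rfl fun j _ => key i j, Finset.sum_ite_eq, if_pos (Finset.mem_univ _)]
  exact inner_self_eq_norm_sq (𝕜 := ℂ) _

theorem sum_norm_p_sq {a : X → ι} (ha : IsLocallyConstant a) (η : H) :
    ∑ i, ‖S.p (a ⁻¹' {i}) η‖ ^ 2 = ‖η‖ ^ 2 := by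
  rw [← SetupP_norm_sum_p_sq S ha fun _ => η, ← sum_apply, S.sum_p ha]
  rfl

theorem norm_sum_p_sq {a : X → ι} (ha : IsLocallyConstant a) (η : ι → H) :
    ‖∑ i, S.p (a ⁻¹' {i}) (η i)‖ ^ 2 = ∑ i, ‖S.p (a ⁻¹' {i}) (η i)‖ ^ 2 := SetupP_norm_sum_p_sq S ha η

theorem commute_of_commute_p {y : H →L[ℂ] H} (h : ∀ U, IsClopen U → S.p U * y = y * S.p U)
    (f : C(X, ℂ)) : S.ρ f * y = y * S.ρ f := by
  refine induction_ind (P := fun f => S.ρ f * y = y * S.ρ f) ?_ ?_ ?_ ?_ h f
  · exact isClosed_eq (S.continuous_ρ.mul continuous_const) (continuous_const.mul S.continuous_ρ)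
  · simp
  · intro f g hf hg
    rw [map_add, add_mul, mul_add, hf, hg]
  · intro c f hf
    rw [map_smul, smul_mul_assoc, mul_smul_comm, hf]

theorem exists_ρ_of_commute_p {y : H →L[ℂ] H} (hy : y ∈ S.M)
    (h : ∀ U, IsClopen U → S.p U * y = y * S.p U) : ∃ f, S.ρ f = y :=
  S.max y hy (S.commute_of_commute_p h)

end Setup

end

end Crest.Agent.R109
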