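import Crest.Agent.R109.SetupE

/-!
# Row 109: the singular case: almost orthogonal conjugates
-/

open Filter Topology
open scoped InnerProductSpace BigOperators ComplexOrder

set_option linter.unusedSectionVars false

namespace Crest.Agent.R109

noncomputable section

open Classical

variable {H : Type*} [NormedAddCommGroup H] [InnerProductSpace ℂ H] [CompleteSpace H]
  {X : Type*} [TopologicalSpace X] [CompactSpace X] [T2Space X] [ExtremallyDisconnected X]

theorem Sing1_par_update {β : Type*} {j : ℕ} {T : Finset (Fin j)} {i₀ : Fin j} (hi : i₀ ∈ T)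
    (ε : Fin j → β → Bool) (δ : β → Bool) :
    (fun b => decide (Even (T.filter fun i =>
      Function.update ε i₀ (fun b => (δ b == ε i₀ b)) i b = false).card)) =
      fun b => (δ b == decide (Even (T.filter fun i => ε i b = false).card)) := by
  funext b
  have h0 : i₀ ∉ T.erase i₀ := Finset.notMem_erase _ _
  have h1 : ((T.erase i₀).filter fun i =>
      Function.update ε i₀ (fun b => (δ b == ε i₀ b)) i b = false) =
      (T.erase i₀).filter fun i => ε i b = false :=
    Finset.filter_congr fun i hi' => by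
      rw [Function.update_of_ne (Finset.ne_of_mem_erase hi')]
  have h2 : i₀ ∉ (T.erase i₀).filter fun i => ε i b = false :=
    fun h => h0 (Finset.mem_filter.1 h).1
  rw [← Finset.insert_erase hi, Finset.filter_insert, Finset.filter_insert, h1,
    Function.update_self]
  cases δ b <;> cases ε i₀ b <;>
    simp [Finset.card_insert_of_notMem h2, Nat.even_add_one, -Nat.not_even_iff_odd]

theorem Sing1_sum_par {β : Type*} [Fintype β] {j : ℕ} {T : Finset (Fin j)} (hT : T.Nonempty)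
    (F : (β → Bool) → ℝ) :
    2 ^ Fintype.card β * ∑ ε : Fin j → β → Bool,
      F (fun b => decide (Even (T.filter fun i => ε i b = false).card)) =
      Fintype.card (Fin j → β → Bool) * ∑ δ, F δ := by
  obtain ⟨i₀, hi⟩ := hT
  have h1 : ∀ δ : β → Bool, ∑ ε : Fin j → β → Bool,
      F (fun b => decide (Even (T.filter fun i => ε i b = false).card)) =
      ∑ ε : Fin j → β → Bool,
        F (fun b => (δ b == decide (Even (T.filter fun i => ε i b = false).card))) := by
    intro δ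
    have hinv : Function.Involutive fun ε : Fin j → β → Bool =>
        Function.update ε i₀ (fun b => (δ b == ε i₀ b)) := by
      intro ε
      simp only [Function.update_idem, Function.update_self]
      have : (fun b => (δ b == (δ b == ε i₀ b))) = ε i₀ := by
        funext b
        cases δ b <;> cases ε i₀ b <;> rfl
      rw [this, Function.update_eq_self]
    rw [← hinv.bijective.sum_comp]
    exact Finset.sum_congr rfl fun ε _ => by rw [Sing1_par_update hi]
  have h2 : ∀ π : β → Bool, ∑ δ : β → Bool, F (fun b => (δ b == π b)) = ∑ δ, F δ := by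
    intro π
    have hinv : Function.Involutive fun δ : β → Bool => fun b => (δ b == π b) := by
      intro δ
      funext b
      cases hδ : δ b <;> cases hπ : π b <;> simp [hδ, hπ]
    exact hinv.bijective.sum_comp F
  calc _ = ∑ _δ : β → Bool, ∑ ε : Fin j → β → Bool,
        F (fun b => decide (Even (T.filter fun i => ε i b = false).card)) := by
        rw [Finset.sum_const, Finset.card_univ, nsmul_eq_mul]
        simp
    _ = ∑ ε : Fin j → β → Bool, ∑ δ : β → Bool,
        F (fun b => (δ b == decide (Even (T.filter fun i => ε i b = false).card))) := by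
        rw [Finset.sum_comm (s := Finset.univ) (f := fun (ε : Fin j → β → Bool) (δ : β → Bool) =>
          F (fun b => (δ b == decide (Even (T.filter fun i => ε i b = false).card))))]
        exact Finset.sum_congr rfl fun δ _ => h1 δ
    _ = _ := by
        rw [Finset.sum_congr rfl fun ε _ => h2 _, Finset.sum_const, Finset.card_univ, nsmul_eq_mul]

/-- For nonempty `T` the product of the signs `ε i`, `i ∈ T`, is again a uniform sign vector.
Recipe: for `i₀ ∈ T` the map `ε ↦ (ε off i₀, product)` is a bijection (`Equiv.funSplitAt`, or an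
involution-free translation argument in the group `β → Bool` with `xor`); a term is at most the
average. -/
theorem exists_signs {β : Type*} [Fintype β] (j : ℕ) (F : (β → Bool) → ℝ) {c : ℝ}
    (hF : ∑ δ, F δ ≤ 2 ^ Fintype.card β * c) :
    ∃ ε : Fin j → β → Bool, ∑ T ∈ Finset.univ.filter (fun T : Finset (Fin j) => T.Nonempty),
      F (fun b => decide (Even (T.filter fun i => ε i b = false).card)) ≤ (2 ^ j - 1) * c := by
  have h1 : ∀ T ∈ Finset.univ.filter (fun T : Finset (Fin j) => T.Nonempty),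
      ∑ ε : Fin j → β → Bool,
        F (fun b => decide (Even (T.filter fun i => ε i b = false).card)) ≤
      Fintype.card (Fin j → β → Bool) * c := by
    intro T hT
    have h := Sing1_sum_par (Finset.mem_filter.1 hT).2 F
    have h2 : (0 : ℝ) < 2 ^ Fintype.card β := by positivity
    refine le_of_mul_le_mul_left ?_ h2
    rw [h, mul_left_comm]
    exact mul_le_mul_of_nonneg_left hF (Nat.cast_nonneg _)
  have hcard : ((Finset.univ.filter (fun T : Finset (Fin j) => T.Nonempty)).card : ℝ) =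
      2 ^ j - 1 := by
    have h : Finset.univ.filter (fun T : Finset (Fin j) => T.Nonempty) = Finset.univ.erase ∅ := by
      ext T
      simp [Finset.nonempty_iff_ne_empty]
    rw [h, Finset.card_erase_of_mem (Finset.mem_univ _), Finset.card_univ, Fintype.card_finset,
      Fintype.card_fin, Nat.cast_sub Nat.one_le_two_pow]
    simp
  have h3 := Finset.sum_le_sum h1
  rw [Finset.sum_comm, Finset.sum_const, nsmul_eq_mul, hcard] at h3
  obtain ⟨ε, -, hε⟩ := Finset.exists_le_of_sum_le (s := Finset.univ) (f := fun ε : Fin j → β → Bool =>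
      ∑ T ∈ Finset.univ.filter (fun T : Finset (Fin j) => T.Nonempty),
        F (fun b => decide (Even (T.filter fun i => ε i b = false).card)))
    (g := fun _ => (2 ^ j - 1) * c) Finset.univ_nonempty (by
      rw [Finset.sum_const, Finset.card_univ, nsmul_eq_mul, mul_left_comm]
      exact h3)
  exact ⟨ε, hε⟩

theorem prod_sgn {β : Type*} {a : X → β} (ha : IsLocallyConstant a) {j : ℕ}
    (ε : Fin j → β → Bool) (T : Finset (Fin j)) :
    ∏ i ∈ T, sgn (fun t => ε i (a t)) id =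
      sgn a (fun b => decide (Even (T.filter fun i => ε i b = false).card)) := by
  ext t
  have h1 : ∀ i, sgn (fun t => ε i (a t)) id t = if ε i (a t) then (1 : ℂ) else -1 := fun i =>
    cm_apply_lc (ha.comp fun b => if ε i b then (1 : ℂ) else -1) t
  have h2 : sgn a (fun b => decide (Even (T.filter fun i => ε i b = false).card)) t =
      if Even (T.filter fun i => ε i (a t) = false).card then (1 : ℂ) else -1 := by
    have h := cm_apply_lc (ha.comp fun b =>
      if decide (Even (T.filter fun i => ε i b = false).card) then (1 : ℂ) else -1) t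
    refine h.trans ?_
    simp
  rw [h2, ContinuousMap.prod_apply, Finset.prod_congr rfl fun i _ => h1 i, Finset.prod_ite,
    Finset.prod_const_one, one_mul, Finset.prod_const, neg_one_pow_eq_ite]
  simp

theorem Sing1_sum_sign4 {ι : Type*} [Fintype ι] {i j : ι} (hij : i ≠ j) (k l : ι) :
    ∑ ε : ι → Bool, ((if ε i then (1 : ℂ) else -1) * (if ε j then (1 : ℂ) else -1)) *
      ((if ε k then (1 : ℂ) else -1) * (if ε l then (1 : ℂ) else -1)) =
      (if i = k ∧ j = l then 2 ^ Fintype.card ι else 0) +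
        (if i = l ∧ j = k then 2 ^ Fintype.card ι else 0) := by
  by_cases hk : i = k
  · subst hk
    rw [Finset.sum_congr rfl (g := fun ε : ι → Bool =>
      (if ε j then (1 : ℂ) else -1) * (if ε l then (1 : ℂ) else -1)) fun ε _ => by
        split_ifs <;> simp, sum_sign_mul]
    simp [hij.symm]
  by_cases hl : i = l
  · subst hl
    rw [Finset.sum_congr rfl (g := fun ε : ι → Bool =>
      (if ε j then (1 : ℂ) else -1) * (if ε k then (1 : ℂ) else -1)) fun ε _ => by
        split_ifs <;> simp, sum_sign_mul]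
    simp [hk]
  simp only [hk, hl, false_and, if_false, add_zero]
  refine Finset.sum_involution (fun ε _ => Function.update ε i (!ε i)) (fun ε _ => ?_)
    (fun ε _ _ e => ?_) (fun _ _ => Finset.mem_univ _) (fun ε _ => ?_)
  · rw [Function.update_self, Function.update_of_ne (Ne.symm hij),
      Function.update_of_ne (Ne.symm hk), Function.update_of_ne (Ne.symm hl)]
    cases ε i <;> cases ε j <;> cases ε k <;> cases ε l <;> simp
  · have := congrFun e i
    simp at this
  · simp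

/-- second order chaos (`E ε_i ε_j ε_k ε_l = 1[{i,j} = {k,l}]` for `i ≠ j`, `k ≠ l`: flip a sign) -/
theorem sum_sign_pair_le {ι V : Type*} [Fintype ι] [SeminormedAddCommGroup V]
    [InnerProductSpace ℂ V] (v : ι → ι → V) (hv : ∀ i, v i i = 0) :
    ∑ ε : ι → Bool, ‖∑ i, ∑ j,
        ((if ε i then (1 : ℂ) else -1) * (if ε j then (1 : ℂ) else -1)) • v i j‖ ^ 2 ≤
      2 ^ Fintype.card ι * (2 * ∑ i, ∑ j, ‖v i j‖ ^ 2) := by
  have h1 : ∀ ε : ι → Bool, ‖∑ i, ∑ j,
        ((if ε i then (1 : ℂ) else -1) * (if ε j then (1 : ℂ) else -1)) • v i j‖ ^ 2 =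
      (∑ i, ∑ j, ∑ k, ∑ l, ((if ε i then (1 : ℂ) else -1) * (if ε j then (1 : ℂ) else -1)) *
        ((if ε k then (1 : ℂ) else -1) * (if ε l then (1 : ℂ) else -1)) *
          ⟪v i j, v k l⟫_ℂ).re := by
    intro ε
    rw [← inner_self_eq_norm_sq (𝕜 := ℂ), RCLike.re_to_complex, sum_inner]
    congr 1
    refine Finset.sum_congr rfl fun i _ => ?_
    rw [sum_inner]
    refine Finset.sum_congr rfl fun j _ => ?_
    rw [inner_sum]
    refine Finset.sum_congr rfl fun k _ => ?_
    rw [inner_sum]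
    refine Finset.sum_congr rfl fun l _ => ?_
    rw [inner_smul_left, inner_smul_right, ← mul_assoc]
    congr 2
    split_ifs <;> simp
  have h2 : ∀ i j, ∑ ε : ι → Bool, ∑ k, ∑ l,
      ((if ε i then (1 : ℂ) else -1) * (if ε j then (1 : ℂ) else -1)) *
        ((if ε k then (1 : ℂ) else -1) * (if ε l then (1 : ℂ) else -1)) * ⟪v i j, v k l⟫_ℂ =
      ((2 ^ Fintype.card ι : ℝ) : ℂ) * (⟪v i j, v i j⟫_ℂ + ⟪v i j, v j i⟫_ℂ) := by
    intro i j
    by_cases hij : i = j
    · subst hij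
      simp [hv]
    rw [Finset.sum_comm]
    have h3 : ∀ k, ∑ ε : ι → Bool, ∑ l,
        ((if ε i then (1 : ℂ) else -1) * (if ε j then (1 : ℂ) else -1)) *
          ((if ε k then (1 : ℂ) else -1) * (if ε l then (1 : ℂ) else -1)) * ⟪v i j, v k l⟫_ℂ =
        (if i = k then 2 ^ Fintype.card ι * ⟪v i j, v k j⟫_ℂ else 0) +
          (if j = k then 2 ^ Fintype.card ι * ⟪v i j, v k i⟫_ℂ else 0) := by
      intro k
      rw [Finset.sum_comm]
      simp only [← Finset.sum_mul, Sing1_sum_sign4 hij]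
      simp only [add_mul, Finset.sum_add_distrib, ite_mul, zero_mul]
      congr 1
      · by_cases h : i = k <;> simp [h]
      · by_cases h : j = k <;> simp [h]
    simp only [h3, Finset.sum_add_distrib, Finset.sum_ite_eq, Finset.mem_univ, if_true]
    push_cast
    ring
  rw [Finset.sum_congr rfl fun ε _ => h1 ε, ← Complex.re_sum, Finset.sum_comm]
  rw [Finset.sum_congr rfl fun i _ => Finset.sum_comm]
  simp only [h2, ← Finset.mul_sum, Complex.re_ofReal_mul]
  refine mul_le_mul_of_nonneg_left ?_ (by positivity)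
  have h4 : ∀ i j, (⟪v i j, v i j⟫_ℂ + ⟪v i j, v j i⟫_ℂ).re ≤
      3 / 2 * ‖v i j‖ ^ 2 + 1 / 2 * ‖v j i‖ ^ 2 := by
    intro i j
    have e1 : (⟪v i j, v i j⟫_ℂ).re = ‖v i j‖ ^ 2 := inner_self_eq_norm_sq (𝕜 := ℂ) _
    have e2 : (⟪v i j, v j i⟫_ℂ).re ≤ ‖v i j‖ * ‖v j i‖ := re_inner_le_norm (𝕜 := ℂ) _ _
    rw [Complex.add_re, e1]
    nlinarith [sq_nonneg (‖v i j‖ - ‖v j i‖)]
  simp only [Complex.re_sum]
  refine (Finset.sum_le_sum fun i _ => Finset.sum_le_sum fun j _ => h4 i j).trans (le_of_eq ?_)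
  simp only [Finset.sum_add_distrib, ← Finset.mul_sum]
  rw [Finset.sum_comm (f := fun i j => ‖v j i‖ ^ 2)]
  ring

/-- `(∑ q T)² = ∑ q T + ∑_{T ≠ T'} q T q T'` -/
theorem norm_sum_proj_le {τ : Type*} [Fintype τ] (q : τ → H →L[ℂ] H)
    (hq : ∀ T, IsStarProjection (q T)) {s : ℝ} (hs : 0 ≤ s)
    (h : ∀ T T', T ≠ T' → ‖q T * q T'‖ ≤ s) : ‖∑ T, q T‖ ≤ 1 + (Fintype.card τ : ℝ) ^ 2 * s := by
  have hsa : star (∑ T, q T) = ∑ T, q T := by
    rw [star_sum]
    exact Finset.sum_congr rfl fun T _ => (hq T).isSelfAdjoint.star_eq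
  have h1 : (∑ T, q T) * ∑ T, q T =
      ∑ T, q T + ∑ T, ∑ T', if T = T' then 0 else q T * q T' := by
    rw [Finset.sum_mul_sum, ← Finset.sum_add_distrib]
    refine Finset.sum_congr rfl fun T _ => ?_
    have e : ∀ T', q T * q T' = (if T = T' then q T else 0) + if T = T' then 0 else q T * q T' := by
      intro T'
      split_ifs with hT
      · rw [← hT, (hq T).isIdempotentElem.eq, add_zero]
      · rw [zero_add]
    rw [Finset.sum_congr rfl fun T' _ => e T', Finset.sum_add_distrib]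
    simp
  have h2 : ‖∑ T, ∑ T', if T = T' then 0 else q T * q T'‖ ≤ (Fintype.card τ : ℝ) ^ 2 * s := by
    have h3 : ∀ T, ‖∑ T', if T = T' then 0 else q T * q T'‖ ≤ (Fintype.card τ : ℝ) * s := by
      intro T
      refine (norm_sum_le _ _).trans ?_
      refine (Finset.sum_le_card_nsmul _ _ s fun T' _ => ?_).trans (by simp)
      split_ifs with hT
      · simpa using hs
      · exact h T T' hT
    refine (norm_sum_le _ _).trans ?_
    refine (Finset.sum_le_card_nsmul _ _ _ fun T _ => h3 T).trans (le_of_eq ?_)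
    rw [Finset.card_univ, nsmul_eq_mul]
    ring
  have h4 := CStarRing.norm_star_mul_self (x := ∑ T, q T)
  rw [hsa, h1] at h4
  have h5 := (norm_add_le (∑ T, q T) (∑ T, ∑ T', if T = T' then 0 else q T * q T')).trans
    (add_le_add le_rfl h2)
  rw [h4] at h5
  have hK : 0 ≤ (Fintype.card τ : ℝ) ^ 2 * s := by positivity
  generalize (Fintype.card τ : ℝ) ^ 2 * s = K at *
  generalize ‖∑ T, q T‖ = x at *
  by_contra hx
  push Not at hx
  nlinarith

/-- cutting inside a projection (`exists_cut` for `f h f`, `q = f - r`) -/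
theorem exists_cut_le {M : VonNeumannAlgebra H} {f h : H →L[ℂ] H} (hf : IsStarProjection f)
    (hfM : f ∈ M) (hh : 0 ≤ h) (hhM : h ∈ M) {s : ℝ} (hs : 0 < s) :
    ∃ q ∈ M, IsStarProjection q ∧ f * q = q ∧
      (∀ η, f η = η → s * ‖(1 - q) η‖ ^ 2 ≤ (⟪η, h η⟫_ℂ).re) ∧
      ∀ η, (⟪q η, h (q η)⟫_ℂ).re ≤ s * ‖η‖ ^ 2 := by
  have hfs : star f = f := hf.isSelfAdjoint.star_eq
  have hff : f * f = f := hf.isIdempotentElem.eq
  have hT : 0 ≤ f * h * f := by
    have := star_left_conjugate_nonneg hh f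
    rwa [hfs] at this
  obtain ⟨r, hr, h1, h2, -, h4, h5⟩ := exists_cut hT hs
  have hTM : f * h * f ∈ M := mul_mem (mul_mem hfM hhM) hfM
  have hrM : r ∈ M := vn_mem_of_commute fun y hy => h1 y (vn_commute hTM hy)
  have hfr : f * r = r := by
    have := h2 (1 - f) (by rw [← mul_assoc, ← mul_assoc, sub_mul, one_mul, hff, sub_self,
      zero_mul, zero_mul])
    rw [sub_mul, one_mul, sub_eq_zero] at this
    exact this.symm
  have hrf : r * f = r := by
    have := congrArg star hfr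
    rwa [star_mul, hfs, hr.isSelfAdjoint.star_eq] at this
  have hq : IsStarProjection (f - r) := by
    refine ⟨?_, hf.isSelfAdjoint.sub hr.isSelfAdjoint⟩
    change (f - r) * (f - r) = f - r
    rw [sub_mul, mul_sub, mul_sub, hff, hfr, hrf, hr.isIdempotentElem.eq, sub_self, sub_zero]
  have hfq : f * (f - r) = f - r := by rw [mul_sub, hff, hfr]
  have hform : ∀ η, f η = η → ⟪η, (f * h * f) η⟫_ℂ = ⟪η, h η⟫_ℂ := by
    intro η hη
    rw [mul_apply_eq_comp, mul_apply_eq_comp, hη]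
    nth_rewrite 1 [← hfs]
    rw [VN_inner_star, hη]
  refine ⟨f - r, sub_mem hfM hrM, hq, hfq, fun η hη => ?_, fun η => ?_⟩
  · have e : (1 - (f - r)) η = r η := by
      rw [sub_apply, sub_apply, one_apply_eq_self, hη, sub_sub_cancel]
    rw [e, ← hform η hη]
    exact h4 η
  · have e : (1 - r) (f η) = (f - r) η := by
      rw [← mul_apply_eq_comp, sub_mul, one_mul, hrf]
    have h6 := h5 (f η)
    rw [e, hform _ (by rw [← mul_apply_eq_comp, hfq])] at h6
    refine h6.trans (mul_le_mul_of_nonneg_left ?_ hs.le)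
    exact pow_le_pow_left₀ (norm_nonneg _) (VN_proj_le hq η) 2

theorem Sing1_sq_le {c : H →L[ℂ] H} (h0 : 0 ≤ c) (h1 : c ≤ 1) (η : H) :
    ‖c η‖ ^ 2 ≤ (⟪η, c η⟫_ℂ).re := by
  have hc : star c = c := (IsSelfAdjoint.of_nonneg h0).star_eq
  have h2 := star_left_conjugate_nonneg (sub_nonneg.2 h1) c
  have h3 := star_left_conjugate_nonneg h0 (1 - c)
  rw [star_sub, star_one, hc] at h3
  rw [hc] at h2
  have h4 : 0 ≤ c - c * c := by
    have e : c - c * c = c * (1 - c) * c + (1 - c) * c * (1 - c) := by noncomm_ring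
    rw [e]
    exact add_nonneg h2 h3
  have h5 := VN_re_nonneg h4 η
  rw [sub_apply, inner_sub_right, Complex.sub_re] at h5
  rw [norm_apply_sq_eq, hc]
  linarith

theorem Sing1_norm_le {c b : H →L[ℂ] H} (h0 : 0 ≤ c) (h1 : c ≤ 1) {t : ℝ} (ht : 0 ≤ t)
    (h : ∀ η, (⟪b η, c (b η)⟫_ℂ).re ≤ t ^ 2 * ‖η‖ ^ 2) : ‖c * b‖ ≤ t := by
  refine ContinuousLinearMap.opNorm_le_bound _ ht fun η => ?_
  refine (pow_le_pow_iff_left₀ (norm_nonneg _) (by positivity) two_ne_zero).1 ?_
  rw [mul_pow, mul_apply_eq_comp]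
  exact (Sing1_sq_le h0 h1 _).trans (h η)

theorem Sing1_prod_symmDiff {σ R : Type*} [DecidableEq σ] [CommMonoid R] {g : σ → R}
    (hg : ∀ i, g i * g i = 1) (T T' : Finset σ) :
    (∏ i ∈ T, g i) * ∏ i ∈ T', g i = ∏ i ∈ symmDiff T T', g i := by
  have h1 : T ∪ T' = symmDiff T T' ∪ (T ∩ T') := by
    ext i
    simp only [Finset.mem_union, Finset.mem_symmDiff, Finset.mem_inter]
    tauto
  have h2 : Disjoint (symmDiff T T') (T ∩ T') := by
    rw [Finset.disjoint_left]
    intro i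
    simp only [Finset.mem_symmDiff, Finset.mem_inter]
    tauto
  rw [← Finset.prod_union_inter, h1, Finset.prod_union h2, mul_assoc, ← Finset.prod_mul_distrib]
  simp [hg]

namespace Setup
variable (S : Setup H X) {ι : Type*} [Fintype ι]

/-- the state of the vectors `χ` is singular to its composition with `E0` -/
def Sing (χ : ι → H) : Prop :=
  ∀ γ : ℝ, 0 < γ → ∃ q ∈ S.M, 0 ≤ q ∧ q ≤ 1 ∧ ∑ i, (⟪χ i, (1 - q) (χ i)⟫_ℂ).re ≤ γ ∧
    ∑ i, (⟪χ i, S.E0 q (χ i)⟫_ℂ).re ≤ γ

/-- Recipe: take `q` for a tiny `γ₁`, `Q` with `∑ re ⟪χ, EP Q q χ⟫ ≤ 2 γ₁` (`WL_E0`), signs from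
`exists_signs` (`sum_sgn_conj`), `h = (1 - q) + ∑_{T ≠ ∅} u_T q u_T`, `q'` from `exists_cut_le` at the
level `s`.  Then `‖(1 - q)^{1/2} q'‖, ‖q^{1/2} u_T q'‖ ≤ √s` (or use `c² ≤ c` for `0 ≤ c ≤ 1`), so
`‖q' u_T q'‖ ≤ 2 √s` for `T ≠ ∅`; `u_T u_{T'} = u_{T ∆ T'}`; `norm_sum_proj_le`, `EP_pi`. -/
theorem Sing.exists_proj {χ : ι → H} (h : S.Sing χ) {V : Set X} (hV : IsClopen V)
    (hχ : ∀ i, S.p V (χ i) = χ i) (j : ℕ) {γ : ℝ} (hγ : 0 < γ) :
    ∃ c : Fin j → X → Bool, (∀ i, IsLocallyConstant (c i)) ∧ ∃ q ∈ S.M, IsStarProjection q ∧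
      S.p V * q = q ∧ ∑ i, ‖(1 - q) (χ i)‖ ^ 2 ≤ γ ∧
      ‖S.EP (fun t i => c i t) q‖ ≤ 1 / 2 ^ j + γ := by
  have hn : (1 : ℝ) ≤ 2 ^ j := one_le_pow₀ one_le_two
  have hn0 : (0 : ℝ) < 2 ^ j := by positivity
  obtain ⟨t, ht, htγ⟩ : ∃ t : ℝ, 0 < t ∧ (2 ^ j) ^ 2 * (2 * t) = γ :=
    ⟨γ / (2 * (2 ^ j) ^ 2), by positivity, by field_simp⟩
  obtain ⟨γ₁, hγ₁, hγ₁t⟩ : ∃ γ₁ : ℝ, 0 < γ₁ ∧ 2 ^ j * (2 * γ₁) = t ^ 2 * γ :=
    ⟨t ^ 2 * γ / (2 * 2 ^ j), by positivity, by field_simp⟩
  obtain ⟨q, hqM, hq0, hq1, hqa, hqb⟩ := h γ₁ hγ₁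
  have hlim : Tendsto (fun Q : DiscreteQuotient X => ∑ i, (⟪χ i, S.EP Q.proj q (χ i)⟫_ℂ).re)
      (UF X) (𝓝 (∑ i, (⟪χ i, S.E0 q (χ i)⟫_ℂ).re)) :=
    tendsto_finsetSum _ fun i _ =>
      (Complex.continuous_re.tendsto _).comp (S.WL_E0 q (χ i) (χ i))
  obtain ⟨Q, _, a, ha, hQ⟩ : ∃ (Q : Type _) (_ : Fintype Q) (a : X → Q), IsLocallyConstant a ∧
      ∑ i, (⟪χ i, S.EP a q (χ i)⟫_ℂ).re < 2 * γ₁ := by
    obtain ⟨Q, hQ⟩ := (hlim.eventually (gt_mem_nhds (hqb.trans_lt
      (show γ₁ < 2 * γ₁ by linarith)))).exists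
    exact ⟨Q, inferInstance, Q.proj, Q.proj_isLocallyConstant, hQ⟩
  obtain ⟨ε, hε⟩ := exists_signs j (fun δ : Q → Bool =>
      ∑ i, (⟪χ i, (S.ρ (sgn a δ) * q * S.ρ (sgn a δ)) (χ i)⟫_ℂ).re) (c := 2 * γ₁) (by
    rw [Finset.sum_comm]
    have e : ∀ i, ∑ δ : Q → Bool,
        (⟪χ i, (S.ρ (sgn a δ) * q * S.ρ (sgn a δ)) (χ i)⟫_ℂ).re =
        2 ^ Fintype.card Q * (⟪χ i, S.EP a q (χ i)⟫_ℂ).re := by
      intro i
      rw [← Complex.re_sum, ← inner_sum, ← sum_apply, S.sum_sgn_conj ha, smul_apply,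
        inner_smul_right, ← Complex.re_ofReal_mul]
      push_cast
      rfl
    rw [Finset.sum_congr rfl fun i _ => e i, ← Finset.mul_sum]
    exact mul_le_mul_of_nonneg_left hQ.le (by positivity))
  simp only [← prod_sgn ha] at hε
  have hc : ∀ i, IsLocallyConstant fun x => ε i (a x) := fun i => ha.comp (ε i)
  refine ⟨fun i x => ε i (a x), hc, ?_⟩
  obtain ⟨u, hu⟩ : ∃ u : Finset (Fin j) → H →L[ℂ] H,
      ∀ T, u T = S.ρ (∏ i ∈ T, sgn (fun x => ε i (a x)) id) := ⟨_, fun _ => rfl⟩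
  simp only [← hu] at hε
  have huM : ∀ T, u T ∈ S.M := fun T => by rw [hu]; exact S.mem _
  have hus : ∀ T, star (u T) = u T := fun T => by
    rw [hu, ← map_star, prod_sgn ha, (sgn_mul_self ha _).2.1]
  have huu : ∀ T, u T * u T = 1 := fun T => by
    rw [hu, ← map_mul, prod_sgn ha, (sgn_mul_self ha _).1, map_one]
  have hun : ∀ T, ‖u T‖ ≤ 1 := fun T => by
    rw [hu, S.norm_ρ, prod_sgn ha]
    exact (sgn_mul_self ha _).2.2
  have hum : ∀ T T', u T * u T' = u (symmDiff T T') := fun T T' => by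
    rw [hu, hu, hu, ← map_mul, Sing1_prod_symmDiff fun i => (sgn_mul_self (hc i) id).1]
  have hpos : ∀ T, 0 ≤ u T * q * u T := fun T => by
    have := star_left_conjugate_nonneg hq0 (u T)
    rwa [hus] at this
  have hq1' : 0 ≤ 1 - q := sub_nonneg.2 hq1
  have hsum : 0 ≤ ∑ T ∈ Finset.univ.filter (fun T : Finset (Fin j) => T.Nonempty),
      u T * q * u T := Finset.sum_nonneg fun T _ => hpos T
  obtain ⟨e, heM, he, hVe, he1, he2⟩ := exists_cut_le (M := S.M) (S.isStarProjection_p V)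
    (S.p_mem V) (add_nonneg hq1' hsum)
    (add_mem (sub_mem (one_mem _) hqM)
      (sum_mem fun T _ => mul_mem (mul_mem (huM T) hqM) (huM T))) (pow_pos ht 2)
  have hes : star e = e := he.isSelfAdjoint.star_eq
  refine ⟨e, heM, he, hVe, ?_, ?_⟩
  · have h1 := Finset.sum_le_sum fun i (_ : i ∈ Finset.univ) => he1 (χ i) (hχ i)
    simp only [add_apply, inner_add_right, Complex.add_re, Finset.sum_add_distrib, sum_apply,
      inner_sum, Complex.re_sum, ← Finset.mul_sum] at h1
    rw [Finset.sum_comm] at h1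
    refine le_of_mul_le_mul_left (h1.trans ?_) (pow_pos ht 2)
    refine (add_le_add hqa hε).trans ?_
    rw [← hγ₁t]
    linarith
  · have h1 : ‖(1 - q) * e‖ ≤ t := by
      refine Sing1_norm_le hq1' (sub_le_self _ hq0) ht.le fun η => le_trans ?_ (he2 η)
      rw [add_apply, inner_add_right, Complex.add_re]
      exact le_add_of_nonneg_right (VN_re_nonneg hsum _)
    have h2 : ∀ T : Finset (Fin j), T.Nonempty → ‖q * (u T * e)‖ ≤ t := by
      intro T hT
      refine Sing1_norm_le hq0 hq1 ht.le fun η => le_trans ?_ (he2 η)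
      have h3 : u T * q * u T ≤ 1 - q + ∑ T ∈ Finset.univ.filter
          (fun T : Finset (Fin j) => T.Nonempty), u T * q * u T :=
        (Finset.single_le_sum (f := fun T => u T * q * u T) (fun T _ => hpos T)
          (Finset.mem_filter.2 ⟨Finset.mem_univ T, hT⟩)).trans (le_add_of_nonneg_left hq1')
      have h4 := VN_re_nonneg (sub_nonneg.2 h3) (e η)
      rw [sub_apply, inner_sub_right, Complex.sub_re, sub_nonneg] at h4
      refine le_trans (le_of_eq ?_) h4
      simp only [mul_apply_eq_comp]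
      rw [← VN_inner_star, hus]
    have h3 : ∀ T : Finset (Fin j), T.Nonempty → ‖e * u T * e‖ ≤ 2 * t := by
      intro T hT
      have e1 : e * u T * e = star ((1 - q) * e) * (u T * e) + e * (q * (u T * e)) := by
        rw [star_mul, hes, (IsSelfAdjoint.of_nonneg hq1').star_eq]
        noncomm_ring
      have e2 : ‖u T * e‖ ≤ 1 :=
        (norm_mul_le _ _).trans (mul_le_one₀ (hun T) (norm_nonneg _) he.norm_le)
      have e3 : ‖star ((1 - q) * e) * (u T * e)‖ ≤ t := by
        refine (norm_mul_le _ _).trans ?_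
        rw [norm_star]
        exact (mul_le_of_le_one_right (norm_nonneg _) e2).trans h1
      have e4 : ‖e * (q * (u T * e))‖ ≤ t :=
        (norm_mul_le _ _).trans ((mul_le_of_le_one_left (norm_nonneg _) he.norm_le).trans (h2 T hT))
      rw [e1]
      refine (norm_add_le _ _).trans ?_
      linarith
    have h4 := norm_sum_proj_le (fun T : Finset (Fin j) => u T * e * u T) (fun T => by
      refine ⟨?_, ?_⟩
      · change u T * e * u T * (u T * e * u T) = u T * e * u T
        calc _ = u T * (e * (u T * u T) * e) * u T := by simp only [mul_assoc]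
          _ = _ := by rw [huu, mul_one, he.isIdempotentElem.eq]
      · change star (u T * e * u T) = u T * e * u T
        rw [star_mul, star_mul, hus, hes, mul_assoc]) (s := 2 * t) (by positivity) (fun T T' hTT => by
      have e1 : u T * e * u T * (u T' * e * u T') = u T * (e * u (symmDiff T T') * e) * u T' := by
        rw [← hum]
        simp only [mul_assoc]
      have e2 := h3 (symmDiff T T') (Finset.nonempty_iff_ne_empty.2 fun h0 =>
        hTT (symmDiff_eq_bot.1 h0))
      rw [e1]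
      refine (norm_mul_le _ _).trans ((mul_le_of_le_one_right (norm_nonneg _) (hun _)).trans ?_)
      exact (norm_mul_le _ _).trans ((mul_le_of_le_one_left (norm_nonneg _) (hun _)).trans e2))
    have h5 := S.EP_pi hc e
    simp only [← hu] at h5
    rw [← h5, norm_smul, norm_pow, Complex.norm_ofNat, Fintype.card_finset, Fintype.card_fin] at h4
    push_cast at h4
    rw [htγ] at h4
    refine le_of_mul_le_mul_left (h4.trans ?_) hn0
    rw [mul_add, mul_one_div_cancel hn0.ne']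
    nlinarith

/-- Noise.  Recipe: `u z u - EP a z = ∑_{I ≠ J} ε_I ε_J p_I z p_J` (`cm_comp_eq_sum`),
`sum_sign_pair_le`, `∑_I ‖q p_I ζ‖² = re ⟪ζ, EP a q ζ⟫`, `sum_norm_p_sq`. -/
theorem sum_noise_le {κ : Type*} [Fintype κ] {a : X → κ} (ha : IsLocallyConstant a)
    {q : H →L[ℂ] H} (hq : IsStarProjection q) (z : H →L[ℂ] H) (η : H) :
    ∑ ε : κ → Bool, ‖q ((S.ρ (sgn a ε) * z * S.ρ (sgn a ε) - S.EP a z) η)‖ ^ 2 ≤
      2 ^ Fintype.card κ * (2 * ‖S.EP a q‖ * ‖z‖ ^ 2 * ‖η‖ ^ 2) := by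
  obtain ⟨v, hv⟩ : ∃ v : κ → κ → H, ∀ I J, v I J =
      if I = J then 0 else q (S.p (a ⁻¹' {I}) (z (S.p (a ⁻¹' {J}) η))) := ⟨_, fun _ _ => rfl⟩
  have h1 : ∀ ε : κ → Bool, q ((S.ρ (sgn a ε) * z * S.ρ (sgn a ε) - S.EP a z) η) =
      ∑ I, ∑ J, ((if ε I then (1 : ℂ) else -1) * (if ε J then (1 : ℂ) else -1)) • v I J := by
    intro ε
    rw [S.SetupEP_ρ_sgn ha, EP, Finset.sum_mul, Finset.sum_mul, ← Finset.sum_sub_distrib,
      sum_apply, map_sum]
    refine Finset.sum_congr rfl fun I _ => ?_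
    have e : ∀ J, ((if ε I then (1 : ℂ) else -1) * (if ε J then (1 : ℂ) else -1)) • v I J =
        q (((if ε I then (1 : ℂ) else -1) • S.p (a ⁻¹' {I}) * z *
          (if ε J then (1 : ℂ) else -1) • S.p (a ⁻¹' {J})) η) -
        if I = J then q ((S.p (a ⁻¹' {I}) * z * S.p (a ⁻¹' {I})) η) else 0 := by
      intro J
      rw [hv]
      by_cases hIJ : I = J
      · subst hIJ
        cases ε I <;> simp
      · cases ε I <;> cases ε J <;> simp [hIJ]
    rw [Finset.sum_congr rfl fun J _ => e J, Finset.sum_sub_distrib, Finset.sum_ite_eq,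
      if_pos (Finset.mem_univ _), Finset.mul_sum, sub_apply, map_sub, sum_apply, map_sum]
  simp only [h1]
  refine (sum_sign_pair_le v fun I => by rw [hv, if_pos rfl]).trans ?_
  refine mul_le_mul_of_nonneg_left ?_ (by positivity)
  rw [mul_assoc, mul_assoc]
  refine mul_le_mul_of_nonneg_left ?_ (by positivity)
  rw [Finset.sum_comm, ← S.sum_norm_p_sq ha η, Finset.mul_sum, Finset.mul_sum]
  refine Finset.sum_le_sum fun J _ => ?_
  have h2 : ∀ ζ : H, ∑ I, ‖q (S.p (a ⁻¹' {I}) ζ)‖ ^ 2 ≤ ‖S.EP a q‖ * ‖ζ‖ ^ 2 := by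
    intro ζ
    have e : ∑ I, ‖q (S.p (a ⁻¹' {I}) ζ)‖ ^ 2 = (⟪ζ, S.EP a q ζ⟫_ℂ).re := by
      rw [EP, sum_apply, inner_sum, Complex.re_sum]
      refine Finset.sum_congr rfl fun I _ => ?_
      rw [IsStarProjection.norm_apply_sq hq, ← VN_inner_star,
        (S.isStarProjection_p _).isSelfAdjoint.star_eq]
      rfl
    rw [e]
    refine (re_inner_le_norm (𝕜 := ℂ) _ _).trans ?_
    calc ‖ζ‖ * ‖S.EP a q ζ‖ ≤ ‖ζ‖ * (‖S.EP a q‖ * ‖ζ‖) :=
          mul_le_mul_of_nonneg_left ((S.EP a q).le_opNorm ζ) (norm_nonneg _)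
      _ = _ := by ring
  calc ∑ I, ‖v I J‖ ^ 2 ≤ ∑ I, ‖q (S.p (a ⁻¹' {I}) (z (S.p (a ⁻¹' {J}) η)))‖ ^ 2 := by
        refine Finset.sum_le_sum fun I _ => ?_
        rw [hv]
        split_ifs
        · simp
        · exact le_rfl
    _ ≤ ‖S.EP a q‖ * ‖z (S.p (a ⁻¹' {J}) η)‖ ^ 2 := h2 _
    _ ≤ _ := by
        refine mul_le_mul_of_nonneg_left ?_ (norm_nonneg _)
        rw [← mul_pow]
        exact pow_le_pow_left₀ (norm_nonneg _) (z.le_opNorm _) 2

end Setup

end

end Crest.Agent.R109
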