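import Crest.Agent.R109.Mix

/-!
# Row 109, barrier argument: the polynomial of a split cell
-/

open Polynomial
open scoped BigOperators

set_option linter.unusedSectionVars false

namespace Crest.Agent.R109

noncomputable section

variable {α κ : Type*} [Fintype α] [DecidableEq α] [Fintype κ] [DecidableEq κ]

/-- all sites of the cell `c` get the variable `X` and their own colour -/
def splitPoly (Y : α → α → ℂ) (ω : α × κ → Option κ → ℂ) (c : α) : ℂ[X] :=
  mix (fun s s' : α × κ => Y s.1 s'.1) fun s o =>
    if s.1 = c then o.elim X (fun k => if k = s.2 then 1 else 0) else C (ω s o)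

theorem eval_splitPoly (Y : α → α → ℂ) (ω : α × κ → Option κ → ℂ) (c : α) (w : ℂ) :
    (splitPoly Y ω c).eval w = mix (fun s s' : α × κ => Y s.1 s'.1) fun s o =>
      if s.1 = c then o.elim w (fun k => if k = s.2 then 1 else 0) else ω s o := by
  rw [← coe_aeval_eq_eval, splitPoly, map_mix]
  congr 1
  funext s o
  cases o <;> split_ifs <;> simp [apply_ite]

theorem split_lin {ι : Type*} [DecidableEq ι] (S : Finset ι) (a b : ι → ℂ) :
    (∏ s ∈ S, (C (a s) * X + C (b s))).natDegree ≤ S.card ∧
    (∏ s ∈ S, (C (a s) * X + C (b s))).coeff S.card = ∏ s ∈ S, a s ∧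
    (X * ∏ s ∈ S, (C (a s) * X + C (b s))).coeff S.card
      = ∑ t ∈ S, ∏ s ∈ S, if s = t then b s else a s := by
  induction S using Finset.induction_on with
  | empty => simp
  | insert i S hi ih =>
    obtain ⟨h1, h2, h3⟩ := ih
    have h4 := coeff_eq_zero_of_natDegree_lt (Nat.lt_succ_of_le h1)
    simp only [Finset.prod_insert hi, Finset.sum_insert hi, Finset.card_insert_of_notMem hi]
    refine ⟨natDegree_mul_le.trans ?_, ?_, ?_⟩
    · rw [add_comm S.card]
      exact add_le_add natDegree_linear_le h1
    · rw [add_mul, mul_assoc, coeff_add, coeff_C_mul, coeff_C_mul, coeff_X_mul, h2, h4]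
      simp
    · rw [coeff_X_mul, add_mul, mul_assoc, coeff_add, coeff_C_mul, coeff_C_mul, h2, h3, add_comm,
        if_pos trivial, Finset.mul_sum]
      congr 1
      · congr 1
        exact Finset.prod_congr rfl fun s hs => (if_neg fun h : s = i => hi (h ▸ hs)).symm
      · exact Finset.sum_congr rfl fun t ht => by rw [if_neg fun h : i = t => hi (h ▸ ht)]

theorem split_swap (Y : α → α → ℂ) (ω : α × κ → Option κ → ℂ) {t t' : α × κ} (h : t.1 = t'.1) :
    mix (fun s s' : α × κ => Y s.1 s'.1) ω
      = mix (fun s s' : α × κ => Y s.1 s'.1) fun s => ω (Equiv.swap t t' s) := by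
  have h1 : ∀ s, (Equiv.swap t t' s).1 = s.1 := fun s => by
    rw [Equiv.swap_apply_def]
    split_ifs with h1 h2
    · rw [h1, h]
    · rw [h2, h]
    · rfl
  have h2 : ∀ s, s ∈ Set.range (Equiv.swap t t').toEmbedding := (Equiv.swap t t').surjective
  rw [mix_embed (Equiv.swap t t').toEmbedding _ _ fun s hs => (hs (h2 s)).elim]
  simp [h1]

/-- Recipe: a term `τ` is a constant times `X ^ #{k | τ (c, k) = none}`.  The terms with exactly one
coloured site `(c, k)` of `c` (state `some k`) correspond, by composing `τ` with the swap of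
`(c, k)` and `(c, k₀)`, to the terms of the merged model with `τ (c, k₀) = some k`; the determinant
is invariant (`Matrix.det_submatrix_equiv_self`) as the kernel only sees first coordinates. -/
theorem coeff_splitPoly (Y : α → α → ℂ) (ω : α × κ → Option κ → ℂ) (c : α) (k₀ : κ) :
    (splitPoly Y ω c).natDegree ≤ Fintype.card κ ∧
    (splitPoly Y ω c).coeff (Fintype.card κ) = mix (fun s s' : α × κ => Y s.1 s'.1)
      (fun s o => if s.1 = c then o.elim 1 (fun _ => 0) else ω s o) ∧
    (splitPoly Y ω c).coeff (Fintype.card κ - 1) = mix (fun s s' : α × κ => Y s.1 s'.1)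
      (fun s o => if s.1 = c then (if s.2 = k₀ then o.elim 0 (fun _ => 1) else o.elim 1 (fun _ => 0))
        else ω s o) := by
  set S : Finset (α × κ) := Finset.univ.filter (·.1 = c) with hS
  have hc : Fintype.card κ = S.card := by
    rw [← Finset.card_univ]
    exact Finset.card_bij (fun k _ => (c, k)) (by simp [hS]) (by simp) (by simp [hS])
  have hm : ∀ (Z : α × κ → α × κ → ℂ) {R : Type} [CommRing R] [Algebra ℂ R]
      (f g : α × κ → Option κ → R), mix Z (fun s o => if s.1 = c then f s o else g s o) =
      ∑ τ : α × κ → Option κ, (NM Z τ).det • ((∏ s ∈ S, f s (τ s)) * ∏ s ∈ Sᶜ, g s (τ s)) := by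
    intro Z R _ _ f g
    simp only [mix, Finset.prod_ite, hS, Finset.compl_filter]
  have e : splitPoly Y ω c = ∑ τ : α × κ → Option κ, (NM (fun s s' => Y s.1 s'.1) τ).det •
      ((∏ s ∈ S, (C ((τ s).elim 1 fun _ => 0) * X +
        C ((τ s).elim 0 fun k => if k = s.2 then 1 else 0))) * C (∏ s ∈ Sᶜ, ω s (τ s))) := by
    rw [splitPoly, hm]
    refine Finset.sum_congr rfl fun τ _ => ?_
    rw [map_prod]
    congr 2
    refine Finset.prod_congr rfl fun s _ => ?_
    cases τ s <;> simp [apply_ite]
  refine ⟨?_, ?_, ?_⟩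
  · rw [e, hc]
    refine natDegree_sum_le_of_forall_le _ _ fun τ _ => (natDegree_smul_le _ _).trans ?_
    exact (natDegree_mul_C_le _ _).trans (split_lin S _ _).1
  · rw [e, hm, hc, finsetSum_coeff]
    exact Finset.sum_congr rfl fun τ _ => by rw [coeff_smul, coeff_mul_C, (split_lin S _ _).2.1]
  · have h1 : Fintype.card κ - 1 + 1 = S.card :=
      hc ▸ Nat.sub_add_cancel (Fintype.card_pos_iff.2 ⟨k₀⟩)
    set ω₀ : α × κ → Option κ → ℂ := fun s o => if s.1 = c then o.elim 1 (fun _ => 0) else ω s o
    have h2 : (fun (s : α × κ) (o : Option κ) => if s.1 = c then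
        (if s.2 = k₀ then o.elim 0 (fun _ => 1) else o.elim 1 (fun _ => 0)) else ω s o)
        = Function.update ω₀ (c, k₀) fun o => o.elim 0 (fun _ => 1) := by
      funext s o
      by_cases hs : s = (c, k₀)
      · simp [hs]
      · by_cases h : s.1 = c <;> simp_all [ω₀, Prod.ext_iff]
    have h3 : ∀ k, mix (fun s s' => Y s.1 s'.1) (Function.update ω₀ (c, k₀) (Pi.single (some k) 1))
        = mix (fun s s' => Y s.1 s'.1) fun (s : α × κ) (o : Option κ) => if s.1 = c then
          (if s = (c, k) then o.elim 0 (fun k => if k = s.2 then 1 else 0)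
            else o.elim 1 (fun _ => 0)) else ω s o := fun k => by
      rw [split_swap Y _ (t := (c, k)) (t' := (c, k₀)) rfl]
      congr 1
      funext s o
      by_cases hs : s = (c, k)
      · cases o <;> simp [hs, Pi.single_apply]
      · rw [Function.update_of_ne (by rwa [Ne, Equiv.swap_apply_eq_iff, Equiv.swap_apply_right]),
          if_neg hs, Equiv.swap_apply_def, if_neg hs]
        split_ifs with h h' <;> simp_all [ω₀]
    rw [h2, mix_update, Fintype.sum_option, e, finsetSum_coeff]
    simp only [Option.elim_none, Option.elim_some, zero_mul, zero_add, one_mul, h3, hm]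
    rw [Finset.sum_comm]
    refine Finset.sum_congr rfl fun τ _ => ?_
    rw [coeff_smul, coeff_mul_C, ← coeff_X_mul, h1, (split_lin S _ _).2.2, ← Finset.smul_sum,
      ← Finset.sum_mul]
    congr 2
    exact (Finset.sum_bij (fun k _ => (c, k)) (by simp [hS]) (by simp) (by simp [hS])
      fun _ _ => rfl).symm

/-- Leibniz rule (`Polynomial.derivative_prod_finset`-style termwise). -/
theorem derivative_splitPoly (Y : α → α → ℂ) (ω : α × κ → Option κ → ℂ) (c : α) (w : ℂ) :
    (splitPoly Y ω c).derivative.eval w = ∑ k : κ, mix (fun s s' : α × κ => Y s.1 s'.1) fun s o =>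
      if s = (c, k) then o.elim 1 (fun _ => 0) else
      if s.1 = c then o.elim w (fun k => if k = s.2 then 1 else 0) else ω s o := by
  simp only [splitPoly, mix, derivative_sum, derivative_smul, derivative_prod_finset,
    eval_finsetSum, eval_smul, eval_mul, eval_prod]
  rw [Finset.sum_comm]
  refine Finset.sum_congr rfl fun τ _ => ?_
  rw [← Finset.smul_sum, Fintype.sum_prod_type, Finset.sum_eq_single c
    (fun a _ ha => by simp [ha]) (by simp)]
  refine congrArg _ (Finset.sum_congr rfl fun k _ => ?_)
  rw [← Finset.prod_erase_mul _ _ (Finset.mem_univ (c, k)), if_pos rfl, if_pos rfl]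
  congr 1
  · refine Finset.prod_congr rfl fun s hs => ?_
    rw [if_neg (Finset.ne_of_mem_erase hs)]
    cases τ s <;> split_ifs <;> simp [apply_ite]
  · cases τ (c, k) <;> simp [apply_ite]

end

end Crest.Agent.R109
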