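import Crest.Agent.R109.Pot

/-!
# Row 109, finite model: zero-free regions
-/

open Polynomial
open scoped BigOperators

set_option linter.unusedSectionVars false

namespace Crest.Agent.R109

noncomputable section

variable {α κ : Type*} [Fintype α] [DecidableEq α] [Fintype κ] [DecidableEq κ]

/-- induction on the number of cells whose weight vector is not a unit vector or zero -/
theorem stab_induction (P : (α → κ → ℂ) → Prop)
    (base : ∀ τ₀ : α → Option κ, P fun c k => if τ₀ c = some k then 1 else 0)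
    (step : ∀ θ c, P (Function.update θ c 0) → (∀ k, P (Function.update θ c (Pi.single k 1))) →
      P θ) (θ : α → κ → ℂ) : P θ := by
  suffices H : ∀ (s : Finset α) (θ : α → κ → ℂ),
      (∀ c ∉ s, ∃ o : Option κ, θ c = fun k => if o = some k then 1 else 0) → P θ from
    H Finset.univ θ fun c hc => absurd (Finset.mem_univ c) hc
  intro s
  induction s using Finset.induction_on with
  | empty =>
    intro θ h
    choose τ₀ hτ using fun c => h c (Finset.notMem_empty c)
    have e : θ = fun c k => if τ₀ c = some k then 1 else 0 := funext hτ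
    rw [e]
    exact base τ₀
  | insert c s hc ih =>
    intro θ h
    have key : ∀ v : κ → ℂ, (∃ o : Option κ, v = fun k => if o = some k then 1 else 0) →
        P (Function.update θ c v) := by
      intro v hv
      refine ih _ fun c' hc' => ?_
      by_cases e : c' = c
      · rw [e, Function.update_self]; exact hv
      · rw [Function.update_of_ne e]
        exact h c' (by simp [e, hc'])
    refine step θ c (key _ ⟨none, by funext k; simp⟩) fun k => key _ ⟨some k, ?_⟩
    funext k'
    simp [Pi.single_apply, eq_comm]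

theorem stab_expand_w (Y : α → α → ℂ) (z : α → ℂ) (θ : α → κ → ℂ) (c : α) (w : ℂ) :
    FF Y (Function.update z c w) θ = w * FF Y (Function.update z c 1) (Function.update θ c 0) +
      FF Y (Function.update z c 0) θ := by
  rw [FF_expand Y (Function.update z c w) θ c, FF_expand Y (Function.update z c 0) θ c]
  simp only [Function.update_idem, Function.update_self, zero_mul, zero_add]

theorem stab_expand_single (Y : α → α → ℂ) (z : α → ℂ) (θ : α → κ → ℂ) (c : α) (k : κ) (w : ℂ) :
    FF Y (Function.update z c w) (Function.update θ c (Pi.single k 1)) =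
      w * FF Y (Function.update z c 1) (Function.update θ c 0) +
      FF Y (Function.update z c 0) (Function.update θ c (Pi.single k 1)) := by
  rw [stab_expand_w, Function.update_idem]

theorem stab_im_div_nonneg {a b : ℂ} (ha : a ≠ 0) (h : ∀ w : ℂ, 0 < w.im → w * a + b ≠ 0) :
    0 ≤ (b / a).im := by
  by_contra hc
  refine h (-(b / a)) (by rw [Complex.neg_im]; linarith) ?_
  field_simp
  ring

theorem stab_norm_div_le {a b : ℂ} {S : ℝ} (ha : a ≠ 0) (h : ∀ w : ℂ, S < ‖w‖ → w * a + b ≠ 0) :
    ‖b / a‖ ≤ S := by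
  by_contra hc
  refine h (-(b / a)) (by rw [norm_neg]; linarith) ?_
  field_simp
  ring

theorem stab_base {Y : α → α → ℂ} (hY : Herm Y) (τ₀ : α → Option κ) (z : α → ℂ)
    (hz : ∀ c, 0 < (z c).im ∨ (τ₀ c = none ∧ z c ≠ 0)) :
    FF Y z (fun c k => if τ₀ c = some k then 1 else 0) ≠ 0 := by
  rw [FF_unit Y z τ₀ fun _ => 1]
  intro h0
  obtain ⟨v, hv, hMv⟩ := Matrix.exists_mulVec_eq_zero_iff.2 h0
  let B : Matrix α α ℂ := Matrix.of fun c c' => if τ₀ c ≠ none ∧ τ₀ c = τ₀ c' then Y c c' else 0
  have hB : B.IsHermitian := by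
    ext c c'
    simp only [B, Matrix.conjTranspose_apply, Matrix.of_apply]
    by_cases e : τ₀ c = τ₀ c'
    · by_cases e' : τ₀ c' = none
      · simp [e, e']
      · simp only [e, e', ne_eq, not_false_eq_true, and_self, if_true]
        exact (hY c c').symm
    · simp [e, Ne.symm e]
  have hrow : ∀ c, z c * v c = (B.mulVec v) c := by
    intro c
    have h1 := congrFun hMv c
    simp only [Matrix.mulVec, dotProduct, Matrix.of_apply, sub_mul, Finset.sum_sub_distrib, ite_mul,
      zero_mul, Finset.sum_ite_eq, Finset.mem_univ, if_true, one_mul, Pi.zero_apply] at h1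
    simp only [B, Matrix.mulVec, dotProduct, Matrix.of_apply, ite_mul, zero_mul]
    exact sub_eq_zero.1 h1
  have hnone : ∀ c, τ₀ c = none → z c ≠ 0 → v c = 0 := by
    intro c hc hzc
    have h1 := hrow c
    simp only [B, Matrix.mulVec, dotProduct, Matrix.of_apply, hc, ne_eq, not_true_eq_false,
      false_and, if_false, zero_mul, Finset.sum_const_zero] at h1
    exact (mul_eq_zero.1 h1).resolve_left hzc
  have him : ∑ c, (z c).im * Complex.normSq (v c) = 0 := by
    have h1 : (star v ⬝ᵥ B.mulVec v).im = 0 := hB.im_star_dotProduct_mulVec_self v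
    rw [← h1, dotProduct, Complex.im_sum]
    refine Finset.sum_congr rfl fun c _ => ?_
    rw [← hrow c, Pi.star_apply, Complex.star_def, mul_left_comm, ← Complex.normSq_eq_conj_mul_self]
    simp
  have hnn : ∀ c ∈ Finset.univ, 0 ≤ (z c).im * Complex.normSq (v c) := by
    intro c _
    rcases hz c with h | h
    · exact mul_nonneg h.le (Complex.normSq_nonneg _)
    · rw [hnone c h.1 h.2]; simp
  refine hv (funext fun c => ?_)
  have h1 := (Finset.sum_eq_zero_iff_of_nonneg hnn).1 him c (Finset.mem_univ c)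
  rcases hz c with h | h
  · exact Complex.normSq_eq_zero.1 ((mul_eq_zero.1 h1).resolve_left h.ne')
  · exact hnone c h.1 h.2

/-- stability for complex-valued nonnegative weights -/
theorem stab_main {Y : α → α → ℂ} (hY : Herm Y) (θ : α → κ → ℂ) :
    (∀ c k, 0 ≤ (θ c k).re ∧ (θ c k).im = 0) → ∀ z : α → ℂ,
      (∀ c, 0 < (z c).im ∨ ((∀ k, θ c k = 0) ∧ z c ≠ 0)) → FF Y z θ ≠ 0 := by
  induction θ using stab_induction with
  | base τ₀ =>
    intro _ z hz
    refine stab_base hY τ₀ z fun c => (hz c).imp id fun h => ⟨?_, h.2⟩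
    cases e : τ₀ c with
    | none => rfl
    | some k => simpa [e] using h.1 k
  | step θ c ih0 ih1 =>
    intro hθ z hz
    have hup : ∀ v : κ → ℂ, (∀ k, 0 ≤ (v k).re ∧ (v k).im = 0) → ∀ c' k,
        0 ≤ (Function.update θ c v c' k).re ∧ (Function.update θ c v c' k).im = 0 := by
      intro v hv c' k
      by_cases e : c' = c
      · rw [e, Function.update_self]; exact hv k
      · rw [Function.update_of_ne e]; exact hθ c' k
    have hzup : ∀ (v : κ → ℂ) (w : ℂ), (0 < w.im ∨ ((∀ k, v k = 0) ∧ w ≠ 0)) → ∀ c',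
        0 < (Function.update z c w c').im ∨
          ((∀ k, Function.update θ c v c' k = 0) ∧ Function.update z c w c' ≠ 0) := by
      intro v w hw c'
      by_cases e : c' = c
      · rw [e, Function.update_self, Function.update_self]; exact hw
      · rw [Function.update_of_ne e, Function.update_of_ne e]; exact hz c'
    have ih0' := ih0 (hup 0 fun k => by simp)
    rcases hz c with hc | hc
    · have h0 : FF Y (Function.update z c 1) (Function.update θ c 0) ≠ 0 :=
        ih0' _ (hzup 0 1 (Or.inr ⟨fun _ => rfl, one_ne_zero⟩))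
      have hk : ∀ k, 0 ≤ (FF Y (Function.update z c 0) (Function.update θ c (Pi.single k 1)) /
          FF Y (Function.update z c 1) (Function.update θ c 0)).im := by
        intro k
        refine stab_im_div_nonneg h0 fun w hw => ?_
        rw [← stab_expand_single]
        refine ih1 k (hup _ fun k' => ?_) _ (hzup _ w (Or.inl hw))
        rw [Pi.single_apply]
        split_ifs <;> simp
      intro hF
      have h1 : z c + ∑ k, θ c k *
          (FF Y (Function.update z c 0) (Function.update θ c (Pi.single k 1)) /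
            FF Y (Function.update z c 1) (Function.update θ c 0)) = 0 := by
        rw [FF_expand Y z θ c] at hF
        simp only [← mul_div_assoc, ← Finset.sum_div]
        field_simp
        simpa using hF
      have h2 := congrArg Complex.im h1
      rw [Complex.add_im, Complex.im_sum, Complex.zero_im] at h2
      have h3 : 0 ≤ ∑ k, (θ c k *
          (FF Y (Function.update z c 0) (Function.update θ c (Pi.single k 1)) /
            FF Y (Function.update z c 1) (Function.update θ c 0))).im := by
        refine Finset.sum_nonneg fun k _ => ?_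
        rw [Complex.mul_im, (hθ c k).2, zero_mul, add_zero]
        exact mul_nonneg (hθ c k).1 (hk k)
      linarith
    · have e : Function.update θ c 0 = θ := Function.update_eq_self_iff.2 (funext hc.1).symm
      rw [e] at ih0'
      exact ih0' z hz

/-- Stability.  Recipe: strong induction on the number of cells `c` whose weight vector `θ c` is
neither `0` nor some `Pi.single k 1`.  Base: `FF_unit` (with `b = 1`) gives `det (Z - B)`, `B`
Hermitian and zero in the rows and columns of the cells of weight `0`; if `(Z - B) v = 0` then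
`v c = 0` on the weight-zero cells and `im ⟨v, (Z - B) v⟩ = ∑ im (z c) |v c|² = 0` forces `v = 0`
(`Matrix.exists_mulVec_eq_zero_iff`).  Step: pick a bad cell `c`; by `FF_expand`
`F = z c F₀ + ∑ θ c k F_k`; induction gives `F₀ ≠ 0` and `w F₀ + F_k ≠ 0` for all `0 < im w`
(model with `θ c = Pi.single k 1`), so `0 ≤ im (F_k / F₀)` and `0 < im (F / F₀)`. -/
theorem FF_ne_zero_of_im_pos {Y : α → α → ℂ} (hY : Herm Y) (θ : α → κ → ℝ)
    (hθ : ∀ c k, 0 ≤ θ c k) (z : α → ℂ)
    (hz : ∀ c, 0 < (z c).im ∨ ((∀ k, θ c k = 0) ∧ z c ≠ 0)) :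
    FF Y z (fun c k => θ c k) ≠ 0 :=
  stab_main hY _ (fun c k => ⟨by simpa using hθ c k, by simp⟩) z
    fun c => (hz c).imp id fun h => ⟨fun k => by simp [h.1 k], h.2⟩

/-- Herglotz property of one cell (from `FF_ne_zero_of_im_pos` and `FF_expand`: the affine function
`w ↦ w F₀ + F₁` has no zero with `0 < im w`). -/
theorem FF_herglotz {Y : α → α → ℂ} (hY : Herm Y) (θ : α → κ → ℝ) (hθ : ∀ c k, 0 ≤ θ c k)
    (z : α → ℂ) (c : α) (hz : ∀ c', c' ≠ c → 0 < (z c').im ∨ ((∀ k, θ c' k = 0) ∧ z c' ≠ 0)) :
    FF Y (Function.update z c 1) (Function.update (fun c k => (θ c k : ℂ)) c 0) ≠ 0 ∧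
    0 ≤ (FF Y (Function.update z c 0) (fun c k => θ c k) /
      FF Y (Function.update z c 1) (Function.update (fun c k => (θ c k : ℂ)) c 0)).im := by
  have h0 : FF Y (Function.update z c 1) (Function.update (fun c k => (θ c k : ℂ)) c 0) ≠ 0 := by
    refine stab_main hY _ (fun c' k => ?_) _ fun c' => ?_
    · by_cases e : c' = c
      · rw [e, Function.update_self]; simp
      · rw [Function.update_of_ne e]; exact ⟨by simpa using hθ c' k, by simp⟩
    · by_cases e : c' = c
      · rw [e, Function.update_self, Function.update_self]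
        exact Or.inr ⟨fun _ => rfl, one_ne_zero⟩
      · rw [Function.update_of_ne e, Function.update_of_ne e]
        exact (hz c' e).imp id fun h => ⟨fun k => by simp [h.1 k], h.2⟩
  refine ⟨h0, stab_im_div_nonneg h0 fun w hw => ?_⟩
  rw [← stab_expand_w]
  refine FF_ne_zero_of_im_pos hY θ hθ _ fun c' => ?_
  by_cases e : c' = c
  · rw [e, Function.update_self]; exact Or.inl hw
  · rw [Function.update_of_ne e]; exact hz c' e

/-- Closed form.  Recipe: for `0 < im` everywhere, `F = F₀ (z c + F₁ / F₀)` and `FF_herglotz`;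
then replace `z` by `z + ε I` and let `ε → 0` (`continuous_FF`, `le_of_tendsto_of_tendsto'`). -/
theorem im_mul_norm_FF_le {Y : α → α → ℂ} (hY : Herm Y) (θ : α → κ → ℝ) (hθ : ∀ c k, 0 ≤ θ c k)
    (z : α → ℂ) (hz : ∀ c, 0 ≤ (z c).im) (c : α) :
    (z c).im * ‖FF Y (Function.update z c 1) (Function.update (fun c k => (θ c k : ℂ)) c 0)‖ ≤
      ‖FF Y z (fun c k => θ c k)‖ := by
  have key : ∀ z : α → ℂ, (∀ c, 0 < (z c).im) →
      (z c).im * ‖FF Y (Function.update z c 1) (Function.update (fun c k => (θ c k : ℂ)) c 0)‖ ≤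
        ‖FF Y z (fun c k => θ c k)‖ := by
    intro z hz
    obtain ⟨h0, h1⟩ := FF_herglotz hY θ hθ z c fun c' _ => Or.inl (hz c')
    have h2 := stab_expand_w Y z (fun c k => (θ c k : ℂ)) c (z c)
    rw [Function.update_eq_self] at h2
    set F₀ := FF Y (Function.update z c 1) (Function.update (fun c k => (θ c k : ℂ)) c 0)
    set F₁ := FF Y (Function.update z c 0) (fun c k => (θ c k : ℂ))
    have h3 : z c * F₀ + F₁ = (z c + F₁ / F₀) * F₀ := by field_simp
    rw [h2, h3, norm_mul]
    refine mul_le_mul_of_nonneg_right ?_ (norm_nonneg _)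
    refine le_trans ?_ (Complex.im_le_norm _)
    rw [Complex.add_im]
    linarith
  let g : ℝ → α → ℂ := fun ε c => z c + ε * Complex.I
  have hg : Continuous g := by fun_prop
  have hg0 : g 0 = z := by funext c; simp [g]
  have c1 : Continuous fun ε => (g ε c).im *
      ‖FF Y (Function.update (g ε) c 1) (Function.update (fun c k => (θ c k : ℂ)) c 0)‖ :=
    (Complex.continuous_im.comp ((continuous_apply c).comp hg)).mul
      ((continuous_FF Y _).comp (hg.update c continuous_const)).norm
  have c2 : Continuous fun ε => ‖FF Y (g ε) (fun c k => θ c k)‖ :=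
    ((continuous_FF Y _).comp hg).norm
  have h := le_of_tendsto_of_tendsto (b := nhdsWithin (0 : ℝ) (Set.Ioi 0))
    ((c1.tendsto 0).mono_left nhdsWithin_le_nhds) ((c2.tendsto 0).mono_left nhdsWithin_le_nhds)
    (eventually_nhdsWithin_of_forall fun ε hε => key (g ε) fun c' => by
      have h1 : (0 : ℝ) < ε := hε
      have h2 := hz c'
      simp only [g, Complex.add_im, Complex.mul_im, Complex.ofReal_re, Complex.I_im, mul_one,
        Complex.ofReal_im, Complex.I_re, mul_zero, add_zero]
      linarith)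
  rwa [hg0] at h

/-- Real-rootedness (`FF_ne_zero_of_im_pos`, `star_FF` for the lower half plane, `eval_PP`). -/
theorem im_eq_zero_of_mem_roots_PP {Y : α → α → ℂ} (hY : Herm Y) (h : α → ℝ) (θ : α → κ → ℝ)
    (hθ : ∀ c k, 0 ≤ θ c k) {x : ℂ} (hx : x ∈ (PP Y h (fun c k => (θ c k : ℂ))).roots) :
    x.im = 0 := by
  have h0 : FF Y (fun c => x - h c) (fun c k => (θ c k : ℂ)) = 0 := by
    rw [← eval_PP]; exact (mem_roots'.1 hx).2
  rcases lt_trichotomy x.im 0 with hlt | heq | hgt
  · exfalso
    have h1 := star_FF hY (fun c => x - h c) (fun c k => (θ c k : ℂ))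
    rw [h0, star_zero] at h1
    simp only [Complex.star_def, Complex.conj_ofReal] at h1
    refine FF_ne_zero_of_im_pos hY θ hθ _ (fun c => Or.inl ?_) h1.symm
    simpa using hlt
  · exact heq
  · exact absurd h0 (FF_ne_zero_of_im_pos hY θ hθ _ fun c => Or.inl (by simpa using hgt))

/-- Zero-free region for complex weights.  Recipe: same induction as `FF_ne_zero_of_im_pos`.
Base: Gershgorin (`Matrix.det_ne_zero_of_sum_row_lt_diag`, or directly with a maximal coordinate).
Step: `w F₀ + F_k ≠ 0` whenever `∑ ‖Y c c'‖ < ‖w‖`, so `‖F_k‖ ≤ (∑ ‖Y c c'‖) ‖F₀‖`. -/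
theorem FF_ne_zero_of_norm (Y : α → α → ℂ) (θ : α → κ → ℂ) (z : α → ℂ)
    (hz : ∀ c, (∑ k, ‖θ c k‖) * (∑ c', ‖Y c c'‖) < ‖z c‖) : FF Y z θ ≠ 0 := by
  induction θ using stab_induction generalizing z with
  | base τ₀ =>
    rw [FF_unit Y z τ₀ fun _ => 1]
    refine det_ne_zero_of_sum_row_lt_diag fun c => ?_
    have h1 : ∑ c', ‖(if τ₀ c ≠ none ∧ τ₀ c = τ₀ c' then 1 * Y c c' else 0 : ℂ)‖ < ‖z c‖ := by
      refine lt_of_le_of_lt ?_ (hz c)
      beta_reduce
      cases e : τ₀ c with
      | none => simp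
      | some k =>
        have h2 : ∑ k', ‖(if some k = some k' then 1 else 0 : ℂ)‖ = 1 := by
          simp [apply_ite norm]
        rw [h2, one_mul]
        refine Finset.sum_le_sum fun c' _ => ?_
        split_ifs <;> simp
    rw [← Finset.add_sum_erase _ _ (Finset.mem_univ c)] at h1
    have h2 : ∑ c' ∈ Finset.univ.erase c, ‖(Matrix.of fun c c' => (if c = c' then z c else 0) -
        (if τ₀ c ≠ none ∧ τ₀ c = τ₀ c' then 1 * Y c c' else 0)) c c'‖ =
        ∑ c' ∈ Finset.univ.erase c,
          ‖(if τ₀ c ≠ none ∧ τ₀ c = τ₀ c' then 1 * Y c c' else 0 : ℂ)‖ := by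
      refine Finset.sum_congr rfl fun c' hc' => ?_
      rw [Matrix.of_apply, if_neg (Finset.ne_of_mem_erase hc').symm, zero_sub, norm_neg]
    rw [h2, Matrix.of_apply, if_pos rfl]
    have h3 := norm_sub_norm_le (z c) (if τ₀ c ≠ none ∧ τ₀ c = τ₀ c then 1 * Y c c else 0)
    linarith
  | step θ c ih0 ih1 =>
    have hzup : ∀ (v : κ → ℂ) (w : ℂ), (∑ k, ‖v k‖) * (∑ c', ‖Y c c'‖) < ‖w‖ → ∀ c',
        (∑ k, ‖Function.update θ c v c' k‖) * (∑ c'', ‖Y c' c''‖) < ‖Function.update z c w c'‖ := by
      intro v w hw c'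
      by_cases e : c' = c
      · rw [e, Function.update_self, Function.update_self]; exact hw
      · rw [Function.update_of_ne e, Function.update_of_ne e]; exact hz c'
    have h0 : FF Y (Function.update z c 1) (Function.update θ c 0) ≠ 0 :=
      ih0 _ (hzup 0 1 (by simp))
    have hk : ∀ k, ‖FF Y (Function.update z c 0) (Function.update θ c (Pi.single k 1)) /
        FF Y (Function.update z c 1) (Function.update θ c 0)‖ ≤ ∑ c', ‖Y c c'‖ := by
      intro k
      refine stab_norm_div_le h0 fun w hw => ?_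
      rw [← stab_expand_single]
      refine ih1 k _ (hzup _ w ?_)
      have h2 : ∑ k', ‖(Pi.single k (1 : ℂ) : κ → ℂ) k'‖ = 1 := by
        simp [Pi.single_apply, apply_ite norm]
      rwa [h2, one_mul]
    intro hF
    have h1 : z c = -∑ k, θ c k *
        (FF Y (Function.update z c 0) (Function.update θ c (Pi.single k 1)) /
          FF Y (Function.update z c 1) (Function.update θ c 0)) := by
      rw [FF_expand Y z θ c] at hF
      simp only [← mul_div_assoc, ← Finset.sum_div]
      field_simp
      linear_combination hF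
    have h2 : ‖z c‖ ≤ (∑ k, ‖θ c k‖) * (∑ c', ‖Y c c'‖) := by
      rw [h1, norm_neg, Finset.sum_mul]
      refine (norm_sum_le _ _).trans (Finset.sum_le_sum fun k _ => ?_)
      rw [norm_mul]
      exact mul_le_mul_of_nonneg_left (hk k) (norm_nonneg _)
    exact absurd (hz c) (not_lt.2 h2)

theorem norm_le_of_mem_roots_PP (Y : α → α → ℂ) (h : α → ℝ) (θ : α → κ → ℂ) {T K : ℝ}
    (hh : ∀ c, |h c| ≤ T) (hK : ∀ c, (∑ k, ‖θ c k‖) * (∑ c', ‖Y c c'‖) ≤ K) {x : ℂ}
    (hx : x ∈ (PP Y h θ).roots) : ‖x‖ ≤ T + K := by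
  have h0 : FF Y (fun c => x - h c) θ = 0 := by
    rw [← eval_PP]; exact (mem_roots'.1 hx).2
  by_contra hc
  refine FF_ne_zero_of_norm Y θ _ (fun c => (hK c).trans_lt ?_) h0
  have h1 := norm_sub_norm_le x (h c)
  rw [Complex.norm_real, Real.norm_eq_abs] at h1
  have h2 := hh c
  linarith

/-- A priori bound. -/
theorem abs_pot_le {X : Type*} [DecidableEq X] (Y : X → X → ℂ) (h : X → ℝ) (θ : X → κ → ℝ)
    (Λ : Finset X) {T K : ℝ} (hK0 : 0 ≤ K) (hh : ∀ s ∈ Λ, |h s| ≤ T)
    (hK : ∀ s ∈ Λ, (∑ k, |θ s k|) * (∑ t ∈ Λ, ‖Y s t‖) ≤ K) :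
    |pot Y h θ Λ| ≤ 2 * Λ.card * Real.exp (T + K) := by
  unfold pot psi0 Psi
  set p := PP (fun s t : Λ => Y s t) (fun s : Λ => h s) (fun (c : Λ) k => (θ c k : ℂ)) with hp
  have hroot : ∀ x ∈ p.roots, ‖x‖ ≤ T + K := fun x hx =>
    norm_le_of_mem_roots_PP (fun s t : Λ => Y s t) (fun s : Λ => h s)
      (fun (c : Λ) k => (θ c k : ℂ)) (fun c => hh c c.2) (fun c => by
      rw [Finset.sum_coe_sort Λ fun t => ‖Y c t‖]
      simpa using hK c c.2) hx
  have hcard : (p.roots.card : ℝ) ≤ Λ.card := by
    have h1 := card_roots' p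
    rw [hp, (monic_PP _ _ _).2, Fintype.card_coe] at h1
    exact_mod_cast h1
  have he := Real.exp_pos (T + K)
  have h1 : ‖(p.roots.map Complex.exp).sum‖ ≤ Λ.card * Real.exp (T + K) := by
    refine (norm_multiset_sum_le _).trans ?_
    refine (Multiset.sum_le_card_nsmul _ (Real.exp (T + K)) ?_).trans ?_
    · intro y hy
      rw [Multiset.map_map] at hy
      obtain ⟨x, hx, rfl⟩ := Multiset.mem_map.1 hy
      exact (Complex.norm_exp_le_exp_norm x).trans (Real.exp_le_exp.2 (hroot x hx))
    · rw [Multiset.card_map, Multiset.card_map, nsmul_eq_mul]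
      exact mul_le_mul_of_nonneg_right hcard he.le
  have h2 := (Complex.abs_re_le_norm _).trans h1
  have h3 : ∑ c : Λ, Real.exp (h c) ≤ Λ.card * Real.exp (T + K) := by
    refine (Finset.sum_le_card_nsmul _ _ (Real.exp (T + K)) fun c _ => ?_).trans ?_
    · exact Real.exp_le_exp.2 (by linarith [(abs_le.1 (hh c c.2)).2])
    · simp
  have h4 : 0 ≤ ∑ c : Λ, Real.exp (h c) := Finset.sum_nonneg fun c _ => (Real.exp_pos _).le
  rw [abs_le] at h2 ⊢
  constructor <;> linarith [h2.1, h2.2]

end

end Crest.Agent.R109
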