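import Crest.Agent.R109.SetupE

/-!
# Row 109: the conditional expectation for a central separating vector; absolute continuity
-/

open Filter Topology
open scoped InnerProductSpace BigOperators ComplexOrder

set_option linter.unusedSectionVars false

namespace Crest.Agent.R109

noncomputable section

open Classical

variable {H : Type*} [NormedAddCommGroup H] [InnerProductSpace ℂ H] [CompleteSpace H]
  {X : Type*} [TopologicalSpace X] [CompactSpace X] [T2Space X] [ExtremallyDisconnected X]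

namespace Std
variable (S : Std H X) {ι : Type*} [Fintype ι]

theorem eq_zero_of_apply_ξ {y : H →L[ℂ] H} (hy : y ∈ S.M) (h : y S.ξ = 0) : y = 0 := by
  have h1 : (y : H → H) = fun _ => 0 := by
    refine Continuous.ext_on S.sep y.continuous continuous_const ?_
    rintro _ ⟨s, hs, rfl⟩
    have := congrArg (fun T : H →L[ℂ] H => T S.ξ) (vn_commute hy hs)
    simp only [mul_apply_eq_comp, h, map_zero] at this
    exact this.symm
  ext η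
  exact congrFun h1 η

theorem eq_of_apply_ξ {y z : H →L[ℂ] H} (hy : y ∈ S.M) (hz : z ∈ S.M) (h : y S.ξ = z S.ξ) :
    y = z := by
  refine sub_eq_zero.1 (S.eq_zero_of_apply_ξ (sub_mem hy hz) ?_)
  rw [sub_apply, h, sub_self]

theorem inner_eq_φ (y z : H →L[ℂ] H) : ⟪y S.ξ, z S.ξ⟫_ℂ = S.φ (star y * z) := by
  rw [φ, mul_apply_eq_comp, ContinuousLinearMap.star_eq_adjoint,
    ContinuousLinearMap.adjoint_inner_right]

theorem StdE_φ_add (y z : H →L[ℂ] H) : S.φ (y + z) = S.φ y + S.φ z := by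
  simp [φ]

theorem StdE_φ_sub (y z : H →L[ℂ] H) : S.φ (y - z) = S.φ y - S.φ z := by
  simp [φ]

theorem StdE_φ_smul (c : ℂ) (y : H →L[ℂ] H) : S.φ (c • y) = c * S.φ y := by
  simp [φ]

theorem StdE_φ_sum {κ : Type*} (s : Finset κ) (y : κ → H →L[ℂ] H) :
    S.φ (∑ i ∈ s, y i) = ∑ i ∈ s, S.φ (y i) := by
  simp [φ]

theorem StdE_φ_zero : S.φ 0 = 0 := by simp [φ]

theorem StdE_norm_sq (y : H →L[ℂ] H) : ‖y S.ξ‖ ^ 2 = (S.φ (star y * y)).re :=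
  norm_apply_sq_eq y S.ξ

theorem StdE_eq_zero {y : H →L[ℂ] H} (hy : y ∈ S.M) (h : S.φ (star y * y) = 0) : y = 0 := by
  refine S.eq_zero_of_apply_ξ hy ?_
  rwa [← inner_eq_φ, inner_self_eq_zero] at h

theorem StdE_exists_sqrt {f : C(X, ℂ)} (hf : ∀ t, 0 ≤ f t) : ∃ c : C(X, ℂ), star c * c = f := by
  refine ⟨⟨fun t => (Real.sqrt (f t).re : ℂ), by fun_prop⟩, ?_⟩
  ext t
  obtain ⟨h1, h2⟩ := Complex.le_def.1 (hf t)
  simp only [ContinuousMap.mul_apply, ContinuousMap.star_apply, ContinuousMap.coe_mk,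
    RCLike.star_def, Complex.conj_ofReal]
  rw [← Complex.ofReal_mul, Real.mul_self_sqrt h1]
  exact Complex.ext rfl h2

theorem φ_ρ_mul (f : C(X, ℂ)) {y : H →L[ℂ] H} (hy : y ∈ S.M) :
    S.φ (S.ρ f * y) = S.φ (y * S.ρ f) := S.central f y hy

/-- `‖d a ξ‖² = φ (d⋆ d a a⋆)`, and `b ↦ φ (d⋆ d b)` is positive on `A`
(`‖a‖² - a a⋆ = c c⋆` in `C(X, ℂ)`, `φ (d⋆ d c c⋆) = ‖d c ξ‖²`). -/
theorem norm_mul_ρ_ξ_le {d : H →L[ℂ] H} (hd : d ∈ S.M) (a : C(X, ℂ)) :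
    ‖d (S.ρ a S.ξ)‖ ≤ ‖a‖ * ‖d S.ξ‖ := by
  have key : ∀ b : C(X, ℂ), ‖d (S.ρ b S.ξ)‖ ^ 2 = (S.φ (star d * d * S.ρ (star b * b))).re := by
    intro b
    have h1 := S.StdE_norm_sq (d * S.ρ b)
    rw [mul_apply_eq_comp] at h1
    rw [h1, star_mul, ← map_star, mul_assoc, S.φ_ρ_mul _
      (mul_mem (star_mem hd) (mul_mem hd (S.mem b))), mul_comm (star b) b, map_mul]
    simp only [mul_assoc]
  obtain ⟨c, hc⟩ := StdE_exists_sqrt (f := ((‖a‖ ^ 2 : ℝ) : ℂ) • 1 - star a * a) (fun t => by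
    simp only [ContinuousMap.sub_apply, ContinuousMap.smul_apply, ContinuousMap.one_apply,
      ContinuousMap.mul_apply, ContinuousMap.star_apply, RCLike.star_def, smul_eq_mul, mul_one]
    rw [Complex.conj_mul', ← Complex.ofReal_pow, ← Complex.ofReal_sub, Complex.zero_le_real,
      sub_nonneg]
    exact pow_le_pow_left₀ (norm_nonneg _) (a.norm_coe_le_norm t) 2)
  have h1 := key c
  rw [hc, map_sub, map_smul, map_one, mul_sub, StdE_φ_sub, mul_smul_comm, mul_one, StdE_φ_smul,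
    Complex.sub_re, ← key a, Complex.re_ofReal_mul, ← StdE_norm_sq] at h1
  refine (pow_le_pow_iff_left₀ (norm_nonneg _) (by positivity) two_ne_zero).1 ?_
  rw [mul_pow]
  linarith [sq_nonneg ‖d (S.ρ c S.ξ)‖]

theorem φ_EP {a : X → ι} (ha : IsLocallyConstant a) {y : H →L[ℂ] H} (hy : y ∈ S.M) :
    S.φ (S.EP a y) = S.φ y := by
  have h1 : ∀ i, S.φ (S.p (a ⁻¹' {i}) * y * S.p (a ⁻¹' {i})) = S.φ (y * S.p (a ⁻¹' {i})) := by
    intro i
    rw [mul_assoc]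
    refine (S.φ_ρ_mul _ (mul_mem hy (S.p_mem _))).trans ?_
    change S.φ (y * S.p _ * S.p _) = _
    rw [mul_assoc, (S.isStarProjection_p _).isIdempotentElem.eq]
  rw [Setup.EP, StdE_φ_sum, Finset.sum_congr rfl fun i _ => h1 i, ← StdE_φ_sum, ← Finset.mul_sum,
    S.sum_p ha, mul_one]

theorem φ_E {y : H →L[ℂ] H} (hy : y ∈ S.M) : S.φ (S.ρ (S.E y)) = S.φ y := by
  rw [S.ρ_E hy]
  have h1 := S.WL_E0 y S.ξ S.ξ
  have h2 : (fun Q : DiscreteQuotient X => ⟪S.ξ, S.EP Q.proj y S.ξ⟫_ℂ) = fun _ => S.φ y :=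
    funext fun Q => S.φ_EP Q.proj_isLocallyConstant hy
  rw [h2] at h1
  exact tendsto_nhds_unique h1 tendsto_const_nhds

theorem φ_ρ_mul_E (f : C(X, ℂ)) {y : H →L[ℂ] H} (hy : y ∈ S.M) :
    S.φ (S.ρ (f * S.E y)) = S.φ (S.ρ f * y) := by
  rw [← S.E_ρ_mul f hy, S.φ_E (mul_mem (S.mem f) hy)]

theorem inner_EP {a : X → ι} {y z : H →L[ℂ] H} (hy : y ∈ S.M) (hz : z ∈ S.M) :
    ⟪z S.ξ, S.EP a y S.ξ⟫_ℂ = ⟪S.EP a z S.ξ, y S.ξ⟫_ℂ := by
  rw [inner_eq_φ, inner_eq_φ, ← S.EP_star, Setup.EP, Setup.EP, Finset.mul_sum, Finset.sum_mul,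
    StdE_φ_sum, StdE_φ_sum]
  refine Finset.sum_congr rfl fun i _ => ?_
  have := S.φ_ρ_mul (ind (a ⁻¹' {i})) (mul_mem (star_mem hz) (mul_mem (S.p_mem (a ⁻¹' {i})) hy))
  simp only [Setup.p, mul_assoc] at this ⊢
  exact this.symm

theorem StdE_inner_EP_self {a : X → ι} (ha : IsLocallyConstant a) {y : H →L[ℂ] H} (hy : y ∈ S.M) :
    ‖S.EP a y S.ξ‖ ^ 2 = (⟪y S.ξ, S.EP a y S.ξ⟫_ℂ).re := by
  have h1 := S.inner_EP (a := a) (S.EP_mem a hy) hy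
  rw [(S.EP_EP ha ha (fun _ _ h => h) y).1] at h1
  rw [h1, ← inner_self_eq_norm_sq (𝕜 := ℂ)]
  rfl

theorem norm_EP_ξ_le {a : X → ι} (ha : IsLocallyConstant a) {y : H →L[ℂ] H} (hy : y ∈ S.M) :
    ‖S.EP a y S.ξ‖ ≤ ‖y S.ξ‖ := by
  have h1 := S.StdE_inner_EP_self ha hy
  have h2 : (⟪y S.ξ, S.EP a y S.ξ⟫_ℂ).re ≤ ‖y S.ξ‖ * ‖S.EP a y S.ξ‖ :=
    (Complex.re_le_norm _).trans (norm_inner_le_norm _ _)
  rcases (norm_nonneg (S.EP a y S.ξ)).eq_or_lt with h | h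
  · rw [← h]
    exact norm_nonneg _
  · rw [← h1, sq] at h2
    exact le_of_mul_le_mul_right h2 h

theorem norm_E_ξ_le {y : H →L[ℂ] H} (hy : y ∈ S.M) : ‖S.ρ (S.E y) S.ξ‖ ≤ ‖y S.ξ‖ := by
  rw [S.ρ_E hy]
  exact (S.WL_E0 y).norm_apply_le
    (Eventually.of_forall fun Q => S.norm_EP_ξ_le Q.proj_isLocallyConstant hy)

/-- Recipe: along `UF`, weak convergence and `‖EP y ξ‖² = ⟪EP y ξ, y ξ⟫ → ⟪E y ξ, y ξ⟫ = ‖E y ξ‖²`
give one `Q₀`; for finer `a`, `EP a y - E y = EP a (EP Q₀ y - E y)`. -/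
theorem exists_EP_close {y : H →L[ℂ] H} (hy : y ∈ S.M) {γ : ℝ} (hγ : 0 < γ) :
    ∃ Q₀ : DiscreteQuotient X, ∀ (κ : Type*) [Fintype κ] (a : X → κ), IsLocallyConstant a →
      Refines a Q₀.proj → ‖(S.EP a y - S.ρ (S.E y)) S.ξ‖ ≤ γ := by
  set v := S.ρ (S.E y) S.ξ with hv
  have hW := S.WL_E0 y
  rw [← S.ρ_E hy] at hW
  have h1 : ∀ Q : DiscreteQuotient X, ⟪v, S.EP Q.proj y S.ξ⟫_ℂ = ⟪v, y S.ξ⟫_ℂ := fun Q => by
    rw [hv, S.inner_EP hy (S.mem _), S.EP_ρ Q.proj_isLocallyConstant]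
  have h2 : ⟪v, v⟫_ℂ = ⟪v, y S.ξ⟫_ℂ := by
    have h3 := hW v S.ξ
    rw [funext h1] at h3
    exact tendsto_nhds_unique h3 tendsto_const_nhds
  have hre : ∀ η ζ : H, (⟪η, ζ⟫_ℂ).re = (⟪ζ, η⟫_ℂ).re := fun η ζ => inner_re_symm (𝕜 := ℂ) η ζ
  have hvv : (⟪v, v⟫_ℂ).re = ‖v‖ ^ 2 := inner_self_eq_norm_sq (𝕜 := ℂ) v
  have h4 := (Complex.continuous_re.tendsto _).comp (hW (y S.ξ) S.ξ)
  rw [← hv, hre, ← h2, hvv] at h4
  obtain ⟨Q₀, hQ₀⟩ := (h4.eventually (gt_mem_nhds (lt_add_of_pos_right _ (pow_pos hγ 2)))).exists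
  refine ⟨Q₀, fun κ _ a ha hab => ?_⟩
  have h5 : S.EP a y - S.ρ (S.E y) = S.EP a (S.EP Q₀.proj y - S.ρ (S.E y)) := by
    rw [S.EP_sub, (S.EP_EP ha Q₀.proj_isLocallyConstant hab y).1, S.EP_ρ ha]
  rw [h5]
  refine (S.norm_EP_ξ_le ha (sub_mem (S.EP_mem _ hy) (S.mem _))).trans ?_
  refine (pow_le_pow_iff_left₀ (norm_nonneg _) hγ.le two_ne_zero).1 ?_
  have h6 : (⟪S.EP Q₀.proj y S.ξ, v⟫_ℂ).re = ‖v‖ ^ 2 := by rw [hre, h1, ← h2, hvv]
  rw [sub_apply, ← hv, norm_sub_sq (𝕜 := ℂ), RCLike.re_to_complex, h6,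
    S.StdE_inner_EP_self Q₀.proj_isLocallyConstant hy]
  simp only [Function.comp] at hQ₀
  linarith

theorem eventually_EP_close {y : H →L[ℂ] H} (hy : y ∈ S.M) {γ : ℝ} (hγ : 0 < γ) :
    ∀ᶠ Q : DiscreteQuotient X in atBot, ‖(S.EP Q.proj y - S.ρ (S.E y)) S.ξ‖ ≤ γ := by
  obtain ⟨Q₀, h⟩ := S.exists_EP_close hy hγ
  filter_upwards [eventually_refines Q₀.proj_isLocallyConstant] with Q hQ
  exact h Q Q.proj Q.proj_isLocallyConstant hQ

theorem φ_ρ_nonneg {f : C(X, ℂ)} (hf : ∀ t, 0 ≤ f t) : 0 ≤ S.φ (S.ρ f) := by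
  obtain ⟨c, rfl⟩ := StdE_exists_sqrt hf
  rw [map_mul, map_star, ← inner_eq_φ, inner_self_eq_norm_sq_to_K]
  exact pow_nonneg (Complex.zero_le_real.2 (norm_nonneg (S.ρ c S.ξ))) 2

theorem eq_zero_of_φ {f : C(X, ℂ)} (hf : ∀ t, 0 ≤ f t) (h : S.φ (S.ρ f) = 0) : f = 0 := by
  obtain ⟨c, rfl⟩ := StdE_exists_sqrt hf
  rw [map_mul, map_star] at h
  have h1 : c = 0 := S.inj ((S.StdE_eq_zero (S.mem c) h).trans (map_zero S.ρ).symm)
  rw [h1, mul_zero]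

theorem ext_φ {f f' : C(X, ℂ)} (h : ∀ g, S.φ (S.ρ (g * f)) = S.φ (S.ρ (g * f'))) : f = f' := by
  refine sub_eq_zero.1 (S.inj ((S.StdE_eq_zero (S.mem _) ?_).trans (map_zero S.ρ).symm))
  rw [← map_star, ← map_mul, mul_sub, map_sub, StdE_φ_sub, h, sub_self]

theorem φ_p_pos {U : Set X} (hU : IsClopen U) (hne : U.Nonempty) : 0 < (S.φ (S.p U)).re := by
  rw [φ, ← IsStarProjection.norm_apply_sq (S.isStarProjection_p U)]
  exact pow_pos (norm_pos_iff.2 fun h =>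
    S.p_ne_zero hU hne (S.eq_zero_of_apply_ξ (S.p_mem U) h)) 2

theorem eq_zero_of_E {y : H →L[ℂ] H} (hy : y ∈ S.M) (h : S.E (star y * y) = 0) : y = 0 := by
  refine S.StdE_eq_zero hy ?_
  rw [← S.φ_E (mul_mem (star_mem hy) hy), h, map_zero, StdE_φ_zero]

variable {S} in
theorem Nrm.ρ_mul (g : S.Nrm) (f : C(X, ℂ)) :
    S.ρ f * g.u = g.u * S.ρ (f.comp ⟨g.θ, g.θ.continuous⟩) := by
  rw [← g.conj, ← mul_assoc, ← mul_assoc, g.unit.2, one_mul]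

variable {S} in
theorem Nrm.conj_p (g : S.Nrm) {U : Set X} (hU : IsClopen U) :
    star g.u * S.p U * g.u = S.p ((fun t => g • t) ⁻¹' U) := by
  rw [Setup.p, g.conj, Setup.p]
  congr 1
  ext t
  rw [ContinuousMap.comp_apply, ind_apply hU, ind_apply (hU.preimage g.continuous_smul)]
  rfl

variable {S} in
theorem Nrm.norm_u_le (g : S.Nrm) : ‖g.u‖ ≤ 1 := by
  have h1 : ‖g.u‖ * ‖g.u‖ ≤ 1 := by
    rw [← CStarRing.norm_star_mul_self, g.unit.1]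
    exact ContinuousLinearMap.norm_id_le
  nlinarith [norm_nonneg g.u]

/-- Recipe: `u⋆ (EP Q y) u = EP (Q ∘ θ) (u⋆ y u)`; test against `ξ` with `WL_E0` and
`exists_EP_close`; `eq_of_apply_ξ`. -/
theorem E_conj (g : S.Nrm) {y : H →L[ℂ] H} (hy : y ∈ S.M) (t : X) :
    S.E (star g.u * y * g.u) t = S.E y (g • t) := by
  have hw : star g.u * y * g.u ∈ S.M := mul_mem (mul_mem (star_mem g.mem) hy) g.mem
  have hEP : ∀ Q : DiscreteQuotient X, star g.u * S.EP Q.proj y * g.u =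
      S.EP (fun t => Q.proj (g • t)) (star g.u * y * g.u) := by
    intro Q
    rw [Setup.EP, Setup.EP, Finset.mul_sum, Finset.sum_mul]
    refine Finset.sum_congr rfl fun i _ => ?_
    have h1 := g.conj_p (Q.proj_isLocallyConstant.isClopen_fiber i)
    change star g.u * S.p (Q.proj ⁻¹' {i}) * g.u = S.p ((fun t => Q.proj (g • t)) ⁻¹' {i}) at h1
    rw [← h1]
    have h2 : ∀ z, g.u * (star g.u * z) = z := fun z => by rw [← mul_assoc, g.unit.2, one_mul]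
    simp only [mul_assoc, h2]
  have hW := (((S.WL_E0 y).mul_left (star g.u)).mul_right g.u).sub
    (WL.const (S.ρ (S.E (star g.u * y * g.u))))
  rw [← S.ρ_E hy, g.conj, ← map_sub] at hW
  have h0 : ‖S.ρ ((S.E y).comp ⟨g.θ, g.θ.continuous⟩ - S.E (star g.u * y * g.u)) S.ξ‖ ≤ 0 := by
    refine le_of_forall_pos_le_add fun γ hγ => ?_
    rw [zero_add]
    obtain ⟨Q₀, h⟩ := S.exists_EP_close hw hγ
    refine hW.norm_apply_le (Eventually.filter_mono UF_le ?_)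
    filter_upwards [eventually_refines
      (Q₀.proj_isLocallyConstant.comp_continuous g.θ.symm.continuous)] with Q hQ
    rw [hEP]
    refine h Q _ (Q.proj_isLocallyConstant.comp_continuous g.continuous_smul) fun s t hst => ?_
    simpa [Nrm.smul_def] using hQ _ _ hst
  have h1 := S.inj ((S.eq_zero_of_apply_ξ (S.mem _) (norm_le_zero_iff.1 h0)).trans
    (map_zero S.ρ).symm)
  rw [← sub_eq_zero.1 h1]
  rfl

end Std

end

end Crest.Agent.R109
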