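import Crest.Agent.R109.Vanish1
import Crest.Agent.R109.Cross

/-!
# Row 109: words with prescribed coincidences of atoms
-/

open Filter Topology
open scoped InnerProductSpace BigOperators ComplexOrder

set_option linter.unusedSectionVars false

namespace Crest.Agent.R109

noncomputable section

open Classical

variable {H : Type*} [NormedAddCommGroup H] [InnerProductSpace ℂ H] [CompleteSpace H]
  {X : Type*} [TopologicalSpace X] [CompactSpace X] [T2Space X] [ExtremallyDisconnected X]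

section TieAux
variable {ι β : Type*} [Fintype ι] {l : ℕ}

theorem tie_seg_succ {R : Type*} [Monoid R] (y b : ℕ → R) (s n : ℕ) :
    seg y b s (n + 1) = b s * y (s + 1) * seg y b (s + 1) n := by
  rw [add_comm n 1, seg_add]
  simp [seg]

theorem tie_seg_ite {R : Type*} [Monoid R] (y : ℕ → R) {b b' : ℕ → R} (s n : ℕ)
    (h : ∀ k, s ≤ k → k < s + n → b' k = b k) : seg y b' s n = seg y b s n :=
  seg_congr h fun _ _ _ => rfl

theorem tie_seg_cross {R : Type*} [Monoid R] (y b : ℕ → R) {i₀ i i₁ l n₁ n₂ n₃ : ℕ}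
    (hi : i = i₀ + 1 + n₁) (h₁ : i₁ = i + 1 + (n₂ + 1)) (hl : l = i₁ + (n₃ + 1)) :
    seg y b 0 l = seg y b 0 i₀ * b i₀ * y (i₀ + 1) * seg y b (i₀ + 1) n₁ * b i * y (i + 1) *
      (b (i + 1) * y (i + 1 + 1) * seg y b (i + 1 + 1) n₂) *
      (b i₁ * y (i₁ + 1) * seg y b (i₁ + 1) n₃) := by
  have e1 : seg y b 0 l = seg y b 0 i₁ * seg y b i₁ (n₃ + 1) := by
    rw [hl, seg_add, zero_add]
  have e2 : seg y b 0 i₁ = seg y b 0 (i + 1) * seg y b (i + 1) (n₂ + 1) := by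
    rw [h₁, seg_add, zero_add]
  have e3 : seg y b 0 i = seg y b 0 (i₀ + 1) * seg y b (i₀ + 1) n₁ := by
    rw [hi, seg_add, zero_add]
  have e4 : ∀ k, seg y b 0 (k + 1) = seg y b 0 k * b k * y (k + 1) := fun k => by
    rw [seg, zero_add]
  rw [e1, e2, e4, e3, e4, tie_seg_succ, tie_seg_succ]

theorem tie_nmul {A B : H →L[ℂ] H} {a b : ℝ} (hA : ‖A‖ ≤ a) (hB : ‖B‖ ≤ b) : ‖A * B‖ ≤ a * b :=
  (norm_mul_le _ _).trans (mul_le_mul hA hB (norm_nonneg _) ((norm_nonneg _).trans hA))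

theorem tie_napp {A : H →L[ℂ] H} {η : H} {a b : ℝ} (hA : ‖A‖ ≤ a) (hB : ‖η‖ ≤ b) :
    ‖A η‖ ≤ a * b :=
  (A.le_opNorm η).trans (mul_le_mul hA hB (norm_nonneg _) ((norm_nonneg _).trans hA))

/-- the letters built from one function for each slot -/
def tieL (a : ℕ → C(X, ℂ)) (f : Fin l × ι → C(X, ℂ)) (i : ℕ) : C(X, ℂ) :=
  if h : i < l then a i * ∏ j, f (⟨i, h⟩, j) else 0

/-- multiply one slot by `x` -/
def tieW {σ R : Type*} [Monoid R] (f : σ → R) (s : σ) (x : R) : σ → R :=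
  fun s' => f s' * if s' = s then x else 1

theorem tieL_tieW (a : ℕ → C(X, ℂ)) (f : Fin l × ι → C(X, ℂ)) (s : Fin l × ι) (x : C(X, ℂ))
    (i : ℕ) : tieL a (tieW f s x) i = tieL a f i * if i = s.1 then x else 1 := by
  obtain ⟨⟨i', hi'⟩, j⟩ := s
  unfold tieL tieW
  by_cases h : i < l
  · rw [dif_pos h, dif_pos h, Finset.prod_mul_distrib, ← mul_assoc]
    congr 1
    by_cases h' : i = i'
    · subst h'
      simp
    · simp [h']
  · rw [dif_neg h, dif_neg h, zero_mul]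

theorem norm_tieL_le {a : ℕ → C(X, ℂ)} (ha : ∀ i, ‖a i‖ ≤ 1) {f : Fin l × ι → C(X, ℂ)}
    (hf : ∀ s t, ‖f s t‖ ≤ 1) (i : ℕ) : ‖tieL a f i‖ ≤ 1 := by
  unfold tieL
  split_ifs with h
  · refine (ContinuousMap.norm_le _ zero_le_one).2 fun t => ?_
    rw [ContinuousMap.mul_apply, ContinuousMap.prod_apply, norm_mul, norm_prod]
    refine mul_le_one₀ (((a i).norm_coe_le_norm t).trans (ha i))
      (Finset.prod_nonneg fun _ _ => norm_nonneg _) ?_
    exact Finset.prod_le_one (fun _ _ => norm_nonneg _) fun j _ => hf _ t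
  · simp

/-- restrict the weight of the slot `s₀` to the atom `I` -/
def tiePin {σ : Type*} (e : σ → β → ℂ) (s₀ : σ) (I : β) : σ → β → ℂ :=
  fun s b => e s b * if s = s₀ then (if b = I then 1 else 0) else 1

theorem prod_tiePin {σ : Type*} [Fintype σ] (e : σ → β → ℂ) (s₀ : σ) (I : β) (J : σ → β) :
    ∏ s, tiePin e s₀ I s (J s) = (∏ s, e s (J s)) * if J s₀ = I then 1 else 0 := by
  unfold tiePin
  rw [Finset.prod_mul_distrib]
  congr 1
  rw [Finset.prod_ite_eq']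
  simp

theorem tie_cs {κ : Type*} [Fintype κ] (u v : κ → H) {A γ : ℝ} (hA : 0 < A) (hγ : 0 < γ)
    (hu : ∑ k, ‖u k‖ ^ 2 ≤ A ^ 2) (hv : ∑ k, ‖v k‖ ^ 2 ≤ (γ / A) ^ 2) :
    ‖∑ k, ⟪u k, v k⟫_ℂ‖ ≤ γ := by
  refine (norm_sum_le _ _).trans ?_
  refine (Finset.sum_le_sum fun k _ => norm_inner_le_norm (u k) (v k)).trans ?_
  refine (Real.sum_mul_le_sqrt_mul_sqrt _ _ _).trans ?_
  have h1 : √(∑ k, ‖u k‖ ^ 2) ≤ A := Real.sqrt_le_iff.2 ⟨hA.le, hu⟩
  have h2 : √(∑ k, ‖v k‖ ^ 2) ≤ γ / A := Real.sqrt_le_iff.2 ⟨by positivity, hv⟩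
  calc _ ≤ A * (γ / A) := mul_le_mul h1 h2 (Real.sqrt_nonneg _) hA.le
    _ = γ := by field_simp

end TieAux

namespace Std
variable (S : Std H X)

/-- the letter at position `i`: `a i` times the projections that fix the atoms of the translates -/
def letter {ι β : Type*} [Fintype ι] (w : ι → S.Nrm) (q : X → β) (a : ℕ → C(X, ℂ)) {l : ℕ}
    (J : Fin l × ι → β) (i : ℕ) : H →L[ℂ] H :=
  if h : i < l then S.ρ (a i * ∏ j, ind {t | q (w j • t) = J (⟨i, h⟩, j)}) else 0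

/-- every position is tied to another one -/
def Linked {ι : Type*} {l : ℕ} (R : Finset ((Fin l × ι) × (Fin l × ι))) : Prop :=
  ∀ i : Fin l, ∃ x ∈ R, (x.1.1 = i ∧ x.2.1 ≠ i) ∨ (x.2.1 = i ∧ x.1.1 ≠ i)

section TieAux
variable {ι β : Type*} [Fintype ι] {l : ℕ}

theorem tie_norm_seg (y : ℕ → H →L[ℂ] H) (s n : ℕ) : ∃ C : ℝ, 0 < C ∧ ∀ a : ℕ → C(X, ℂ),
    (∀ i, ‖a i‖ ≤ 1) → ‖seg y (fun i => S.ρ (a i)) s n‖ ≤ C := by
  induction n with
  | zero => exact ⟨1, one_pos, fun a _ => ContinuousLinearMap.norm_id_le⟩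
  | succ n ih =>
    obtain ⟨C, hC, h⟩ := ih
    refine ⟨C * 1 * (‖y (s + n + 1)‖ + 1), by positivity, fun a ha => ?_⟩
    rw [seg]
    refine (norm_mul_le _ _).trans (mul_le_mul ((norm_mul_le _ _).trans
      (mul_le_mul (h a ha) ?_ (norm_nonneg _) hC.le)) (by linarith) (norm_nonneg _) (by positivity))
    rw [S.norm_ρ]; exact ha _

theorem tie_update (y : ℕ → H →L[ℂ] H) (a : ℕ → C(X, ℂ)) (f : Fin l × ι → C(X, ℂ))
    (s : Fin l × ι) : ∃ A B : H →L[ℂ] H, ∀ x,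
      seg y (fun i => S.ρ (tieL a (tieW f s x) i)) 0 l = A * S.ρ x * B := by
  obtain ⟨⟨i, hi⟩, j⟩ := s
  obtain ⟨m, rfl⟩ : ∃ m, l = i + (m + 1) := ⟨l - i - 1, by omega⟩
  refine ⟨seg y (fun i => S.ρ (tieL a f i)) 0 i * S.ρ (tieL a f i),
    y (i + 1) * seg y (fun i => S.ρ (tieL a f i)) (i + 1) m, fun x => ?_⟩
  rw [seg_add, zero_add, tie_seg_succ]
  rw [tie_seg_ite y (b := fun i => S.ρ (tieL a f i)) 0 i fun k _ hk => by
      rw [tieL_tieW, if_neg (by simp only; omega), mul_one],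
    tie_seg_ite y (b := fun i => S.ρ (tieL a f i)) (i + 1) m fun k hk _ => by
      rw [tieL_tieW, if_neg (by simp only; omega), mul_one],
    tieL_tieW, if_pos rfl, map_mul]
  simp only [mul_assoc]

/-- the state of a word as a multilinear function of the slots -/
def tieT (y : ℕ → H →L[ℂ] H) (a : ℕ → C(X, ℂ)) (l : ℕ) (ι : Type*) [Fintype ι] :
    MultilinearMap ℂ (fun _ : Fin l × ι => C(X, ℂ)) ℂ where
  toFun f := S.φ (y 0 * seg y (fun i => S.ρ (tieL a f i)) 0 l)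
  map_update_add' := by
    intro _ f s x x'
    have h : ∀ z, Function.update f s z = tieW (Function.update f s 1) s z := fun z => by
      funext s'
      by_cases hs : s' = s
      · subst hs; simp [tieW]
      · simp [tieW, hs]
    obtain ⟨A, B, hAB⟩ := S.tie_update y a (Function.update f s 1) s
    rw [h (x + x'), h x, h x', hAB, hAB, hAB]
    simp [φ, mul_add, add_mul]
  map_update_smul' := by
    intro _ f s c x
    have h : ∀ z, Function.update f s z = tieW (Function.update f s 1) s z := fun z => by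
      funext s'
      by_cases hs : s' = s
      · subst hs; simp [tieW]
      · simp [tieW, hs]
    obtain ⟨A, B, hAB⟩ := S.tie_update y a (Function.update f s 1) s
    rw [h (c • x), h x, hAB, hAB]
    simp [φ]

theorem tieT_apply (y : ℕ → H →L[ℂ] H) (a : ℕ → C(X, ℂ)) (f : Fin l × ι → C(X, ℂ)) :
    S.tieT y a l ι f = S.φ (y 0 * seg y (fun i => S.ρ (tieL a f i)) 0 l) := rfl

variable {S}

/-- the indicator function of a translated atom -/
def tieI (g : S.Nrm) (q : X → β) (b : β) : C(X, ℂ) := ind {t | q (g • t) = b}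

theorem tieI_apply (g : S.Nrm) {q : X → β} (hq : IsLocallyConstant q) (b : β) (t : X) :
    tieI g q b t = if q (g • t) = b then 1 else 0 := by
  have : IsClopen {t | q (g • t) = b} := (hq.isClopen_fiber b).preimage g.continuous_smul
  rw [tieI, ind_apply this]
  simp

theorem ρ_tieI (g : S.Nrm) {q : X → β} (hq : IsLocallyConstant q) (b : β) :
    S.ρ (tieI g q b) = star g.u * S.p (q ⁻¹' {b}) * g.u :=
  (g.conj_p (hq.isClopen_fiber b)).symm

/-- the weight of a slot as a function -/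
def tieD [Fintype β] (w : ι → S.Nrm) (q : X → β) (e : Fin l × ι → β → ℂ) (s : Fin l × ι) :
    C(X, ℂ) := ∑ b, e s b • tieI (w s.2) q b

theorem tieD_apply [Fintype β] (w : ι → S.Nrm) {q : X → β} (hq : IsLocallyConstant q)
    (e : Fin l × ι → β → ℂ) (s : Fin l × ι) (t : X) : tieD w q e s t = e s (q (w s.2 • t)) := by
  rw [tieD, ContinuousMap.sum_apply]
  simp [tieI_apply _ hq]

theorem tieD_pin [Fintype β] (w : ι → S.Nrm) {q : X → β} (hq : IsLocallyConstant q)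
    (e : Fin l × ι → β → ℂ) (s₀ : Fin l × ι) (I : β) :
    tieD w q (tiePin e s₀ I) = tieW (tieD w q e) s₀ (tieI (w s₀.2) q I) := by
  funext s
  ext t
  rw [tieD_apply w hq, tieW, ContinuousMap.mul_apply, tieD_apply w hq, tiePin]
  by_cases hs : s = s₀
  · subst hs
    simp [tieI_apply _ hq]
  · simp [hs]

variable (S)

/-- multilinear expansion -/
theorem tie_expand [Fintype β] (w : ι → S.Nrm) (q : X → β) (y : ℕ → H →L[ℂ] H)
    (a : ℕ → C(X, ℂ)) (e : Fin l × ι → β → ℂ) :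
    ∑ J : Fin l × ι → β, (∏ s, e s (J s)) * S.φ (y 0 * seg y (S.letter w q a J) 0 l) =
      S.φ (y 0 * seg y (fun i => S.ρ (tieL a (tieD w q e) i)) 0 l) := by
  rw [← tieT_apply]
  have h := (S.tieT y a l ι).map_sum (fun s b => e s b • tieI (w s.2) q b)
  refine Eq.trans ?_ h.symm
  refine Finset.sum_congr rfl fun J _ => ?_
  rw [MultilinearMap.map_smul_univ, smul_eq_mul, tieT_apply]
  congr 4
  funext i
  unfold letter tieL
  split_ifs
  · rfl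
  · rw [map_zero]

theorem tie_Mo {y : H →L[ℂ] H} (hy : S.Mo y) (g g' : S.Nrm) : S.Mo (g.u * y * star g'.u) :=
  (hy.mul_left (Nn.of_N0 (S.u_mem_N0 g))).mul_right (Nn.of_N0 (S.u_mem_N0 g'⁻¹))

theorem tie_norm_φ (A : H →L[ℂ] H) (η : H) : ‖⟪S.ξ, A η⟫_ℂ‖ ≤ ‖S.ξ‖ * (‖A‖ * ‖η‖) :=
  (norm_inner_le_norm _ _).trans (mul_le_mul_of_nonneg_left (A.le_opNorm η) (norm_nonneg _))

end TieAux

/-- One tie between adjacent positions.  Recipe: sum over the atoms of all other slots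
(multilinearity: the sum over `J` of a product of letters; each free slot `(i', j')` contributes the
contraction `cm (d (i', j') ∘ Q.proj ∘ θ)`), split the word at `i` with `seg_add`; the middle is
`u₀⋆ EP Q (u₀ y (i+1) u₁⋆) u₁` up to contractions of `A` (`Nrm.conj_p`), `eventually_EP_small`,
`UAC.seg_family`. -/
theorem tie_adjacent {ι : Type*} [Fintype ι] (w : ι → S.Nrm) {l : ℕ} {y : ℕ → H →L[ℂ] H}
    (hy : ∀ i, y i ∈ S.M) {i : ℕ} (hi : i + 1 < l) (hyi : S.Mo (y (i + 1))) (j₀ j₁ : ι) {γ : ℝ}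
    (hγ : 0 < γ) : ∀ᶠ Q : DiscreteQuotient X in atBot, ∀ a : ℕ → C(X, ℂ), (∀ i, ‖a i‖ ≤ 1) →
      ∀ d : Fin l × ι → Q → ℂ, (∀ s b, ‖d s b‖ ≤ 1) →
      ‖∑ J : Fin l × ι → Q, (∏ s, d s (J s)) *
        (if J (⟨i, by omega⟩, j₀) = J (⟨i + 1, hi⟩, j₁) then
          S.φ (y 0 * seg y (S.letter w Q.proj a J) 0 l) else 0)‖ ≤ γ := by
  obtain ⟨m, rfl⟩ : ∃ m, l = i + (m + 1 + 1) := ⟨l - i - 2, by omega⟩
  obtain ⟨C, hC, hCb⟩ := S.tie_norm_seg y 0 i
  have hF := ((UAC.single (S := S) S.ξ).seg_family hy (i + 1) (m + 1)).apply (w j₁).mem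
  set K : ℝ := ‖S.ξ‖ * (‖y 0‖ * C) + 1 with hK
  have hK0 : 0 < K := by positivity
  filter_upwards [S.eventually_EP_small (S.tie_Mo hyi (w j₀) (w j₁)) hF (div_pos hγ hK0)]
    with Q hQ a ha d hd
  have hq := Q.proj_isLocallyConstant
  set b := tieL a (tieD w Q.proj d) with hb
  have hb1 : ∀ k, ‖b k‖ ≤ 1 :=
    norm_tieL_le ha fun s t => by rw [tieD_apply w hq]; exact hd _ _
  set s₀ : Fin (i + (m + 1 + 1)) × ι := (⟨i, by omega⟩, j₀) with hs₀
  set s₁ : Fin (i + (m + 1 + 1)) × ι := (⟨i + 1, hi⟩, j₁) with hs₁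
  have h1 : ∀ J : Fin (i + (m + 1 + 1)) × ι → Q, (∏ s, d s (J s)) * (if J s₀ = J s₁ then
      S.φ (y 0 * seg y (S.letter w Q.proj a J) 0 (i + (m + 1 + 1))) else 0) =
      ∑ I : Q, (∏ s, tiePin (tiePin d s₀ I) s₁ I s (J s)) *
        S.φ (y 0 * seg y (S.letter w Q.proj a J) 0 (i + (m + 1 + 1))) := fun J => by
    simp only [prod_tiePin]
    rw [Finset.sum_eq_single (J s₀) (fun I _ hI => by rw [if_neg hI.symm]; simp) (by simp)]
    by_cases h : J s₀ = J s₁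
    · simp [h]
    · simp [h, Ne.symm h]
  have h2 : ∀ I : Q, seg y (fun k => S.ρ (tieL a (tieD w Q.proj (tiePin (tiePin d s₀ I) s₁ I)) k))
      0 (i + (m + 1 + 1)) = seg y (fun k => S.ρ (b k)) 0 i * S.ρ (b i) * star (w j₀).u *
        (S.p (Q.proj ⁻¹' {I}) * ((w j₀).u * y (i + 1) * star (w j₁).u) * S.p (Q.proj ⁻¹' {I})) *
        (w j₁).u * seg y (fun k => S.ρ (b k)) (i + 1) (m + 1) := fun I => by
    have h3 : ∀ k, tieL a (tieD w Q.proj (tiePin (tiePin d s₀ I) s₁ I)) k =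
        b k * (if k = i then tieI (w j₀) Q.proj I else 1) *
          (if k = i + 1 then tieI (w j₁) Q.proj I else 1) := fun k => by
      rw [tieD_pin w hq, tieD_pin w hq, tieL_tieW, tieL_tieW]
    simp only [h3]
    rw [seg_add, zero_add, tie_seg_succ, tie_seg_succ, tie_seg_succ,
      tie_seg_ite y (b := fun k => S.ρ (b k)) 0 i fun k _ hk => by
        rw [if_neg (by omega), if_neg (by omega), mul_one, mul_one],
      tie_seg_ite y (b := fun k => S.ρ (b k)) (i + 1 + 1) m fun k hk _ => by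
        rw [if_neg (by omega), if_neg (by omega), mul_one, mul_one],
      if_pos rfl, if_pos rfl, if_neg (by omega), if_neg (by omega), mul_one, mul_one,
      mul_comm (b (i + 1)), map_mul, map_mul, ρ_tieI _ hq, ρ_tieI _ hq]
    simp only [mul_assoc]
  simp only [h1]
  rw [Finset.sum_comm]
  simp only [tie_expand, h2]
  have h4 : ∑ I : Q, S.φ (y 0 * (seg y (fun k => S.ρ (b k)) 0 i * S.ρ (b i) * star (w j₀).u *
        (S.p (Q.proj ⁻¹' {I}) * ((w j₀).u * y (i + 1) * star (w j₁).u) * S.p (Q.proj ⁻¹' {I})) *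
        (w j₁).u * seg y (fun k => S.ρ (b k)) (i + 1) (m + 1))) =
      ⟪S.ξ, (y 0 * seg y (fun k => S.ρ (b k)) 0 i * S.ρ (b i) * star (w j₀).u)
        (S.EP Q.proj ((w j₀).u * y (i + 1) * star (w j₁).u)
          ((w j₁).u (seg y (fun k => S.ρ (b k)) (i + 1) (m + 1) S.ξ)))⟫_ℂ := by
    simp only [Setup.EP, sum_apply, map_sum, inner_sum, φ, mul_apply_eq_comp]
  rw [h4]
  refine (S.tie_norm_φ _ _).trans ?_
  have h5 := hQ _ ⟨_, ⟨b, S.ξ, hb1, rfl, rfl⟩, rfl⟩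
  have h6 : ‖y 0 * seg y (fun k => S.ρ (b k)) 0 i * S.ρ (b i) * star (w j₀).u‖ ≤ ‖y 0‖ * C := by
    have e1 : ‖S.ρ (b i)‖ ≤ 1 := by rw [S.norm_ρ]; exact hb1 i
    have e2 : ‖star (w j₀).u‖ ≤ 1 := by rw [norm_star]; exact (w j₀).norm_u_le
    calc _ ≤ ‖y 0‖ * C * 1 * 1 :=
          (norm_mul_le _ _).trans (mul_le_mul ((norm_mul_le _ _).trans (mul_le_mul
            ((norm_mul_le _ _).trans (mul_le_mul_of_nonneg_left (hCb b hb1) (norm_nonneg _))) e1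
            (norm_nonneg _) (by positivity))) e2 (norm_nonneg _) (by positivity))
      _ = _ := by ring
  calc _ ≤ ‖S.ξ‖ * (‖y 0‖ * C * (γ / K)) :=
        mul_le_mul_of_nonneg_left (mul_le_mul h6 h5 (norm_nonneg _) (by positivity)) (norm_nonneg _)
    _ = (K - 1) * (γ / K) := by rw [hK]; ring
    _ ≤ K * (γ / K) := mul_le_mul_of_nonneg_right (by linarith) (by positivity)
    _ = γ := by field_simp

/-- Two crossing ties `i₀ < i < i + 1 < i₁`: `i` with `i₁`, and `i + 1` with `i₀`.  Recipe: as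
before the sum is `∑_{I,J} ⟪p_I β⋆ p_J α⋆ ξ, p_I κ p_J w p_I ζ⟫` with `κ = u₀ y (i+1) u₁⋆ ∈ Mo`;
Cauchy-Schwarz, `sum_norm_p_sq`, `eventually_cross_small` (the vectors `w ρ(a') ζ` are again words,
up to the conjugation of `a'` by a normalising unitary). -/
theorem tie_crossing {ι : Type*} [Fintype ι] (w : ι → S.Nrm) {l : ℕ} {y : ℕ → H →L[ℂ] H}
    (hy : ∀ i, y i ∈ S.M) {i₀ i i₁ : ℕ} (h₀ : i₀ < i) (h₁ : i + 1 < i₁) (hl : i₁ < l)
    (hyi : S.Mo (y (i + 1))) (j₀ j j' j₁ : ι) {γ : ℝ} (hγ : 0 < γ) :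
    ∀ᶠ Q : DiscreteQuotient X in atBot, ∀ a : ℕ → C(X, ℂ), (∀ i, ‖a i‖ ≤ 1) →
      ∀ d : Fin l × ι → Q → ℂ, (∀ s b, ‖d s b‖ ≤ 1) →
      ‖∑ J : Fin l × ι → Q, (∏ s, d s (J s)) *
        (if J (⟨i, by omega⟩, j) = J (⟨i₁, hl⟩, j₁) ∧ J (⟨i + 1, by omega⟩, j') = J (⟨i₀, by omega⟩, j₀)
          then S.φ (y 0 * seg y (S.letter w Q.proj a J) 0 l) else 0)‖ ≤ γ := by
  obtain ⟨n₁, hn₁⟩ : ∃ n, i = i₀ + 1 + n := ⟨i - i₀ - 1, by omega⟩
  obtain ⟨n₂, hn₂⟩ : ∃ n, i₁ = i + 1 + (n + 1) := ⟨i₁ - i - 2, by omega⟩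
  obtain ⟨n₃, hn₃⟩ : ∃ n, l = i₁ + (n + 1) := ⟨l - i₁ - 1, by omega⟩
  obtain ⟨C₀, hC₀, hb₀⟩ := S.tie_norm_seg y 0 i₀
  obtain ⟨C₁, hC₁, hb₁⟩ := S.tie_norm_seg y (i₀ + 1) n₁
  obtain ⟨C₂, hC₂, hb₂⟩ := S.tie_norm_seg y (i + 1) (n₂ + 1)
  obtain ⟨C₃, hC₃, hb₃⟩ := S.tie_norm_seg y i₁ (n₃ + 1)
  have hu : ∀ k, ‖(w k).u‖ ≤ 1 := fun k => (w k).norm_u_le
  have hu' : ∀ k, ‖star (w k).u‖ ≤ 1 := fun k => by rw [norm_star]; exact hu k
  set W : Set ((H →L[ℂ] H) × H) := {x | ∃ b : ℕ → C(X, ℂ), (∀ k, ‖b k‖ ≤ 1) ∧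
    x = ((w j').u * seg y (fun k => S.ρ (b k)) (i + 1) (n₂ + 1) * star (w j₁).u,
      (w j₁).u (seg y (fun k => S.ρ (b k)) i₁ (n₃ + 1) S.ξ))} with hWdef
  have hW : ∀ x ∈ W, ‖x.1‖ ≤ max C₂ (C₃ * ‖S.ξ‖) ∧ ‖x.2‖ ≤ max C₂ (C₃ * ‖S.ξ‖) := by
    rintro _ ⟨b, hb, rfl⟩
    refine ⟨le_max_of_le_left ?_, le_max_of_le_right ?_⟩
    · simpa using tie_nmul (tie_nmul (hu j') (hb₂ b hb)) (hu' j₁)
    · simpa using tie_napp (hu j₁) (tie_napp (hb₃ b hb) le_rfl)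
  have hF : S.UAC {η | ∃ x ∈ W, ∃ a : C(X, ℂ), ‖a‖ ≤ 1 ∧ η = x.1 (S.ρ a x.2)} := by
    refine ((((((UAC.single (S := S) S.ξ).seg_family hy i₁ (n₃ + 1)).step (w j₁).mem).apply
      (w j₁)⁻¹.mem).seg_family hy (i + 1) (n₂ + 1)).apply (w j').mem).mono ?_
    rintro _ ⟨_, ⟨b, hb, rfl⟩, a, ha, rfl⟩
    exact ⟨_, ⟨b, _, hb, ⟨_, ⟨a, _, ha, ⟨b, S.ξ, hb, rfl, rfl⟩, rfl⟩, rfl⟩, rfl⟩, rfl⟩
  set K : ℝ := ‖y (i₀ + 1)‖ * C₁ * (‖y 0‖ * C₀ * ‖S.ξ‖) + 1 with hK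
  have hK0 : 0 < K := by positivity
  filter_upwards [S.eventually_cross_small (S.tie_Mo hyi (w j) (w j')) W hW hF
    (γ := (γ / K) ^ 2) (by positivity)] with Q hQ a ha d hd
  have hq := Q.proj_isLocallyConstant
  set b := tieL a (tieD w Q.proj d) with hb
  have hb1 : ∀ k, ‖b k‖ ≤ 1 :=
    norm_tieL_le ha fun s t => by rw [tieD_apply w hq]; exact hd _ _
  have hρ : ∀ k, ‖S.ρ (b k)‖ ≤ 1 := fun k => by rw [S.norm_ρ]; exact hb1 k
  set s₀ : Fin l × ι := (⟨i₀, by omega⟩, j₀) with hs₀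
  set s₁ : Fin l × ι := (⟨i, by omega⟩, j) with hs₁
  set s₂ : Fin l × ι := (⟨i + 1, by omega⟩, j') with hs₂
  set s₃ : Fin l × ι := (⟨i₁, hl⟩, j₁) with hs₃
  have h1 : ∀ J : Fin l × ι → Q, (∏ s, d s (J s)) * (if J s₁ = J s₃ ∧ J s₂ = J s₀ then
      S.φ (y 0 * seg y (S.letter w Q.proj a J) 0 l) else 0) =
      ∑ x : Q × Q, (∏ s, tiePin (tiePin (tiePin (tiePin d s₀ x.2) s₁ x.1) s₂ x.2) s₃ x.1 s (J s)) *
        S.φ (y 0 * seg y (S.letter w Q.proj a J) 0 l) := fun J => by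
    simp only [prod_tiePin]
    rw [Finset.sum_eq_single (J s₁, J s₀) (fun x _ hx => ?_) (by simp)]
    · by_cases h : J s₁ = J s₃
      · by_cases h' : J s₂ = J s₀ <;> simp [h, h']
      · simp [h, Ne.symm h]
    · by_cases h : J s₁ = x.1
      · rw [if_neg (c := J s₀ = x.2) fun h' => hx (Prod.ext h.symm h'.symm)]
        simp
      · rw [if_neg h]
        simp
  set α : H →L[ℂ] H := y 0 * seg y (fun k => S.ρ (b k)) 0 i₀ * S.ρ (b i₀) * star (w j₀).u with hα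
  set β : H →L[ℂ] H := (w j₀).u * y (i₀ + 1) * seg y (fun k => S.ρ (b k)) (i₀ + 1) n₁ * S.ρ (b i) *
    star (w j).u with hβ
  set κ : H →L[ℂ] H := (w j).u * y (i + 1) * star (w j').u with hκ
  set v : H →L[ℂ] H := (w j').u * seg y (fun k => S.ρ (b k)) (i + 1) (n₂ + 1) * star (w j₁).u
    with hv
  set ζ : H := (w j₁).u (seg y (fun k => S.ρ (b k)) i₁ (n₃ + 1) S.ξ) with hζ
  have h2 : ∀ x : Q × Q, y 0 * seg y (fun k => S.ρ (tieL a (tieD w Q.proj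
      (tiePin (tiePin (tiePin (tiePin d s₀ x.2) s₁ x.1) s₂ x.2) s₃ x.1)) k)) 0 l =
      α * S.p (Q.proj ⁻¹' {x.2}) * β * S.p (Q.proj ⁻¹' {x.1}) * κ * S.p (Q.proj ⁻¹' {x.2}) * v *
        S.p (Q.proj ⁻¹' {x.1}) * ((w j₁).u * seg y (fun k => S.ρ (b k)) i₁ (n₃ + 1)) := fun x => by
    have h3 : ∀ k, tieL a (tieD w Q.proj
        (tiePin (tiePin (tiePin (tiePin d s₀ x.2) s₁ x.1) s₂ x.2) s₃ x.1)) k =
        b k * (if k = i₀ then tieI (w j₀) Q.proj x.2 else 1) *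
          (if k = i then tieI (w j) Q.proj x.1 else 1) *
          (if k = i + 1 then tieI (w j') Q.proj x.2 else 1) *
          (if k = i₁ then tieI (w j₁) Q.proj x.1 else 1) := fun k => by
      rw [tieD_pin w hq, tieD_pin w hq, tieD_pin w hq, tieD_pin w hq, tieL_tieW, tieL_tieW,
        tieL_tieW, tieL_tieW]
    have h4 : ∀ k, k ≠ i₀ → k ≠ i → k ≠ i + 1 → k ≠ i₁ → S.ρ (tieL a (tieD w Q.proj
        (tiePin (tiePin (tiePin (tiePin d s₀ x.2) s₁ x.1) s₂ x.2) s₃ x.1)) k) = S.ρ (b k) := by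
      intro k e0 e1 e2 e3
      rw [h3, if_neg e0, if_neg e1, if_neg e2, if_neg e3, mul_one, mul_one, mul_one, mul_one]
    rw [tie_seg_cross _ _ hn₁ hn₂ hn₃,
      tie_seg_ite y (b := fun k => S.ρ (b k)) 0 i₀ fun k _ _ =>
        h4 k (by omega) (by omega) (by omega) (by omega),
      tie_seg_ite y (b := fun k => S.ρ (b k)) (i₀ + 1) n₁ fun k _ _ =>
        h4 k (by omega) (by omega) (by omega) (by omega),
      tie_seg_ite y (b := fun k => S.ρ (b k)) (i + 1 + 1) n₂ fun k _ _ =>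
        h4 k (by omega) (by omega) (by omega) (by omega),
      tie_seg_ite y (b := fun k => S.ρ (b k)) (i₁ + 1) n₃ fun k _ _ =>
        h4 k (by omega) (by omega) (by omega) (by omega)]
    have e0 : tieL a (tieD w Q.proj (tiePin (tiePin (tiePin (tiePin d s₀ x.2) s₁ x.1) s₂ x.2) s₃ x.1))
        i₀ = b i₀ * tieI (w j₀) Q.proj x.2 := by
      rw [h3, if_pos rfl, if_neg (by omega), if_neg (by omega), if_neg (by omega), mul_one, mul_one,
        mul_one]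
    have e1 : tieL a (tieD w Q.proj (tiePin (tiePin (tiePin (tiePin d s₀ x.2) s₁ x.1) s₂ x.2) s₃ x.1))
        i = b i * tieI (w j) Q.proj x.1 := by
      rw [h3, if_pos rfl, if_neg (by omega), if_neg (by omega), if_neg (by omega), mul_one, mul_one,
        mul_one]
    have e2 : tieL a (tieD w Q.proj (tiePin (tiePin (tiePin (tiePin d s₀ x.2) s₁ x.1) s₂ x.2) s₃ x.1))
        (i + 1) = tieI (w j') Q.proj x.2 * b (i + 1) := by
      rw [h3, if_pos rfl, if_neg (by omega), if_neg (by omega), if_neg (by omega), mul_one, mul_one,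
        mul_one, mul_comm]
    have e3 : tieL a (tieD w Q.proj (tiePin (tiePin (tiePin (tiePin d s₀ x.2) s₁ x.1) s₂ x.2) s₃ x.1))
        i₁ = tieI (w j₁) Q.proj x.1 * b i₁ := by
      rw [h3, if_pos rfl, if_neg (by omega), if_neg (by omega), if_neg (by omega), mul_one, mul_one,
        mul_one, mul_comm]
    rw [e0, e1, e2, e3, hα, hβ, hκ, hv, tie_seg_succ, tie_seg_succ]
    simp only [map_mul, ρ_tieI _ hq, mul_assoc]
  simp only [h1]
  rw [Finset.sum_comm]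
  simp only [tie_expand, h2]
  have h5 : ∀ x : Q × Q, S.φ (α * S.p (Q.proj ⁻¹' {x.2}) * β * S.p (Q.proj ⁻¹' {x.1}) * κ *
      S.p (Q.proj ⁻¹' {x.2}) * v * S.p (Q.proj ⁻¹' {x.1}) *
        ((w j₁).u * seg y (fun k => S.ρ (b k)) i₁ (n₃ + 1))) =
      ⟪S.p (Q.proj ⁻¹' {x.1}) (star β (S.p (Q.proj ⁻¹' {x.2}) (star α S.ξ))),
        S.p (Q.proj ⁻¹' {x.1}) (κ (S.p (Q.proj ⁻¹' {x.2}) (v (S.p (Q.proj ⁻¹' {x.1}) ζ))))⟫_ℂ := by
    intro x
    have hp : ∀ (U : Set X) (η η' : H), ⟪S.p U η, η'⟫_ℂ = ⟪η, S.p U η'⟫_ℂ := fun U η η' => by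
      rw [← ContinuousLinearMap.adjoint_inner_left, ← ContinuousLinearMap.star_eq_adjoint,
        (S.isStarProjection_p U).isSelfAdjoint.star_eq]
    have hpp : ∀ (U : Set X) (η : H), S.p U (S.p U η) = S.p U η := fun U η => by
      rw [← mul_apply_eq_comp, (S.isStarProjection_p U).isIdempotentElem.eq]
    rw [hp, hpp, ContinuousLinearMap.star_eq_adjoint, ContinuousLinearMap.star_eq_adjoint,
      ContinuousLinearMap.adjoint_inner_left, hp, ContinuousLinearMap.adjoint_inner_left]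
    simp only [φ, mul_apply_eq_comp, hζ]
  simp only [h5]
  refine tie_cs _ _ hK0 hγ ?_ ?_
  · rw [Fintype.sum_prod_type_right]
    simp only [S.sum_norm_p_sq hq]
    have hβn : ‖star β‖ ≤ ‖y (i₀ + 1)‖ * C₁ := by
      rw [norm_star]
      simpa using tie_nmul (tie_nmul (tie_nmul (tie_nmul (hu j₀) (le_refl ‖y (i₀ + 1)‖))
        (hb₁ b hb1)) (hρ i)) (hu' j)
    have hαn : ‖star α S.ξ‖ ≤ ‖y 0‖ * C₀ * ‖S.ξ‖ := by
      refine tie_napp ?_ le_rfl
      rw [norm_star]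
      simpa using tie_nmul (tie_nmul (tie_nmul (le_refl ‖y 0‖) (hb₀ b hb1)) (hρ i₀)) (hu' j₀)
    calc ∑ J : Q, ‖star β (S.p (Q.proj ⁻¹' {J}) (star α S.ξ))‖ ^ 2
        ≤ ∑ J : Q, (‖y (i₀ + 1)‖ * C₁) ^ 2 * ‖S.p (Q.proj ⁻¹' {J}) (star α S.ξ)‖ ^ 2 :=
          Finset.sum_le_sum fun J _ => by
            rw [← mul_pow]
            exact pow_le_pow_left₀ (norm_nonneg _) (tie_napp hβn le_rfl) 2
      _ = (‖y (i₀ + 1)‖ * C₁ * ‖star α S.ξ‖) ^ 2 := by
          rw [← Finset.mul_sum, S.sum_norm_p_sq hq, ← mul_pow]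
      _ ≤ K ^ 2 := by
          refine pow_le_pow_left₀ (by positivity) ?_ 2
          have := mul_le_mul_of_nonneg_left hαn (show 0 ≤ ‖y (i₀ + 1)‖ * C₁ by positivity)
          linarith
  · rw [Fintype.sum_prod_type]
    exact hQ (v, ζ) ⟨b, hb1, rfl⟩

/-- Recipe: let `i + 1` be the first position tied to an earlier one (the last position is, the
position `0` is not); then `i` is tied to a later one.  If one of the two ties is adjacent use
`tie_adjacent`, otherwise `tie_crossing`; the remaining constraints are removed by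
`norm_sum_constraint_le`. -/
theorem linked_small {ι : Type*} [Fintype ι] (w : ι → S.Nrm) {l : ℕ} (hl : 0 < l)
    {y : ℕ → H →L[ℂ] H} (hy : ∀ i, y i ∈ S.M) (hyo : ∀ i, 0 < i → i < l → S.Mo (y i))
    {R : Finset ((Fin l × ι) × (Fin l × ι))} (hR : Linked R) {γ : ℝ} (hγ : 0 < γ) :
    ∀ᶠ Q : DiscreteQuotient X in atBot, ∀ a : ℕ → C(X, ℂ), (∀ i, ‖a i‖ ≤ 1) →
      ‖∑ J ∈ Finset.univ.filter (fun J : Fin l × ι → Q => ∀ x ∈ R, J x.1 = J x.2),
        S.φ (y 0 * seg y (S.letter w Q.proj a J) 0 l)‖ ≤ γ := by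
  -- `T s s'`: the slots are tied
  let T : Fin l × ι → Fin l × ι → Prop := fun s s' => (s, s') ∈ R ∨ (s', s) ∈ R
  have hTs : ∀ s s', T s s' → T s' s := fun s s' h => h.symm
  have hT : ∀ {β : Type _} (J : Fin l × ι → β), (∀ x ∈ R, J x.1 = J x.2) → ∀ s s', T s s' →
      J s = J s' := fun J hJ s s' h => h.elim (fun h => hJ _ h) fun h => (hJ _ h).symm
  have hL : ∀ i : Fin l, ∃ j s', T (i, j) s' ∧ s'.1 ≠ i := fun i => by
    obtain ⟨x, hx, ⟨h1, h2⟩ | ⟨h1, h2⟩⟩ := hR i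
    · exact ⟨x.1.2, x.2, Or.inl (by rw [← h1]; exact hx), h2⟩
    · exact ⟨x.2.2, x.1, Or.inr (by rw [← h1]; exact hx), h2⟩
  -- reduction to a consequence `P` of the constraints
  have red : ∀ P : ∀ Q : DiscreteQuotient X, (Fin l × ι → Q) → Prop,
      (∀ (Q : DiscreteQuotient X) (J : Fin l × ι → Q), (∀ x ∈ R, J x.1 = J x.2) → P Q J) →
      (∀ᶠ Q : DiscreteQuotient X in atBot, ∀ a : ℕ → C(X, ℂ), (∀ i, ‖a i‖ ≤ 1) →
        ∀ d : Fin l × ι → Q → ℂ, (∀ s b, ‖d s b‖ ≤ 1) →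
        ‖∑ J : Fin l × ι → Q, (∏ s, d s (J s)) *
          (if P Q J then S.φ (y 0 * seg y (S.letter w Q.proj a J) 0 l) else 0)‖ ≤ γ) →
      ∀ᶠ Q : DiscreteQuotient X in atBot, ∀ a : ℕ → C(X, ℂ), (∀ i, ‖a i‖ ≤ 1) →
        ‖∑ J ∈ Finset.univ.filter (fun J : Fin l × ι → Q => ∀ x ∈ R, J x.1 = J x.2),
          S.φ (y 0 * seg y (S.letter w Q.proj a J) 0 l)‖ ≤ γ := by
    intro P hP h
    filter_upwards [h] with Q hQ a ha
    have := norm_sum_constraint_le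
      (fun J : Fin l × ι → Q => if P Q J then S.φ (y 0 * seg y (S.letter w Q.proj a J) 0 l) else 0)
      (c := γ) (fun d hd => by convert hQ a ha d hd) R
    refine le_of_eq_of_le (congrArg norm (Finset.sum_congr (by ext; simp) fun J hJ => ?_)) this
    rw [if_pos (hP Q J (by simpa using hJ))]
  have hex : ∃ k : ℕ, ∃ s s', T s s' ∧ (s.1 : ℕ) = k ∧ (s'.1 : ℕ) < k := by
    obtain ⟨j, s', h1, h2⟩ := hL ⟨l - 1, by omega⟩
    refine ⟨l - 1, _, s', h1, rfl, ?_⟩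
    have := s'.1.2
    have h3 : (s'.1 : ℕ) ≠ l - 1 := fun h => h2 (Fin.ext h)
    omega
  obtain ⟨⟨⟨k, hk⟩, j'⟩, ⟨⟨i₀, hi₀⟩, j₀⟩, hT1, hk', hlt⟩ := Nat.find_spec hex
  simp only at hk' hlt
  rw [← hk'] at hlt
  obtain ⟨i, rfl⟩ : ∃ i, k = i + 1 := ⟨k - 1, by omega⟩
  have hyi : S.Mo (y (i + 1)) := hyo _ (by omega) hk
  by_cases h0 : i₀ = i
  · subst h0
    exact red (fun Q J => J (⟨i₀, hi₀⟩, j₀) = J (⟨i₀ + 1, hk⟩, j'))
      (fun Q J hJ => hT J hJ _ _ (hTs _ _ hT1))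
      (by convert S.tie_adjacent w hy hk hyi j₀ j' hγ)
  obtain ⟨j, ⟨⟨i₁, hi₁⟩, j₁⟩, hT2, hne⟩ := hL ⟨i, by omega⟩
  have hne' : i₁ ≠ i := fun h => hne (Fin.ext h)
  have hgt : ¬ i₁ < i := fun h =>
    Nat.find_min hex (show i < Nat.find hex by omega) ⟨_, _, hT2, rfl, h⟩
  by_cases h1 : i₁ = i + 1
  · subst h1
    exact red (fun Q J => J (⟨i, by omega⟩, j) = J (⟨i + 1, hk⟩, j₁))
      (fun Q J hJ => hT J hJ _ _ hT2) (by convert S.tie_adjacent w hy hk hyi j j₁ hγ)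
  · exact red (fun Q J => J (⟨i, by omega⟩, j) = J (⟨i₁, hi₁⟩, j₁) ∧
        J (⟨i + 1, hk⟩, j') = J (⟨i₀, hi₀⟩, j₀))
      (fun Q J hJ => ⟨hT J hJ _ _ hT2, hT J hJ _ _ hT1⟩)
      (by
        have := S.tie_crossing w hy (i₀ := i₀) (i := i) (i₁ := i₁) (by omega) (by omega) hi₁ hyi
          j₀ j j' j₁ hγ
        convert this)

end Std

end

end Crest.Agent.R109
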