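import Crest.Agent.R109.GDefs
import Crest.Agent.R109.Loc
import Crest.Agent.R109.Pot

/-!
# Row 109: mass transport and measurability on measured graphs
-/

open MeasureTheory
open scoped BigOperators Pointwise

set_option linter.unusedSectionVars false

namespace Crest.Agent.R109

noncomputable section

open Classical

theorem Transport_sum_image {Γ X : Type*} (W : Finset Γ) (φ : Γ → X) (F : X → ℝ) :
    ∑ o ∈ W.image φ, F o =
      ∑ g ∈ W, F (φ g) / ((W.filter (fun g' => φ g' = φ g)).card : ℝ) := by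
  rw [Finset.sum_comp (fun o => F o / ((W.filter (fun g' => φ g' = o)).card : ℝ)) φ]
  refine Finset.sum_congr rfl fun o ho => ?_
  obtain ⟨g, hg, rfl⟩ := Finset.mem_image.1 ho
  have h : ((W.filter (fun g' => φ g' = φ g)).card : ℝ) ≠ 0 := by
    rw [Nat.cast_ne_zero, Finset.card_ne_zero]
    exact ⟨g, Finset.mem_filter.2 ⟨hg, rfl⟩⟩
  rw [nsmul_eq_mul, mul_div_cancel₀ _ h]

namespace GraphData

variable {Γ X : Type*} [Group Γ] [MulAction Γ X] [MeasurableSpace X] {μ : Measure X}
  (G : GraphData Γ X μ)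

theorem Transport_integral (g : Γ) {φ : X → ℝ} (hφ : Measurable φ) :
    ∫ o, φ (g⁻¹ • o) ∂μ = ∫ t, φ t * Real.exp (G.hh (g • t) - G.hh t) ∂μ := by
  have hm : Measurable fun o : X => φ (g⁻¹ • o) := hφ.comp (G.meas_smul g⁻¹)
  conv_lhs => rw [← G.transport g]
  rw [integral_map (G.meas_smul g).aemeasurable hm.aestronglyMeasurable,
    integral_withDensity_eq_integral_toReal_smul
      (G.meas_h g).exp.ennreal_ofReal
      (Filter.Eventually.of_forall fun _ => ENNReal.ofReal_lt_top)]
  refine integral_congr_ae (Filter.Eventually.of_forall fun t => ?_)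
  simp only [inv_smul_smul, smul_eq_mul]
  rw [ENNReal.toReal_ofReal (Real.exp_pos _).le, mul_comm]

theorem Transport_ball_inv (m : ℕ) (o : X) :
    G.ball m o = (G.V ^ m).image (fun g => g⁻¹ • o) := by
  ext t
  rw [G.mem_ball, Finset.mem_image]
  constructor
  · rintro ⟨g, hg, rfl⟩
    exact ⟨g⁻¹, G.inv_mem_pow hg, by rw [inv_inv]⟩
  · rintro ⟨g, hg, rfl⟩
    exact ⟨g⁻¹, G.inv_mem_pow hg, rfl⟩

include G in
theorem Transport_measurable_card (W : Finset Γ) (g : Γ) :
    Measurable fun t : X => ((W.filter (fun g' => g' • t = g • t)).card : ℝ) := by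
  have e : (fun t : X => ((W.filter (fun g' => g' • t = g • t)).card : ℝ)) =
      fun t => ∑ g' ∈ W, if g' • t = g • t then (1 : ℝ) else 0 := by
    funext t
    rw [Finset.sum_boole]
  rw [e]
  exact Finset.measurable_fun_sum _ fun g' _ =>
    Measurable.ite (G.measurableSet_smul_eq g' g) measurable_const measurable_const

/-- Mass transport.  Recipe: with `N o t = #{g ∈ V ^ m | g • t = o}`,
`∑_{o ∈ ball t} F o t = ∑_{g ∈ V ^ m} F (g • t) t / N (g • t) t` and
`∑_{t ∈ ball o} f o t = ∑_{g ∈ V ^ m} f o (g⁻¹ • o) / N o (g⁻¹ • o)`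
(`Finset.sum_fiberwise`-style / `Finset.sum_image'`/ `card_eq_sum_ones`); for each `g` use
`transport` (`integral_map`, `integral_withDensity_eq_integral_smul`). -/
theorem mass_transport [IsFiniteMeasure μ] (m : ℕ) (f : X → X → ℝ)
    (hf : ∀ g : Γ, Measurable fun t => f (g • t) t) {C : ℝ}
    (hC : ∀ o t, o ∈ G.ball m t → |f o t| ≤ C) :
    Integrable (fun o => ∑ t ∈ G.ball m o, f o t) μ ∧
    Integrable (fun t => ∑ o ∈ G.ball m t, f o t * Real.exp (G.hh o - G.hh t)) μ ∧
    ∫ o, ∑ t ∈ G.ball m o, f o t ∂μ =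
      ∫ t, ∑ o ∈ G.ball m t, f o t * Real.exp (G.hh o - G.hh t) ∂μ := by
  set W := G.V ^ m with hW
  set φ : Γ → X → ℝ := fun g t =>
    f (g • t) t / ((W.filter (fun g' => g' • t = g • t)).card : ℝ) with hφ
  have hφm : ∀ g, Measurable (φ g) := fun g => (hf g).div (G.Transport_measurable_card W g)
  have hφb : ∀ g ∈ W, ∀ t, |φ g t| ≤ C := by
    intro g hg t
    have h1 := hC (g • t) t (G.mem_ball.2 ⟨g, hg, rfl⟩)
    have h2 : (1 : ℝ) ≤ ((W.filter (fun g' => g' • t = g • t)).card : ℝ) := by
      rw [Nat.one_le_cast, Finset.one_le_card]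
      exact ⟨g, Finset.mem_filter.2 ⟨hg, rfl⟩⟩
    simp only [hφ]
    rw [abs_div, Nat.abs_cast]
    exact (div_le_self (abs_nonneg _) h2).trans h1
  have e1 : (fun o => ∑ t ∈ G.ball m o, f o t) = fun o => ∑ g ∈ W, φ g (g⁻¹ • o) := by
    funext o
    rw [G.Transport_ball_inv, Transport_sum_image]
    refine Finset.sum_congr rfl fun g _ => ?_
    simp only [hφ, smul_inv_smul]
    congr 3
    refine Finset.filter_congr fun g' _ => ?_
    rw [inv_smul_eq_iff, eq_comm]
  have e2 : (fun t => ∑ o ∈ G.ball m t, f o t * Real.exp (G.hh o - G.hh t)) =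
      fun t => ∑ g ∈ W, φ g t * Real.exp (G.hh (g • t) - G.hh t) := by
    funext t
    rw [ball, Transport_sum_image]
    refine Finset.sum_congr rfl fun g _ => ?_
    simp only [hφ]
    ring
  have i1 : ∀ g ∈ W, Integrable (fun o => φ g (g⁻¹ • o)) μ := fun g hg =>
    Integrable.of_bound ((hφm g).comp (G.meas_smul g⁻¹)).aestronglyMeasurable C
      (Filter.Eventually.of_forall fun o => hφb g hg _)
  have i2 : ∀ g ∈ W, Integrable (fun t => φ g t * Real.exp (G.hh (g • t) - G.hh t)) μ := by
    intro g hg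
    refine Integrable.of_bound
      ((hφm g).mul (Real.measurable_exp.comp (G.meas_h g))).aestronglyMeasurable
      (C * Real.exp (m * G.T)) (Filter.Eventually.of_forall fun t => ?_)
    rw [norm_mul, Real.norm_eq_abs, Real.norm_of_nonneg (Real.exp_pos _).le]
    refine mul_le_mul (hφb g hg t) (Real.exp_le_exp.2 ?_) (Real.exp_pos _).le
      ((abs_nonneg _).trans (hφb g hg t))
    exact (le_abs_self _).trans (G.abs_hh_le (G.mem_ball.2 ⟨g, hg, rfl⟩))
  rw [e1, e2]
  refine ⟨integrable_finsetSum _ i1, integrable_finsetSum _ i2, ?_⟩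
  rw [integral_finsetSum _ i1, integral_finsetSum _ i2]
  exact Finset.sum_congr rfl fun g _ => G.Transport_integral g (hφm g)

/-- quasi-invariance with bounded density -/
theorem measure_ball_meets_le (n : ℕ) {S : Set X} (hS : MeasurableSet S) :
    MeasurableSet {o | ∃ s ∈ G.ball n o, s ∈ S} ∧
    μ {o | ∃ s ∈ G.ball n o, s ∈ S} ≤
      ENNReal.ofReal (G.V.card ^ n * Real.exp (n * G.T)) * μ S := by
  have e : {o | ∃ s ∈ G.ball n o, s ∈ S} = ⋃ g ∈ G.V ^ n, (fun o : X => g • o) ⁻¹' S := by
    ext o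
    simp only [Set.mem_ofPred_eq, Set.mem_iUnion, Set.mem_preimage, exists_prop]
    constructor
    · rintro ⟨s, hs, hsS⟩
      obtain ⟨g, hg, rfl⟩ := G.mem_ball.1 hs
      exact ⟨g, hg, hsS⟩
    · rintro ⟨g, hg, h⟩
      exact ⟨_, G.mem_ball.2 ⟨g, hg, rfl⟩, h⟩
  have hone : ∀ g ∈ G.V ^ n, μ ((fun o : X => g • o) ⁻¹' S) ≤
      ENNReal.ofReal (Real.exp (n * G.T)) * μ S := by
    intro g hg
    have hA : MeasurableSet ((fun o : X => g • o) ⁻¹' S) := G.meas_smul g hS
    conv_lhs => rw [← G.transport g⁻¹]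
    rw [Measure.map_apply (G.meas_smul g⁻¹) hA]
    have e2 : (fun t : X => g⁻¹ • t) ⁻¹' ((fun o : X => g • o) ⁻¹' S) = S := by
      ext t
      simp
    rw [e2, withDensity_apply _ hS, ← setLIntegral_const]
    refine lintegral_mono fun t => ENNReal.ofReal_le_ofReal (Real.exp_le_exp.2 ?_)
    exact (le_abs_self _).trans (G.abs_hh_le (G.mem_ball.2 ⟨g⁻¹, G.inv_mem_pow hg, rfl⟩))
  rw [e]
  refine ⟨(G.V ^ n).measurableSet_biUnion fun g _ => G.meas_smul g hS, ?_⟩
  refine (measure_biUnion_finset_le _ _).trans ((Finset.sum_le_sum hone).trans ?_)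
  rw [Finset.sum_const, nsmul_eq_mul, ← mul_assoc, ENNReal.ofReal_mul (by positivity)]
  gcongr
  rw [← Nat.cast_pow, ENNReal.ofReal_natCast]
  exact_mod_cast Finset.card_pow_le

/-- Measurability of the potential of a moving region.  Recipe: the region is the image of
`W.filter (p · t)`; choose representatives `W₀ t` = the elements of it that are minimal (for a fixed
injection of `W` in `ℕ`, e.g. `W.equivFin`) among those with the same image; `FM`;
`pot_image` on the subtype `W`, `psi0_gauge` to replace `Y` by `Yt`, `measurable_psi0`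
(the masked weights are measurable, no case distinction needed). -/
theorem measurable_pot {κ : Type*} [Fintype κ] [DecidableEq κ] (W : Finset Γ)
    (p : Γ → X → Prop) (hp : ∀ g, MeasurableSet {t | p g t}) (η : X → X → ℝ)
    (hη : ∀ g : Γ, Measurable fun t => η t (g • t)) (θ : X → X → κ → ℝ)
    (hθ : ∀ (g : Γ) k, Measurable fun t => θ t (g • t) k) :
    Measurable fun t => pot G.Y (η t) (θ t) ((W.filter (fun g => p g t)).image (· • t)) := by
  obtain ⟨Yt, u, hYt, hu, hY⟩ := G.gauge
  set e := W.equivFin with he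
  set q : W → X → Prop := fun i t =>
    p i t ∧ ∀ i' : W, p i' t → (i' : Γ) • t = (i : Γ) • t → e i ≤ e i' with hq
  have hqm : ∀ i, MeasurableSet {t | q i t} := by
    intro i
    have e1 : {t | q i t} = {t | p i t} ∩
        ⋂ i' : W, ({t | p i' t}ᶜ ∪ {t | (i' : Γ) • t = (i : Γ) • t}ᶜ ∪ {_t | e i ≤ e i'}) := by
      ext t
      simp only [hq, Set.mem_ofPred_eq, Set.mem_inter_iff, Set.mem_iInter, Set.mem_union,
        Set.mem_compl_iff]
      refine and_congr_right fun _ => forall_congr' fun i' => ?_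
      tauto
    rw [e1]
    exact (hp i).inter (MeasurableSet.iInter fun i' =>
      ((hp i').compl.union (G.measurableSet_smul_eq _ _).compl).union (MeasurableSet.const _))
  have e2 : (fun t => pot G.Y (η t) (θ t) ((W.filter (fun g => p g t)).image (· • t))) =
      fun t => psi0 (fun i i' : W => Yt i i' t) (fun i => η t ((i : Γ) • t))
        (fun i k => if q i t then θ t ((i : Γ) • t) k else 0) := by
    funext t
    have h1 : (W.filter (fun g => p g t)).image (· • t) =
        (Finset.univ.filter (fun i : W => q i t)).image (fun i : W => (i : Γ) • t) := by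
      ext s
      simp only [Finset.mem_image, Finset.mem_filter, Finset.mem_univ, true_and]
      constructor
      · rintro ⟨g, ⟨hg, hpg⟩, rfl⟩
        obtain ⟨i, hi, hmin⟩ := Finset.exists_min_image
          (Finset.univ.filter (fun i : W => p i t ∧ (i : Γ) • t = g • t)) e
          ⟨⟨g, hg⟩, Finset.mem_filter.2 ⟨Finset.mem_univ _, hpg, rfl⟩⟩
        obtain ⟨-, hi1, hi2⟩ := Finset.mem_filter.1 hi
        exact ⟨i, ⟨hi1, fun i' h1 h2 =>
          hmin i' (Finset.mem_filter.2 ⟨Finset.mem_univ _, h1, h2.trans hi2⟩)⟩, hi2⟩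
      · rintro ⟨i, hi, rfl⟩
        exact ⟨i, ⟨i.2, hi.1⟩, rfl⟩
    have h2 : Set.InjOn (fun i : W => (i : Γ) • t)
        (Finset.univ.filter (fun i : W => q i t) : Finset W) := by
      intro i hi i' hi' hii
      have hi := (Finset.mem_filter.1 hi).2
      have hi' := (Finset.mem_filter.1 hi').2
      exact e.injective (le_antisymm (hi.2 i' hi'.1 hii.symm) (hi'.2 i hi.1 hii))
    rw [h1, pot_image _ _ h2, ← psi0_gauge (fun i : W => u i t) (fun i => hu i t)
      (fun i i' : W => Yt i i' t)]
    congr 1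
    · funext i i'
      exact hY i i' t
    · funext i k
      simp only [Finset.mem_filter, Finset.mem_univ, true_and]
  rw [e2]
  exact measurable_psi0 _ _ _ (fun i i' => hYt i i') (fun i => hη i)
    (fun i k => Measurable.ite (hqm i) (hθ i k) measurable_const)

end GraphData

/-- telescoping along a linear order -/
theorem sum_telescope {X β : Type*} [LinearOrder β] (key : X → β) (Λ : Finset X)
    (hkey : Set.InjOn key Λ) (F : Finset X → ℝ) :
    ∑ o ∈ Λ, (F (Λ.filter (fun s => key s ≤ key o)) -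
      F ((Λ.filter (fun s => key s ≤ key o)).erase o)) = F Λ - F ∅ := by
  induction Λ using Finset.induction_on_max_value key with
  | empty => simp
  | insert a s ha hmax ih =>
    have h1 : (insert a s).filter (fun x => key x ≤ key a) = insert a s :=
      Finset.filter_true_of_mem fun x hx => by
        rcases Finset.mem_insert.1 hx with rfl | hx
        · exact le_rfl
        · exact hmax x hx
    have h2 : ∀ o ∈ s, (insert a s).filter (fun x => key x ≤ key o) =
        s.filter (fun x => key x ≤ key o) := by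
      intro o ho
      rw [Finset.filter_insert, if_neg]
      intro hle
      have : a = o := hkey (Finset.mem_coe.2 (Finset.mem_insert_self a s))
        (Finset.mem_coe.2 (Finset.mem_insert_of_mem ho)) (le_antisymm hle (hmax o ho))
      exact ha (this ▸ ho)
    rw [Finset.sum_insert ha, h1, Finset.erase_insert ha,
      Finset.sum_congr rfl fun o ho => by rw [h2 o ho],
      ih (hkey.mono (Finset.coe_subset.2 (Finset.subset_insert a s)))]
    ring

end

end Crest.Agent.R109
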