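import Crest.Agent.R109.Defs

/-!
# Row 109: weak limits, von Neumann algebras, spectral cuts
-/

open Filter Topology
open scoped InnerProductSpace BigOperators ComplexOrder

set_option linter.unusedSectionVars false

namespace Crest.Agent.R109

noncomputable section

open Classical

variable {H : Type*} [NormedAddCommGroup H] [InnerProductSpace ℂ H] [CompleteSpace H]
  {X : Type*} [TopologicalSpace X] [CompactSpace X] [T2Space X] [ExtremallyDisconnected X]

theorem VN_mem_of_commute {M : VonNeumannAlgebra H} {a : H →L[ℂ] H}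
    (h : ∀ s ∈ M.commutant, s * a = a * s) : a ∈ M := by
  rw [← M.commutant_commutant, VonNeumannAlgebra.mem_commutant_iff]
  exact h

theorem VN_commute {M : VonNeumannAlgebra H} {a s : H →L[ℂ] H} (ha : a ∈ M)
    (hs : s ∈ M.commutant) : s * a = a * s :=
  (VonNeumannAlgebra.mem_commutant_iff.1 hs a ha).symm

theorem VN_inner_star (a : H →L[ℂ] H) (η ζ : H) : ⟪η, star a ζ⟫_ℂ = ⟪a η, ζ⟫_ℂ :=
  ContinuousLinearMap.adjoint_inner_right a η ζ

theorem VN_star_inner (a : H →L[ℂ] H) (η ζ : H) : ⟪star a η, ζ⟫_ℂ = ⟪η, a ζ⟫_ℂ :=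
  ContinuousLinearMap.adjoint_inner_left a ζ η

theorem VN_re_nonneg {a : H →L[ℂ] H} (ha : 0 ≤ a) (η : H) : 0 ≤ (⟪η, a η⟫_ℂ).re :=
  ((ContinuousLinearMap.nonneg_iff_isPositive a).1 ha).re_inner_nonneg_right η

theorem VN_re_self (η : H) : (⟪η, η⟫_ℂ).re = ‖η‖ ^ 2 := inner_self_eq_norm_sq (𝕜 := ℂ) η

section WL
variable {ι : Type*} {U : Filter ι} {T T' : ι → H →L[ℂ] H} {L L' : H →L[ℂ] H}

theorem WL.unique [U.NeBot] (h : WL U T L) (h' : WL U T L') : L = L' := by
  ext ζ
  exact ext_inner_left ℂ fun η => tendsto_nhds_unique (h η ζ) (h' η ζ)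

/-- Recipe: compactness of closed discs gives the limit form; `InnerProductSpace.continuousLinearMapOfBilin`
or Riesz (`InnerProductSpace.toDual`); compare `Crest.Agent.R124.Ultra_exists_lim` (copy, do not
import). -/
theorem exists_WL (U : Ultrafilter ι) (T : ι → H →L[ℂ] H) {C : ℝ} (hT : ∀ i, ‖T i‖ ≤ C) :
    ∃ L, WL U T L := by
  have hex : ∀ x y : H, ∃ b : ℂ, ‖b‖ ≤ C * ‖x‖ * ‖y‖ ∧
      Tendsto (fun i => ⟪T i x, y⟫_ℂ) U (𝓝 b) := by
    intro x y
    have hc : IsCompact (Metric.closedBall (0 : ℂ) (C * ‖x‖ * ‖y‖)) := isCompact_closedBall _ _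
    have hle : (U.map fun i => ⟪T i x, y⟫_ℂ : Filter ℂ) ≤
        𝓟 (Metric.closedBall (0 : ℂ) (C * ‖x‖ * ‖y‖)) := by
      rw [le_principal_iff, Ultrafilter.mem_coe, Ultrafilter.mem_map]
      refine univ_mem' fun i => ?_
      simp only [Set.mem_preimage, mem_closedBall_zero_iff]
      refine (norm_inner_le_norm _ _).trans ?_
      gcongr
      exact ((T i).le_opNorm x).trans (by gcongr; exact hT i)
    obtain ⟨b, hb, hb'⟩ := hc.ultrafilter_le_nhds _ hle
    exact ⟨b, mem_closedBall_zero_iff.1 hb, hb'⟩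
  choose B hB hlim using hex
  let B₂ : H →ₛₗ[starRingEnd ℂ] H →ₗ[ℂ] ℂ := LinearMap.mk₂'ₛₗ (starRingEnd ℂ) (RingHom.id ℂ) B
    (fun x x' y => tendsto_nhds_unique (hlim _ _) (by
      simpa [inner_add_left] using (hlim x y).add (hlim x' y)))
    (fun c x y => tendsto_nhds_unique (hlim _ _) (by
      simpa only [map_smul, inner_smul_left, smul_eq_mul] using
        (hlim x y).const_mul ((starRingEnd ℂ) c)))
    (fun x y y' => tendsto_nhds_unique (hlim _ _) (by
      simpa [inner_add_right] using (hlim x y).add (hlim x y')))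
    (fun c x y => tendsto_nhds_unique (hlim _ _) (by
      simpa [inner_smul_right] using (hlim x y).const_mul c))
  refine ⟨InnerProductSpace.continuousLinearMapOfBilin (B₂.mkContinuous₂ C hB), fun η ζ => ?_⟩
  have h : Tendsto (fun i => ⟪T i ζ, η⟫_ℂ) U
      (𝓝 ⟪InnerProductSpace.continuousLinearMapOfBilin (B₂.mkContinuous₂ C hB) ζ, η⟫_ℂ) := by
    rw [InnerProductSpace.continuousLinearMapOfBilin_apply]
    exact hlim ζ η
  have h2 := (Complex.continuous_conj.tendsto _).comp h
  simpa only [Function.comp_def, inner_conj_symm] using h2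

theorem WL_wlim (U : Ultrafilter ι) (T : ι → H →L[ℂ] H) {C : ℝ} (hT : ∀ i, ‖T i‖ ≤ C) :
    WL U T (wlim U T) :=
  Classical.epsilon_spec (exists_WL U T hT)

theorem WL.norm_apply_le [U.NeBot] (h : WL U T L) {η : H} {C : ℝ}
    (hT : ∀ᶠ i in U, ‖T i η‖ ≤ C) : ‖L η‖ ≤ C := by
  have hC : 0 ≤ C := by
    obtain ⟨i, hi⟩ := hT.exists
    exact (norm_nonneg _).trans hi
  have h1 : ‖⟪L η, L η⟫_ℂ‖ ≤ ‖L η‖ * C := by
    refine le_of_tendsto (h (L η) η).norm (hT.mono fun i hi => ?_)
    exact (norm_inner_le_norm _ _).trans (by gcongr)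
  rw [inner_self_eq_norm_sq_to_K, norm_pow, RCLike.norm_ofReal, abs_norm, sq] at h1
  rcases (norm_nonneg (L η)).eq_or_lt with h0 | h0
  · rw [← h0]; exact hC
  · exact le_of_mul_le_mul_left h1 h0

theorem WL.norm_le [U.NeBot] (h : WL U T L) {C : ℝ} (hT : ∀ᶠ i in U, ‖T i‖ ≤ C) : ‖L‖ ≤ C := by
  have hC : 0 ≤ C := by
    obtain ⟨i, hi⟩ := hT.exists
    exact (norm_nonneg _).trans hi
  refine L.opNorm_le_bound hC fun η => h.norm_apply_le (hT.mono fun i hi => ?_)
  exact ((T i).le_opNorm η).trans (by gcongr)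

theorem WL.const (L : H →L[ℂ] H) : WL U (fun _ => L) L :=
  fun _ _ => tendsto_const_nhds

theorem WL.congr (h : WL U T L) (hT : ∀ᶠ i in U, T i = T' i) : WL U T' L :=
  fun η ζ => (h η ζ).congr' (hT.mono fun i hi => by simp only [hi])

theorem WL.add (h : WL U T L) (h' : WL U T' L') : WL U (fun i => T i + T' i) (L + L') := by
  intro η ζ
  simpa only [add_apply, inner_add_right] using (h η ζ).add (h' η ζ)

theorem WL.sub (h : WL U T L) (h' : WL U T' L') : WL U (fun i => T i - T' i) (L - L') := by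
  intro η ζ
  simpa only [sub_apply, inner_sub_right] using (h η ζ).sub (h' η ζ)

theorem WL.smul (h : WL U T L) (c : ℂ) : WL U (fun i => c • T i) (c • L) := by
  intro η ζ
  simpa only [smul_apply, inner_smul_right] using (h η ζ).const_mul c

theorem WL.mul_left (h : WL U T L) (a : H →L[ℂ] H) : WL U (fun i => a * T i) (a * L) := by
  intro η ζ
  simpa only [mul_apply_eq_comp, VN_star_inner] using h (star a η) ζ

theorem WL.mul_right (h : WL U T L) (a : H →L[ℂ] H) : WL U (fun i => T i * a) (L * a) :=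
  fun η ζ => h η (a ζ)

theorem WL.star_lim (h : WL U T L) : WL U (fun i => star (T i)) (star L) := by
  intro η ζ
  have h2 := (Complex.continuous_conj.tendsto _).comp (h ζ η)
  simpa only [Function.comp_def, inner_conj_symm, VN_inner_star] using h2

theorem WL.mul_eq [U.NeBot] (h : WL U T L) {a b : H →L[ℂ] H}
    (hT : ∀ᶠ i in U, a * T i = T i * b) : a * L = L * b :=
  ((h.mul_left a).congr hT).unique (h.mul_right b)

theorem WL.nonneg [U.NeBot] (h : WL U T L) (hT : ∀ᶠ i in U, 0 ≤ T i) : 0 ≤ L := by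
  rw [ContinuousLinearMap.nonneg_iff_isPositive, ContinuousLinearMap.isPositive_iff_complex]
  intro η
  have h1 : 0 ≤ ⟪η, L η⟫_ℂ := ge_of_tendsto (h η η) (hT.mono fun i hi =>
    ((ContinuousLinearMap.nonneg_iff_isPositive _).1 hi).inner_nonneg_right η)
  rw [← inner_conj_symm]
  obtain ⟨h2, h3⟩ := Complex.nonneg_iff.1 h1
  refine ⟨Complex.ext (by simp) ?_, by rw [RCLike.conj_re]; exact h2⟩
  rw [Complex.conj_im, ← h3]
  simp

theorem WL.mem [U.NeBot] (h : WL U T L) {M : VonNeumannAlgebra H} (hT : ∀ᶠ i in U, T i ∈ M) :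
    L ∈ M :=
  VN_mem_of_commute fun _ hs => h.mul_eq (hT.mono fun _ hi => VN_commute hi hs)

theorem WL.apply_mem [U.NeBot] (h : WL U T L) {K : Submodule ℂ H} (hK : IsClosed (K : Set H))
    {η : H} (hT : ∀ᶠ i in U, T i η ∈ K) : L η ∈ K := by
  have : CompleteSpace K := hK.completeSpace_coe
  rw [← K.orthogonal_orthogonal, Submodule.mem_orthogonal]
  intro ζ hζ
  refine tendsto_nhds_unique (h ζ η) (tendsto_const_nhds.congr' (hT.mono fun i hi => ?_))
  exact (Submodule.inner_left_of_mem_orthogonal hi hζ).symm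

end WL

section VN
variable {M : VonNeumannAlgebra H}

theorem vn_smul_mem (c : ℂ) {a : H →L[ℂ] H} (ha : a ∈ M) : c • a ∈ M :=
  SMulMemClass.smul_mem (s := M.toStarSubalgebra) c ha

theorem vn_mem_of_commute {a : H →L[ℂ] H} (h : ∀ s ∈ M.commutant, s * a = a * s) : a ∈ M :=
  VN_mem_of_commute h

theorem vn_commute {a s : H →L[ℂ] H} (ha : a ∈ M) (hs : s ∈ M.commutant) : s * a = a * s :=
  VN_commute ha hs

theorem vn_isClosed (M : VonNeumannAlgebra H) : IsClosed (M : Set (H →L[ℂ] H)) := by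
  rw [← M.centralizer_centralizer]
  exact Set.isClosed_centralizer _

theorem vn_cfc_mem {a : H →L[ℂ] H} (ha : a ∈ M) (f : ℝ → ℝ) : cfc f a ∈ M :=
  vn_mem_of_commute fun _ hs => (Commute.cfc_real (vn_commute ha hs).symm f).symm

theorem commute_starProjection (K : Submodule ℂ H) [K.HasOrthogonalProjection] {a : H →L[ℂ] H}
    (h : ∀ η ∈ K, a η ∈ K) (h' : ∀ η ∈ K, star a η ∈ K) :
    a * K.starProjection = K.starProjection * a := by
  ext η
  symm
  refine Submodule.eq_starProjection_of_mem_orthogonal (h _ (K.starProjection_apply_mem η)) ?_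
  show a η - a (K.starProjection η) ∈ Kᗮ
  rw [← map_sub, Submodule.mem_orthogonal]
  intro ζ hζ
  rw [← VN_star_inner]
  exact Submodule.inner_right_of_mem_orthogonal (h' ζ hζ) (K.sub_starProjection_mem_orthogonal η)

theorem apply_mem_closure_span {K : Submodule ℂ H} (hK : IsClosed (K : Set H))
    {H' : Type*} [NormedAddCommGroup H'] [InnerProductSpace ℂ H'] {s' : Set H'} (a : H' →L[ℂ] H)
    (h : ∀ η ∈ s', a η ∈ K) : ∀ η ∈ (Submodule.span ℂ s').topologicalClosure, a η ∈ K := by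
  have h1 : (Submodule.span ℂ s').topologicalClosure ≤ K.comap (a : H' →ₗ[ℂ] H) :=
    Submodule.topologicalClosure_minimal _ (Submodule.span_le.2 h) (hK.preimage a.continuous)
  exact fun η hη => h1 hη

/-- the projection onto the kernel of `c` -/
theorem VN_ker_proj (c : H →L[ℂ] H) : ∃ p : H →L[ℂ] H, IsStarProjection p ∧ c * p = 0 ∧
    (∀ y, c * y = 0 → p * y = y) ∧
    ∀ y, y * c = c * y → star y * c = c * star y → y * p = p * y := by
  have : CompleteSpace c.ker := c.isClosed_ker.completeSpace_coe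
  have key : ∀ y : H →L[ℂ] H, y * c = c * y → ∀ η ∈ c.ker, y η ∈ c.ker := by
    intro y hy η hη
    have h1 : c η = 0 := hη
    have h2 : c (y η) = y (c η) := (DFunLike.congr_fun hy η).symm
    show c (y η) = 0
    rw [h2, h1, map_zero]
  refine ⟨c.ker.starProjection, isStarProjection_starProjection, ?_, fun y hy => ?_,
    fun y hy hy' => commute_starProjection _ (key y hy) (key _ hy')⟩
  · ext η
    exact c.ker.starProjection_apply_mem η
  · ext η
    exact Submodule.starProjection_eq_self_iff.2 (DFunLike.congr_fun hy η)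

/-- Spectral cut: `r` is the projection onto the closed range of `(T - s)₊`.  Recipe: `c = cfc (fun t => max (t - s) 0) T`;
`c = T * cfc g T` with `g t = max (t - s) 0 / max t s`; `c (T - s) c ≥ 0` gives the lower bound on
the range; on the kernel of `c`, `T - s = c - (T - s)₋ ≤ 0`. -/
theorem exists_cut {T : H →L[ℂ] H} (hT : 0 ≤ T) {s : ℝ} (hs : 0 < s) :
    ∃ r : H →L[ℂ] H, IsStarProjection r ∧ (∀ y, y * T = T * y → y * r = r * y) ∧
      (∀ y, y * T = 0 → y * r = 0) ∧
      (∀ η, s * ‖r η‖ ^ 2 ≤ (⟪r η, T (r η)⟫_ℂ).re) ∧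
      (∀ η, s * ‖r η‖ ^ 2 ≤ (⟪η, T η⟫_ℂ).re) ∧
      ∀ η, (⟪(1 - r) η, T ((1 - r) η)⟫_ℂ).re ≤ s * ‖(1 - r) η‖ ^ 2 := by
  have hsa : IsSelfAdjoint T := IsSelfAdjoint.of_nonneg hT
  set c := cfc (fun t : ℝ => max (t - s) 0) T with hc
  set d := cfc (fun t : ℝ => max (s - t) 0) T with hd
  have hc0 : 0 ≤ c := cfc_nonneg fun _ _ => le_max_right _ _
  have hd0 : 0 ≤ d := cfc_nonneg fun _ _ => le_max_right _ _
  have hcs : IsSelfAdjoint c := IsSelfAdjoint.of_nonneg hc0
  have hds : IsSelfAdjoint d := IsSelfAdjoint.of_nonneg hd0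
  have hcd : c * d = 0 := by
    rw [hc, hd, ← cfc_mul _ _ T]
    have : (fun t : ℝ => max (t - s) 0 * max (s - t) 0) = fun _ => 0 := by
      funext t
      rcases le_total t s with h | h
      · rw [max_eq_right (by linarith), zero_mul]
      · rw [max_eq_right (a := s - t) (by linarith), mul_zero]
    rw [this, cfc_const_zero]
  have hsub : T = c - d + algebraMap ℝ _ s := by
    rw [hc, hd, ← cfc_sub _ _ T, ← cfc_const s T, ← cfc_add T _ _]
    have : (fun t : ℝ => max (t - s) 0 - max (s - t) 0 + s) = fun t => t := by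
      funext t
      rcases le_total t s with h | h
      · rw [max_eq_right (by linarith), max_eq_left (by linarith)]; ring
      · rw [max_eq_left (by linarith), max_eq_right (by linarith)]; ring
    rw [this, cfc_id' ℝ T]
  have hform : ∀ η, (⟪η, T η⟫_ℂ).re = (⟪η, c η⟫_ℂ).re - (⟪η, d η⟫_ℂ).re + s * ‖η‖ ^ 2 := by
    intro η
    have : T η = c η - d η + (s : ℂ) • η := by
      conv_lhs => rw [hsub]
      simp [Algebra.algebraMap_eq_smul_one]
    rw [this, inner_add_right, inner_sub_right, inner_smul_right, Complex.add_re, Complex.sub_re,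
      Complex.re_ofReal_mul, VN_re_self]
  have hg : ∃ g, c = T * g := by
    have hcont : Continuous fun t : ℝ => max (t - s) 0 / max t s :=
      Continuous.div (by fun_prop) (by fun_prop)
        fun t => (lt_of_lt_of_le hs (le_max_right _ _)).ne'
    refine ⟨cfc (fun t : ℝ => max (t - s) 0 / max t s) T, ?_⟩
    conv_rhs => enter [1]; rw [← cfc_id' ℝ T]
    rw [← cfc_mul _ _ T (by fun_prop) hcont.continuousOn, hc]
    congr 1
    funext t
    rcases le_total t s with h | h
    · rw [max_eq_right (by linarith)]; simp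
    · rw [max_eq_left h]
      have : t ≠ 0 := (lt_of_lt_of_le hs h).ne'
      field_simp
  obtain ⟨g, hg⟩ := hg
  obtain ⟨p, hp, hcp, hker, hcomm⟩ := VN_ker_proj c
  have hcom : ∀ y, y * T = T * y → y * p = p * y := by
    intro y hy
    have hy' : star y * T = T * star y := by
      have := congrArg star hy
      rw [star_mul, star_mul, hsa.star_eq] at this
      exact this.symm
    exact hcomm y (Commute.cfc_real (Commute.symm hy) _).symm
      (Commute.cfc_real (Commute.symm hy') _).symm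
  have hkill : ∀ y, y * c = 0 → y * (1 - p) = 0 := by
    intro y hy
    have h1 : c * star y = 0 := by
      have := congrArg star hy
      rwa [star_mul, hcs.star_eq, star_zero] at this
    have h2 := congrArg star (hker _ h1)
    rw [star_mul, star_star, hp.isSelfAdjoint.star_eq] at h2
    rw [mul_sub, mul_one, h2, sub_self]
  have hdc : d * c = 0 := by
    have := congrArg star hcd
    rwa [star_mul, hcs.star_eq, hds.star_eq, star_zero] at this
  have h3 : ∀ η, s * ‖(1 - p) η‖ ^ 2 ≤ (⟪(1 - p) η, T ((1 - p) η)⟫_ℂ).re := by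
    intro η
    have e : d ((1 - p) η) = 0 := DFunLike.congr_fun (hkill d hdc) η
    rw [hform, e, inner_zero_right]
    have := VN_re_nonneg hc0 ((1 - p) η)
    simp only [Complex.zero_re]
    linarith
  refine ⟨1 - p, hp.one_sub, fun y hy => ?_, fun y hy => hkill y ?_, h3, fun η => ?_, fun η => ?_⟩
  · rw [mul_sub, sub_mul, mul_one, one_mul, hcom y hy]
  · rw [hg, ← mul_assoc, hy, zero_mul]
  · refine (h3 η).trans ?_
    have hTp := hcom T rfl
    have hpp : p * p = p := hp.isIdempotentElem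
    have e : T = star (1 - p) * T * (1 - p) + star p * T * p := by
      rw [hp.one_sub.isSelfAdjoint.star_eq, hp.isSelfAdjoint.star_eq]
      have e1 : p * T * p = p * T := by rw [mul_assoc, hTp, ← mul_assoc, hpp]
      simp only [sub_mul, mul_sub, one_mul, mul_one, e1, hTp]
      abel
    have e2 : ⟪η, T η⟫_ℂ = ⟪(1 - p) η, T ((1 - p) η)⟫_ℂ + ⟪p η, T (p η)⟫_ℂ := by
      conv_lhs => rw [e]
      rw [add_apply, inner_add_right, ← VN_inner_star, ← VN_inner_star]
      rfl
    rw [e2, Complex.add_re]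
    have := VN_re_nonneg hT (p η)
    linarith
  · rw [sub_sub_cancel]
    have e : c (p η) = 0 := DFunLike.congr_fun hcp η
    rw [hform, e, inner_zero_right]
    have := VN_re_nonneg hd0 (p η)
    simp only [Complex.zero_re]
    linarith

theorem norm_apply_sq_eq (a : H →L[ℂ] H) (η : H) : ‖a η‖ ^ 2 = (⟪η, (star a * a) η⟫_ℂ).re := by
  rw [mul_apply_eq_comp, VN_inner_star, VN_re_self]

theorem IsStarProjection.norm_apply_sq {p : H →L[ℂ] H} (hp : IsStarProjection p) (η : H) :
    ‖p η‖ ^ 2 = (⟪η, p η⟫_ℂ).re := by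
  rw [norm_apply_sq_eq, hp.isSelfAdjoint.star_eq, hp.isIdempotentElem.eq]

theorem VN_proj_le {p : H →L[ℂ] H} (hp : IsStarProjection p) (η : H) : ‖p η‖ ≤ ‖η‖ := by
  have h := p.le_opNorm η
  have h2 := hp.norm_le
  nlinarith [norm_nonneg η]

/-- Spectral cut of a selfadjoint element at the level `t` (`exists_cut` for `z * z`). -/
theorem exists_cut_sa {z : H →L[ℂ] H} (hz : IsSelfAdjoint z) {t : ℝ} (ht : 0 < t) :
    ∃ r : H →L[ℂ] H, IsStarProjection r ∧ (∀ y, y * z = z * y → y * r = r * y) ∧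
      (∀ y, y * z = 0 → y * r = 0) ∧ ‖z * (1 - r)‖ ≤ t ∧
      ∀ (n : ℕ) η, t ^ n * ‖r η‖ ≤ ‖(z ^ n) η‖ := by
  obtain ⟨r, hr, h1, h2, h3, -, h5⟩ := exists_cut (star_mul_self_nonneg z) (pow_pos ht 2)
  simp only [← norm_apply_sq_eq] at h3 h5
  rw [hz.star_eq] at h1 h2
  have hc : ∀ y, y * z = z * y → y * r = r * y := fun y hy =>
    h1 y (by rw [← mul_assoc, hy, mul_assoc, hy, mul_assoc])
  refine ⟨r, hr, hc, fun y hy => h2 y (by rw [← mul_assoc, hy, zero_mul]), ?_, fun n η => ?_⟩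
  · refine ContinuousLinearMap.opNorm_le_bound _ ht.le fun η => ?_
    have h6 : ‖z ((1 - r) η)‖ ≤ t * ‖(1 - r) η‖ :=
      abs_le_of_sq_le_sq' (by rw [mul_pow]; exact h5 η) (by positivity) |>.2
    exact h6.trans (mul_le_mul_of_nonneg_left (VN_proj_le hr.one_sub η) ht.le)
  · have h6 : ∀ ζ, t * ‖r ζ‖ ≤ ‖r (z ζ)‖ := by
      intro ζ
      have e : r (z ζ) = z (r ζ) := (DFunLike.congr_fun (hc z rfl) ζ).symm
      rw [e]
      exact abs_le_of_sq_le_sq' (by rw [mul_pow]; exact h3 ζ) (by positivity) |>.2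
    refine le_trans ?_ (VN_proj_le hr _)
    induction n with
    | zero => simp
    | succ n ih =>
      rw [pow_succ', pow_succ', mul_assoc, mul_apply_eq_comp]
      exact (mul_le_mul_of_nonneg_left ih ht.le).trans (h6 _)

/-- the norm of a sum of operators living in orthogonal corners -/
theorem norm_add_le_max {e f a b : H →L[ℂ] H} (he : IsStarProjection e) (hf : IsStarProjection f)
    (hef : e * f = 0) (ha : e * a * e = a) (hb : f * b * f = b) : ‖a + b‖ ≤ max ‖a‖ ‖b‖ := by
  have h0 : 0 ≤ max ‖a‖ ‖b‖ := le_max_of_le_left (norm_nonneg _)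
  have horth : ∀ η ζ, ‖e η + f ζ‖ ^ 2 = ‖e η‖ ^ 2 + ‖f ζ‖ ^ 2 := by
    intro η ζ
    have : ⟪e η, f ζ⟫_ℂ = 0 := by
      rw [← VN_inner_star, he.isSelfAdjoint.star_eq, ← mul_apply_eq_comp, hef]
      simp
    rw [sq, sq, sq]
    exact norm_add_sq_eq_norm_sq_add_norm_sq_of_inner_eq_zero _ _ this
  have hcut : ∀ {e a : H →L[ℂ] H}, IsStarProjection e → e * a * e = a →
      ∀ η, e (a η) = a η ∧ a (e η) = a η := by
    intro e a he ha η
    have hee : e * e = e := he.isIdempotentElem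
    have h1 : e * a = a := by rw [← ha, ← mul_assoc, ← mul_assoc, hee]
    have h2 : a * e = a := by rw [← ha, mul_assoc, hee]
    exact ⟨DFunLike.congr_fun h1 η, DFunLike.congr_fun h2 η⟩
  refine ContinuousLinearMap.opNorm_le_bound _ h0 fun η => ?_
  refine (abs_le_of_sq_le_sq' ?_ (by positivity)).2
  have h1 : ‖a η‖ ≤ max ‖a‖ ‖b‖ * ‖e η‖ := by
    rw [← (hcut he ha η).2]
    exact (a.le_opNorm _).trans (by gcongr; exact le_max_left _ _)
  have h2 : ‖b η‖ ≤ max ‖a‖ ‖b‖ * ‖f η‖ := by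
    rw [← (hcut hf hb η).2]
    exact (b.le_opNorm _).trans (by gcongr; exact le_max_right _ _)
  have h3 : ‖e η + f η‖ ≤ ‖η‖ := VN_proj_le (he.add hf hef) η
  have h4 := horth (a η) (b η)
  rw [(hcut he ha η).1, (hcut hf hb η).1] at h4
  rw [add_apply, h4]
  calc ‖a η‖ ^ 2 + ‖b η‖ ^ 2 ≤ (max ‖a‖ ‖b‖ * ‖e η‖) ^ 2 + (max ‖a‖ ‖b‖ * ‖f η‖) ^ 2 := by gcongr
    _ = (max ‖a‖ ‖b‖ * ‖e η + f η‖) ^ 2 := by rw [mul_pow, mul_pow, mul_pow, horth]; ring
    _ ≤ _ := by gcongr

theorem sum_sign_mul {ι : Type*} [Fintype ι] (i j : ι) :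
    ∑ ε : ι → Bool, (if ε i then (1 : ℂ) else -1) * (if ε j then (1 : ℂ) else -1) =
      if i = j then 2 ^ Fintype.card ι else 0 := by
  split_ifs with h
  · subst h
    rw [Finset.sum_congr rfl (g := fun _ => (1 : ℂ)) fun ε _ => by split_ifs <;> simp]
    simp
  · refine Finset.sum_involution (fun ε _ => Function.update ε i (!ε i)) (fun ε _ => ?_)
      (fun ε _ _ e => ?_) (fun _ _ => Finset.mem_univ _) (fun ε _ => ?_)
    · rw [Function.update_self, Function.update_of_ne (Ne.symm h)]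
      cases ε i <;> cases ε j <;> simp
    · have := congrFun e i
      simp at this
    · simp

/-- averaging over signs: orthogonality of the coordinates -/
theorem sum_sign_norm_sq {ι V : Type*} [Fintype ι] [SeminormedAddCommGroup V]
    [InnerProductSpace ℂ V] (v : ι → V) :
    ∑ ε : ι → Bool, ‖∑ i, (if ε i then (1 : ℂ) else -1) • v i‖ ^ 2 =
      2 ^ Fintype.card ι * ∑ i, ‖v i‖ ^ 2 := by
  have h0 : ∀ x : V, ⟪x, x⟫_ℂ = ((‖x‖ ^ 2 : ℝ) : ℂ) := fun x => by
    rw [inner_self_eq_norm_sq_to_K, Complex.ofReal_pow]; rfl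
  have h1 : ∀ ε : ι → Bool, ((‖∑ i, (if ε i then (1 : ℂ) else -1) • v i‖ ^ 2 : ℝ) : ℂ) =
      ∑ i, ∑ j, (if ε i then (1 : ℂ) else -1) * (if ε j then (1 : ℂ) else -1) * ⟪v i, v j⟫_ℂ := by
    intro ε
    rw [← h0, sum_inner]
    refine Finset.sum_congr rfl fun i _ => ?_
    rw [inner_sum]
    refine Finset.sum_congr rfl fun j _ => ?_
    rw [inner_smul_left, inner_smul_right, mul_assoc]
    congr 1
    split_ifs <;> simp
  apply Complex.ofReal_injective
  rw [Complex.ofReal_sum, Finset.sum_congr rfl fun ε _ => h1 ε, Finset.sum_comm]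
  push_cast
  rw [Finset.mul_sum]
  refine Finset.sum_congr rfl fun i _ => ?_
  rw [Finset.sum_comm]
  simp only [← Finset.sum_mul, sum_sign_mul]
  simp only [ite_mul, zero_mul, Finset.sum_ite_eq, Finset.mem_univ, if_true]
  rw [h0, Complex.ofReal_pow]

theorem seg_add {R : Type*} [Monoid R] (y a : ℕ → R) (s n m : ℕ) :
    seg y a s (n + m) = seg y a s n * seg y a (s + n) m := by
  induction m with
  | zero => simp [seg]
  | succ m ih =>
    rw [← add_assoc, seg, seg, ih]
    simp only [mul_assoc, add_assoc]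

theorem seg_congr {R : Type*} [Monoid R] {y y' a a' : ℕ → R} {s n : ℕ}
    (ha : ∀ i, s ≤ i → i < s + n → a i = a' i) (hy : ∀ i, s < i → i ≤ s + n → y i = y' i) :
    seg y a s n = seg y' a' s n := by
  induction n with
  | zero => rfl
  | succ n ih =>
    rw [seg, seg, ih (fun i h1 h2 => ha i h1 (by omega)) (fun i h1 h2 => hy i h1 (by omega)),
      ha (s + n) (by omega) (by omega), hy (s + n + 1) (by omega) (by omega)]

end VN

end

end Crest.Agent.R109
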