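import Crest.Agent.R109.VN

/-!
# Row 109: sign twists, Möbius inversion, abstract Fock estimate
-/

open Filter Topology
open scoped InnerProductSpace BigOperators ComplexOrder

set_option linter.unusedSectionVars false

namespace Crest.Agent.R109

noncomputable section

open Classical

variable {H : Type*} [NormedAddCommGroup H] [InnerProductSpace ℂ H] [CompleteSpace H]
  {X : Type*} [TopologicalSpace X] [CompactSpace X] [T2Space X] [ExtremallyDisconnected X]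

/-- all twists of `Θ` have a small sum -/
def Vanish1Good {σ β : Type*} [Fintype σ] [Fintype β] (c : ℝ) (Θ : (σ → β) → ℂ) : Prop :=
  ∀ d : σ → β → ℂ, (∀ s b, ‖d s b‖ ≤ 1) → ‖∑ J : σ → β, (∏ s, d s (J s)) * Θ J‖ ≤ c

theorem Vanish1Good.twist {σ β : Type*} [Fintype σ] [Fintype β] {c : ℝ} {Θ : (σ → β) → ℂ}
    (h : Vanish1Good c Θ) (s : σ) (e : β → ℂ) (he : ∀ b, ‖e b‖ ≤ 1) :
    Vanish1Good c fun J => e (J s) * Θ J := by
  intro d hd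
  have := h (fun s' b => d s' b * if s' = s then e b else 1) (fun s' b => by
    rw [norm_mul]
    refine mul_le_one₀ (hd s' b) (norm_nonneg _) ?_
    split_ifs
    · exact he b
    · simp)
  convert this using 3 with J _
  rw [Finset.prod_mul_distrib, Finset.prod_ite_eq' Finset.univ s (fun s' => e (J s'))]
  simp [mul_assoc]

theorem Vanish1Good.constr {σ β : Type*} [Fintype σ] [Fintype β] {c : ℝ} {Θ : (σ → β) → ℂ}
    (h : Vanish1Good c Θ) (s s' : σ) :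
    Vanish1Good c fun J => if J s = J s' then Θ J else 0 := by
  intro d hd
  have hsign : ∀ (ε : β → Bool) (b : β), ‖(if ε b then (1 : ℂ) else -1)‖ ≤ 1 := by
    intro ε b; split_ifs <;> simp
  have h2 : ∀ ε : β → Bool, ‖∑ J : σ → β, (∏ s, d s (J s)) *
      ((if ε (J s) then (1 : ℂ) else -1) * ((if ε (J s') then (1 : ℂ) else -1) * Θ J))‖ ≤ c :=
    fun ε => ((h.twist s' (fun b => if ε b then (1 : ℂ) else -1) (hsign ε)).twist s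
      (fun b => if ε b then (1 : ℂ) else -1) (hsign ε)) d hd
  have h3 : (2 : ℂ) ^ Fintype.card β * ∑ J : σ → β, (∏ s, d s (J s)) *
      (if J s = J s' then Θ J else 0) = ∑ ε : β → Bool, ∑ J : σ → β, (∏ s, d s (J s)) *
      ((if ε (J s) then (1 : ℂ) else -1) * ((if ε (J s') then (1 : ℂ) else -1) * Θ J)) := by
    rw [Finset.sum_comm, Finset.mul_sum]
    refine Finset.sum_congr rfl fun J _ => ?_
    rw [← Finset.mul_sum]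
    simp_rw [← mul_assoc _ _ (Θ J)]
    rw [← Finset.sum_mul, sum_sign_mul]
    split_ifs <;> ring
  have h4 : (2 : ℝ) ^ Fintype.card β * ‖∑ J : σ → β, (∏ s, d s (J s)) *
      (if J s = J s' then Θ J else 0)‖ ≤ 2 ^ Fintype.card β * c := by
    have h5 := congrArg norm h3
    rw [norm_mul, norm_pow, Complex.norm_two] at h5
    rw [h5]
    refine (norm_sum_le _ _).trans ((Finset.sum_le_sum fun ε _ => h2 ε).trans (le_of_eq ?_))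
    simp
  exact le_of_mul_le_mul_left h4 (by positivity)

theorem Vanish1Good.constrs {σ β : Type*} [Fintype σ] [Fintype β] {c : ℝ} {Θ : (σ → β) → ℂ}
    (h : Vanish1Good c Θ) (R : Finset (σ × σ)) :
    Vanish1Good c fun J => if ∀ x ∈ R, J x.1 = J x.2 then Θ J else 0 := by
  induction R using Finset.induction_on with
  | empty => simpa using h
  | insert x R _ ih =>
    convert ih.constr x.1 x.2 using 2 with J
    simp only [Finset.forall_mem_insert]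
    by_cases h1 : J x.1 = J x.2 <;> simp [h1]

/-- Coincidence constraints are averages of sign twists.  Recipe: induction on `R`;
`1[J s = J s'] = 2^{-card β} ∑_ε ε (J s) ε (J s')` (`sum_sign_mul`); absorb the two factors in `d`
(update `d` at `s`, then at `s'`). -/
theorem norm_sum_constraint_le {σ β : Type*} [Fintype σ] [Fintype β] (Θ : (σ → β) → ℂ) {c : ℝ}
    (h : ∀ d : σ → β → ℂ, (∀ s b, ‖d s b‖ ≤ 1) → ‖∑ J : σ → β, (∏ s, d s (J s)) * Θ J‖ ≤ c)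
    (R : Finset (σ × σ)) :
    ‖∑ J ∈ Finset.univ.filter (fun J : σ → β => ∀ x ∈ R, J x.1 = J x.2), Θ J‖ ≤ c := by
  have := Vanish1Good.constrs (c := c) (Θ := Θ) h R (fun _ _ => 1) (by simp)
  rw [Finset.sum_filter]
  convert this using 3 with J _
  simp

/-- Möbius inversion on an upper set (downward induction on the finite lattice). -/
theorem exists_moebius {τ : Type*} [Fintype τ] (P : Finset τ → Prop)
    (hP : ∀ R R', R ⊆ R' → P R → P R') (g : Finset τ → ℂ) (hg : ∀ R, ¬ P R → g R = 0) :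
    ∃ c : Finset τ → ℂ, (∀ R, ¬ P R → c R = 0) ∧
      ∀ R', g R' = ∑ R ∈ Finset.univ.filter (· ⊆ R'), c R := by
  let c : Finset τ → ℂ := Finset.strongInduction (p := fun _ => ℂ)
    fun R ih => g R - ∑ R0 ∈ R.ssubsets.attach, ih R0.1 (Finset.mem_ssubsets.1 R0.2)
  have hc : ∀ R, c R = g R - ∑ R0 ∈ R.ssubsets, c R0 := by
    intro R
    rw [← Finset.sum_attach R.ssubsets c]
    exact Finset.strongInduction_eq _ R
  refine ⟨c, fun R => ?_, fun R' => ?_⟩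
  · induction R using Finset.strongInduction with
    | H R ih =>
      intro hR
      rw [hc, hg R hR, Finset.sum_eq_zero, sub_zero]
      intro R0 h0
      have h1 := Finset.mem_ssubsets.1 h0
      exact ih R0 h1 fun h => hR (hP _ _ h1.subset h)
  · have h1 : Finset.univ.filter (· ⊆ R') = insert R' R'.ssubsets := by
      ext R
      simp only [Finset.mem_filter, Finset.mem_univ, true_and, Finset.mem_insert,
        Finset.mem_ssubsets]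
      exact ⟨fun h => h.eq_or_ssubset, fun h => h.elim (fun e => e ▸ subset_rfl) (·.subset)⟩
    rw [h1, Finset.sum_insert (by simp), hc]
    ring

theorem Vanish1_key {V : Type*} [SeminormedAddCommGroup V] [InnerProductSpace ℂ V]
    (b : V →ₗ[ℂ] V) (K₁ K₂ : Submodule ℂ V) {θ : ℝ} (hθ : 0 ≤ θ)
    (hbs : ∀ v w, ⟪b v, w⟫_ℂ = ⟪v, b w⟫_ℂ)
    (horth : ∀ v ∈ K₁, ∀ w ∈ K₂, ⟪v, w⟫_ℂ = 0)
    (hb1 : ∀ v ∈ K₁, ‖b v‖ ^ 2 ≤ θ * ‖v‖ ^ 2) {α : V}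
    (hα : α ∈ closure ((K₁ ⊔ K₂ : Submodule ℂ V) : Set V)) (hbα : b α = α) {δ : ℝ} (hδ : 0 < δ) :
    ∃ α₁ ∈ K₁, ∃ α₂ ∈ K₂, ‖α - (α₁ + α₂)‖ ≤ δ ∧ ‖α₁‖ ≤ √θ * ‖α‖ + δ ∧ ‖α₂‖ ≤ ‖α‖ + δ := by
  obtain ⟨α', hα', hd⟩ := Metric.mem_closure_iff.1 hα δ hδ
  obtain ⟨α₁, h1, α₂, h2, rfl⟩ := Submodule.mem_sup.1 hα'
  rw [dist_eq_norm] at hd
  have cancel : ∀ {t s : ℝ}, 0 ≤ t → 0 ≤ s → t ^ 2 ≤ t * s → t ≤ s := by
    intro t s ht hs h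
    rcases ht.eq_or_lt with h0 | h0
    · rw [← h0]; exact hs
    · rw [sq] at h
      exact le_of_mul_le_mul_left h h0
  refine ⟨α₁, h1, α₂, h2, hd.le, cancel (norm_nonneg _) (by positivity) ?_,
    cancel (norm_nonneg _) (by positivity) ?_⟩
  · have e : ⟪α₁, α₁⟫_ℂ = ⟪b α₁, α⟫_ℂ - ⟪α₁, α - (α₁ + α₂)⟫_ℂ := by
      rw [hbs, hbα, inner_sub_right, inner_add_right, horth _ h1 _ h2]; ring
    have hb : ‖b α₁‖ ≤ √θ * ‖α₁‖ := by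
      refine abs_le_of_sq_le_sq' ?_ (by positivity) |>.2
      rw [mul_pow, Real.sq_sqrt hθ]
      exact hb1 _ h1
    calc ‖α₁‖ ^ 2 = ‖⟪α₁, α₁⟫_ℂ‖ := by rw [inner_self_eq_norm_sq_to_K]; simp
      _ ≤ ‖b α₁‖ * ‖α‖ + ‖α₁‖ * ‖α - (α₁ + α₂)‖ := by
        rw [e]
        exact (norm_sub_le _ _).trans (add_le_add (norm_inner_le_norm _ _) (norm_inner_le_norm _ _))
      _ ≤ √θ * ‖α₁‖ * ‖α‖ + ‖α₁‖ * δ := by gcongr
      _ = _ := by ring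
  · have e : ⟪α₂, α₂⟫_ℂ = ⟪α₂, α⟫_ℂ - ⟪α₂, α - (α₁ + α₂)⟫_ℂ := by
      rw [inner_sub_right, inner_add_right, inner_eq_zero_symm.1 (horth _ h1 _ h2)]; ring
    calc ‖α₂‖ ^ 2 = ‖⟪α₂, α₂⟫_ℂ‖ := by rw [inner_self_eq_norm_sq_to_K]; simp
      _ ≤ ‖α₂‖ * ‖α‖ + ‖α₂‖ * ‖α - (α₁ + α₂)‖ := by
        rw [e]
        exact (norm_sub_le _ _).trans (add_le_add (norm_inner_le_norm _ _) (norm_inner_le_norm _ _))
      _ ≤ ‖α₂‖ * ‖α‖ + ‖α₂‖ * δ := by gcongr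
      _ = _ := by ring

theorem Vanish1_inner {V : Type*} [SeminormedAddCommGroup V] [InnerProductSpace ℂ V]
    (x b : V →ₗ[ℂ] V) (K₁ K₂ : Submodule ℂ V) {c θ : ℝ} (hc : 0 ≤ c) (hθ : 0 ≤ θ)
    (hx : ∀ v, ‖x v‖ ≤ c * ‖v‖) (hbs : ∀ v w, ⟪b v, w⟫_ℂ = ⟪v, b w⟫_ℂ)
    (horth : ∀ v ∈ K₁, ∀ w ∈ K₂, ⟪v, w⟫_ℂ = 0) (hx2 : ∀ v ∈ K₂, x v ∈ K₁)
    (hb1 : ∀ v ∈ K₁, ‖b v‖ ^ 2 ≤ θ * ‖v‖ ^ 2) {α ζ : V}
    (hα : α ∈ closure ((K₁ ⊔ K₂ : Submodule ℂ V) : Set V)) (hbα : b α = α)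
    (hζ : ζ ∈ closure ((K₁ ⊔ K₂ : Submodule ℂ V) : Set V)) (hbζ : b ζ = ζ) :
    ‖⟪ζ, x α⟫_ℂ‖ ≤ 2 * √θ * c * ‖ζ‖ * ‖α‖ := by
  let f : ℝ → ℝ := fun δ => δ * (c * ‖α‖) + (√θ * ‖ζ‖ + δ) * (c * ‖α‖) + (‖ζ‖ + δ) * (c * δ) +
    (‖ζ‖ + δ) * (c * (√θ * ‖α‖ + δ))
  have hf : Continuous f := by fun_prop
  have h0 : f 0 = 2 * √θ * c * ‖ζ‖ * ‖α‖ := by simp only [f]; ring
  rw [← h0]
  refine ge_of_tendsto ((hf.tendsto 0).mono_left (nhdsWithin_le_nhds (s := Set.Ioi 0)))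
    (eventually_nhdsWithin_of_forall fun δ (hδ : 0 < δ) => ?_)
  obtain ⟨α₁, ha1, α₂, ha2, ha, ha1', -⟩ := Vanish1_key b K₁ K₂ hθ hbs horth hb1 hα hbα hδ
  obtain ⟨ζ₁, hz1, ζ₂, hz2, hz, hz1', hz2'⟩ := Vanish1_key b K₁ K₂ hθ hbs horth hb1 hζ hbζ hδ
  have e : ⟪ζ, x α⟫_ℂ = ⟪ζ - (ζ₁ + ζ₂), x α⟫_ℂ + ⟪ζ₁, x α⟫_ℂ + ⟪ζ₂, x (α - (α₁ + α₂))⟫_ℂ +
      ⟪ζ₂, x α₁⟫_ℂ := by
    rw [map_sub, map_add, inner_sub_left, inner_add_left, inner_sub_right, inner_add_right,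
      inner_eq_zero_symm.1 (horth _ (hx2 _ ha2) _ hz2)]
    ring
  have t1 : ‖⟪ζ - (ζ₁ + ζ₂), x α⟫_ℂ‖ ≤ δ * (c * ‖α‖) :=
    (norm_inner_le_norm _ _).trans (mul_le_mul hz (hx _) (norm_nonneg _) hδ.le)
  have t2 : ‖⟪ζ₁, x α⟫_ℂ‖ ≤ (√θ * ‖ζ‖ + δ) * (c * ‖α‖) :=
    (norm_inner_le_norm _ _).trans (mul_le_mul hz1' (hx _) (norm_nonneg _) (by positivity))
  have t3 : ‖⟪ζ₂, x (α - (α₁ + α₂))⟫_ℂ‖ ≤ (‖ζ‖ + δ) * (c * δ) :=
    (norm_inner_le_norm _ _).trans (mul_le_mul hz2'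
      ((hx _).trans (mul_le_mul_of_nonneg_left ha hc)) (norm_nonneg _) (by positivity))
  have t4 : ‖⟪ζ₂, x α₁⟫_ℂ‖ ≤ (‖ζ‖ + δ) * (c * (√θ * ‖α‖ + δ)) :=
    (norm_inner_le_norm _ _).trans (mul_le_mul hz2'
      ((hx _).trans (mul_le_mul_of_nonneg_left ha1' hc)) (norm_nonneg _) (by positivity))
  rw [e]
  exact (norm_add_le _ _).trans (add_le_add ((norm_add_le _ _).trans
    (add_le_add ((norm_add_le _ _).trans (add_le_add t1 t2)) t3)) t4)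

/-- Recipe: `K = closure (K₁ ⊔ K₂)` is invariant under `x` and `b`.  For `α, ζ ∈ K` fixed by `b`
approximate `α ≈ α₁ + α₂`, `ζ ≈ ζ₁ + ζ₂`; `‖α₁‖² = ⟪α₁, α₁ + α₂⟫ ≈ ⟪α₁, b α⟫ = ⟪b α₁, α⟫ ≤ √θ ‖α₁‖ ‖α‖`,
`‖ζ₂‖ ≲ ‖ζ‖`, `⟪ζ, x α⟫ ≈ ⟪ζ₁, x α⟫ + ⟪ζ₂, x α₁⟫ + 0`.  Hence `‖b x b v‖ ≤ 2 √θ c ‖v‖` on `K`.
(One may also pass to `UniformSpace.Completion V` and use orthogonal projections.) -/
theorem fock_abstract {V : Type*} [SeminormedAddCommGroup V] [InnerProductSpace ℂ V]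
    (x b : V →ₗ[ℂ] V) (K₁ K₂ : Submodule ℂ V) {c θ : ℝ} (hc : 0 ≤ c) (hθ : 0 ≤ θ)
    (hx : ∀ v, ‖x v‖ ≤ c * ‖v‖) (hbs : ∀ v w, ⟪b v, w⟫_ℂ = ⟪v, b w⟫_ℂ) (hbb : ∀ v, b (b v) = b v)
    (horth : ∀ v ∈ K₁, ∀ w ∈ K₂, ⟪v, w⟫_ℂ = 0) (hx2 : ∀ v ∈ K₂, x v ∈ K₁)
    (hx1 : ∀ v ∈ K₁, x v ∈ closure ((K₁ ⊔ K₂ : Submodule ℂ V) : Set V))
    (hb : ∀ v ∈ K₁ ⊔ K₂, b v ∈ closure ((K₁ ⊔ K₂ : Submodule ℂ V) : Set V))
    (hb1 : ∀ v ∈ K₁, ‖b v‖ ^ 2 ≤ θ * ‖v‖ ^ 2) {v : V} (hv : v ∈ K₁ ⊔ K₂) (n : ℕ) :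
    ‖((b * x * b) ^ n) v‖ ≤ (2 * √θ * c) ^ n * ‖v‖ := by
  have hbn : ∀ v, ‖b v‖ ≤ 1 * ‖v‖ := by
    intro v
    have h1 : ‖b v‖ ^ 2 ≤ ‖b v‖ * ‖v‖ :=
      calc ‖b v‖ ^ 2 = ‖⟪b v, b v⟫_ℂ‖ := by rw [inner_self_eq_norm_sq_to_K]; simp
        _ = ‖⟪b v, v⟫_ℂ‖ := by rw [← hbs, hbb]
        _ ≤ _ := norm_inner_le_norm _ _
    rw [one_mul]
    rcases (norm_nonneg (b v)).eq_or_lt with h0 | h0
    · rw [← h0]; exact norm_nonneg _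
    · rw [sq] at h1
      exact le_of_mul_le_mul_left h1 h0
  have hxc : Continuous x := AddMonoidHomClass.continuous_of_bound x c hx
  have hbc : Continuous b := AddMonoidHomClass.continuous_of_bound b 1 hbn
  have hxK : ∀ v ∈ closure ((K₁ ⊔ K₂ : Submodule ℂ V) : Set V),
      x v ∈ closure ((K₁ ⊔ K₂ : Submodule ℂ V) : Set V) := by
    intro v hv
    rw [← closure_closure]
    refine map_mem_closure hxc hv fun w hw => ?_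
    obtain ⟨w₁, h1, w₂, h2, rfl⟩ := Submodule.mem_sup.1 hw
    rw [map_add]
    exact (K₁ ⊔ K₂).topologicalClosure.add_mem (hx1 _ h1)
      (subset_closure (Submodule.mem_sup_left (hx2 _ h2)))
  have hbK : ∀ v ∈ closure ((K₁ ⊔ K₂ : Submodule ℂ V) : Set V),
      b v ∈ closure ((K₁ ⊔ K₂ : Submodule ℂ V) : Set V) := by
    intro v hv
    rw [← closure_closure]
    exact map_mem_closure hbc hv hb
  have step : ∀ v ∈ closure ((K₁ ⊔ K₂ : Submodule ℂ V) : Set V),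
      ‖b (x (b v))‖ ≤ 2 * √θ * c * ‖v‖ := by
    intro v hv
    have h1 := Vanish1_inner x b K₁ K₂ hc hθ hx hbs horth hx2 hb1 (hbK v hv) (hbb v)
      (hbK _ (hxK _ (hbK v hv))) (hbb _)
    have h2 : ‖b (x (b v))‖ ^ 2 = ‖⟪b (x (b v)), x (b v)⟫_ℂ‖ := by
      rw [← hbb (x (b v)), hbs, hbb, inner_self_eq_norm_sq_to_K]; simp
    have h3 : ‖b v‖ ≤ ‖v‖ := by simpa using hbn v
    rcases (norm_nonneg (b (x (b v)))).eq_or_lt with h0 | h0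
    · rw [← h0]; positivity
    · refine le_of_mul_le_mul_left ?_ h0
      calc ‖b (x (b v))‖ * ‖b (x (b v))‖ = ‖b (x (b v))‖ ^ 2 := by ring
        _ ≤ 2 * √θ * c * ‖b (x (b v))‖ * ‖b v‖ := h2 ▸ h1
        _ ≤ 2 * √θ * c * ‖b (x (b v))‖ * ‖v‖ := by gcongr
        _ = _ := by ring
  have main : ((b * x * b) ^ n) v ∈ closure ((K₁ ⊔ K₂ : Submodule ℂ V) : Set V) ∧
      ‖((b * x * b) ^ n) v‖ ≤ (2 * √θ * c) ^ n * ‖v‖ := by
    induction n with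
    | zero => exact ⟨subset_closure hv, by simp⟩
    | succ n ih =>
      rw [pow_succ', Module.End.mul_apply, Module.End.mul_apply, Module.End.mul_apply]
      refine ⟨hbK _ (hxK _ (hbK _ ih.1)), (step _ ih.1).trans ?_⟩
      rw [pow_succ', mul_assoc _ _ ‖v‖]
      exact mul_le_mul_of_nonneg_left ih.2 (by positivity)
  exact main.2

end

end Crest.Agent.R109
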