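import Crest.Agent.R109.Tie
import Crest.Agent.R109.RF

/-!
# Row 109: asymptotic freeness of random labels
-/

open Filter Topology
open scoped InnerProductSpace BigOperators ComplexOrder

set_option linter.unusedSectionVars false

namespace Crest.Agent.R109

noncomputable section

open Classical

variable {H : Type*} [NormedAddCommGroup H] [InnerProductSpace ℂ H] [CompleteSpace H]
  {X : Type*} [TopologicalSpace X] [CompactSpace X] [T2Space X] [ExtremallyDisconnected X]

namespace Std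
variable (S : Std H X) {L : ℕ}

theorem _root_.Crest.Agent.R109.vanish2_seg_eq {R : Type*} [Monoid R] (y a : ℕ → R) (n : ℕ) :
    seg y a 0 n = (List.ofFn fun i : Fin n => a i * y (i + 1)).prod := by
  induction n with
  | zero => simp [seg]
  | succ n ih => rw [seg, ih, List.ofFn_succ', List.prod_concat]; simp [mul_assoc]

/-- the word as a multilinear form in the letters of `A` -/
def vanish2T (y : ℕ → H →L[ℂ] H) (l : ℕ) : MultilinearMap ℂ (fun _ : Fin l => C(X, ℂ)) ℂ :=
  ((innerₛₗ ℂ S.ξ ∘ₗ (ContinuousLinearMap.apply ℂ H S.ξ).toLinearMap ∘ₗ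
      LinearMap.mulLeft ℂ (y 0)).compMultilinearMap
    (MultilinearMap.mkPiAlgebraFin ℂ l (H →L[ℂ] H))).compLinearMap
    fun i => LinearMap.mulRight ℂ (y (i + 1)) ∘ₗ S.ρ.toAlgHom.toLinearMap

theorem vanish2T_apply (y : ℕ → H →L[ℂ] H) (l : ℕ) (a : Fin l → C(X, ℂ)) (b : ℕ → H →L[ℂ] H)
    (h : ∀ i : Fin l, b i = S.ρ (a i)) : S.vanish2T y l a = S.φ (y 0 * seg y b 0 l) := by
  rw [vanish2_seg_eq]
  simp only [h]
  rfl

variable {S} in
/-- the projection fixing the atoms of the translates -/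
def vanish2e {ι β : Type*} [Fintype ι] (w : ι → S.Nrm) (q : X → β) (K : ι → β) : C(X, ℂ) :=
  ∏ j, ind {t | q (w j • t) = K j}

variable {S} in
theorem vanish2e_apply {ι : Type*} [Fintype ι] (w : ι → S.Nrm) (Q : DiscreteQuotient X)
    (K : ι → Q) (t : X) :
    vanish2e w Q.proj K t = if (fun j => Q.proj (w j • t)) = K then 1 else 0 := by
  have h : ∀ j, ind {t | Q.proj (w j • t) = K j} t = if Q.proj (w j • t) = K j then 1 else 0 :=
    fun j => by
      convert ind_apply ((Q.isClopen_preimage {K j}).preimage (w j).continuous_smul) t <;> rfl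
  rw [vanish2e, ContinuousMap.prod_apply]
  simp only [h, Finset.prod_ite_zero, Finset.mem_univ, forall_true_left, Finset.prod_const_one,
    funext_iff]

theorem vanish2_linked {ι : Type*} [Fintype ι] (w : ι → S.Nrm) {l : ℕ} (hl : 0 < l)
    {y : ℕ → H →L[ℂ] H} (hy : ∀ i, y i ∈ S.M) (hyo : ∀ i, 0 < i → i < l → S.Mo (y i))
    {R : Finset ((Fin l × ι) × (Fin l × ι))} (hR : Linked R) (a : Fin l → C(X, ℂ)) :
    Tendsto (fun Q : DiscreteQuotient X =>
      ∑ J ∈ Finset.univ.filter (fun J : Fin l × ι → Q => ∀ x ∈ R, J x.1 = J x.2),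
        S.vanish2T y l fun i => a i * vanish2e w Q.proj fun j => J (i, j)) atBot (𝓝 0) := by
  set a' : ℕ → C(X, ℂ) := fun i =>
    if h : i < l then (((‖a ⟨i, h⟩‖ + 1 : ℝ) : ℂ))⁻¹ • a ⟨i, h⟩ else 0 with ha'
  have h1 : ∀ i, ‖a' i‖ ≤ 1 := fun i => by
    rw [ha']
    dsimp only
    split_ifs with h
    · have h0 : 0 < ‖a ⟨i, h⟩‖ + 1 := by positivity
      rw [norm_smul, norm_inv, Complex.norm_real, Real.norm_of_nonneg h0.le, inv_mul_le_iff₀ h0]
      linarith
    · simp
  have h2 : Tendsto (fun Q : DiscreteQuotient X =>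
      ∑ J ∈ Finset.univ.filter (fun J : Fin l × ι → Q => ∀ x ∈ R, J x.1 = J x.2),
        S.φ (y 0 * seg y (S.letter w Q.proj a' J) 0 l)) atBot (𝓝 0) := by
    rw [NormedAddGroup.tendsto_nhds_zero]
    intro γ hγ
    filter_upwards [S.linked_small w hl hy hyo hR (half_pos hγ)] with Q hQ
    exact (hQ a' h1).trans_lt (half_lt_self hγ)
  have h3 := h2.const_mul (∏ i, ((‖a i‖ + 1 : ℝ) : ℂ))
  rw [mul_zero] at h3
  refine h3.congr fun Q => ?_
  rw [Finset.mul_sum]
  refine Finset.sum_congr rfl fun J _ => ?_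
  rw [← S.vanish2T_apply y l (fun i => a' i * vanish2e w Q.proj fun j => J (i, j)) _
    (fun i => by simp [letter, vanish2e]), ← smul_eq_mul, ← MultilinearMap.map_smul_univ]
  congr 1
  funext i
  have h0 : ((‖a i‖ + 1 : ℝ) : ℂ) ≠ 0 := by
    exact_mod_cast (show (0 : ℝ) < ‖a i‖ + 1 by positivity).ne'
  rw [← smul_mul_assoc, ha']
  simp only [i.2, dif_pos, Fin.eta, smul_inv_smul₀ h0]

theorem _root_.Crest.Agent.R109.vanish2_mix {β γ : Type*} [Fintype β] [DecidableEq β] [Fintype γ]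
    (p : β → Prop) [DecidablePred p] (F : (β → γ) → ℂ) :
    ∑ l : β → γ, ∑ l' : β → γ, F (fun b => if p b then l' b else l b) =
      Fintype.card (β → γ) * ∑ l, F l := by
  let g : (β → γ) × (β → γ) → (β → γ) × (β → γ) := fun x =>
    (fun b => if p b then x.2 b else x.1 b, fun b => if p b then x.1 b else x.2 b)
  have hg : Function.Involutive g := fun x => by
    refine Prod.ext (funext fun b => ?_) (funext fun b => ?_) <;> by_cases h : p b <;> simp [g, h]
  rw [← Fintype.sum_prod_type']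
  refine (Equiv.sum_comp hg.toPerm fun x => F x.1).trans ?_
  rw [Fintype.sum_prod_type, Finset.mul_sum]
  simp

/-- an untied position kills the average -/
theorem vanish2_unlinked (hL : 0 < L) {ι β : Type*} [Fintype ι] [Fintype β] [DecidableEq β] {l : ℕ}
    (T : MultilinearMap ℂ (fun _ : Fin l => C(X, ℂ)) ℂ)
    (g : Fin l → (ι → Fin L) → C(X, ℂ)) (J : Fin l × ι → β)
    (hg : ∀ i, ∑ lb : β → Fin L, g i (fun j => lb (J (i, j))) = 0)
    (hJ : ¬ Linked (Finset.univ.filter fun x : (Fin l × ι) × (Fin l × ι) => J x.1 = J x.2)) :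
    ∑ lb : β → Fin L, T (fun i => g i fun j => lb (J (i, j))) = 0 := by
  simp only [Linked, not_forall, not_exists, not_and, not_or, Finset.mem_filter, Finset.mem_univ,
    true_and] at hJ
  obtain ⟨i, hi⟩ := hJ
  have h := vanish2_mix (fun b => ∃ j, J (i, j) = b)
    fun lb : β → Fin L => T fun i => g i fun j => lb (J (i, j))
  have : Nonempty (Fin L) := ⟨⟨0, hL⟩⟩
  have hc : (Fintype.card (β → Fin L) : ℂ) ≠ 0 := by exact_mod_cast Fintype.card_ne_zero
  refine (mul_eq_zero.1 (h.symm.trans (Finset.sum_eq_zero fun lb _ => ?_))).resolve_left hc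
  have h1 : ∀ lb' : β → Fin L, (fun i' => g i' fun j =>
      if ∃ j', J (i, j') = J (i', j) then lb' (J (i', j)) else lb (J (i', j))) =
      Function.update (fun i' => g i' fun j => lb (J (i', j))) i (g i fun j => lb' (J (i, j))) := by
    intro lb'
    funext i'
    by_cases h' : i' = i
    · subst h'
      rw [Function.update_self]
      congr 1
      funext j
      rw [if_pos ⟨j, rfl⟩]
    · rw [Function.update_of_ne h']
      congr 1
      funext j
      rw [if_neg]
      rintro ⟨j', hj'⟩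
      exact (hi ((i, j'), (i', j)) hj').1 rfl h'
  simp only [h1]
  rw [← T.map_update_sum, hg i, T.map_update_zero]

/-- the law of the labels as a function of the kernel -/
def vanish2p {ι : Type*} [Fintype ι] {l : ℕ} (ℓ : Fin l × ι → Fin L)
    (R : Finset ((Fin l × ι) × (Fin l × ι))) : ℂ :=
  if Linked R then ((if ∀ s s', (s, s') ∈ R → ℓ s = ℓ s' then
    1 / (L : ℝ) ^ (Finset.univ.image fun s => Finset.univ.filter fun s' => (s, s') ∈ R).card
    else 0 : ℝ) : ℂ) else 0

theorem vanish2_avg (hL : 0 < L) {ι β : Type*} [Fintype ι] [Fintype β] [inst : DecidableEq β] {l : ℕ}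
    (T : MultilinearMap ℂ (fun _ : Fin l => C(X, ℂ)) ℂ)
    (g : Fin l → (ι → Fin L) → C(X, ℂ)) (J : Fin l × ι → β)
    (hg : ∀ i, ∑ lb : β → Fin L, g i (fun j => lb (J (i, j))) = 0) :
    (∑ lb : β → Fin L, T fun i => g i fun j => lb (J (i, j))) / (Fintype.card (β → Fin L) : ℂ) =
      ∑ ℓ : Fin l × ι → Fin L, vanish2p ℓ (Finset.univ.filter fun x => J x.1 = J x.2) *
        T fun i => g i fun j => ℓ (i, j) := by
  by_cases hJ : Linked (Finset.univ.filter fun x : (Fin l × ι) × (Fin l × ι) => J x.1 = J x.2)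
  · rw [← Finset.sum_fiberwise (s := Finset.univ) (g := fun lb : β → Fin L => lb ∘ J),
      Finset.sum_div]
    refine Finset.sum_congr rfl fun ℓ _ => ?_
    have e := card_filter_comp_eq hL J ℓ
    rw [Finset.sum_congr rfl (g := fun _ => T fun i => g i fun j => ℓ (i, j)) fun lb hlb => by
        rw [← (Finset.mem_filter.1 hlb).2]; rfl, Finset.sum_const, nsmul_eq_mul, mul_div_right_comm]
    congr 1
    simp only [vanish2p, if_pos hJ, Finset.mem_filter, Finset.mem_univ, true_and]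
    rw [Fintype.card_fun, Fintype.card_fin]
    have e' := congrArg (fun x : ℝ => (x : ℂ)) e
    simp only [Complex.ofReal_div, Complex.ofReal_natCast, Complex.ofReal_pow] at e'
    rw [Nat.cast_pow]
    convert e'
    rfl
  · rw [vanish2_unlinked hL T g J hg hJ]
    simp [vanish2p, hJ]

theorem vanish2_core (hL : 0 < L) {ι β : Type*} [Fintype ι] [Fintype β] [DecidableEq β] {l : ℕ}
    (T : MultilinearMap ℂ (fun _ : Fin l => C(X, ℂ)) ℂ)
    (g : Fin l → (ι → Fin L) → (ι → β) → C(X, ℂ))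
    (hg : ∀ i K, ∑ lb : β → Fin L, g i (fun j => lb (K j)) K = 0)
    (m : (Fin l × ι → Fin L) → Finset ((Fin l × ι) × (Fin l × ι)) → ℂ)
    (hm : ∀ ℓ R', vanish2p ℓ R' = ∑ R ∈ Finset.univ.filter (· ⊆ R'), m ℓ R) :
    (∑ lb : β → Fin L, T fun i => ∑ K : ι → β, g i (fun j => lb (K j)) K) /
        (Fintype.card (β → Fin L) : ℂ) =
      ∑ ℓ : Fin l × ι → Fin L, ∑ R, m ℓ R *
        ∑ J ∈ Finset.univ.filter (fun J : Fin l × ι → β => ∀ x ∈ R, J x.1 = J x.2),
          T fun i => g i (fun j => ℓ (i, j)) fun j => J (i, j) := by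
  have hW : ∀ lb : β → Fin L, (T fun i => ∑ K : ι → β, g i (fun j => lb (K j)) K) =
      ∑ J : Fin l × ι → β, T fun i => g i (fun j => lb (J (i, j))) fun j => J (i, j) := by
    intro lb
    rw [MultilinearMap.map_sum, ← (Equiv.curry (Fin l) ι β).sum_comp]
    rfl
  simp only [hW]
  rw [Finset.sum_comm, Finset.sum_div,
    Finset.sum_congr rfl fun J _ => vanish2_avg hL T (fun i ℓ => g i ℓ fun j => J (i, j)) J
      fun i => hg i _, Finset.sum_comm]
  refine Finset.sum_congr rfl fun ℓ _ => ?_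
  simp only [hm, Finset.sum_filter, Finset.mul_sum, Finset.sum_mul]
  rw [Finset.sum_comm]
  refine Finset.sum_congr rfl fun R _ => Finset.sum_congr rfl fun J _ => ?_
  have e : R ⊆ (Finset.univ.filter fun x : (Fin l × ι) × (Fin l × ι) => J x.1 = J x.2) ↔
      ∀ x ∈ R, J x.1 = J x.2 := by simp [Finset.subset_iff]
  by_cases h : ∀ x ∈ R, J x.1 = J x.2
  · rw [if_pos h, if_pos (e.2 h)]
  · rw [if_neg h, if_neg (mt e.1 h), mul_zero, zero_mul]

/-- **Alternating centred words vanish.**  Recipe: `IsRF.common`, scale so that `‖f i ℓ‖ ≤ 1`.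
For `lam = lb ∘ Q.proj`, `c i lam = ∑_{J_i : ι → Q} f i (lb ∘ J_i) ∏_j ind {Q.proj (w j • t) = J_i j}`;
expand the word: a sum over `J : Fin l × ι → Q` of words in `letter` with `a i = f i (lb ∘ J (i, ·))`.
If the kernel `R J = {x | J x.1 = J x.2}` is not `Linked`, some position `i` uses atoms disjoint from
those of the other positions; split `lb` accordingly (`Equiv.piEquivPiSubtypeProd`); the sum over the
labels of these atoms of the letter `i` is `0` by `Cent`.  For linked kernels group by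
`ℓ = lb ∘ J`, use `card_filter_comp_eq` (a function of `R J` and `ℓ` only), `exists_moebius` and
`linked_small`. -/
theorem vanish (hL : 0 < L) {l : ℕ} (hl : 0 < l) {y : ℕ → H →L[ℂ] H} (hy : ∀ i, y i ∈ S.M)
    (hyo : ∀ i, 0 < i → i < l → S.Mo (y i)) {c : ℕ → (X → Fin L) → C(X, ℂ)}
    (hc : ∀ i < l, S.IsRF (c i)) (hc0 : ∀ i < l, Cent (c i)) :
    Tendsto (fun Q : DiscreteQuotient X =>
      (∑ lb : Q → Fin L, S.φ (y 0 * seg y (fun i => S.ρ (c i (lb ∘ Q.proj))) 0 l)) /
        (Fintype.card (Q → Fin L) : ℂ)) atBot (𝓝 0) := by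
  obtain ⟨ι, _, w, f, hf⟩ := IsRF.common l hc
  have hm := fun ℓ : Fin l × ι → Fin L => exists_moebius (τ := (Fin l × ι) × (Fin l × ι)) Linked
    (fun R R' hRR hR i => let ⟨x, hx, h⟩ := hR i; ⟨x, hRR hx, h⟩) (vanish2p ℓ)
    fun R hR => if_neg hR
  choose m hm0 hm using hm
  have h1 : Tendsto (fun Q : DiscreteQuotient X => ∑ ℓ : Fin l × ι → Fin L, ∑ R, m ℓ R *
      ∑ J ∈ Finset.univ.filter (fun J : Fin l × ι → Q => ∀ x ∈ R, J x.1 = J x.2),
        S.vanish2T y l fun i => f i (fun j => ℓ (i, j)) * vanish2e w Q.proj fun j => J (i, j))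
      atBot (𝓝 0) := by
    rw [← Finset.sum_const_zero (s := (Finset.univ : Finset (Fin l × ι → Fin L)))]
    refine tendsto_finsetSum _ fun ℓ _ => ?_
    rw [← Finset.sum_const_zero (s := (Finset.univ : Finset (Finset ((Fin l × ι) × (Fin l × ι)))))]
    refine tendsto_finsetSum _ fun R _ => ?_
    by_cases hR : Linked R
    · simpa using (S.vanish2_linked w hl hy hyo hR fun i => f i fun j => ℓ (i, j)).const_mul (m ℓ R)
    · simp [hm0 ℓ R hR]
  refine h1.congr' ?_
  have h2 : ∀ᶠ Q : DiscreteQuotient X in atBot, ∀ i : Fin l, ∀ t,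
      ∑ lb : Q → Fin L, c i (lb ∘ Q.proj) t = 0 := eventually_all.2 fun i => hc0 i i.2
  filter_upwards [h2] with Q hQ
  have hlc : ∀ lb : Q → Fin L, IsLocallyConstant (lb ∘ Q.proj) := fun lb =>
    Q.proj_isLocallyConstant.comp lb
  have hexp : ∀ (lb : Q → Fin L) (i : Fin l), c i (lb ∘ Q.proj) =
      ∑ K : ι → Q, f i (fun j => lb (K j)) * vanish2e w Q.proj K := by
    intro lb i
    ext t
    rw [hf i i.2 _ (hlc lb), ContinuousMap.sum_apply]
    simp only [ContinuousMap.mul_apply, vanish2e_apply, mul_ite, mul_one, mul_zero,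
      Finset.sum_ite_eq, Finset.mem_univ, if_true]
    rfl
  have hzero : ∀ (i : Fin l) (K : ι → Q),
      ∑ lb : Q → Fin L, f i (fun j => lb (K j)) * vanish2e w Q.proj K = 0 := by
    intro i K
    ext t
    rw [ContinuousMap.sum_apply]
    simp only [ContinuousMap.mul_apply, vanish2e_apply, ContinuousMap.zero_apply]
    split_ifs with h
    · subst h
      rw [← hQ i t]
      exact Finset.sum_congr rfl fun lb _ => by rw [hf i i.2 _ (hlc lb), mul_one]; rfl
    · simp
  have hW : ∀ lb : Q → Fin L, S.φ (y 0 * seg y (fun i => S.ρ (c i (lb ∘ Q.proj))) 0 l) =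
      S.vanish2T y l fun i => ∑ K : ι → Q, f i (fun j => lb (K j)) * vanish2e w Q.proj K :=
    fun lb => (S.vanish2T_apply y l _ _ fun i => by rw [hexp]).symm
  simp only [hW]
  exact (vanish2_core hL (S.vanish2T y l) (fun i ℓ K => f i ℓ * vanish2e w Q.proj K) hzero m
    fun ℓ R' => by convert hm ℓ R').symm

/-- alternating words as lists: `(c₁, y₁), ..., (c_l, y_l)` gives `c₁ y₁ ... c_l y_l` -/
def lword (ws : List (((X → Fin L) → C(X, ℂ)) × (H →L[ℂ] H))) (lam : X → Fin L) : H →L[ℂ] H :=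
  (ws.map fun x => S.ρ (x.1 lam) * x.2).prod

/-- admissible: all `c` centred random functions, all `y ∈ M`, all but the last `y` in `Mo` -/
def AdmW : List (((X → Fin L) → C(X, ℂ)) × (H →L[ℂ] H)) → Prop
  | [] => False
  | [x] => S.IsRF x.1 ∧ Cent x.1 ∧ x.2 ∈ S.M
  | x :: x' :: ws => S.IsRF x.1 ∧ Cent x.1 ∧ S.Mo x.2 ∧ AdmW (x' :: ws)

theorem vanish2_admW_ne_nil {ws : List (((X → Fin L) → C(X, ℂ)) × (H →L[ℂ] H))} (h : S.AdmW ws) :
    ws ≠ [] := by
  rintro rfl; exact h

theorem vanish2_admW_cons {x : ((X → Fin L) → C(X, ℂ)) × (H →L[ℂ] H)}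
    {ws : List (((X → Fin L) → C(X, ℂ)) × (H →L[ℂ] H))} (h1 : S.IsRF x.1) (h2 : Cent x.1)
    (h3 : S.Mo x.2) (h : S.AdmW ws) : S.AdmW (x :: ws) := by
  cases ws with
  | nil => exact h.elim
  | cons x' ws => exact ⟨h1, h2, h3, h⟩

theorem vanish2_admW_mem : ∀ {ws : List (((X → Fin L) → C(X, ℂ)) × (H →L[ℂ] H))}, S.AdmW ws →
    ∀ x ∈ ws, S.IsRF x.1 ∧ Cent x.1 ∧ x.2 ∈ S.M
  | [], h => h.elim
  | [x], h => fun x' hx' => by rw [List.mem_singleton.1 hx']; exact h
  | x :: x' :: ws, h => fun z hz => by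
    rcases List.mem_cons.1 hz with rfl | hz
    · exact ⟨h.1, h.2.1, h.2.2.1.1⟩
    · exact vanish2_admW_mem h.2.2.2 z hz

theorem vanish2_admW_mo : ∀ {ws : List (((X → Fin L) → C(X, ℂ)) × (H →L[ℂ] H))}, S.AdmW ws →
    ∀ i (hi : i + 1 < ws.length), S.Mo (ws[i]).2
  | [], h => h.elim
  | [x], _ => fun i hi => by simp at hi
  | x :: x' :: ws, h => fun i hi => by
    cases i with
    | zero => exact h.2.2.1
    | succ i => exact vanish2_admW_mo h.2.2.2 i (by simpa using hi)

theorem vanish2_lword_append (ws ws' : List (((X → Fin L) → C(X, ℂ)) × (H →L[ℂ] H)))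
    (lam : X → Fin L) : S.lword (ws ++ ws') lam = S.lword ws lam * S.lword ws' lam := by
  simp [lword]

theorem vanish2_lword_cons (x : ((X → Fin L) → C(X, ℂ)) × (H →L[ℂ] H))
    (ws : List (((X → Fin L) → C(X, ℂ)) × (H →L[ℂ] H))) (lam : X → Fin L) :
    S.lword (x :: ws) lam = S.ρ (x.1 lam) * x.2 * S.lword ws lam := by
  simp [lword]

theorem vanish2_lword_nil (lam : X → Fin L) : S.lword [] lam = 1 := rfl

/-- the list form of `vanish` -/
theorem vanish_list (hL : 0 < L) {m : H →L[ℂ] H} (hm : m ∈ S.M)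
    {ws : List (((X → Fin L) → C(X, ℂ)) × (H →L[ℂ] H))} (hws : S.AdmW ws) :
    Tendsto (fun Q : DiscreteQuotient X =>
      (∑ lb : Q → Fin L, S.φ (m * S.lword ws (lb ∘ Q.proj))) /
        (Fintype.card (Q → Fin L) : ℂ)) atBot (𝓝 0) := by
  let y : ℕ → H →L[ℂ] H := fun i => Nat.casesOn i m fun i => (ws.getD i (0, 0)).2
  have hmem := S.vanish2_admW_mem hws
  have h := S.vanish hL (l := ws.length) (List.length_pos_iff.2 (S.vanish2_admW_ne_nil hws))
    (y := y) (c := fun i => (ws.getD i (0, 0)).1) ?_ ?_ ?_ ?_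
  · refine h.congr fun Q => ?_
    congr 1
    refine Finset.sum_congr rfl fun lb _ => ?_
    congr 2
    rw [vanish2_seg_eq, lword]
    congr 1
    refine List.ext_getElem (by simp) fun i h1 h2 => ?_
    have h3 : i < ws.length := by simpa using h1
    simp [y, h3]
  · rintro (_ | i)
    · exact hm
    · by_cases hi : i < ws.length
      · simpa [y, hi] using (hmem _ (List.getElem_mem hi)).2.2
      · simp [y, List.getElem?_eq_none (not_lt.1 hi)]
  · rintro (_ | i) h0 hi
    · omega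
    · simpa [y, show i < ws.length by omega] using S.vanish2_admW_mo hws i hi
  · intro i hi
    simpa [hi] using (hmem _ (List.getElem_mem hi)).1
  · intro i hi
    simpa [hi] using (hmem _ (List.getElem_mem hi)).2.1

theorem star_lword_append {ws : List (((X → Fin L) → C(X, ℂ)) × (H →L[ℂ] H))} (hws : S.AdmW ws)
    {z : H →L[ℂ] H} (hz : z ∈ S.M) :
    ∃ m ∈ S.M, ∃ ws', (∀ lam, star (S.lword ws lam) * z = m * S.lword ws' lam) ∧ S.AdmW ws' ∧
      ∀ ws'', S.Mo z → S.AdmW ws'' → S.AdmW (ws' ++ ws'') := by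
  induction ws generalizing z with
  | nil => exact hws.elim
  | cons x ws ih =>
    obtain ⟨h1, h2, h3⟩ := S.vanish2_admW_mem hws x List.mem_cons_self
    have hx : S.AdmW [(fun lam => star (x.1 lam), z)] := ⟨h1.star_mem, cent_star h2, hz⟩
    have hx' : ∀ ws'', S.Mo z → S.AdmW ws'' → S.AdmW ((fun lam => star (x.1 lam), z) :: ws'') :=
      fun ws'' hz' h => S.vanish2_admW_cons h1.star_mem (cent_star h2) hz' h
    cases ws with
    | nil =>
      refine ⟨star x.2, star_mem h3, _, fun lam => ?_, hx, hx'⟩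
      simp only [vanish2_lword_cons, vanish2_lword_nil, mul_one, star_mul, map_star, mul_assoc]
    | cons x' ws =>
      obtain ⟨m, hm, ws₁, e1, -, e3⟩ := ih hws.2.2.2 (star_mem h3)
      refine ⟨m, hm, ws₁ ++ [(fun lam => star (x.1 lam), z)], fun lam => ?_,
        e3 _ hws.2.2.1.star_mem hx, fun ws'' hz' h => ?_⟩
      · rw [vanish2_lword_append, ← mul_assoc, ← e1, S.vanish2_lword_cons x]
        simp only [vanish2_lword_cons, vanish2_lword_nil, mul_one, star_mul, map_star, mul_assoc]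
      · rw [List.append_assoc]
        exact e3 _ hws.2.2.1.star_mem (hx' ws'' hz' h)

/-- Two words glued by an element of `Mo`: the adjoint of an admissible word followed by `z` and
another admissible word is `m` times an admissible word (induction on `ws`). -/
theorem vanish_pair (hL : 0 < L) {z : H →L[ℂ] H} (hz : S.Mo z)
    {ws ws' : List (((X → Fin L) → C(X, ℂ)) × (H →L[ℂ] H))} (hws : S.AdmW ws) (hws' : S.AdmW ws') :
    Tendsto (fun Q : DiscreteQuotient X =>
      (∑ lb : Q → Fin L, S.φ (star (S.lword ws (lb ∘ Q.proj)) * z * S.lword ws' (lb ∘ Q.proj))) /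
        (Fintype.card (Q → Fin L) : ℂ)) atBot (𝓝 0) := by
  obtain ⟨m, hm, ws₁, h1, -, h2⟩ := S.star_lword_append hws hz.1
  refine (S.vanish_list hL hm (h2 ws' hz hws')).congr fun Q => ?_
  simp only [h1, vanish2_lword_append, mul_assoc]

/-- the vectors `lword ξ` are uniformly bounded and uniformly absolutely continuous -/
theorem uac_lword {ws : List (((X → Fin L) → C(X, ℂ)) × (H →L[ℂ] H))} (hws : S.AdmW ws) :
    S.UAC {η | ∃ lam, IsLocallyConstant lam ∧ η = S.lword ws lam S.ξ} ∧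
      ∃ C : ℝ, ∀ lam, IsLocallyConstant lam → ‖S.lword ws lam‖ ≤ C := by
  have hmem := S.vanish2_admW_mem hws
  clear hws
  induction ws with
  | nil =>
    refine ⟨(UAC.single S.ξ).mono ?_, 1, fun lam _ => ?_⟩
    · rintro η ⟨lam, -, rfl⟩
      rfl
    · exact ContinuousLinearMap.norm_id_le
  | cons x ws ih =>
    obtain ⟨h1, C, h2⟩ := ih fun z hz => hmem z (List.mem_cons_of_mem _ hz)
    obtain ⟨h3, -, h4⟩ := hmem x List.mem_cons_self
    obtain ⟨D, hD0, hD⟩ := h3.bdd
    have h0 : 0 < D + 1 := by linarith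
    have h0' : ((D + 1 : ℝ) : ℂ) ≠ 0 := by exact_mod_cast h0.ne'
    refine ⟨(h1.step (vn_smul_mem ((D + 1 : ℝ) : ℂ) h4)).mono ?_, D * ‖x.2‖ * C, fun lam hlam => ?_⟩
    · rintro η ⟨lam, hlam, rfl⟩
      refine ⟨((D + 1 : ℝ) : ℂ)⁻¹ • x.1 lam, _, ?_, ⟨lam, hlam, rfl⟩, ?_⟩
      · rw [norm_smul, norm_inv, Complex.norm_real, Real.norm_of_nonneg h0.le, inv_mul_le_iff₀ h0]
        linarith [hD lam hlam]
      · rw [vanish2_lword_cons, map_smul]
        simp only [mul_apply_eq_comp, smul_apply, map_smul,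
          smul_inv_smul₀ h0']
    · rw [vanish2_lword_cons]
      refine (norm_mul_le _ _).trans (mul_le_mul ((norm_mul_le _ _).trans ?_) (h2 lam hlam)
        (norm_nonneg _) (by positivity))
      rw [S.norm_ρ]
      exact mul_le_mul_of_nonneg_right (hD lam hlam) (norm_nonneg _)

end Std

end

end Crest.Agent.R109
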